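import Crest.Agent.R78.Basic

/-!
# Row 78: existence of invariant means
-/

open scoped InnerProductSpace Topology ComplexConjugate
open Filter MeasureTheory

set_option linter.unusedSectionVars false

namespace Crest.Agent.R78

open Crest.Agent.R121 (Alg)

noncomputable section

universe u

variable {H : Type*} [NormedAddCommGroup H] [InnerProductSpace ℂ H] [CompleteSpace H]

/-- Bounded real functions converge along ultrafilters. -/
theorem amen_lim {X : Type*} (U : Ultrafilter X) {φ : X → ℝ} {C : ℝ} (h : ∀ p, |φ p| ≤ C) :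
    Tendsto φ U (𝓝 (limUnder U φ)) := by
  obtain ⟨x, -, hx⟩ := (isCompact_Icc (a := -C) (b := C)).ultrafilter_le_nhds (U.map φ)
    (le_principal_iff.2 (mem_map.2 (univ_mem' fun p => abs_le.1 (h p))))
  exact tendsto_nhds_limUnder ⟨x, hx⟩

/-- Means from asymptotically invariant finite averages: if for every finite `F ⊆ G` and `ε > 0`
there is a finite nonempty index type `ι` and `a : ι → G` such that
`|avg f (g * a i) - avg f (a i)| ≤ ε sup|f|` for `g ∈ F` and all bounded `f`, then `G` has a mean
(take an ultrafilter limit over pairs `(F, n)`, ultrafilter `≤ atTop`). -/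
theorem exists_mean_of_approx {G : Type*} [Group G]
    (h : ∀ (F : Finset G) (ε : ℝ), 0 < ε → ∃ (ι : Type) (_ : Fintype ι) (_ : Nonempty ι)
      (a : ι → G), ∀ g ∈ F, ∀ (f : G → ℝ) (C : ℝ), (∀ x, |f x| ≤ C) →
        |∑ i, f (g * a i) - ∑ i, f (a i)| ≤ ε * C * Fintype.card ι) : Nonempty (Mean G) := by
  classical
  have h1 : ∀ p : Finset G × ℕ, ∃ A : (G → ℝ) → ℝ,
      (∀ f g, A (fun x => f x + g x) = A f + A g) ∧ (∀ c f, A (fun x => c * f x) = c * A f) ∧
      (∀ f C, (∀ x, f x ≤ C) → A f ≤ C) ∧ ∀ g ∈ p.1, ∀ f C, (∀ x, |f x| ≤ C) →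
        |A (fun x => f (g * x)) - A f| ≤ 1 / ((p.2 : ℝ) + 1) * C := by
    intro p
    obtain ⟨ι, _, _, a, ha⟩ := h p.1 (1 / ((p.2 : ℝ) + 1)) (by positivity)
    have hc : (0 : ℝ) < Fintype.card ι := Nat.cast_pos.2 Fintype.card_pos
    refine ⟨fun f => (∑ i, f (a i)) / Fintype.card ι, fun f g => ?_, fun c f => ?_,
      fun f C hf => ?_, fun g hg f C hf => ?_⟩
    · simp only [Finset.sum_add_distrib, add_div]
    · simp only [← Finset.mul_sum, mul_div_assoc]
    · rw [div_le_iff₀ hc]
      refine (Finset.sum_le_sum fun i _ => hf (a i)).trans_eq ?_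
      simp [mul_comm]
    · rw [← sub_div, abs_div, abs_of_pos hc, div_le_iff₀ hc]
      exact ha g hg f C hf
  choose A hadd hsmul hle hinv using h1
  have hb : ∀ {f : G → ℝ} {C : ℝ}, (∀ x, |f x| ≤ C) → ∀ p, |A p f| ≤ C := by
    intro f C hf p
    refine abs_le.2 ⟨?_, hle p f C fun x => (abs_le.1 (hf x)).2⟩
    have h2 := hle p (fun x => -1 * f x) C fun x => by linarith [(abs_le.1 (hf x)).1]
    rw [hsmul] at h2
    linarith
  let U : Ultrafilter (Finset G × ℕ) := Ultrafilter.of atTop
  have hU : (U : Filter (Finset G × ℕ)) ≤ atTop := Ultrafilter.of_le _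
  have ht : ∀ {f : G → ℝ}, Bdd f → Tendsto (fun p => A p f) U (𝓝 (limUnder U fun p => A p f)) :=
    fun ⟨_, hC⟩ => amen_lim U (hb hC)
  refine ⟨⟨fun f => limUnder U fun p => A p f, fun {f g} hf hg => ?_, fun c {f} hf => ?_,
    fun {f C} hf hC => ?_, fun g {f} hf => ?_⟩⟩
  · simp only [hadd]
    exact ((ht hf).add (ht hg)).limUnder_eq
  · simp only [hsmul]
    exact ((ht hf).const_mul c).limUnder_eq
  · exact le_of_tendsto' (ht hf) fun p => hle p f C hC
  · obtain ⟨C, hC⟩ := id hf
    have h2 : Tendsto (fun p : Finset G × ℕ => 1 / ((p.2 : ℝ) + 1) * C) atTop (𝓝 0) := by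
      have h3 := (tendsto_one_div_add_atTop_nhds_zero_nat (𝕜 := ℝ)).mul_const C
      rw [zero_mul] at h3
      refine h3.comp ?_
      rw [← prod_atTop_atTop_eq]
      exact tendsto_snd
    have h3 : Tendsto (fun p => A p (fun x => f (g * x)) - A p f) atTop (𝓝 0) := by
      refine squeeze_zero_norm' ?_ h2
      filter_upwards [eventually_ge_atTop (({g}, 0) : Finset G × ℕ)] with p hp
      exact hinv p g (hp.1 (Finset.mem_singleton_self g)) f C hC
    have h4 := (h3.mono_left hU).add (ht hf)
    simp only [sub_add_cancel, zero_add] at h4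
    exact h4.limUnder_eq

/-- Commutative groups are amenable: for `F = {g₁, …, g_k}` average over
`g₁^{i₁} ⋯ g_k^{i_k}`, `0 ≤ i_l < n` (index type `F → Fin n`; telescoping in one coordinate
gives the error `2 C n^{k-1}`). -/
theorem mean_comm (G : Type*) [CommGroup G] : Nonempty (Mean G) := by
  classical
  refine exists_mean_of_approx fun F ε hε => ?_
  obtain ⟨n, hn⟩ := exists_nat_ge (2 / ε)
  rw [div_le_iff₀ hε] at hn
  induction F using Finset.induction_on with
  | empty => exact ⟨Unit, inferInstance, inferInstance, fun _ => 1, by simp⟩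
  | insert g₀ F _ ih =>
    obtain ⟨ι, _, _, a, ha⟩ := ih
    refine ⟨Fin (n + 1) × ι, inferInstance, inferInstance, fun p => g₀ ^ (p.1 : ℕ) * a p.2,
      fun g hg f C hf => ?_⟩
    have hC : 0 ≤ C := (abs_nonneg _).trans (hf 1)
    rw [Fintype.card_prod, Fintype.card_fin, Nat.cast_mul]
    rcases Finset.mem_insert.1 hg with rfl | hg
    · rw [Fintype.sum_prod_type_right, Fintype.sum_prod_type_right, ← Finset.sum_sub_distrib]
      refine (Finset.abs_sum_le_sum_abs _ _).trans ((Finset.sum_le_sum
        (g := fun _ => ε * C * ((n + 1 : ℕ) : ℝ)) fun i _ => ?_).trans_eq ?_)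
      · rw [← Finset.sum_sub_distrib, Fin.sum_univ_eq_sum_range
          (fun t => f (g * (g ^ t * a i)) - f (g ^ t * a i))]
        simp only [← mul_assoc, ← pow_succ']
        rw [Finset.sum_range_sub (fun t => f (g ^ t * a i))]
        have h1 := abs_le.1 (hf (g ^ (n + 1) * a i))
        have h2 := abs_le.1 (hf (g ^ 0 * a i))
        have h3 := mul_le_mul_of_nonneg_left hn hC
        have h4 := mul_nonneg hε.le hC
        push_cast
        exact abs_le.2 ⟨by linarith, by linarith⟩
      · simp only [Finset.sum_const, Finset.card_univ, nsmul_eq_mul]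
        ring
    · rw [Fintype.sum_prod_type, Fintype.sum_prod_type, ← Finset.sum_sub_distrib]
      refine (Finset.abs_sum_le_sum_abs _ _).trans ((Finset.sum_le_sum
        (g := fun _ => ε * C * (Fintype.card ι : ℝ)) fun t _ => ?_).trans_eq ?_)
      · simpa only [mul_left_comm g] using
          ha g hg (fun x => f (g₀ ^ (t : ℕ) * x)) C fun x => hf _
      · simp only [Finset.sum_const, Finset.card_univ, Fintype.card_fin, nsmul_eq_mul]
        ring

/-- Locally finite groups are amenable (average over a finite subgroup containing `F`). -/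
theorem mean_locFin {G : Type*} [Group G]
    (h : ∀ F : Finset G, ∃ K : Subgroup G, Finite K ∧ ∀ g ∈ F, g ∈ K) : Nonempty (Mean G) := by
  refine exists_mean_of_approx fun F ε hε => ?_
  obtain ⟨K, hK, hF⟩ := h F
  have := Fintype.ofFinite K
  let e := (Fintype.equivFin K).symm
  refine ⟨Fin (Fintype.card K), inferInstance, ⟨e.symm 1⟩, fun i => e i, fun g hg f C hf => ?_⟩
  rw [e.sum_comp fun k => f (g * k), e.sum_comp fun k => f k,
    ← Equiv.sum_comp (Equiv.mulLeft (⟨g, hF g hg⟩ : K)) fun k => f k]
  have hC : 0 ≤ C := (abs_nonneg _).trans (hf 1)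
  simp only [Equiv.coe_mulLeft, Subgroup.coe_mul, sub_self, abs_zero]
  positivity

/-- Adjoining an involution that normalises a finite subgroup. -/
theorem amen_step {Γ : Type*} [Group Γ] {K : Subgroup Γ} (hK : (K : Set Γ).Finite) {a : Γ}
    (ha : a * a = 1) (hn : ∀ k ∈ K, a * k * a ∈ K) {T : Set Γ} (hT : ∀ b ∈ T, b = a ∨ b ∈ K) :
    (Subgroup.closure T : Set Γ).Finite := by
  have ha' : ∀ x, a * (a * x) = x := fun x => by rw [← mul_assoc, ha, one_mul]
  refine (hK.union (hK.preimage (mul_right_injective a).injOn)).subset fun x hx => ?_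
  change x ∈ K ∨ a * x ∈ K
  induction hx using Subgroup.closure_induction with
  | mem b hb => exact (hT b hb).symm.imp_right fun e => by rw [e, ha]; exact K.one_mem
  | one => exact Or.inl K.one_mem
  | mul x y _ _ hx hy =>
    rcases hx with hx | hx <;> rcases hy with hy | hy
    · exact Or.inl (K.mul_mem hx hy)
    · exact Or.inr (by simpa only [mul_assoc, ha'] using K.mul_mem (hn x hx) hy)
    · exact Or.inr (by simpa only [mul_assoc] using K.mul_mem hx hy)
    · exact Or.inl (by simpa only [mul_assoc, ha'] using K.mul_mem (hn _ hx) hy)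
  | inv x _ hx =>
    refine hx.imp K.inv_mem fun hx => ?_
    simpa only [mul_inv_rev, inv_eq_of_mul_eq_one_right ha, mul_assoc, ha, mul_one] using
      hn _ (K.inv_mem hx)

/-- Finitely many involutions commuting up to a central involution generate a finite group. -/
theorem amen_fin {Γ : Type*} [Group Γ] {z : Γ} (hz : z * z = 1) (hzc : ∀ x, x * z = z * x)
    {T : Set Γ} (hT : T.Finite) (h₁ : ∀ a ∈ T, a * a = 1)
    (h₂ : ∀ a ∈ T, ∀ b ∈ T, a * b = b * a ∨ a * b = z * (b * a)) :
    (Subgroup.closure (insert z T) : Set Γ).Finite := by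
  induction T, hT using Set.Finite.induction_on with
  | empty =>
    exact amen_step (K := ⊥) (by simp) hz (by simpa using hz) (by simp)
  | @insert a T _ _ ih =>
    have ha := h₁ a (Set.mem_insert _ _)
    have ha' : ∀ x, a * (a * x) = x := fun x => by rw [← mul_assoc, ha, one_mul]
    have hzK : z ∈ Subgroup.closure (insert z T) := Subgroup.subset_closure (Set.mem_insert _ _)
    refine amen_step (ih (fun b hb => h₁ b (Set.mem_insert_of_mem _ hb)) fun b hb c hc =>
      h₂ b (Set.mem_insert_of_mem _ hb) c (Set.mem_insert_of_mem _ hc)) ha (fun k hk => ?_) ?_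
    · induction hk using Subgroup.closure_induction with
      | mem b hb =>
        have hbK : b ∈ Subgroup.closure (insert z T) := Subgroup.subset_closure hb
        rcases hb with rfl | hb
        · rwa [hzc, mul_assoc, ha, mul_one]
        · rcases h₂ a (Set.mem_insert _ _) b (Set.mem_insert_of_mem _ hb) with e | e
          · rwa [e, mul_assoc, ha, mul_one]
          · rw [e, mul_assoc, mul_assoc, ha, mul_one]
            exact Subgroup.mul_mem _ hzK hbK
      | one =>
        rw [mul_one, ha]
        exact Subgroup.one_mem _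
      | mul x y _ _ hx hy => simpa only [mul_assoc, ha'] using Subgroup.mul_mem _ hx hy
      | inv x _ hx =>
        simpa only [mul_inv_rev, inv_eq_of_mul_eq_one_right ha, mul_assoc] using
          Subgroup.inv_mem _ hx
    · rintro b (rfl | rfl | hb)
      · exact Or.inr hzK
      · exact Or.inl rfl
      · exact Or.inr (Subgroup.subset_closure (Set.mem_insert_of_mem _ hb))

/-- Every element of a closure involves finitely many generators. -/
theorem amen_gen {Γ : Type*} [Group Γ] {S : Set Γ} {x : Γ} (hx : x ∈ Subgroup.closure S) :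
    ∃ T ⊆ S, T.Finite ∧ x ∈ Subgroup.closure T := by
  induction hx using Subgroup.closure_induction with
  | mem b hb => exact ⟨{b}, by simpa, Set.finite_singleton _, Subgroup.subset_closure rfl⟩
  | one => exact ⟨∅, by simp, Set.finite_empty, Subgroup.one_mem _⟩
  | mul x y _ _ hx hy =>
    obtain ⟨T, h1, h2, h3⟩ := hx
    obtain ⟨T', h4, h5, h6⟩ := hy
    exact ⟨T ∪ T', Set.union_subset h1 h4, h2.union h5, Subgroup.mul_mem _
      (Subgroup.closure_mono Set.subset_union_left h3)
      (Subgroup.closure_mono Set.subset_union_right h6)⟩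
  | inv x _ hx =>
    obtain ⟨T, h1, h2, h3⟩ := hx
    exact ⟨T, h1, h2, Subgroup.inv_mem _ h3⟩

/-- Groups generated by pairwise commuting or anticommuting involutions are amenable. Recipe: a
finite subset of `closure S` lies in `closure T` for a finite `T ⊆ S`; `closure T` is contained in
the finite set of all `± ∏ (sublist of a list enumerating T)` (this set contains `1` and is stable
under left multiplication by elements of `T`; induction on the list), or: the quotient of
`closure (T ∪ {-1})` by `{±1}` is a finitely generated commutative torsion group. -/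
theorem mean_pauli (S : Set (unitary (Op H))) (h₁ : ∀ a ∈ S, a * a = 1)
    (h₂ : ∀ a ∈ S, ∀ b ∈ S, (a : Op H) * b = (b : Op H) * a ∨ (a : Op H) * b = -((b : Op H) * a)) :
    Nonempty (Mean (Subgroup.closure S)) := by
  refine mean_locFin fun F => ?_
  choose T hTS hTf hT using fun g : Subgroup.closure S => amen_gen g.2
  have hsub : (⋃ g ∈ F, T g) ⊆ S := Set.iUnion₂_subset fun g _ => hTS g
  have hfin := amen_fin (z := (-1 : unitary (Op H)))
    (Subtype.ext (show (-1 : Op H) * -1 = 1 by simp))
    (fun x => Subtype.ext (show (x : Op H) * -1 = -1 * x by simp))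
    (F.finite_toSet.biUnion fun g _ => hTf g) (fun a ha => h₁ a (hsub ha)) fun a ha b hb =>
      (h₂ a (hsub ha) b (hsub hb)).imp (fun e => Subtype.ext e) fun e =>
        Subtype.ext (e.trans (neg_one_mul _).symm)
  refine ⟨(Subgroup.closure (insert (-1) (⋃ g ∈ F, T g))).subgroupOf _,
    (hfin.preimage Subtype.val_injective.injOn).to_subtype, fun g hg => ?_⟩
  exact Subgroup.closure_mono ((Set.subset_biUnion_of_mem (u := T) hg).trans
    (Set.subset_insert _ _)) (hT g)

end

end Crest.Agent.R78
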