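import Crest.Agent.R78.Defs
import Crest.Agent.R124.Ultra

/-!
# Row 78: basic API (`cm`, `conjVN`, `Near`, weak limits, `jc`, columns)
-/

open scoped InnerProductSpace Topology ComplexConjugate
open Filter

set_option linter.unusedSectionVars false

namespace Crest.Agent.R78

open Crest.Agent.R121 (Alg)

noncomputable section

variable {H : Type*} [NormedAddCommGroup H] [InnerProductSpace ℂ H] [CompleteSpace H]

/-! ### von Neumann algebras -/

theorem mem_comm {P : VN H} {y : Op H} : y ∈ P.commutant ↔ ∀ x ∈ P, Commute x y := by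
  exact VonNeumannAlgebra.mem_commutant_iff

theorem smul_mem' {P : VN H} (c : ℂ) {x : Op H} (hx : x ∈ P) : c • x ∈ P := by
  exact P.toStarSubalgebra.smul_mem hx c

theorem rsmul_mem {P : VN H} (c : ℝ) {x : Op H} (hx : x ∈ P) : c • x ∈ P := by
  rw [← Complex.coe_smul]
  exact smul_mem' _ hx

theorem bas_mem {P : VN H} {x : Op H} (h : ∀ y ∈ P.commutant, Commute y x) : x ∈ P := by
  rw [← P.commutant_commutant]
  exact mem_comm.2 h

theorem bas_comm_le (d y : Op H) : ‖d * y - y * d‖ ≤ 2 * ‖d‖ * ‖y‖ := by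
  have h1 := norm_sub_le (d * y) (y * d)
  have h2 := norm_mul_le d y
  have h3 := norm_mul_le y d
  linarith

theorem bas_us (u : unitary (Op H)) : (u : Op H) * star (u : Op H) = 1 :=
  Unitary.coe_mul_star_self u

theorem bas_su (u : unitary (Op H)) : star (u : Op H) * (u : Op H) = 1 :=
  Unitary.coe_star_mul_self u

theorem bas_us' (u : unitary (Op H)) (x : Op H) : (u : Op H) * (star (u : Op H) * x) = x := by
  rw [← mul_assoc, bas_us, one_mul]

theorem bas_su' (u : unitary (Op H)) (x : Op H) : star (u : Op H) * ((u : Op H) * x) = x := by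
  rw [← mul_assoc, bas_su, one_mul]

theorem bas_norm_conj (u : unitary (Op H)) (x : Op H) :
    ‖(u : Op H) * x * star (u : Op H)‖ = ‖x‖ := by
  rw [← Unitary.coe_star, CStarRing.norm_mul_coe_unitary, CStarRing.norm_coe_unitary_mul]

theorem bas_norm_conj' (u : unitary (Op H)) (x : Op H) :
    ‖star (u : Op H) * x * (u : Op H)‖ = ‖x‖ := by
  rw [← Unitary.coe_star, CStarRing.norm_mul_coe_unitary, CStarRing.norm_coe_unitary_mul]

theorem bas_inv (u : unitary (Op H)) : ((u⁻¹ : unitary (Op H)) : Op H) = star (u : Op H) := rfl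

theorem bas_inner_star (a : Op H) (v w : H) : ⟪v, star a w⟫_ℂ = ⟪a v, w⟫_ℂ :=
  ContinuousLinearMap.adjoint_inner_right a v w

theorem bas_star_inner (a : Op H) (v w : H) : ⟪star a v, w⟫_ℂ = ⟪v, a w⟫_ℂ :=
  ContinuousLinearMap.adjoint_inner_left a w v

theorem bas_sum_sq {ι : Type*} [Fintype ι] (a : ι → Op H) (v : H) :
    ∑ j, ‖a j v‖ ^ 2 = (⟪v, (∑ j, star (a j) * a j) v⟫_ℂ).re := by
  rw [sum_apply, inner_sum, Complex.re_sum]
  refine Finset.sum_congr rfl fun j _ => ?_
  rw [mul_apply_eq_comp, bas_inner_star, inner_self_eq_norm_sq_to_K]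
  norm_cast

/-- Norm limits. -/
theorem mem_of_forall_near {P : VN H} {x : Op H} (h : ∀ ε > 0, ∃ y ∈ P, ‖x - y‖ ≤ ε) : x ∈ P := by
  refine bas_mem fun y hy => ?_
  have h1 : ∀ ε > 0, ‖x * y - y * x‖ ≤ 0 + ε := fun ε hε => by
    obtain ⟨z, hz, h2⟩ := h (ε / (2 * (‖y‖ + 1))) (by positivity)
    have h3 : x * y - y * x = (x - z) * y - y * (x - z) := by
      rw [sub_mul, mul_sub, (mem_comm.1 hy z hz).eq]
      abel
    rw [h3, zero_add]
    refine (bas_comm_le _ _).trans ?_
    rw [le_div_iff₀ (by positivity)] at h2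
    nlinarith [norm_nonneg (x - z)]
  exact (sub_eq_zero.1 (norm_le_zero_iff.1 (le_of_forall_pos_le_add h1))).symm

theorem cm_commutant (P : VN H) : cm (P.commutant : Set (Op H)) = P := by
  ext y
  rw [mem_cm]
  exact ⟨fun h => bas_mem fun s hs => (h s hs).1,
    fun h s hs => ⟨(mem_comm.1 hs y h).symm, (mem_comm.1 (star_mem hs) y h).symm⟩⟩

/-- Anything commuting with everything that commutes with `x` and `x⋆` lies in every von Neumann
algebra containing `x`. -/
theorem mem_of_bicomm {P : VN H} {x u : Op H} (hx : x ∈ P)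
    (h : ∀ y, Commute y x → Commute y (star x) → Commute y u) : u ∈ P := by
  exact bas_mem fun y hy => h y (mem_comm.1 hy x hx).symm (mem_comm.1 hy _ (star_mem hx)).symm

theorem bas_commute_conj (u : unitary (Op H)) (s y : Op H) :
    Commute ((u : Op H) * s * star (u : Op H)) y ↔ Commute s (star (u : Op H) * y * (u : Op H)) := by
  constructor
  · intro h
    have := congrArg (fun T => star (u : Op H) * T * (u : Op H)) h.eq
    simpa only [mul_assoc, bas_su', bas_su, mul_one, Commute, SemiconjBy] using this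
  · intro h
    have := congrArg (fun T => (u : Op H) * T * star (u : Op H)) h.eq
    simpa only [mul_assoc, bas_us', bas_us, mul_one, Commute, SemiconjBy] using this

theorem mem_conjVN {u : unitary (Op H)} {N : VN H} {y : Op H} :
    y ∈ conjVN u N ↔ star (u : Op H) * y * (u : Op H) ∈ N := by
  rw [conjVN, mem_cm]
  constructor
  · exact fun h => bas_mem fun s hs => (bas_commute_conj u s y).1 (h _ ⟨s, hs, rfl⟩).1
  · rintro h _ ⟨s, hs, rfl⟩
    refine ⟨(bas_commute_conj u s y).2 (mem_comm.1 hs _ h).symm, ?_⟩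
    have := (bas_commute_conj u (star s) y).2 (mem_comm.1 (star_mem hs) _ h).symm
    simpa only [star_mul, star_star, mul_assoc] using this

theorem conj_mem_conjVN (u : unitary (Op H)) {N : VN H} {y : Op H} (hy : y ∈ N) :
    (u : Op H) * y * star (u : Op H) ∈ conjVN u N := by
  rw [mem_conjVN]
  simpa only [mul_assoc, bas_su', bas_su, mul_one] using hy

theorem conjVN_commutant (u : unitary (Op H)) (N : VN H) :
    (conjVN u N).commutant = conjVN u N.commutant := by
  ext y
  rw [mem_conjVN, mem_comm, mem_comm]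
  refine ⟨fun h x hx => (bas_commute_conj u x y).1 (h _ (conj_mem_conjVN u hx)), fun h x hx => ?_⟩
  have := (bas_commute_conj u _ y).2 (h _ (mem_conjVN.1 hx))
  simpa only [mul_assoc, bas_us', bas_us, mul_one] using this

theorem conjVN_mul (u v : unitary (Op H)) (N : VN H) :
    conjVN (u * v) N = conjVN u (conjVN v N) := by
  ext y
  simp only [mem_conjVN, Submonoid.coe_mul, star_mul, mul_assoc]

theorem conjVN_one (N : VN H) : conjVN 1 N = N := by
  ext y
  simp [mem_conjVN]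

theorem Nrm.conjVN_eq {N : VN H} {u : unitary (Op H)} (h : Nrm N u) : conjVN u N = N := by
  ext y
  rw [mem_conjVN]
  refine ⟨fun hy => ?_, fun hy => (h y hy).2⟩
  simpa only [mul_assoc, bas_us', bas_us, mul_one] using (h _ hy).1

theorem Nrm.commutant {N : VN H} {u : unitary (Op H)} (h : Nrm N u) : Nrm N.commutant u := by
  intro y hy
  refine ⟨mem_comm.2 fun x hx => ?_, mem_comm.2 fun x hx => ?_⟩
  · exact ((bas_commute_conj u y x).2 (mem_comm.1 hy _ (h x hx).2).symm).symm
  · exact (bas_commute_conj u x y).1 (mem_comm.1 hy _ (h x hx).1)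

theorem Nrm.mul {N : VN H} {u v : unitary (Op H)} (hu : Nrm N u) (hv : Nrm N v) :
    Nrm N (u * v) := by
  intro y hy
  constructor
  · simpa only [Submonoid.coe_mul, star_mul, mul_assoc] using (hu _ (hv y hy).1).1
  · simpa only [Submonoid.coe_mul, star_mul, mul_assoc] using (hv _ (hu y hy).2).2

theorem Nrm.inv {N : VN H} {u : unitary (Op H)} (hu : Nrm N u) : Nrm N u⁻¹ := by
  intro y hy
  rw [bas_inv, star_star]
  exact (hu y hy).symm

theorem nrm_of_mem {N : VN H} {u : unitary (Op H)} (hu : (u : Op H) ∈ N) : Nrm N u := by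
  exact fun y hy => ⟨mul_mem (mul_mem hu hy) (star_mem hu), mul_mem (mul_mem (star_mem hu) hy) hu⟩

theorem nrm_of_mem_commutant {N : VN H} {u : unitary (Op H)} (hu : (u : Op H) ∈ N.commutant) :
    Nrm N u := by
  have := (nrm_of_mem hu).commutant
  rwa [N.commutant_commutant] at this

theorem Nrm.conj {N : VN H} {u : unitary (Op H)} (hu : Nrm N u) (w : unitary (Op H)) :
    Nrm (conjVN w N) (w * u * w⁻¹) := by
  intro y hy
  have h1 := hu _ (mem_conjVN.1 hy)
  rw [mem_conjVN, mem_conjVN]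
  simpa only [Submonoid.coe_mul, bas_inv, star_mul, star_star, mul_assoc, bas_su', bas_su,
    mul_one] using h1

theorem Cen.commutant {A : VN H} {z : Op H} (h : Cen A z) : Cen A.commutant z := by
  exact ⟨h.2, by rw [A.commutant_commutant]; exact h.1⟩

theorem CP.commutant {A : VN H} {z : Op H} (h : CP A z) : CP A.commutant z := by
  exact ⟨h.1, h.2.2, by rw [A.commutant_commutant]; exact h.2.1⟩

theorem CP.cen {A : VN H} {z : Op H} (h : CP A z) : Cen A z := h.2

theorem CP.one_sub {A : VN H} {z : Op H} (h : CP A z) : CP A (1 - z) := by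
  exact ⟨h.1.one_sub, sub_mem (one_mem _) h.2.1, sub_mem (one_mem _) h.2.2⟩

theorem CP.mul {A : VN H} {z w : Op H} (hz : CP A z) (hw : CP A w) : CP A (z * w) := by
  exact ⟨hz.1.mul hw.1 (mem_comm.1 hw.2.2 z hz.2.1), mul_mem hz.2.1 hw.2.1, mul_mem hz.2.2 hw.2.2⟩

theorem bas_ext {A : VN H} {ξ : H} (h : Cyc A ξ) {K : Type*} [NormedAddCommGroup K]
    [NormedSpace ℂ K] {S T : H →L[ℂ] K} (he : ∀ x ∈ A, S (x ξ) = T (x ξ)) : S = T :=
  DFunLike.coe_injective (Continuous.ext_on h S.continuous T.continuous (by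
    rintro _ ⟨x, hx, rfl⟩
    exact he x hx))

/-- A cyclic vector for `A'` is separating for `A`. -/
theorem Cyc.sep {A : VN H} {ξ : H} (h : Cyc A.commutant ξ) {x : Op H} (hx : x ∈ A)
    (h0 : x ξ = 0) : x = 0 := by
  refine bas_ext h fun y hy => ?_
  rw [← mul_apply_eq_comp, (mem_comm.1 hy x hx).eq, mul_apply_eq_comp, h0,
    map_zero, zero_apply]

/-- A separating vector for `A` is cyclic for `A'` (the projection onto `[A' ξ]` lies in `A`,
see `R124.starProjection_mem_vN` or `R121.cyc`). -/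
theorem cyc_of_sep {A : VN H} {ξ : H} (h : ∀ x ∈ A, x ξ = 0 → x = 0) : Cyc A.commutant ξ := by
  have h1 : (1 : Op H) - (R121.cyc A {ξ} : Op H) = 0 :=
    h _ (sub_mem (one_mem _) (R121.cyc A {ξ}).2) (by
      rw [sub_apply, R121.cyc_apply (Set.mem_singleton ξ)]
      exact sub_self ξ)
  let S : Submodule ℂ H :=
    { carrier := (fun a : Op H => a ξ) '' (A.commutant : Set (Op H))
      add_mem' := by
        rintro _ _ ⟨a, ha, rfl⟩ ⟨b, hb, rfl⟩
        exact ⟨a + b, add_mem ha hb, rfl⟩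
      zero_mem' := ⟨0, zero_mem A.commutant, rfl⟩
      smul_mem' := by
        rintro c _ ⟨a, ha, rfl⟩
        exact ⟨c • a, smul_mem' c ha, rfl⟩ }
  have h2 : R121.cycSp A {ξ} ≤ S.topologicalClosure :=
    Submodule.topologicalClosure_mono (Submodule.span_le.2 (by
      rintro _ ⟨y, hy, _, rfl, rfl⟩
      exact ⟨y, hy, rfl⟩))
  intro v
  refine h2 (Submodule.starProjection_eq_self_iff.1 ?_)
  exact (congrArg (fun T : Op H => T v) (sub_eq_zero.1 h1)).symm

/-- Operators agreeing on `A ξ` agree. -/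
theorem Cyc.ext {A : VN H} {ξ : H} (h : Cyc A ξ) {K : Type*} [NormedAddCommGroup K]
    [NormedSpace ℂ K] {S T : H →L[ℂ] K} (he : ∀ x ∈ A, S (x ξ) = T (x ξ)) : S = T := by
  exact bas_ext h he

theorem Cyc.ext_inner {A : VN H} {ξ : H} (h : Cyc A ξ) {v w : H}
    (he : ∀ x ∈ A, ⟪x ξ, v⟫_ℂ = ⟪x ξ, w⟫_ℂ) : v = w := by
  have h1 : innerSL ℂ v = innerSL ℂ w := bas_ext h fun x hx => by
    rw [innerSL_apply_apply, innerSL_apply_apply, ← inner_conj_symm, he x hx, inner_conj_symm]
  exact ext_inner_right ℂ fun u => congrArg (fun T : H →L[ℂ] ℂ => T u) h1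

/-- Bounded sequences converging on a cyclic vector of the commutant converge strongly. -/
theorem Cyc.strong {A : VN H} {ξ : H} (h : Cyc A.commutant ξ) {C : ℝ} (v : H) {ε : ℝ}
    (hε : 0 < ε) : ∃ δ > 0, ∀ x ∈ A, ‖x‖ ≤ C → ‖x ξ‖ ≤ δ → ‖x v‖ ≤ ε := by
  obtain ⟨_, ⟨y, hy, rfl⟩, h1⟩ := h.exists_dist_lt v (ε := ε / (2 * (|C| + 1))) (by positivity)
  refine ⟨ε / (2 * (‖y‖ + 1)), by positivity, fun x hx h2 h3 => ?_⟩
  have e : x v = x (v - y ξ) + y (x ξ) := by
    rw [map_sub, ← mul_apply_eq_comp y, ← (mem_comm.1 hy x hx).eq]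
    exact (sub_add_cancel _ _).symm
  rw [dist_eq_norm, lt_div_iff₀ (by positivity)] at h1
  rw [le_div_iff₀ (by positivity)] at h3
  have h4 := x.le_opNorm (v - y ξ)
  have h5 := y.le_opNorm (x ξ)
  have h6 := mul_le_mul_of_nonneg_right (h2.trans (le_abs_self C)) (norm_nonneg (v - y ξ))
  rw [e]
  refine (norm_add_le _ _).trans ?_
  nlinarith [norm_nonneg (v - y ξ), norm_nonneg (x ξ)]

theorem bas_commute_sa {A : VN H} {T : Op H} (h : ∀ z, CP A z → Commute z T) {c : Op H}
    (hc : Cen A c) (hs : IsSelfAdjoint c) : Commute c T := by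
  have h1 : ∀ ε > 0, ‖c * T - T * c‖ ≤ 0 + ε := fun ε hε => by
    obtain ⟨ι, _, r, p1, p2, p3, p4, p5⟩ := R121.exists_partition (M := A) {⟨c, hc.1⟩}
      (fun x hx => by
        rw [Finset.mem_singleton.1 hx]
        exact Subtype.ext hs.star_eq) (IsStarProjection.one _) (ε := ε / (2 * (‖T‖ + 1)))
      (by positivity)
    have q1 : ∀ i, CP A (r i : Op H) := fun i =>
      ⟨R121.Alg.isStarProjection_iff.1 (p1 i), (r i).2, mem_comm.2 fun y hy =>
        congrArg Subtype.val (p4 ⟨y, hy⟩ (Commute.one_right _) (Commute.one_right _) (fun x hx => by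
          rw [Finset.mem_singleton.1 hx]
          exact ⟨Subtype.ext (mem_comm.1 hc.2 y hy).eq,
            Subtype.ext (mem_comm.1 hc.2 _ (star_mem hy)).eq⟩) i).eq⟩
    have q2 : ∀ v : H, ∑ i, ‖(r i : Op H) v‖ ^ 2 = ‖v‖ ^ 2 := fun v => by
      have e : ∑ i, star (r i : Op H) * (r i : Op H) = 1 := by
        have e1 := congrArg Subtype.val p3
        rw [AddSubmonoidClass.coe_finsetSum] at e1
        refine Eq.trans (Finset.sum_congr rfl fun i _ => ?_) e1
        rw [(q1 i).1.isSelfAdjoint.star_eq, (q1 i).1.isIdempotentElem.eq]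
      rw [bas_sum_sq, e, one_apply_eq_self, inner_self_eq_norm_sq_to_K]
      norm_cast
    rw [zero_add]
    refine ContinuousLinearMap.opNorm_le_bound _ hε.le fun v => ?_
    refine (pow_le_pow_iff_left₀ (norm_nonneg _) (by positivity) two_ne_zero).1 ?_
    rw [← q2, mul_pow, ← q2 v, Finset.mul_sum]
    refine Finset.sum_le_sum fun i _ => ?_
    obtain ⟨l, hl⟩ := p5 i _ (Finset.mem_singleton_self _)
    have hl' : ‖(r i : Op H) * c * r i - (l : ℂ) • (r i : Op H)‖ ≤ ε / (2 * (‖T‖ + 1)) := hl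
    have a1 := (q1 i).1.isIdempotentElem.eq
    have a2 := (h _ (q1 i)).eq
    have a3 := (mem_comm.1 hc.2 _ (q1 i).2.1).eq
    generalize (r i : Op H) = e at *
    set d := e * c * e - (l : ℂ) • e with hd
    have a4 : e * (c * T - T * c) = (d * T - T * d) * e := by
      have b1 : e * c * e = e * c := by rw [mul_assoc, ← a3, ← mul_assoc, a1]
      have b2 : e * T * e = e * T := by rw [mul_assoc, ← a2, ← mul_assoc, a1]
      have b3 : e * c * T * e = e * (c * T) := by
        rw [mul_assoc, ← a2, ← mul_assoc, b1, mul_assoc]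
      rw [hd, b1]
      simp only [sub_mul, mul_sub, smul_mul_assoc, mul_smul_comm]
      rw [b3, b2, mul_assoc T, b1, mul_assoc T e e, a1, ← a2, ← mul_assoc T, ← a2, mul_assoc e T c]
      abel
    have a5 : ‖d * T - T * d‖ ≤ ε := by
      refine (bas_comm_le _ _).trans ?_
      rw [le_div_iff₀ (by positivity)] at hl'
      nlinarith [norm_nonneg d]
    rw [← mul_apply_eq_comp, a4, mul_apply_eq_comp, ← mul_pow]
    exact pow_le_pow_left₀ (norm_nonneg _) ((d * T - T * d).le_of_opNorm_le a5 _) 2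
  exact sub_eq_zero.1 (norm_le_zero_iff.1 (le_of_forall_pos_le_add h1))

/-- Every central element is a norm limit of combinations of central projections: an operator
commuting with all central projections commutes with the centre (use `R121.exists_partition` in
the algebra `A`, whose projections commute with everything commuting with a central element). -/
theorem commute_cen_of_cp {A : VN H} {T : Op H} (h : ∀ z, CP A z → Commute z T) {c : Op H}
    (hc : Cen A c) : Commute c T := by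
  have h1 := bas_commute_sa h (c := c + star c)
    ⟨add_mem hc.1 (star_mem hc.1), add_mem hc.2 (star_mem hc.2)⟩ (IsSelfAdjoint.add_star_self c)
  have h2 := bas_commute_sa h (c := Complex.I • (c - star c))
    ⟨smul_mem' _ (sub_mem hc.1 (star_mem hc.1)), smul_mem' _ (sub_mem hc.2 (star_mem hc.2))⟩ (by
      rw [IsSelfAdjoint, star_smul, star_sub, star_star, Complex.star_def, Complex.conj_I,
        neg_smul, ← smul_neg, neg_sub])
  have h3 := (h1.sub_left (h2.smul_left Complex.I)).smul_left (2 : ℂ)⁻¹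
  have e : (2 : ℂ)⁻¹ • (c + star c - Complex.I • Complex.I • (c - star c)) = c := by
    rw [smul_smul, Complex.I_mul_I]
    module
  rwa [e] at h3

/-- A norm closed subspace containing the central projections contains the centre. -/
theorem cen_mem_of_cp {A P : VN H} (h : ∀ z, CP A z → z ∈ P) {c : Op H} (hc : Cen A c) :
    c ∈ P := by
  exact bas_mem fun y hy => (commute_cen_of_cp (fun z hz => mem_comm.1 hy z (h z hz)) hc).symm

/-! ### Near inclusions -/

theorem Near.mono {M N : VN H} {γ γ' : ℝ} (h : Near M N γ) (hγ : γ ≤ γ') : Near M N γ' := by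
  intro x hx
  obtain ⟨y, hy, h1⟩ := h x hx
  exact ⟨y, hy, h1.trans (mul_le_mul_of_nonneg_right hγ (norm_nonneg _))⟩

theorem Close.mono {M N : VN H} {γ γ' : ℝ} (h : Close M N γ) (hγ : γ ≤ γ') : Close M N γ' :=
  ⟨h.1.mono hγ, h.2.mono hγ⟩

theorem Close.symm {M N : VN H} {γ : ℝ} (h : Close M N γ) : Close N M γ := ⟨h.2, h.1⟩

theorem Near.trans {M N P : VN H} {γ δ : ℝ} (h : Near M N γ) (h' : Near N P δ) (hγ : 0 ≤ γ)
    (hδ : 0 ≤ δ) : Near M P (γ + δ + γ * δ) := by
  intro x hx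
  obtain ⟨y, hy, h1⟩ := h x hx
  obtain ⟨z, hz, h2⟩ := h' y hy
  refine ⟨z, hz, ?_⟩
  have h3 := norm_sub_le_norm_sub_add_norm_sub x y z
  have h4 : ‖y‖ ≤ ‖x‖ + ‖x - y‖ := by linarith [norm_sub_norm_le y x, norm_sub_rev x y]
  have h5 := mul_le_mul_of_nonneg_left (h4.trans (add_le_add_right h1 _)) hδ
  linarith

/-- The commutator form of a near inclusion. -/
theorem Near.comm_le {M N : VN H} {γ : ℝ} (h : Near M N γ) {x y : Op H} (hx : x ∈ M)
    (hy : y ∈ N.commutant) : ‖x * y - y * x‖ ≤ 2 * γ * ‖x‖ * ‖y‖ := by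
  obtain ⟨z, hz, h1⟩ := h x hx
  have h3 : x * y - y * x = (x - z) * y - y * (x - z) := by
    rw [sub_mul, mul_sub, (mem_comm.1 hy z hz).eq]
    abel
  rw [h3]
  refine (bas_comm_le _ _).trans ?_
  nlinarith [norm_nonneg y]

/-- From commutators back to near inclusions: `R124.hyper` applied to `P = N'`. -/
theorem near_of_comm {M N : VN H} {g : ℝ} (hg : 0 ≤ g)
    (h : ∀ x ∈ M, ∀ y ∈ N.commutant, ‖x * y - y * x‖ ≤ g * ‖x‖ * ‖y‖) : Near M N (2100 * g) := by
  intro x hx
  obtain ⟨y, hy, h1⟩ := R124.hyper N.commutant x (mul_nonneg hg (norm_nonneg x)) (h x hx)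
  rw [N.commutant_commutant] at hy
  exact ⟨y, hy, by rwa [mul_assoc]⟩

/-- `R124.hyper` in the form used here. -/
theorem exists_near_of_comm (N : VN H) (Y : Op H) {g : ℝ} (hg : 0 ≤ g)
    (h : ∀ y ∈ N.commutant, ‖Y * y - y * Y‖ ≤ g * ‖y‖) : ∃ Y₀ ∈ N, ‖Y - Y₀‖ ≤ 2100 * g := by
  have := R124.hyper N.commutant Y hg h
  rwa [N.commutant_commutant] at this

theorem Near.commutant {M N : VN H} {γ : ℝ} (h : Near M N γ) (hγ : 0 ≤ γ) :
    Near N.commutant M.commutant (4200 * γ) := by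
  rw [show 4200 * γ = 2100 * (2 * γ) by ring]
  refine near_of_comm (by positivity) fun y hy x hx => ?_
  rw [M.commutant_commutant] at hx
  rw [norm_sub_rev, mul_right_comm]
  exact h.comm_le hx hy

theorem Close.commutant {M N : VN H} {γ : ℝ} (h : Close M N γ) (hγ : 0 ≤ γ) :
    Close M.commutant N.commutant (4200 * γ) := ⟨h.2.commutant hγ, h.1.commutant hγ⟩

theorem norm_conj_sub_le (u : unitary (Op H)) (x : Op H) :
    ‖(u : Op H) * x * star (u : Op H) - x‖ ≤ 2 * ‖(u : Op H) - 1‖ * ‖x‖ := by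
  have e : (u : Op H) * x * star (u : Op H) - x =
      (((u : Op H) - 1) * x - x * ((u : Op H) - 1)) * star (u : Op H) := by
    simp only [sub_mul, mul_sub, mul_assoc, bas_us, one_mul, mul_one]
    abel
  rw [e, ← Unitary.coe_star, CStarRing.norm_mul_coe_unitary]
  exact bas_comm_le _ _

theorem bas_conj_sub_le (u : unitary (Op H)) (x : Op H) :
    ‖star (u : Op H) * x * (u : Op H) - x‖ ≤ 2 * ‖(u : Op H) - 1‖ * ‖x‖ := by
  have := norm_conj_sub_le u⁻¹ x
  rwa [bas_inv, star_star, ← norm_star (star (u : Op H) - 1), star_sub, star_star, star_one] at this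

theorem close_conjVN (u : unitary (Op H)) (N : VN H) :
    Close N (conjVN u N) (2 * ‖(u : Op H) - 1‖) := by
  refine ⟨fun x hx => ⟨_, conj_mem_conjVN u hx, ?_⟩, fun x hx => ⟨_, mem_conjVN.1 hx, ?_⟩⟩
  · rw [norm_sub_rev]
    exact norm_conj_sub_le u x
  · rw [norm_sub_rev]
    exact bas_conj_sub_le u x

theorem Near.conj {M N : VN H} {γ : ℝ} (h : Near M N γ) (u : unitary (Op H)) :
    Near (conjVN u M) (conjVN u N) γ := by
  intro x hx
  obtain ⟨y, hy, h1⟩ := h _ (mem_conjVN.1 hx)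
  refine ⟨_, conj_mem_conjVN u hy, ?_⟩
  rw [bas_norm_conj', ← bas_norm_conj u] at h1
  simpa only [sub_mul, mul_sub, mul_assoc, bas_us', bas_us, mul_one] using h1

/-- Closeness survives a small conjugation of the second algebra. -/
theorem Close.conj_right {M N : VN H} {γ δ : ℝ} (h : Close M N γ) (hγ : 0 ≤ γ) (hγ1 : γ ≤ 1)
    {u : unitary (Op H)} (hu : ‖(u : Op H) - 1‖ ≤ δ) : Close M (conjVN u N) (γ + 4 * δ) := by
  have h0 := norm_nonneg ((u : Op H) - 1)
  have h1 := close_conjVN u N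
  exact ⟨(h.1.trans h1.1 hγ (by positivity)).mono (by nlinarith),
    (h1.2.trans h.2 (by positivity) hγ).mono (by nlinarith)⟩

theorem LinNear.mono {M N : VN H} {ε ε' : ℝ} (h : LinNear M N ε) (hε : ε ≤ ε') :
    LinNear M N ε' := by
  obtain ⟨θ, h1, h2⟩ := h
  exact ⟨θ, h1, fun x => (h2 x).trans (mul_le_mul_of_nonneg_right hε (norm_nonneg _))⟩

/-- Use `x ↦ u⋆ θ(x) u`. -/
theorem LinNear.of_conj {M N : VN H} {ε δ : ℝ} {u : unitary (Op H)}
    (h : LinNear M (conjVN u N) ε) (hu : ‖(u : Op H) - 1‖ ≤ δ) : LinNear M N (ε + 2 * δ) := by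
  obtain ⟨θ, h1, h2⟩ := h
  refine ⟨LinearMap.mulRight ℂ (u : Op H) ∘ₗ LinearMap.mulLeft ℂ (star (u : Op H)) ∘ₗ θ,
    fun x => mem_conjVN.1 (h1 x), fun x => ?_⟩
  change ‖star (u : Op H) * θ x * (u : Op H) - x‖ ≤ _
  have h3 := norm_sub_le_norm_sub_add_norm_sub (star (u : Op H) * θ x * (u : Op H))
    (star (u : Op H) * x * (u : Op H)) x
  rw [← sub_mul, ← mul_sub, bas_norm_conj'] at h3
  have h4 := bas_conj_sub_le u x
  have h5 := h2 x
  rw [R121.Alg.norm_coe] at h4
  nlinarith [norm_nonneg x]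

/-- If `Z ⊆ Y` are subspaces (given as predicates closed under subtraction), `Z` is norm closed and
every element of `Y` is within `κ ‖y‖` of `Z` with `κ < 1`, then `Y ⊆ Z`
(iterate: `y - z₁ ∈ Y` has norm `≤ κ ‖y‖`). -/
theorem mem_of_near_sub {Y Z : VN H} (hZY : ∀ z ∈ Z, z ∈ Y) {κ : ℝ} (hκ : κ < 1)
    (h : Near Y Z κ) {y : Op H} (hy : y ∈ Y) : y ∈ Z := by
  have h' := h.mono (le_max_left κ 0)
  have h0 := le_max_right κ 0
  have h1 : ∀ n : ℕ, ∃ z ∈ Z, ‖y - z‖ ≤ max κ 0 ^ n * ‖y‖ := fun n => by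
    induction n with
    | zero => exact ⟨0, zero_mem _, by simp⟩
    | succ n ih =>
      obtain ⟨z, hz, h2⟩ := ih
      obtain ⟨w, hw, h3⟩ := h' _ (sub_mem hy (hZY z hz))
      refine ⟨z + w, add_mem hz hw, ?_⟩
      rw [← sub_sub, pow_succ', mul_assoc]
      exact h3.trans (mul_le_mul_of_nonneg_left h2 h0)
  refine mem_of_forall_near fun ε hε => ?_
  obtain ⟨n, hn⟩ := exists_pow_lt_of_lt_one (x := ε / (‖y‖ + 1)) (by positivity)
    (max_lt hκ one_pos)
  obtain ⟨z, hz, h2⟩ := h1 n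
  refine ⟨z, hz, h2.trans ?_⟩
  rw [lt_div_iff₀ (by positivity)] at hn
  nlinarith [pow_nonneg h0 n]

/-! ### Weak limits -/

section WLim

variable {X : Type*} {l : Filter X} {T T' : X → Op H} {Q Q' : Op H} {f f' : X → H} {v v' : H}

/-- Use `R124.Ultra_exists_lim` after truncating `T` where the bound fails. -/
theorem exists_wlim (𝒰 : Ultrafilter X) {T : X → Op H} {C : ℝ} (h : ∀ᶠ i in 𝒰, ‖T i‖ ≤ C) :
    ∃ Q, WLim 𝒰 T Q := by
  classical
  obtain ⟨Q, hQ⟩ := R124.Ultra_exists_lim 𝒰 (fun i => if ‖T i‖ ≤ C then T i else 0) (M := |C|)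
    fun i => by
      split_ifs with h1
      · exact h1.trans (le_abs_self C)
      · simp
  refine ⟨Q, fun v w => ?_⟩
  have h1 := (Complex.continuous_conj.tendsto _).comp (hQ v w)
  rw [inner_conj_symm] at h1
  refine h1.congr' (h.mono fun i hi => ?_)
  simp only [Function.comp, if_pos hi, inner_conj_symm]

theorem exists_wlimV (𝒰 : Ultrafilter X) {f : X → H} {C : ℝ} (h : ∀ᶠ i in 𝒰, ‖f i‖ ≤ C) :
    ∃ v, WLimV 𝒰 f v := by
  rcases subsingleton_or_nontrivial H with hH | hH
  · exact ⟨0, fun w => by simp [Subsingleton.elim w 0]⟩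
  · obtain ⟨e, he⟩ := exists_norm_eq H zero_le_one
    obtain ⟨Q, hQ⟩ := exists_wlim 𝒰 (T := fun i => (innerSL ℂ e).smulRight (f i)) (C := C)
      (h.mono fun i hi => by
        rwa [ContinuousLinearMap.norm_smulRight_apply, innerSL_apply_norm, he, one_mul])
    refine ⟨Q e, fun w => ?_⟩
    simpa [he] using hQ e w

theorem WLim.apply (h : WLim l T Q) (v : H) : WLimV l (fun i => T i v) (Q v) := fun w => h v w

theorem WLimV.unique [l.NeBot] (h : WLimV l f v) (h' : WLimV l f v') : v = v' := by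
  exact ext_inner_left ℂ fun w => tendsto_nhds_unique (h w) (h' w)

theorem WLim.unique [l.NeBot] (h : WLim l T Q) (h' : WLim l T Q') : Q = Q' := by
  exact ContinuousLinearMap.ext fun v => (h.apply v).unique (h'.apply v)

theorem WLimV.congr (h : WLimV l f v) (he : f =ᶠ[l] f') : WLimV l f' v := by
  exact fun w => (h w).congr' (he.mono fun i hi => by simp only [hi])

theorem WLim.congr (h : WLim l T Q) (he : T =ᶠ[l] T') : WLim l T' Q := by
  exact fun v w => (h v w).congr' (he.mono fun i hi => by simp only [hi])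

theorem wlimV_of_tendsto (h : Tendsto f l (𝓝 v)) : WLimV l f v := by
  exact fun w => tendsto_const_nhds.inner h

theorem wlim_const (l : Filter X) (Q : Op H) : WLim l (fun _ => Q) Q := by
  exact fun v w => tendsto_const_nhds

theorem WLimV.add (h : WLimV l f v) (h' : WLimV l f' v') :
    WLimV l (fun i => f i + f' i) (v + v') := by
  exact fun w => by simpa only [inner_add_right] using (h w).add (h' w)

theorem WLimV.sub (h : WLimV l f v) (h' : WLimV l f' v') :
    WLimV l (fun i => f i - f' i) (v - v') := by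
  exact fun w => by simpa only [inner_sub_right] using (h w).sub (h' w)

theorem WLimV.smul (h : WLimV l f v) (c : ℂ) : WLimV l (fun i => c • f i) (c • v) := by
  exact fun w => by simpa only [inner_smul_right] using (h w).const_mul c

theorem WLimV.map {K : Type*} [NormedAddCommGroup K] [InnerProductSpace ℂ K] [CompleteSpace K]
    (h : WLimV l f v) (S : H →L[ℂ] K) : WLimV l (fun i => S (f i)) (S v) := by
  exact fun w => by
    simpa only [ContinuousLinearMap.adjoint_inner_left] using h (ContinuousLinearMap.adjoint S w)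

theorem WLimV.norm_le [l.NeBot] (h : WLimV l f v) {C : ℝ} (hC : ∀ᶠ i in l, ‖f i‖ ≤ C) :
    ‖v‖ ≤ C := by
  obtain ⟨i, hi⟩ := hC.exists
  have h0 : 0 ≤ C := (norm_nonneg _).trans hi
  have h1 : ‖⟪v, v⟫_ℂ‖ ≤ ‖v‖ * C := le_of_tendsto (h v).norm (hC.mono fun i hi =>
    (norm_inner_le_norm _ _).trans (mul_le_mul_of_nonneg_left hi (norm_nonneg _)))
  rw [inner_self_eq_norm_sq_to_K, norm_pow, RCLike.norm_ofReal, abs_norm] at h1
  by_contra h2
  nlinarith [not_le.1 h2]

theorem WLim.add (h : WLim l T Q) (h' : WLim l T' Q') :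
    WLim l (fun i => T i + T' i) (Q + Q') := by
  exact fun v => (h.apply v).add (h'.apply v)

theorem WLim.sub (h : WLim l T Q) (h' : WLim l T' Q') :
    WLim l (fun i => T i - T' i) (Q - Q') := by
  exact fun v => (h.apply v).sub (h'.apply v)

theorem WLim.smul (h : WLim l T Q) (c : ℂ) : WLim l (fun i => c • T i) (c • Q) := by
  exact fun v => (h.apply v).smul c

theorem WLim.star (h : WLim l T Q) : WLim l (fun i => star (T i)) (star Q) := by
  intro v w
  have h1 := (Complex.continuous_conj.tendsto _).comp (h w v)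
  simpa only [Function.comp_def, inner_conj_symm, bas_inner_star] using h1

theorem WLim.mul_left (h : WLim l T Q) (S : Op H) : WLim l (fun i => S * T i) (S * Q) := by
  exact fun v => (h.apply v).map S

theorem WLim.mul_right (h : WLim l T Q) (S : Op H) : WLim l (fun i => T i * S) (Q * S) := by
  exact fun v => h (S v)

theorem WLim.norm_le [l.NeBot] (h : WLim l T Q) {C : ℝ} (hC : ∀ᶠ i in l, ‖T i‖ ≤ C) :
    ‖Q‖ ≤ C := by
  obtain ⟨i, hi⟩ := hC.exists
  exact ContinuousLinearMap.opNorm_le_bound _ ((norm_nonneg _).trans hi) fun v =>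
    (h.apply v).norm_le (hC.mono fun i hi => (T i).le_of_opNorm_le hi v)

theorem WLim.commute [l.NeBot] (h : WLim l T Q) {S : Op H} (hS : ∀ᶠ i in l, Commute S (T i)) :
    Commute S Q := by
  exact ((h.mul_left S).congr (hS.mono fun i hi => hi.eq)).unique (h.mul_right S)

theorem WLim.mem [l.NeBot] (h : WLim l T Q) {P : VN H} (hP : ∀ᶠ i in l, T i ∈ P) : Q ∈ P := by
  exact bas_mem fun y hy => h.commute (hP.mono fun i hi => (mem_comm.1 hy _ hi).symm)

theorem WLim.nonneg [l.NeBot] (h : WLim l T Q) (hP : ∀ᶠ i in l, 0 ≤ T i) : 0 ≤ Q := by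
  have h1 := hP.mono fun i hi => (ContinuousLinearMap.nonneg_iff_isPositive _).1 hi
  have h2 : IsSelfAdjoint Q := (h.star.congr (h1.mono fun i hi => hi.isSelfAdjoint.star_eq)).unique h
  refine (ContinuousLinearMap.nonneg_iff_isPositive _).2
    ⟨ContinuousLinearMap.isSelfAdjoint_iff_isSymmetric.1 h2, fun v => ?_⟩
  have h3 : 0 ≤ (⟪v, Q v⟫_ℂ).re := ge_of_tendsto ((Complex.continuous_re.tendsto _).comp (h v v))
    (h1.mono fun i hi => hi.re_inner_nonneg_right v)
  rw [← inner_conj_symm, Complex.conj_re] at h3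
  exact h3

end WLim

/-! ### Conjugation by an antiunitary involution -/

section jc

variable {J : H ≃ₗᵢ⋆[ℂ] H}

theorem inner_J (J : H ≃ₗᵢ⋆[ℂ] H) (v w : H) : ⟪J v, J w⟫_ℂ = ⟪w, v⟫_ℂ := by
  have h1 : ∀ c : ℂ, J v + conj c • J w = J (v + c • w) := fun c => by
    rw [map_add, LinearIsometryEquiv.map_smulₛₗ]
  have h2 : ∀ c : ℂ, J v - conj c • J w = J (v - c • w) := fun c => by
    rw [map_sub, LinearIsometryEquiv.map_smulₛₗ]
  have h3 := h1 (-Complex.I)
  have h4 := h2 (-Complex.I)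
  rw [map_neg, Complex.conj_I, neg_neg, neg_smul] at h3 h4
  rw [← inner_conj_symm w v, inner_eq_sum_norm_sq_div_four, inner_eq_sum_norm_sq_div_four,
    RCLike.I_to_complex, h3, h4, ← map_add, ← map_sub]
  simp only [LinearIsometryEquiv.norm_map, ← sub_eq_add_neg, sub_neg_eq_add]
  simp only [map_div₀, map_add, map_sub, map_mul, map_pow, RCLike.conj_ofReal, Complex.conj_I,
    map_ofNat]
  ring

theorem inner_J_left (hJ : ∀ v, J (J v) = v) (v w : H) : ⟪J v, w⟫_ℂ = ⟪J w, v⟫_ℂ := by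
  rw [← inner_J J v (J w), hJ]

theorem jc_jc (hJ : ∀ v, J (J v) = v) (y : Op H) : jc J (jc J y) = y := by
  ext v
  simp only [jc_apply, hJ]

theorem jc_one (hJ : ∀ v, J (J v) = v) : jc J (1 : Op H) = 1 := by
  ext v
  simp only [jc_apply, one_apply_eq_self, hJ]

theorem jc_mul (hJ : ∀ v, J (J v) = v) (x y : Op H) : jc J (x * y) = jc J x * jc J y := by
  ext v
  simp only [jc_apply, mul_apply_eq_comp, hJ]

theorem jc_add (x y : Op H) : jc J (x + y) = jc J x + jc J y := by
  ext v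
  simp only [jc_apply, add_apply, map_add]

theorem jc_sub (x y : Op H) : jc J (x - y) = jc J x - jc J y := by
  ext v
  simp only [jc_apply, sub_apply, map_sub]

theorem jc_smul (c : ℂ) (x : Op H) : jc J (c • x) = conj c • jc J x := by
  ext v
  simp only [jc_apply, smul_apply, LinearIsometryEquiv.map_smulₛₗ]

theorem jc_star (hJ : ∀ v, J (J v) = v) (x : Op H) : jc J (star x) = star (jc J x) := by
  ext v
  refine ext_inner_right ℂ fun w => ?_
  rw [bas_star_inner, jc_apply, jc_apply, inner_J_left hJ, bas_inner_star, ← inner_J J, hJ]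

theorem norm_jc (hJ : ∀ v, J (J v) = v) (x : Op H) : ‖jc J x‖ = ‖x‖ := by
  have h1 : ∀ y : Op H, ‖jc J y‖ ≤ ‖y‖ := fun y =>
    ContinuousLinearMap.opNorm_le_bound _ (norm_nonneg _) fun v => by
      rw [jc_apply, J.norm_map, ← J.norm_map v]
      exact y.le_opNorm _
  refine le_antisymm (h1 x) ?_
  have := h1 (jc J x)
  rwa [jc_jc hJ] at this

end jc

/-! ### Columns -/

section Col

variable {ι : Type*} [Fintype ι] {a b : ι → Op H} {c d : ℝ}

theorem sum_norm_sq_eq (a : ι → Op H) (v : H) :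
    ∑ j, ‖a j v‖ ^ 2 = (⟪v, (∑ j, star (a j) * a j) v⟫_ℂ).re := by
  exact bas_sum_sq a v

theorem bas_cs (v w : ι → H) :
    ‖∑ j, ⟪v j, w j⟫_ℂ‖ ≤ √(∑ j, ‖v j‖ ^ 2) * √(∑ j, ‖w j‖ ^ 2) :=
  ((norm_sum_le _ _).trans (Finset.sum_le_sum fun _ _ => norm_inner_le_norm _ _)).trans
    (Real.sum_mul_le_sqrt_mul_sqrt _ _ _)

theorem bas_sqrt_le (h : Col a c) (hc : 0 ≤ c) (v : H) : √(∑ j, ‖a j v‖ ^ 2) ≤ c * ‖v‖ :=
  Real.sqrt_le_iff.2 ⟨by positivity, by rw [mul_pow]; exact h v⟩

theorem bas_row (h : Col a c) (hc : 0 ≤ c) (v : ι → H) :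
    ‖∑ j, star (a j) (v j)‖ ≤ c * √(∑ j, ‖v j‖ ^ 2) := by
  set u := ∑ j, star (a j) (v j) with hu
  have h1 : ⟪u, u⟫_ℂ = ∑ j, ⟪a j u, v j⟫_ℂ := by
    conv_lhs => enter [3]; rw [hu]
    simp only [inner_sum, bas_inner_star]
  have h2 := bas_cs (fun j => a j u) v
  rw [← h1, inner_self_eq_norm_sq_to_K, norm_pow, RCLike.norm_ofReal, abs_norm] at h2
  have h3 := mul_le_mul_of_nonneg_right (bas_sqrt_le h hc u) (Real.sqrt_nonneg (∑ j, ‖v j‖ ^ 2))
  have h4 : 0 ≤ c * √(∑ j, ‖v j‖ ^ 2) := by positivity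
  by_contra h5
  nlinarith [not_le.1 h5]

theorem col_iff_norm (hc : 0 ≤ c) : Col a c ↔ ‖∑ j, star (a j) * a j‖ ≤ c ^ 2 := by
  refine ⟨fun h => ContinuousLinearMap.opNorm_le_bound _ (sq_nonneg c) fun v => ?_, fun h v => ?_⟩
  · rw [sum_apply, sq, mul_assoc]
    exact (bas_row h hc fun j => a j v).trans (mul_le_mul_of_nonneg_left (bas_sqrt_le h hc v) hc)
  · rw [bas_sum_sq]
    refine (Complex.re_le_norm _).trans ((norm_inner_le_norm _ _).trans ?_)
    have := mul_le_mul_of_nonneg_left (ContinuousLinearMap.le_of_opNorm_le _ h v) (norm_nonneg v)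
    linarith

theorem Col.mono (h : Col a c) (hc : 0 ≤ c) (hcd : c ≤ d) : Col a d := by
  exact fun v => (h v).trans (by gcongr)

/-- Cauchy–Schwarz for families. -/
theorem norm_sum_inner_le (v w : ι → H) :
    ‖∑ j, ⟪v j, w j⟫_ℂ‖ ≤ √(∑ j, ‖v j‖ ^ 2) * √(∑ j, ‖w j‖ ^ 2) := by
  exact bas_cs v w

/-- Minkowski for families. -/
theorem sqrt_sum_add_le (v w : ι → H) :
    √(∑ j, ‖v j + w j‖ ^ 2) ≤ √(∑ j, ‖v j‖ ^ 2) + √(∑ j, ‖w j‖ ^ 2) := by
  have := norm_add_le (WithLp.toLp 2 v : PiLp 2 fun _ : ι => H) (WithLp.toLp 2 w)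
  simpa only [PiLp.norm_eq_of_L2, PiLp.add_apply] using this

/-- A row of norm `≤ c` applied to a family of vectors. -/
theorem Col.norm_sum_star_le (h : Col a c) (hc : 0 ≤ c) (v : ι → H) :
    ‖∑ j, star (a j) (v j)‖ ≤ c * √(∑ j, ‖v j‖ ^ 2) := by
  exact bas_row h hc v

/-- Row times diagonal times column. -/
theorem Col.norm_sandwich_le (ha : Col a c) (hb : Col b d) (hc : 0 ≤ c) (hd : 0 ≤ d)
    {x : ι → Op H} {e : ℝ} (he : 0 ≤ e) (hx : ∀ j, ‖x j‖ ≤ e) :
    ‖∑ j, star (a j) * x j * b j‖ ≤ c * e * d := by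
  refine ContinuousLinearMap.opNorm_le_bound _ (by positivity) fun v => ?_
  rw [sum_apply, mul_assoc, mul_assoc]
  refine (bas_row ha hc fun j => x j (b j v)).trans (mul_le_mul_of_nonneg_left ?_ hc)
  refine Real.sqrt_le_iff.2 ⟨by positivity, ?_⟩
  rw [mul_pow, mul_pow]
  refine le_trans ?_ (mul_le_mul_of_nonneg_left (hb v) (sq_nonneg e))
  rw [Finset.mul_sum]
  refine Finset.sum_le_sum fun j _ => ?_
  rw [← mul_pow]
  exact pow_le_pow_left₀ (norm_nonneg _) ((x j).le_of_opNorm_le (hx j) _) 2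

theorem Col.jc {J : H ≃ₗᵢ⋆[ℂ] H} (h : Col a c) : Col (fun j => jc J (a j)) c := by
  intro v
  simpa only [jc_apply, LinearIsometryEquiv.norm_map] using h (J v)

end Col

end

end Crest.Agent.R78
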