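import Crest.Agent.R78.Basic

/-!
# Row 78: perturbation of projections and unitaries, logarithm of a unitary
-/

open scoped InnerProductSpace Topology ComplexConjugate
open Filter MeasureTheory

set_option linter.unusedSectionVars false

namespace Crest.Agent.R78

open Crest.Agent.R121 (Alg)

noncomputable section

universe u

variable {H : Type*} [NormedAddCommGroup H] [InnerProductSpace ℂ H] [CompleteSpace H]

section pjAux

variable {A : Type*} [CStarAlgebra A]

theorem pj_norm_one : ‖(1 : A)‖ ≤ 1 := (IsStarProjection.one A).norm_le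

theorem pj_norm_unitary {u : A} (hu : u ∈ unitary A) : ‖u‖ ≤ 1 := by
  have := CStarRing.norm_mem_unitary_mul (1 : A) hu
  rw [mul_one] at this
  rw [this]
  exact pj_norm_one

theorem pj_spec {a : A} (ha : IsSelfAdjoint a) {t : ℝ} (ht : t ∈ spectrum ℝ a) :
    |t - 1| ≤ ‖a - 1‖ := by
  have e : cfc (fun t : ℝ => t - 1) a = a - 1 := by
    rw [cfc_sub .., cfc_const_one ℝ a, cfc_id' ℝ a]
  have := norm_apply_le_norm_cfc (fun t : ℝ => t - 1) a ht
  rwa [e] at this

theorem pj_polar {x : A} {δ : ℝ} (hδ : δ ≤ 1 / 2) (h₁ : ‖star x * x - 1‖ ≤ δ)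
    (h₂ : ‖x * star x - 1‖ ≤ δ) :
    ∃ r : A, IsSelfAdjoint r ∧ x * r ∈ unitary A ∧ ‖x * r - x‖ ≤ δ ∧
      ∀ y, Commute y (star x * x) → Commute y r := by
  have hδ0 : 0 ≤ δ := (norm_nonneg _).trans h₁
  set Q := star x * x with hQ
  have hQs : IsSelfAdjoint Q := IsSelfAdjoint.star_mul_self x
  have hsp : ∀ t ∈ spectrum ℝ Q, |t - 1| ≤ δ := fun t ht => (pj_spec hQs ht).trans h₁
  have hpos : ∀ t ∈ spectrum ℝ Q, 0 < t := fun t ht => by
    have := (abs_le.1 (hsp t ht)).1
    linarith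
  have hc : ContinuousOn (fun t : ℝ => (√t)⁻¹) (spectrum ℝ Q) :=
    Real.continuous_sqrt.continuousOn.inv₀ fun t ht => (Real.sqrt_pos.2 (hpos t ht)).ne'
  set r := cfc (fun t : ℝ => (√t)⁻¹) Q with hr
  set s := cfc (fun t : ℝ => √t) Q with hs
  have hrs : r * s = 1 := by
    rw [hr, hs, ← cfc_mul _ _ Q hc, ← cfc_const_one ℝ Q]
    exact cfc_congr fun t ht => inv_mul_cancel₀ (Real.sqrt_pos.2 (hpos t ht)).ne'
  have hsr : s * r = 1 := by
    rw [hr, hs, ← cfc_mul _ _ Q (by fun_prop) hc, ← cfc_const_one ℝ Q]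
    exact cfc_congr fun t ht => mul_inv_cancel₀ (Real.sqrt_pos.2 (hpos t ht)).ne'
  have hss : s * s = Q := by
    rw [hs, ← cfc_mul ..]
    conv_rhs => rw [← cfc_id' ℝ Q]
    exact cfc_congr fun t ht => Real.mul_self_sqrt (hpos t ht).le
  have hrsa : IsSelfAdjoint r := cfc_predicate _ _
  have h1 : star (x * r) * (x * r) = 1 := by
    rw [star_mul, hrsa.star_eq, mul_assoc, ← mul_assoc (star x), ← hQ, ← hss, mul_assoc s,
      hsr, mul_one, hrs]
  have hunit : IsUnit (x * star x) := by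
    have := isUnit_one_sub_of_norm_lt_one (x := 1 - x * star x)
      (by rw [norm_sub_rev]; linarith)
    rwa [sub_sub_cancel] at this
  obtain ⟨a, ha⟩ := hunit.exists_right_inv
  have h2 : (x * r) * (s * star x * a) = 1 := by
    rw [← ha]
    simp only [mul_assoc]
    rw [← mul_assoc r s, hrs, one_mul]
  have h3 : star (x * r) = s * star x * a := by
    rw [← mul_one (star (x * r)), ← h2, ← mul_assoc, h1, one_mul]
  have hu : x * r ∈ unitary A := ⟨h1, by rw [h3, h2]⟩
  refine ⟨r, hrsa, hu, ?_, fun y hy => (hy.symm.cfc_real _).symm⟩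
  have e : x * r - x = (x * r) * (1 - s) := by
    rw [mul_sub, mul_one, mul_assoc, hrs, mul_one]
  have e' : 1 - s = cfc (fun t : ℝ => 1 - √t) Q := by
    rw [cfc_sub .., cfc_const_one ℝ Q]
  rw [e, CStarRing.norm_mem_unitary_mul _ hu, e']
  refine norm_cfc_le hδ0 fun t ht => ?_
  have h4 := abs_le.1 (hsp t ht)
  have h5 := Real.mul_self_sqrt (hpos t ht).le
  have h6 := Real.sqrt_nonneg t
  rw [Real.norm_eq_abs, abs_le]
  constructor
  · by_contra hh
    nlinarith [h4.1, h4.2]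
  · by_contra hh
    nlinarith [h4.1, h4.2]

theorem pj_near_unit {x w : A} (hw : w ∈ unitary A) {δ : ℝ} (hδ : δ ≤ 1) (h : ‖x - w‖ ≤ δ) :
    ‖star x * x - 1‖ ≤ 3 * δ := by
  have hδ0 : 0 ≤ δ := (norm_nonneg _).trans h
  have e : star x * x - 1 =
      star w * (x - w) + star (x - w) * w + star (x - w) * (x - w) := by
    rw [← hw.1, star_sub]
    noncomm_ring
  have h1 : ‖star w * (x - w)‖ ≤ δ := by
    rwa [CStarRing.norm_mem_unitary_mul _ (Unitary.star_mem hw)]
  have h2 : ‖star (x - w) * w‖ ≤ δ := by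
    rwa [CStarRing.norm_mul_mem_unitary _ hw, norm_star]
  have h3 : ‖star (x - w) * (x - w)‖ ≤ δ := by
    rw [CStarRing.norm_star_mul_self]
    nlinarith [norm_nonneg (x - w)]
  rw [e]
  linarith [norm_add₃_le (a := star w * (x - w)) (b := star (x - w) * w)
    (c := star (x - w) * (x - w))]

theorem pj_near_unit' {x w : A} (hw : w ∈ unitary A) {δ : ℝ} (hδ : δ ≤ 1) (h : ‖x - w‖ ≤ δ) :
    ‖x * star x - 1‖ ≤ 3 * δ := by
  have := pj_near_unit (x := star x) (Unitary.star_mem hw) hδ (by rwa [← star_sub, norm_star])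
  rwa [star_star] at this

theorem pj_symm {p : A} (hp : IsStarProjection p) : p + p - 1 ∈ unitary A := by
  have hs : star (p + p - 1) = p + p - 1 := by
    rw [star_sub, star_add, star_one, hp.isSelfAdjoint.star_eq]
  have e : (p + p - 1) * (p + p - 1) = 1 := by
    have := hp.isIdempotentElem.eq
    calc (p + p - 1) * (p + p - 1) = p * p + p * p + p * p + p * p - (p + p + p + p) + 1 := by
          noncomm_ring
      _ = 1 := by rw [this, sub_self, zero_add]
  exact ⟨by rw [hs, e], by rw [hs, e]⟩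

theorem pj_exp_arccos {c : A} (hc : IsSelfAdjoint c) (hn : ‖c‖ ≤ 1) :
    NormedSpace.exp (Complex.I • cfc Real.arccos c) =
      c + Complex.I • cfc (fun t : ℝ => √(1 - t ^ 2)) c := by
  have hN : IsStarNormal c := hc.isStarNormal
  have hcont : Continuous fun z : ℂ => Complex.I * (Real.arccos z.re : ℂ) := by
    have := Real.continuous_arccos
    fun_prop
  have e1 : Complex.I • cfc Real.arccos c =
      cfc (fun z : ℂ => Complex.I * (Real.arccos z.re : ℂ)) c := by
    rw [cfc_real_eq_complex _ hc, ← cfc_const_mul _ _ _ (by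
      have := Real.continuous_arccos
      fun_prop)]
  have e2 : c + Complex.I • cfc (fun t : ℝ => √(1 - t ^ 2)) c =
      cfc (fun z : ℂ => z + Complex.I * (√(1 - z.re ^ 2) : ℝ)) c := by
    rw [cfc_real_eq_complex _ hc, ← cfc_const_mul _ _ _ (by fun_prop), cfc_add c _ _,
      cfc_id' ℂ c]
  rw [e1, e2, ← CFC.complex_exp_eq_normedSpace_exp (p := IsStarNormal) (cfc_predicate _ _),
    ← cfc_comp' Complex.exp _ c (by fun_prop) hcont.continuousOn]
  refine cfc_congr fun z hz => ?_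
  have h1 : z = (z.re : ℂ) := hc.mem_spectrum_eq_re hz
  have h2 : ‖z‖ ≤ 1 := by
    have := norm_apply_le_norm_cfc (fun z : ℂ => z) c hz
    rw [cfc_id' ℂ c] at this
    exact this.trans hn
  have h3 := abs_le.1 ((Complex.abs_re_le_norm z).trans h2)
  show Complex.exp (Complex.I * (Real.arccos z.re : ℂ)) = z + Complex.I * (√(1 - z.re ^ 2) : ℝ)
  rw [mul_comm, Complex.exp_mul_I, ← Complex.ofReal_cos, ← Complex.ofReal_sin,
    Real.cos_arccos h3.1 h3.2, Real.sin_arccos, ← h1, mul_comm]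

end pjAux

/-- Polar part of an almost unitary operator. Recipe: `Q = x⋆ x` has spectrum in `[1-δ, 1+δ]`;
`u = x * cfc (fun t => (√t)⁻¹) Q`; `u⋆ u = 1`, and `u` is invertible because `x` is (both
`x⋆ x` and `x x⋆` are invertible); `‖u - x‖ ≤ ‖x‖ ‖Q^{-1/2} - 1‖`, or `u - x = u (1 - Q^{1/2})` and
`|1 - √t| ≤ |1 - t|`. Commutation: `Commute.cfc_real`. -/
theorem exists_unitary_near {x : Op H} {δ : ℝ} (hδ : δ ≤ 1 / 2) (h₁ : ‖star x * x - 1‖ ≤ δ)
    (h₂ : ‖x * star x - 1‖ ≤ δ) :
    ∃ u : unitary (Op H), ‖(u : Op H) - x‖ ≤ δ ∧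
      ∀ y, Commute y x → Commute y (star x) → Commute y (u : Op H) := by
  obtain ⟨r, -, hu, hn, hc⟩ := pj_polar hδ h₁ h₂
  exact ⟨⟨x * r, hu⟩, hn, fun y h h' => h.mul_right (hc y (h'.mul_right h))⟩

/-- A skew-adjoint `k` gives a unitary `1 + k + O(‖k‖²)`. -/
theorem exists_unitary_skew {k : Op H} (hk : star k = -k) (hk1 : ‖k‖ ≤ 1 / 2) :
    ∃ u : unitary (Op H), ‖(u : Op H) - (1 + k)‖ ≤ ‖k‖ ^ 2 ∧
      ∀ y, Commute y k → Commute y (u : Op H) := by
  have hk0 := norm_nonneg k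
  have hkk : ‖k * k‖ ≤ ‖k‖ ^ 2 := by rw [sq]; exact norm_mul_le _ _
  have hs : star (1 + k) = 1 - k := by rw [star_add, star_one, hk, sub_eq_add_neg]
  obtain ⟨u, hu, hc⟩ := exists_unitary_near (x := 1 + k) (δ := ‖k‖ ^ 2) (by nlinarith)
    (by
      rw [hs, show (1 - k) * (1 + k) - 1 = -(k * k) by noncomm_ring, norm_neg]
      exact hkk)
    (by
      rw [hs, show (1 + k) * (1 - k) - 1 = -(k * k) by noncomm_ring, norm_neg]
      exact hkk)
  refine ⟨u, hu, fun y hy => hc y ((Commute.one_right y).add_right hy) ?_⟩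
  rw [hs]
  exact (Commute.one_right y).sub_right hy

/-- First order term of a unitary near `1`: `k = (u - u⋆)/2` is skew, `‖k‖ ≤ ‖u - 1‖` and
`u - 1 - k = -(u - 1)⋆ (u - 1) / 2`. -/
theorem unitary_skew_part (u : unitary (Op H)) :
    ‖(u : Op H) - 1 - (2 : ℂ)⁻¹ • ((u : Op H) - star (u : Op H))‖ ≤ ‖(u : Op H) - 1‖ ^ 2 ∧
      ‖(2 : ℂ)⁻¹ • ((u : Op H) - star (u : Op H))‖ ≤ ‖(u : Op H) - 1‖ := by
  have h2 : ‖(2 : ℂ)⁻¹‖ = 2⁻¹ := by simp
  constructor
  · have e : (u : Op H) - 1 - (2 : ℂ)⁻¹ • ((u : Op H) - star (u : Op H)) =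
        -((2 : ℂ)⁻¹ • (star ((u : Op H) - 1) * ((u : Op H) - 1))) := by
      have h1 : star ((u : Op H) - 1) * ((u : Op H) - 1) =
          1 - star (u : Op H) - (u : Op H) + 1 := by
        rw [star_sub, star_one, sub_mul, mul_sub, u.2.1]
        noncomm_ring
      rw [h1]
      module
    rw [e, norm_neg, norm_smul, h2, CStarRing.norm_star_mul_self]
    nlinarith [norm_nonneg ((u : Op H) - 1)]
  · have e : (u : Op H) - star (u : Op H) = ((u : Op H) - 1) - star ((u : Op H) - 1) := by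
      rw [star_sub, star_one]
      abel
    rw [e, norm_smul, h2]
    have := norm_sub_le ((u : Op H) - 1) (star ((u : Op H) - 1))
    rw [norm_star] at this
    linarith

/-- An element of `P` near a unitary gives a unitary of `P` near it. -/
theorem exists_unitary_mem_near {P : VN H} {x : Op H} (hx : x ∈ P) (w : unitary (Op H)) {δ : ℝ}
    (hδ : δ ≤ 1 / 8) (h : ‖x - (w : Op H)‖ ≤ δ) :
    ∃ u : unitary (Op H), (u : Op H) ∈ P ∧ ‖(u : Op H) - (w : Op H)‖ ≤ 4 * δ := by
  obtain ⟨u, hu, hc⟩ := exists_unitary_near (x := x) (δ := 3 * δ) (by linarith)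
    (pj_near_unit w.2 (by linarith) h) (pj_near_unit' w.2 (by linarith) h)
  refine ⟨u, mem_of_bicomm hx hc, ?_⟩
  linarith [norm_sub_le_norm_sub_add_norm_sub (u : Op H) x (w : Op H)]

/-- An element of `P` near a projection gives a projection of `P` near it. Recipe: `h = Re x` is
within `δ` of `p`, `‖h² - h‖ ≤ 3δ + δ²`… so the spectrum of `h` lies in
`[-δ, δ] ∪ [1-δ, 1+δ]` (or a slightly larger set); `q = cfc f h` with `f` continuous, `0` near
`0` and `1` near `1`. Any proof with the constant `10` is fine. -/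
theorem exists_proj_mem_near {P : VN H} {x p : Op H} (hx : x ∈ P) (hp : IsStarProjection p)
    {δ : ℝ} (hδ : δ ≤ 1 / 32) (h : ‖x - p‖ ≤ δ) :
    ∃ q ∈ P, IsStarProjection q ∧ ‖q - p‖ ≤ 10 * δ := by
  have hδ0 : 0 ≤ δ := (norm_nonneg _).trans h
  have hps : star p = p := hp.isSelfAdjoint.star_eq
  set y := x + star x - 1 with hy
  have hys : star y = y := by
    rw [hy, star_sub, star_add, star_star, star_one, add_comm]
  have hyP : y ∈ P := sub_mem (add_mem hx (star_mem hx)) (one_mem P)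
  have hn : ‖y - (p + p - 1)‖ ≤ 2 * δ := by
    have e : y - (p + p - 1) = (x - p) + star (x - p) := by
      rw [hy, star_sub, hps]
      abel
    rw [e]
    have := norm_add_le (x - p) (star (x - p))
    rw [norm_star] at this
    linarith
  obtain ⟨r, hr, hu, hn', hc⟩ := pj_polar (x := y) (δ := 3 * (2 * δ)) (by linarith)
    (pj_near_unit (pj_symm hp) (by linarith) hn) (pj_near_unit' (pj_symm hp) (by linarith) hn)
  have hyr : Commute y r := hc y (by rw [hys]; exact (Commute.refl y).mul_right (Commute.refl y))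
  have hus : star (y * r) = y * r := by rw [star_mul, hr.star_eq, hys, hyr.eq]
  have huu : (y * r) * (y * r) = 1 := by
    have := hu.1
    rwa [hus] at this
  have huP : y * r ∈ P :=
    mem_of_bicomm hyP fun z h h' => h.mul_right (hc z (h'.mul_right h))
  refine ⟨(2 : ℂ)⁻¹ • (y * r + 1), smul_mem' _ (add_mem huP (one_mem P)), ⟨?_, ?_⟩, ?_⟩
  · rw [IsIdempotentElem, smul_mul_smul_comm, add_mul, mul_add, huu, mul_one, one_mul]
    module
  · rw [IsSelfAdjoint, star_smul, star_add, hus, star_one]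
    simp
  · have e : (2 : ℂ)⁻¹ • (y * r + 1) - p = (2 : ℂ)⁻¹ • (y * r - (p + p - 1)) := by module
    have h2 : ‖(2 : ℂ)⁻¹‖ = 2⁻¹ := by simp
    rw [e, norm_smul, h2]
    linarith [norm_sub_le_norm_sub_add_norm_sub (y * r) y (p + p - 1)]

/-- Commuting projections at distance `< 1` are equal: `(p - q)³ = p - q`. -/
theorem proj_eq_of_commute {p q : Op H} (hp : IsStarProjection p) (hq : IsStarProjection q)
    (hc : Commute p q) (h : ‖p - q‖ < 1) : p = q := by
  have hpp := hp.isIdempotentElem.eq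
  have hqq := hq.isIdempotentElem.eq
  have e2 : (p - q) * (p - q) = p + q - (p * q + p * q) := by
    rw [sub_mul, mul_sub, mul_sub, hpp, hqq, ← hc.eq]
    abel
  have e3 : (p - q) * ((p - q) * (p - q)) = p - q := by
    have a1 : p * (p * q) = p * q := by rw [← mul_assoc, hpp]
    have a2 : q * (p * q) = p * q := by rw [← mul_assoc, ← hc.eq, mul_assoc, hqq]
    rw [e2]
    simp only [sub_mul, mul_sub, mul_add, hpp, hqq, a1, a2, ← hc.eq]
    abel
  have h1 : ‖p - q‖ ≤ ‖p - q‖ * (‖p - q‖ * ‖p - q‖) := by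
    conv_lhs => rw [← e3]
    exact (norm_mul_le _ _).trans (mul_le_mul_of_nonneg_left (norm_mul_le _ _) (norm_nonneg _))
  have h0 := norm_nonneg (p - q)
  have h2 : ‖p - q‖ * ‖p - q‖ < 1 := by nlinarith
  have h3 : ‖p - q‖ = 0 := by
    by_contra hne
    have := lt_of_le_of_ne h0 (Ne.symm hne)
    nlinarith
  exact sub_eq_zero.1 (norm_eq_zero.1 h3)

/-- Close projections are conjugate. Recipe: `x = q p + (1 - q)(1 - p)` satisfies `x p = q x`,
`x - 1 = (q - p)(2p - 1)`, `x⋆ x = 1 - (p - q)²` commutes with `p`; take the polar part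
(repeat the construction of `exists_unitary_near`, or apply its commutation clause on a 2×2
trick; directly: `u = x (x⋆x)^{-1/2}` and `u p = q u`). -/
theorem exists_unitary_conj_proj {p q : Op H} (hp : IsStarProjection p) (hq : IsStarProjection q)
    {δ : ℝ} (hδ : δ ≤ 1 / 2) (h : ‖p - q‖ ≤ δ) :
    ∃ u : unitary (Op H), ‖(u : Op H) - 1‖ ≤ 2 * δ ∧ (u : Op H) * p * star (u : Op H) = q := by
  have hδ0 : 0 ≤ δ := (norm_nonneg _).trans h
  have hpp := hp.isIdempotentElem.eq
  have hqq := hq.isIdempotentElem.eq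
  have hps : star p = p := hp.isSelfAdjoint.star_eq
  have hqs : star q = q := hq.isSelfAdjoint.star_eq
  have hpp' : ∀ z, p * (p * z) = p * z := fun z => by rw [← mul_assoc, hpp]
  have hqq' : ∀ z, q * (q * z) = q * z := fun z => by rw [← mul_assoc, hqq]
  set x := q * p + (1 - q) * (1 - p) with hx
  have hxs : star x = p * q + (1 - p) * (1 - q) := by
    rw [hx, star_add, star_mul, star_mul, star_sub, star_sub, star_one, hps, hqs]
  have hd : ‖(p - q) * (p - q)‖ ≤ δ := by
    refine (norm_mul_le _ _).trans ?_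
    nlinarith [norm_nonneg (p - q)]
  have e1 : star x * x - 1 = -((p - q) * (p - q)) := by
    rw [hxs, hx]
    simp only [add_mul, mul_add, sub_mul, mul_sub, one_mul, mul_one, mul_assoc, hpp, hqq, hpp',
      hqq']
    abel
  have e2 : x * star x - 1 = -((p - q) * (p - q)) := by
    rw [hxs, hx]
    simp only [add_mul, mul_add, sub_mul, mul_sub, one_mul, mul_one, mul_assoc, hpp, hqq, hpp',
      hqq']
    abel
  obtain ⟨r, -, hu, hn, hc⟩ := pj_polar (x := x) hδ (by rwa [e1, norm_neg])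
    (by rwa [e2, norm_neg])
  have hpQ : Commute p (star x * x) := by
    rw [← sub_add_cancel (star x * x) 1, e1]
    refine Commute.add_right (Commute.neg_right ?_) (Commute.one_right p)
    rw [Commute, SemiconjBy]
    simp only [sub_mul, mul_sub, mul_assoc, hpp, hqq, hpp']
    abel
  have hxp : x * p = q * x := by
    rw [hx]
    simp only [add_mul, mul_add, sub_mul, mul_sub, one_mul, mul_one, mul_assoc, hpp, hqq, hqq']
    abel
  have e3 : x - 1 = (q - p) * (p + p - 1) := by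
    rw [hx]
    simp only [mul_add, sub_mul, mul_sub, one_mul, mul_one, hpp]
    abel
  have hx1 : ‖x - 1‖ ≤ δ := by
    rwa [e3, CStarRing.norm_mul_mem_unitary _ (pj_symm hp), norm_sub_rev]
  refine ⟨⟨x * r, hu⟩, ?_, ?_⟩
  · show ‖x * r - 1‖ ≤ 2 * δ
    linarith [norm_sub_le_norm_sub_add_norm_sub (x * r) x 1]
  · show x * r * p * star (x * r) = q
    rw [mul_assoc x, ← (hc p hpQ).eq, ← mul_assoc x, hxp, mul_assoc q, mul_assoc q, hu.2, mul_one]

theorem pj_norm_le {x : Op H} (hx : IsSelfAdjoint x) {ε : ℝ} (hε : 0 ≤ ε)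
    (h : ∀ ζ, |(⟪x ζ, ζ⟫_ℂ).re| ≤ ε * ‖ζ‖ ^ 2) : ‖x‖ ≤ ε := by
  rw [ContinuousLinearMap.norm_eq_iSup_rayleighQuotient _ hx.isSymmetric]
  refine ciSup_le fun ζ => ?_
  rw [ContinuousLinearMap.rayleighQuotient, ContinuousLinearMap.reApplyInnerSelf_apply, abs_div,
    abs_of_nonneg (sq_nonneg ‖ζ‖)]
  exact div_le_of_le_mul₀ (sq_nonneg _) hε (h ζ)

theorem pj_almost {v v' W : Op H} (hW : W ∈ unitary (Op H)) {δ : ℝ} (hδ : δ ≤ 1 / 100)
    (h₁ : ‖v‖ ≤ 1 + δ) (h₂ : ‖v'‖ ≤ 1 + δ) (h : ‖W - v' * v‖ ≤ δ) :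
    ‖star v * v - 1‖ ≤ 4 * δ := by
  have hδ0 : 0 ≤ δ := (norm_nonneg _).trans h
  refine pj_norm_le ((IsSelfAdjoint.star_mul_self v).sub (IsSelfAdjoint.one _)) (by linarith)
    fun ζ => ?_
  have e : (⟪(star v * v - 1 : Op H) ζ, ζ⟫_ℂ).re = ‖v ζ‖ ^ 2 - ‖ζ‖ ^ 2 := by
    have e1 : (star v * v - 1 : Op H) ζ = ContinuousLinearMap.adjoint v (v ζ) - ζ := rfl
    rw [e1, inner_sub_left, ContinuousLinearMap.adjoint_inner_left, Complex.sub_re,
      ← inner_self_eq_norm_sq (𝕜 := ℂ), ← inner_self_eq_norm_sq (𝕜 := ℂ)]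
    rfl
  have n0 := norm_nonneg ζ
  have n1 := norm_nonneg (v ζ)
  have b1 : ‖v ζ‖ ≤ (1 + δ) * ‖ζ‖ :=
    (v.le_opNorm ζ).trans (mul_le_mul_of_nonneg_right h₁ n0)
  have b2 : ‖v' (v ζ)‖ ≤ (1 + δ) * ‖v ζ‖ :=
    (v'.le_opNorm _).trans (mul_le_mul_of_nonneg_right h₂ n1)
  have b3 : ‖W ζ - v' (v ζ)‖ ≤ δ * ‖ζ‖ :=
    ((W - v' * v).le_opNorm ζ).trans (mul_le_mul_of_nonneg_right h n0)
  have b4 : ‖ζ‖ ≤ δ * ‖ζ‖ + (1 + δ) * ‖v ζ‖ := by
    have := norm_add_le (W ζ - v' (v ζ)) (v' (v ζ))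
    rw [sub_add_cancel, ContinuousLinearMap.norm_map_of_mem_unitary hW] at this
    linarith
  have b5 : (1 - 2 * δ) * ‖ζ‖ ≤ ‖v ζ‖ := by
    refine le_of_mul_le_mul_left ?_ (show 0 < 1 + δ by linarith)
    nlinarith [mul_nonneg (mul_nonneg hδ0 hδ0) n0]
  have b6 : ((1 - 2 * δ) * ‖ζ‖) ^ 2 ≤ ‖v ζ‖ ^ 2 :=
    pow_le_pow_left₀ (mul_nonneg (by linarith) n0) b5 2
  have b7 : ‖v ζ‖ ^ 2 ≤ ((1 + δ) * ‖ζ‖) ^ 2 := pow_le_pow_left₀ n1 b1 2
  have b8 : 0 ≤ δ * δ * ‖ζ‖ ^ 2 := by positivity
  have b9 : δ * δ * ‖ζ‖ ^ 2 ≤ δ * ‖ζ‖ ^ 2 :=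
    mul_le_mul_of_nonneg_right (by nlinarith) (sq_nonneg _)
  have b10 : 0 ≤ δ * ‖ζ‖ ^ 2 := by positivity
  rw [e, abs_le]
  constructor <;> nlinarith

/-- If `v v'` is close to a unitary, `v` and `v'` commute (with adjoints) and are almost
contractions, then both are almost unitary. Recipe: `a = v⋆v`, `b = v'⋆v'` commute,
`‖ab - 1‖ ≤ 3δ`…, `a, b ≤ (1+δ)²`; hence `a ≥ ab/(1+δ)² ≥ 1 - 8δ`. Same for `v v⋆`. Then use
`exists_unitary_near`. -/
theorem exists_unitary_factors {P : VN H} {v v' : Op H} (hv : v ∈ P) (hv' : v' ∈ P.commutant)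
    (W : unitary (Op H)) {δ : ℝ} (hδ : δ ≤ 1 / 100) (h₁ : ‖v‖ ≤ 1 + δ) (h₂ : ‖v'‖ ≤ 1 + δ)
    (h : ‖(W : Op H) - v * v'‖ ≤ δ) :
    ∃ u u' : unitary (Op H), (u : Op H) ∈ P ∧ (u' : Op H) ∈ P.commutant ∧
      ‖(W : Op H) - (u : Op H) * (u' : Op H)‖ ≤ 40 * δ := by
  have hδ0 : 0 ≤ δ := (norm_nonneg _).trans h
  have hc : Commute v v' := mem_comm.1 hv' v hv
  have hW' := Unitary.star_mem W.2
  have a1 : ‖star v * v - 1‖ ≤ 4 * δ := pj_almost W.2 hδ h₁ h₂ (by rwa [← hc.eq])
  have a2 : ‖v * star v - 1‖ ≤ 4 * δ := by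
    have := pj_almost (v := star v) (v' := star v') hW' hδ (by rwa [norm_star])
      (by rwa [norm_star]) (by rwa [← star_mul, ← star_sub, norm_star])
    rwa [star_star] at this
  have a3 : ‖star v' * v' - 1‖ ≤ 4 * δ := pj_almost W.2 hδ h₂ h₁ h
  have a4 : ‖v' * star v' - 1‖ ≤ 4 * δ := by
    have := pj_almost (v := star v') (v' := star v) hW' hδ (by rwa [norm_star])
      (by rwa [norm_star]) (by rwa [← star_mul, ← star_sub, norm_star, ← hc.eq])
    rwa [star_star] at this
  obtain ⟨u, hu, hcu⟩ := exists_unitary_near (by linarith) a1 a2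
  obtain ⟨u', hu', hcu'⟩ := exists_unitary_near (by linarith) a3 a4
  refine ⟨u, u', mem_of_bicomm hv hcu, mem_of_bicomm hv' hcu', ?_⟩
  have e : (W : Op H) - (u : Op H) * (u' : Op H) = ((W : Op H) - v * v') -
      ((u : Op H) - v) * v' - (u : Op H) * ((u' : Op H) - v') := by noncomm_ring
  have b1 : ‖((u : Op H) - v) * v'‖ ≤ 4 * δ * (1 + δ) :=
    (norm_mul_le _ _).trans (mul_le_mul hu h₂ (norm_nonneg _) (by linarith))
  have b2 : ‖(u : Op H) * ((u' : Op H) - v')‖ ≤ 4 * δ := by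
    rwa [CStarRing.norm_coe_unitary_mul]
  rw [e]
  have b3 := norm_sub_le (((W : Op H) - v * v') - ((u : Op H) - v) * v')
    ((u : Op H) * ((u' : Op H) - v'))
  have b4 := norm_sub_le ((W : Op H) - v * v') (((u : Op H) - v) * v')
  nlinarith

/-- Spectral cut of a positive element: `q = χ_{[t, ∞)}(n)` (from `R121.exists_split` with `p = 1`
in the algebra `P`; note that `q` commutes with `n` and with everything in `B(H)` commuting with
`n`: apply `exists_split` in the von Neumann algebra `cm ∅ = B(H)` and use `mem_of_bicomm`). -/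
theorem exists_cut {n : Op H} (hn : IsSelfAdjoint n) (t : ℝ) :
    ∃ q : Op H, IsStarProjection q ∧ (∀ y, Commute y n → Commute y q) ∧
      (∀ v, t * ‖q v‖ ^ 2 ≤ (⟪q v, n (q v)⟫_ℂ).re) ∧
      ∀ v, (⟪(1 - q) v, n ((1 - q) v)⟫_ℂ).re ≤ t * ‖(1 - q) v‖ ^ 2 := by
  have hall : ∀ y : Op H, y ∈ cm (∅ : Set (Op H)) := fun y =>
    mem_cm.2 fun s hs => absurd hs (Set.notMem_empty s)
  obtain ⟨q, hq, -, hc, h1, h2⟩ := R121.exists_split (M := cm ∅) (x := ⟨n, hall n⟩) (p := 1)
    (Subtype.ext hn.star_eq) (IsStarProjection.one _) t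
  refine ⟨q, R121.Alg.isStarProjection_iff.1 hq, fun y hy => ?_, h1, h2⟩
  have hy' : Commute (star y) n := by
    have := hy.star_star
    rwa [hn.star_eq] at this
  exact congrArg Subtype.val (hc ⟨y, hall y⟩ (Commute.one_right _) (Commute.one_right _)
    (Subtype.ext hy.eq) (Subtype.ext hy'.eq)).eq

/-- A bounded logarithm of a unitary. Recipe: `c = Re l`, `s = Im l` commute, `c² + s² = 1`; let
`p` be the cut of `s` at `0` (`exists_cut`), so `(2p - 1) |s| = s`; put
`A = (2p - 1) arccos(c)`; then `cos A = c` and `sin A = (2p - 1) √(1 - c²) = s`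
(evenness / oddness: `A = p arccos c - (1 - p) arccos c`, compute `exp (i A)` on both pieces). -/
theorem exists_log_unitary (l : unitary (Op H)) :
    ∃ A : Op H, IsSelfAdjoint A ∧ NormedSpace.exp (Complex.I • A) = (l : Op H) ∧
      ∀ y, Commute y (l : Op H) → Commute y (star (l : Op H)) → Commute y A := by
  set c : Op H := (2 : ℂ)⁻¹ • ((l : Op H) + star (l : Op H)) with hc
  set s : Op H := (Complex.I * 2⁻¹) • (star (l : Op H) - (l : Op H)) with hs
  have hcs : IsSelfAdjoint c := by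
    rw [IsSelfAdjoint, hc, star_smul, star_add, star_star, add_comm]
    simp
  have hss : IsSelfAdjoint s := by
    rw [IsSelfAdjoint, hs, star_smul, star_sub, star_star, ← neg_sub, smul_neg, ← neg_smul]
    simp
  have hl : c + Complex.I • s = (l : Op H) := by
    rw [hc, hs, smul_smul, ← mul_assoc, Complex.I_mul_I]
    module
  have hcomm : ∀ y, Commute y (l : Op H) → Commute y (star (l : Op H)) →
      Commute y c ∧ Commute y s := fun y h h' =>
    ⟨(h.add_right h').smul_right _, (h'.sub_right h).smul_right _⟩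
  have hll : Commute (l : Op H) (star (l : Op H)) := l.2.2.trans l.2.1.symm
  have hcc : Commute c s :=
    (hcomm c (((Commute.refl _).add_left hll.symm).smul_left _)
      ((hll.add_left (Commute.refl _)).smul_left _)).2
  have hsq : s * s = 1 - c * c := by
    have hI : (Complex.I * 2⁻¹) * (Complex.I * 2⁻¹) = -(4 : ℂ)⁻¹ := by
      rw [mul_mul_mul_comm, Complex.I_mul_I]; norm_num
    rw [hc, hs, smul_mul_smul_comm, smul_mul_smul_comm, hI, sub_mul, mul_sub, mul_sub, add_mul,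
      mul_add, mul_add, l.2.1, l.2.2]
    module
  have hcn : ‖c‖ ≤ 1 := by
    have h2 : ‖(2 : ℂ)⁻¹‖ = 2⁻¹ := by simp
    have h3 := norm_add_le (l : Op H) (star (l : Op H))
    have h4 := pj_norm_unitary l.2
    rw [norm_star] at h3
    rw [hc, norm_smul, h2]
    linarith
  clear_value c s
  obtain ⟨p, hp, hpc, h1, h2⟩ := exists_cut hss 0
  have hps : star p = p := hp.isSelfAdjoint.star_eq
  have hpp : p * p = p := hp.isIdempotentElem.eq
  have hsp : Commute s p := hpc s (Commute.refl s)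
  have hcp : Commute c p := hpc c hcc
  have hpos : ∀ {r z : Op H}, IsStarProjection r → IsSelfAdjoint z → Commute z r →
      (∀ v, 0 ≤ (⟪r v, z (r v)⟫_ℂ).re) → 0 ≤ r * z := by
    intro r z hr hz hzr h
    have hrs : star r = r := hr.isSelfAdjoint.star_eq
    rw [ContinuousLinearMap.nonneg_iff_isPositive, ContinuousLinearMap.isPositive_def']
    refine ⟨?_, fun v => ?_⟩
    · rw [IsSelfAdjoint, star_mul, hz.star_eq, hrs, hzr.eq]
    · have e : r * z = star r * (z * r) := by
        rw [hrs, hzr.eq, ← mul_assoc, hr.isIdempotentElem.eq]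
      rw [ContinuousLinearMap.reApplyInnerSelf_apply, e, inner_re_symm]
      have e1 : (star r * (z * r)) v = ContinuousLinearMap.adjoint r (z (r v)) := rfl
      rw [e1, ContinuousLinearMap.adjoint_inner_right]
      exact h v
  have hm0 : 0 ≤ (p + p - 1) * s := by
    have a1 := hpos hp hss hsp fun v => by simpa using h1 v
    have a2 := hpos hp.one_sub hss.neg ((Commute.one_right s).sub_right hsp).neg_left fun v => by
      have := h2 v
      rw [zero_mul] at this
      rw [neg_apply, inner_neg_right, Complex.neg_re]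
      linarith
    have e : (p + p - 1) * s = p * s + (1 - p) * (-s) := by noncomm_ring
    rw [e]
    exact add_nonneg a1 a2
  set m := cfc (fun t : ℝ => √(1 - t ^ 2)) c with hm
  have hmm : m * m = 1 - c * c := by
    rw [hm, ← cfc_mul ..]
    have e1 : cfc (fun t : ℝ => 1 - t * t) c = 1 - c * c := by
      rw [cfc_sub .., cfc_const_one ℝ c, cfc_mul .., cfc_id' ℝ c]
    rw [← e1]
    refine cfc_congr fun t ht => ?_
    have h3 : |t| ≤ 1 := by
      have := norm_apply_le_norm_cfc (fun z : ℝ => z) c ht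
      rw [cfc_id' ℝ c] at this
      exact this.trans hcn
    have h4 : 0 ≤ 1 - t ^ 2 := by
      have := abs_le.1 h3
      nlinarith [this.1, this.2]
    show √(1 - t ^ 2) * √(1 - t ^ 2) = 1 - t * t
    rw [Real.mul_self_sqrt h4, sq]
  have hsy : (p + p - 1) * (p + p - 1) = 1 := by
    have := (pj_symm hp).1
    rwa [star_sub, star_add, star_one, hps] at this
  have hssy : Commute s (p + p - 1) := (hsp.add_right hsp).sub_right (Commute.one_right s)
  have hme : m = (p + p - 1) * s := by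
    rw [← CFC.mul_self_eq_mul_self_iff m _ (cfc_nonneg fun t _ => Real.sqrt_nonneg _) hm0, hmm,
      mul_assoc, ← mul_assoc s, hssy.eq, ← mul_assoc, ← mul_assoc, hsy, one_mul, hsq]
  set B := cfc Real.arccos c with hB
  have hBs : IsSelfAdjoint B := cfc_predicate _ _
  have hBp : Commute B p := hcp.cfc_real _
  have hE : NormedSpace.exp (Complex.I • B) = c + Complex.I • m := pj_exp_arccos hcs hcn
  have hms : IsSelfAdjoint m := cfc_predicate _ _
  clear_value m
  have hE' : NormedSpace.exp (-(Complex.I • B)) = c - Complex.I • m := by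
    have := congrArg star hE
    rw [NormedSpace.star_exp, star_smul, hBs.star_eq, star_add, star_smul, hcs.star_eq,
      hms.star_eq] at this
    simpa [sub_eq_add_neg] using this
  have p1 : p * (p + p - 1) = p := by rw [mul_sub, mul_add, hpp, mul_one, add_sub_cancel_right]
  have p2 : (1 - p) * (p + p - 1) = -(1 - p) := by
    rw [sub_mul, p1, one_mul]; abel
  have hsyp : Commute (p + p - 1) p :=
    ((Commute.refl p).add_left (Commute.refl p)).sub_left (Commute.one_left p)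
  refine ⟨(p + p - 1) * B, ?_, ?_, fun y h h' => ?_⟩
  · rw [IsSelfAdjoint, star_mul, hBs.star_eq, star_sub, star_add, star_one, hps]
    exact ((hBp.add_right hBp).sub_right (Commute.one_right B)).eq
  · let _ : NormedAlgebra ℚ (Op H) := NormedAlgebra.restrictScalars ℚ ℂ (Op H)
    have s1 : SemiconjBy p (Complex.I • ((p + p - 1) * B)) (Complex.I • B) := by
      rw [SemiconjBy, mul_smul_comm, smul_mul_assoc, ← mul_assoc, p1, hBp.eq]
    have s2 : SemiconjBy (1 - p) (Complex.I • ((p + p - 1) * B)) (-(Complex.I • B)) := by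
      rw [SemiconjBy, mul_smul_comm, neg_mul, smul_mul_assoc, ← mul_assoc, p2, neg_mul, smul_neg,
        ((Commute.one_right B).sub_right hBp).eq]
    have t1 := s1.exp_right.eq
    have t2 := s2.exp_right.eq
    rw [hE] at t1
    rw [hE'] at t2
    have m1 : m * p = s * p := by
      rw [hme, ← hssy.eq, mul_assoc, hsyp.eq, p1]
    have m2 : m * (1 - p) = -(s * (1 - p)) := by
      rw [hme, ← hssy.eq, mul_assoc, ((Commute.one_right _).sub_right hsyp).eq, p2, mul_neg]
    rw [add_mul, smul_mul_assoc, m1] at t1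
    rw [sub_mul c, smul_mul_assoc, m2] at t2
    calc NormedSpace.exp (Complex.I • ((p + p - 1) * B))
        = p * NormedSpace.exp (Complex.I • ((p + p - 1) * B)) +
          (1 - p) * NormedSpace.exp (Complex.I • ((p + p - 1) * B)) := by
          rw [← add_mul, add_sub_cancel, one_mul]
      _ = (l : Op H) := by
          rw [t1, t2, ← hl, mul_sub, mul_sub, mul_one, mul_one]
          module
  · obtain ⟨a1, a2⟩ := hcomm y h h'
    have a3 := hpc y a2
    exact ((a3.add_right a3).sub_right (Commute.one_right y)).mul_right (a1.symm.cfc_real _).symm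

/-- Every element of `P` is a combination of four unitaries of `P` (`R121.exists_four_cu` in
`Alg P`). -/
theorem exists_four_unitary {P : VN H} {x : Op H} (hx : x ∈ P) :
    ∃ (u : Fin 4 → unitary (Op H)) (c : Fin 4 → ℂ), (∀ i, (u i : Op H) ∈ P) ∧
      x = ∑ i, c i • (u i : Op H) ∧ ∑ i, ‖c i‖ ≤ 2 * ‖x‖ ∧
      ∀ y ∈ P, Commute y x → Commute y (star x) → ∀ i, Commute y (u i : Op H) := by
  obtain ⟨u, c, hu, he, hn, hc⟩ := R121.exists_four_cu (IsStarProjection.one (Op H))
    (one_mul x) (mul_one x)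
  exact ⟨fun i => ⟨u i, R121.isCU_one_iff.1 (hu i)⟩, c,
    fun i => mem_of_bicomm hx fun y h h' => hc y (Commute.one_right y) h h' i, he, hn,
    fun y _ h h' i => hc y (Commute.one_right y) h h' i⟩

/-- A positive square root inside a von Neumann algebra. -/
theorem exists_sqrt {P : VN H} {h : Op H} (hP : h ∈ P) (h0 : 0 ≤ h) :
    ∃ r ∈ P, 0 ≤ r ∧ r * r = h ∧ ∀ y, Commute y h → Commute y r := by
  have hs : IsSelfAdjoint h := IsSelfAdjoint.of_nonneg h0
  have hc : ∀ y, Commute y h → Commute y (cfc (fun t : ℝ => √t) h) := fun y hy =>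
    (hy.symm.cfc_real _).symm
  refine ⟨cfc (fun t : ℝ => √t) h, mem_of_bicomm hP fun y hy _ => hc y hy,
    cfc_nonneg fun t _ => Real.sqrt_nonneg _, ?_, hc⟩
  rw [← cfc_mul ..]
  conv_rhs => rw [← cfc_id' ℝ h]
  exact cfc_congr fun t ht => Real.mul_self_sqrt (spectrum_nonneg_of_nonneg h0 ht)

end

end Crest.Agent.R78
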