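import Crest.Agent.R78.Mean
import Crest.Agent.R78.Proj
import Crest.Agent.R78.Gen

/-!
# Row 78: Christensen's Newton iteration for amenable groups
-/

open scoped InnerProductSpace Topology ComplexConjugate
open Filter MeasureTheory

set_option linter.unusedSectionVars false

namespace Crest.Agent.R78

open Crest.Agent.R121 (Alg)

noncomputable section

universe u

variable {H : Type*} [NormedAddCommGroup H] [InnerProductSpace ℂ H] [CompleteSpace H]

universe v

theorem chr_norm_mul_star (x : Op H) (u : unitary (Op H)) : ‖x * star (u : Op H)‖ = ‖x‖ := by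
  rw [← Unitary.coe_star, CStarRing.norm_mul_coe_unitary]

theorem chr_norm_star_mul (x : Op H) (u : unitary (Op H)) : ‖star (u : Op H) * x‖ = ‖x‖ := by
  rw [← Unitary.coe_star, CStarRing.norm_coe_unitary_mul]

theorem chr_commute_star {S : Op H} {u : unitary (Op H)} (h : Commute S (u : Op H)) :
    Commute S (star (u : Op H)) := by
  have h1 : star (u : Op H) * (S * u) * star (u : Op H) =
      star (u : Op H) * (u * S) * star (u : Op H) := by rw [h.eq]
  rw [bas_su', mul_assoc, mul_assoc, bas_us, mul_one] at h1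
  exact h1.symm

theorem chr_pt1 {a y : Op H} (p : unitary (Op H)) {d e : ℝ} (he : 0 ≤ e) (hay : Commute a y)
    (ha : ‖(p : Op H) - a‖ ≤ e) (h : ‖star (p : Op H) * y - y * star (p : Op H)‖ ≤ d) :
    ‖a * star (p : Op H) * y - y * (a * star (p : Op H)) - (y - p * y * star (p : Op H))‖ ≤
      e * d := by
  have e1 : a * star (p : Op H) * y - y * (a * star (p : Op H)) - (y - p * y * star (p : Op H)) =
      -(((p : Op H) - a) * (star (p : Op H) * y - y * star (p : Op H))) := by
    simp only [sub_mul, mul_sub, mul_assoc, bas_us']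
    rw [← mul_assoc y a, ← hay.eq, mul_assoc]
    abel
  rw [e1, norm_neg]
  exact (norm_mul_le _ _).trans (mul_le_mul ha h (norm_nonneg _) he)

theorem chr_pt2 {a y : Op H} (p : unitary (Op H)) {d e : ℝ}
    (hay : Commute (star a) y)
    (ha : ‖(p : Op H) - a‖ ≤ e) (h : ‖(p : Op H) * y - y * p‖ ≤ d) :
    ‖star (a * star (p : Op H)) * y - y * star (a * star (p : Op H)) +
      (y - p * y * star (p : Op H))‖ ≤ e * d := by
  have e1 : star (a * star (p : Op H)) * y - y * star (a * star (p : Op H)) +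
      (y - p * y * star (p : Op H)) =
      -(((p : Op H) * y - y * p) * star ((p : Op H) - a)) := by
    simp only [star_mul, star_star, star_sub, sub_mul, mul_sub, mul_assoc, bas_us, mul_one]
    rw [hay.eq]
    abel
  rw [e1, norm_neg, mul_comm e]
  refine (norm_mul_le _ _).trans (mul_le_mul h ?_ (norm_nonneg _) ((norm_nonneg _).trans h))
  rwa [norm_star]

/-- The skew-adjoint generator of the correction. -/
theorem chr_skew {G : Type*} [Group G] (m : Mean G) (π : G →* unitary (Op H)) (P : VN H) {d : ℝ}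
    (hd : 0 ≤ d) (h : ∀ g, ∀ y ∈ P.commutant, ‖(π g : Op H) * y - y * π g‖ ≤ d * ‖y‖) :
    ∃ k : Op H, star k = -k ∧ ‖k‖ ≤ 2100 * d ∧
      (∀ y ∈ P.commutant, ‖k * y - y * k - (y - m.cE π y)‖ ≤ 2100 * d * (d * ‖y‖)) ∧
      ∀ S ∈ P.commutant, (∀ g, Commute S (π g : Op H)) → Commute S k := by
  choose a haP ha using fun g => exists_near_of_comm P (π g : Op H) hd (h g)
  have he : 0 ≤ 2100 * d := by positivity
  set F : G → Op H := fun g => a g * star (π g : Op H) with hF
  have hF1 : ∀ g, ‖F g - 1‖ ≤ 2100 * d := fun g => by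
    have : F g - 1 = -(((π g : Op H) - a g) * star (π g : Op H)) := by
      simp only [hF, sub_mul, bas_us]; abel
    rw [this, norm_neg, chr_norm_mul_star]
    exact ha g
  have hFb : Bdd F := mn_bdd_of_sub hF1
  have hFs : Bdd fun g => star (F g) :=
    mn_bdd_of_le hFb zero_le_one fun g => by rw [norm_star, one_mul]
  have hl : ∀ {F : G → Op H} (y : Op H), Bdd F → Bdd fun g => y * F g := fun y hb =>
    mn_bdd_of_le hb (norm_nonneg y) fun g => norm_mul_le _ _
  have hr : ∀ {F : G → Op H} (y : Op H), Bdd F → Bdd fun g => F g * y := fun y hb =>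
    mn_bdd_of_le hb (norm_nonneg y) fun g => by rw [mul_comm ‖y‖]; exact norm_mul_le _ _
  set X := m.op F with hX
  have hX1 : ‖X - 1‖ ≤ 2100 * d := m.norm_op_sub_le hF1
  have hE : ∀ y : Op H, m.op (fun g => y - (π g : Op H) * y * star (π g : Op H)) =
      y - m.cE π y := fun y => by
    rw [m.op_sub (mn_bdd_const y) (Mean.mn_bdd_conj π y), m.op_const]
    rfl
  have hEb : ∀ y : Op H, Bdd fun g => y - (π g : Op H) * y * star (π g : Op H) := fun y =>
    mn_bdd_sub (mn_bdd_const y) (Mean.mn_bdd_conj π y)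
  refine ⟨(2 : ℂ)⁻¹ • (X - star X), ?_, ?_, ?_, ?_⟩
  · rw [star_smul, star_sub, star_star, ← smul_neg, neg_sub]
    congr 1
    simp
  · have : X - star X = (X - 1) - star (X - 1) := by simp
    rw [this, norm_smul]
    have h2 := norm_sub_le (X - 1) (star (X - 1))
    rw [norm_star] at h2
    have h3 : ‖(2 : ℂ)⁻¹‖ = 2⁻¹ := by simp
    rw [h3]
    linarith
  · intro y hy
    have hc : ∀ x ∈ P, Commute x y := mem_comm.1 hy
    have h1 : ‖X * y - y * X - (y - m.cE π y)‖ ≤ 2100 * d * (d * ‖y‖) := by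
      rw [← hE, hX, ← m.op_mul_right y hFb, ← m.op_mul_left y hFb, ← m.op_sub (hr y hFb) (hl y hFb),
        ← m.op_sub (mn_bdd_sub (hr y hFb) (hl y hFb)) (hEb y)]
      refine m.norm_op_le fun g => chr_pt1 (π g) he (hc _ (haP g)) (ha g) ?_
      have := h g⁻¹ y hy
      rwa [map_inv, bas_inv] at this
    have h2 : ‖star X * y - y * star X + (y - m.cE π y)‖ ≤ 2100 * d * (d * ‖y‖) := by
      rw [← hE, hX, ← m.op_star hFb, ← m.op_mul_right y hFs, ← m.op_mul_left y hFs,
        ← m.op_sub (hr y hFs) (hl y hFs), ← m.op_add (mn_bdd_sub (hr y hFs) (hl y hFs)) (hEb y)]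
      exact m.norm_op_le fun g => chr_pt2 (π g) (hc _ (star_mem (haP g))) (ha g) (h g y hy)
    have e1 : (2 : ℂ)⁻¹ • (X - star X) * y - y * (2 : ℂ)⁻¹ • (X - star X) - (y - m.cE π y) =
        (2 : ℂ)⁻¹ • ((X * y - y * X - (y - m.cE π y)) -
          (star X * y - y * star X + (y - m.cE π y))) := by
      simp only [smul_mul_assoc, mul_smul_comm, sub_mul, mul_sub]
      module
    rw [e1, norm_smul]
    have h3 : ‖(2 : ℂ)⁻¹‖ = 2⁻¹ := by simp
    have h4 := norm_sub_le (X * y - y * X - (y - m.cE π y))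
      (star X * y - y * star X + (y - m.cE π y))
    rw [h3]
    linarith
  · intro S hS hπ
    have hc : ∀ x ∈ P, Commute x S := mem_comm.1 hS
    have h1 : Commute S X :=
      m.commute_op hFb fun g => (hc _ (haP g)).symm.mul_right (chr_commute_star (hπ g))
    have h2 : Commute S (star X) := by
      rw [hX, ← m.op_star hFb]
      refine m.commute_op hFs fun g => ?_
      simp only [hF, star_mul, star_star]
      exact (hπ g).mul_right (hc _ (star_mem (haP g))).symm
    exact (h1.sub_right h2).smul_right _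

theorem chr_cE_near {G : Type*} [Group G] (m : Mean G) (π : G →* unitary (Op H)) {y : Op H}
    {d : ℝ} (h : ∀ g, ‖(π g : Op H) * y - y * π g‖ ≤ d) : ‖m.cE π y - y‖ ≤ d := by
  refine m.norm_op_sub_le fun g => ?_
  have : (π g : Op H) * y * star (π g : Op H) - y =
      ((π g : Op H) * y - y * π g) * star (π g : Op H) := by
    simp only [sub_mul, mul_assoc, bas_us, mul_one]
  rw [this, chr_norm_mul_star]
  exact h g

theorem chr_conj {w : unitary (Op H)} {k y z : Op H} {e d : ℝ} (hk : ‖k‖ ≤ e)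
    (hw : ‖(w : Op H) - (1 + k)‖ ≤ e ^ 2) (hz : ‖z‖ ≤ ‖y‖) (hzy : ‖z - y‖ ≤ d * ‖y‖)
    (h : ‖k * y - y * k - (y - z)‖ ≤ e * (d * ‖y‖)) :
    ‖star (w : Op H) * y * w - z‖ ≤ (2 * e * d + 2 * e ^ 2) * ‖y‖ := by
  have he : 0 ≤ e := (norm_nonneg _).trans hk
  set r := (w : Op H) - (1 + k) with hr
  have e1 : star (w : Op H) * y * w - z = star (w : Op H) * (y * w - w * z) := by
    simp only [mul_sub, mul_assoc, bas_su']
  have e2 : y * w - w * z = -(k * y - y * k - (y - z)) - k * (z - y) + y * r - r * z := by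
    rw [hr]; noncomm_ring
  rw [e1, chr_norm_star_mul, e2]
  have h1 : ‖k * (z - y)‖ ≤ e * (d * ‖y‖) :=
    (norm_mul_le _ _).trans (mul_le_mul hk hzy (norm_nonneg _) he)
  have h2 : ‖y * r‖ ≤ ‖y‖ * e ^ 2 :=
    (norm_mul_le _ _).trans (mul_le_mul_of_nonneg_left hw (norm_nonneg _))
  have h3 : ‖r * z‖ ≤ e ^ 2 * ‖y‖ :=
    (norm_mul_le _ _).trans (mul_le_mul hw hz (norm_nonneg _) (sq_nonneg _))
  have h4 := norm_sub_le (-(k * y - y * k - (y - z)) - k * (z - y) + y * r) (r * z)
  have h5 := norm_add_le (-(k * y - y * k - (y - z)) - k * (z - y)) (y * r)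
  have h6 := norm_sub_le (-(k * y - y * k - (y - z))) (k * (z - y))
  rw [norm_neg] at h6
  nlinarith

/-- One step. Recipe: `exists_near_of_comm` gives `g̃ ∈ P` with `‖π g - g̃‖ ≤ c d` (`c = 2100`);
`X = mean (g̃ π(g)⋆)`, `‖X - 1‖ ≤ c d`; for `y ∈ P'`:
`[g̃ π(g)⋆, y] = g̃ [π(g)⋆, y] = π(g) [π(g)⋆, y] + O(c d²) = y - π(g) y π(g)⋆ + O(c d²)`, so
`[X, y] = y - E y + O(d²)` with `E = cE π`; the same holds for `-X⋆`; with `k = (X - X⋆)/2` and
`w = 1 + k + O(d²)` unitary (`exists_unitary_skew`), `w⋆ y w = E y + O(d²)`; take `u = w⋆`. -/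
theorem chr_step : ∃ C > 0, ∃ d₀ > 0, ∀ {H : Type u} [NormedAddCommGroup H]
    [InnerProductSpace ℂ H] [CompleteSpace H] {G : Type v} [Group G] (_ : Mean G)
    (π : G →* unitary (Op H)) (P : VN H) {d : ℝ}, 0 ≤ d → d ≤ d₀ →
    (∀ g, ∀ y ∈ P.commutant, ‖(π g : Op H) * y - y * π g‖ ≤ d * ‖y‖) →
    ∃ u : unitary (Op H), ‖(u : Op H) - 1‖ ≤ C * d ∧
      (∀ g, ∀ y ∈ (conjVN u P).commutant, ‖(π g : Op H) * y - y * π g‖ ≤ d / 2 * ‖y‖) ∧
      ∀ S ∈ P.commutant, (∀ g, Commute S (π g : Op H)) → Commute S (u : Op H) := by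
  refine ⟨4200, by norm_num, 1 / 10 ^ 8, by norm_num, ?_⟩
  intro H _ _ _ G _ m π P d hd hd₀ h
  obtain ⟨k, hk, hk1, hk2, hk3⟩ := chr_skew m π P hd h
  obtain ⟨w, hw, hw2⟩ := exists_unitary_skew hk (by linarith)
  have hw' : ‖(w : Op H) - (1 + k)‖ ≤ (2100 * d) ^ 2 :=
    hw.trans (pow_le_pow_left₀ (norm_nonneg _) hk1 2)
  refine ⟨w⁻¹, ?_, ?_, fun S hS hπ => ?_⟩
  · have e1 : ((w⁻¹ : unitary (Op H)) : Op H) - 1 = star (((w : Op H) - (1 + k)) + k) := by
      rw [bas_inv]; simp only [star_add, star_sub, star_one]; abel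
    rw [e1, norm_star]
    have := norm_add_le ((w : Op H) - (1 + k)) k
    nlinarith
  · intro g y' hy'
    rw [conjVN_commutant, mem_conjVN, bas_inv, star_star] at hy'
    set y := (w : Op H) * y' * star (w : Op H) with hy
    have hn : ‖y‖ = ‖y'‖ := bas_norm_conj w y'
    have e1 : star (w : Op H) * y * w = y' := by
      simp only [hy, mul_assoc, bas_su', bas_su, mul_one]
    have h1 := chr_conj hk1 hw' (m.norm_cE_le π y) (chr_cE_near m π fun g => h g y hy') (hk2 y hy')
    rw [e1, hn] at h1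
    have e2 : (π g : Op H) * y' - y' * π g =
        (π g : Op H) * (y' - m.cE π y) - (y' - m.cE π y) * π g := by
      rw [mul_sub, sub_mul, (m.commute_cE π y g).eq]; abel
    have h2 := norm_sub_le ((π g : Op H) * (y' - m.cE π y)) ((y' - m.cE π y) * π g)
    rw [CStarRing.norm_coe_unitary_mul, CStarRing.norm_mul_coe_unitary] at h2
    rw [e2]
    have h3 : 2 * (2 * (2100 * d) * d + 2 * (2100 * d) ^ 2) ≤ d / 2 := by nlinarith
    have h4 := mul_le_mul_of_nonneg_right h3 (norm_nonneg y')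
    linarith
  · rw [bas_inv]
    exact chr_commute_star (hw2 S (hk3 S hS hπ))

/-- An amenable group of unitaries near `P` can be moved into `P` (`newton` on `Op H`). -/
theorem christensen : ∃ C > 0, ∃ d₀ > 0, ∀ {H : Type u} [NormedAddCommGroup H]
    [InnerProductSpace ℂ H] [CompleteSpace H] {G : Type v} [Group G] (_ : Mean G)
    (π : G →* unitary (Op H)) (P : VN H) {d : ℝ}, 0 ≤ d → d ≤ d₀ →
    (∀ g, ∀ y ∈ P.commutant, ‖(π g : Op H) * y - y * π g‖ ≤ d * ‖y‖) →
    ∃ u : unitary (Op H), ‖(u : Op H) - 1‖ ≤ C * d ∧ (∀ g, (π g : Op H) ∈ conjVN u P) ∧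
      ∀ S ∈ P.commutant, (∀ g, Commute S (π g : Op H)) → Commute S (u : Op H) := by
  obtain ⟨C, hC, d₀, hd₀, hstep⟩ := chr_step.{u, v}
  refine ⟨2 * C, by positivity, d₀, hd₀, ?_⟩
  intro H _ _ _ G _ m π P d hd hdd h
  let D : Op H → ℝ → Prop := fun x δ => ∃ u : unitary (Op H), x = u ∧
    (∀ g, ∀ y ∈ (conjVN u P).commutant, ‖(π g : Op H) * y - y * π g‖ ≤ δ * ‖y‖) ∧
    ∀ S ∈ P.commutant, (∀ g, Commute S (π g : Op H)) → Commute S (u : Op H)
  obtain ⟨x, s, hx, hs, -, hD⟩ := newton D 1 hd hC.le (le_refl (2 * C * d))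
    ⟨1, rfl, by rwa [conjVN_one], fun S _ _ => Commute.one_right S⟩ (by
      rintro x δ - hδ hδd ⟨u, rfl, hu1, hu2⟩
      obtain ⟨v, hv1, hv2, hv3⟩ := hstep m π (conjVN u P) hδ (hδd.trans hdd) hu1
      refine ⟨(v * u : unitary (Op H)), ?_, v * u, rfl, ?_, fun S hS hπ => ?_⟩
      · have e1 : ((v * u : unitary (Op H)) : Op H) - u = ((v : Op H) - 1) * u := by
          rw [sub_mul, one_mul]; rfl
        rwa [dist_eq_norm, e1, CStarRing.norm_mul_coe_unitary]
      · rwa [conjVN_mul]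
      · refine (hv3 S ?_ hπ).mul_right (hu2 S hS hπ)
        rw [conjVN_commutant, mem_conjVN, mul_assoc, (hu2 S hS hπ).eq, bas_su']
        exact hS)
  choose U hU hU1 hU2 using hD
  have hxu : x ∈ unitary (Op H) :=
    isClosed_unitary.mem_of_tendsto hs (Eventually.of_forall fun n => by
      rw [hU n]; exact (U n).2)
  refine ⟨⟨x, hxu⟩, by rwa [← dist_eq_norm], fun g => bas_mem fun y' hy' => ?_, fun S hS hπ => ?_⟩
  · rw [conjVN_commutant, mem_conjVN] at hy'
    set y := star x * y' * x with hy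
    change y ∈ P.commutant at hy'
    have e1 : x * y * star x = y' := by
      have h1 : x * star x = 1 := bas_us ⟨x, hxu⟩
      calc x * (star x * y' * x) * star x = (x * star x) * y' * (x * star x) := by
            simp only [mul_assoc]
        _ = y' := by rw [h1, one_mul, mul_one]
    have ht : Tendsto (fun n => s n * y * star (s n)) atTop (𝓝 y') := by
      rw [← e1]
      exact (hs.mul_const y).mul hs.star
    have ht2 : Tendsto (fun n => ‖(π g : Op H) * (s n * y * star (s n)) -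
        (s n * y * star (s n)) * π g‖) atTop (𝓝 ‖(π g : Op H) * y' - y' * π g‖) :=
      ((ht.const_mul _).sub (ht.mul_const _)).norm
    have ht3 : Tendsto (fun n : ℕ => d / 2 ^ n * ‖y‖) atTop (𝓝 0) := by
      have := ((tendsto_pow_atTop_nhds_zero_of_lt_one (r := (2 : ℝ)⁻¹) (by norm_num)
        (by norm_num)).const_mul d).mul_const ‖y‖
      simpa [div_eq_mul_inv] using this
    have h0 : ‖(π g : Op H) * y' - y' * π g‖ ≤ 0 := by
      refine le_of_tendsto_of_tendsto' ht2 ht3 fun n => ?_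
      have := hU1 n g ((U n : Op H) * y * star (U n : Op H)) (by
        rw [conjVN_commutant]; exact conj_mem_conjVN _ hy')
      rwa [bas_norm_conj, ← hU n] at this
    exact (sub_eq_zero.1 (norm_le_zero_iff.1 h0)).symm
  · change S * x = x * S
    refine tendsto_nhds_unique (hs.const_mul S) ((hs.mul_const S).congr fun n => ?_)
    rw [hU n]
    exact (hU2 n S hS hπ).eq.symm

end

end Crest.Agent.R78
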