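import Crest.Agent.R78.PLem

/-!
# Row 78: Sakai's trick and trimming
-/

open scoped InnerProductSpace Topology ComplexConjugate
open Filter MeasureTheory

set_option linter.unusedSectionVars false

namespace Crest.Agent.R78

open Crest.Agent.R121 (Alg)

noncomputable section

universe u

variable {H : Type*} [NormedAddCommGroup H] [InnerProductSpace ℂ H] [CompleteSpace H]

theorem sak_inner (x : Op H) (v w : H) : ⟪v, (star x * x) w⟫_ℂ = ⟪x v, x w⟫_ℂ := by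
  rw [mul_apply_eq_comp, ContinuousLinearMap.star_eq_adjoint,
    ContinuousLinearMap.adjoint_inner_right]

theorem sak_re_self (v : H) : (⟪v, v⟫_ℂ).re = ‖v‖ ^ 2 := inner_self_eq_norm_sq (𝕜 := ℂ) v

theorem sak_sub_sq (v w : H) : ‖v - w‖ ^ 2 = ‖v‖ ^ 2 - 2 * (⟪v, w⟫_ℂ).re + ‖w‖ ^ 2 :=
  norm_sub_sq (𝕜 := ℂ) v w

theorem sak_add_sq (v w : H) : ‖v + w‖ ^ 2 ≤ 2 * ‖v‖ ^ 2 + 2 * ‖w‖ ^ 2 := by
  have h := parallelogram_law_with_norm ℂ v w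
  nlinarith [sq_nonneg ‖v - w‖]

theorem sak_apply_le {x : Op H} (hx : ‖x‖ ≤ 1) (v : H) : ‖x v‖ ≤ ‖v‖ :=
  (x.le_opNorm v).trans (mul_le_of_le_one_left (norm_nonneg _) hx)

theorem sak_apply_sq {x : Op H} (hx : ‖x‖ ≤ 1) (v : H) : ‖x v‖ ^ 2 ≤ ‖v‖ ^ 2 :=
  pow_le_pow_left₀ (norm_nonneg _) (sak_apply_le hx v) 2

theorem sak_norm_one_sub (x : Op H) {c : ℂ} (hc : 0 ≤ c.re) :
    ‖1 - c • (star x * x)‖ ≤ 1 + ‖c‖ ^ 2 * ‖star x * x‖ ^ 2 := by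
  refine ContinuousLinearMap.opNorm_le_bound _ (by positivity) fun v => ?_
  refine (sq_le_sq₀ (norm_nonneg _) (by positivity)).1 ?_
  have h1 : ‖c • (star x * x) v‖ ^ 2 ≤ (‖c‖ * (‖star x * x‖ * ‖v‖)) ^ 2 := by
    rw [norm_smul]
    gcongr
    exact ContinuousLinearMap.le_opNorm _ _
  have h2 : 0 ≤ (⟪v, c • (star x * x) v⟫_ℂ).re := by
    rw [inner_smul_right, sak_inner, inner_self_eq_norm_sq_to_K]
    have e : ((‖x v‖ : ℂ)) ^ 2 = ((‖x v‖ ^ 2 : ℝ) : ℂ) := by push_cast; rfl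
    change 0 ≤ (c * ((‖x v‖ : ℂ)) ^ 2).re
    rw [e, Complex.re_mul_ofReal]
    positivity
  change ‖v - c • (star x * x) v‖ ^ 2 ≤ _
  rw [sak_sub_sq]
  have h3 : 0 ≤ ‖c‖ ^ 2 * ‖star x * x‖ ^ 2 * ‖v‖ ^ 2 := by positivity
  have h4 : 0 ≤ (‖c‖ ^ 2 * ‖star x * x‖ ^ 2 * ‖v‖) ^ 2 := by positivity
  linarith

theorem sak_pos {A : VN H} {ξ ζ : H}
    (h : ∀ z ∈ A, ‖z‖ ≤ 1 → (⟪ξ, z ζ⟫_ℂ).re ≤ (⟪ξ, ζ⟫_ℂ).re) {x : Op H} (hx : x ∈ A) {c : ℂ}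
    (hc : 0 ≤ c.re) : 0 ≤ (c * ⟪x ξ, x ζ⟫_ℂ).re := by
  have h1 : ∀ z ∈ A, ∀ r : ℝ, 0 < r → ‖z‖ ≤ r → (⟪ξ, z ζ⟫_ℂ).re ≤ r * (⟪ξ, ζ⟫_ℂ).re := by
    intro z hz r hr hzr
    have h2 := h (((r⁻¹ : ℝ) : ℂ) • z) (smul_mem' _ hz) (by
      rw [norm_smul, Complex.norm_real, Real.norm_of_nonneg (inv_pos.2 hr).le]
      exact inv_mul_le_one_of_le₀ hzr hr.le)
    rwa [smul_apply, inner_smul_right, Complex.re_ofReal_mul,
      inv_mul_le_iff₀ hr] at h2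
  have h0 : 0 ≤ (⟪ξ, ζ⟫_ℂ).re := by simpa using h 0 (zero_mem _) (by simp)
  refine le_of_forall_pos_le_add fun ε hε => ?_
  obtain ⟨K, hK⟩ : ∃ K, K = ‖c‖ ^ 2 * ‖star x * x‖ ^ 2 * (⟪ξ, ζ⟫_ℂ).re := ⟨_, rfl⟩
  have hK0 : 0 ≤ K := by rw [hK]; positivity
  obtain ⟨t, ht, htK⟩ : ∃ t : ℝ, 0 < t ∧ t * K ≤ ε :=
    ⟨ε / (K + 1), by positivity, by
      rw [div_mul_eq_mul_div, div_le_iff₀ (by positivity)]
      nlinarith⟩
  have h2 := h1 (1 - ((t : ℂ) * c) • (star x * x))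
    (sub_mem (one_mem _) (smul_mem' _ (mul_mem (star_mem hx) hx))) _ (by positivity)
    (sak_norm_one_sub x (by rw [Complex.re_ofReal_mul]; positivity))
  rw [sub_apply, smul_apply, inner_sub_right,
    inner_smul_right, sak_inner, one_apply_eq_self, mul_assoc, Complex.sub_re,
    Complex.re_ofReal_mul, norm_mul, Complex.norm_real, Real.norm_of_nonneg ht.le] at h2
  have h3 : t * 0 ≤ t * ((c * ⟪x ξ, x ζ⟫_ℂ).re + t * K) := by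
    rw [hK]
    linarith
  linarith [le_of_mul_le_mul_left h3 ht]

theorem sak_bdd (A : VN H) (ξ η : H) :
    BddAbove {t : ℝ | ∃ x ∈ A, ‖x‖ ≤ 1 ∧ t = (⟪ξ, x η⟫_ℂ).re} := by
  refine ⟨‖ξ‖ * ‖η‖, ?_⟩
  rintro _ ⟨x, -, hx, rfl⟩
  exact (re_inner_le_norm (𝕜 := ℂ) _ _).trans
    (mul_le_mul_of_nonneg_left (sak_apply_le hx η) (norm_nonneg _))

/-- A maximiser of `v ↦ re ⟪ξ, v η⟫` on the unit ball of `A` (weak ultralimit of a maximising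
sequence) makes `x ↦ ⟪ξ, x v η⟫` positive: with `φ x = ⟪ξ, x v η⟫`, `re φ(x) ≤ re φ(1)` for all
contractions `x ∈ A`; `x = (1 + i t y)/√(1 + t²)` (`y = y⋆`, `‖y‖ ≤ 1`) gives `im φ(y) = 0`, and
`x = 1 - y` (`0 ≤ y ≤ 1`) gives `re φ(y) ≥ 0`. -/
theorem exists_maximiser (A : VN H) (ξ η : H) :
    ∃ v ∈ A, ‖v‖ ≤ 1 ∧ (⟪ξ, η⟫_ℂ).re ≤ (⟪ξ, v η⟫_ℂ).re ∧
      ∀ x ∈ A, (⟪x ξ, x (v η)⟫_ℂ).im = 0 ∧ 0 ≤ (⟪x ξ, x (v η)⟫_ℂ).re := by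
  obtain ⟨u, -, hu, hu'⟩ := exists_seq_tendsto_sSup
    (S := {t : ℝ | ∃ x ∈ A, ‖x‖ ≤ 1 ∧ t = (⟪ξ, x η⟫_ℂ).re}) ⟨_, 0, zero_mem _, by simp, rfl⟩
    (sak_bdd A ξ η)
  choose x hxA hx1 hxu using hu'
  obtain ⟨v, hv⟩ := exists_wlim (Ultrafilter.of atTop) (T := x) (Eventually.of_forall hx1)
  have hvA : v ∈ A := hv.mem (Eventually.of_forall hxA)
  have hv1 : ‖v‖ ≤ 1 := hv.norm_le (Eventually.of_forall hx1)
  have hmax : ∀ z ∈ A, ‖z‖ ≤ 1 → (⟪ξ, z η⟫_ℂ).re ≤ (⟪ξ, v η⟫_ℂ).re := by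
    intro z hz hz1
    have h1 := (Complex.continuous_re.tendsto _).comp (hv η ξ)
    have h2 := (hu.congr hxu).mono_left (Ultrafilter.of_le atTop)
    rw [tendsto_nhds_unique h1 h2]
    exact le_csSup (sak_bdd A ξ η) ⟨z, hz, hz1, rfl⟩
  refine ⟨v, hvA, hv1, hmax 1 (one_mem _) ContinuousLinearMap.norm_id_le, fun y hy => ?_⟩
  have key := fun c hc => sak_pos (A := A) (ξ := ξ) (ζ := v η) (fun z hz hz1 => hmax (z * v)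
    (mul_mem hz hvA) ((norm_mul_le _ _).trans (mul_le_one₀ hz1 (norm_nonneg _) hv1))) hy (c := c) hc
  have h1 := key 1 (by simp)
  have h2 := key Complex.I (by simp)
  have h3 := key (-Complex.I) (by simp)
  simp only [one_mul, neg_mul, Complex.neg_re, Complex.I_mul_re] at h1 h2 h3
  exact ⟨by linarith, h1⟩

theorem sak_convex {s : ℕ → ℝ} {C : ℝ} (h : ∀ m, 2 * s (m + 1) ≤ s m + s (m + 1 + 1))
    (hC : ∀ m, s m ≤ C) : s 1 ≤ s 0 := by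
  have h1 : ∀ m : ℕ, s 1 - s 0 ≤ s (m + 1) - s m ∧ s 0 + m * (s 1 - s 0) ≤ s m := by
    intro m
    induction m with
    | zero => simp
    | succ m ih =>
      push_cast
      constructor <;> linarith [h m, ih.1, ih.2]
  by_contra hc
  obtain ⟨m, hm⟩ := exists_lt_nsmul (sub_pos.2 (not_le.1 hc)) (C - s 0)
  rw [nsmul_eq_mul] at hm
  linarith [(h1 m).2, hC m]

/-- Sakai's power trick. With `ω = ⟪ξ, · ξ⟫`, `y = x⋆ x`: hermiticity gives `ω(a h) = ω(h⋆ a)` for all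
`a ∈ A`; Cauchy–Schwarz `ω(y h^m)² ≤ ω(y) ω((h^m)⋆ y h^m) = ω(y) ω(y h^{2m})`; iterate along
`m = 2^n` and use `|ω(y h^m)| ≤ ‖y‖ ‖ξ‖²`. -/
theorem sakai_power {A : VN H} {ξ : H} {h : Op H} (hA : h ∈ A) (hn : ‖h‖ ≤ 1)
    (h₀ : ∀ x ∈ A, (⟪x ξ, x (h ξ)⟫_ℂ).im = 0) {x : Op H} (hx : x ∈ A) :
    (⟪x ξ, x (h ξ)⟫_ℂ).re ≤ ‖x ξ‖ ^ 2 := by
  have herm : ∀ a ∈ A, ∀ b ∈ A, (⟪a ξ, b (h ξ)⟫_ℂ).re = (⟪b ξ, a (h ξ)⟫_ℂ).re := by
    intro a ha b hb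
    have h1 := h₀ (a + Complex.I • b) (add_mem ha (smul_mem' _ hb))
    simp only [add_apply, smul_apply, inner_add_left,
      inner_add_right, inner_smul_left, inner_smul_right, Complex.add_im, Complex.conj_I, neg_mul,
      Complex.neg_im, Complex.I_mul_im, Complex.neg_re, Complex.I_mul_re, Complex.add_re,
      h₀ a ha, h₀ b hb] at h1
    linarith
  have h1 := sak_convex (s := fun m => ‖(x * h ^ m) ξ‖ ^ 2) (C := (‖x‖ * ‖ξ‖) ^ 2)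
    (fun m => by
      have h2 := herm (x * h ^ (m + 1)) (mul_mem hx (pow_mem hA _)) (x * h ^ m)
        (mul_mem hx (pow_mem hA _))
      have e : ∀ k, (x * h ^ k) (h ξ) = (x * h ^ (k + 1)) ξ := fun k => by
        rw [pow_succ, ← mul_assoc]
        rfl
      rw [e, e, sak_re_self] at h2
      have h3 := sak_sub_sq ((x * h ^ m) ξ) ((x * h ^ (m + 1 + 1)) ξ)
      nlinarith [sq_nonneg ‖(x * h ^ m) ξ - (x * h ^ (m + 1 + 1)) ξ‖])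
    fun m => by
      refine pow_le_pow_left₀ (norm_nonneg _) ((x.le_opNorm _).trans
        (mul_le_mul_of_nonneg_left ?_ (norm_nonneg _))) 2
      induction m with
      | zero => simp
      | succ m ih =>
        rw [pow_succ']
        exact (sak_apply_le hn _).trans ih
  simp only [pow_one, pow_zero, mul_one, mul_apply_eq_comp] at h1
  have h3 := sak_sub_sq (x ξ) (x (h ξ))
  nlinarith [sq_nonneg ‖x ξ - x (h ξ)‖]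

/-- Single vector Sakai lemma: `exists_maximiser` for `η = h ξ`, `sakai_power` for `v h`,
`exists_rn_pos`; `‖v η - ξ‖² ≤ ‖η‖² - 2 re ⟪ξ, η⟫ + ‖ξ‖²`. -/
theorem sakai_vec {A : VN H} {ξ : H} (hc : Cyc A ξ) {h : Op H} (hA : h ∈ A) (hn : ‖h‖ ≤ 1) :
    ∃ v ∈ A, ‖v‖ ≤ 1 ∧ ‖v (h ξ) - ξ‖ ≤ ‖h ξ - ξ‖ ∧
      ∃ y ∈ A.commutant, ‖y‖ ≤ 1 ∧ v (h ξ) = y ξ := by
  obtain ⟨v, hvA, hv1, hle, hpos⟩ := exists_maximiser A ξ (h ξ)
  obtain ⟨y, hy, hy1, hyξ⟩ := exists_rn_pos hc hpos fun x hx =>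
    sakai_power (h := v * h) (mul_mem hvA hA)
      ((norm_mul_le _ _).trans (mul_le_one₀ hv1 (norm_nonneg _) hn)) (fun z hz => (hpos z hz).1) hx
  refine ⟨v, hvA, hv1, ?_, y, hy, hy1, hyξ.symm⟩
  refine (sq_le_sq₀ (norm_nonneg _) (norm_nonneg _)).1 ?_
  rw [norm_sub_rev, norm_sub_rev (h ξ), sak_sub_sq, sak_sub_sq]
  linarith [sak_apply_sq hv1 (h ξ)]

/-- Weak domination of the marginal of a family of vectors on `A`. -/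
def WDom (A : VN H) (ξ : H) {ι : Type*} [Fintype ι] (η : ι → H) (K δ : ℝ) : Prop :=
  ∀ x ∈ A, ‖x‖ ≤ 1 → ∑ j, ‖x (η j)‖ ^ 2 ≤ K * ‖x ξ‖ ^ 2 + δ

/-- TRIM. Recipe: `plemma` for `ρ = ∑ ω_{η_j}`, `e = 1` and the constant `(1 + κ) K` gives `p`,
`q = 1 - p` with `(1+κ) K ‖q ξ‖² ≤ ρ q ≤ K ‖q ξ‖² + δ`, so `K ‖q ξ‖² ≤ δ/κ`, `ρ q ≤ (1 + 1/κ) δ`.
`sakai_vec` for `h = p` gives `v`, `y` with `v p ξ = y ξ`; `b = v p`. Then
`∑ ‖x b η_j‖² ≤ (1+κ) K ‖x v p ξ‖² = (1+κ) K ‖y x ξ‖²` and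
`∑ ‖η_j - b η_j‖² ≤ 2 ρ q + 2 (1+κ) K ‖(1 - v) p ξ‖² ≤ 2 ρ q + 8 (1+κ) K ‖q ξ‖²`. -/
theorem trim {A : VN H} {ξ : H} (hc : Cyc A ξ) {ι : Type*} [Fintype ι] (η : ι → H) {K δ κ : ℝ}
    (hK : 0 ≤ K) (hκ : 0 < κ) (hκ1 : κ ≤ 1) (h : WDom A ξ η K δ) :
    ∃ b ∈ A, ‖b‖ ≤ 1 ∧ ∑ j, ‖η j - b (η j)‖ ^ 2 ≤ 20 * δ / κ ∧
      ∀ x ∈ A, ∑ j, ‖x (b (η j))‖ ^ 2 ≤ (1 + κ) * K * ‖x ξ‖ ^ 2 := by
  have hK' : 0 ≤ (1 + κ) * K := by positivity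
  obtain ⟨r, hrA, hr, -, h1, h2⟩ := plemma (posF_vec A η) ξ hK' (IsStarProjection.one _) (one_mem _)
  simp only [sak_inner, sak_re_self] at h2
  have hq := hr.one_sub
  have h3 : ∀ w : H, (⟪w, (1 - r) w⟫_ℂ).re = ‖(1 - r) w‖ ^ 2 := fun w => by
    rw [← sak_re_self, ← sak_inner, hq.isSelfAdjoint.star_eq, hq.isIdempotentElem.eq]
  simp only [h3] at h1
  have h4 := h (1 - r) (sub_mem (one_mem _) hrA) hq.norm_le
  obtain ⟨v, hvA, hv1, hvξ, y, hy, hy1, hyξ⟩ := sakai_vec hc hrA hr.norm_le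
  refine ⟨v * r, mul_mem hvA hrA,
    (norm_mul_le _ _).trans (mul_le_one₀ hv1 (norm_nonneg _) hr.norm_le), ?_, fun x hx => ?_⟩
  · have h5 := h2 (1 - v) (sub_mem (one_mem _) hvA)
    have h6 : ‖(1 - v) (r ξ)‖ ≤ 2 * ‖(1 - r) ξ‖ := by
      have e1 : (1 - v) (r ξ) = (r ξ - ξ) - (v (r ξ) - ξ) := by simp
      have e2 : ‖(1 - r) ξ‖ = ‖r ξ - ξ‖ := norm_sub_rev _ _
      rw [e1, e2]
      linarith [norm_sub_le (r ξ - ξ) (v (r ξ) - ξ)]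
    have h7 := mul_le_mul_of_nonneg_left (pow_le_pow_left₀ (norm_nonneg _) h6 2) hK'
    have h8 : ∑ j, ‖η j - (v * r) (η j)‖ ^ 2 ≤
        2 * ∑ j, ‖(1 - r) (η j)‖ ^ 2 + 2 * ∑ j, ‖((1 - v) * r) (η j)‖ ^ 2 := by
      rw [Finset.mul_sum, Finset.mul_sum, ← Finset.sum_add_distrib]
      refine Finset.sum_le_sum fun j _ => le_trans (le_of_eq ?_) (sak_add_sq _ _)
      simp
    have h9 : 0 ≤ K * ‖(1 - r) ξ‖ ^ 2 := by positivity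
    generalize ‖(1 - r) ξ‖ = n at *
    rw [le_div_iff₀ hκ]
    have h10 : κ * (K * n ^ 2) ≤ δ := by linarith
    have h11 : 0 ≤ κ * (K * n ^ 2) := by positivity
    have h12 : κ * (K * n ^ 2) ≤ K * n ^ 2 := mul_le_of_le_one_left h9 hκ1
    have h13 : ∑ j, ‖η j - (v * r) (η j)‖ ^ 2 ≤ 2 * δ + 18 * (K * n ^ 2) := by linarith
    have h14 := mul_le_mul_of_nonneg_right h13 hκ.le
    have h15 : δ * κ ≤ δ := mul_le_of_le_one_right (h11.trans h10) hκ1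
    linarith
  · have h5 := h2 (x * v) (mul_mem hx hvA)
    have e : (x * v) (r ξ) = y (x ξ) := by
      rw [mul_apply_eq_comp, hyξ, ← mul_apply_eq_comp,
        (mem_comm.1 hy x hx).eq, mul_apply_eq_comp]
    rw [e] at h5
    exact h5.trans (mul_le_mul_of_nonneg_left (sak_apply_sq hy1 _) hK')

/-- Two-sided TRIM: trim on `A` by `b`, note that `(b η_j)` is still weakly dominated on `B`
(`‖y b η‖ = ‖b y η‖ ≤ ‖y η‖`), trim on `B` by `b'`, take Radon–Nikodym columns (`exists_rn`) and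
divide by `√(2K)`. -/
theorem trim_two {A B : VN H} (hB : A.commutant = B) {ξ : H} (hA : Cyc A ξ) (hB' : Cyc B ξ)
    {ι : Type} [Fintype ι] (η : ι → H) {K δ : ℝ} (hK : 0 < K) (h₁ : WDom A ξ η K δ)
    (h₂ : WDom B ξ η K δ) :
    ∃ (a a' : ι → Op H), (∀ j, a j ∈ A) ∧ (∀ j, a' j ∈ B) ∧ (∀ j, a j ξ = a' j ξ) ∧ Col a 1 ∧
      Col a' 1 ∧ ∑ j, ‖η j - (√(2 * K) : ℂ) • a j ξ‖ ^ 2 ≤ 80 * δ := by
  subst hB
  have hc : ∀ x ∈ A, ∀ y ∈ A.commutant, ∀ w, x (y w) = y (x w) := fun x hx y hy w => by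
    rw [← mul_apply_eq_comp, (mem_comm.1 hy x hx).eq, mul_apply_eq_comp]
  obtain ⟨b, hb, hb1, e1, d1⟩ := trim hA η hK.le one_pos le_rfl h₁
  obtain ⟨b', hb', hb1', e2, d2⟩ := trim hB' (fun j => b (η j)) hK.le one_pos le_rfl (δ := δ)
    fun y hy hy1 => le_trans (Finset.sum_le_sum fun j _ => by
      rw [← hc b hb y hy]
      exact sak_apply_sq hb1 _) (h₂ y hy hy1)
  have hs : 0 < √(2 * K) := Real.sqrt_pos.2 (by positivity)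
  have key : ∀ x : Op H, ∑ j, ‖x (b' (b (η j)))‖ ^ 2 ≤ (1 + 1) * K * ‖x ξ‖ ^ 2 →
      ∑ j, ‖x (((√(2 * K) : ℝ) : ℂ)⁻¹ • b' (b (η j)))‖ ^ 2 ≤ 1 ^ 2 * ‖x ξ‖ ^ 2 := fun x hx => by
    simp only [map_smul, norm_smul, mul_pow, norm_inv, Complex.norm_real, Real.norm_of_nonneg hs.le,
      inv_pow, Real.sq_sqrt (by positivity : 0 ≤ 2 * K), ← Finset.mul_sum]
    rw [inv_mul_le_iff₀ (by positivity)]
    linarith
  obtain ⟨a', ha', ha'ξ, ca'⟩ := exists_rn (A := A) ξ _ zero_le_one fun x hx => key x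
    (le_trans (Finset.sum_le_sum fun j _ => by
      rw [hc x hx b' hb']
      exact sak_apply_sq hb1' _) (d1 x hx))
  obtain ⟨a, ha, haξ, ca⟩ := exists_rn (A := A.commutant) ξ _ zero_le_one fun x hx => key x (d2 x hx)
  rw [VonNeumannAlgebra.commutant_commutant] at ha
  refine ⟨a, a', ha, ha', fun j => by rw [haξ, ha'ξ], ca, ca', ?_⟩
  have h8 : ∑ j, ‖η j - (√(2 * K) : ℂ) • a j ξ‖ ^ 2 ≤
      2 * ∑ j, ‖η j - b (η j)‖ ^ 2 + 2 * ∑ j, ‖b (η j) - b' (b (η j))‖ ^ 2 := by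
    rw [Finset.mul_sum, Finset.mul_sum, ← Finset.sum_add_distrib]
    refine Finset.sum_le_sum fun j _ => le_trans (le_of_eq ?_) (sak_add_sq _ _)
    rw [haξ, smul_inv_smul₀ (Complex.ofReal_ne_zero.2 hs.ne'), sub_add_sub_cancel]
  linarith

end

end Crest.Agent.R78
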