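import Crest.Agent.R78.Mix2
import Crest.Agent.R78.Sak

/-!
# Row 78: completion of sub-couplings
-/

open scoped InnerProductSpace Topology ComplexConjugate
open Filter MeasureTheory

set_option linter.unusedSectionVars false

namespace Crest.Agent.R78

open Crest.Agent.R121 (Alg)

noncomputable section

universe u

variable {H : Type*} [NormedAddCommGroup H] [InnerProductSpace ℂ H] [CompleteSpace H]

variable {A B : VN H} {ξ : H}

theorem compl_inner (v w : H) : ⟪eZ A ξ v, w⟫_ℂ = ⟪v, eZ A ξ w⟫_ℂ := by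
  rw [← bas_star_inner, (eZ_proj A ξ).isSelfAdjoint.star_eq]

theorem compl_norm {r g : Op H} (h : (star g * g) ξ = eZ A ξ ((star r * r) ξ)) :
    ‖g ξ‖ ^ 2 = ‖r ξ‖ ^ 2 := by
  rw [← Graph_norm_sq_star, ← Graph_norm_sq_star, h, ← compl_inner, eZ_of_mem (self_mem_zsp A ξ)]

/-- Mazur. Recipe: the functionals `φ_c x = ∑ ⟪a_j η, x a_j η⟫` on `Alg A` (`c.Dfc 1`, i.e. all
couplings with a given defect bound; take any fixed `τ > 0`) form a convex set (`mix`) of normal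
functionals (`R121.isNormal_vecF`). If `φ₀ = ⟪ζ, · ζ⟫` were not in its norm closure, the geometric
Hahn–Banach theorem in `Alg A →L[ℂ] ℂ` and `R121.exists_bid`/`normal_bid` would give `x ∈ A`
separating them; but `mix0`, `exists_cen_exp` and `Cyc.strong` give `φ_c x → ⟪η, y η⟫ = φ₀ x`
(`y` central with `y ξ = eZ (x ξ)`; `⟪r ξ, y r ξ⟫ = ⟪y⋆ ξ, eZ (r⋆ r ξ)⟫ = ⟪g⋆ g ξ, y ξ⟫ = ⟪g ξ, x g ξ⟫`). -/
theorem Tom.mazur (T : Tom A B ξ) {r g : Op H} (hr : r ∈ A) (hg : Cen A g)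
    (h : (star g * g) ξ = eZ A ξ ((star r * r) ξ)) {δ : ℝ} (hδ : 0 < δ) :
    ∃ c : Cpl A B ξ, ∀ x ∈ A,
      ‖∑ j, ⟪c.a j (r ξ), x (c.a j (r ξ))⟫_ℂ - ⟪g ξ, x (g ξ)⟫_ℂ‖ ≤ δ * ‖x‖ := by
  let Φ : Cpl A B ξ → Alg A →L[ℂ] ℂ := fun c => ∑ j, R121.vecF A (c.a j (r ξ)) (c.a j (r ξ))
  have hΦ : ∀ c (x : Alg A), Φ c x = ∑ j, ⟪c.a j (r ξ), (x : Op H) (c.a j (r ξ))⟫_ℂ := fun c x => by
    simp only [Φ, sum_apply, R121.vecF_apply]
  have hΦ' : ∀ c (x : Alg A), Φ c x = ⟪r ξ, c.cp x (r ξ)⟫_ℂ := fun c x => by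
    simp only [hΦ, Cpl.cp, sum_apply, inner_sum, mul_apply_eq_comp, bas_inner_star]
  have hconv : Convex ℝ (Set.range Φ) := by
    rintro _ ⟨c, rfl⟩ _ ⟨d, rfl⟩ s t hs ht hst
    obtain rfl : t = 1 - s := by linarith
    refine ⟨Cpl.mix s hs (by linarith) c d, ContinuousLinearMap.ext fun x => ?_⟩
    rw [add_apply, smul_apply, smul_apply, hΦ', hΦ', hΦ', Cpl.mix_cp, add_apply, smul_apply,
      smul_apply, inner_add_right, inner_smul_right, inner_smul_right, Complex.real_smul,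
      Complex.real_smul]
  have hmem : R121.vecF A (g ξ) (g ξ) ∈ closure (Set.range Φ) := by
    by_contra hn
    obtain ⟨f, u, h1, h2⟩ :=
      RCLike.geometric_hahn_banach_closed_point (𝕜 := ℂ) hconv.closure isClosed_closure hn
    obtain ⟨x, hx⟩ : ∃ x : Alg A, ∀ ω, R121.IsNormal A ω → ω x = f ω :=
      ⟨_, fun ω hω => R121.normal_bid f hω⟩
    obtain ⟨y, hy, hyξ, -⟩ := T.exists_cen_exp x.2
    have e : ⟪g ξ, (x : Op H) (g ξ)⟫_ℂ = ⟪r ξ, y (r ξ)⟫_ℂ := by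
      rw [← cpl_app (mem_comm.1 hy.2 r hr), hyξ, cpl_app (mem_comm.1 hg.2 _ x.2), ← bas_star_inner,
        ← bas_star_inner r, ← compl_inner, ← mul_apply_eq_comp, ← mul_apply_eq_comp (star r), h]
    rw [← hx _ (R121.isNormal_vecF _ _), R121.vecF_apply, e] at h2
    refine h2.not_ge (le_of_forall_pos_le_add fun ε hε => ?_)
    obtain ⟨δ, hδ, h3⟩ := Cyc.strong (A := A) (T.comm.symm ▸ T.cycB) (C := ‖y‖ + ‖(x : Op H)‖) (r ξ)
      (ε := ε / (‖r ξ‖ + 1)) (by positivity)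
    obtain ⟨c, -, hc⟩ := T.mix0 (fun _ : Unit => (x : Op H) ξ) hδ one_pos
    have h4 := h3 (y - c.cp x) (sub_mem hy.1 (c.cp_mem x.2))
      ((norm_sub_le _ _).trans (add_le_add le_rfl (c.norm_cp_le _)))
      (by rw [sub_apply, c.cp_apply T.comm x.2, hyξ, norm_sub_rev]; exact hc ())
    have h5 := h1 _ (subset_closure ⟨c, rfl⟩)
    rw [← hx _ (sum_mem fun j _ => R121.isNormal_vecF _ _)] at h5
    have h6 := re_inner_le_norm (𝕜 := ℂ) (r ξ) ((y - c.cp x) (r ξ))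
    rw [sub_apply, inner_sub_right, map_sub, ← hΦ', ← sub_apply] at h6
    have h7 : ‖r ξ‖ * (ε / (‖r ξ‖ + 1)) ≤ ε := by
      rw [← mul_div_assoc, div_le_iff₀ (by positivity)]
      nlinarith
    have h8 := mul_le_mul_of_nonneg_left h4 (norm_nonneg (r ξ))
    linarith
  obtain ⟨_, ⟨c, rfl⟩, hc⟩ := Metric.mem_closure_iff.1 hmem δ hδ
  refine ⟨c, fun x hx => ?_⟩
  have := (Φ c - R121.vecF A (g ξ) (g ξ)).le_of_opNorm_le (c := δ)
    (by rw [← dist_eq_norm, dist_comm]; exact hc.le) ⟨x, hx⟩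
  rwa [sub_apply, hΦ] at this

/-- A morphism from `r ξ` to `g ξ`. Recipe: `mazur` gives `WDom A (g ξ) (a_j r ξ) 1 δ`; `trim` with
small `κ` (`g ξ` is cyclic because `g` is invertible and central), `exists_rn`, divide by
`√(1 + κ)`. Note `‖g ξ‖ = ‖r ξ‖`. -/
theorem Tom.half_complete (T : Tom A B ξ) {r g g' : Op H} (hr : r ∈ A) (hg : Cen A g)
    (hg' : Cen A g') (hgg : g' * g = 1) (h : (star g * g) ξ = eZ A ξ ((star r * r) ξ)) {τ : ℝ}
    (hτ : 0 < τ) :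
    ∃ (ι : Type) (_ : Fintype ι) (m f : ι → Op H), (∀ j, m j ∈ A) ∧ (∀ j, f j ∈ B) ∧ Col m 1 ∧
      Col f 1 ∧ (∀ j, m j (r ξ) = f j (g ξ)) ∧ ‖r ξ‖ ^ 2 - τ ≤ ∑ j, ‖m j (r ξ)‖ ^ 2 := by
  obtain ⟨κ, hκ, hκ1, hκτ⟩ : ∃ κ : ℝ, 0 < κ ∧ κ ≤ 1 ∧ κ * (41 + 3 * ‖r ξ‖ ^ 2) ≤ τ :=
    ⟨min 1 (τ / (41 + 3 * ‖r ξ‖ ^ 2)), by positivity, min_le_left _ _,
      (le_div_iff₀ (by positivity)).1 (min_le_right _ _)⟩
  obtain ⟨c, hc⟩ := T.mazur hr hg h (δ := κ ^ 3) (by positivity)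
  have h1 : ∀ x ∈ A, ‖x‖ ≤ 1 → |∑ j, ‖x (c.a j (r ξ))‖ ^ 2 - ‖x (g ξ)‖ ^ 2| ≤ κ ^ 3 := fun x hx hx1 => by
    have := (Complex.abs_re_le_norm _).trans (hc _ (mul_mem (star_mem hx) hx))
    simp only [Complex.sub_re, Complex.re_sum, Graph_norm_sq_star] at this
    refine this.trans (mul_le_of_le_one_right (by positivity) ?_)
    rw [CStarRing.norm_star_mul_self]
    exact mul_le_one₀ hx1 (norm_nonneg _) hx1
  have hcyc : Cyc A (g ξ) := Dense.mono (by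
    rintro _ ⟨x, hx, rfl⟩
    refine ⟨x * g', mul_mem hx hg'.1, ?_⟩
    change (x * g' * g) ξ = x ξ
    rw [mul_assoc, hgg, mul_one]) T.cycA
  obtain ⟨b, hb, hb1, h2, h3⟩ := trim hcyc (fun j => c.a j (r ξ)) (K := 1) (δ := κ ^ 3) zero_le_one
    hκ hκ1 fun x hx hx1 => by linarith [(abs_le.1 (h1 x hx hx1)).2]
  have hs : 0 ≤ (1 + κ)⁻¹ := by positivity
  let m : c.ι → Op H := fun j => (√(1 + κ)⁻¹ : ℂ) • (b * c.a j)
  have hm : ∀ (x : Op H) (v : H),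
      ∑ j, ‖x (m j v)‖ ^ 2 = (1 + κ)⁻¹ * ∑ j, ‖x (b (c.a j v))‖ ^ 2 := fun x v => by
    rw [Finset.mul_sum]
    refine Finset.sum_congr rfl fun j _ => ?_
    rw [← mul_apply_eq_comp, mul_smul_comm, cpl_norm hs]
    rfl
  have hcol : Col m 1 := fun v => by
    refine (hm 1 v).trans_le ((mul_le_of_le_one_left (by positivity)
      (inv_le_one_of_one_le₀ (by linarith))).trans (le_trans ?_ (c.col v)))
    exact Finset.sum_le_sum fun j _ => sak_apply_sq hb1 _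
  obtain ⟨y, hy, hyξ, hy1⟩ := exists_rn (A := A) (g ξ) (fun j => m j (r ξ)) zero_le_one fun x hx => by
    rw [hm, inv_mul_le_iff₀ (by positivity), one_pow, ← mul_assoc]
    exact h3 x hx
  refine ⟨c.ι, inferInstance, m, y, fun j => smul_mem' _ (mul_mem hb (c.mem j)),
    fun j => T.comm ▸ hy j, hcol, hy1, fun j => (hyξ j).symm, ?_⟩
  have h4 := (abs_le.1 (h1 1 (one_mem _) pj_norm_one)).1
  have h5 := hm 1 (r ξ)
  have h6 := hcol (r ξ)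
  simp only [one_apply_eq_self, compl_norm h, one_pow, one_mul] at h4 h5 h6
  have h7 : κ * ∑ j, ‖c.a j (r ξ)‖ ^ 2 ≤ κ * (1 + κ) * ∑ j, ‖b (c.a j (r ξ))‖ ^ 2 +
      (1 + κ) * ∑ j, ‖c.a j (r ξ) - b (c.a j (r ξ))‖ ^ 2 := by
    simp only [Finset.mul_sum, ← Finset.sum_add_distrib]
    refine Finset.sum_le_sum fun j _ => ?_
    have := pow_le_pow_left₀ (norm_nonneg _) (norm_le_insert' (c.a j (r ξ)) (b (c.a j (r ξ)))) 2
    nlinarith [sq_nonneg (κ * ‖b (c.a j (r ξ))‖ - ‖c.a j (r ξ) - b (c.a j (r ξ))‖)]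
  rw [eq_inv_mul_iff_mul_eq₀ (by positivity)] at h5
  rw [show 20 * κ ^ 3 / κ = 20 * κ ^ 2 by field_simp] at h2
  rw [← h5] at h7
  have h0 : 0 ≤ ∑ j, ‖m j (r ξ)‖ ^ 2 := by positivity
  generalize ∑ j, ‖m j (r ξ)‖ ^ 2 = μ at *
  generalize ∑ j, ‖c.a j (r ξ)‖ ^ 2 = S at *
  generalize ∑ j, ‖c.a j (r ξ) - b (c.a j (r ξ))‖ ^ 2 = D at *
  generalize ‖r ξ‖ ^ 2 = N at *
  have h8 : S ≤ (1 + κ) * ((1 + κ) * μ) + (1 + κ) * (20 * κ) :=
    le_of_mul_le_mul_left (by nlinarith) hκ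
  have h9 : κ * κ ≤ κ := by nlinarith
  have h10 : κ ^ 3 ≤ κ := by nlinarith
  nlinarith [mul_le_mul_of_nonneg_left h6 hκ.le, mul_le_mul_of_nonneg_right h9 h0]

theorem compl_prod (hB : A.commutant = B) {ι κ : Type*} [Fintype ι] [Fintype κ] {a : ι → Op H}
    {b : κ → Op H} (ha : ∀ i, a i ∈ A) (hb : ∀ j, b j ∈ B) (ca : Col a 1) (cb : Col b 1) (w : H) :
    ∑ i, ‖a i w‖ ^ 2 + ∑ j, ‖b j w‖ ^ 2 ≤ ‖w‖ ^ 2 + ∑ p : ι × κ, ‖a p.1 (b p.2 w)‖ ^ 2 := by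
  have hQ : ∑ j, star (b j) * b j ∈ B := sum_mem fun j _ => mul_mem (star_mem (hb j)) (hb j)
  have hP : ∑ j, star (a j) * a j ∈ A := sum_mem fun j _ => mul_mem (star_mem (ha j)) (ha j)
  have h1 := ((ContinuousLinearMap.nonneg_iff_isPositive _).1 (Commute.mul_nonneg (cpl_le_one ca)
    (cpl_le_one cb) (cpl_comm hB (sub_mem (one_mem _) hP)
      (sub_mem (one_mem _) hQ)))).re_inner_nonneg_right w
  have e : (∑ j, star (a j) * a j) * ∑ j, star (b j) * b j =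
      ∑ p : ι × κ, star (a p.1 * b p.2) * (a p.1 * b p.2) := by
    rw [Finset.sum_mul_sum, ← Fintype.sum_prod_type']
    refine Finset.sum_congr rfl fun p _ => ?_
    rw [star_mul, (cpl_comm hB (mul_mem (star_mem (ha _)) (ha _))
      (mul_mem (star_mem (hb _)) (hb _))).eq, mul_assoc, ← (cpl_comm hB
      (mul_mem (star_mem (ha _)) (ha _)) (hb _)).eq]
    simp only [mul_assoc]
  rw [sub_mul, one_mul, mul_sub, mul_one, sub_apply, sub_apply, sub_apply, one_apply_eq_self,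
    inner_sub_right, inner_sub_right, inner_sub_right, RCLike.re_to_complex, Complex.sub_re,
    Complex.sub_re, Complex.sub_re, e, ← bas_sum_sq, ← bas_sum_sq, ← bas_sum_sq, sak_re_self] at h1
  simp only [mul_apply_eq_comp] at h1
  linarith

theorem compl_root {ι : Type*} [Fintype ι] {a : ι → Op H} (ha : ∀ i, a i ∈ A) (ca : Col a 1) :
    ∃ r ∈ A, star r * r = (2⁻¹ : ℝ) • (1 + (1 - ∑ j, star (a j) * a j)) ∧
      ∀ v, ∑ j, ‖(((√2)⁻¹ : ℝ) • a j) v‖ ^ 2 + ‖r v‖ ^ 2 = ‖v‖ ^ 2 := by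
  obtain ⟨r, hr, h0, h1, -⟩ := exists_sqrt (P := A)
    (h := (2⁻¹ : ℝ) • (1 + (1 - ∑ j, star (a j) * a j)))
    (rsmul_mem _ (add_mem (one_mem _) (sub_mem (one_mem _)
      (sum_mem fun j _ => mul_mem (star_mem (ha j)) (ha j)))))
    (smul_nonneg (by norm_num) (add_nonneg zero_le_one (cpl_le_one ca)))
  have h2 : star r * r = (2⁻¹ : ℝ) • (1 + (1 - ∑ j, star (a j) * a j)) := by
    rwa [(IsSelfAdjoint.of_nonneg h0).star_eq]
  refine ⟨r, hr, h2, fun v => ?_⟩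
  have h3 : ∀ j, ‖(((√2)⁻¹ : ℝ) • a j) v‖ ^ 2 = 2⁻¹ * ‖a j v‖ ^ 2 := fun j => by
    rw [smul_apply, norm_smul, mul_pow, Real.norm_eq_abs, sq_abs, inv_pow, Real.sq_sqrt zero_le_two]
  rw [← Graph_norm_sq_star r, h2, smul_apply, add_apply, sub_apply, ← Complex.coe_smul,
    inner_smul_right, inner_add_right, inner_sub_right, Complex.re_ofReal_mul, Complex.add_re,
    Complex.sub_re, ← bas_sum_sq, one_apply_eq_self, sak_re_self]
  simp only [h3, ← Finset.mul_sum]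
  ring

/-- Completion. Recipe (trivial if `ξ = 0`): `h = 1 - (b.cp 1)/2`, `h' = 1 - (b.swap.cp 1)/2`, both
in `[1/2, 1]`, `eZ (h ξ) = eZ (h' ξ)` (test against `z ξ`, `z` central); `κ` central with
`κ ξ = eZ (h ξ)`, `κ ≥ 1/2` (`exists_cen_exp` for `h - 1/2`), `g = √κ`, `r = √h`, `r' = √h'`.
`half_complete` for `T` gives `(m_k, f'_k)`, for `T.swap` gives `(m'_l, f_l)`; new letters
`f_l m_k r` and `f'_k m'_l r'`; mass: `F = ∑ f⋆ f`, `F' = ∑ f'⋆ f'` commute, `F F' ≥ F + F' - 1`. -/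
theorem Tom.complete (T : Tom A B ξ) (b : Cpl A B ξ) {τ : ℝ} (hτ : 0 < τ) :
    ∃ (c : Cpl A B ξ) (f : b.ι ↪ c.ι), c.Dfc τ ∧
      ∀ j, c.a (f j) = ((√2)⁻¹ : ℝ) • b.a j ∧ c.a' (f j) = ((√2)⁻¹ : ℝ) • b.a' j := by
  suffices H : ∀ τ' > 0, ∃ (c : Cpl A B ξ) (f : b.ι ↪ c.ι), ‖ξ‖ ^ 2 - 2 * τ' ≤ c.mass ∧
      ∀ j, c.a (f j) = ((√2)⁻¹ : ℝ) • b.a j ∧ c.a' (f j) = ((√2)⁻¹ : ℝ) • b.a' j by
    rcases eq_or_ne ξ 0 with h0 | h0
    · obtain ⟨c, f, -, h⟩ := H 1 one_pos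
      refine ⟨c, f, le_trans (le_of_eq ?_) c.mass_nonneg, h⟩
      simp [h0]
    · obtain ⟨c, f, h1, h⟩ := H (τ * ‖ξ‖ ^ 2 / 2) (by positivity)
      exact ⟨c, f, le_trans (le_of_eq (by ring)) h1, h⟩
  intro τ' hτ'
  obtain ⟨r, hr, hr1, hr2⟩ := compl_root b.mem b.col
  obtain ⟨r', hr', hr1', hr2'⟩ := compl_root b.mem' b.col'
  have hP : 1 - ∑ j, star (b.a j) * b.a j ∈ A :=
    sub_mem (one_mem _) (sum_mem fun j _ => mul_mem (star_mem (b.mem j)) (b.mem j))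
  obtain ⟨y, hy, hyξ, -, hy0⟩ := T.exists_cen_exp hP
  have hy0 := hy0 (cpl_le_one b.col)
  have h2 : (0 : ℝ) ≤ 2⁻¹ := by norm_num
  have hk : Cen A ((2⁻¹ : ℝ) • (1 + y)) :=
    ⟨rsmul_mem _ (add_mem (one_mem _) hy.1), rsmul_mem _ (add_mem (one_mem _) hy.2)⟩
  obtain ⟨g, -, hg0, hgg, hg⟩ := exists_sqrt hk.1 (smul_nonneg h2 (add_nonneg zero_le_one hy0))
  have hg := Graph_cen_of_bicomm hk hg
  obtain ⟨u, hu⟩ : IsUnit (1 + y) :=
    CStarAlgebra.isUnit_of_le 1 (le_add_of_nonneg_right hy0) isStrictlyPositive_one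
  have hu' : Cen A ↑u⁻¹ := Graph_cen_of_bicomm (Graph_cen_add (Graph_cen_one A) hy) fun z hz =>
    Commute.units_inv_right (hu ▸ hz)
  have hg' : Cen A ((2 : ℂ) • (↑u⁻¹ * g)) := Graph_cen_smul _ (Graph_cen_mul hu' hg)
  have hgg' : (2 : ℂ) • (↑u⁻¹ * g) * g = 1 := by
    rw [smul_mul_assoc, mul_assoc, hgg, mul_smul_comm, ← hu, u.inv_mul, ← Complex.coe_smul,
      smul_smul]
    simp
  have e1 : (star g * g) ξ = eZ A ξ ((star r * r) ξ) := by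
    rw [(IsSelfAdjoint.of_nonneg hg0).star_eq, hgg, hr1, smul_apply, smul_apply, add_apply, add_apply,
      ContinuousLinearMap.map_smul_of_tower, map_add, hyξ, one_apply_eq_self,
      eZ_of_mem (self_mem_zsp A ξ)]
  have e2 : (star g * g) ξ = eZ B ξ ((star r' * r') ξ) := by
    rw [e1, T.eZ_eq, hr1, hr1']
    refine ext_inner_left ℂ fun w => ?_
    simp only [← compl_inner, smul_apply, add_apply, sub_apply, sum_apply, ← Complex.coe_smul,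
      inner_smul_right, inner_add_right, inner_sub_right, inner_sum, sak_inner, b.eq,
      b.eq_on_zsp T.comm _ (eZ_mem A ξ w), ← mul_apply_eq_comp]
  obtain ⟨ι₁, _, m, f', hm, hf', cm, cf', em, mm⟩ := T.half_complete hr hg hg' hgg' e1 hτ'
  obtain ⟨ι₂, _, m', f, hm', hf, cm', cf, em', mm'⟩ :=
    T.swap.half_complete hr' (T.cen_iff.2 hg) (T.cen_iff.2 hg') hgg' e2 hτ'
  let c : Cpl A B ξ :=
    { ι := b.ι ⊕ ι₂ × ι₁
      a := Sum.elim (fun j => ((√2)⁻¹ : ℝ) • b.a j) fun p => f p.1 * (m p.2 * r)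
      a' := Sum.elim (fun j => ((√2)⁻¹ : ℝ) • b.a' j) fun p => f' p.2 * (m' p.1 * r')
      mem := by
        rintro (j | p)
        exacts [rsmul_mem _ (b.mem j), mul_mem (hf _) (mul_mem (hm _) hr)]
      mem' := by
        rintro (j | p)
        exacts [rsmul_mem _ (b.mem' j), mul_mem (hf' _) (mul_mem (hm' _) hr')]
      eq := by
        rintro (j | p)
        · exact congrArg (((√2)⁻¹ : ℝ) • ·) (b.eq j)
        · change f p.1 (m p.2 (r ξ)) = f' p.2 (m' p.1 (r' ξ))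
          rw [em, em', cpl_app (T.commute (hf _) (hf' _))]
      col := fun v => by
        rw [Fintype.sum_sum_type, Fintype.sum_prod_type_right, one_pow, one_mul, ← hr2 v]
        exact add_le_add le_rfl (by simpa using cpl_col2 cm cf (r v))
      col' := fun v => by
        rw [Fintype.sum_sum_type, Fintype.sum_prod_type, one_pow, one_mul, ← hr2' v]
        exact add_le_add le_rfl (by simpa using cpl_col2 cm' cf' (r' v)) }
  refine ⟨c, Function.Embedding.inl, le_trans ?_ (Fintype.sum_sum_type _).ge, fun j => ⟨rfl, rfl⟩⟩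
  change _ ≤ ∑ j, ‖(((√2)⁻¹ : ℝ) • b.a j) ξ‖ ^ 2 + ∑ p : ι₂ × ι₁, ‖f p.1 (m p.2 (r ξ))‖ ^ 2
  have h3 := compl_prod T.comm hf hf' cf cf' (g ξ)
  simp only [em] at mm ⊢
  simp only [em'] at mm'
  linarith [hr2 ξ, compl_norm e1, compl_norm e2]

end

end Crest.Agent.R78
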