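import Crest.Agent.R78.TomApi

/-!
# Row 78: operations on couplings
-/

open scoped InnerProductSpace Topology ComplexConjugate
open Filter MeasureTheory

set_option linter.unusedSectionVars false

namespace Crest.Agent.R78

open Crest.Agent.R121 (Alg)

noncomputable section

universe u

variable {H : Type*} [NormedAddCommGroup H] [InnerProductSpace ℂ H] [CompleteSpace H]

theorem cpl_comm {A B : VN H} (hB : A.commutant = B) {x y : Op H} (hx : x ∈ A) (hy : y ∈ B) :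
    Commute x y := mem_comm.1 (hB ▸ hy) x hx

theorem cpl_app {x y : Op H} (h : Commute x y) (v : H) : x (y v) = y (x v) :=
  congrArg (fun T : Op H => T v) h.eq

theorem cpl_sum2 {ι κ : Type*} [Fintype ι] [Fintype κ] {p : ι → ℝ} {q : κ → ℝ} (hp : ∀ i, 0 ≤ p i)
    {a : ι → Op H} {b : κ → Op H} {C D : ℝ} (hD : 0 ≤ D)
    (ha : ∀ v, ∑ i, p i * ‖a i v‖ ^ 2 ≤ C * ‖v‖ ^ 2) (hb : ∀ v, ∑ j, q j * ‖b j v‖ ^ 2 ≤ D * ‖v‖ ^ 2)
    (v : H) : ∑ i, ∑ j, p i * q j * ‖b j (a i v)‖ ^ 2 ≤ C * D * ‖v‖ ^ 2 := by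
  calc _ ≤ ∑ i, D * (p i * ‖a i v‖ ^ 2) := Finset.sum_le_sum fun i _ => by
        simp only [mul_assoc, ← Finset.mul_sum]
        rw [mul_left_comm]
        exact mul_le_mul_of_nonneg_left (hb _) (hp i)
    _ ≤ D * (C * ‖v‖ ^ 2) := by
        rw [← Finset.mul_sum]
        exact mul_le_mul_of_nonneg_left (ha v) hD
    _ = _ := by ring

theorem cpl_col2 {ι κ : Type*} [Fintype ι] [Fintype κ] {a : ι → Op H} {b : κ → Op H} (ha : Col a 1)
    (hb : Col b 1) (v : H) : ∑ i, ∑ j, ‖b j (a i v)‖ ^ 2 ≤ 1 ^ 2 * ‖v‖ ^ 2 := by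
  simpa using cpl_sum2 (p := fun _ => 1) (q := fun _ => 1) (a := a) (b := b) (C := 1) (D := 1)
    (fun _ => zero_le_one) zero_le_one (fun v => by simpa using ha v) (fun v => by simpa using hb v) v

theorem cpl_norm {s : ℝ} (hs : 0 ≤ s) (a : Op H) (v : H) :
    ‖((√s : ℂ) • a) v‖ ^ 2 = s * ‖a v‖ ^ 2 := by
  rw [smul_apply, norm_smul, mul_pow, Complex.norm_real, Real.norm_eq_abs, sq_abs, Real.sq_sqrt hs]

theorem cpl_star (s : ℝ) (a : Op H) : star ((√s : ℂ) • a) = (√s : ℂ) • star a := by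
  rw [star_smul, Complex.star_def, Complex.conj_ofReal]

theorem cpl_mul {s : ℝ} (hs : 0 ≤ s) (a b : Op H) :
    ((√s : ℂ) • a) * ((√s : ℂ) • b) = (s : ℂ) • (a * b) := by
  rw [smul_mul_smul_comm, ← Complex.ofReal_mul, Real.mul_self_sqrt hs]

theorem cpl_mix {ι κ : Type*} [Fintype ι] [Fintype κ] {s : ℝ} (hs : 0 ≤ s) (hs1 : s ≤ 1)
    (p : ι → ℝ) (q : κ → ℝ) (a : ι → Op H) (b : κ → Op H) (v : H) :
    ∑ i, p i * ‖((√s : ℂ) • a i) v‖ ^ 2 + ∑ j, q j * ‖((√(1 - s) : ℂ) • b j) v‖ ^ 2 =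
      s * ∑ i, p i * ‖a i v‖ ^ 2 + (1 - s) * ∑ j, q j * ‖b j v‖ ^ 2 := by
  simp only [cpl_norm hs, cpl_norm (sub_nonneg.2 hs1), Finset.mul_sum, mul_left_comm]

theorem cpl_conv {s x y z : ℝ} (hs : 0 ≤ s) (hs1 : s ≤ 1) (hx : x ≤ z) (hy : y ≤ z) :
    s * x + (1 - s) * y ≤ z := by
  nlinarith

theorem cpl_mix_col {ι κ : Type*} [Fintype ι] [Fintype κ] {s : ℝ} (hs : 0 ≤ s) (hs1 : s ≤ 1)
    {a : ι → Op H} {b : κ → Op H} (ha : Col a 1) (hb : Col b 1) :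
    Col (Sum.elim (fun i => (√s : ℂ) • a i) fun j => (√(1 - s) : ℂ) • b j) 1 := fun v => by
  have := cpl_mix hs hs1 (fun _ => 1) (fun _ => 1) a b v
  simp only [one_mul] at this
  rw [Fintype.sum_sum_type]
  exact this.trans_le (cpl_conv hs hs1 (ha v) (hb v))

theorem cpl_le_one {ι : Type*} [Fintype ι] {a : ι → Op H} (ha : Col a 1) :
    0 ≤ 1 - ∑ j, star (a j) * a j :=
  sub_nonneg.2 ((CStarAlgebra.norm_le_one_iff_of_nonneg _
    (Finset.sum_nonneg fun j _ => star_mul_self_nonneg _)).1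
      (by simpa using (col_iff_norm zero_le_one).1 ha))

theorem cpl_pyth {z : Op H} (hz : IsStarProjection z) (w : H) :
    ‖w‖ ^ 2 = ‖z w‖ ^ 2 + ‖(1 - z) w‖ ^ 2 := by
  have h : ⟪z w, (1 - z) w⟫_ℂ = 0 := by
    rw [← bas_inner_star, hz.isSelfAdjoint.star_eq, ← mul_apply_eq_comp, hz.mul_one_sub_self]
    simp
  have := norm_add_sq_eq_norm_sq_add_norm_sq_of_inner_eq_zero (𝕜 := ℂ) _ _ h
  rw [sq, sq, sq, ← this]
  simp

namespace Cpl

variable {A B : VN H} {ξ : H}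

/-- The trivial coupling. -/
def one (A B : VN H) (ξ : H) : Cpl A B ξ where
  ι := Unit
  a _ := 1
  a' _ := 1
  mem _ := one_mem _
  mem' _ := one_mem _
  eq _ := rfl
  col := fun v => by simp
  col' := fun v => by simp

/-- Composition: `a_i b_j ξ = b'_j a'_i ξ`. -/
def comp (hB : A.commutant = B) (c d : Cpl A B ξ) : Cpl A B ξ where
  ι := c.ι × d.ι
  a p := c.a p.1 * d.a p.2
  a' p := d.a' p.2 * c.a' p.1
  mem p := mul_mem (c.mem _) (d.mem _)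
  mem' p := mul_mem (d.mem' _) (c.mem' _)
  eq := fun p => by
    rw [mul_apply_eq_comp, mul_apply_eq_comp, d.eq, cpl_app (cpl_comm hB (c.mem _) (d.mem' _)), c.eq]
  col := fun v => by
    rw [Fintype.sum_prod_type_right]
    exact cpl_col2 d.col c.col v
  col' := fun v => by
    rw [Fintype.sum_prod_type]
    exact cpl_col2 c.col' d.col' v

/-- Mixtures. -/
def mix (s : ℝ) (hs : 0 ≤ s) (hs1 : s ≤ 1) (c d : Cpl A B ξ) : Cpl A B ξ where
  ι := c.ι ⊕ d.ι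
  a := Sum.elim (fun i => (√s : ℂ) • c.a i) fun j => (√(1 - s) : ℂ) • d.a j
  a' := Sum.elim (fun i => (√s : ℂ) • c.a' i) fun j => (√(1 - s) : ℂ) • d.a' j
  mem := by
    rintro (i | i)
    exacts [smul_mem' _ (c.mem i), smul_mem' _ (d.mem i)]
  mem' := by
    rintro (i | i)
    exacts [smul_mem' _ (c.mem' i), smul_mem' _ (d.mem' i)]
  eq := by
    rintro (i | i)
    exacts [congrArg ((√s : ℂ) • ·) (c.eq i), congrArg ((√(1 - s) : ℂ) • ·) (d.eq i)]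
  col := cpl_mix_col hs hs1 c.col d.col
  col' := cpl_mix_col hs hs1 c.col' d.col'

/-- The contraction `∑ a_j⋆ a'_j`. -/
def tr (c : Cpl A B ξ) : Op H := ∑ j, star (c.a j) * c.a' j

variable (c d : Cpl A B ξ)

theorem mass_nonneg : 0 ≤ c.mass := by
  exact Finset.sum_nonneg fun _ _ => sq_nonneg _
theorem mass_le : c.mass ≤ ‖ξ‖ ^ 2 := by
  simpa [mass] using c.col ξ
theorem mass_eq' : c.mass = ∑ j, ‖c.a' j ξ‖ ^ 2 := by
  simp only [mass, c.eq]
theorem swap_mass : c.swap.mass = c.mass := by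
  exact c.mass_eq'.symm
theorem one_mass : (one A B ξ).mass = ‖ξ‖ ^ 2 := by
  simp [mass, one]
theorem one_soft : (one A B ξ).Soft 0 := by
  exact ⟨fun _ => 0, fun v => by simp [one], fun v => by simp [one]⟩

theorem Dfc.mono {c : Cpl A B ξ} {τ τ' : ℝ} (h : c.Dfc τ) (hτ : τ ≤ τ') : c.Dfc τ' := by
  exact le_trans (mul_le_mul_of_nonneg_right (by linarith) (sq_nonneg _)) h

theorem Soft.mono {c : Cpl A B ξ} {Λ Λ' : ℝ} (h : c.Soft Λ) (hΛ : Λ ≤ Λ') : c.Soft Λ' := by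
  obtain ⟨u, h1, h2⟩ := h
  exact ⟨u, fun v => (h1 v).trans (by gcongr), fun v => (h2 v).trans (by gcongr)⟩

/-- Use the centres `-u`. -/
theorem Soft.swap {c : Cpl A B ξ} {Λ : ℝ} (h : c.Soft Λ) : c.swap.Soft Λ := by
  obtain ⟨u, h1, h2⟩ := h
  exact ⟨fun j => -u j, fun v => by simp only [neg_neg]; exact h2 v, h1⟩

theorem Soft.comp (hB : A.commutant = B) {c d : Cpl A B ξ} {Λ Λ' : ℝ} (h : c.Soft Λ)
    (h' : d.Soft Λ') : (c.comp hB d).Soft (Λ + Λ') := by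
  obtain ⟨u, h1, h2⟩ := h
  obtain ⟨u', h1', h2'⟩ := h'
  refine ⟨fun p : c.ι × d.ι => u p.1 + u' p.2, fun v => ?_, fun v => ?_⟩
  · refine le_trans (le_of_eq ?_) ((cpl_sum2 (fun _ => (Real.exp_pos _).le) (Real.exp_pos _).le
      h1 h1' v).trans_eq (by rw [Real.exp_add]))
    rw [← Fintype.sum_prod_type']
    refine Finset.sum_congr rfl fun p _ => ?_
    rw [neg_add, Real.exp_add]
    exact congrArg (fun T : Op H => _ * ‖T v‖ ^ 2) (star_mul _ _)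
  · refine le_trans (le_of_eq ?_) ((cpl_sum2 (fun _ => (Real.exp_pos _).le) (Real.exp_pos _).le
      h2' h2 v).trans_eq (by rw [Real.exp_add, mul_comm (Real.exp Λ)]))
    rw [← Fintype.sum_prod_type_right']
    refine Finset.sum_congr rfl fun p _ => ?_
    rw [← Real.exp_add, add_comm (u' _)]
    exact congrArg (fun T : Op H => _ * ‖T v‖ ^ 2) (star_mul _ _)

theorem Soft.mix {s : ℝ} (hs : 0 ≤ s) (hs1 : s ≤ 1) {c d : Cpl A B ξ} {Λ : ℝ} (h : c.Soft Λ)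
    (h' : d.Soft Λ) : (mix s hs hs1 c d).Soft Λ := by
  obtain ⟨u, h1, h2⟩ := h
  obtain ⟨u', h1', h2'⟩ := h'
  refine ⟨Sum.elim u u', fun v => ?_, fun v => ?_⟩
  · refine le_trans (le_of_eq ?_) ((cpl_mix hs hs1 _ _ _ _ v).trans_le
      (cpl_conv hs hs1 (h1 v) (h1' v)))
    simp only [← cpl_star]
    exact Fintype.sum_sum_type _
  · refine le_trans (le_of_eq ?_) ((cpl_mix hs hs1 _ _ _ _ v).trans_le
      (cpl_conv hs hs1 (h2 v) (h2' v)))
    simp only [← cpl_star]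
    exact Fintype.sum_sum_type _

/-- Defects add: with `e = 1 - ∑ a_i⋆ a_i ≥ 0` in `A`,
`∑_j re ⟪b'_j ξ, e b'_j ξ⟫ = ∑ ‖b'_j √e ξ‖² ≤ re ⟪ξ, e ξ⟫`. -/
theorem Dfc.comp (hB : A.commutant = B) {c d : Cpl A B ξ} {τ τ' : ℝ} (h : c.Dfc τ)
    (h' : d.Dfc τ') : (c.comp hB d).Dfc (τ + τ') := by
  have hQ : ∑ j, star (d.a' j) * d.a' j ∈ B :=
    sum_mem fun j _ => mul_mem (star_mem (d.mem' j)) (d.mem' j)
  have hP : ∑ j, star (c.a j) * c.a j ∈ A :=
    sum_mem fun j _ => mul_mem (star_mem (c.mem j)) (c.mem j)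
  have h1 := ((ContinuousLinearMap.nonneg_iff_isPositive _).1 (Commute.mul_nonneg (cpl_le_one c.col)
    (cpl_le_one d.col') (cpl_comm hB (sub_mem (one_mem _) hP)
      (sub_mem (one_mem _) hQ)))).re_inner_nonneg_right ξ
  have h2 : (c.comp hB d).mass = (⟪ξ, ((∑ j, star (c.a j) * c.a j) *
      ∑ j, star (d.a' j) * d.a' j) ξ⟫_ℂ).re := by
    have e : (∑ j, star (c.a j) * c.a j) * ∑ j, star (d.a' j) * d.a' j =
        ∑ p : c.ι × d.ι, star (c.a p.1 * d.a' p.2) * (c.a p.1 * d.a' p.2) := by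
      rw [Finset.sum_mul_sum, ← Fintype.sum_prod_type']
      refine Finset.sum_congr rfl fun p _ => ?_
      rw [star_mul, (cpl_comm hB (mul_mem (star_mem (c.mem _)) (c.mem _))
        (mul_mem (star_mem (d.mem' _)) (d.mem' _))).eq, mul_assoc, ← (cpl_comm hB
        (mul_mem (star_mem (c.mem _)) (c.mem _)) (d.mem' _)).eq]
      simp only [mul_assoc]
    rw [e, ← bas_sum_sq]
    exact Finset.sum_congr rfl fun p _ => congrArg (fun w => ‖c.a p.1 w‖ ^ 2) (d.eq p.2)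
  have h3 := bas_sum_sq c.a ξ
  have h4 := d.mass_eq'.trans (bas_sum_sq d.a' ξ)
  have h5 : (⟪ξ, ξ⟫_ℂ).re = ‖ξ‖ ^ 2 := inner_self_eq_norm_sq (𝕜 := ℂ) ξ
  rw [sub_mul, one_mul, mul_sub, mul_one, sub_apply, sub_apply, sub_apply, one_apply_eq_self,
    inner_sub_right, inner_sub_right, inner_sub_right, RCLike.re_to_complex, Complex.sub_re,
    Complex.sub_re, Complex.sub_re, ← h2, ← h3, ← h4, h5] at h1
  unfold Dfc at *
  unfold mass at h
  linarith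

theorem mix_mass {s : ℝ} (hs : 0 ≤ s) (hs1 : s ≤ 1) :
    (mix s hs hs1 c d).mass = s * c.mass + (1 - s) * d.mass := by
  have := cpl_mix hs hs1 (fun _ => 1) (fun _ => 1) c.a d.a ξ
  simp only [one_mul] at this
  exact (Fintype.sum_sum_type _).trans this

theorem mix_cp {s : ℝ} (hs : 0 ≤ s) (hs1 : s ≤ 1) (x : Op H) :
    (mix s hs hs1 c d).cp x = (s : ℂ) • c.cp x + ((1 - s : ℝ) : ℂ) • d.cp x := by
  refine (Fintype.sum_sum_type _).trans ?_
  simp only [mix, Sum.elim_inl, Sum.elim_inr, cpl_star, cp, Finset.smul_sum, ← cpl_mul hs,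
    ← cpl_mul (sub_nonneg.2 hs1), ← smul_mul_assoc]

theorem mix_tr {s : ℝ} (hs : 0 ≤ s) (hs1 : s ≤ 1) :
    (mix s hs hs1 c d).tr = (s : ℂ) • c.tr + ((1 - s : ℝ) : ℂ) • d.tr := by
  refine (Fintype.sum_sum_type _).trans ?_
  simp only [mix, Sum.elim_inl, Sum.elim_inr, cpl_star, tr, Finset.smul_sum, cpl_mul hs,
    cpl_mul (sub_nonneg.2 hs1)]

theorem comp_tr (hB : A.commutant = B) : (c.comp hB d).tr = d.tr * c.tr := by
  rw [tr, tr, tr, Finset.sum_mul_sum, ← Fintype.sum_prod_type_right']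
  refine Finset.sum_congr rfl fun p _ => ?_
  change star (c.a p.1 * d.a p.2) * (d.a' p.2 * c.a' p.1) = _
  rw [star_mul, mul_assoc, mul_assoc, (cpl_comm hB (star_mem (c.mem _)) (d.mem' _)).left_comm]

theorem one_tr : (one A B ξ).tr = 1 := by
  simp [tr, one]

theorem norm_tr_le : ‖c.tr‖ ≤ 1 := by
  simpa [tr] using c.col.norm_sandwich_le c.col' zero_le_one zero_le_one (x := fun _ => 1)
    zero_le_one fun _ => pj_norm_one

theorem cp_mem {x : Op H} (hx : x ∈ A) : c.cp x ∈ A := by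
  exact sum_mem fun j _ => mul_mem (mul_mem (star_mem (c.mem j)) hx) (c.mem j)

theorem norm_cp_le (x : Op H) : ‖c.cp x‖ ≤ ‖x‖ := by
  simpa [cp] using c.col.norm_sandwich_le c.col zero_le_one zero_le_one (x := fun _ => x)
    (norm_nonneg x) fun _ => le_rfl

theorem cp_nonneg {x : Op H} (hx : 0 ≤ x) : 0 ≤ c.cp x := by
  exact Finset.sum_nonneg fun j _ => star_left_conjugate_nonneg hx _

theorem cp_apply (hB : A.commutant = B) {x : Op H} (hx : x ∈ A) : c.cp x ξ = c.tr (x ξ) := by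
  simp only [cp, tr, sum_apply, mul_apply_eq_comp, c.eq, cpl_app (cpl_comm hB hx (c.mem' _))]

/-- `0 ≤ e ≤ 1` gives `‖e ξ‖² ≤ re ⟪ξ, e ξ⟫`. -/
theorem norm_defect_le {τ : ℝ} (h : c.Dfc τ) : ‖ξ - c.cp 1 ξ‖ ^ 2 ≤ τ * ‖ξ‖ ^ 2 := by
  have h1 : c.mass = (⟪ξ, c.cp 1 ξ⟫_ℂ).re := by simpa only [cp, mul_one, mass] using bas_sum_sq c.a ξ
  have h2 : ‖c.cp 1 ξ‖ ≤ √c.mass := by
    simpa only [cp, mul_one, sum_apply, mul_apply_eq_comp, one_mul, mass] using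
      bas_row c.col zero_le_one fun j => c.a j ξ
  have h3 := (Real.le_sqrt (norm_nonneg _) c.mass_nonneg).1 h2
  rw [norm_sub_sq (𝕜 := ℂ), RCLike.re_to_complex, ← h1]
  unfold Dfc at h
  linarith

/-- `tr z ξ = z (cp 1) ξ` and `tr⋆ z ξ = z (swap.cp 1) ξ` for central `z`. -/
theorem norm_tr_cen_le (hB : A.commutant = B) {τ : ℝ} (h : c.Dfc τ) {z : Op H} (hz : Cen A z) :
    ‖c.tr (z ξ) - z ξ‖ ≤ ‖z‖ * √τ * ‖ξ‖ ∧ ‖star c.tr (z ξ) - z ξ‖ ≤ ‖z‖ * √τ * ‖ξ‖ := by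
  have key : ∀ {A B : VN H} (c : Cpl A B ξ), A.commutant = B → c.Dfc τ → Cen A z →
      ‖c.tr (z ξ) - z ξ‖ ≤ ‖z‖ * √τ * ‖ξ‖ := fun c hB h hz => by
    have e : c.cp z = z * c.cp 1 := by
      rw [cp, cp, Finset.mul_sum]
      refine Finset.sum_congr rfl fun j _ => ?_
      rw [mul_one, (mem_comm.1 hz.2 _ (star_mem (c.mem j))).eq, mul_assoc]
    have h1 := Real.le_sqrt_of_sq_le (c.norm_defect_le h)
    rw [Real.sqrt_mul' _ (sq_nonneg _), Real.sqrt_sq (norm_nonneg _)] at h1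
    rw [← c.cp_apply hB hz.1, e, mul_apply_eq_comp, ← map_sub, mul_assoc]
    exact (z.le_opNorm _).trans (mul_le_mul_of_nonneg_left (by rwa [norm_sub_rev]) (norm_nonneg _))
  refine ⟨key c hB h hz, ?_⟩
  have e : star c.tr = c.swap.tr := by
    simp only [tr, star_sum, star_mul, star_star]
    rfl
  rw [e]
  exact key c.swap (by rw [← hB, A.commutant_commutant]) (by rwa [Dfc, swap_mass])
    (hB ▸ hz.commutant)

theorem en_nonneg (W z : Op H) : 0 ≤ c.en W z := by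
  exact Finset.sum_nonneg fun _ _ => sq_nonneg _

theorem en_le (W : unitary (Op H)) (z : Op H) : c.en W z ≤ 4 * ‖z ξ‖ ^ 2 := by
  have h1 : ‖(W : Op H) - 1‖ ≤ 2 :=
    (norm_sub_le _ _).trans (by linarith [pj_norm_unitary W.2, pj_norm_one (A := Op H)])
  calc c.en W z ≤ ∑ j, 4 * ‖c.a j (z ξ)‖ ^ 2 := Finset.sum_le_sum fun j _ => by
        have := ((W : Op H) - 1).le_of_opNorm_le h1 (c.a j (z ξ))
        calc _ ≤ (2 * ‖c.a j (z ξ)‖) ^ 2 := by gcongr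
          _ = _ := by ring
    _ ≤ _ := by
        rw [← Finset.mul_sum]
        simpa using c.col (z ξ)

theorem en_split (W : Op H) {z : Op H} (hz : CP A z) (hW : Commute z W) :
    c.en W 1 = c.en W z + c.en W (1 - z) := by
  rw [en, en, en, ← Finset.sum_add_distrib]
  refine Finset.sum_congr rfl fun j _ => ?_
  have h1 := mem_comm.1 hz.2.2 _ (c.mem j)
  have h2 : Commute (W - 1) z := hW.symm.sub_left (Commute.one_left z)
  rw [cpl_app h1, cpl_app h2, cpl_app ((Commute.one_right _).sub_right h1),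
    cpl_app ((Commute.one_right _).sub_right h2)]
  exact cpl_pyth hz.1 _

/-- Coupled columns agree on `[Z ξ]`. -/
theorem eq_on_zsp (hB : A.commutant = B) (j : c.ι) {v : H} (hv : v ∈ zsp A ξ) :
    c.a j v = c.a' j v := by
  refine Graph_zsp_ind (p := fun v => c.a j v = c.a' j v)
    (isClosed_eq (c.a j).continuous (c.a' j).continuous) (fun z hz => ?_) hv
  rw [cpl_app (mem_comm.1 hz.2 _ (c.mem j)), c.eq, cpl_app (cpl_comm hB hz.1 (c.mem' j))]

end Cpl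

theorem Tw.Loc.mono {A B : VN H} {ξ : H} {γ : ℝ} {S : Tw A B ξ γ} {Λ Λ' ε ε' : ℝ}
    (h : S.Loc Λ ε) (hΛ : Λ' ≤ Λ) (hε : ε ≤ ε') : S.Loc Λ' ε' := by
  exact fun z hz c hc => (h z hz c (hc.mono hΛ)).trans (mul_le_mul_of_nonneg_right hε (sq_nonneg _))

theorem Tw.Loc.glob {A B : VN H} {ξ : H} {γ : ℝ} {S : Tw A B ξ γ} {Λ ε : ℝ} (h : S.Loc Λ ε) :
    S.Glob Λ ε := by
  exact fun c hc => h 1 ⟨IsStarProjection.one _, one_mem _, one_mem _⟩ c hc

theorem Tw.W_zsp {A B : VN H} {ξ : H} {γ : ℝ} (S : Tw A B ξ γ) {v : H} (hv : v ∈ zsp A ξ) :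
    (S.W : Op H) v = v ∧ star (S.W : Op H) v = v := by
  have h : (S.W : Op H) v = v := by
    refine Graph_zsp_ind (p := fun v => (S.W : Op H) v = v)
      (isClosed_eq (S.W : Op H).continuous continuous_id) (fun z hz => ?_) hv
    rw [← cpl_app (S.W_cen z hz), S.Wξ]
  refine ⟨h, ?_⟩
  conv_lhs => rw [← h]
  rw [← mul_apply_eq_comp, bas_su, one_apply_eq_self]

end

end Crest.Agent.R78
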