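import Crest.Agent.R78.L2

/-!
# Row 78: amplified von Neumann algebras on `ℓ²(I, H)`
-/

open scoped InnerProductSpace Topology ComplexConjugate
open Filter MeasureTheory

set_option linter.unusedSectionVars false

namespace Crest.Agent.R78

open Crest.Agent.R121 (Alg)

noncomputable section

universe u

variable {H : Type*} [NormedAddCommGroup H] [InnerProductSpace ℂ H] [CompleteSpace H]

variable {I : Type*}

theorem l2vn_dg_star (T : Op H) : dg I (star T) = star (dg I T) :=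
  map_star (dgHom I H) T

theorem l2vn_dg_sub (S T : Op H) : dg I (S - T) = dg I S - dg I T :=
  map_sub (dgHom I H) S T

theorem l2vn_bdd_const (T : Op H) : Bdd fun _ : I => T := ⟨‖T‖, fun _ => le_rfl⟩

open Classical in
theorem l2vn_ent_dg (T : Op H) (i j : I) : ent (dg I T) i j = if i = j then T else 0 :=
  ent_dgf (l2vn_bdd_const T) i j

theorem l2vn_norm_le_dg [Nonempty I] (T : Op H) : ‖T‖ ≤ ‖dg I T‖ := by
  obtain ⟨i⟩ := ‹Nonempty I›
  have := norm_ent_le (dg I T) i i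
  rwa [ent_dg_self] at this

open Classical in
theorem l2vn_ent_one1_mul (i j k l : I) (T : Op (L2 I H)) :
    ent (one1 i j 1 * T) k l = if k = i then ent T j l else 0 := by
  ext x
  change (inj i (T (inj l x) j) : L2 I H) k = _
  rw [inj_apply]
  split_ifs <;> rfl

open Classical in
theorem l2vn_ent_mul_one1 (i j k l : I) (T : Op (L2 I H)) :
    ent (T * one1 i j 1) k l = if l = j then ent T k i else 0 := by
  ext x
  change T (inj i ((inj l x : L2 I H) j)) k = _
  rw [inj_apply]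
  by_cases h : l = j
  · rw [if_pos h, if_pos h.symm]; rfl
  · rw [if_neg h, if_neg fun h' => h h'.symm, map_zero, map_zero]; rfl

theorem mem_ampVN {P : VN H} {T : Op (L2 I H)} : T ∈ ampVN I P ↔ ∀ i j, ent T i j ∈ P := by
  unfold ampVN
  rw [mem_cm]
  constructor
  · intro h i j
    rw [← P.commutant_commutant, mem_comm]
    intro y hy
    exact commute_dg_iff.1 (h _ ⟨y, hy, rfl⟩).1 i j
  · rintro h _ ⟨y, hy, rfl⟩
    have key : ∀ z ∈ P.commutant, Commute (dg I z) T := fun z hz =>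
      commute_dg_iff.2 fun i j => (mem_comm.1 hz _ (h i j)).symm
    refine ⟨key y hy, ?_⟩
    rw [← l2vn_dg_star]
    exact key _ (star_mem hy)

theorem l2vn_dgf_mem {P : VN H} {x : I → Op H} (hb : Bdd x) (hx : ∀ i, x i ∈ P) :
    dgf x ∈ ampVN I P := by
  refine mem_ampVN.2 fun i j => ?_
  rw [ent_dgf hb]
  split_ifs
  · exact hx i
  · exact zero_mem _

theorem l2vn_one1_mem {P : VN H} (i j : I) {x : Op H} (hx : x ∈ P) :
    one1 i j x ∈ ampVN I P := by
  refine mem_ampVN.2 fun k l => ?_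
  rw [ent_one1]
  split_ifs
  · exact hx
  · exact zero_mem _

/-- An operator commuting with all `one1 i j 1` is of the form `t ⊗ 1`; if it also commutes with
`P' ⊗ 1` then `t ∈ P`. -/
theorem mem_dgVN [Nonempty I] {P : VN H} {T : Op (L2 I H)} :
    T ∈ dgVN I P ↔ ∃ t ∈ P, T = dg I t := by
  classical
  obtain ⟨i₀⟩ := ‹Nonempty I›
  unfold dgVN
  rw [mem_comm]
  constructor
  · intro h
    have hT : T = dg I (ent T i₀ i₀) := by
      refine ext_ent fun k l => ?_
      have h1 := congrArg (fun X => ent X i₀ l)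
        (h (one1 i₀ k 1) (l2vn_one1_mem i₀ k (one_mem _))).eq
      simp only [l2vn_ent_one1_mul, l2vn_ent_mul_one1, if_true] at h1
      rw [h1, l2vn_ent_dg]
      by_cases hkl : k = l
      · rw [if_pos hkl, if_pos hkl.symm]
      · rw [if_neg hkl, if_neg fun h' => hkl h'.symm]
    refine ⟨ent T i₀ i₀, ?_, hT⟩
    rw [← P.commutant_commutant, mem_comm]
    intro y hy
    exact commute_dg_iff.1 (h _ (l2vn_dgf_mem (l2vn_bdd_const y) fun _ => hy)) i₀ i₀
  · rintro ⟨t, ht, rfl⟩ X hX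
    exact (commute_dg_iff.2 fun i j => mem_comm.1 (mem_ampVN.1 hX i j) t ht).symm

theorem ampVN_commutant (P : VN H) : (ampVN I P).commutant = dgVN I P.commutant := by
  unfold dgVN
  rw [P.commutant_commutant]

theorem dgVN_commutant (P : VN H) : (dgVN I P).commutant = ampVN I P.commutant := by
  unfold dgVN
  rw [VonNeumannAlgebra.commutant_commutant]

theorem dg_mem_ampVN {P : VN H} {x : Op H} (hx : x ∈ P) : dg I x ∈ ampVN I P := by
  exact l2vn_dgf_mem (l2vn_bdd_const x) fun _ => hx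

theorem dgf_mem_ampVN {P : VN H} {x : I → Op H} (hb : Bdd x) (hx : ∀ i, x i ∈ P) :
    dgf x ∈ ampVN I P := by
  exact l2vn_dgf_mem hb hx

theorem one1_mem_ampVN {P : VN H} (i j : I) {x : Op H} (hx : x ∈ P) : one1 i j x ∈ ampVN I P := by
  exact l2vn_one1_mem i j hx

theorem emb_mem_ampVN (P : VN H) (f : I ↪ I) : emb H f ∈ ampVN I P := by
  unfold ampVN
  rw [mem_cm]
  rintro _ ⟨y, _, rfl⟩
  refine ⟨commute_dg_emb y f, ?_⟩
  rw [← l2vn_dg_star]
  exact commute_dg_emb _ f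

theorem cen_ampVN [Nonempty I] {P : VN H} {T : Op (L2 I H)} :
    Cen (ampVN I P) T ↔ ∃ t, Cen P t ∧ T = dg I t := by
  obtain ⟨i⟩ := id ‹Nonempty I›
  unfold Cen
  rw [ampVN_commutant, mem_dgVN]
  constructor
  · rintro ⟨h, t, ht, rfl⟩
    refine ⟨t, ⟨?_, ht⟩, rfl⟩
    have := mem_ampVN.1 h i i
    rwa [ent_dg_self] at this
  · rintro ⟨t, ⟨h1, h2⟩, rfl⟩
    exact ⟨dg_mem_ampVN h1, t, h2, rfl⟩

theorem cen_dgVN [Nonempty I] {P : VN H} {T : Op (L2 I H)} :
    Cen (dgVN I P) T ↔ ∃ t, Cen P t ∧ T = dg I t := by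
  obtain ⟨i⟩ := id ‹Nonempty I›
  unfold Cen
  rw [dgVN_commutant, mem_dgVN]
  constructor
  · rintro ⟨⟨t, ht, rfl⟩, h⟩
    refine ⟨t, ⟨ht, ?_⟩, rfl⟩
    have := mem_ampVN.1 h i i
    rwa [ent_dg_self] at this
  · rintro ⟨t, ⟨h1, h2⟩, rfl⟩
    exact ⟨⟨t, h1, rfl⟩, dg_mem_ampVN h2⟩

theorem Near.dgVN [Nonempty I] {M N : VN H} {γ : ℝ} (h : Near M N γ) (hγ : 0 ≤ γ) :
    Near (dgVN I M) (dgVN I N) γ := by
  intro X hX
  obtain ⟨t, ht, rfl⟩ := mem_dgVN.1 hX
  obtain ⟨y, hy, hty⟩ := h t ht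
  refine ⟨dg I y, mem_dgVN.2 ⟨y, hy, rfl⟩, ?_⟩
  rw [← l2vn_dg_sub]
  exact (norm_dg_le _).trans (hty.trans (mul_le_mul_of_nonneg_left (l2vn_norm_le_dg t) hγ))

/-- The universal constant of amplification. -/
def cA : ℝ := 4200 * 4200

theorem one_le_cA : 1 ≤ cA := by unfold cA; norm_num

/-- Recipe: for `y' ∈ N'` pick `x' ∈ M'` with `‖y' - x'‖ ≤ 4200 γ ‖y'‖` (`Near.commutant`); for
`X ∈ ampVN I M`, `‖[X, y' ⊗ 1]‖ = ‖[X, (y' - x') ⊗ 1]‖ ≤ 2 · 4200 γ ‖X‖ ‖y'‖`; conclude with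
`near_of_comm` (if `I` is empty everything is trivial). -/
theorem Near.ampVN {M N : VN H} {γ : ℝ} (h : Near M N γ) (hγ : 0 ≤ γ) :
    Near (ampVN I M) (ampVN I N) (cA * γ) := by
  rcases isEmpty_or_nonempty I with hI | hI
  · intro X _
    refine ⟨X, mem_ampVN.2 fun i => isEmptyElim i, ?_⟩
    rw [sub_self, norm_zero]
    exact mul_nonneg (mul_nonneg (zero_le_one.trans one_le_cA) hγ) (norm_nonneg _)
  · have h1 : Near (R78.dgVN I N.commutant) (R78.dgVN I M.commutant) (4200 * γ) :=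
      (h.commutant hγ).dgVN (by positivity)
    have e : cA * γ = 2100 * (2 * (4200 * γ)) := by unfold cA; ring
    rw [e]
    refine near_of_comm (by positivity) fun X hX Y hY => ?_
    rw [ampVN_commutant] at hY
    have hX' : X ∈ (R78.dgVN I M.commutant).commutant := by
      rw [dgVN_commutant, VonNeumannAlgebra.commutant_commutant]; exact hX
    have h2 := h1.comm_le hY hX'
    rw [norm_sub_rev] at h2
    calc _ ≤ _ := h2
      _ = _ := by ring

/-- Column closeness: apply `Near.ampVN` with `I = Option ι` to `X = ∑ j, one1 (some j) none (a j)`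
(norm `≤ c`) and take the entries `(some j, none)` of the partner. -/
theorem Near.col {M N : VN H} {γ : ℝ} (h : Near M N γ) (hγ : 0 ≤ γ) {ι : Type} [Fintype ι]
    {a : ι → Op H} (ha : ∀ j, a j ∈ M) {c : ℝ} (hc : 0 ≤ c) (hcol : Col a c) :
    ∃ b : ι → Op H, (∀ j, b j ∈ N) ∧ Col (fun j => a j - b j) (cA * γ * c) := by
  classical
  set X : Op (L2 (Option ι) H) := ∑ j, one1 (some j) none (a j) with hX
  have hXm : X ∈ R78.ampVN (Option ι) M :=
    sum_mem fun j _ => one1_mem_ampVN _ _ (ha j)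
  have hXv : ∀ (v : L2 (Option ι) H) (i : Option ι),
      X v i = ∑ j, if i = some j then a j (v none) else 0 := by
    intro v i
    have : X v i = prj i (X v) := rfl
    rw [this, hX, sum_apply, map_sum]
    refine Finset.sum_congr rfl fun j _ => ?_
    change (inj (some j) (a j (v none)) : L2 (Option ι) H) i = _
    rw [inj_apply]
    congr
  have hXs : ∀ (v : L2 (Option ι) H) (j : ι), X v (some j) = a j (v none) := by
    intro v j
    rw [hXv]
    simp
  have hXn : ‖X‖ ≤ c := by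
    refine ContinuousLinearMap.opNorm_le_bound _ hc fun v => ?_
    have h1 := (hasSum_norm_sq_L2 (X v)).unique (hasSum_fintype _)
    rw [Fintype.sum_option] at h1
    have h0 : X v none = 0 := by rw [hXv]; simp
    simp only [h0, hXs, norm_zero] at h1
    have h2 := hcol (v none)
    have h3 : ‖v none‖ ^ 2 ≤ ‖v‖ ^ 2 := pow_le_pow_left₀ (norm_nonneg _) (norm_prj_le _ _) 2
    refine le_of_sq_le_sq ?_ (by positivity)
    rw [h1, mul_pow]
    nlinarith [sq_nonneg c]
  obtain ⟨Y, hY, hXY⟩ := (h.ampVN (I := Option ι) hγ) X hXm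
  have hcA : 0 ≤ cA * γ := mul_nonneg (zero_le_one.trans one_le_cA) hγ
  refine ⟨fun j => ent Y (some j) none, fun j => mem_ampVN.1 hY _ _, fun x => ?_⟩
  have he : ∀ j, a j - ent Y (some j) none = ent (X - Y) (some j) none := by
    intro j
    rw [ent_sub]
    congr 1
    ext y
    rw [ent_apply, hXs, inj_apply, if_pos rfl]
  have h1 := sum_ent_col_le (X - Y) none (Finset.univ.map Function.Embedding.some) x
  rw [Finset.sum_map] at h1
  simp only [he]
  refine le_trans h1 (mul_le_mul_of_nonneg_right ?_ (sq_nonneg _))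
  exact pow_le_pow_left₀ (norm_nonneg _) (hXY.trans (mul_le_mul_of_nonneg_left hXn hcA)) 2

/-- Descent of linear maps: `x ↦ ent (θ (x ⊗ 1)) i i`. -/
theorem LinNear.of_amp [Nonempty I] {M N : VN H} {M' N' : VN (L2 I H)} {ε : ℝ} (hε : 0 ≤ ε)
    (hM : ∀ x ∈ M, dg I x ∈ M') (hN : ∀ T ∈ N', T ∈ ampVN I N) (h : LinNear M' N' ε) :
    LinNear M N ε := by
  obtain ⟨i⟩ := id ‹Nonempty I›
  obtain ⟨θ, hθ, hθ'⟩ := h
  let D : Alg M →ₗ[ℂ] Alg M' :=
    { toFun := fun x => ⟨dg I (x : Op H), hM _ x.2⟩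
      map_add' := fun x y => Subtype.ext (map_add (dgHom I H) (x : Op H) (y : Op H))
      map_smul' := fun c x => Subtype.ext (map_smul (dgHom I H) c (x : Op H)) }
  let E : Op (L2 I H) →ₗ[ℂ] Op H :=
    { toFun := fun T => ent T i i
      map_add' := fun S T => ent_add S T i i
      map_smul' := fun c T => ent_smul c T i i }
  refine ⟨E ∘ₗ θ ∘ₗ D, fun x => mem_ampVN.1 (hN _ (hθ _)) i i, fun x => ?_⟩
  have h1 : (E ∘ₗ θ ∘ₗ D) x - (x : Op H) = ent (θ (D x) - (D x : Op (L2 I H))) i i := by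
    rw [ent_sub]
    congr 1
    exact (ent_dg_self _ i).symm
  rw [h1]
  refine (norm_ent_le _ _ _).trans ((hθ' _).trans (mul_le_mul_of_nonneg_left ?_ hε))
  exact norm_dg_le (x : Op H)

theorem LinNear.of_dg [Nonempty I] {M N : VN H} {ε : ℝ} (hε : 0 ≤ ε)
    (h : LinNear (dgVN I M) (dgVN I N) ε) : LinNear M N ε := by
  refine LinNear.of_amp hε (fun x hx => mem_dgVN.2 ⟨x, hx, rfl⟩) (fun T hT => ?_) h
  obtain ⟨t, ht, rfl⟩ := mem_dgVN.1 hT
  exact dg_mem_ampVN ht

theorem conjVN_ampVN (u : unitary (Op H)) (U : unitary (Op (L2 I H)))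
    (hU : (U : Op (L2 I H)) = dg I (u : Op H)) (P : VN H) :
    conjVN U (ampVN I P) = ampVN I (conjVN u P) := by
  ext T
  rw [mem_conjVN, mem_ampVN, mem_ampVN]
  refine forall_congr' fun i => forall_congr' fun j => ?_
  rw [mem_conjVN, hU, ← l2vn_dg_star]
  unfold dg
  rw [ent_mul_dgf (l2vn_bdd_const _), ent_dgf_mul (l2vn_bdd_const _)]

end

end Crest.Agent.R78
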