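import Crest.Agent.R78.Basic

/-!
# Row 78: invariant means
-/

open scoped InnerProductSpace Topology ComplexConjugate
open Filter MeasureTheory

set_option linter.unusedSectionVars false

namespace Crest.Agent.R78

open Crest.Agent.R121 (Alg)

noncomputable section

universe u

variable {H : Type*} [NormedAddCommGroup H] [InnerProductSpace ℂ H] [CompleteSpace H]

section Bdd

variable {X E : Type*} [SeminormedAddCommGroup E]

theorem mn_bdd_const (c : E) : Bdd (fun _ : X => c) := ⟨‖c‖, fun _ => le_rfl⟩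

theorem mn_bdd_add {f g : X → E} (hf : Bdd f) (hg : Bdd g) : Bdd (fun x => f x + g x) := by
  obtain ⟨C, hC⟩ := hf
  obtain ⟨D, hD⟩ := hg
  exact ⟨C + D, fun x => (norm_add_le _ _).trans (add_le_add (hC x) (hD x))⟩

theorem mn_bdd_sub {f g : X → E} (hf : Bdd f) (hg : Bdd g) : Bdd (fun x => f x - g x) := by
  obtain ⟨C, hC⟩ := hf
  obtain ⟨D, hD⟩ := hg
  exact ⟨C + D, fun x => (norm_sub_le _ _).trans (add_le_add (hC x) (hD x))⟩

theorem mn_bdd_of_le {F : Type*} [Norm F] {f : X → E} {g : X → F} (hf : Bdd f) {c : ℝ} (hc : 0 ≤ c)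
    (h : ∀ x, ‖g x‖ ≤ c * ‖f x‖) : Bdd g := by
  obtain ⟨C, hC⟩ := hf
  exact ⟨c * C, fun x => (h x).trans (mul_le_mul_of_nonneg_left (hC x) hc)⟩

theorem mn_bdd_comp {Y : Type*} {f : X → E} (hf : Bdd f) (φ : Y → X) : Bdd (fun y => f (φ y)) := by
  obtain ⟨C, hC⟩ := hf
  exact ⟨C, fun x => hC _⟩

theorem mn_bdd_of_sub {f : X → E} {v : E} {C : ℝ} (h : ∀ x, ‖f x - v‖ ≤ C) : Bdd f :=
  ⟨C + ‖v‖, fun x => by
    have := norm_add_le (f x - v) v
    rw [sub_add_cancel] at this
    linarith [h x]⟩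

end Bdd

theorem mn_abs_re_inner (w v : H) : ‖(⟪w, v⟫_ℂ).re‖ ≤ ‖w‖ * ‖v‖ :=
  (Complex.abs_re_le_norm _).trans (norm_inner_le_norm _ _)

theorem mn_bdd_re {X : Type*} {f : X → H} (hf : Bdd f) (w : H) :
    Bdd (fun x => (⟪w, f x⟫_ℂ).re) :=
  mn_bdd_of_le hf (norm_nonneg w) fun x => mn_abs_re_inner w (f x)

theorem mn_bdd_app {X : Type*} {F : X → Op H} (hF : Bdd F) (v : H) : Bdd (fun x => F x v) :=
  mn_bdd_of_le hF (norm_nonneg v) fun x => by rw [mul_comm]; exact (F x).le_opNorm v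

theorem mn_ext_re {a b : H} (h : ∀ w : H, (⟪w, a⟫_ℂ).re = (⟪w, b⟫_ℂ).re) : a = b := by
  have h1 := h (a - b)
  have h2 : (⟪a - b, a - b⟫_ℂ).re = 0 := by
    rw [inner_sub_right, Complex.sub_re, h1, sub_self]
  have h3 : ‖a - b‖ ^ 2 = 0 := by
    rw [← h2]
    exact (inner_self_eq_norm_sq (𝕜 := ℂ) (a - b)).symm
  exact sub_eq_zero.1 (norm_eq_zero.1 (pow_eq_zero_iff two_ne_zero |>.1 h3))

namespace Mean

variable {G : Type*} [Group G] (m : Mean G)

theorem L_neg {f : G → ℝ} (hf : Bdd f) : m.L (fun x => -f x) = -m.L f := by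
  have := m.smul (-1) hf
  simpa using this

theorem L_sub {f g : G → ℝ} (hf : Bdd f) (hg : Bdd g) :
    m.L (fun x => f x - g x) = m.L f - m.L g := by
  have h1 : Bdd (fun x => -g x) := mn_bdd_of_le hg zero_le_one fun x => by simp
  have := m.add hf h1
  rw [m.L_neg hg] at this
  simpa [sub_eq_add_neg] using this

theorem L_const (c : ℝ) : m.L (fun _ => c) = c := by
  have h1 : m.L (fun _ => c) ≤ c := m.le (mn_bdd_const c) fun _ => le_rfl
  have h2 : m.L (fun _ => -c) ≤ -c := m.le (mn_bdd_const (-c)) fun _ => le_rfl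
  rw [m.L_neg (mn_bdd_const c)] at h2
  linarith

theorem L_mono {f g : G → ℝ} (hf : Bdd f) (hg : Bdd g) (h : ∀ x, f x ≤ g x) : m.L f ≤ m.L g := by
  have h1 : m.L (fun x => f x - g x) ≤ 0 := m.le (mn_bdd_sub hf hg) fun x => sub_nonpos.2 (h x)
  rw [m.L_sub hf hg] at h1
  linarith

theorem abs_L_le {f : G → ℝ} {C : ℝ} (h : ∀ x, |f x| ≤ C) : |m.L f| ≤ C := by
  have hf : Bdd f := ⟨C, h⟩
  have h1 : m.L f ≤ C := m.le hf fun x => (abs_le.1 (h x)).2
  have h2 := m.L_mono (mn_bdd_const (-C)) hf fun x => (abs_le.1 (h x)).1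
  rw [m.L_const] at h2
  exact abs_le.2 ⟨h2, h1⟩

/-- Cauchy–Schwarz (Jensen): expand `0 ≤ L ((f - L f)²)`. -/
theorem sq_L_le {f : G → ℝ} (hf : Bdd f) : m.L f ^ 2 ≤ m.L (fun x => f x ^ 2) := by
  have h2 : Bdd (fun x => f x ^ 2) := by
    obtain ⟨C, hC⟩ := hf
    exact ⟨C ^ 2, fun x => by
      rw [norm_pow]
      exact pow_le_pow_left₀ (norm_nonneg _) (hC x) 2⟩
  have h3 : Bdd (fun x => 2 * m.L f * f x) :=
    mn_bdd_of_le hf (norm_nonneg (2 * m.L f)) fun x => (norm_mul _ _).le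
  have h4 := m.L_mono (mn_bdd_sub h3 (mn_bdd_const (m.L f ^ 2))) h2 fun x => by
    nlinarith [sq_nonneg (f x - m.L f)]
  rw [m.L_sub h3 (mn_bdd_const _), m.smul _ hf, m.L_const] at h4
  linarith

/-- The defining property (Riesz representation of the real linear functional
`w ↦ L (re ⟪w, f ·⟫)`, e.g. via the complex linear functional
`w ↦ L (re ⟪f ·, w⟫) + i L (im ⟪f ·, w⟫)` and `InnerProductSpace.toDual`). -/
theorem re_inner_vec {f : G → H} (hf : Bdd f) (w : H) :
    (⟪w, m.vec f⟫_ℂ).re = m.L (fun g => (⟪w, f g⟫_ℂ).re) := by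
  have hex : ∃ v : H, ∀ w : H, (⟪w, v⟫_ℂ).re = m.L (fun g => (⟪w, f g⟫_ℂ).re) := by
    letI : InnerProductSpace ℝ H := InnerProductSpace.rclikeToReal ℂ H
    have hb : ∀ w : H, Bdd (fun g => ⟪w, f g⟫_ℝ) := fun w => mn_bdd_re hf w
    obtain ⟨C, hC⟩ := hf
    let φ : H →ₗ[ℝ] ℝ :=
      { toFun := fun w => m.L (fun g => ⟪w, f g⟫_ℝ)
        map_add' := fun a b => by
          simp only [inner_add_left]
          exact m.add (hb a) (hb b)
        map_smul' := fun c a => by
          simp only [real_inner_smul_left, RingHom.id_apply, smul_eq_mul]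
          exact m.smul c (hb a) }
    have hφ : ∀ w, ‖φ w‖ ≤ C * ‖w‖ := fun w => m.abs_L_le fun g => by
      refine (abs_real_inner_le_norm _ _).trans ?_
      rw [mul_comm]
      exact mul_le_mul_of_nonneg_right (hC g) (norm_nonneg _)
    refine ⟨(InnerProductSpace.toDual ℝ H).symm (φ.mkContinuous C hφ), fun w => ?_⟩
    have h1 := InnerProductSpace.toDual_symm_apply (𝕜 := ℝ) (x := w) (y := φ.mkContinuous C hφ)
    rw [real_inner_comm] at h1
    exact h1
  rw [Mean.vec, dif_pos hex]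
  exact hex.choose_spec w

theorem vec_eq {f : G → H} (hf : Bdd f) {v : H}
    (h : ∀ w : H, (⟪w, v⟫_ℂ).re = m.L (fun g => (⟪w, f g⟫_ℂ).re)) : m.vec f = v :=
  mn_ext_re fun w => by rw [m.re_inner_vec hf, h]

theorem vec_const (v : H) : m.vec (fun _ => v) = v := by
  exact m.vec_eq (mn_bdd_const v) fun w => (m.L_const _).symm

theorem vec_add {f g : G → H} (hf : Bdd f) (hg : Bdd g) :
    m.vec (fun x => f x + g x) = m.vec f + m.vec g := by
  refine m.vec_eq (mn_bdd_add hf hg) fun w => ?_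
  simp only [inner_add_right, Complex.add_re]
  rw [m.add (mn_bdd_re hf w) (mn_bdd_re hg w), m.re_inner_vec hf, m.re_inner_vec hg]

theorem vec_sub {f g : G → H} (hf : Bdd f) (hg : Bdd g) :
    m.vec (fun x => f x - g x) = m.vec f - m.vec g := by
  refine m.vec_eq (mn_bdd_sub hf hg) fun w => ?_
  simp only [inner_sub_right, Complex.sub_re]
  rw [m.L_sub (mn_bdd_re hf w) (mn_bdd_re hg w), m.re_inner_vec hf, m.re_inner_vec hg]

theorem vec_smul (c : ℂ) {f : G → H} (hf : Bdd f) : m.vec (fun x => c • f x) = c • m.vec f := by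
  refine m.vec_eq (mn_bdd_of_le hf (norm_nonneg c) fun x => (norm_smul _ _).le) fun w => ?_
  have e : ∀ v : H, ⟪w, c • v⟫_ℂ = ⟪conj c • w, v⟫_ℂ := fun v => by
    rw [inner_smul_left, inner_smul_right, Complex.conj_conj]
  simp only [e]
  exact m.re_inner_vec hf _

theorem map_vec {K : Type*} [NormedAddCommGroup K] [InnerProductSpace ℂ K] [CompleteSpace K]
    (S : H →L[ℂ] K) {f : G → H} (hf : Bdd f) : S (m.vec f) = m.vec (fun x => S (f x)) := by
  refine (m.vec_eq (mn_bdd_of_le hf (norm_nonneg S) fun x => S.le_opNorm _) fun w => ?_).symm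
  simp only [← ContinuousLinearMap.adjoint_inner_left]
  exact m.re_inner_vec hf _

theorem vec_inv (g : G) {f : G → H} (hf : Bdd f) : m.vec (fun x => f (g * x)) = m.vec f := by
  refine m.vec_eq (mn_bdd_comp hf _) fun w => ?_
  rw [m.re_inner_vec hf]
  exact (m.inv g (mn_bdd_re hf w)).symm

theorem norm_vec_le_L {f : G → H} (hf : Bdd f) : ‖m.vec f‖ ≤ m.L (fun g => ‖f g‖) := by
  have hn : Bdd (fun g => ‖f g‖) := mn_bdd_of_le hf zero_le_one fun x => by simp
  have h0 : 0 ≤ m.L (fun g => ‖f g‖) := by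
    have := m.L_mono (mn_bdd_const (0 : ℝ)) hn fun x => norm_nonneg _
    rwa [m.L_const] at this
  have h1 : ‖m.vec f‖ ^ 2 = m.L (fun g => (⟪m.vec f, f g⟫_ℂ).re) := by
    rw [← m.re_inner_vec hf]
    exact (inner_self_eq_norm_sq (𝕜 := ℂ) _).symm
  have h2 := m.L_mono (mn_bdd_re hf (m.vec f)) (g := fun g => ‖m.vec f‖ * ‖f g‖)
    (mn_bdd_of_le hf (norm_nonneg (m.vec f)) fun x => by simp)
    fun x => (le_abs_self _).trans (mn_abs_re_inner _ _)
  rw [m.smul _ hn, ← h1] at h2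
  rcases (norm_nonneg (m.vec f)).eq_or_lt with h | h
  · rw [← h]
    exact h0
  · rw [sq] at h2
    exact le_of_mul_le_mul_left h2 h

theorem norm_vec_le {f : G → H} {C : ℝ} (h : ∀ x, ‖f x‖ ≤ C) : ‖m.vec f‖ ≤ C := by
  exact (m.norm_vec_le_L ⟨C, h⟩).trans (m.le ⟨C, fun x => by simpa using h x⟩ h)

theorem norm_vec_sub_le {f : G → H} {v : H} {C : ℝ} (h : ∀ x, ‖f x - v‖ ≤ C) :
    ‖m.vec f - v‖ ≤ C := by
  have := m.norm_vec_le h
  rwa [m.vec_sub (mn_bdd_of_sub h) (mn_bdd_const v), m.vec_const] at this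

theorem norm_vec_sub_vec_le {f g : G → H} (hf : Bdd f) {C : ℝ} (h : ∀ x, ‖f x - g x‖ ≤ C) :
    ‖m.vec f - m.vec g‖ ≤ C := by
  have hg : Bdd g := by
    have := mn_bdd_sub hf (g := fun x => f x - g x) ⟨C, h⟩
    simpa using this
  have := m.norm_vec_le h
  rwa [m.vec_sub hf hg] at this

theorem norm_inner_vec_sub_le {f : G → H} (hf : Bdd f) {w : H} {c : ℂ} {C : ℝ}
    (h : ∀ x, ‖⟪w, f x⟫_ℂ - c‖ ≤ C) : ‖⟪w, m.vec f⟫_ℂ - c‖ ≤ C := by
  have h1 := m.map_vec (innerSL ℂ w) hf
  simp only [innerSL_apply_apply] at h1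
  rw [h1]
  exact m.norm_vec_sub_le h

theorem op_apply {F : G → Op H} (hF : Bdd F) (v : H) : m.op F v = m.vec (fun g => F g v) := by
  have hex : ∃ T : Op H, ∀ v, T v = m.vec (fun g => F g v) := by
    let φ : H →ₗ[ℂ] H :=
      { toFun := fun v => m.vec (fun g => F g v)
        map_add' := fun a b => by
          simp only [map_add]
          exact m.vec_add (mn_bdd_app hF a) (mn_bdd_app hF b)
        map_smul' := fun c a => by
          simp only [map_smul, RingHom.id_apply]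
          exact m.vec_smul c (mn_bdd_app hF a) }
    obtain ⟨C, hC⟩ := hF
    have hφ : ∀ v, ‖φ v‖ ≤ C * ‖v‖ := fun v => m.norm_vec_le fun g =>
      ((F g).le_opNorm v).trans (mul_le_mul_of_nonneg_right (hC g) (norm_nonneg _))
    exact ⟨φ.mkContinuous C hφ, fun v => rfl⟩
  rw [Mean.op, dif_pos hex]
  exact hex.choose_spec v

theorem op_const (T : Op H) : m.op (fun _ => T) = T := by
  ext v
  rw [m.op_apply (mn_bdd_const T), m.vec_const]

theorem op_add {F F' : G → Op H} (hF : Bdd F) (hF' : Bdd F') :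
    m.op (fun g => F g + F' g) = m.op F + m.op F' := by
  ext v
  rw [m.op_apply (mn_bdd_add hF hF'), ContinuousLinearMap.add_apply, m.op_apply hF, m.op_apply hF']
  exact m.vec_add (mn_bdd_app hF v) (mn_bdd_app hF' v)

theorem op_sub {F F' : G → Op H} (hF : Bdd F) (hF' : Bdd F') :
    m.op (fun g => F g - F' g) = m.op F - m.op F' := by
  ext v
  rw [m.op_apply (mn_bdd_sub hF hF'), ContinuousLinearMap.sub_apply, m.op_apply hF, m.op_apply hF']
  exact m.vec_sub (mn_bdd_app hF v) (mn_bdd_app hF' v)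

theorem op_smul (c : ℂ) {F : G → Op H} (hF : Bdd F) : m.op (fun g => c • F g) = c • m.op F := by
  ext v
  rw [m.op_apply (mn_bdd_of_le hF (norm_nonneg c) fun x => (norm_smul _ _).le),
    ContinuousLinearMap.smul_apply, m.op_apply hF]
  exact m.vec_smul c (mn_bdd_app hF v)

theorem op_star {F : G → Op H} (hF : Bdd F) : m.op (fun g => star (F g)) = star (m.op F) := by
  ext v
  have hs : Bdd (fun g => star (F g)) := mn_bdd_of_le hF zero_le_one fun x => by simp
  rw [m.op_apply hs]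
  refine m.vec_eq (mn_bdd_app hs v) fun w => ?_
  have e : ∀ T : Op H, (⟪w, star T v⟫_ℂ).re = (⟪v, T w⟫_ℂ).re := fun T => by
    rw [ContinuousLinearMap.star_eq_adjoint, ContinuousLinearMap.adjoint_inner_right,
      ← inner_conj_symm, Complex.conj_re]
  simp only [e]
  rw [m.op_apply hF]
  exact m.re_inner_vec (mn_bdd_app hF w) v

theorem op_mul_left (S : Op H) {F : G → Op H} (hF : Bdd F) :
    m.op (fun g => S * F g) = S * m.op F := by
  ext v
  rw [m.op_apply (mn_bdd_of_le hF (norm_nonneg S) fun x => norm_mul_le _ _),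
    ContinuousLinearMap.mul_apply, m.op_apply hF, m.map_vec S (mn_bdd_app hF v)]
  rfl

theorem op_mul_right (S : Op H) {F : G → Op H} (hF : Bdd F) :
    m.op (fun g => F g * S) = m.op F * S := by
  ext v
  rw [m.op_apply (mn_bdd_of_le hF (norm_nonneg S) fun x => by
      rw [mul_comm ‖S‖]; exact norm_mul_le _ _),
    ContinuousLinearMap.mul_apply, m.op_apply hF]
  rfl

theorem op_inv (g : G) {F : G → Op H} (hF : Bdd F) : m.op (fun x => F (g * x)) = m.op F := by
  ext v
  rw [m.op_apply (mn_bdd_comp hF _), m.op_apply hF]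
  exact m.vec_inv g (mn_bdd_app hF v)

theorem norm_op_le {F : G → Op H} {C : ℝ} (h : ∀ g, ‖F g‖ ≤ C) : ‖m.op F‖ ≤ C := by
  refine ContinuousLinearMap.opNorm_le_bound _ ((norm_nonneg _).trans (h 1)) fun v => ?_
  rw [m.op_apply ⟨C, h⟩]
  exact m.norm_vec_le fun g =>
    ((F g).le_opNorm v).trans (mul_le_mul_of_nonneg_right (h g) (norm_nonneg _))

theorem norm_op_sub_le {F : G → Op H} {T : Op H} {C : ℝ} (h : ∀ g, ‖F g - T‖ ≤ C) :
    ‖m.op F - T‖ ≤ C := by
  have := m.norm_op_le h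
  rwa [m.op_sub (mn_bdd_of_sub h) (mn_bdd_const T), m.op_const] at this

theorem commute_op {F : G → Op H} (hF : Bdd F) {S : Op H} (h : ∀ g, Commute S (F g)) :
    Commute S (m.op F) := by
  change S * m.op F = m.op F * S
  rw [← m.op_mul_left S hF, ← m.op_mul_right S hF]
  congr 1
  funext g
  exact h g

theorem op_mem {F : G → Op H} (hF : Bdd F) {P : VN H} (h : ∀ g, F g ∈ P) : m.op F ∈ P := by
  rw [← P.commutant_commutant, mem_comm]
  intro x hx
  exact m.commute_op hF fun g => (mem_comm.1 hx _ (h g)).symm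

theorem op_nonneg {F : G → Op H} (hF : Bdd F) (h : ∀ g, 0 ≤ F g) : 0 ≤ m.op F := by
  have hp : ∀ g, (F g).IsPositive := fun g => (ContinuousLinearMap.nonneg_iff_isPositive _).1 (h g)
  rw [ContinuousLinearMap.nonneg_iff_isPositive, ContinuousLinearMap.isPositive_def']
  refine ⟨?_, fun v => ?_⟩
  · change star (m.op F) = m.op F
    rw [← m.op_star hF]
    congr 1
    funext g
    exact (hp g).isSelfAdjoint
  · have h1 : (m.op F).reApplyInnerSelf v = (⟪v, m.op F v⟫_ℂ).re := by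
      rw [ContinuousLinearMap.reApplyInnerSelf_apply, ← inner_conj_symm]
      exact Complex.conj_re _
    rw [h1, m.op_apply hF, m.re_inner_vec (mn_bdd_app hF v)]
    have := m.L_mono (mn_bdd_const (0 : ℝ)) (mn_bdd_re (mn_bdd_app hF v) v) fun g =>
      (hp g).re_inner_nonneg_right v
    rwa [m.L_const] at this

/-- The conditional expectation onto the commutant of a unitary representation. -/
def cE (π : G →* unitary (Op H)) (x : Op H) : Op H :=
  m.op fun g => (π g : Op H) * x * star (π g : Op H)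

theorem mn_norm_conj (u : unitary (Op H)) (x : Op H) :
    ‖(u : Op H) * x * star (u : Op H)‖ = ‖x‖ := by
  rw [← Unitary.coe_star, CStarRing.norm_mul_coe_unitary, CStarRing.norm_coe_unitary_mul]

theorem mn_bdd_conj (π : G →* unitary (Op H)) (x : Op H) :
    Bdd fun g => (π g : Op H) * x * star (π g : Op H) := ⟨‖x‖, fun g => (mn_norm_conj _ x).le⟩

theorem norm_cE_le (π : G →* unitary (Op H)) (x : Op H) : ‖m.cE π x‖ ≤ ‖x‖ := by
  exact m.norm_op_le fun g => (mn_norm_conj _ x).le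

theorem commute_cE (π : G →* unitary (Op H)) (x : Op H) (g : G) :
    Commute (π g : Op H) (m.cE π x) := by
  have h1 := m.op_inv g (mn_bdd_conj π x)
  have h2 : (fun h => (π (g * h) : Op H) * x * star (π (g * h) : Op H)) =
      fun h => (π g : Op H) * ((π h : Op H) * x * star (π h : Op H)) * star (π g : Op H) := by
    funext h
    simp only [map_mul, Submonoid.coe_mul, star_mul, mul_assoc]
  rw [h2, m.op_mul_right _ (mn_bdd_of_le (mn_bdd_conj π x) (norm_nonneg (π g : Op H))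
    fun x => norm_mul_le _ _), m.op_mul_left _ (mn_bdd_conj π x)] at h1
  change (π g : Op H) * m.cE π x * star (π g : Op H) = m.cE π x at h1
  change (π g : Op H) * m.cE π x = m.cE π x * (π g : Op H)
  conv_rhs => rw [← h1]
  rw [mul_assoc, Unitary.coe_star_mul_self, mul_one]

theorem cE_of_commute (π : G →* unitary (Op H)) {x : Op H} (h : ∀ g, Commute (π g : Op H) x) :
    m.cE π x = x := by
  have : (fun g => (π g : Op H) * x * star (π g : Op H)) = fun _ => x := by
    funext g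
    rw [(h g).eq, mul_assoc, ← Unitary.coe_star, Unitary.coe_mul_star_self, mul_one]
  rw [cE, this, m.op_const]

theorem cE_add (π : G →* unitary (Op H)) (x y : Op H) :
    m.cE π (x + y) = m.cE π x + m.cE π y := by
  simp only [cE, mul_add, add_mul]
  exact m.op_add (mn_bdd_conj π x) (mn_bdd_conj π y)

theorem cE_sub (π : G →* unitary (Op H)) (x y : Op H) :
    m.cE π (x - y) = m.cE π x - m.cE π y := by
  simp only [cE, mul_sub, sub_mul]
  exact m.op_sub (mn_bdd_conj π x) (mn_bdd_conj π y)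

theorem cE_smul (π : G →* unitary (Op H)) (c : ℂ) (x : Op H) : m.cE π (c • x) = c • m.cE π x := by
  simp only [cE, mul_smul_comm, smul_mul_assoc]
  exact m.op_smul c (mn_bdd_conj π x)

theorem cE_mem (π : G →* unitary (Op H)) {P : VN H} (hP : ∀ g, Nrm P (π g)) {x : Op H}
    (hx : x ∈ P) : m.cE π x ∈ P := by
  exact m.op_mem (mn_bdd_conj π x) fun g => (hP g x hx).1

end Mean

/-- The fixed point algebra `P ∩ π(G)'`. -/
def fixVN {G : Type*} [Group G] (π : G →* unitary (Op H)) (P : VN H) : VN H :=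
  cm ((P.commutant : Set (Op H)) ∪ Set.range fun g => (π g : Op H))

theorem mem_fixVN {G : Type*} [Group G] {π : G →* unitary (Op H)} {P : VN H} {x : Op H} :
    x ∈ fixVN π P ↔ x ∈ P ∧ ∀ g, Commute (π g : Op H) x := by
  rw [fixVN, mem_cm]
  constructor
  · intro h
    refine ⟨?_, fun g => (h _ (Or.inr ⟨g, rfl⟩)).1⟩
    rw [← P.commutant_commutant, mem_comm]
    exact fun y hy => (h y (Or.inl hy)).1
  · rintro ⟨h1, h2⟩ s (hs | ⟨g, rfl⟩)
    · exact ⟨(mem_comm.1 hs x h1).symm, (mem_comm.1 (star_mem hs) x h1).symm⟩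
    · refine ⟨h2 g, ?_⟩
      have := h2 g⁻¹
      rwa [map_inv, ← Unitary.star_eq_inv, Unitary.coe_star] at this

/-- AVG lemma: fixed point algebras under a common amenable normalising group stay close
(average the partner with `cE`). -/
theorem Near.fixVN {G : Type*} [Group G] (m : Mean G) (π : G →* unitary (Op H)) {M N : VN H}
    {γ : ℝ} (h : Near M N γ) (hN : ∀ g, Nrm N (π g)) : Near (fixVN π M) (fixVN π N) γ := by
  intro x hx
  obtain ⟨h1, h2⟩ := mem_fixVN.1 hx
  obtain ⟨y, hy, hxy⟩ := h x h1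
  refine ⟨m.cE π y, mem_fixVN.2 ⟨m.cE_mem π hN hy, m.commute_cE π y⟩, ?_⟩
  have := (m.norm_cE_le π (x - y)).trans hxy
  rwa [m.cE_sub, m.cE_of_commute π h2] at this

end

end Crest.Agent.R78
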