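import Crest.Agent.R78.TomApi
import Crest.Agent.R78.L2VN
import Crest.Agent.R78.Mean
import Crest.Agent.R78.Proj

/-!
# Row 78: discrete crossing, part a (auxiliary lemmas)
-/

open scoped InnerProductSpace Topology ComplexConjugate BoundedContinuousFunction
open Filter MeasureTheory

set_option linter.unusedSectionVars false

namespace Crest.Agent.R78

noncomputable section

variable {H : Type*} [NormedAddCommGroup H] [InnerProductSpace ℂ H] [CompleteSpace H]

theorem cra_bc (φ : ℝ →ᵇ ℂ) : BC φ := ⟨φ.continuous, ‖φ‖, φ.norm_coe_le_norm⟩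

/-- The functional calculus as a continuous linear map. -/
def craFn (F : FC H) : (ℝ →ᵇ ℂ) →L[ℂ] Op H :=
  LinearMap.mkContinuous
    { toFun := fun φ => F.fn φ
      map_add' := fun φ ψ => F.fn_add (cra_bc φ) (cra_bc ψ)
      map_smul' := fun c φ => F.fn_smul c (cra_bc φ) } 1
    fun φ => by
      rw [one_mul]
      exact F.norm_fn_le (cra_bc φ) φ.norm_coe_le_norm

theorem cra_exp_apply (φ : ℝ →ᵇ ℂ) (x : ℝ) : NormedSpace.exp φ x = Complex.exp (φ x) := by
  letI : NormedAlgebra ℚ (ℝ →ᵇ ℂ) := NormedAlgebra.restrictScalars ℚ ℂ _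
  let ev : (ℝ →ᵇ ℂ) →+* ℂ :=
    { toFun := fun ψ => ψ x
      map_one' := rfl
      map_mul' := fun _ _ => rfl
      map_zero' := rfl
      map_add' := fun _ _ => rfl }
  have h := NormedSpace.map_exp ev (BoundedContinuousFunction.evalCLM ℂ x).continuous φ
  rw [Complex.exp_eq_exp_ℂ]
  exact h

theorem cra_identity {E : Type*} [NormedAddCommGroup E] [NormedSpace ℂ E] [CompleteSpace E]
    {f g : ℂ → E} (hf : Differentiable ℂ f) (hg : Differentiable ℂ g) (h : ∀ t : ℝ, f t = g t) :
    f = g := by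
  refine AnalyticOnNhd.eq_of_frequently_eq (z₀ := 0) (fun z _ => hf.analyticAt z)
    (fun z _ => hg.analyticAt z) ?_
  have h1 : Tendsto (fun t : ℝ => (t : ℂ)) (𝓝[≠] 0) (𝓝[≠] 0) := by
    refine tendsto_nhdsWithin_iff.2 ⟨?_, ?_⟩
    · have := (Complex.continuous_ofReal.tendsto 0).mono_left (nhdsWithin_le_nhds (s := {0}ᶜ))
      simpa using this
    · filter_upwards [self_mem_nhdsWithin] with t ht
      simpa using ht
  exact h1.frequently (Frequently.of_forall h)

theorem cra_analytic_ext (F : FC H) {v : H} {f : ℂ → H} (hf : Differentiable ℂ f)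
    (h : ∀ t : ℝ, F.V t v = f t) {g : ℝ → ℂ} (hg : Continuous g) (hs : HasCompactSupport g)
    (z : ℂ) : F.fn (fun x => Complex.exp (Complex.I * z * x) * g x) v = F.fn g (f z) := by
  obtain ⟨R, hR⟩ := hs.isCompact.isBounded.subset_closedBall 0
  obtain ⟨C, hC⟩ := (BC.of_supp hg hs).2
  let G : ℝ →ᵇ ℂ := BoundedContinuousFunction.ofNormedAddCommGroup g hg C hC
  let ρ : ℝ →ᵇ ℂ := BoundedContinuousFunction.ofNormedAddCommGroup
    (fun x => Complex.I * ((max (-R) (min R x) : ℝ) : ℂ)) (by fun_prop) |R| fun x => by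
      rw [norm_mul, Complex.norm_I, one_mul, Complex.norm_real, Real.norm_eq_abs, abs_le]
      exact ⟨le_max_of_le_left (neg_le_neg (le_abs_self R)),
        max_le (neg_le_abs R) ((min_le_left _ _).trans (le_abs_self R))⟩
  have key : ∀ z : ℂ, (fun x : ℝ => Complex.exp (Complex.I * z * x) * g x) =
      ⇑(NormedSpace.exp (z • ρ) * G) := by
    intro z
    funext x
    rw [BoundedContinuousFunction.mul_apply, cra_exp_apply]
    change _ = Complex.exp (z * (Complex.I * ((max (-R) (min R x) : ℝ) : ℂ))) * g x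
    by_cases hx : g x = 0
    · rw [hx, mul_zero, mul_zero]
    · have h1 := hR (subset_tsupport g hx)
      rw [mem_closedBall_zero_iff, Real.norm_eq_abs, abs_le] at h1
      rw [min_eq_right h1.2, max_eq_right h1.1]
      congr 2
      ring
  have h1 : Differentiable ℂ fun z : ℂ => craFn F (NormedSpace.exp (z • ρ) * G) v := by
    have h2 : Differentiable ℂ fun z : ℂ => NormedSpace.exp (z • ρ) * G :=
      (differentiable_exp_smul_const ℂ ρ).mul_const G
    exact ((craFn F).differentiable.comp h2).clm_apply (differentiable_const v)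
  have h2 : Differentiable ℂ fun z : ℂ => F.fn g (f z) := (F.fn g).differentiable.comp hf
  have h3 := cra_identity h1 h2 fun t => by
    change F.fn (⇑(NormedSpace.exp ((t : ℂ) • ρ) * G)) v = _
    rw [← key, ← h t]
    simp only [mul_comm _ (g _)]
    rw [F.fn_mul (BC.of_supp hg hs) (BC.expI t)]
    rfl
  rw [key]
  exact congrFun h3 z

theorem cra_J_star {A B : VN H} {ξ : H} (T : Tom A B ξ) {x : Op H} (hx : x ∈ A)
    {f : ℂ → H} (hf : Differentiable ℂ f) (h : ∀ t : ℝ, T.V t (x ξ) = f t) :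
    T.J (star x ξ) = f (-(Complex.I / 2)) := by
  refine T.eq_of_forall_supp fun g hg hs => ?_
  rw [← T.srel x hx (BC.of_supp hg hs) (BC.of_supp (by fun_prop) hs.mul_left),
    ← cra_analytic_ext T.toFC hf h hg hs]
  congr 2
  funext s
  rw [Complex.ofReal_exp]
  congr 2
  push_cast
  linear_combination (s / 2 : ℂ) * Complex.I_mul_I

theorem cra_dg_mul {I : Type*} (S T : Op H) : dg I (S * T) = dg I S * dg I T :=
  map_mul (dgHom I H) S T

theorem cra_dg_unitary {I : Type*} {T : Op H} (hT : T ∈ unitary (Op H)) :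
    dg I T ∈ unitary (Op (L2 I H)) := by
  rw [Unitary.mem_iff] at hT ⊢
  rw [← l2vn_dg_star, ← cra_dg_mul, ← cra_dg_mul, hT.1, hT.2]
  exact ⟨map_one (dgHom I H), map_one (dgHom I H)⟩

theorem cra_exp_unitary {A : Op H} (hA : IsSelfAdjoint A) (t h : ℝ) :
    NormedSpace.exp ((-(Complex.I * t / h)) • A) ∈ unitary (Op H) := by
  letI : NormedAlgebra ℚ (Op H) := NormedAlgebra.restrictScalars ℚ ℂ _
  refine NormedSpace.exp_mem_unitary_of_mem_skewAdjoint (skewAdjoint.mem_iff.2 ?_)
  rw [star_smul, hA.star_eq, ← neg_smul]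
  congr 1
  simp [neg_div]

theorem cra_exp_add (A : Op H) (c d : ℂ) :
    NormedSpace.exp ((c + d) • A) = NormedSpace.exp (c • A) * NormedSpace.exp (d • A) := by
  letI : NormedAlgebra ℚ (Op H) := NormedAlgebra.restrictScalars ℚ ℂ _
  rw [add_smul]
  exact NormedSpace.exp_add_of_commute (((Commute.refl A).smul_left c).smul_right d)

theorem cra_exp_mem {I : Type*} {A : Op (L2 I H)} (hA : ∀ x : Op H, Commute (dg I x) A)
    (P : VN H) (c : ℂ) : NormedSpace.exp (c • A) ∈ ampVN I P := by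
  refine mem_cm.2 ?_
  rintro _ ⟨x, -, rfl⟩
  rw [← l2vn_dg_star]
  exact ⟨((hA _).smul_right c).exp_right, ((hA _).smul_right c).exp_right⟩

theorem cra_conj_mem {I : Type*} {P : VN H} {S T : Op H} (h : ∀ y ∈ P, S * y * T ∈ P)
    {X : Op (L2 I H)} (hX : X ∈ ampVN I P) : dg I S * X * dg I T ∈ ampVN I P := by
  rw [mem_ampVN] at hX ⊢
  intro i j
  unfold dg
  rw [ent_mul_dgf (l2_bdd_const T), ent_dgf_mul (l2_bdd_const S)]
  exact h _ (hX i j)

end

end Crest.Agent.R78
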