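import Crest.Agent.R78.TomApi
import Crest.Agent.R78.L2VN
import Crest.Agent.R78.Mean
import Crest.Agent.R78.Proj
import Crest.Agent.R78.Cross1A

/-!
# Row 78: discrete crossing: the finite algebra
-/

open scoped InnerProductSpace Topology ComplexConjugate
open Filter MeasureTheory

set_option linter.unusedSectionVars false

namespace Crest.Agent.R78

open Crest.Agent.R121 (Alg)

noncomputable section

universe u

variable {H : Type*} [NormedAddCommGroup H] [InnerProductSpace ℂ H] [CompleteSpace H]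

/-- Analytic continuation inside the functional calculus. Recipe: `z ↦ fn (e^{izx} g)` is complex
differentiable (`norm_fn_le` and a Taylor bound uniform on the support of `g`); both sides are
entire and agree on `ℝ` (identity theorem, `AnalyticOnNhd.eq_of_frequently_eq`). -/
theorem FC.analytic_ext (F : FC H) {v : H} {f : ℂ → H} (hf : Differentiable ℂ f)
    (h : ∀ t : ℝ, F.V t v = f t) {g : ℝ → ℂ} (hg : Continuous g) (hs : HasCompactSupport g)
    (z : ℂ) : F.fn (fun x => Complex.exp (Complex.I * z * x) * g x) v = F.fn g (f z) := by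
  exact cra_analytic_ext F hf h hg hs z

/-- `z = -i/2`, `srel`, `eq_of_forall_supp`. -/
theorem Tom.J_star_of_analytic {A B : VN H} {ξ : H} (T : Tom A B ξ) {x : Op H} (hx : x ∈ A)
    {f : ℂ → H} (hf : Differentiable ℂ f) (h : ∀ t : ℝ, T.V t (x ξ) = f t) :
    T.J (star x ξ) = f (-(Complex.I / 2)) := by
  exact cra_J_star T hx hf h

/-- The bilateral shift. -/
def shf (H : Type*) [NormedAddCommGroup H] [InnerProductSpace ℂ H] : Op (L2 ℤ H) :=
  emb H (Equiv.addRight (1 : ℤ)).toEmbedding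

/-- A logarithm of the shift. -/
structure LogS (A : Op (L2 ℤ H)) : Prop where
  sa : IsSelfAdjoint A
  exp_eq : NormedSpace.exp (Complex.I • A) = shf H
  comm : ∀ x : Op H, Commute (dg ℤ x) A

/-- `exists_log_unitary`, `commute_dg_emb`. -/
theorem exists_logS (H : Type*) [NormedAddCommGroup H] [InnerProductSpace ℂ H] [CompleteSpace H] :
    ∃ A : Op (L2 ℤ H), LogS A := by
  obtain ⟨A, h1, h2, h3⟩ := exists_log_unitary (H := L2 ℤ H) ⟨shf H, emb_mem_unitary _⟩
  refine ⟨A, h1, h2, fun x => h3 _ (commute_dg_emb x _) ?_⟩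
  change Commute _ (star (emb H (Equiv.addRight (1 : ℤ)).toEmbedding))
  rw [star_emb_equiv]
  exact commute_dg_emb x _

/-- The group `Y_t = (V_t ⊗ 1) e^{-i t A / h}`. -/
def IsY (F : FC H) (A : Op (L2 ℤ H)) (h : ℝ) (Y : Multiplicative ℝ →* unitary (Op (L2 ℤ H))) :
    Prop := ∀ t : ℝ, (Y (Multiplicative.ofAdd t) : Op (L2 ℤ H)) =
      dg ℤ (F.V t) * NormedSpace.exp ((-(Complex.I * t / h)) • A)

theorem exists_isY (F : FC H) {A : Op (L2 ℤ H)} (hA : LogS A) (h : ℝ) : ∃ Y, IsY F A h Y := by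
  refine ⟨MonoidHom.mk' (fun t => ⟨dg ℤ (F.V t.toAdd) *
      NormedSpace.exp ((-(Complex.I * t.toAdd / h)) • A),
    mul_mem (cra_dg_unitary (F.V_mem_unitary _)) (cra_exp_unitary hA.sa _ h)⟩) ?_, fun t => rfl⟩
  intro s t
  refine Subtype.ext ?_
  have e : (-(Complex.I * ((s.toAdd + t.toAdd : ℝ) : ℂ) / h)) =
      (-(Complex.I * s.toAdd / h)) + (-(Complex.I * t.toAdd / h)) := by
    push_cast
    ring
  change dg ℤ (F.V (s.toAdd + t.toAdd)) *
      NormedSpace.exp ((-(Complex.I * ((s.toAdd + t.toAdd : ℝ) : ℂ) / h)) • A) =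
    dg ℤ (F.V s.toAdd) * NormedSpace.exp ((-(Complex.I * s.toAdd / h)) • A) *
      (dg ℤ (F.V t.toAdd) * NormedSpace.exp ((-(Complex.I * t.toAdd / h)) • A))
  rw [e, F.V_add, cra_dg_mul, cra_exp_add, mul_assoc, mul_assoc, ← mul_assoc (dg ℤ (F.V t.toAdd)),
    (((hA.comm (F.V t.toAdd)).smul_right (-(Complex.I * s.toAdd / h))).exp_right).eq, mul_assoc]

variable {F : FC H} {A : Op (L2 ℤ H)} {h : ℝ} {Y : Multiplicative ℝ →* unitary (Op (L2 ℤ H))}

/-- Exponentials of `A` commute with `dg P'` and with `Y`. -/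
theorem IsY.exp_mem (hY : IsY F A h Y) (hA : LogS A) (P : VN H) (c : ℂ) :
    NormedSpace.exp (c • A) ∈ fixVN Y (ampVN ℤ P) := by
  refine mem_fixVN.2 ⟨cra_exp_mem hA.comm P c, fun g => ?_⟩
  rw [← ofAdd_toAdd g, hY]
  exact Commute.mul_left ((hA.comm _).smul_right c).exp_right
    ((((Commute.refl A).smul_left _).smul_right c).exp_left.exp_right)

theorem IsY.nrm (hY : IsY F A h Y) (hA : LogS A) {P : VN H}
    (hP : ∀ t : ℝ, ∀ y ∈ P, F.V t * y * F.V (-t) ∈ P) (g : Multiplicative ℝ) :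
    Nrm (ampVN ℤ P) (Y g) := by
  intro y hy
  rw [← ofAdd_toAdd g, hY, star_mul, ← l2vn_dg_star, F.star_V]
  set E := NormedSpace.exp ((-(Complex.I * g.toAdd / h)) • A) with hE
  have hEm : E ∈ ampVN ℤ P := cra_exp_mem hA.comm P _
  constructor
  · have h1 := cra_conj_mem (hP g.toAdd) (mul_mem (mul_mem hEm hy) (star_mem hEm))
    simpa only [mul_assoc] using h1
  · have h2 : ∀ y ∈ P, F.V (-g.toAdd) * y * F.V g.toAdd ∈ P := fun y hy => by
      simpa only [neg_neg] using hP (-g.toAdd) y hy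
    have h1 := mul_mem (mul_mem (star_mem hEm) (cra_conj_mem h2 hy)) hEm
    simpa only [mul_assoc] using h1

theorem crb_exp_add {K : Type*} [NormedAddCommGroup K] [InnerProductSpace ℂ K] [CompleteSpace K]
    (B : Op K) (c d : ℂ) :
    NormedSpace.exp (c • B) * NormedSpace.exp (d • B) = NormedSpace.exp ((c + d) • B) := by
  rw [add_smul]
  exact (NormedSpace.exp_add_of_commute_of_mem_ball (𝕂 := ℂ)
    (((Commute.refl B).smul_left c).smul_right d)
    ((NormedSpace.expSeries_radius_eq_top ℂ (Op K)).symm ▸ edist_lt_top _ _)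
    ((NormedSpace.expSeries_radius_eq_top ℂ (Op K)).symm ▸ edist_lt_top _ _)).symm

theorem crb_exp_cancel {K : Type*} [NormedAddCommGroup K] [InnerProductSpace ℂ K] [CompleteSpace K]
    (B : Op K) {c d : ℂ} (hcd : c + d = 0) :
    NormedSpace.exp (c • B) * NormedSpace.exp (d • B) = 1 := by
  rw [crb_exp_add, hcd, zero_smul, NormedSpace.exp_zero]

theorem crb_star_exp (hA : LogS A) (c : ℂ) :
    star (NormedSpace.exp (c • A)) = NormedSpace.exp (conj c • A) := by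
  rw [NormedSpace.star_exp, star_smul, hA.sa.star_eq]
  rfl

theorem crb_comm (hA : LogS A) (x : Op H) (c : ℂ) :
    Commute (dg ℤ x) (NormedSpace.exp (c • A)) := ((hA.comm x).smul_right c).exp_right

theorem crb_dg_mul (S T : Op H) : dg ℤ (S * T) = dg ℤ S * dg ℤ T := map_mul (dgHom ℤ H) S T

theorem crb_dg_one : dg ℤ (1 : Op H) = 1 := map_one (dgHom ℤ H)

theorem crb_ent_conj (S T : Op H) (X : Op (L2 ℤ H)) (i j : ℤ) :
    ent (dg ℤ S * X * dg ℤ T) i j = S * ent X i j * T := by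
  unfold dg
  rw [ent_mul_dgf (l2_bdd_const T), ent_dgf_mul (l2_bdd_const S)]

/-- `(V_t ⊗ 1) X (V_{-t} ⊗ 1) = e^{ita} X e^{-ita}` -/
theorem crb_conj (hY : IsY F A h Y) (hA : LogS A) {X : Op (L2 ℤ H)} (t : ℝ)
    (hX : Commute (Y (Multiplicative.ofAdd t) : Op (L2 ℤ H)) X) :
    dg ℤ (F.V t) * X * dg ℤ (F.V (-t)) = NormedSpace.exp ((Complex.I * t / h) • A) * X *
      NormedSpace.exp ((-(Complex.I * t / h)) • A) := by
  rw [hY t] at hX
  set E := NormedSpace.exp ((-(Complex.I * t / h)) • A) with hE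
  set E' := NormedSpace.exp ((Complex.I * t / h) • A) with hE'
  have h1 : E' * E = 1 := crb_exp_cancel A (by ring)
  have h2 : dg ℤ (F.V t) * dg ℤ (F.V (-t)) = 1 := by rw [← crb_dg_mul, F.V_mul_neg, crb_dg_one]
  have h3 : dg ℤ (F.V t) * E = E * dg ℤ (F.V t) := (crb_comm hA _ _).eq
  have h4 : E * dg ℤ (F.V t) * X = X * (E * dg ℤ (F.V t)) := by rw [← h3]; exact hX.eq
  calc dg ℤ (F.V t) * X * dg ℤ (F.V (-t))
      = E' * (E * dg ℤ (F.V t) * X) * dg ℤ (F.V (-t)) := by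
        rw [← mul_assoc E', ← mul_assoc E', h1, one_mul]
    _ = E' * X * E * (dg ℤ (F.V t) * dg ℤ (F.V (-t))) := by
        rw [h4]; simp only [mul_assoc]
    _ = E' * X * E := by rw [h2, mul_one]

theorem crb_step (hY : IsY F A h Y) (hA : LogS A) (hh : h ≠ 0) {X : Op (L2 ℤ H)}
    (hX : Commute (Y (Multiplicative.ofAdd h) : Op (L2 ℤ H)) X) (i j : ℤ) :
    ent X i j = F.V h * ent X (i + 1) (j + 1) * F.V (-h) := by
  have h1 := crb_conj hY hA h hX
  have hc : (h : ℂ) ≠ 0 := Complex.ofReal_ne_zero.2 hh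
  have h2 : Complex.I * h / h = Complex.I := by field_simp
  have h3 : NormedSpace.exp ((-Complex.I) • A) = star (shf H) := by
    rw [← hA.exp_eq, crb_star_exp hA, Complex.conj_I]
  rw [h2, h3, hA.exp_eq] at h1
  have h4 : star (shf H) * shf H = 1 := star_emb_mul_emb _
  have h5 : X = star (shf H) * (dg ℤ (F.V h) * X * dg ℤ (F.V (-h))) * shf H := by
    rw [h1]
    calc X = (star (shf H) * shf H) * X * (star (shf H) * shf H) := by
          rw [h4, one_mul, mul_one]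
      _ = _ := by simp only [mul_assoc]
  have h6 := ent_conj_emb (Equiv.addRight (1 : ℤ)).toEmbedding
    (dg ℤ (F.V h) * X * dg ℤ (F.V (-h))) i j
  rw [crb_ent_conj] at h6
  conv_lhs => rw [h5]
  exact h6

/-- Covariance: `Y_h = (V_h ⊗ 1) shf⋆` gives `X_{ij} = V_h X_{i+1,j+1} V_{-h}` (`ent_conj_emb`);
induction on `n` in both directions. -/
theorem IsY.cov (hY : IsY F A h Y) (hA : LogS A) (hh : h ≠ 0) {X : Op (L2 ℤ H)}
    (hX : Commute (Y (Multiplicative.ofAdd h) : Op (L2 ℤ H)) X) (i j n : ℤ) :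
    ent X (i + n) (j + n) = F.V (-(n * h)) * ent X i j * F.V (n * h) := by
  induction n using Int.induction_on with
  | zero => simp [F.V_zero]
  | succ n ih =>
    have h1 := crb_step hY hA hh hX (i + n) (j + n)
    have h2 : ent X (i + n + 1) (j + n + 1) = F.V (-h) * ent X (i + n) (j + n) * F.V h := by
      rw [h1]
      calc ent X (i + n + 1) (j + n + 1)
          = (F.V (-h) * F.V h) * ent X (i + n + 1) (j + n + 1) * (F.V (-h) * F.V h) := by
            rw [F.V_neg_mul, one_mul, mul_one]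
        _ = _ := by simp only [mul_assoc]
    have e1 : (-((((n : ℤ) + 1 : ℤ) : ℝ) * h)) = -h + -(((n : ℤ) : ℝ) * h) := by push_cast; ring
    have e2 : ((((n : ℤ) + 1 : ℤ) : ℝ) * h) = ((n : ℤ) : ℝ) * h + h := by push_cast; ring
    rw [← add_assoc, ← add_assoc, h2, ih, e1, e2, F.V_add, F.V_add]
    simp only [mul_assoc]
  | pred n ih =>
    have h1 := crb_step hY hA hh hX (i + (-n - 1)) (j + (-n - 1))
    have e3 : i + (-(n : ℤ) - 1) + 1 = i + -n := by ring
    have e4 : j + (-(n : ℤ) - 1) + 1 = j + -n := by ring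
    have e1 : (-(((-(n : ℤ) - 1 : ℤ) : ℝ) * h)) = h + -(((-(n : ℤ) : ℤ) : ℝ) * h) := by
      push_cast; ring
    have e2 : (((-(n : ℤ) - 1 : ℤ) : ℝ) * h) = ((-(n : ℤ) : ℤ) : ℝ) * h + -h := by push_cast; ring
    rw [h1, e3, e4, ih, e1, e2, F.V_add, F.V_add]
    simp only [mul_assoc]

/-- The vector `e^{-a/2} (δ₀ ⊗ ξ)`, `a = A/h`. -/
def crossVec (A : Op (L2 ℤ H)) (h : ℝ) (ξ : H) : L2 ℤ H :=
  NormedSpace.exp ((-(1 / (2 * h) : ℝ) : ℂ) • A) (inj 0 ξ)

/-- Recipe: `X' = X e^{-a/2}` is in the fixed algebra, its `0`-th column kills `ξ`, hence vanishes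
(`sepA`); `cov` kills all columns. -/
theorem IsY.sep {M : VN H} {ξ : H} (T : Tom M M.commutant ξ) (hY : IsY T.toFC A h Y)
    (hA : LogS A) (hh : h ≠ 0) {X : Op (L2 ℤ H)} (hX : X ∈ fixVN Y (ampVN ℤ M))
    (h0 : X (crossVec A h ξ) = 0) : X = 0 := by
  set E := NormedSpace.exp ((-(1 / (2 * h) : ℝ) : ℂ) • A) with hE
  have hX' : X * E ∈ fixVN Y (ampVN ℤ M) := mul_mem hX (hY.exp_mem hA M _)
  obtain ⟨h1, h2⟩ := mem_fixVN.1 hX'
  have h3 : ∀ i, ent (X * E) i 0 = 0 := fun i => by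
    refine T.sepA (mem_ampVN.1 h1 i 0) ?_
    have h4 : (X * E) (inj 0 ξ) = 0 := h0
    rw [ent_apply, h4]
    rfl
  have h5 : X * E = 0 := by
    refine ext_ent fun i j => ?_
    have h6 := hY.cov hA hh (h2 _) (i - j) 0 j
    rw [sub_add_cancel, zero_add, h3, mul_zero, zero_mul] at h6
    rw [h6]
    rfl
  have h7 : E * NormedSpace.exp (((1 / (2 * h) : ℝ) : ℂ) • A) = 1 := crb_exp_cancel A (by ring)
  rw [← mul_one X, ← h7, ← mul_assoc, h5, zero_mul]

theorem crb_key {M : VN H} {ξ : H} (T : Tom M M.commutant ξ) (hY : IsY T.toFC A h Y)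
    (hA : LogS A) (hh : h ≠ 0) {X : Op (L2 ℤ H)} (hX : X ∈ fixVN Y (ampVN ℤ M)) :
    ‖star X (inj 0 ξ)‖ = ‖(NormedSpace.exp (((1 / (2 * h) : ℝ) : ℂ) • A) * X *
      NormedSpace.exp ((-(1 / (2 * h) : ℝ) : ℂ) • A)) (inj 0 ξ)‖ := by
  obtain ⟨h1, h2⟩ := mem_fixVN.1 hX
  obtain ⟨-, h2'⟩ := mem_fixVN.1 (star_mem hX)
  set W := (NormedSpace.exp (((1 / (2 * h) : ℝ) : ℂ) • A) * X *
      NormedSpace.exp ((-(1 / (2 * h) : ℝ) : ℂ) • A)) (inj 0 ξ) with hW
  have hc : (h : ℂ) ≠ 0 := Complex.ofReal_ne_zero.2 hh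
  have hd : Differentiable ℂ fun z : ℂ => NormedSpace.exp (z • A) := fun z =>
    (hasDerivAt_exp_smul_const A z).differentiableAt
  have key : ∀ i : ℤ, ‖(star X (inj 0 ξ)) (-i)‖ = ‖W i‖ := by
    intro i
    have hf : Differentiable ℂ fun z : ℂ => prj i ((NormedSpace.exp ((Complex.I * z / h) • A) * X *
        NormedSpace.exp ((-(Complex.I * z / h)) • A)) (inj 0 ξ)) := by
      refine (prj i : L2 ℤ H →L[ℂ] H).differentiable.comp ?_
      refine Differentiable.clm_apply ?_ (differentiable_const _)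
      refine Differentiable.mul (Differentiable.mul ?_ (differentiable_const _)) ?_
      · exact hd.comp (f := fun z : ℂ => Complex.I * z / h) (by fun_prop)
      · exact hd.comp (f := fun z : ℂ => -(Complex.I * z / h)) (by fun_prop)
    have h3 := T.J_star_of_analytic (mem_ampVN.1 h1 i 0) hf (fun t => by
      rw [← crb_conj hY hA t (h2 _), prj_apply, ← ent_apply, crb_ent_conj, mul_apply_eq_comp,
        mul_apply_eq_comp, T.V_ξ])
    have e1 : Complex.I * -(Complex.I / 2) / h = ((1 / (2 * h) : ℝ) : ℂ) := by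
      push_cast
      field_simp
      rw [Complex.I_sq, neg_neg]
    simp only [e1] at h3
    have h4 : ‖star (ent X i 0) ξ‖ = ‖W i‖ := by
      rw [← T.J.norm_map, h3]
      rfl
    have h5 := hY.cov hA hh (h2' _) (-i) 0 i
    rw [neg_add_cancel, zero_add, ent_star] at h5
    rw [← h4, h5, mul_apply_eq_comp, mul_apply_eq_comp, T.V_ξ, T.norm_V_apply, ent_apply]
  have s1 := hasSum_norm_sq_L2 W
  have s2 : HasSum (fun i : ℤ => ‖(star X (inj 0 ξ)) (-i)‖ ^ 2) (‖star X (inj 0 ξ)‖ ^ 2) :=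
    (Equiv.neg ℤ).hasSum_iff.2 (hasSum_norm_sq_L2 (star X (inj 0 ξ)))
  simp only [key] at s2
  exact (pow_left_inj₀ (norm_nonneg _) (norm_nonneg _) two_ne_zero).1 (s2.unique s1)

/-- Recipe: for `X` in the fixed algebra `(V_t ⊗ 1) X (V_{-t} ⊗ 1) = e^{ita} X e^{-ita}`, so
`V_t X_{i0} ξ = f_i t`, `f_i z = (e^{iza} X e^{-iza} (inj 0 ξ)) i` entire. `J_star_of_analytic` gives
`‖X_{i0}⋆ ξ‖ = ‖(e^{a/2} X e^{-a/2} (inj 0 ξ)) i‖`, and `X_{i0}⋆ = (X⋆)_{0i}` is conjugate by `cov` to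
`(X⋆)_{-i,0}`; summing, `‖X⋆ (inj 0 ξ)‖ = ‖e^{a/2} X e^{-a/2} (inj 0 ξ)‖`. Apply this to
`e^{-a/2} X`. -/
theorem IsY.trc {M : VN H} {ξ : H} (T : Tom M M.commutant ξ) (hY : IsY T.toFC A h Y)
    (hA : LogS A) (hh : h ≠ 0) : Trc (fixVN Y (ampVN ℤ M)) (crossVec A h ξ) := by
  intro X hX
  have h1 := crb_key T hY hA hh (mul_mem (hY.exp_mem hA M (-(1 / (2 * h) : ℝ) : ℂ)) hX)
  have h2 : NormedSpace.exp (((1 / (2 * h) : ℝ) : ℂ) • A) *
      NormedSpace.exp ((-(1 / (2 * h) : ℝ) : ℂ) • A) = 1 := crb_exp_cancel A (by ring)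
  rw [star_mul, crb_star_exp hA, map_neg, Complex.conj_ofReal, ← mul_assoc, h2, one_mul] at h1
  exact h1

end

end Crest.Agent.R78
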