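import Crest.Agent.R78.Defs

/-!
# Row 78: the chain of statements
-/

open scoped InnerProductSpace Topology ComplexConjugate
open Filter MeasureTheory

set_option linter.unusedSectionVars false

namespace Crest.Agent.R78

open Crest.Agent.R121 (Alg)

noncomputable section

universe u

variable {H : Type*} [NormedAddCommGroup H] [InnerProductSpace ℂ H] [CompleteSpace H]

open TopologicalSpace

/-- `P ε γ` can be achieved for every `ε`. -/
def Solv (P : ℝ → ℝ → Prop) : Prop := ∀ ε > 0, ∃ γ > 0, P ε γ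

/-- All Hilbert spaces. -/
def KKAll (ε γ : ℝ) : Prop :=
  ∀ (H : Type u) [NormedAddCommGroup H] [InnerProductSpace ℂ H] [CompleteSpace H] (M N : VN H),
    Close M N γ → LinNear M N ε

/-- Separable Hilbert spaces. -/
def KKSep (ε γ : ℝ) : Prop :=
  ∀ (H : Type u) [NormedAddCommGroup H] [InnerProductSpace ℂ H] [CompleteSpace H]
    [SeparableSpace H] (M N : VN H), Close M N γ → LinNear M N ε

/-- Common centre. -/
def KKZen (ε γ : ℝ) : Prop :=
  ∀ (H : Type u) [NormedAddCommGroup H] [InnerProductSpace ℂ H] [CompleteSpace H]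
    [SeparableSpace H] (M N : VN H), (∀ z, Cen M z ↔ Cen N z) → Close M N γ → LinNear M N ε

/-- Common centre and a common cyclic separating vector. -/
def KKStd (ε γ : ℝ) : Prop :=
  ∀ (H : Type u) [NormedAddCommGroup H] [InnerProductSpace ℂ H] [CompleteSpace H]
    [SeparableSpace H] (M N : VN H) (ξ : H), (∀ z, Cen M z ↔ Cen N z) → Cyc M ξ →
    Cyc M.commutant ξ → Cyc N ξ → Cyc N.commutant ξ → Close M N γ → LinNear M N ε

/-- `N` is invariant under the modular flow of `M`. -/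
def KKInv (ε γ : ℝ) : Prop :=
  ∀ (H : Type u) [NormedAddCommGroup H] [InnerProductSpace ℂ H] [CompleteSpace H]
    [SeparableSpace H] (M N : VN H) (ξ : H) (T : Tom M M.commutant ξ),
    (∀ t : ℝ, ∀ y ∈ N, T.V t * y * T.V (-t) ∈ N) → Close M N γ → LinNear M N ε

/-- `M` has a separating trace vector. -/
def KKTr (ε γ : ℝ) : Prop :=
  ∀ (H : Type u) [NormedAddCommGroup H] [InnerProductSpace ℂ H] [CompleteSpace H]
    [SeparableSpace H] (M N : VN H) (ξ : H), (∀ x ∈ M, x ξ = 0 → x = 0) → Trc M ξ →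
    Close M N γ → LinNear M N ε

/-- `M` has a cyclic separating trace vector. -/
def KKCyc (ε γ : ℝ) : Prop :=
  ∀ (H : Type u) [NormedAddCommGroup H] [InnerProductSpace ℂ H] [CompleteSpace H]
    [SeparableSpace H] (M N : VN H) (ξ : H), Cyc M ξ → Cyc M.commutant ξ → Trc M ξ →
    Close M N γ → LinNear M N ε

/-- An asymptotically central sequence of commuting qubits in `M`. -/
structure Qubits (M : VN H) (ξ : H) (X Z : ℕ → unitary (Op H)) : Prop where
  memX : ∀ n, (X n : Op H) ∈ M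
  memZ : ∀ n, (Z n : Op H) ∈ M
  XX : ∀ n, X n * X n = 1
  ZZ : ∀ n, Z n * Z n = 1
  anti : ∀ n, (X n : Op H) * Z n = -((Z n : Op H) * X n)
  cXX : ∀ n m, Commute (X n : Op H) (X m)
  cZZ : ∀ n m, Commute (Z n : Op H) (Z m)
  cXZ : ∀ n m, n ≠ m → Commute (X n : Op H) (Z m)
  tail : ∀ (v : H), ∀ ε > 0, ∃ m : ℕ, ∃ x ∈ M,
    (∀ n, m ≤ n → Commute (X n : Op H) x ∧ Commute (Z n : Op H) x) ∧ ‖v - x ξ‖ ≤ ε

/-- `M` has a cyclic separating trace vector and contains qubits. -/
def KKQ (ε γ : ℝ) : Prop :=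
  ∀ (H : Type u) [NormedAddCommGroup H] [InnerProductSpace ℂ H] [CompleteSpace H]
    [SeparableSpace H] (M N : VN H) (ξ : H) (X Z : ℕ → unitary (Op H)), Cyc M ξ →
    Cyc M.commutant ξ → Trc M ξ → Qubits M ξ X Z → Close M N γ → LinNear M N ε

end

end Crest.Agent.R78
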