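import Crest.Agent.R78.Cross1
import Crest.Agent.R78.Amen
import Crest.Agent.R78.Stmt

/-!
# Row 78: discrete crossing: passing to the limit
-/

open scoped InnerProductSpace Topology ComplexConjugate
open Filter MeasureTheory

set_option linter.unusedSectionVars false

namespace Crest.Agent.R78

open Crest.Agent.R121 (Alg)

noncomputable section

universe u

variable {H : Type*} [NormedAddCommGroup H] [InnerProductSpace ℂ H] [CompleteSpace H]

/-- The covariant copy `π_h x = ⊕ σ_{-nh} x`. -/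
def piH (F : FC H) (h : ℝ) (x : Op H) : Op (L2 ℤ H) :=
  dgf fun n : ℤ => F.V (-(n * h)) * x * F.V (n * h)

variable {F : FC H} {A : Op (L2 ℤ H)}

theorem cr2a_norm_le (F : FC H) (s t : ℝ) (x : Op H) : ‖F.V s * x * F.V t‖ ≤ ‖x‖ := by
  refine (norm_mul_le _ _).trans ((mul_le_of_le_one_right (norm_nonneg _) (F.norm_V_le t)).trans ?_)
  exact (norm_mul_le _ _).trans (mul_le_of_le_one_left (norm_nonneg _) (F.norm_V_le s))

theorem cr2a_bdd (F : FC H) (h : ℝ) (x : Op H) :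
    Bdd fun n : ℤ => F.V (-(n * h)) * x * F.V (n * h) := ⟨‖x‖, fun _ => cr2a_norm_le F _ _ x⟩

theorem cr2a_apply (F : FC H) (h : ℝ) (x : Op H) (v : L2 ℤ H) (n : ℤ) :
    piH F h x v n = F.V (-(n * h)) (x (F.V (n * h) (v n))) :=
  dgf_apply (cr2a_bdd F h x) v n

theorem cr2a_dg_conj (F : FC H) (h s : ℝ) (x : Op H) :
    dg ℤ (F.V s) * piH F h x * dg ℤ (F.V (-s)) = piH F h (F.V s * x * F.V (-s)) := by
  ext1 v
  refine l2_ext fun i => ?_
  have e : ∀ a b w, F.V a (F.V b w) = F.V b (F.V a w) := fun a b w => by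
    rw [← mul_apply_eq_comp, ← F.V_add, add_comm, F.V_add, mul_apply_eq_comp]
  simp only [mul_apply_eq_comp, dg_apply, cr2a_apply]
  rw [e s, e (i * h)]

theorem cr2a_strong (F : FC H) (x : Op H) (v : H) :
    Tendsto (fun t => ‖F.V t (x (F.V (-t) v)) - x v‖) (𝓝 0) (𝓝 0) := by
  have h1 : Tendsto (fun t => ‖x (F.V (-t) v) - x v‖ + ‖F.V t (x v) - x v‖) (𝓝 0) (𝓝 0) := by
    have hc : Continuous fun t => ‖x (F.V (-t) v) - x v‖ + ‖F.V t (x v) - x v‖ :=
      ((x.continuous.comp ((F.continuous_V v).comp continuous_neg)).sub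
        continuous_const).norm.add ((F.continuous_V (x v)).sub continuous_const).norm
    simpa [F.V_zero] using hc.tendsto 0
  refine squeeze_zero (fun _ => norm_nonneg _) (fun t => ?_) h1
  rw [← F.norm_V_apply t (x (F.V (-t) v) - x v), map_sub]
  exact norm_sub_le_norm_sub_add_norm_sub _ _ _

theorem cr2a_dense {X I K : Type*} [NormedAddCommGroup K] [NormedSpace ℂ K] {l : Filter X}
    {T : X → L2 I H →L[ℂ] K} {C : ℝ} (hC : ∀ p, ‖T p‖ ≤ C)
    (h : ∀ i v, Tendsto (fun p => T p (inj i v)) l (𝓝 0)) (w : L2 I H) :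
    Tendsto (fun p => T p w) l (𝓝 0) := by
  rw [NormedAddGroup.tendsto_nhds_zero]
  intro ε hε
  have hC' : 0 < |C| + 1 := by positivity
  obtain ⟨s, hs⟩ := ((hasSum_inj w).eventually
    (Metric.ball_mem_nhds w (show 0 < ε / 2 / (|C| + 1) by positivity))).exists
  have h1 : Tendsto (fun p => T p (∑ i ∈ s, inj i (w i))) l (𝓝 0) := by
    simpa only [map_sum, Finset.sum_const_zero] using tendsto_finsetSum s fun i _ => h i (w i)
  filter_upwards [NormedAddGroup.tendsto_nhds_zero.1 h1 _ (half_pos hε)] with p hp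
  rw [dist_comm, dist_eq_norm, lt_div_iff₀ hC'] at hs
  have h2 := (T p).le_opNorm (w - ∑ i ∈ s, inj i (w i))
  have h3 : ‖T p‖ ≤ |C| + 1 := by linarith [hC p, le_abs_self C]
  have h4 := mul_le_mul_of_nonneg_right h3 (norm_nonneg (w - ∑ i ∈ s, inj i (w i)))
  have h5 := norm_add_le (T p (w - ∑ i ∈ s, inj i (w i))) (T p (∑ i ∈ s, inj i (w i)))
  rw [← map_add, sub_add_cancel] at h5
  linarith

theorem cr2a_compact {X E K : Type*} [NormedAddCommGroup E] [NormedSpace ℂ E]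
    [NormedAddCommGroup K] [NormedSpace ℂ K] {l : Filter X} {T : X → E →L[ℂ] K} {C : ℝ}
    (hC : ∀ p, ‖T p‖ ≤ C) (h : ∀ w, Tendsto (fun p => T p w) l (𝓝 0)) {S : Set E}
    (hS : IsCompact S) {ε : ℝ} (hε : 0 < ε) : ∀ᶠ p in l, ∀ w ∈ S, ‖T p w‖ ≤ ε := by
  have hC' : 0 < |C| + 1 := by positivity
  obtain ⟨t, -, ht, hcov⟩ := finite_cover_balls_of_compact hS
    (show 0 < ε / 2 / (|C| + 1) by positivity)
  have h1 : ∀ᶠ p in l, ∀ w ∈ t, ‖T p w‖ < ε / 2 := (eventually_all_finite ht).2 fun w _ =>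
    NormedAddGroup.tendsto_nhds_zero.1 (h w) _ (half_pos hε)
  filter_upwards [h1] with p hp w hw
  obtain ⟨u, hu, hwu⟩ := Set.mem_iUnion₂.1 (hcov hw)
  rw [Metric.mem_ball, dist_eq_norm, lt_div_iff₀ hC'] at hwu
  have h2 := (T p).le_opNorm (w - u)
  have h3 : ‖T p‖ ≤ |C| + 1 := by linarith [hC p, le_abs_self C]
  have h4 := mul_le_mul_of_nonneg_right h3 (norm_nonneg (w - u))
  have h5 := norm_add_le (T p (w - u)) (T p u)
  rw [← map_add, sub_add_cancel] at h5
  linarith [hp u hu]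

theorem cr2a_conj_zpow {u : unitary (Op H)} {X : Op H} (h : Commute (u : Op H) X) (n : ℤ) :
    ((u ^ n : unitary (Op H)) : Op H) * X * star ((u ^ n : unitary (Op H)) : Op H) = X := by
  have h1 : Commute ((u ^ n : unitary (Op H)) : Op H) X := by
    have := Commute.units_zpow_left (u := Unitary.toUnits u) h n
    rwa [← map_zpow] at this
  rw [h1.eq, mul_assoc, (u ^ n).2.2, mul_one]

theorem piH_add (F : FC H) (h : ℝ) (x y : Op H) : piH F h (x + y) = piH F h x + piH F h y := by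
  unfold piH
  rw [← dgf_add (cr2a_bdd F h x) (cr2a_bdd F h y)]
  simp only [mul_add, add_mul]

theorem piH_smul (F : FC H) (h : ℝ) (c : ℂ) (x : Op H) : piH F h (c • x) = c • piH F h x := by
  unfold piH
  rw [← dgf_smul c (cr2a_bdd F h x)]
  simp only [mul_smul_comm, smul_mul_assoc]

theorem norm_piH_le (F : FC H) (h : ℝ) (x : Op H) : ‖piH F h x‖ ≤ ‖x‖ := by
  exact norm_dgf_le (norm_nonneg x) fun _ => cr2a_norm_le F _ _ x

theorem piH_mem {P : VN H} (hP : ∀ t : ℝ, ∀ y ∈ P, F.V t * y * F.V (-t) ∈ P) (h : ℝ) {x : Op H}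
    (hx : x ∈ P) : piH F h x ∈ ampVN ℤ P := by
  refine dgf_mem_ampVN (cr2a_bdd F h x) fun n => ?_
  have := hP (-(n * h)) x hx
  rwa [neg_neg] at this

/-- `Y_h` commutes with `π_h x`. -/
theorem IsY.commute_piH {h : ℝ} {Y : Multiplicative ℝ →* unitary (Op (L2 ℤ H))}
    (hY : IsY F A h Y) (hA : LogS A) (hh : h ≠ 0) (x : Op H) :
    Commute (Y (Multiplicative.ofAdd h) : Op (L2 ℤ H)) (piH F h x) := by
  have hh' : (h : ℂ) ≠ 0 := by exact_mod_cast hh
  have e : NormedSpace.exp ((-(Complex.I * h / h)) • A) = star (shf H) := by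
    rw [← hA.exp_eq, NormedSpace.star_exp, star_smul, hA.sa.star_eq, mul_div_cancel_right₀ _ hh']
    simp
  rw [hY h, e]
  ext1 v
  refine l2_ext fun i => ?_
  have hs : ∀ (w : L2 ℤ H) (i : ℤ), star (shf H) w i = w (i + 1) := fun w i =>
    star_emb_apply _ w i
  simp only [mul_apply_eq_comp, dg_apply, hs, cr2a_apply]
  have e1 : ∀ w, F.V h (F.V (-(((i + 1 : ℤ) : ℝ) * h)) w) = F.V (-(i * h)) w := by
    intro w
    rw [← mul_apply_eq_comp, ← F.V_add]
    congr 2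
    push_cast
    ring
  have e2 : ∀ w, F.V (i * h) (F.V h w) = F.V (((i + 1 : ℤ) : ℝ) * h) w := by
    intro w
    rw [← mul_apply_eq_comp, ← F.V_add]
    congr 2
    push_cast
    ring
  rw [e1, e2]

/-- Recipe: for one vector `w`, `∑_n ‖(σ_{s - nh} x - x) w_n‖²` is small uniformly in `s ∈ [0, h]`
(finitely many `n`, strong continuity at `0`, and a small tail); a finite net of the compact set
handles all `w = e^{irA} (inj 0 η)`, `r ∈ [0, 1]`. -/
theorem piH_unif (F : FC H) (A : Op (L2 ℤ H)) (x : Op H) (η : H) {ε : ℝ} (hε : 0 < ε) :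
    ∃ h₀ > 0, ∀ h s r : ℝ, 0 < h → h ≤ h₀ → 0 ≤ s → s ≤ h → 0 ≤ r → r ≤ 1 →
      ‖(piH F h (F.V s * x * F.V (-s)) - dg ℤ x)
        (NormedSpace.exp ((Complex.I * r) • A) (inj 0 η))‖ ≤ ε := by
  let _ : NormedAlgebra ℚ (Op (L2 ℤ H)) := NormedAlgebra.restrictScalars ℚ ℂ _
  let T : ℝ × ℝ → Op (L2 ℤ H) := fun p => piH F p.1 (F.V p.2 * x * F.V (-p.2)) - dg ℤ x
  have hT : ∀ p, ‖T p‖ ≤ 2 * ‖x‖ := fun p => (norm_sub_le _ _).trans (by
    linarith [norm_piH_le F p.1 (F.V p.2 * x * F.V (-p.2)), cr2a_norm_le F p.2 (-p.2) x,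
      norm_dg_le (I := ℤ) x])
  have h1 : ∀ w, Tendsto (fun p => T p w) (𝓝 (0, 0)) (𝓝 0) := by
    refine cr2a_dense hT fun n v => ?_
    rw [tendsto_zero_iff_norm_tendsto_zero]
    have e : ∀ p : ℝ × ℝ, ‖T p (inj n v)‖ =
        ‖F.V (p.2 - n * p.1) (x (F.V (-(p.2 - n * p.1)) v)) - x v‖ := by
      intro p
      simp only [T, sub_apply, piH]
      rw [dgf_inj (cr2a_bdd F _ _), dg_inj, ← map_sub, norm_inj]
      have e1 : F.V (-(n * p.1)) * (F.V p.2 * x * F.V (-p.2)) * F.V (n * p.1) =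
          F.V (p.2 - n * p.1) * x * F.V (-(p.2 - n * p.1)) := by
        rw [show p.2 - n * p.1 = -(n * p.1) + p.2 by ring,
          show -(-(n * p.1) + p.2) = -p.2 + n * p.1 by ring, F.V_add, F.V_add]
        simp only [mul_assoc]
      rw [e1]
      rfl
    simp only [e]
    have hc : Tendsto (fun p : ℝ × ℝ => p.2 - n * p.1) (𝓝 (0, 0)) (𝓝 0) := by
      have : Continuous fun p : ℝ × ℝ => p.2 - n * p.1 := by fun_prop
      simpa using this.tendsto (0, 0)
    exact (cr2a_strong F x v).comp hc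
  have hK : IsCompact ((fun r : ℝ => NormedSpace.exp ((Complex.I * r) • A) (inj (0 : ℤ) η)) ''
      Set.Icc 0 1) := isCompact_Icc.image (by fun_prop)
  obtain ⟨δ, hδ, hd⟩ := Metric.eventually_nhds_iff.1 (cr2a_compact hT h1 hK hε)
  refine ⟨δ / 2, half_pos hδ, fun h s r h0 hh s0 sh r0 r1 => ?_⟩
  refine hd (y := (h, s)) ?_ _ ⟨r, ⟨r0, r1⟩, rfl⟩
  rw [Prod.dist_eq, Real.dist_eq, Real.dist_eq, sub_zero, sub_zero, abs_of_pos h0,
    abs_of_nonneg s0]
  exact max_lt (by linarith) (by linarith)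

/-- Recipe: `t = n h + s`, `s ∈ [0, h)`; `Y_{nh}` commutes with `π_h x`, and
`Y_s (π_h x) Y_s⋆ = e^{-irA} π_h (σ_s x) e^{irA}`, `r = s/h`, while `e^{-irA} (dg x) e^{irA} = dg x`.
Then `Mean.op_apply`, `Mean.norm_vec_sub_le`. -/
theorem cE_piH_near (F : FC H) (hA : LogS A) (m : Mean (Multiplicative ℝ)) (x : Op H) (η : H)
    {ε : ℝ} (hε : 0 < ε) : ∃ h₀ > 0, ∀ h : ℝ, 0 < h → h ≤ h₀ → ∀ Y, IsY F A h Y →
      ‖ent (m.cE Y (piH F h x)) 0 0 η - x η‖ ≤ ε := by
  let _ : NormedAlgebra ℚ (Op (L2 ℤ H)) := NormedAlgebra.restrictScalars ℚ ℂ _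
  obtain ⟨h₀, hh₀, hu⟩ := piH_unif F A x η hε
  refine ⟨h₀, hh₀, fun h h0 hh Y hY => ?_⟩
  have key : ∀ g : Multiplicative ℝ,
      ‖((Y g : Op (L2 ℤ H)) * piH F h x * star (Y g : Op (L2 ℤ H))) (inj 0 η) -
        inj 0 (x η)‖ ≤ ε := by
    intro g
    set t := g.toAdd with ht
    set n : ℤ := ⌊t / h⌋ with hn
    set s : ℝ := t - n * h with hs
    have s0 : 0 ≤ s := by
      have := (le_div_iff₀ h0).1 (Int.floor_le (t / h))
      linarith
    have s1 : s ≤ h := by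
      have := (div_lt_iff₀ h0).1 (Int.lt_floor_add_one (t / h))
      linarith
    have hg : g = Multiplicative.ofAdd s * Multiplicative.ofAdd h ^ n := by
      rw [← ofAdd_zsmul, ← ofAdd_add, zsmul_eq_mul, hs, sub_add_cancel, ht, ofAdd_toAdd]
    have hc := cr2a_conj_zpow (hY.commute_piH hA h0.ne' x) n
    have e1 : (Y g : Op (L2 ℤ H)) * piH F h x * star (Y g : Op (L2 ℤ H)) =
        (Y (Multiplicative.ofAdd s) : Op (L2 ℤ H)) * piH F h x *
          star (Y (Multiplicative.ofAdd s) : Op (L2 ℤ H)) := by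
      rw [hg, map_mul, map_zpow, Submonoid.coe_mul, star_mul]
      conv_rhs => rw [← hc]
      simp only [mul_assoc]
    set E : Op (L2 ℤ H) := NormedSpace.exp ((-(Complex.I * s / h)) • A) with hE
    have hEs : star E = NormedSpace.exp ((Complex.I * (s / h : ℝ)) • A) := by
      rw [hE, NormedSpace.star_exp, star_smul, hA.sa.star_eq]
      congr 2
      simp [mul_div_assoc]
    have hz : (-(Complex.I * s / h)) • A + (Complex.I * (s / h : ℝ)) • A = 0 := by
      rw [← add_smul]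
      simp [mul_div_assoc]
    have hcomm : Commute ((-(Complex.I * s / h)) • A) ((Complex.I * (s / h : ℝ)) • A) :=
      ((Commute.refl A).smul_left _).smul_right _
    have hE1 : E * star E = 1 := by
      rw [hEs, hE, ← NormedSpace.exp_add_of_commute hcomm, hz, NormedSpace.exp_zero]
    have hE2 : star E * E = 1 := by
      rw [hEs, hE, ← NormedSpace.exp_add_of_commute hcomm.symm, add_comm, hz,
        NormedSpace.exp_zero]
    have hEn : ‖E‖ ≤ 1 := by
      have h1 : ‖E‖ * ‖E‖ ≤ 1 := by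
        rw [← CStarRing.norm_star_mul_self, hE2]
        exact ContinuousLinearMap.norm_id_le
      nlinarith [norm_nonneg E]
    have hdE : ∀ y : Op H, Commute (dg ℤ y) E := fun y => ((hA.comm y).smul_right _).exp_right
    have e2 : (Y (Multiplicative.ofAdd s) : Op (L2 ℤ H)) * piH F h x *
        star (Y (Multiplicative.ofAdd s) : Op (L2 ℤ H)) =
        E * piH F h (F.V s * x * F.V (-s)) * star E := by
      rw [hY s, ← hE, (hdE _).eq, star_mul, ← l2vn_dg_star, F.star_V, ← cr2a_dg_conj]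
      simp only [mul_assoc]
    have e3 : (inj 0 (x η) : L2 ℤ H) = (E * dg ℤ x * star E) (inj 0 η) := by
      rw [← (hdE x).eq, mul_assoc, hE1, mul_one, dg_inj]
    rw [e1, e2, e3, ← sub_apply, ← sub_mul, ← mul_sub, mul_apply_eq_comp, mul_apply_eq_comp]
    refine (E.le_opNorm _).trans ?_
    rw [hEs]
    have := hu h s (s / h) h0 hh s0 s1 (div_nonneg s0 h0.le) ((div_le_one h0).2 s1)
    exact (mul_le_of_le_one_left (norm_nonneg _) hEn).trans this
  have h1 := m.norm_vec_sub_le key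
  rw [← m.op_apply (Mean.mn_bdd_conj Y (piH F h x))] at h1
  refine le_trans ?_ h1
  refine le_trans (le_of_eq ?_) (norm_prj_le (0 : ℤ) _)
  rw [ent_apply, ← prj_apply, ← prj_apply, map_sub, prj_apply 0 (inj 0 (x η)), l2_inj_self]
  rfl

/-- Weak limits along a free ultrafilter on `ℕ` (`exists_wlim`, `hyperfilter`). -/
theorem LinNear.of_approx {M N : VN H} {ε : ℝ} (θ : ℕ → Alg M →ₗ[ℂ] Op H)
    (φ : ℕ → Alg M → Op H) (hN : ∀ n x, θ n x ∈ N) (h : ∀ n x, ‖θ n x - φ n x‖ ≤ ε * ‖x‖)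
    (hb : ∀ n x, ‖φ n x‖ ≤ ‖x‖)
    (hl : ∀ x v, Tendsto (fun n => φ n x v) atTop (𝓝 ((x : Op H) v))) : LinNear M N ε := by
  have h1 : ∀ x, ∃ Q, WLim (hyperfilter ℕ) (fun n => θ n x) Q := fun x =>
    exists_wlim _ (C := ε * ‖x‖ + ‖x‖) (Eventually.of_forall fun n => by
      linarith [norm_le_norm_add_norm_sub' (θ n x) (φ n x), h n x, hb n x])
  choose Q hQ using h1
  refine ⟨⟨⟨Q, fun x y => (hQ _).unique ?_⟩, fun c x => (hQ _).unique ?_⟩,
    fun x => (hQ x).mem (Eventually.of_forall fun n => hN n x), fun x => ?_⟩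
  · simpa only [map_add] using (hQ x).add (hQ y)
  · simpa only [map_smul, RingHom.id_apply] using (hQ x).smul c
  · exact ((hQ x).sub fun v => wlimV_of_tendsto
      ((hl x v).mono_left Nat.hyperfilter_le_atTop)).norm_le (Eventually.of_forall fun n => h n x)

/-- Recipe: `γ = γ'/cA`; for `h = 1/(n+1)`, `R_P = fixVN Y (ampVN ℤ P)` are `cA γ`-close
(`Near.ampVN`, `Near.fixVN`, `IsY.nrm`), `separable_L2`, `IsY.sep`, `IsY.trc`; with `θ_h` from the
hypothesis put `θ n x = ent (θ_h (cE Y (π_h x))) 0 0`, `φ n x = ent (cE Y (π_h x)) 0 0`. -/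
theorem solv_inv (h : Solv KKTr.{u}) : Solv KKInv.{u} := by
  intro ε hε
  obtain ⟨γ', hγ', hK⟩ := h ε hε
  have hc : 0 < cA := zero_lt_one.trans_le one_le_cA
  refine ⟨γ' / cA, by positivity, fun H _ _ _ _ M N ξ T hN hMN => ?_⟩
  obtain ⟨A, hA⟩ := exists_logS H
  obtain ⟨m⟩ := mean_comm (Multiplicative ℝ)
  choose Y hY using fun n : ℕ => exists_isY T.toFC hA (1 / ((n : ℝ) + 1))
  have hh : ∀ n : ℕ, (0 : ℝ) < 1 / ((n : ℝ) + 1) := fun n => Nat.one_div_pos_of_nat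
  have := separable_L2 (I := ℤ) (H := H)
  have e : cA * (γ' / cA) = γ' := mul_div_cancel₀ _ hc.ne'
  have h1 : ∀ n, LinNear (fixVN (Y n) (ampVN ℤ M)) (fixVN (Y n) (ampVN ℤ N)) ε := fun n =>
    hK _ _ _ _ (fun _ => (hY n).sep T hA (hh n).ne') ((hY n).trc T hA (hh n).ne')
      ⟨e ▸ (hMN.1.ampVN (by positivity)).fixVN m _ ((hY n).nrm hA hN),
        e ▸ (hMN.2.ampVN (by positivity)).fixVN m _ ((hY n).nrm hA T.V_mem)⟩
  choose θ hθ hθ' using h1
  let ψ : ∀ n : ℕ, Alg M →ₗ[ℂ] Alg (fixVN (Y n) (ampVN ℤ M)) := fun n =>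
    { toFun := fun x => ⟨m.cE (Y n) (piH T.toFC (1 / ((n : ℝ) + 1)) x), mem_fixVN.2
        ⟨m.cE_mem _ ((hY n).nrm hA T.V_mem) (piH_mem T.V_mem _ x.2), m.commute_cE _ _⟩⟩
      map_add' := fun x y => Subtype.ext (by
        simp only [AddMemClass.coe_add, piH_add, Mean.cE_add])
      map_smul' := fun c x => Subtype.ext (by
        simp only [SetLike.val_smul, piH_smul, Mean.cE_smul, RingHom.id_apply]) }
  let E : Op (L2 ℤ H) →ₗ[ℂ] Op H :=
    { toFun := fun X => ent X 0 0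
      map_add' := fun X X' => ent_add X X' 0 0
      map_smul' := fun c X => ent_smul c X 0 0 }
  have hψ : ∀ n x, ‖ψ n x‖ ≤ ‖x‖ := fun n x => (m.norm_cE_le _ _).trans (norm_piH_le _ _ _)
  refine LinNear.of_approx (fun n => E ∘ₗ θ n ∘ₗ ψ n) (fun n x => E (ψ n x))
    (fun n x => mem_ampVN.1 (mem_fixVN.1 (hθ n _)).1 0 0) (fun n x => ?_)
    (fun n x => (norm_ent_le _ 0 0).trans (hψ n x)) fun x v => ?_
  · rw [LinearMap.comp_apply, ← map_sub]
    exact (norm_ent_le _ 0 0).trans ((hθ' n _).trans (mul_le_mul_of_nonneg_left (hψ n x) hε.le))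
  · refine Metric.nhds_basis_closedBall.tendsto_right_iff.2 fun δ hδ => ?_
    obtain ⟨h₀, h0, h2⟩ := cE_piH_near T.toFC hA m x v hδ
    filter_upwards [tendsto_one_div_add_atTop_nhds_zero_nat.eventually_le_const h0] with n hn
    exact mem_closedBall_iff_norm.2 (h2 _ (hh n) hn _ (hY n))

end

end Crest.Agent.R78
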