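import Crest.Agent.R121.Spec
import Crest.Agent.R121.VN
import Crest.Agent.R124.Hyper
import Crest.Agent.R124.Corner

/-!
# Row 78 (S0103, strong Kadison–Kastler): definitions and overview

Goal: close von Neumann algebras are conjugate by a unitary close to `1`.

Overview of the proof (every file has recipes in its docstrings).
* `Goal`: it suffices to find ONE bounded linear map `θ : M → N` close to the inclusion
  (`LinNear`): Raeburn–Taylor Newton iteration with `H² = H³ = 0` (row 121) makes `θ`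
  multiplicative, the similarity theorem (row 124) makes it spatial, a square root makes it unitary.
* `Sep`, `Zen`, `Amp`: reduce to separable `H`, common centre, common cyclic separating vector.
* `RvD`, `FCMk`, `LinRN`, `Strip`, `TomMk`: Tomita's theorem (Rieffel–van Daele), packaged in the
  structure `Tom` (bounded continuous functional calculus `fn` of `D = log Δ`, conjugation `J`).
* `I0` (files `Cpl … Dual`): `W = V^N_{-t} V^M_t` is close to `v v'`, `v ∈ U(N)`, `v' ∈ U(N')`.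
* `H2`, `LKK`, `Inv`: 2-hyperreflexivity and a Newton iteration make `N` invariant under `V^M_t`.
* `Cross1`, `Cross2`: Haagerup-type crossing reduces to `M` with a trace vector.
* `F*`: the finite case (Newton iteration by similarities in an `L²`-weak norm).

Convention: Mathlib's inner product `⟪x, y⟫` is conjugate linear in `x` and linear in `y`.
-/

open scoped InnerProductSpace Topology ComplexConjugate
open Filter MeasureTheory

set_option linter.unusedSectionVars false

namespace Crest.Agent.R78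

open Crest.Agent.R121 (Alg)

noncomputable section

/-- Bounded operators. -/
abbrev Op (H : Type*) [NormedAddCommGroup H] [InnerProductSpace ℂ H] := H →L[ℂ] H

/-- Von Neumann algebras. -/
abbrev VN (H : Type*) [NormedAddCommGroup H] [InnerProductSpace ℂ H] [CompleteSpace H] :=
  VonNeumannAlgebra H

variable {H : Type*} [NormedAddCommGroup H] [InnerProductSpace ℂ H] [CompleteSpace H]

/-! ### Closeness -/

/-- One-sided near inclusion `M ⊂_γ N`. -/
def Near (M N : VN H) (γ : ℝ) : Prop := ∀ x ∈ M, ∃ y ∈ N, ‖x - y‖ ≤ γ * ‖x‖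

/-- Two-sided closeness. -/
def Close (M N : VN H) (γ : ℝ) : Prop := Near M N γ ∧ Near N M γ

/-- A linear map `M → N` within `ε` of the inclusion. -/
def LinNear (M N : VN H) (ε : ℝ) : Prop :=
  ∃ θ : Alg M →ₗ[ℂ] Op H, (∀ x, θ x ∈ N) ∧ ∀ x, ‖θ x - (x : Op H)‖ ≤ ε * ‖x‖

/-- The commutant of a set of operators and of their adjoints. -/
def cm (S : Set (Op H)) : VN H where
  toStarSubalgebra := StarSubalgebra.centralizer ℂ S
  centralizer_centralizer' := by
    have : ((StarSubalgebra.centralizer ℂ S : StarSubalgebra ℂ (Op H)) : Set (Op H)) =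
        Set.centralizer (S ∪ star S) := rfl
    change Set.centralizer (Set.centralizer
      ((StarSubalgebra.centralizer ℂ S : StarSubalgebra ℂ (Op H)) : Set (Op H))) = _
    rw [this, Set.centralizer_centralizer_centralizer]
    rfl

theorem mem_cm {S : Set (Op H)} {y : Op H} :
    y ∈ cm S ↔ ∀ s ∈ S, Commute s y ∧ Commute (star s) y :=
  StarSubalgebra.mem_centralizer_iff ℂ

/-- The conjugate `u N u⋆`. -/
def conjVN (u : unitary (Op H)) (N : VN H) : VN H :=
  cm ((fun y : Op H => (u : Op H) * y * star (u : Op H)) '' (N.commutant : Set (Op H)))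

/-- `ξ` is cyclic for `A`. -/
def Cyc (A : VN H) (ξ : H) : Prop := Dense ((fun a : Op H => a ξ) '' (A : Set (Op H)))

/-- `ξ` is a trace vector for `A`. -/
def Trc (A : VN H) (ξ : H) : Prop := ∀ x ∈ A, ‖star x ξ‖ = ‖x ξ‖

/-- Central elements. -/
def Cen (A : VN H) (z : Op H) : Prop := z ∈ A ∧ z ∈ A.commutant

/-- Central projections. -/
def CP (A : VN H) (z : Op H) : Prop := IsStarProjection z ∧ z ∈ A ∧ z ∈ A.commutant

/-- The closure of `Z(A) ξ`. -/
def zsp (A : VN H) (ξ : H) : Submodule ℂ H :=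
  (Submodule.span ℂ {v | ∃ z, Cen A z ∧ v = z ξ}).topologicalClosure

instance (A : VN H) (ξ : H) : CompleteSpace (zsp A ξ) := by
  unfold zsp; infer_instance

/-- The projection onto the closure of `Z(A) ξ`. -/
def eZ (A : VN H) (ξ : H) : Op H := (zsp A ξ).starProjection

/-- `u` normalises `N`. -/
def Nrm (N : VN H) (u : unitary (Op H)) : Prop :=
  ∀ y ∈ N, (u : Op H) * y * star (u : Op H) ∈ N ∧ star (u : Op H) * y * (u : Op H) ∈ N

/-- `X N X⋆` commutes with `N'` up to `η`. -/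
def AlmN (N : VN H) (X : Op H) (η : ℝ) : Prop :=
  ∀ y ∈ N, ∀ y' ∈ N.commutant,
    ‖X * y * star X * y' - y' * (X * y * star X)‖ ≤ η * ‖y‖ * ‖y'‖

/-- `X` is within `ε` of a unitary normalising `N`. -/
def DN (N : VN H) (X : Op H) (ε : ℝ) : Prop := ∃ u, Nrm N u ∧ ‖X - (u : Op H)‖ ≤ ε

/-! ### Weak limits -/

/-- Weak operator convergence along a filter. -/
def WLim {X : Type*} (l : Filter X) (T : X → Op H) (Q : Op H) : Prop :=
  ∀ v w : H, Tendsto (fun i => ⟪w, T i v⟫_ℂ) l (𝓝 ⟪w, Q v⟫_ℂ)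

/-- Weak convergence of vectors along a filter. -/
def WLimV {X : Type*} (l : Filter X) (f : X → H) (v : H) : Prop :=
  ∀ w : H, Tendsto (fun i => ⟪w, f i⟫_ℂ) l (𝓝 ⟪w, v⟫_ℂ)

/-! ### Columns and rows -/

/-- The column `(a j)` has norm at most `c`: `∑ a_j⋆ a_j ≤ c²`. The row norm of `(a j)` is the
column norm of `(star (a j))`. -/
def Col {ι : Type*} [Fintype ι] (a : ι → Op H) (c : ℝ) : Prop :=
  ∀ v : H, ∑ j, ‖a j v‖ ^ 2 ≤ c ^ 2 * ‖v‖ ^ 2

/-! ### Invariant means -/

/-- Bounded functions. -/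
def Bdd {X E : Type*} [Norm E] (f : X → E) : Prop := ∃ C : ℝ, ∀ x, ‖f x‖ ≤ C

/-- A left invariant mean on bounded real functions. -/
structure Mean (G : Type*) [Group G] where
  /-- the mean -/
  L : (G → ℝ) → ℝ
  add : ∀ {f g : G → ℝ}, Bdd f → Bdd g → L (fun x => f x + g x) = L f + L g
  smul : ∀ (c : ℝ) {f : G → ℝ}, Bdd f → L (fun x => c * f x) = c * L f
  le : ∀ {f : G → ℝ} {C : ℝ}, Bdd f → (∀ x, f x ≤ C) → L f ≤ C
  inv : ∀ (g : G) {f : G → ℝ}, Bdd f → L (fun x => f (g * x)) = L f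

open Classical in
/-- The weak mean of a bounded vector valued function. -/
def Mean.vec {G : Type*} [Group G] (m : Mean G) (f : G → H) : H :=
  if h : ∃ v : H, ∀ w : H, (⟪w, v⟫_ℂ).re = m.L (fun g => (⟪w, f g⟫_ℂ).re) then h.choose else 0

open Classical in
/-- The weak mean of a bounded operator valued function. -/
def Mean.op {G : Type*} [Group G] (m : Mean G) (F : G → Op H) : Op H :=
  if h : ∃ T : Op H, ∀ v, T v = m.vec (fun g => F g v) then h.choose else 0

/-! ### Functional calculus, Tomita data -/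

/-- Conjugation of an operator by an antiunitary `J` (used for involutions): `J y J`. -/
def jc (J : H ≃ₗᵢ⋆[ℂ] H) (y : Op H) : Op H :=
  (J.toLinearIsometry.toContinuousLinearMap.comp y).comp J.toLinearIsometry.toContinuousLinearMap

@[simp] theorem jc_apply (J : H ≃ₗᵢ⋆[ℂ] H) (y : Op H) (v : H) : jc J y v = J (y (J v)) := rfl

/-- Bounded continuous functions on the line. -/
def BC (g : ℝ → ℂ) : Prop := Continuous g ∧ Bdd g

/-- A bounded continuous functional calculus of a (possibly unbounded) self-adjoint operator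
`D`: `fn g = g(D)`, with scalar spectral measures. -/
structure FC (H : Type*) [NormedAddCommGroup H] [InnerProductSpace ℂ H] [CompleteSpace H] where
  /-- `fn g = g(D)` -/
  fn : (ℝ → ℂ) → Op H
  fn_one : fn (fun _ => 1) = 1
  fn_add : ∀ {f g}, BC f → BC g → fn (fun x => f x + g x) = fn f + fn g
  fn_smul : ∀ (c : ℂ) {f}, BC f → fn (fun x => c * f x) = c • fn f
  fn_mul : ∀ {f g}, BC f → BC g → fn (fun x => f x * g x) = fn f * fn g
  fn_star : ∀ {f}, BC f → fn (fun x => conj (f x)) = star (fn f)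
  meas : ∀ v : H, ∃ μ : Measure ℝ, IsFiniteMeasure μ ∧
    ∀ g, BC g → ⟪v, fn g v⟫_ℂ = ∫ x, g x ∂μ

/-- The unitary group `V t = e^{itD}`. -/
def FC.V (F : FC H) (t : ℝ) : Op H := F.fn fun x => Complex.exp (Complex.I * t * x)

/-- Tomita data for `A`, `B = A'` and a cyclic separating vector `ξ`; `D = log Δ`. -/
structure Tom (A B : VN H) (ξ : H) extends FC H where
  comm : A.commutant = B
  cycA : Cyc A ξ
  cycB : Cyc B ξ
  /-- the modular conjugation -/
  J : H ≃ₗᵢ⋆[ℂ] H
  JJ : ∀ v, J (J v) = v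
  Jξ : J ξ = ξ
  J_fn : ∀ {g}, BC g → ∀ v, J (fn g v) = fn (fun x => conj (g (-x))) (J v)
  fn_ξ : ∀ {g}, BC g → fn g ξ = g 0 • ξ
  srel : ∀ x ∈ A, ∀ {g}, BC g → BC (fun s => (Real.exp (s / 2) : ℂ) * g s) →
    fn (fun s => (Real.exp (s / 2) : ℂ) * g s) (x ξ) = fn g (J (star x ξ))
  jcA : ∀ x ∈ A, jc J x ∈ B
  jcB : ∀ y ∈ B, jc J y ∈ A
  V_mem : ∀ (t : ℝ), ∀ x ∈ A, toFC.V t * x * toFC.V (-t) ∈ A
  cen_fn : ∀ z, Cen A z → ∀ {g}, BC g → Commute z (fn g)
  cen_J : ∀ z, Cen A z → jc J z = star z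

/-- Bounded strongly continuous operator valued functions on the line. -/
def SC (F : ℝ → Op H) : Prop := (∀ v, Continuous fun t => F t v) ∧ Bdd F

open Classical in
/-- The strong integral `∫ k(t) F(t) dt`. -/
def oint (k : ℝ → ℂ) (F : ℝ → Op H) : Op H :=
  if h : ∃ T : Op H, ∀ v, T v = ∫ t, k t • F t v then h.choose else 0

/-- The smoothing `σ_k(x) = ∫ k(t) V_t x V_{-t} dt`. -/
def FC.sig (F : FC H) (k : ℝ → ℂ) (x : Op H) : Op H := oint k fun t => F.V t * x * F.V (-t)

/-- `k` is a continuous integrable kernel with Fourier transform `f`: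
`f x = ∫ k(t) e^{itx} dt`. -/
structure Ker (k f : ℝ → ℂ) : Prop where
  cont : Continuous k
  int : Integrable k
  eq : ∀ x : ℝ, f x = ∫ t, k t * Complex.exp (Complex.I * t * x)

/-! ### Couplings -/

/-- A sub-coupling: finite columns `a` in `A`, `a'` in `B` of norm `≤ 1` with `a_j ξ = a'_j ξ`. -/
structure Cpl (A B : VN H) (ξ : H) where
  /-- index type -/
  ι : Type
  [fin : Fintype ι]
  /-- the column in `A` -/
  a : ι → Op H
  /-- the column in `B` -/
  a' : ι → Op H
  mem : ∀ j, a j ∈ A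
  mem' : ∀ j, a' j ∈ B
  eq : ∀ j, a j ξ = a' j ξ
  col : Col a 1
  col' : Col a' 1

attribute [instance] Cpl.fin

namespace Cpl

variable {A B : VN H} {ξ : H}

/-- The mass `∑ ‖a_j ξ‖²`. -/
def mass (c : Cpl A B ξ) : ℝ := ∑ j, ‖c.a j ξ‖ ^ 2

/-- The mass defect is at most `τ ‖ξ‖²`. -/
def Dfc (c : Cpl A B ξ) (τ : ℝ) : Prop := (1 - τ) * ‖ξ‖ ^ 2 ≤ c.mass

/-- The energy `∑ ‖(W - 1) a_j z ξ‖²`. -/
def en (c : Cpl A B ξ) (W z : Op H) : ℝ := ∑ j, ‖(W - 1) (c.a j (z ξ))‖ ^ 2

/-- Soft frequency localisation at the centres `u j` with width `Λ`, on the indices in `s`. -/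
def SoftAt (c : Cpl A B ξ) (s : Finset c.ι) (u : c.ι → ℝ) (Λ : ℝ) : Prop :=
  (∀ v : H, ∑ j ∈ s, Real.exp (-u j) * ‖star (c.a j) v‖ ^ 2 ≤ Real.exp Λ * ‖v‖ ^ 2) ∧
    ∀ v : H, ∑ j ∈ s, Real.exp (u j) * ‖star (c.a' j) v‖ ^ 2 ≤ Real.exp Λ * ‖v‖ ^ 2

/-- The soft class `𝒞(Λ)`. -/
def Soft (c : Cpl A B ξ) (Λ : ℝ) : Prop := ∃ u, c.SoftAt Finset.univ u Λ

/-- The completely positive map `x ↦ ∑ a_j⋆ x a_j`. -/
def cp (c : Cpl A B ξ) (x : Op H) : Op H := ∑ j, star (c.a j) * x * c.a j

/-- Exchange the two algebras. -/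
def swap (c : Cpl A B ξ) : Cpl B A ξ :=
  { ι := c.ι, a := c.a', a' := c.a, mem := c.mem', mem' := c.mem, eq := fun j => (c.eq j).symm,
    col := c.col', col' := c.col }

end Cpl

/-- A twist system: Tomita data and a unitary `W` fixing `ξ`, commuting with the centre and almost
normalising both algebras. -/
structure Tw (A B : VN H) (ξ : H) (γ : ℝ) extends Tom A B ξ where
  /-- the twist -/
  W : unitary (Op H)
  Wξ : (W : Op H) ξ = ξ
  W_cen : ∀ z, Cen A z → Commute z (W : Op H)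
  nA : Near (conjVN W A) A γ
  nA' : Near (conjVN W⁻¹ A) A γ
  nB : Near (conjVN W B) B γ
  nB' : Near (conjVN W⁻¹ B) B γ

/-- All couplings of the class `𝒞(Λ)` have energy `≤ ε`, locally over the centre. -/
def Tw.Loc {A B : VN H} {ξ : H} {γ : ℝ} (S : Tw A B ξ γ) (Λ ε : ℝ) : Prop :=
  ∀ z, CP A z → ∀ c : Cpl A B ξ, c.Soft Λ → c.en S.W z ≤ ε * ‖z ξ‖ ^ 2

/-- All couplings of the class `𝒞(Λ)` have energy `≤ ε`. -/
def Tw.Glob {A B : VN H} {ξ : H} {γ : ℝ} (S : Tw A B ξ γ) (Λ ε : ℝ) : Prop :=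
  ∀ c : Cpl A B ξ, c.Soft Λ → c.en S.W 1 ≤ ε * ‖ξ‖ ^ 2

/-! ### Induction to an invariant subspace -/

section Ind

variable {L : Type*} [NormedAddCommGroup L] [InnerProductSpace ℂ L] [CompleteSpace L]

/-- The induced algebra `P_q = (q P' q)'` on the range `L` of a projection `q ∈ P'`
(`s : L → H` the inclusion, `t = s⋆`). -/
def ind (P : VN H) (s : L →L[ℂ] H) (t : H →L[ℂ] L) : VN L :=
  cm {T | R124.xpd s t T ∈ P.commutant}

end Ind

/-! ### `ℓ²(I, H)` -/

/-- The Hilbert sum of copies of `H`. -/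
abbrev L2 (I : Type*) (H : Type*) [NormedAddCommGroup H] := lp (fun _ : I => H) 2

section L2

variable {I : Type*}

/-- The coordinate projection. -/
def prj (i : I) : L2 I H →L[ℂ] H := lp.evalCLM ℂ (fun _ : I => H) 2 i

open Classical in
/-- The coordinate embedding. -/
def inj (i : I) : H →L[ℂ] L2 I H := lp.singleContinuousLinearMap ℂ (fun _ : I => H) 2 i

/-- Matrix entries. -/
def ent (T : Op (L2 I H)) (i j : I) : Op H := (prj i).comp (T.comp (inj j))

open Classical in
/-- The diagonal operator of a bounded family. -/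
def dgf (T : I → Op H) : Op (L2 I H) :=
  if h : ∃ X : Op (L2 I H), ∀ v i, X v i = T i (v i) then h.choose else 0

/-- The constant diagonal operator `T ⊗ 1`. -/
def dg (I : Type*) (T : Op H) : Op (L2 I H) := dgf fun _ : I => T

open Classical in
/-- The isometry `1 ⊗ v_f` of an injection `f`: `emb f (inj i x) = inj (f i) x`. -/
def emb (H : Type*) [NormedAddCommGroup H] [InnerProductSpace ℂ H] (f : I ↪ I) : Op (L2 I H) :=
  if h : ∃ X : Op (L2 I H), ∀ i x, X (inj i x) = inj (f i) x then h.choose else 0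

/-- `P ⊗ B(ℓ² I) = (P' ⊗ 1)'`. -/
def ampVN (I : Type*) (P : VN H) : VN (L2 I H) := cm (dg I '' (P.commutant : Set (Op H)))

/-- `P ⊗ 1 = (P' ⊗ B(ℓ² I))'`. -/
def dgVN (I : Type*) (P : VN H) : VN (L2 I H) := (ampVN I P.commutant).commutant

end L2

end

end Crest.Agent.R78
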