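import Crest.Agent.R78.FCApi

/-!
# Row 78: Fourier kernels of bumps, Riemann sums, a sharp Bessel inequality
-/

open scoped InnerProductSpace Topology ComplexConjugate
open Filter MeasureTheory

set_option linter.unusedSectionVars false

namespace Crest.Agent.R78

open Crest.Agent.R121 (Alg)

noncomputable section

universe u

variable {H : Type*} [NormedAddCommGroup H] [InnerProductSpace ℂ H] [CompleteSpace H]

open scoped ContDiff

/-- Smooth compactly supported functions have kernels, with Plancherel. Recipe: `f` is a Schwartz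
function (`HasCompactSupport.toSchwartzMap`), `k t = (2π)⁻¹ 𝓕 f (t / (2π))`; Fourier inversion and
Plancherel for Schwartz functions are in Mathlib (`SchwartzMap.integral_norm_sq_fourier` or
`Real.integral_fourier_mul…` / `integral_bilin_fourier_eq`). -/
theorem exists_ker {f : ℝ → ℂ} (hf : ContDiff ℝ ∞ f) (hs : HasCompactSupport f) :
    ∃ k, Ker k f ∧ Integrable (fun t => ‖k t‖ ^ 2) ∧
      2 * Real.pi * ∫ t, ‖k t‖ ^ 2 = ∫ x, ‖f x‖ ^ 2 := by
  have hπ : (0 : ℝ) < 2 * Real.pi := by positivity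
  set F : SchwartzMap ℝ ℂ := hs.toSchwartzMap hf with hF
  set g : SchwartzMap ℝ ℂ := FourierTransform.fourier F with hg
  have hg2 : Integrable fun t => ‖g t‖ ^ 2 :=
    (memLp_two_iff_integrable_sq_norm g.continuous.aestronglyMeasurable).1 (g.memLp 2)
  have hn : ∀ t, ‖(((2 * Real.pi)⁻¹ : ℝ) : ℂ) * g (t / (2 * Real.pi))‖ ^ 2 =
      ((2 * Real.pi)⁻¹) ^ 2 * ‖g (t / (2 * Real.pi))‖ ^ 2 := fun t => by
    rw [norm_mul, mul_pow, Complex.norm_real, Real.norm_eq_abs, sq_abs]
  refine ⟨fun t => (((2 * Real.pi)⁻¹ : ℝ) : ℂ) * g (t / (2 * Real.pi)), ⟨?_, ?_, ?_⟩, ?_, ?_⟩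
  · exact continuous_const.mul (g.continuous.comp (continuous_id.div_const _))
  · exact (g.integrable.comp_div hπ.ne').const_mul _
  · intro x
    have h1 : FourierTransform.fourierInv g x = f x := by
      rw [hg, FourierTransform.fourierInv_fourier_eq]
      rfl
    rw [SchwartzMap.fourierInv_coe, Real.fourierInv_eq'] at h1
    have h2 := Measure.integral_comp_div (fun v : ℝ =>
      Complex.exp (((2 * Real.pi * ⟪v, x⟫_ℝ : ℝ) : ℂ) * Complex.I) • g v) (2 * Real.pi)
    rw [h1, abs_of_pos hπ] at h2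
    have h3 : ∀ t : ℝ, (((2 * Real.pi)⁻¹ : ℝ) : ℂ) * g (t / (2 * Real.pi)) *
        Complex.exp (Complex.I * t * x) = (((2 * Real.pi)⁻¹ : ℝ) : ℂ) *
          (Complex.exp (((2 * Real.pi * ⟪t / (2 * Real.pi), x⟫_ℝ : ℝ) : ℂ) * Complex.I) •
            g (t / (2 * Real.pi))) := fun t => by
      have : (2 * Real.pi * ⟪t / (2 * Real.pi), x⟫_ℝ : ℝ) = t * x := by
        rw [Real.inner_apply]
        field_simp
      rw [this, smul_eq_mul]
      push_cast
      ring_nf
    simp only [h3]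
    rw [integral_const_mul, h2, Complex.real_smul, ← mul_assoc, ← Complex.ofReal_mul,
      inv_mul_cancel₀ hπ.ne', Complex.ofReal_one, one_mul]
  · simp only [hn]
    exact (hg2.comp_div hπ.ne').const_mul _
  · simp only [hn]
    rw [integral_const_mul, Measure.integral_comp_div (fun t => ‖g t‖ ^ 2), abs_of_pos hπ,
      hg, SchwartzMap.integral_norm_sq_fourier, smul_eq_mul]
    have : ∫ x, ‖F x‖ ^ 2 = ∫ x, ‖f x‖ ^ 2 := rfl
    rw [this]
    field_simp

/-- Kernels for exponentially weighted real bumps. -/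
theorem exists_ker_exp {f : ℝ → ℝ} (hf : ContDiff ℝ ∞ f) (hs : HasCompactSupport f) (c : ℝ) :
    ∃ k, Ker k (fun x => (Real.exp (c * x) : ℂ) * f x) ∧ Integrable (fun t => ‖k t‖ ^ 2) ∧
      2 * Real.pi * ∫ t, ‖k t‖ ^ 2 = ∫ x, (Real.exp (c * x) * f x) ^ 2 := by
  have h1 : ContDiff ℝ ∞ fun x => (Real.exp (c * x) : ℂ) * f x := by
    have h2 : ContDiff ℝ ∞ fun x => Real.exp (c * x) * f x :=
      (Real.contDiff_exp.comp (contDiff_const.mul contDiff_id)).mul hf
    have := Complex.ofRealCLM.contDiff.comp h2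
    convert this using 1
    funext x
    simp
  have h2 : HasCompactSupport fun x => (Real.exp (c * x) : ℂ) * f x :=
    (hs.comp_left (g := fun y : ℝ => (y : ℂ)) Complex.ofReal_zero).mul_left
  obtain ⟨k, h3, h4, h5⟩ := exists_ker h1 h2
  refine ⟨k, h3, h4, ?_⟩
  rw [h5]
  congr 1
  funext x
  rw [← Complex.ofReal_mul, Complex.norm_real, Real.norm_eq_abs, sq_abs]

/-- An even cut-off (`ContDiffBump`). -/
theorem exists_cutoff : ∃ f : ℝ → ℝ, ContDiff ℝ ∞ f ∧ HasCompactSupport f ∧ (∀ x, f (-x) = f x) ∧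
    (∀ x, 0 ≤ f x ∧ f x ≤ 1) ∧ ∀ x, |x| ≤ 1 → f x = 1 := by
  let φ : ContDiffBump (0 : ℝ) := ⟨1, 2, one_pos, one_lt_two⟩
  refine ⟨φ, φ.contDiff, φ.hasCompactSupport, φ.neg, fun x => ⟨φ.nonneg, φ.le_one⟩,
    fun x hx => φ.one_of_mem_closedBall ?_⟩
  simpa [φ] using hx

/-- An `L²`-normalised bump of width `w`. -/
structure Bump (c₁ w : ℝ) (p : ℝ → ℝ) : Prop where
  smooth : ContDiff ℝ ∞ p
  nonneg : ∀ x, 0 ≤ p x
  supp : ∀ x, w ≤ |x| → p x = 0
  sq : ∫ x, p x ^ 2 = 1
  lower : c₁ * w ≤ (∫ x, p x) ^ 2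

/-- `p x = w^{-1/2} p₁ (x / w)`. -/
theorem exists_bump : ∃ c₁ > 0, ∀ w > 0, ∃ p, Bump c₁ w p := by
  let φ : ContDiffBump (0 : ℝ) := ⟨1 / 2, 1, by norm_num, by norm_num⟩
  have hB : 0 < ∫ x, φ x := φ.integral_pos
  have hA : 0 < ∫ x, φ x ^ 2 := by
    refine Continuous.integral_pos_of_hasCompactSupport_nonneg_nonzero (x := 0)
      (φ.continuous.pow 2) ?_ (fun x => sq_nonneg _) ?_
    · exact φ.hasCompactSupport.comp_left (g := fun y : ℝ => y ^ 2) (by simp)
    · rw [φ.one_of_mem_closedBall (Metric.mem_closedBall_self φ.rIn_pos.le)]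
      simp
  set A := ∫ x, φ x ^ 2
  set B := ∫ x, φ x
  refine ⟨B ^ 2 / A, by positivity, fun w hw => ⟨fun x => (√(w * A))⁻¹ * φ (x / w), ?_, ?_, ?_, ?_, ?_⟩⟩
  · exact contDiff_const.mul (φ.contDiff.comp (contDiff_id.div_const _))
  · intro x
    exact mul_nonneg (by positivity) φ.nonneg
  · intro x hx
    rw [φ.zero_of_le_dist, mul_zero]
    show 1 ≤ dist (x / w) 0
    rw [Real.dist_eq, sub_zero, abs_div, abs_of_pos hw, one_le_div hw]
    exact hx
  · simp only [mul_pow]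
    rw [integral_const_mul, Measure.integral_comp_div (fun x => φ x ^ 2), abs_of_pos hw, inv_pow,
      Real.sq_sqrt (by positivity), smul_eq_mul]
    field_simp
    rfl
  · rw [integral_const_mul, Measure.integral_comp_div φ, abs_of_pos hw, mul_pow, inv_pow,
      Real.sq_sqrt (by positivity), smul_eq_mul]
    apply le_of_eq
    show B ^ 2 / A * w = (w * A)⁻¹ * (w * B) ^ 2
    field_simp

theorem four_hcs {g : ℝ → ℝ} {w : ℝ} (hs : ∀ x, w ≤ |x| → g x = 0) : HasCompactSupport g := by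
  refine HasCompactSupport.intro (isCompact_Icc (a := -w) (b := w)) fun x hx => hs x ?_
  by_contra h
  exact hx (abs_le.1 (not_le.1 h).le)

theorem Bump.hasCompactSupport {c₁ w : ℝ} {p : ℝ → ℝ} (h : Bump c₁ w p) : HasCompactSupport p := by
  exact four_hcs h.supp

/-- Uniform convergence of Riemann sums (uniform continuity; compare `ε g(x - kε)` with the
integral over `[x - kε - ε, x - kε]`; at most `2w/ε + 2` terms are nonzero). -/
theorem riemann {g : ℝ → ℝ} (hg : Continuous g) {w : ℝ} (hw : 0 < w)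
    (hs : ∀ x, w ≤ |x| → g x = 0) {β : ℝ} (hβ : 0 < β) :
    ∃ ε₀ > 0, ∀ ε, 0 < ε → ε ≤ ε₀ → ∀ (s : Finset ℤ) (x : ℝ),
      ((∀ m : ℤ, |x - m * ε| < w → m ∈ s) → |ε * ∑ m ∈ s, g (x - m * ε) - ∫ y, g y| ≤ β) ∧
      ((∀ y, 0 ≤ g y) → ε * ∑ m ∈ s, g (x - m * ε) ≤ (∫ y, g y) + β) := by
  classical
  have huc : UniformContinuous g := (four_hcs hs).uniformContinuous_of_continuous hg
  set δ := β / (2 * w + 2) with hδ
  have hδ0 : 0 < δ := by positivity
  obtain ⟨η, hη, hu⟩ := Metric.uniformContinuous_iff.1 huc δ hδ0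
  refine ⟨min 1 (η / 2), by positivity, fun ε hε hε0 s x => ?_⟩
  have hε1 : ε ≤ 1 := hε0.trans (min_le_left _ _)
  have hε2 : ε < η := (hε0.trans (min_le_right _ _)).trans_lt (by linarith)
  set b : ℤ := ⌈(x + w) / ε⌉ with hb
  set N : ℕ := ⌈2 * w / ε⌉₊ + 1 with hN
  have hb1 : x + w ≤ b * ε := (div_le_iff₀ hε).1 (Int.le_ceil _)
  have hb2 : b * ε < x + w + ε := by
    have := Int.ceil_lt_add_one ((x + w) / ε)
    rw [← hb, div_add_one hε.ne', lt_div_iff₀ hε] at this
    exact this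
  have hN1 : 2 * w + ε ≤ N * ε := by
    have := (div_le_iff₀ hε).1 (Nat.le_ceil (2 * w / ε))
    rw [hN]; push_cast; linarith
  have hN2 : N * ε ≤ 2 * w + 2 := by
    have := Nat.ceil_lt_add_one (show 0 ≤ 2 * w / ε by positivity)
    rw [div_add_one hε.ne', lt_div_iff₀ hε] at this
    rw [hN]; push_cast; linarith
  let y : ℕ → ℝ := fun k => x - (b - k) * ε
  have hint : ∑ k ∈ Finset.range N, ∫ t in y k..y (k + 1), g t = ∫ t, g t := by
    rw [intervalIntegral.sum_integral_adjacent_intervals fun k _ => hg.intervalIntegrable _ _]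
    refine intervalIntegral.integral_eq_integral_of_support_subset fun t ht => ?_
    have h1 : |t| < w := by
      by_contra h
      exact ht (hs t (not_lt.1 h))
    obtain ⟨h2, h3⟩ := abs_lt.1 h1
    simp only [y, Set.mem_Ioc, Nat.cast_zero]
    constructor <;> nlinarith
  have hmain : |ε * ∑ k ∈ Finset.range N, g (y k) - ∫ t, g t| ≤ β := by
    rw [← hint, Finset.mul_sum, ← Finset.sum_sub_distrib]
    refine (Finset.abs_sum_le_sum_abs _ _).trans ?_
    have h1 : ∀ k ∈ Finset.range N, |ε * g (y k) - ∫ t in y k..y (k + 1), g t| ≤ δ * ε := by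
      intro k _
      have e1 : y (k + 1) - y k = ε := by simp only [y]; push_cast; ring
      have e2 : ε * g (y k) - ∫ t in y k..y (k + 1), g t =
          ∫ t in y k..y (k + 1), (g (y k) - g t) := by
        rw [intervalIntegral.integral_sub (by simp) (hg.intervalIntegrable _ _),
          intervalIntegral.integral_const, e1, smul_eq_mul]
      rw [e2, ← Real.norm_eq_abs]
      refine (intervalIntegral.norm_integral_le_of_norm_le_const (C := δ) fun t ht => ?_).trans ?_
      · rw [Set.uIoc_of_le (by linarith)] at ht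
        rw [← dist_eq_norm]
        refine (hu ?_).le
        rw [Real.dist_eq, abs_lt]
        constructor <;> linarith [ht.1, ht.2]
      · rw [e1, abs_of_pos hε]
    refine (Finset.sum_le_sum h1).trans ?_
    rw [Finset.sum_const, Finset.card_range, nsmul_eq_mul]
    have : β = δ * (2 * w + 2) := by rw [hδ]; field_simp
    rw [this]
    nlinarith
  let T : Finset ℤ := (Finset.range N).image fun k : ℕ => b - k
  have hT : ∑ m ∈ T, g (x - m * ε) = ∑ k ∈ Finset.range N, g (y k) := by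
    rw [Finset.sum_image fun i _ j _ h => by simpa using h]
    refine Finset.sum_congr rfl fun k _ => ?_
    simp only [y]
    push_cast
    rfl
  have hmem : ∀ m : ℤ, |x - m * ε| < w → m ∈ T := by
    intro m hm
    obtain ⟨h2, h3⟩ := abs_lt.1 hm
    have h4 : (m : ℝ) < b := lt_of_mul_lt_mul_right (by linarith) hε.le
    have h5 : (b : ℝ) - m < N := lt_of_mul_lt_mul_right (by nlinarith) hε.le
    have h4' : m < b := by exact_mod_cast h4
    have h5' : b - m < N := by exact_mod_cast h5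
    refine Finset.mem_image.2 ⟨(b - m).toNat, Finset.mem_range.2 (by omega), by omega⟩
  have hzero : ∀ m : ℤ, g (x - m * ε) ≠ 0 → |x - m * ε| < w := fun m hm => by
    by_contra h
    exact hm (hs _ (not_lt.1 h))
  have hsT : ∑ m ∈ s, g (x - m * ε) = ∑ m ∈ s ∩ T, g (x - m * ε) := by
    refine (Finset.sum_subset Finset.inter_subset_left fun m hm hm' => ?_).symm
    by_contra h
    exact hm' (Finset.mem_inter.2 ⟨hm, hmem m (hzero m h)⟩)
  constructor
  · intro h
    have : ∑ m ∈ s ∩ T, g (x - m * ε) = ∑ m ∈ T, g (x - m * ε) := by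
      refine Finset.sum_subset Finset.inter_subset_right fun m hm hm' => ?_
      by_contra h'
      exact hm' (Finset.mem_inter.2 ⟨h m (hzero m h'), hm⟩)
    rw [hsT, this, hT]
    exact hmain
  · intro h
    have h1 : ∑ m ∈ s ∩ T, g (x - m * ε) ≤ ∑ m ∈ T, g (x - m * ε) :=
      Finset.sum_le_sum_of_subset_of_nonneg Finset.inter_subset_right fun m _ _ => h _
    rw [hsT]
    rw [hT] at h1
    have h2 := (abs_le.1 hmain).2
    nlinarith

/-- The tail of a kernel. -/
def tail (k : ℝ → ℂ) (T : ℝ) : ℝ := ∫ t in {t | T < |t|}, ‖k t‖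

theorem tail_nonneg (k : ℝ → ℂ) (T : ℝ) : 0 ≤ tail k T := by
  exact integral_nonneg fun _ => norm_nonneg _

theorem tendsto_tail {k : ℝ → ℂ} (hk : Integrable k) : Tendsto (tail k) atTop (𝓝 0) := by
  have h := tendsto_setIntegral_of_antitone (μ := volume) (f := fun t => ‖k t‖)
    (s := fun T : ℝ => {t : ℝ | T < |t|})
    (fun T => (isOpen_lt continuous_const continuous_abs).measurableSet)
    (fun a b hab t (ht : b < |t|) => hab.trans_lt ht) ⟨0, hk.norm.integrableOn⟩
  have h2 : (⋂ T : ℝ, {t : ℝ | T < |t|}) = ∅ := by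
    refine Set.eq_empty_of_forall_notMem fun t ht => ?_
    have h3 : |t| < |t| := Set.mem_iInter.1 ht |t|
    exact lt_irrefl _ h3
  rw [h2, Measure.restrict_empty, integral_zero_measure] at h
  exact h

theorem four_orth {ε : ℝ} (hε : 0 < ε) (m n : ℤ) :
    ∫ t in (-(Real.pi / ε))..(Real.pi / ε), Complex.exp (-(Complex.I * t * (m * ε : ℝ))) *
      Complex.exp (Complex.I * t * (n * ε : ℝ)) =
      if m = n then ((2 * Real.pi / ε : ℝ) : ℂ) else 0 := by
  have hε' : (ε : ℂ) ≠ 0 := Complex.ofReal_ne_zero.2 hε.ne'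
  have h1 : ∀ t : ℝ, Complex.exp (-(Complex.I * t * (m * ε : ℝ))) *
      Complex.exp (Complex.I * t * (n * ε : ℝ)) =
      Complex.exp ((Complex.I * (n - m) * ε) * t) := fun t => by
    rw [← Complex.exp_add]
    congr 1
    push_cast
    ring
  simp only [h1]
  split_ifs with h
  · subst h
    simp only [sub_self, mul_zero, zero_mul, Complex.exp_zero, intervalIntegral.integral_const,
      Complex.real_smul, mul_one]
    congr 1
    ring
  · have h2 : ((n : ℂ) - m) ≠ 0 := by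
      rw [sub_ne_zero]
      exact_mod_cast Ne.symm h
    rw [integral_exp_mul_complex (mul_ne_zero (mul_ne_zero Complex.I_ne_zero h2) hε'),
      div_eq_zero_iff, sub_eq_zero]
    left
    refine Complex.exp_eq_exp_iff_exists_int.2 ⟨n - m, ?_⟩
    push_cast
    field_simp
    ring

theorem four_conj_exp (t r : ℝ) :
    conj (Complex.exp (Complex.I * t * r)) = Complex.exp (-(Complex.I * t * r)) := by
  rw [← Complex.exp_conj]
  simp

theorem four_inner_int {a b ε : ℝ} (s : Finset ℤ) (d : ℤ → H) {h : ℝ → H} (hh : Continuous h) :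
    ∫ t in a..b, ⟪∑ m ∈ s, Complex.exp (Complex.I * t * (m * ε : ℝ)) • d m, h t⟫_ℂ =
      ∑ m ∈ s, ⟪d m, ∫ t in a..b, Complex.exp (-(Complex.I * t * (m * ε : ℝ))) • h t⟫_ℂ := by
  simp only [sum_inner, inner_smul_left, four_conj_exp, ← inner_smul_right]
  rw [intervalIntegral.integral_finsetSum fun m _ => Continuous.intervalIntegrable (by fun_prop) _ _]
  refine Finset.sum_congr rfl fun m _ => ?_
  exact (innerSL ℂ (d m)).intervalIntegral_comp_comm
    (Continuous.intervalIntegrable (by fun_prop) _ _)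

/-- Bessel's inequality on an interval of length `2π/ε`, vector valued (expand
`0 ≤ ∫ ‖f - ∑ c_m e_m‖²` using the orthogonality of the exponentials). -/
theorem bessel_interval {f : ℝ → H} (hf : Continuous f) {ε : ℝ} (hε : 0 < ε) (s : Finset ℤ) :
    ε * ∑ m ∈ s, ‖∫ t in (-(Real.pi / ε))..(Real.pi / ε),
        Complex.exp (-(Complex.I * t * (m * ε : ℝ))) • f t‖ ^ 2 ≤
      2 * Real.pi * ∫ t in (-(Real.pi / ε))..(Real.pi / ε), ‖f t‖ ^ 2 := by
  have hπ := Real.pi_pos
  set L := Real.pi / ε with hL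
  have hL0 : 0 < L := by positivity
  set c : ℤ → H := fun m => ∫ t in (-L)..L, Complex.exp (-(Complex.I * t * (m * ε : ℝ))) • f t
    with hc
  set a : ℝ := ε / (2 * Real.pi) with ha
  set g : ℝ → H := fun t => ∑ m ∈ s, Complex.exp (Complex.I * t * (m * ε : ℝ)) • ((a : ℂ) • c m)
    with hg
  have hgc : Continuous g := by
    rw [hg]
    fun_prop
  have hS : ∑ m ∈ s, ⟪(a : ℂ) • c m, c m⟫_ℂ = ((a * ∑ m ∈ s, ‖c m‖ ^ 2 : ℝ) : ℂ) := by
    push_cast
    rw [Finset.mul_sum]
    refine Finset.sum_congr rfl fun m _ => ?_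
    rw [inner_smul_left, Complex.conj_ofReal, inner_self_eq_norm_sq_to_K]
    rfl
  have h1 : ∫ t in (-L)..L, ⟪g t, f t⟫_ℂ = ((a * ∑ m ∈ s, ‖c m‖ ^ 2 : ℝ) : ℂ) := by
    rw [← hS]
    exact four_inner_int s _ hf
  have h2 : ∫ t in (-L)..L, ⟪g t, g t⟫_ℂ = ((a * ∑ m ∈ s, ‖c m‖ ^ 2 : ℝ) : ℂ) := by
    rw [← hS]
    refine (four_inner_int s _ hgc).trans (Finset.sum_congr rfl fun m hm => ?_)
    congr 1
    simp only [hg, Finset.smul_sum, smul_smul (Complex.exp _) (Complex.exp _)]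
    rw [intervalIntegral.integral_finsetSum
      fun m _ => Continuous.intervalIntegrable (by fun_prop) _ _]
    simp only [intervalIntegral.integral_smul_const, hL, four_orth hε]
    rw [Finset.sum_eq_single m (fun n _ hn => by rw [if_neg (Ne.symm hn), zero_smul])
      (fun h => absurd hm h), if_pos rfl, smul_smul, ← Complex.ofReal_mul]
    have : 2 * Real.pi / ε * a = 1 := by rw [ha]; field_simp
    rw [this, Complex.ofReal_one, one_smul]
  have hre : ∀ {u v : ℝ → H}, Continuous u → Continuous v →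
      ∫ t in (-L)..L, (⟪u t, v t⟫_ℂ).re = (∫ t in (-L)..L, ⟪u t, v t⟫_ℂ).re := fun hu hv =>
    Complex.reCLM.intervalIntegral_comp_comm (Continuous.intervalIntegrable (by fun_prop) _ _)
  have h3 : ∫ t in (-L)..L, 2 * (⟪g t, f t⟫_ℂ).re ≤
      ∫ t in (-L)..L, (‖f t‖ ^ 2 + (⟪g t, g t⟫_ℂ).re) := by
    refine intervalIntegral.integral_mono_on (by linarith)
      (Continuous.intervalIntegrable (by fun_prop) _ _)
      (Continuous.intervalIntegrable (by fun_prop) _ _) fun t _ => ?_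
    have e1 : (⟪g t, g t⟫_ℂ).re = ‖g t‖ ^ 2 := inner_self_eq_norm_sq (𝕜 := ℂ) (g t)
    have e2 : (⟪g t, f t⟫_ℂ).re ≤ ‖g t‖ * ‖f t‖ := re_inner_le_norm (𝕜 := ℂ) (g t) (f t)
    nlinarith [sq_nonneg (‖g t‖ - ‖f t‖)]
  rw [intervalIntegral.integral_const_mul, intervalIntegral.integral_add
    (Continuous.intervalIntegrable (by fun_prop) _ _)
    (Continuous.intervalIntegrable (by fun_prop) _ _), hre hgc hf, hre hgc hgc, h1, h2,
    Complex.ofReal_re] at h3
  have h4 : a * ∑ m ∈ s, ‖c m‖ ^ 2 ≤ ∫ t in (-L)..L, ‖f t‖ ^ 2 := by linarith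
  have h5 : ε = 2 * Real.pi * a := by rw [ha]; field_simp
  calc ε * ∑ m ∈ s, ‖c m‖ ^ 2 = 2 * Real.pi * (a * ∑ m ∈ s, ‖c m‖ ^ 2) := by
        rw [← mul_assoc, ← h5]
    _ ≤ _ := mul_le_mul_of_nonneg_left h4 (by positivity)

theorem four_norm_le {ι : Type*} [Fintype ι] {F : ι → ℝ → H} {c : ℝ}
    (hc0 : 0 ≤ c) (hFc : ∀ t, ∑ j, ‖F j t‖ ^ 2 ≤ c ^ 2) (j : ι) (t : ℝ) : ‖F j t‖ ≤ c :=
  (pow_le_pow_iff_left₀ (norm_nonneg _) hc0 two_ne_zero).1
    ((Finset.single_le_sum (f := fun j => ‖F j t‖ ^ 2) (fun _ _ => sq_nonneg _)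
      (Finset.mem_univ j)).trans (hFc t))

theorem four_tail {ι : Type*} [Fintype ι] {k : ℝ → ℂ} (hk : Integrable k)
    {F : ι → ℝ → H} (hF : ∀ j, Continuous (F j)) {c : ℝ}
    (hc0 : 0 ≤ c) (hFc : ∀ t, ∑ j, ‖F j t‖ ^ 2 ≤ c ^ 2) (T : ℝ) :
    ∑ j, (∫ t in {t | T < |t|}, ‖k t‖ * ‖F j t‖) ^ 2 ≤ (c * tail k T) ^ 2 := by
  set b : ι → ℝ := fun j => ∫ t in {t | T < |t|}, ‖k t‖ * ‖F j t‖ with hb
  have hi : ∀ j, Integrable fun t => ‖k t‖ * ‖F j t‖ := fun j =>
    hk.norm.mul_bdd (c := c) (hF j).norm.aestronglyMeasurable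
      (Eventually.of_forall fun t => by rw [norm_norm]; exact four_norm_le hc0 hFc j t)
  set S := ∑ j, b j ^ 2 with hS
  have hS0 : 0 ≤ S := Finset.sum_nonneg fun _ _ => sq_nonneg _
  have h1 : S = ∫ t in {t | T < |t|}, ∑ j, b j * (‖k t‖ * ‖F j t‖) := by
    rw [integral_finsetSum _ fun j _ => ((hi j).const_mul _).integrableOn]
    refine Finset.sum_congr rfl fun j _ => ?_
    rw [integral_const_mul, sq]
  have h2 : S ≤ (c * tail k T) * √S := by
    have h3 : (c * tail k T) * √S = ∫ t in {t | T < |t|}, (c * √S) * ‖k t‖ := by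
      rw [integral_const_mul, tail]; ring
    rw [h3]
    conv_lhs => rw [h1]
    refine integral_mono (integrable_finsetSum _ fun j _ => ((hi j).const_mul _).integrableOn)
      (hk.norm.const_mul _).integrableOn fun t => ?_
    have h4 : ∑ j, b j * ‖F j t‖ ≤ √S * c :=
      (Real.sum_mul_le_sqrt_mul_sqrt _ _ _).trans
        (mul_le_mul_of_nonneg_left (Real.sqrt_le_iff.2 ⟨hc0, hFc t⟩) (Real.sqrt_nonneg _))
    have h5 : ∑ j, b j * (‖k t‖ * ‖F j t‖) = ‖k t‖ * ∑ j, b j * ‖F j t‖ := by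
      rw [Finset.mul_sum]
      exact Finset.sum_congr rfl fun j _ => by ring
    show ∑ j, b j * (‖k t‖ * ‖F j t‖) ≤ c * √S * ‖k t‖
    rw [h5]
    nlinarith [norm_nonneg (k t)]
  have h6 := Real.sq_sqrt hS0
  nlinarith [sq_nonneg (c * tail k T - √S)]

/-- Sharp Bessel inequality on the line for families: split the integral into
`[-π/ε, π/ε]` (`bessel_interval`) and the tail (Cauchy–Schwarz with weight `‖k‖`), Minkowski. -/
theorem bessel {ι : Type*} [Fintype ι] {k : ℝ → ℂ} (hc : Continuous k) (hk : Integrable k)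
    (hk2 : Integrable fun t => ‖k t‖ ^ 2) {F : ι → ℝ → H} (hF : ∀ j, Continuous (F j)) {c : ℝ}
    (hc0 : 0 ≤ c) (hFc : ∀ t, ∑ j, ‖F j t‖ ^ 2 ≤ c ^ 2) {ε : ℝ} (hε : 0 < ε) (s : Finset ℤ) :
    √(ε * ∑ j, ∑ m ∈ s, ‖∫ t, (k t * Complex.exp (-(Complex.I * t * (m * ε : ℝ)))) • F j t‖ ^ 2) ≤
      √(2 * Real.pi * ∫ t, ‖k t‖ ^ 2 * ∑ j, ‖F j t‖ ^ 2) +
        √(ε * s.card) * c * tail k (Real.pi / ε) := by
  have hπ := Real.pi_pos
  set L := Real.pi / ε with hL
  have hL0 : 0 < L := by positivity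
  set e : ℤ → ℝ → ℂ := fun m t => Complex.exp (-(Complex.I * t * (m * ε : ℝ))) with he
  have hen : ∀ m t, ‖e m t‖ = 1 := fun m t => by
    rw [he]
    simp only [Complex.norm_exp]
    simp
  have hec : ∀ m, Continuous (e m) := fun m => by rw [he]; fun_prop
  have hnorm : ∀ j m t, ‖(k t * e m t) • F j t‖ = ‖k t‖ * ‖F j t‖ := fun j m t => by
    rw [norm_smul, norm_mul, hen, mul_one]
  have hi0 : ∀ j, Integrable fun t => ‖k t‖ * ‖F j t‖ := fun j =>
    hk.norm.mul_bdd (c := c) (hF j).norm.aestronglyMeasurable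
      (Eventually.of_forall fun t => by rw [norm_norm]; exact four_norm_le hc0 hFc j t)
  have hi : ∀ j m, Integrable fun t => (k t * e m t) • F j t := fun j m =>
    (hi0 j).mono' ((hc.mul (hec m)).smul (hF j)).aestronglyMeasurable
      (Eventually.of_forall fun t => (hnorm j m t).le)
  set A : ι × s → H := fun p => ∫ t in (-L)..L, e p.2 t • (k t • F p.1 t) with hA
  set B : ι × s → H := fun p => ∫ t in {t | L < |t|}, (k t * e p.2 t) • F p.1 t with hB
  have hAB : ∀ p : ι × s, ∫ t, (k t * e p.2 t) • F p.1 t = A p + B p := fun p => by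
    rw [← integral_add_compl (measurableSet_Icc (a := -L) (b := L)) (hi p.1 p.2)]
    congr 1
    · rw [hA]
      simp only []
      rw [intervalIntegral.integral_of_le (by linarith), ← integral_Icc_eq_integral_Ioc]
      simp only [smul_smul, mul_comm]
    · have : (Set.Icc (-L) L)ᶜ = {t | L < |t|} := by
        ext t
        simp only [Set.mem_compl_iff, Set.mem_Icc, ← abs_le, not_le, Set.mem_ofPred_eq]
      rw [this]
  have hsum : ∀ G : ι → ℤ → ℝ, ∑ j, ∑ m ∈ s, G j m = ∑ p : ι × s, G p.1 p.2 := fun G => by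
    rw [Fintype.sum_prod_type]
    exact Finset.sum_congr rfl fun j _ => (Finset.sum_coe_sort s (G j)).symm
  have h1 : ε * ∑ p, ‖A p‖ ^ 2 ≤ 2 * Real.pi * ∫ t, ‖k t‖ ^ 2 * ∑ j, ‖F j t‖ ^ 2 := by
    rw [← hsum fun j m => ‖∫ t in (-L)..L, e m t • (k t • F j t)‖ ^ 2, Finset.mul_sum]
    refine (Finset.sum_le_sum fun j _ => bessel_interval (hc.smul (hF j)) hε s).trans ?_
    rw [← Finset.mul_sum]
    refine mul_le_mul_of_nonneg_left ?_ (by positivity)
    rw [← intervalIntegral.integral_finsetSum (f := fun j t => ‖(k • F j) t‖ ^ 2)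
      fun j _ => ((hc.smul (hF j)).norm.pow 2).intervalIntegrable _ _,
      intervalIntegral.integral_of_le (by linarith)]
    have e1 : ∀ t, ∑ j, ‖(k • F j) t‖ ^ 2 = ‖k t‖ ^ 2 * ∑ j, ‖F j t‖ ^ 2 := fun t => by
      rw [Finset.mul_sum]
      exact Finset.sum_congr rfl fun j _ => by rw [Pi.smul_apply', norm_smul, mul_pow]
    simp only [e1]
    refine setIntegral_le_integral ?_ (Eventually.of_forall fun t => by positivity)
    refine hk2.mul_bdd (c := c ^ 2) (Continuous.aestronglyMeasurable (by fun_prop))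
      (Eventually.of_forall fun t => ?_)
    rw [Real.norm_of_nonneg (by positivity)]
    exact hFc t
  have h2 : ∑ p, ‖B p‖ ^ 2 ≤ s.card * (c * tail k L) ^ 2 := by
    rw [← hsum fun j m => ‖∫ t in {t | L < |t|}, (k t * e m t) • F j t‖ ^ 2, Finset.sum_comm,
      ← nsmul_eq_mul, ← Finset.sum_const]
    refine Finset.sum_le_sum fun m _ => le_trans (Finset.sum_le_sum fun j _ => ?_)
      (four_tail hk hF hc0 hFc L)
    refine pow_le_pow_left₀ (norm_nonneg _) ((norm_integral_le_integral_norm _).trans ?_) 2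
    simp only [hnorm, le_refl]
  rw [hsum fun j m => ‖∫ t, (k t * e m t) • F j t‖ ^ 2]
  simp only [hAB]
  rw [Real.sqrt_mul hε.le]
  refine (mul_le_mul_of_nonneg_left (sqrt_sum_add_le A B) (Real.sqrt_nonneg _)).trans ?_
  rw [mul_add, ← Real.sqrt_mul hε.le, ← Real.sqrt_mul hε.le]
  refine add_le_add (Real.sqrt_le_sqrt h1) ?_
  have h3 : 0 ≤ c * tail k L := mul_nonneg hc0 (tail_nonneg k L)
  rw [mul_assoc, ← Real.sqrt_sq h3, ← Real.sqrt_mul (by positivity), mul_assoc]
  exact Real.sqrt_le_sqrt (mul_le_mul_of_nonneg_left h2 hε.le)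

end

end Crest.Agent.R78
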