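import Crest.Agent.R78.Cpl
import Crest.Agent.R78.Four

/-!
# Row 78: auxiliary lemmas for dephasing
-/

open scoped InnerProductSpace Topology ComplexConjugate
open Filter MeasureTheory

set_option linter.unusedSectionVars false

namespace Crest.Agent.R78

noncomputable section

variable {H : Type*} [NormedAddCommGroup H] [InnerProductSpace ℂ H] [CompleteSpace H]

/-- The modulated kernel. -/
def ksh (k : ℝ → ℂ) (s : ℝ) : ℝ → ℂ := fun t => k t * Complex.exp (-(Complex.I * t * s))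

theorem deph_norm_exp (t s : ℝ) : ‖Complex.exp (-(Complex.I * t * s))‖ = 1 := by
  simp [Complex.norm_exp]

theorem deph_int {k : ℝ → ℂ} (hk : Integrable k) (s : ℝ) : Integrable (ksh k s) :=
  hk.mul_bdd (c := 1) (Continuous.aestronglyMeasurable (by fun_prop))
    (Eventually.of_forall fun t => (deph_norm_exp t s).le)

theorem deph_sig_smul (F : FC H) {k : ℝ → ℂ} (hk : Integrable k) (c : ℂ) (x : Op H) (v : H) :
    F.sig (fun t => c * k t) x v = c • F.sig k x v := by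
  rw [FC.sig, FC.sig, oint_apply (hk.const_mul c) (F.sc_conj x), oint_apply hk (F.sc_conj x),
    ← integral_smul]
  simp only [mul_smul]

variable {ι : Type*} [Fintype ι]

theorem deph_bessel (F : FC H) {k : ℝ → ℂ} (hc : Continuous k) (hk : Integrable k)
    (hk2 : Integrable fun t => ‖k t‖ ^ 2) {a : ι → Op H} (ha : Col a 1) (u : ι → ℝ) {ε δ : ℝ}
    (hε : 0 < ε) (s : Finset ℤ) (hδ : √(ε * s.card) * tail k (Real.pi / ε) ≤ δ) (x : Op H) (v : H) :
    √(ε * ∑ j, ∑ m ∈ s, ‖x (F.sig (ksh k (u j + m * ε)) (a j) v)‖ ^ 2) ≤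
      √(2 * Real.pi * ∫ t, ‖k t‖ ^ 2 * ∑ j, ‖x ((F.V t * a j * F.V (-t)) v)‖ ^ 2) +
        δ * ‖x‖ * ‖v‖ := by
  have h1 := bessel hc hk hk2
    (F := fun j t => Complex.exp (-(Complex.I * t * u j)) • x ((F.V t * a j * F.V (-t)) v))
    (fun j => Continuous.smul (by fun_prop) (x.continuous.comp ((F.sc_conj (a j)).1 v)))
    (c := ‖x‖ * ‖v‖) (by positivity) (fun t => by
      have h2 := mul_le_mul_of_nonneg_left (F.col_conj ha t v) (sq_nonneg ‖x‖)
      rw [one_pow, one_mul, ← mul_pow, Finset.mul_sum] at h2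
      refine le_trans (Finset.sum_le_sum fun j _ => ?_) h2
      rw [norm_smul, deph_norm_exp, one_mul, ← mul_pow]
      exact pow_le_pow_left₀ (norm_nonneg _) (x.le_opNorm _) 2) hε s
  have e : ∀ j (m : ℤ), x (F.sig (ksh k (u j + m * ε)) (a j) v) =
      ∫ t, (k t * Complex.exp (-(Complex.I * t * (m * ε : ℝ)))) •
        Complex.exp (-(Complex.I * t * u j)) • x ((F.V t * a j * F.V (-t)) v) := fun j m => by
    rw [FC.sig, oint_apply (deph_int hk _) (F.sc_conj _),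
      ← x.integral_comp_comm ((F.sc_conj _).integrable (deph_int hk _) v)]
    congr 1
    funext t
    rw [map_smul, smul_smul, ksh, mul_assoc (k t), ← Complex.exp_add]
    congr 3
    push_cast
    ring
  simp only [norm_smul, deph_norm_exp, one_mul] at h1
  simp only [e]
  refine h1.trans (add_le_add_right ?_ _)
  rw [mul_right_comm, mul_assoc δ]
  exact mul_le_mul_of_nonneg_right hδ (by positivity)

theorem deph_col (F : FC H) {k : ℝ → ℂ} (hc : Continuous k) (hk : Integrable k)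
    (hk2 : Integrable fun t => ‖k t‖ ^ 2) {a : ι → Op H} (ha : Col a 1) (u : ι → ℝ) {ε δ P : ℝ}
    (hε : 0 < ε) (s : Finset ℤ) (hδ : √(ε * s.card) * tail k (Real.pi / ε) ≤ δ) (hP0 : 0 ≤ P)
    (hP : 2 * Real.pi * ∫ t, ‖k t‖ ^ 2 ≤ P ^ 2) (v : H) :
    ε * ∑ j, ∑ m ∈ s, ‖F.sig (ksh k (u j + m * ε)) (a j) v‖ ^ 2 ≤ (P + δ) ^ 2 * ‖v‖ ^ 2 := by
  have hδ0 : 0 ≤ δ := le_trans (mul_nonneg (Real.sqrt_nonneg _) (tail_nonneg _ _)) hδ
  have h1 := deph_bessel F hc hk hk2 ha u hε s hδ 1 v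
  simp only [one_apply_eq_self] at h1
  have h2 : ∫ t, ‖k t‖ ^ 2 * ∑ j, ‖(F.V t * a j * F.V (-t)) v‖ ^ 2 ≤ (∫ t, ‖k t‖ ^ 2) * ‖v‖ ^ 2 := by
    rw [← integral_mul_const]
    refine integral_mono_of_nonneg (Eventually.of_forall fun t => by positivity) (hk2.mul_const _)
      (Eventually.of_forall fun t => mul_le_mul_of_nonneg_left ?_ (sq_nonneg _))
    simpa only [one_pow, one_mul] using F.col_conj ha t v
  have h3 : √(2 * Real.pi * ∫ t, ‖k t‖ ^ 2 * ∑ j, ‖(F.V t * a j * F.V (-t)) v‖ ^ 2) ≤ P * ‖v‖ := by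
    refine Real.sqrt_le_iff.2 ⟨by positivity, ?_⟩
    have := Real.pi_pos
    calc _ ≤ 2 * Real.pi * ((∫ t, ‖k t‖ ^ 2) * ‖v‖ ^ 2) := by gcongr
      _ ≤ _ := by
        rw [← mul_assoc, mul_pow]
        gcongr
  have h4 : δ * ‖(1 : Op H)‖ * ‖v‖ ≤ δ * ‖v‖ := by
    rw [mul_assoc]
    exact mul_le_mul_of_nonneg_left (mul_le_of_le_one_left (norm_nonneg _)
      ContinuousLinearMap.norm_id_le) hδ0
  rw [← mul_pow]
  exact (Real.sqrt_le_left (by positivity)).1 (by linarith)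

theorem deph_exp_sq {c₁ w : ℝ} {p : ℝ → ℝ} (hp : Bump c₁ w p) {c : ℝ} (hc : |c| ≤ 1 / 2) :
    ∫ x, (Real.exp (c * x) * p x) ^ 2 ≤ Real.exp (w / 2) ^ 2 := by
  have h1 : Integrable fun x => p x ^ 2 :=
    Continuous.integrable_of_hasCompactSupport (f := fun x => p x ^ 2)
      (hp.smooth.continuous.pow 2) (four_hcs (w := w) fun x hx => by simp [hp.supp x hx])
  rw [← mul_one (Real.exp (w / 2) ^ 2), ← hp.sq, ← integral_const_mul]
  refine integral_mono_of_nonneg (Eventually.of_forall fun x => sq_nonneg _) (h1.const_mul _)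
    (Eventually.of_forall fun x => ?_)
  beta_reduce
  rcases le_or_gt w |x| with h | h
  · simp [hp.supp x h]
  · rw [mul_pow]
    gcongr
    have h2 := le_abs_self (c * x)
    rw [abs_mul] at h2
    nlinarith [abs_nonneg x]

theorem deph_bc_sq {g : ℝ → ℂ} (hg : BC g) (μ : Measure ℝ) [IsFiniteMeasure μ] :
    Integrable (fun x => ‖g x‖ ^ 2) μ := by
  obtain ⟨C, hC⟩ := hg.2
  refine Integrable.of_bound (hg.1.norm.pow 2).aestronglyMeasurable (C ^ 2)
    (Eventually.of_forall fun x => ?_)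
  rw [norm_pow, norm_norm]
  exact pow_le_pow_left₀ (norm_nonneg _) (hC x) 2

theorem deph_mass (F : FC H) (ζ : H) {β : ℝ} (hβ : 0 < β) : ∃ R : ℝ,
    ∀ (s : Finset ℤ) (g : ℤ → ℝ → ℂ) (ε : ℝ), 0 ≤ ε → (∀ m, BC (g m)) →
      (∀ x, |x| ≤ R → 1 - β ≤ ε * ∑ m ∈ s, ‖g m x‖ ^ 2) →
      (1 - 2 * β) * ‖ζ‖ ^ 2 ≤ ε * ∑ m ∈ s, ‖F.fn (g m) ζ‖ ^ 2 := by
  rcases eq_or_ne ζ 0 with rfl | h0
  · exact ⟨0, fun s g ε _ _ _ => by simp⟩
  obtain ⟨R, -, hR⟩ := F.tight ζ (ε := √β * ‖ζ‖) (mul_pos (Real.sqrt_pos.2 hβ) (norm_pos_iff.2 h0))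
  refine ⟨R + 1, fun s g ε hε hg h => ?_⟩
  obtain ⟨μ, _, -, hμ⟩ := F.exists_meas ζ
  have b1 : ∀ x : ℝ, ‖((max 0 (min 1 (|x| - R)) : ℝ) : ℂ)‖ ≤ 1 := fun x => by
    rw [Complex.norm_real, Real.norm_of_nonneg (le_max_left _ _)]
    exact max_le zero_le_one (min_le_left _ _)
  have b2 : BC fun x : ℝ => ((max 0 (min 1 (|x| - R)) : ℝ) : ℂ) := BC.of_le (by fun_prop) b1
  have h1 := hR _ b2 1 b1 fun x hx => by
    rw [max_eq_left ((min_le_right _ _).trans (sub_nonpos.2 hx)), Complex.ofReal_zero]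
  have h2 := pow_le_pow_left₀ (norm_nonneg _) h1 2
  rw [mul_one, mul_pow, Real.sq_sqrt hβ.le, hμ _ b2] at h2
  have h3 := hμ _ (BC.const 1)
  rw [F.fn_one, one_apply_eq_self] at h3
  have h4 : ∫ _, (1 - β) * ‖(1 : ℂ)‖ ^ 2 ∂μ ≤
      ∫ x, (ε * ∑ m ∈ s, ‖g m x‖ ^ 2 + ‖((max 0 (min 1 (|x| - R)) : ℝ) : ℂ)‖ ^ 2) ∂μ := by
    refine integral_mono (integrable_const _) (((integrable_finsetSum s fun m _ =>
      deph_bc_sq (hg m) μ).const_mul ε).add (deph_bc_sq b2 μ)) fun x => ?_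
    beta_reduce
    rw [norm_one, one_pow, mul_one]
    rcases le_total |x| (R + 1) with hx | hx
    · exact (h x hx).trans (le_add_of_nonneg_right (sq_nonneg _))
    · rw [min_eq_left (by linarith), max_eq_right zero_le_one, Complex.ofReal_one, norm_one]
      have : 0 ≤ ε * ∑ m ∈ s, ‖g m x‖ ^ 2 := by positivity
      linarith
  rw [integral_const_mul, ← h3, integral_add ((integrable_finsetSum s fun m _ =>
    deph_bc_sq (hg m) μ).const_mul ε) (deph_bc_sq b2 μ), integral_const_mul,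
    integral_finsetSum s fun m _ => deph_bc_sq (hg m) μ] at h4
  simp only [← hμ _ (hg _)] at h4
  linarith

theorem deph_eps {k : ℝ → ℂ} (hk : Integrable k) (M : ℝ) {δ : ℝ} (hδ : 0 < δ) :
    ∀ᶠ ε in 𝓝[>] (0 : ℝ), M * tail k (Real.pi / ε) ≤ δ := by
  have h1 : Tendsto (fun ε : ℝ => Real.pi / ε) (𝓝[>] 0) atTop :=
    tendsto_inv_nhdsGT_zero.const_mul_atTop Real.pi_pos
  have h2 := ((tendsto_tail hk).comp h1).const_mul M
  rw [mul_zero] at h2
  exact h2.eventually (ge_mem_nhds hδ)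

theorem deph_norm (ν : ℝ) {ε : ℝ} (hε : 0 ≤ ε) (v : H) :
    ‖((ν * √ε : ℝ) : ℂ) • v‖ ^ 2 = ν ^ 2 * ε * ‖v‖ ^ 2 := by
  rw [norm_smul, mul_pow, Complex.norm_real, Real.norm_eq_abs, sq_abs, mul_pow, Real.sq_sqrt hε]

theorem deph_sum (s : Finset ℤ) (f : ι → ℤ → ℝ) :
    ∑ i : ι × s, f i.1 i.2 = ∑ j, ∑ m ∈ s, f j m := by
  rw [Fintype.sum_prod_type]
  exact Finset.sum_congr rfl fun j _ => Finset.sum_coe_sort s (f j)

end

end Crest.Agent.R78
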