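import Crest.Agent.R78.Cpl
import Crest.Agent.R78.Four

/-!
# Row 78: smoothing an arbitrary coupling into a soft class
-/

open scoped InnerProductSpace Topology ComplexConjugate ContDiff
open Filter MeasureTheory

set_option linter.unusedSectionVars false

namespace Crest.Agent.R78

open Crest.Agent.R121 (Alg)

noncomputable section

universe u

variable {H : Type*} [NormedAddCommGroup H] [InnerProductSpace ℂ H] [CompleteSpace H]

variable {A B : VN H} {ξ : H}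

theorem dephB_norm (C : ℝ) (a : Op H) (v : H) :
    ‖(((C⁻¹ : ℝ) : ℂ) • a) v‖ ^ 2 = C⁻¹ ^ 2 * ‖a v‖ ^ 2 := by
  rw [smul_apply, norm_smul, mul_pow, Complex.norm_real, Real.norm_eq_abs, sq_abs]

theorem dephB_col (F : FC H) {ι : Type*} [Fintype ι] {k : ℝ → ℂ} (hk : Integrable k)
    {a : ι → Op H} (h : Col a 1) (v : H) :
    ∑ j, ‖F.sig k (a j) v‖ ^ 2 ≤ (∫ t, ‖k t‖) ^ 2 * ‖v‖ ^ 2 := by
  have := F.col_sig (k := fun _ : ι => k) (κ := fun t => ‖k t‖) (fun _ => hk) hk.norm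
    (fun _ _ => le_rfl) zero_le_one h v
  simpa using this

theorem dephB_col_one (F : FC H) {ι : Type*} [Fintype ι] {k : ℝ → ℂ} (hk : Integrable k) {C : ℝ}
    (hC : 0 < C) (hkC : ∫ t, ‖k t‖ ≤ C) {a : ι → Op H} (h : Col a 1) :
    Col (fun j => ((C⁻¹ : ℝ) : ℂ) • F.sig k (a j)) 1 := fun v => by
  simp only [dephB_norm, ← Finset.mul_sum]
  have h0 : 0 ≤ ∫ t, ‖k t‖ := integral_nonneg fun _ => norm_nonneg _
  calc C⁻¹ ^ 2 * ∑ j, ‖F.sig k (a j) v‖ ^ 2 ≤ C⁻¹ ^ 2 * (C ^ 2 * ‖v‖ ^ 2) := by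
        refine mul_le_mul_of_nonneg_left ((dephB_col F hk h v).trans ?_) (sq_nonneg _)
        gcongr
    _ = 1 ^ 2 * ‖v‖ ^ 2 := by field_simp

/-- The smoothed coupling. -/
def Tom.smooth (T : Tom A B ξ) (c : Cpl A B ξ) {k f : ℝ → ℂ} (hk : Ker k f) {C : ℝ} (hC : 0 < C)
    (hkC : ∫ t, ‖k t‖ ≤ C) : Cpl A B ξ where
  ι := c.ι
  a j := ((C⁻¹ : ℝ) : ℂ) • T.sig k (c.a j)
  a' j := ((C⁻¹ : ℝ) : ℂ) • T.sig k (c.a' j)
  mem j := smul_mem' _ (T.sig_memA hk.int (c.mem j))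
  mem' j := smul_mem' _ (T.sig_memB hk.int (c.mem' j))
  eq j := by rw [smul_apply, smul_apply, T.sig_ξ hk, T.sig_ξ hk, c.eq]
  col := dephB_col_one T.toFC hk.int hC hkC c.col
  col' := dephB_col_one T.toFC hk.int hC hkC c.col'

theorem dephB_row (T : Tom A B ξ) {ι : Type*} [Fintype ι] {k : ℝ → ℂ} (hk : Integrable k) {C : ℝ}
    (hC : 1 ≤ C) {a b : ι → Op H} (h : Col b 1) (he : ∀ j, star (a j) = jc T.J (T.sig k (b j)))
    {Λ : ℝ} (hΛ : (∫ t, ‖k t‖) ^ 2 ≤ Λ) (v : H) :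
    ∑ j, ‖star (((C⁻¹ : ℝ) : ℂ) • a j) v‖ ^ 2 ≤ Real.exp Λ * ‖v‖ ^ 2 := by
  have hC0 : 0 < C := one_pos.trans_le hC
  simp only [star_smul, Complex.star_def, Complex.conj_ofReal, dephB_norm, he, jc_apply,
    LinearIsometryEquiv.norm_map, ← Finset.mul_sum]
  have h1 := dephB_col T.toFC hk h (T.J v)
  rw [LinearIsometryEquiv.norm_map] at h1
  have h2 : C⁻¹ ^ 2 ≤ 1 := pow_le_one₀ (inv_nonneg.2 hC0.le) (inv_le_one_of_one_le₀ hC)
  have h3 : Λ ≤ Real.exp Λ := by linarith [Real.add_one_le_exp Λ]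
  calc _ ≤ 1 * ((∫ t, ‖k t‖) ^ 2 * ‖v‖ ^ 2) :=
        mul_le_mul h2 h1 (Finset.sum_nonneg fun _ _ => sq_nonneg _) zero_le_one
    _ ≤ _ := by
        rw [one_mul]
        exact mul_le_mul_of_nonneg_right (hΛ.trans h3) (sq_nonneg _)

theorem Tom.smooth_soft (T : Tom A B ξ) (c : Cpl A B ξ) {k : ℝ → ℂ} {f : ℝ → ℝ}
    (hf : ContDiff ℝ ∞ f) (hs : HasCompactSupport f) (hk : Ker k fun x => (f x : ℂ)) {C : ℝ}
    (hC : 1 ≤ C) (hkC : ∫ t, ‖k t‖ ≤ C) :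
    ∃ Λ, (T.smooth c hk (one_pos.trans_le hC) hkC).Soft Λ := by
  obtain ⟨k₁, h₁, -⟩ := exists_ker_exp hf hs (1 / 2)
  obtain ⟨k₂, h₂, -⟩ := exists_ker_exp hf hs (-1 / 2)
  have e₁ : (fun x : ℝ => (Real.exp (1 / 2 * x) : ℂ) * f x) =
      fun x : ℝ => (Real.exp (x / 2) : ℂ) * (f x : ℂ) := by
    funext x
    rw [show 1 / 2 * x = x / 2 by ring]
  have e₂ : (fun x : ℝ => (Real.exp (-1 / 2 * x) : ℂ) * f x) =
      fun x : ℝ => (Real.exp (-x / 2) : ℂ) * (f x : ℂ) := by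
    funext x
    rw [show -1 / 2 * x = -x / 2 by ring]
  rw [e₁] at h₁
  rw [e₂] at h₂
  refine ⟨(∫ t, ‖k₁ t‖) ^ 2 + (∫ t, ‖k₂ t‖) ^ 2, fun _ => 0, fun v => ?_, fun v => ?_⟩
  · simp only [neg_zero, Real.exp_zero, one_mul]
    exact dephB_row T h₁.int hC c.col'
      (fun j => T.star_sig_eq hk h₁ (c.mem j) (c.mem' j) (c.eq j))
      (le_add_of_nonneg_right (sq_nonneg _)) v
  · simp only [Real.exp_zero, one_mul]
    exact dephB_row T h₂.int hC c.col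
      (fun j => T.star_sig_eq' hk h₂ (c.mem j) (c.mem' j) (c.eq j))
      (le_add_of_nonneg_left (sq_nonneg _)) v

theorem Tom.smooth_en (T : Tom A B ξ) (c : Cpl A B ξ) {k f : ℝ → ℂ} (hk : Ker k f) {C : ℝ}
    (hC : 0 < C) (hkC : ∫ t, ‖k t‖ ≤ C) (W : Op H) :
    (T.smooth c hk hC hkC).en W 1 = C⁻¹ ^ 2 * ∑ j, ‖(W - 1) (T.fn f (c.a j ξ))‖ ^ 2 := by
  rw [Finset.mul_sum]
  refine Finset.sum_congr rfl fun j _ => ?_
  change ‖(W - 1) ((((C⁻¹ : ℝ) : ℂ) • T.sig k (c.a j)) ξ)‖ ^ 2 = _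
  rw [smul_apply, T.sig_ξ hk, map_smul, norm_smul, mul_pow, Complex.norm_real, Real.norm_eq_abs,
    sq_abs]

theorem all_small' : ∃ C₁ > 0, ∀ {H : Type u} [NormedAddCommGroup H] [InnerProductSpace ℂ H]
    [CompleteSpace H] {A B : VN H} {ξ : H} {γ : ℝ} (S : Tw A B ξ γ) {ε : ℝ}, 0 ≤ ε →
    (∀ Λ, S.Glob Λ ε) → ∀ c : Cpl A B ξ, c.en S.W 1 ≤ C₁ * ε * ‖ξ‖ ^ 2 := by
  obtain ⟨f, hf, hs, -, hf01, hf1⟩ := exists_cutoff
  obtain ⟨k, hk, -⟩ := exists_ker (f := fun x => (f x : ℂ)) (Complex.ofRealCLM.contDiff.comp hf)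
    (hs.comp_left (g := fun y : ℝ => (y : ℂ)) Complex.ofReal_zero)
  set C : ℝ := max 1 (∫ t, ‖k t‖) with hCdef
  have hC : 1 ≤ C := le_max_left _ _
  have hC0 : 0 < C := one_pos.trans_le hC
  refine ⟨C ^ 2, by positivity, ?_⟩
  intro H _ _ _ A B ξ γ S ε _ hG c
  have key : ∀ n : ℕ, ∑ j, ‖((S.W : Op H) - 1)
      (S.fn (fun x => (f (x / (n + 1 : ℝ)) : ℂ)) (c.a j ξ))‖ ^ 2 ≤ C ^ 2 * ε * ‖ξ‖ ^ 2 := by
    intro n
    have hR : (0 : ℝ) < n + 1 := by positivity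
    have hkR := hk.scale hR
    have hkC : ∫ t, ‖((n + 1 : ℝ) : ℂ) * k ((n + 1 : ℝ) * t)‖ ≤ C := by
      rw [Ker.integral_norm_scale k hR]
      exact le_max_right _ _
    have hfR : ContDiff ℝ ∞ fun x => f (x / (n + 1 : ℝ)) := hf.comp (contDiff_id.div_const _)
    have hsR : HasCompactSupport fun x => f (x / (n + 1 : ℝ)) :=
      hs.comp_homeomorph (Homeomorph.mulRight₀ (n + 1 : ℝ)⁻¹ (inv_ne_zero hR.ne'))
    obtain ⟨Λ, hΛ⟩ := S.toTom.smooth_soft c hfR hsR hkR hC hkC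
    have h1 := hG Λ _ hΛ
    rw [S.toTom.smooth_en] at h1
    have h2 := mul_le_mul_of_nonneg_left h1 (sq_nonneg C)
    rw [← mul_assoc, ← mul_pow, mul_inv_cancel₀ hC0.ne', one_pow, one_mul, ← mul_assoc] at h2
    exact h2
  have hlim : Tendsto (fun n : ℕ => ∑ j, ‖((S.W : Op H) - 1)
      (S.fn (fun x => (f (x / (n + 1 : ℝ)) : ℂ)) (c.a j ξ))‖ ^ 2) atTop (𝓝 (c.en S.W 1)) := by
    refine tendsto_finsetSum _ fun j _ => ?_
    have h1 := S.toFC.tendsto_fn (l := atTop) (g := fun (n : ℕ) x => (f (x / (n + 1 : ℝ)) : ℂ))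
      (f := fun _ => 1) (C := 1) (fun n => (hk.scale (by positivity)).bc) (BC.const 1)
      (fun n x => by
        rw [Complex.norm_real, Real.norm_eq_abs, abs_of_nonneg (hf01 _).1]
        exact (hf01 _).2)
      (fun x => by
        refine tendsto_const_nhds.congr' ?_
        filter_upwards [eventually_ge_atTop ⌈|x|⌉₊] with n hn
        have hR : (0 : ℝ) < n + 1 := by positivity
        rw [hf1, Complex.ofReal_one]
        rw [abs_div, abs_of_pos hR, div_le_one hR]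
        have : |x| ≤ n := (Nat.le_ceil _).trans (Nat.cast_le.2 hn)
        linarith) (c.a j ξ)
    rw [S.fn_one] at h1
    exact (((((S.W : Op H) - 1).continuous.tendsto _).comp h1).norm).pow 2
  exact le_of_tendsto' hlim key

end

end Crest.Agent.R78
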