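import Crest.Agent.R78.Cpl
import Crest.Agent.R78.Four
import Crest.Agent.R78.DephAux
import Crest.Agent.R78.DephB

/-!
# Row 78: dephasing
-/

open scoped InnerProductSpace Topology ComplexConjugate
open Filter MeasureTheory

set_option linter.unusedSectionVars false

namespace Crest.Agent.R78

open Crest.Agent.R121 (Alg)

noncomputable section

universe u

variable {H : Type*} [NormedAddCommGroup H] [InnerProductSpace ℂ H] [CompleteSpace H]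

variable {A B : VN H} {ξ : H}

/-- Dephasing. The family is `a_{j,m} = ν √ε sig (k e^{-it(u_j + mε)}) (a_j)`, `|m| ≤ K`, primed
likewise. Recipe: first choose the range `K₁ ≥ K₀` by `tight` (finitely many vectors `a_j ξ`,
shifted by `u_j`), `K = ⌈K₁/ε⌉`, so `ε (2K+1) ≤ 2 K₁ + 3` stays bounded as `ε → 0`.
Columns: `bessel` with `F_j t = e^{-i t u_j} V_t a_j V_{-t} v` gives norm `≤ 1 + o(1)`; `ν` is
the inverse. Rows: `e^{s/2} e^{(x-s)/2} p(x - s) = e^{x/2} p (x - s)`, so `star_sig_eq` gives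
`e^{-s/2} a_{j,m}⋆ = ν √ε J sig (k₊ e^{-its}) (a'_j) J` (`k₊` from `exists_ker_exp`), and `bessel`
bounds the column by `√(∫ e^x p²) + o(1) ≤ e^{w/2} + o(1)`. Mass: `riemann` for `p²`,
`sum_norm_sq_le` or spectral measures. The last clause is `bessel` with
`F_j t = e^{-i t u_j} x V_t a_j V_{-t} v`. -/
theorem Tom.deph (T : Tom A B ξ) (c : Cpl A B ξ) (u : c.ι → ℝ) {c₁ w : ℝ} (hw : 0 < w)
    {p : ℝ → ℝ} (hp : Bump c₁ w p) {k : ℝ → ℂ} (hk : Ker k fun x => (p x : ℂ))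
    (hk2 : Integrable fun t => ‖k t‖ ^ 2) (hP : 2 * Real.pi * ∫ t, ‖k t‖ ^ 2 = 1)
    (K₀ : ℝ) {ε₀ τ : ℝ} (hε₀ : 0 < ε₀) (hτ : 0 < τ) :
    ∃ (ε ν : ℝ) (K : ℕ) (d : Cpl A B ξ) (e : d.ι ≃ c.ι × Finset.Icc (-(K : ℤ)) K),
      0 < ε ∧ ε ≤ ε₀ ∧ 1 / 2 ≤ ν ∧ ν ≤ 1 ∧ K₀ ≤ K * ε ∧
      (∀ i, d.a i ξ = ((ν * √ε : ℝ) : ℂ) •
        T.fn (fun x => (p (x - u (e i).1 - ((e i).2 : ℤ) * ε) : ℂ)) (c.a (e i).1 ξ)) ∧
      d.SoftAt Finset.univ (fun i => u (e i).1 + ((e i).2 : ℤ) * ε) (w + 1) ∧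
      c.mass - τ * ‖ξ‖ ^ 2 ≤ d.mass ∧
      ∀ (x : Op H) (v : H), √(∑ i, ‖x (d.a i v)‖ ^ 2) ≤
        √(2 * Real.pi * ∫ t, ‖k t‖ ^ 2 * ∑ j, ‖x ((T.V t * c.a j * T.V (-t)) v)‖ ^ 2) +
          τ * ‖x‖ * ‖v‖ := by
  obtain ⟨kp, hp1, hp2, hp3⟩ := exists_ker_exp hp.smooth hp.hasCompactSupport (1 / 2)
  obtain ⟨km, hm1, hm2, hm3⟩ := exists_ker_exp hp.smooth hp.hasCompactSupport (-(1 / 2))
  have hp4 := hp3.trans_le (deph_exp_sq hp (by rw [abs_of_pos (by norm_num)]))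
  have hm4 := hm3.trans_le (deph_exp_sq hp (by rw [abs_neg, abs_of_pos (by norm_num)]))
  obtain ⟨δ, hδ, hδ1, hδ2⟩ : ∃ δ : ℝ, 0 < δ ∧ δ ≤ 1 / 4 ∧ δ ≤ τ / 4 :=
    ⟨min (1 / 4) (τ / 4), by positivity, min_le_left _ _, min_le_right _ _⟩
  choose R hR using fun j => deph_mass T.toFC (c.a j ξ) hδ
  obtain ⟨K₁, hK₁⟩ := (Set.finite_range fun j => R j + |u j| + w).bddAbove
  obtain ⟨K₂, h20, h21, h22⟩ : ∃ K₂ : ℝ, 0 ≤ K₂ ∧ K₀ ≤ K₂ ∧ ∀ j, R j + |u j| + w ≤ K₂ :=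
    ⟨max 0 (max K₀ K₁), le_max_left _ _, (le_max_left _ _).trans (le_max_right _ _), fun j =>
      (hK₁ ⟨j, rfl⟩).trans ((le_max_right _ _).trans (le_max_right _ _))⟩
  obtain ⟨ε₁, hε₁, hrie⟩ := riemann (g := fun x => p x ^ 2) (hp.smooth.continuous.pow 2) hw
    (fun x hx => by simp [hp.supp x hx]) hδ
  obtain ⟨ε, ⟨⟨t0, t1⟩, t2⟩, hε, hε'⟩ := ((((deph_eps hk.int (√(2 * K₂ + 3)) hδ).and
    (deph_eps hp1.int (√(2 * K₂ + 3)) hδ)).and (deph_eps hm1.int (√(2 * K₂ + 3)) hδ)).and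
    (Ioc_mem_nhdsGT (show (0 : ℝ) < min 1 (min ε₀ ε₁) by positivity))).exists
  simp only [le_min_iff] at hε'
  obtain ⟨e1, e2, e3⟩ := hε'
  obtain ⟨K, hK1, hK2⟩ : ∃ K : ℕ, K₂ ≤ K * ε ∧ K * ε ≤ K₂ + 1 := by
    refine ⟨⌈K₂ / ε⌉₊, (div_le_iff₀ hε).1 (Nat.le_ceil _), ?_⟩
    have h1 := mul_le_mul_of_nonneg_right (Nat.ceil_lt_add_one (div_nonneg h20 hε.le)).le hε.le
    rw [add_mul, div_mul_cancel₀ _ hε.ne'] at h1
    linarith
  set s := Finset.Icc (-(K : ℤ)) K with hs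
  have hcard : √(ε * s.card) ≤ √(2 * K₂ + 3) := by
    refine Real.sqrt_le_sqrt ?_
    have h1 : (s.card : ℝ) = 2 * K + 1 := by
      rw [hs, Int.card_Icc, show (K : ℤ) + 1 - -(K : ℤ) = ((2 * K + 1 : ℕ) : ℤ) by push_cast; ring,
        Int.toNat_natCast]
      push_cast
      rfl
    rw [h1]
    linarith
  replace t0 := (mul_le_mul_of_nonneg_right hcard (tail_nonneg _ _)).trans t0
  replace t1 := (mul_le_mul_of_nonneg_right hcard (tail_nonneg _ _)).trans t1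
  replace t2 := (mul_le_mul_of_nonneg_right hcard (tail_nonneg _ _)).trans t2
  obtain ⟨ν, hν0, hν⟩ : ∃ ν : ℝ, 0 < ν ∧ ν * (1 + δ) = 1 :=
    ⟨(1 + δ)⁻¹, by positivity, inv_mul_cancel₀ (by positivity)⟩
  have hν1 : ν ≤ 1 := by nlinarith
  have hν2 : 1 - δ ≤ ν := by nlinarith
  have hνs : ν ^ 2 ≤ 1 := pow_le_one₀ hν0.le hν1
  have hcol : ∀ {a : c.ι → Op H}, Col a 1 → Col (fun i : c.ι × s =>
      ((ν * √ε : ℝ) : ℂ) • T.sig (ksh k (u i.1 + (i.2 : ℤ) * ε)) (a i.1)) 1 := fun {a} ha v => by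
    have h1 := mul_le_mul_of_nonneg_left (deph_col T.toFC hk.cont hk.int hk2 ha u hε s t0
      zero_le_one (hP.trans (one_pow 2).symm).le v) (sq_nonneg ν)
    rw [← mul_assoc, ← mul_assoc, ← mul_pow, hν] at h1
    simp only [smul_apply, deph_norm ν hε.le, ← Finset.mul_sum]
    rwa [deph_sum s fun j m => ‖T.sig (ksh k (u j + m * ε)) (a j) v‖ ^ 2]
  have hrow : ∀ {κ : ℝ → ℂ} {a : c.ι → Op H} {b : c.ι × s → Op H} {r : c.ι × s → ℝ},
      Continuous κ → Integrable κ → Integrable (fun t => ‖κ t‖ ^ 2) →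
      √(ε * s.card) * tail κ (Real.pi / ε) ≤ δ →
      2 * Real.pi * ∫ t, ‖κ t‖ ^ 2 ≤ Real.exp (w / 2) ^ 2 → Col a 1 →
      (∀ i, star (b i) = jc T.J (T.sig (fun t => (Real.exp (r i / 2) : ℂ) *
        ksh κ (u i.1 + (i.2 : ℤ) * ε) t) (a i.1))) → ∀ v,
      ∑ i, Real.exp (-r i) * ‖star (((ν * √ε : ℝ) : ℂ) • b i) v‖ ^ 2 ≤
        Real.exp (w + 1) * ‖v‖ ^ 2 := by
    intro κ a b r h1 h2 h3 h4 h5 ha hb v
    have h6 := deph_col T.toFC h1 h2 h3 ha u hε s h4 (Real.exp_pos _).le h5 (T.J v)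
    have h7 : ∀ i, Real.exp (-r i) * ‖star (((ν * √ε : ℝ) : ℂ) • b i) v‖ ^ 2 =
        ν ^ 2 * (ε * ‖T.sig (ksh κ (u i.1 + (i.2 : ℤ) * ε)) (a i.1) (T.J v)‖ ^ 2) := fun i => by
      have h8 : Real.exp (-r i) * Real.exp (r i / 2) ^ 2 = 1 := by
        rw [sq, ← Real.exp_add, ← Real.exp_add, add_halves, neg_add_cancel, Real.exp_zero]
      rw [star_smul, Complex.star_def, Complex.conj_ofReal, smul_apply, deph_norm ν hε.le, hb,
        jc_apply, T.J.norm_map, deph_sig_smul _ (deph_int h2 _), norm_smul, Complex.norm_real,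
        Real.norm_eq_abs, mul_pow, sq_abs]
      linear_combination (ν ^ 2 * (ε *
        ‖T.sig (ksh κ (u i.1 + (i.2 : ℤ) * ε)) (a i.1) (T.J v)‖ ^ 2)) * h8
    simp only [h7, ← Finset.mul_sum]
    rw [deph_sum s fun j m => ‖T.sig (ksh κ (u j + m * ε)) (a j) (T.J v)‖ ^ 2]
    rw [T.J.norm_map] at h6
    refine (mul_le_of_le_one_left (by positivity) hνs).trans (h6.trans ?_)
    refine mul_le_mul_of_nonneg_right ?_ (sq_nonneg _)
    have h8 : Real.exp (w + 1) = (Real.exp (w / 2) * Real.exp (1 / 2)) ^ 2 := by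
      rw [sq, ← Real.exp_add, ← Real.exp_add]
      congr 1
      ring
    have h9 := Real.add_one_le_exp (1 / 2)
    have h10 := Real.one_le_exp (half_pos hw).le
    rw [h8]
    exact pow_le_pow_left₀ (by positivity) (by nlinarith) 2
  have hξ : ∀ (a : Op H) (j : c.ι) (m : ℤ), T.sig (ksh k (u j + m * ε)) a ξ =
      T.fn (fun x => (p (x - u j - m * ε) : ℂ)) (a ξ) := fun a j m => by
    simp only [sub_sub]
    exact T.sig_ξ (hk.shift _) a
  have kerp : ∀ r : ℝ, Ker (fun t => (Real.exp (r / 2) : ℂ) * ksh kp r t)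
      fun x => (Real.exp (x / 2) : ℂ) * (p (x - r) : ℂ) := fun r => by
    have e : (fun x => (Real.exp (x / 2) : ℂ) * (p (x - r) : ℂ)) = fun x => (Real.exp (r / 2) : ℂ) *
        ((Real.exp (1 / 2 * (x - r)) : ℂ) * (p (x - r) : ℂ)) := by
      funext x
      rw [← mul_assoc, ← Complex.ofReal_mul (Real.exp _) (Real.exp _), ← Real.exp_add]
      congr 3
      ring
    rw [e]
    exact (hp1.shift r).smul _
  have kerm : ∀ r : ℝ, Ker (fun t => (Real.exp (-r / 2) : ℂ) * ksh km r t)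
      fun x => (Real.exp (-x / 2) : ℂ) * (p (x - r) : ℂ) := fun r => by
    have e : (fun x => (Real.exp (-x / 2) : ℂ) * (p (x - r) : ℂ)) = fun x =>
        (Real.exp (-r / 2) : ℂ) * ((Real.exp (-(1 / 2) * (x - r)) : ℂ) * (p (x - r) : ℂ)) := by
      funext x
      rw [← mul_assoc, ← Complex.ofReal_mul (Real.exp _) (Real.exp _), ← Real.exp_add]
      congr 3
      ring
    rw [e]
    exact (hm1.shift r).smul _
  refine ⟨ε, ν, K,
    { ι := c.ι × s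
      a := fun i => ((ν * √ε : ℝ) : ℂ) • T.sig (ksh k (u i.1 + (i.2 : ℤ) * ε)) (c.a i.1)
      a' := fun i => ((ν * √ε : ℝ) : ℂ) • T.sig (ksh k (u i.1 + (i.2 : ℤ) * ε)) (c.a' i.1)
      mem := fun i => smul_mem' _ (T.sig_memA (deph_int hk.int _) (c.mem _))
      mem' := fun i => smul_mem' _ (T.sig_memB (deph_int hk.int _) (c.mem' _))
      eq := fun i => by rw [smul_apply, smul_apply, hξ, hξ, c.eq]
      col := hcol c.col
      col' := hcol c.col' }, Equiv.refl _, hε, e2, by linarith, hν1, h21.trans hK1,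
    fun i => ?_, ⟨?_, fun v => ?_⟩, ?_, fun x v => ?_⟩
  · exact congrArg (((ν * √ε : ℝ) : ℂ) • ·) (hξ _ _ _)
  · exact hrow (r := fun i => u i.1 + (i.2 : ℤ) * ε) hp1.cont hp1.int hp2 t1 hp4 c.col' fun i =>
      T.star_sig_eq (hk.shift _) (kerp _) (c.mem _) (c.mem' _) (c.eq _)
  · have h1 := hrow (b := fun i => T.sig (ksh k (u i.1 + (i.2 : ℤ) * ε)) (c.a' i.1))
      (r := fun i => -(u i.1 + (i.2 : ℤ) * ε)) hm1.cont hm1.int hm2 t2 hm4 c.col (fun i =>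
        T.star_sig_eq' (hk.shift _) (kerm _) (c.mem _) (c.mem' _) (c.eq _)) v
    simp only [neg_neg] at h1
    exact h1
  · change _ ≤ ∑ i : c.ι × s,
      ‖(((ν * √ε : ℝ) : ℂ) • T.sig (ksh k (u i.1 + (i.2 : ℤ) * ε)) (c.a i.1)) ξ‖ ^ 2
    simp only [smul_apply, deph_norm ν hε.le, ← Finset.mul_sum, hξ]
    rw [deph_sum s fun j m => ‖T.fn (fun x => (p (x - u j - m * ε) : ℂ)) (c.a j ξ)‖ ^ 2, mul_assoc,
      Finset.mul_sum]
    have h1 : (1 - 2 * δ) * c.mass ≤ ∑ j, ε * ∑ m ∈ s,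
        ‖T.fn (fun x => (p (x - u j - m * ε) : ℂ)) (c.a j ξ)‖ ^ 2 := by
      rw [Cpl.mass, Finset.mul_sum]
      refine Finset.sum_le_sum fun j _ => hR j s _ ε hε.le
        (fun m => (hk.bc.comp_sub (m * ε)).comp_sub (u j)) fun x hx => ?_
      have h2 := abs_le.1 ((hrie ε hε e3 s (x - u j)).1 fun m hm => by
        have h3 : |(m : ℝ)| * ε ≤ K * ε := by
          have h4 : |(m : ℝ) * ε| ≤ |x - u j| + |x - u j - m * ε| := by
            have := abs_sub (x - u j) (x - u j - m * ε)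
            rwa [sub_sub_cancel] at this
          rw [abs_mul, abs_of_pos hε] at h4
          linarith [abs_sub x (u j), h22 j]
        have h5 : |m| ≤ (K : ℤ) := by exact_mod_cast le_of_mul_le_mul_right h3 hε
        exact Finset.mem_Icc.2 (abs_le.1 h5))
      simp only [Complex.norm_real, Real.norm_eq_abs, sq_abs]
      linarith [h2.1, hp.sq]
    have h2 := c.mass_nonneg
    have h3 := c.mass_le
    have h4 : 1 - τ ≤ ν ^ 2 * (1 - 2 * δ) := by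
      have h5 : 1 - 2 * δ ≤ ν ^ 2 := by nlinarith
      nlinarith
    nlinarith [mul_le_mul_of_nonneg_left h1 (sq_nonneg ν), mul_le_mul_of_nonneg_right h4 h2,
      mul_le_mul_of_nonneg_left h3 hτ.le]
  · change √(∑ i : c.ι × s,
      ‖x ((((ν * √ε : ℝ) : ℂ) • T.sig (ksh k (u i.1 + (i.2 : ℤ) * ε)) (c.a i.1)) v)‖ ^ 2) ≤ _
    simp only [smul_apply, map_smul, deph_norm ν hε.le, ← Finset.mul_sum]
    rw [deph_sum s fun j m => ‖x (T.sig (ksh k (u j + m * ε)) (c.a j) v)‖ ^ 2, mul_assoc]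
    exact (Real.sqrt_le_sqrt (mul_le_of_le_one_left (by positivity) hνs)).trans
      (deph_bessel T.toFC hk.cont hk.int hk2 c.col u hε s (t0.trans (by linarith)) x v)

/-- Smoothing an arbitrary coupling into a soft class. Recipe: `f` from `exists_cutoff`, kernel `k`,
`C₁ = max 1 (∫ ‖k‖)`; `b_j = C₁⁻¹ sig k_R (a_j)` (`Ker.scale`), columns by `col_sig`, rows by
`star_sig_eq`, `star_sig_eq'` with centres `0`; `fn f_R ζ → ζ`. -/
theorem all_small : ∃ C₁ > 0, ∀ {H : Type u} [NormedAddCommGroup H] [InnerProductSpace ℂ H]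
    [CompleteSpace H] {A B : VN H} {ξ : H} {γ : ℝ} (S : Tw A B ξ γ) {ε : ℝ}, 0 ≤ ε →
    (∀ Λ, S.Glob Λ ε) → ∀ c : Cpl A B ξ, c.en S.W 1 ≤ C₁ * ε * ‖ξ‖ ^ 2 :=
  all_small'

end

end Crest.Agent.R78
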