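import Crest.Agent.R78.Cpl
import Crest.Agent.R78.Sak
import Crest.Agent.R78.Gen
import Crest.Agent.R78.Proj

/-!
# Row 78: duality: from couplings to a pair of projections
-/

open scoped InnerProductSpace Topology ComplexConjugate
open Filter MeasureTheory

set_option linter.unusedSectionVars false

namespace Crest.Agent.R78

open Crest.Agent.R121 (Alg)

noncomputable section

universe u

variable {H : Type*} [NormedAddCommGroup H] [InnerProductSpace ℂ H] [CompleteSpace H]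

variable {A B : VN H} {ξ : H}

theorem dual_re_rsmul (r : ℝ) (n : Op H) (v w : H) :
    (⟪v, (r • n) w⟫_ℂ).re = r * (⟪v, n w⟫_ℂ).re := by
  rw [← Complex.coe_smul, smul_apply, inner_smul_right, Complex.re_ofReal_mul]

theorem dual_re_add (n n' : Op H) (v w : H) :
    (⟪v, (n + n') w⟫_ℂ).re = (⟪v, n w⟫_ℂ).re + (⟪v, n' w⟫_ℂ).re := by
  rw [add_apply, inner_add_right, Complex.add_re]

theorem dual_wdom (P : VN H) (ξ : H) {ι : Type} [Fintype ι] (v : ι → H) {c D : ℝ} (hc : 0 < c)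
    (h : ∀ n ∈ P, 0 ≤ n → ‖n‖ ≤ 2000 → (⟪ξ, n ξ⟫_ℂ).re ≤ c →
      ∑ i, (⟪v i, n (v i)⟫_ℂ).re ≤ D) : WDom P ξ v (D / c) (D / 2000) := by
  intro x hx hx1
  obtain ⟨m, hm⟩ : ∃ m : ℝ, m = ‖x ξ‖ ^ 2 / c + 1 / 2000 := ⟨_, rfl⟩
  have h0 : 0 ≤ ‖x ξ‖ ^ 2 / c := by positivity
  have hm0 : 0 < m := by rw [hm]; positivity
  have h1 := h (m⁻¹ • (star x * x)) (rsmul_mem _ (mul_mem (star_mem hx) hx))
    (smul_nonneg (inv_pos.2 hm0).le (star_mul_self_nonneg x)) (by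
      rw [norm_smul, Real.norm_of_nonneg (inv_pos.2 hm0).le, CStarRing.norm_star_mul_self,
        inv_mul_le_iff₀ hm0]
      have := mul_le_one₀ hx1 (norm_nonneg x) hx1
      linarith) (by
      rw [dual_re_rsmul, sak_inner, sak_re_self, inv_mul_le_iff₀ hm0, hm, add_mul,
        div_mul_cancel₀ _ hc.ne']
      linarith)
  simp only [dual_re_rsmul, sak_inner, sak_re_self] at h1
  rw [← Finset.mul_sum, inv_mul_le_iff₀ hm0, hm] at h1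
  calc _ ≤ _ := h1
    _ = _ := by ring

theorem dual_W_sq (W : unitary (Op H)) (w : H) : ‖((W : Op H) - 1) w‖ ^ 2 ≤ 4 * ‖w‖ ^ 2 := by
  have h1 : ‖(W : Op H) w‖ = ‖w‖ := ContinuousLinearMap.norm_map_of_mem_unitary W.2 w
  have h2 : ‖((W : Op H) - 1) w‖ ≤ 2 * ‖w‖ := by
    rw [sub_apply, one_apply_eq_self]
    linarith [norm_sub_le ((W : Op H) w) w]
  calc _ ≤ (2 * ‖w‖) ^ 2 := pow_le_pow_left₀ (norm_nonneg _) h2 2
    _ = _ := by ring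

/-- One finite family. Recipe: let `σ` be the supremum of `∑ re ⟪v_i, (n + n') v_i⟫` over the
admissible pairs. For `x ∈ A`, `‖x‖ ≤ 1`, the pair `(λ x⋆ x, 0)` with
`λ = min 2000 (8 ε ‖ξ‖² / ‖x ξ‖²)` is admissible, so `WDom A ξ v K δ` holds with
`K = σ'/(8 ε ‖ξ‖²)`, `δ = σ'/2000` for any `σ' > σ`; likewise for `B`. `trim_two` gives a coupling,
so `√∑ ‖(W - 1) v_i‖² ≤ √(2 K ε) ‖ξ‖ + 2 √(80 δ) = 0.9 √σ'`. -/
theorem dual_fin (hB : A.commutant = B) (hA : Cyc A ξ) (hB' : Cyc B ξ) (hξ : ξ ≠ 0)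
    (W : unitary (Op H)) {ε : ℝ} (hε : 0 < ε)
    (h : ∀ c : Cpl A B ξ, c.en W 1 ≤ ε * ‖ξ‖ ^ 2) {ι : Type} [Fintype ι] (v : ι → H) {ε' : ℝ}
    (hε' : 0 < ε') : ∃ n ∈ A, ∃ n' ∈ B, 0 ≤ n ∧ 0 ≤ n' ∧ ‖n‖ ≤ 2000 ∧ ‖n'‖ ≤ 2000 ∧
      (⟪ξ, n ξ⟫_ℂ).re + (⟪ξ, n' ξ⟫_ℂ).re ≤ 8 * ε * ‖ξ‖ ^ 2 ∧
      ∑ i, ‖((W : Op H) - 1) (v i)‖ ^ 2 ≤ ∑ i, (⟪v i, (n + n') (v i)⟫_ℂ).re + ε' := by
  by_contra hcon
  obtain ⟨D, hD⟩ : ∃ D, D = ∑ i, ‖((W : Op H) - 1) (v i)‖ ^ 2 := ⟨_, rfl⟩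
  have hξ2 : 0 < ‖ξ‖ ^ 2 := pow_pos (norm_pos_iff.2 hξ) 2
  have hc : 0 < 8 * ε * ‖ξ‖ ^ 2 := by positivity
  have key : ∀ n ∈ A, ∀ n' ∈ B, 0 ≤ n → 0 ≤ n' → ‖n‖ ≤ 2000 → ‖n'‖ ≤ 2000 →
      (⟪ξ, n ξ⟫_ℂ).re + (⟪ξ, n' ξ⟫_ℂ).re ≤ 8 * ε * ‖ξ‖ ^ 2 →
      ∑ i, (⟪v i, (n + n') (v i)⟫_ℂ).re + ε' < D := fun n hn n' hn' h1 h2 h3 h4 h5 =>
    not_le.1 fun h6 => hcon ⟨n, hn, n', hn', h1, h2, h3, h4, h5, hD ▸ h6⟩
  have hD0 : 0 < D := by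
    have := key 0 (zero_mem _) 0 (zero_mem _) le_rfl le_rfl (by simp) (by simp) (by simpa using hc.le)
    simp only [add_zero, zero_apply, inner_zero_right, Complex.zero_re, Finset.sum_const_zero,
      zero_add] at this
    linarith
  have w1 : WDom A ξ v (D / (8 * ε * ‖ξ‖ ^ 2)) (D / 2000) :=
    dual_wdom A ξ v hc fun n hn h1 h2 h3 => by
      have := key n hn 0 (zero_mem _) h1 le_rfl h2 (by simp) (by simpa using h3)
      rw [add_zero] at this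
      linarith
  have w2 : WDom B ξ v (D / (8 * ε * ‖ξ‖ ^ 2)) (D / 2000) :=
    dual_wdom B ξ v hc fun n hn h1 h2 h3 => by
      have := key 0 (zero_mem _) n hn le_rfl h1 (by simp) h2 (by simpa using h3)
      rw [zero_add] at this
      linarith
  have hK : 0 < D / (8 * ε * ‖ξ‖ ^ 2) := by positivity
  obtain ⟨a, a', m1, m2, e1, c1, c2, h1⟩ := trim_two hB hA hB' v hK w1 w2
  have h2 := h ⟨ι, a, a', m1, m2, e1, c1, c2⟩
  simp only [Cpl.en, one_apply_eq_self] at h2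
  obtain ⟨s, hs⟩ : ∃ s : ℝ, s = √(2 * (D / (8 * ε * ‖ξ‖ ^ 2))) := ⟨_, rfl⟩
  have hs2 : s ^ 2 = 2 * (D / (8 * ε * ‖ξ‖ ^ 2)) := by rw [hs, Real.sq_sqrt (by positivity)]
  rw [← hs] at h1
  have h3 : D ≤ ∑ j, (8 * ‖v j - (s : ℂ) • a j ξ‖ ^ 2 +
      2 * s ^ 2 * ‖((W : Op H) - 1) (a j ξ)‖ ^ 2) := by
    rw [hD]
    refine Finset.sum_le_sum fun j _ => ?_
    have e : ((W : Op H) - 1) (v j) =
        ((W : Op H) - 1) (v j - (s : ℂ) • a j ξ) + (s : ℂ) • ((W : Op H) - 1) (a j ξ) := by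
      rw [map_sub, map_smul, sub_add_cancel]
    have h4 := sak_add_sq (((W : Op H) - 1) (v j - (s : ℂ) • a j ξ))
      ((s : ℂ) • ((W : Op H) - 1) (a j ξ))
    rw [← e, norm_smul, mul_pow, Complex.norm_real, Real.norm_eq_abs, sq_abs] at h4
    linarith [dual_W_sq W (v j - (s : ℂ) • a j ξ)]
  rw [Finset.sum_add_distrib, ← Finset.mul_sum, ← Finset.mul_sum] at h3
  have h5 : 2 * s ^ 2 * ∑ j, ‖((W : Op H) - 1) (a j ξ)‖ ^ 2 ≤ 2 * s ^ 2 * (ε * ‖ξ‖ ^ 2) :=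
    mul_le_mul_of_nonneg_left h2 (by positivity)
  have h6 : 2 * s ^ 2 * (ε * ‖ξ‖ ^ 2) = D / 2 := by
    rw [hs2]
    field_simp
    norm_num
  linarith

/-- the real linear form `(n, n') ↦ re ⟪v, (n + n') v⟫` -/
def dualF (v : H) : (Op H × Op H) →ₗ[ℝ] ℝ where
  toFun t := (⟪v, (t.1 + t.2) v⟫_ℂ).re
  map_add' s t := by
    simp only [Prod.fst_add, Prod.snd_add, dual_re_add]
    ring
  map_smul' r t := by
    simp only [Prod.smul_fst, Prod.smul_snd, dual_re_add, dual_re_rsmul, RingHom.id_apply,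
      smul_eq_mul]
    ring

theorem dualF_apply (v : H) (t : Op H × Op H) : dualF v t = (⟪v, (t.1 + t.2) v⟫_ℂ).re := rfl

/-- Recipe: `fan_ultra` on the convex set of admissible pairs in `Op H × Op H`, index set `H`,
affine functions `e v (n, n') = ‖(W - 1) v‖² - re ⟪v, (n + n') v⟫` (absorb the weights `μ` into the
vectors `√μ v`, `dual_fin`); weak limits `n`, `n'` (`exists_wlim`). -/
theorem dual_op (hB : A.commutant = B) (hA : Cyc A ξ) (hB' : Cyc B ξ) (hξ : ξ ≠ 0)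
    (W : unitary (Op H)) {ε : ℝ} (hε : 0 < ε)
    (h : ∀ c : Cpl A B ξ, c.en W 1 ≤ ε * ‖ξ‖ ^ 2) : ∃ n ∈ A, ∃ n' ∈ B, 0 ≤ n ∧ 0 ≤ n' ∧
      (⟪ξ, n ξ⟫_ℂ).re + (⟪ξ, n' ξ⟫_ℂ).re ≤ 8 * ε * ‖ξ‖ ^ 2 ∧
      ∀ v, ‖((W : Op H) - 1) v‖ ^ 2 ≤ (⟪v, (n + n') v⟫_ℂ).re := by
  have hball : ∀ x z : Op H, ‖x‖ ≤ 2000 → ‖z‖ ≤ 2000 → ∀ s t : ℝ, 0 ≤ s → 0 ≤ t → s + t = 1 →
      ‖s • x + t • z‖ ≤ 2000 := fun x z hx hz s t hs ht hst => by
    simpa using convex_closedBall (0 : Op H) 2000 (mem_closedBall_zero_iff.2 hx)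
      (mem_closedBall_zero_iff.2 hz) hs ht hst
  have hK : Convex ℝ {t : Op H × Op H | t.1 ∈ A ∧ t.2 ∈ B ∧ 0 ≤ t.1 ∧ 0 ≤ t.2 ∧ ‖t.1‖ ≤ 2000 ∧
      ‖t.2‖ ≤ 2000 ∧ dualF ξ t ≤ 8 * ε * ‖ξ‖ ^ 2} := by
    rintro x ⟨x1, x2, x3, x4, x5, x6, x7⟩ z ⟨z1, z2, z3, z4, z5, z6, z7⟩ s t hs ht hst
    refine ⟨add_mem (rsmul_mem s x1) (rsmul_mem t z1), add_mem (rsmul_mem s x2) (rsmul_mem t z2),
      add_nonneg (smul_nonneg hs x3) (smul_nonneg ht z3),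
      add_nonneg (smul_nonneg hs x4) (smul_nonneg ht z4), hball _ _ x5 z5 s t hs ht hst,
      hball _ _ x6 z6 s t hs ht hst, ?_⟩
    rw [map_add, map_smul, map_smul, smul_eq_mul, smul_eq_mul]
    have h1 := mul_le_mul_of_nonneg_left x7 hs
    have h2 := mul_le_mul_of_nonneg_left z7 ht
    have h3 : s * (8 * ε * ‖ξ‖ ^ 2) + t * (8 * ε * ‖ξ‖ ^ 2) = 8 * ε * ‖ξ‖ ^ 2 := by
      rw [← add_mul, hst, one_mul]
    linarith
  obtain ⟨𝒰, h1, h2⟩ := fan_ultra (I := H) {t : Op H × Op H | t.1 ∈ A ∧ t.2 ∈ B ∧ 0 ≤ t.1 ∧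
      0 ≤ t.2 ∧ ‖t.1‖ ≤ 2000 ∧ ‖t.2‖ ≤ 2000 ∧ dualF ξ t ≤ 8 * ε * ‖ξ‖ ^ 2}
    ⟨0, zero_mem _, zero_mem _, le_rfl, le_rfl, by simp, by simp, by rw [map_zero]; positivity⟩
    (fun v t => ‖((W : Op H) - 1) v‖ ^ 2 + (-dualF v) t)
    (fun v => (convexOn_const _ hK).add (LinearMap.convexOn _ hK)) fun s μ hμ _ ε' hε' => by
      obtain ⟨n, hn, n', hn', p1, p2, p3, p4, p5, p6⟩ := dual_fin hB hA hB' hξ W hε h
        (fun k : Fin s.card => ((√(μ (s.equivFin.symm k)) : ℝ) : ℂ) • (s.equivFin.symm k : H)) hε'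
      refine ⟨(n, n'), ⟨hn, hn', p1, p2, p3, p4, by rwa [dualF_apply, dual_re_add]⟩, ?_⟩
      have e1 : ∀ w : H, ‖((W : Op H) - 1) (((√(μ w) : ℝ) : ℂ) • w)‖ ^ 2 =
          μ w * ‖((W : Op H) - 1) w‖ ^ 2 := fun w => by
        rw [map_smul, norm_smul, mul_pow, Complex.norm_real, Real.norm_eq_abs, sq_abs,
          Real.sq_sqrt (hμ w)]
      have e2 : ∀ w : H, (⟪((√(μ w) : ℝ) : ℂ) • w, (n + n') (((√(μ w) : ℝ) : ℂ) • w)⟫_ℂ).re =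
          μ w * dualF w (n, n') := fun w => by
        rw [map_smul, inner_smul_left, inner_smul_right, Complex.conj_ofReal, Complex.re_ofReal_mul,
          Complex.re_ofReal_mul, ← mul_assoc, Real.mul_self_sqrt (hμ w), dualF_apply]
      simp only [e1, e2] at p6
      rw [s.equivFin.symm.sum_comp fun w : s => μ w * ‖((W : Op H) - 1) w‖ ^ 2,
        s.equivFin.symm.sum_comp fun w : s => μ w * dualF (w : H) (n, n'),
        Finset.sum_coe_sort s fun w => μ w * ‖((W : Op H) - 1) w‖ ^ 2,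
        Finset.sum_coe_sort s fun w => μ w * dualF w (n, n')] at p6
      simp only [LinearMap.neg_apply, mul_add, mul_neg, Finset.sum_add_distrib,
        Finset.sum_neg_distrib]
      linarith
  have h3 : ∀ᶠ t : Op H × Op H in (𝒰 : Filter (Op H × Op H)), t.1 ∈ A ∧ t.2 ∈ B ∧ 0 ≤ t.1 ∧
    0 ≤ t.2 ∧ ‖t.1‖ ≤ 2000 ∧ ‖t.2‖ ≤ 2000 ∧ dualF ξ t ≤ 8 * ε * ‖ξ‖ ^ 2 := h1
  obtain ⟨n, hn⟩ := exists_wlim 𝒰 (T := Prod.fst) (h3.mono fun t ht => ht.2.2.2.2.1)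
  obtain ⟨n', hn'⟩ := exists_wlim 𝒰 (T := Prod.snd) (h3.mono fun t ht => ht.2.2.2.2.2.1)
  have h4 : ∀ v, Tendsto (dualF v) 𝒰 (𝓝 (⟪v, (n + n') v⟫_ℂ).re) := fun v =>
    (Complex.continuous_re.tendsto _).comp ((hn.add hn') v v)
  refine ⟨n, hn.mem (h3.mono fun t ht => ht.1), n', hn'.mem (h3.mono fun t ht => ht.2.1),
    hn.nonneg (h3.mono fun t ht => ht.2.2.1), hn'.nonneg (h3.mono fun t ht => ht.2.2.2.1), ?_,
    fun v => ?_⟩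
  · rw [← dual_re_add]
    exact le_of_tendsto (h4 ξ) (h3.mono fun t ht => ht.2.2.2.2.2.2)
  · refine le_of_forall_pos_le_add fun δ hδ => ?_
    refine ge_of_tendsto ((h4 v).add_const δ) ((h2 v δ hδ).mono fun t ht => ?_)
    simp only [LinearMap.neg_apply] at ht
    linarith

theorem dual_re_nonneg {n : Op H} (hn : 0 ≤ n) (v : H) : 0 ≤ (⟪v, n v⟫_ℂ).re :=
  ((ContinuousLinearMap.nonneg_iff_isPositive _).1 hn).re_inner_nonneg_right v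

theorem dual_cut {P : VN H} {n : Op H} (hP : n ∈ P) (hn : 0 ≤ n) (t : ℝ) (ξ : H) :
    ∃ e ∈ P, IsStarProjection e ∧ t * ‖ξ - e ξ‖ ^ 2 ≤ (⟪ξ, n ξ⟫_ℂ).re ∧
      ∀ v, (⟪e v, n (e v)⟫_ℂ).re ≤ t * ‖e v‖ ^ 2 := by
  obtain ⟨q, hq, h1, h2, h3⟩ := exists_cut (IsSelfAdjoint.of_nonneg hn) t
  have hqP : q ∈ P := bas_mem fun y hy => h1 y (mem_comm.1 hy n hP).symm
  refine ⟨1 - q, sub_mem (one_mem _) hqP, hq.one_sub, ?_, h3⟩
  rw [sub_apply, one_apply_eq_self, sub_sub_cancel]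
  refine (h2 ξ).trans ?_
  have hc := (h1 n rfl).eq
  have e : n = star q * n * q + star (1 - q) * n * (1 - q) := by
    have h4 : q * q = q := hq.isIdempotentElem.eq
    have h5 : q * n * q = n * q := by rw [← hc, mul_assoc, h4]
    rw [hq.isSelfAdjoint.star_eq, hq.one_sub.isSelfAdjoint.star_eq, sub_mul, one_mul, sub_mul,
      mul_sub, mul_sub, mul_one, mul_one, h5, ← hc]
    abel
  have h6 : ∀ a : Op H, (⟪ξ, (star a * n * a) ξ⟫_ℂ).re = (⟪a ξ, n (a ξ)⟫_ℂ).re := fun a => by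
    rw [mul_apply_eq_comp, mul_apply_eq_comp, bas_inner_star]
  have h7 := dual_re_add (star q * n * q) (star (1 - q) * n * (1 - q)) ξ ξ
  rw [← e, h6, h6] at h7
  linarith [dual_re_nonneg hn ((1 - q) ξ)]

/-- Recipe: `exists_cut` at `64 ε` for `n` and `n'`; `e = 1 - q`, `‖q ξ‖² ≤ ‖ξ‖²/8`, so
`e e' ξ ≠ 0`; on the range of `e e'` the form of `n + n'` is at most `128 ε`. -/
theorem dual (hB : A.commutant = B) (hA : Cyc A ξ) (hB' : Cyc B ξ) (hξ : ξ ≠ 0)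
    (W : unitary (Op H)) {ε : ℝ} (hε : 0 < ε)
    (h : ∀ c : Cpl A B ξ, c.en W 1 ≤ ε * ‖ξ‖ ^ 2) : ∃ e ∈ A, ∃ e' ∈ B, IsStarProjection e ∧
      IsStarProjection e' ∧ e * e' ≠ 0 ∧ ‖((W : Op H) - 1) * (e * e')‖ ≤ 12 * √ε := by
  obtain ⟨n, hn, n', hn', p1, p2, p3, p4⟩ := dual_op hB hA hB' hξ W hε h
  obtain ⟨e, he, q1, q2, q3⟩ := dual_cut hn p1 (64 * ε) ξ
  obtain ⟨e', he', r1, r2, r3⟩ := dual_cut hn' p2 (64 * ε) ξ
  have hc : Commute e e' := mem_comm.1 (hB ▸ he') e he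
  refine ⟨e, he, e', he', q1, r1, fun h0 => ?_, ?_⟩
  · have hξ2 : 0 < ‖ξ‖ ^ 2 := pow_pos (norm_pos_iff.2 hξ) 2
    have e1 : ξ = (ξ - e ξ) + e (ξ - e' ξ) := by
      rw [map_sub, ← mul_apply_eq_comp e e', h0, zero_apply, sub_zero, sub_add_cancel]
    have h1 := sak_add_sq (ξ - e ξ) (e (ξ - e' ξ))
    rw [← e1] at h1
    have h2 := sak_apply_sq q1.norm_le (ξ - e' ξ)
    have h3 : ε * (8 * (‖ξ - e ξ‖ ^ 2 + ‖ξ - e' ξ‖ ^ 2)) ≤ ε * ‖ξ‖ ^ 2 := by linarith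
    have h4 := le_of_mul_le_mul_left h3 hε
    linarith
  · refine ContinuousLinearMap.opNorm_le_bound _ (by positivity) fun v => ?_
    refine (sq_le_sq₀ (norm_nonneg _) (by positivity)).1 ?_
    have h1 := p4 ((e * e') v)
    have h2 := q3 (e' v)
    have h3 := r3 (e v)
    rw [← mul_apply_eq_comp] at h2 h3
    rw [← hc.eq] at h3
    have h4 := sak_apply_sq (q1.mul r1 hc).norm_le v
    rw [dual_re_add] at h1
    rw [mul_apply_eq_comp, mul_pow, mul_pow, Real.sq_sqrt hε.le]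
    have h5 := mul_le_mul_of_nonneg_left h4 hε.le
    have h6 : 0 ≤ ε * ‖v‖ ^ 2 := by positivity
    linarith

end

end Crest.Agent.R78
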