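import Crest.Agent.R78.Proj
import Crest.Agent.R121.Isom

/-!
# Row 78: exhaustion over the centre, direct sums, covering by partial isometries
-/

open scoped InnerProductSpace Topology ComplexConjugate
open Filter MeasureTheory

set_option linter.unusedSectionVars false

namespace Crest.Agent.R78

open Crest.Agent.R121 (Alg)

noncomputable section

universe u

variable {H : Type*} [NormedAddCommGroup H] [InnerProductSpace ℂ H] [CompleteSpace H]

/-- A family of pairwise orthogonal projections with strong sum `e`. -/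
structure OFam {I : Type*} (z : I → Op H) (e : Op H) : Prop where
  proj : ∀ i, IsStarProjection (z i)
  orth : ∀ i j, i ≠ j → z i * z j = 0
  sum : ∀ v, HasSum (fun i => z i v) (e v)

theorem Exh_pyth {I : Type*} {f : I → H} (h : ∀ i j, i ≠ j → ⟪f i, f j⟫_ℂ = 0) (s : Finset I) :
    ‖∑ i ∈ s, f i‖ ^ 2 = ∑ i ∈ s, ‖f i‖ ^ 2 := by
  classical
  induction s using Finset.induction_on with
  | empty => simp
  | insert a s ha ih =>
    have h0 : ⟪f a, ∑ i ∈ s, f i⟫_ℂ = 0 := by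
      rw [inner_sum]
      exact Finset.sum_eq_zero fun i hi => h a i fun e => ha (e ▸ hi)
    rw [Finset.sum_insert ha, Finset.sum_insert ha, @norm_add_sq ℂ, h0, ih]
    simp

theorem Exh_summable {I : Type*} {f : I → H} (h : ∀ i j, i ≠ j → ⟪f i, f j⟫_ℂ = 0)
    (hs : Summable fun i => ‖f i‖ ^ 2) : Summable f := by
  rw [summable_iff_vanishing_norm] at hs ⊢
  intro ε hε
  obtain ⟨s, hs⟩ := hs (ε ^ 2) (by positivity)
  refine ⟨s, fun t ht => ?_⟩
  have h1 := hs t ht
  rw [← Exh_pyth h, Real.norm_of_nonneg (sq_nonneg _)] at h1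
  exact lt_of_pow_lt_pow_left₀ 2 hε.le h1

theorem Exh_hasSum_sq {I : Type*} {f : I → H} (h : ∀ i j, i ≠ j → ⟪f i, f j⟫_ℂ = 0) {a : H}
    (ha : HasSum f a) : HasSum (fun i => ‖f i‖ ^ 2) (‖a‖ ^ 2) := by
  have h1 := (Tendsto.norm ha).pow 2
  simp only [Exh_pyth h] at h1
  exact h1

theorem Exh_inner {p : Op H} (hp : IsStarProjection p) (v w : H) : ⟪p v, w⟫_ℂ = ⟪v, p w⟫_ℂ := by
  conv_lhs => rw [← hp.isSelfAdjoint.star_eq]
  exact ContinuousLinearMap.adjoint_inner_left p w v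

theorem Exh_orth {p q : Op H} (hp : IsStarProjection p) (h : p * q = 0) (v w : H) :
    ⟪p v, q w⟫_ℂ = 0 := by
  rw [Exh_inner hp, ← mul_apply_eq_comp, h]
  simp

theorem Exh_bessel {I : Type*} {z : I → Op H} (hp : ∀ i, IsStarProjection (z i))
    (ho : ∀ i j, i ≠ j → z i * z j = 0) (v : H) (s : Finset I) :
    ∑ i ∈ s, ‖z i v‖ ^ 2 ≤ ‖v‖ ^ 2 := by
  have h1 := Exh_pyth (f := fun i => z i v) (fun i j hij => Exh_orth (hp i) (ho i j hij) v v) s
  have h2 : (⟪v, ∑ i ∈ s, z i v⟫_ℂ).re = ∑ i ∈ s, ‖z i v‖ ^ 2 := by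
    rw [inner_sum, Complex.re_sum]
    refine Finset.sum_congr rfl fun i _ => ?_
    have h3 : ⟪z i v, z i v⟫_ℂ = ⟪v, z i v⟫_ℂ := by
      rw [Exh_inner (hp i), ← mul_apply_eq_comp, (hp i).isIdempotentElem.eq]
    rw [← h3]
    exact inner_self_eq_norm_sq (𝕜 := ℂ) _
  have h3 : (⟪v, ∑ i ∈ s, z i v⟫_ℂ).re ≤ ‖v‖ * ‖∑ i ∈ s, z i v‖ :=
    (Complex.re_le_norm _).trans (norm_inner_le_norm _ _)
  nlinarith [sq_nonneg (‖v‖ - ‖∑ i ∈ s, z i v‖)]

theorem Exh_flip {p q : Op H} (hp : IsStarProjection p) (hq : IsStarProjection q)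
    (h : p * q = q) : q * p = q := by
  have := congrArg star h
  rwa [star_mul, hp.isSelfAdjoint.star_eq, hq.isSelfAdjoint.star_eq] at this

theorem Exh_flip0 {p q : Op H} (hp : IsStarProjection p) (hq : IsStarProjection q)
    (h : p * q = 0) : q * p = 0 := by
  have := congrArg star h
  rwa [star_mul, hp.isSelfAdjoint.star_eq, hq.isSelfAdjoint.star_eq, star_zero] at this

theorem Exh_dsum {I : Type*} {z : I → Op H} (hp : ∀ i, IsStarProjection (z i))
    (ho : ∀ i j, i ≠ j → z i * z j = 0) (T : I → Op H)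
    {β : ℝ} (hβ : 0 ≤ β) (hT : ∀ i, ‖T i‖ ≤ β) (h₁ : ∀ i, z i * T i = T i)
    (h₂ : ∀ i, T i * z i = T i) :
    ∃ X : Op H, ‖X‖ ≤ β ∧ (∀ i, z i * X = T i) ∧ (∀ i, X * z i = T i) ∧
      (∀ v, HasSum (fun i => T i v) (X v)) ∧
      ∀ y, (∀ i, Commute y (T i)) → Commute y X := by
  have horth : ∀ v i j, i ≠ j → ⟪T i v, T j v⟫_ℂ = 0 := fun v i j hij => by
    rw [← h₁ i, ← h₁ j]
    exact Exh_orth (hp i) (ho i j hij) _ _
  have hb : ∀ v (s : Finset I), ∑ i ∈ s, ‖T i v‖ ^ 2 ≤ (β * ‖v‖) ^ 2 := fun v s => by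
    calc ∑ i ∈ s, ‖T i v‖ ^ 2 ≤ ∑ i ∈ s, β ^ 2 * ‖z i v‖ ^ 2 := by
          refine Finset.sum_le_sum fun i _ => ?_
          rw [← mul_pow, ← h₂ i]
          exact pow_le_pow_left₀ (norm_nonneg _) ((T i).le_of_opNorm_le (hT i) _) 2
      _ ≤ β ^ 2 * ‖v‖ ^ 2 := by
          rw [← Finset.mul_sum]
          exact mul_le_mul_of_nonneg_left (Exh_bessel hp ho v s) (sq_nonneg _)
      _ = _ := (mul_pow _ _ _).symm
  have hs : ∀ v, Summable fun i => T i v := fun v =>
    Exh_summable (horth v) (summable_of_sum_le (fun _ => sq_nonneg _) (hb v))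
  let L : H →ₗ[ℂ] H :=
    { toFun := fun v => ∑' i, T i v
      map_add' := fun v w => by
        simp only [map_add]
        exact (hs v).tsum_add (hs w)
      map_smul' := fun c v => by
        simp only [map_smul, RingHom.id_apply]
        exact (hs v).tsum_const_smul c }
  have hL : ∀ v, ‖L v‖ ≤ β * ‖v‖ := fun v =>
    le_of_pow_le_pow_left₀ two_ne_zero (by positivity)
      (hasSum_le_of_sum_le (Exh_hasSum_sq (horth v) (hs v).hasSum) (hb v))
  have hX : ∀ v, HasSum (fun i => T i v) (L.mkContinuous β hL v) := fun v => (hs v).hasSum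
  refine ⟨L.mkContinuous β hL, L.mkContinuous_norm_le hβ hL, fun i => ?_, fun i => ?_, hX,
    fun y hy => ?_⟩
  · ext v
    refine ((z i).hasSum (hX v)).unique ?_
    have := hasSum_single (f := fun j => z i (T j v)) i fun j hj => by
      rw [← h₁ j, ← mul_apply_eq_comp, ← mul_assoc, ho i j hj.symm]
      simp
    rwa [← mul_apply_eq_comp, h₁] at this
  · ext v
    refine (hX (z i v)).unique ?_
    have := hasSum_single (f := fun j => T j (z i v)) i fun j hj => by
      rw [← h₂ j, ← mul_apply_eq_comp, mul_assoc, ho j i hj]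
      simp
    rwa [← mul_apply_eq_comp, h₂] at this
  · ext v
    refine (y.hasSum (hX v)).unique ?_
    have := hX (y v)
    simp only [← mul_apply_eq_comp, ← (hy _).eq] at this
    exact this

theorem Exh_mul_sum {I : Type*} {z : I → Op H} {e : Op H} (h : OFam z e) {y : Op H}
    (hy : ∀ i, y * z i = z i) : y * e = e := by
  ext v
  refine (y.hasSum (h.sum v)).unique ?_
  simp only [← mul_apply_eq_comp, hy]
  exact h.sum v

theorem OFam.hasSum_norm_sq {I : Type*} {z : I → Op H} {e : Op H} (h : OFam z e) (v : H) :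
    HasSum (fun i => ‖z i v‖ ^ 2) (‖e v‖ ^ 2) := by
  exact Exh_hasSum_sq (fun i j hij => Exh_orth (h.proj i) (h.orth i j hij) v v) (h.sum v)

theorem OFam.mul_eq {I : Type*} {z : I → Op H} {e : Op H} (h : OFam z e) (i : I) :
    e * z i = z i := by
  ext v
  refine (h.sum (z i v)).unique ?_
  have := hasSum_single (f := fun j => z j (z i v)) i fun j hj => by
    rw [← mul_apply_eq_comp, h.orth j i hj]
    simp
  rwa [← mul_apply_eq_comp, (h.proj i).isIdempotentElem.eq] at this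

/-- Orthogonal projections have a strong sum, which is a projection commuting with everything
commuting with all of them (Bessel + Cauchy criterion, or `R121.exists_orth_sum`). -/
theorem exists_ofam {I : Type*} (z : I → Op H) (hp : ∀ i, IsStarProjection (z i))
    (ho : ∀ i j, i ≠ j → z i * z j = 0) :
    ∃ e, IsStarProjection e ∧ OFam z e ∧ ∀ y, (∀ i, Commute y (z i)) → Commute y e := by
  obtain ⟨e, -, -, -, h3, h4⟩ := Exh_dsum hp ho z zero_le_one (fun i => (hp i).norm_le)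
    (fun i => (hp i).isIdempotentElem.eq) fun i => (hp i).isIdempotentElem.eq
  have h : OFam z e := ⟨hp, ho, h3⟩
  refine ⟨e, ⟨Exh_mul_sum h h.mul_eq, ?_⟩, h, h4⟩
  rw [ContinuousLinearMap.isSelfAdjoint_iff_isSymmetric]
  intro v w
  have h5 := (innerSL ℂ v).hasSum (h3 w)
  have h6 := (Complex.conjCLE : ℂ →L[ℝ] ℂ).hasSum ((innerSL ℂ w).hasSum (h3 v))
  simp only [innerSL_apply_apply, ContinuousLinearEquiv.coe_coe, Complex.conjCLE_apply,
    inner_conj_symm, Exh_inner (hp _)] at h5 h6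
  exact h6.unique h5

theorem Exh_max_cp {A : VN H} {z₀ : Op H} (hz₀ : CP A z₀) (P : Op H → Prop) :
    ∃ (S : Set (Op H)) (e : Op H), CP A e ∧ z₀ * e = e ∧ (∀ z ∈ S, CP A z ∧ P z) ∧
      OFam (fun z : S => (z : Op H)) e ∧
      ∀ w, CP A w → (z₀ - e) * w = w → P w → w = 0 := by
  obtain ⟨S, h1, h2, h3⟩ := R121.Isom_zorn (fun z : Op H => CP A z ∧ z₀ * z = z ∧ P z)
    (fun a b => a * b = 0 ∧ b * a = 0) fun a b h => h.symm
  obtain ⟨e, he, hf, hc⟩ := exists_ofam (fun z : S => (z : Op H)) (fun z => (h1 z z.2).1.1)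
    fun i j hij => (h2 i.2 j.2 fun e => hij (Subtype.ext e)).1
  have hz : z₀ * e = e := Exh_mul_sum hf fun z => (h1 z z.2).2.1
  refine ⟨S, e, ⟨he, ?_, ?_⟩, hz, fun z hz => ⟨(h1 z hz).1, (h1 z hz).2.2⟩, hf,
    fun w hw hw' hP => ?_⟩
  · rw [← A.commutant_commutant, mem_comm]
    exact fun y hy => hc y fun z => (mem_comm.1 hy _ (h1 z z.2).1.2.1).symm
  · exact mem_comm.2 fun x hx => hc x fun z => mem_comm.1 (h1 z z.2).1.2.2 x hx
  · have h4 : ∀ a ∈ S, a * w = 0 := fun a ha => by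
      rw [← hw', ← mul_assoc, mul_sub, Exh_flip hz₀.1 (h1 a ha).1.1 (h1 a ha).2.1,
        Exh_flip he (h1 a ha).1.1 (hf.mul_eq ⟨a, ha⟩), sub_self, zero_mul]
    have h5 : z₀ * w = w := by
      conv_lhs => rw [← hw']
      rw [← mul_assoc, mul_sub, hz₀.1.isIdempotentElem.eq, hz, hw']
    have h6 := h3 w ⟨hw, h5, hP⟩ fun a ha => ⟨h4 a ha, Exh_flip0 (h1 a ha).1.1 hw.1 (h4 a ha)⟩
    rw [← hw.1.isIdempotentElem.eq, h4 w h6]

/-- Exhaustion of a central projection (Zorn, `R121.Isom_zorn`). -/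
theorem exhaust_cp {A : VN H} {z₀ : Op H} (hz₀ : CP A z₀) (P : Op H → Prop)
    (h : ∀ w, CP A w → w ≠ 0 → z₀ * w = w → ∃ z, CP A z ∧ z ≠ 0 ∧ w * z = z ∧ P z) :
    ∃ S : Set (Op H), (∀ z ∈ S, CP A z ∧ P z) ∧ OFam (fun z : S => (z : Op H)) z₀ := by
  obtain ⟨S, e, he, hz, h1, h2, h3⟩ := Exh_max_cp hz₀ P
  have hw : CP A (z₀ - e) :=
    ⟨he.1.sub_of_mul_eq_right hz₀.1 hz, sub_mem hz₀.2.1 he.2.1, sub_mem hz₀.2.2 he.2.2⟩
  have h0 : z₀ - e = 0 := by
    by_contra h0
    obtain ⟨z, a1, a2, a3, a4⟩ := h _ hw h0 (by rw [mul_sub, hz₀.1.isIdempotentElem.eq, hz])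
    exact a2 (h3 z a1 a3 a4)
  exact ⟨S, h1, by rwa [sub_eq_zero.1 h0]⟩

/-- A maximal orthogonal family of central projections below `z₀` with a property; no nonzero
central projection below the complement has the property. -/
theorem exists_max_cp {A : VN H} {z₀ : Op H} (hz₀ : CP A z₀) (P : Op H → Prop) :
    ∃ (S : Set (Op H)) (e : Op H), CP A e ∧ z₀ * e = e ∧ (∀ z ∈ S, CP A z ∧ P z) ∧
      OFam (fun z : S => (z : Op H)) e ∧
      ∀ w, CP A w → (z₀ - e) * w = w → P w → w = 0 := by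
  exact Exh_max_cp hz₀ P

/-- Direct sum of operators along an orthogonal family. -/
theorem OFam.exists_dsum {I : Type*} {z : I → Op H} {e : Op H} (h : OFam z e) (T : I → Op H)
    {β : ℝ} (hβ : 0 ≤ β) (hT : ∀ i, ‖T i‖ ≤ β) (h₁ : ∀ i, z i * T i = T i)
    (h₂ : ∀ i, T i * z i = T i) :
    ∃ X : Op H, ‖X‖ ≤ β ∧ (∀ i, z i * X = T i) ∧ (∀ i, X * z i = T i) ∧
      (∀ v, HasSum (fun i => T i v) (X v)) ∧
      ∀ y, (∀ i, Commute y (T i)) → Commute y X := by
  exact Exh_dsum h.proj h.orth T hβ hT h₁ h₂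

theorem Exh_proj_coe {A : VN H} {p : Alg A} (hp : IsStarProjection p) :
    IsStarProjection (p : Op H) :=
  ⟨congrArg Subtype.val hp.isIdempotentElem.eq, congrArg Subtype.val hp.isSelfAdjoint.star_eq⟩

theorem Exh_cen {A : VN H} {p : Op H} (hp : p ∈ A) :
    ∃ z, CP A z ∧ z * p = p ∧ ∀ x ∈ A, (∀ a ∈ A, x * a * p = 0) → x * z = 0 := by
  obtain ⟨q, rfl⟩ : ∃ q : Alg A, (q : Op H) = p := ⟨⟨p, hp⟩, rfl⟩
  obtain ⟨h1, h2⟩ := R121.cen_central (M := A) {q}
  have h3 := R121.cen_mul (M := A) (𝓕 := {q}) rfl 1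
  have h4 := fun x => R121.mul_cen_eq_zero (M := A) (𝓕 := {q}) (x := x)
  generalize R121.cen A {q} = c at h1 h2 h3 h4
  rw [one_mul] at h3
  refine ⟨c, ⟨Exh_proj_coe h1, c.2, mem_comm.2 fun x hx => ?_⟩, congrArg Subtype.val h3,
    fun x hx h => ?_⟩
  · exact congrArg Subtype.val (h2 ⟨x, hx⟩).eq
  · refine congrArg Subtype.val (h4 ⟨x, hx⟩ ?_)
    rintro a _ rfl
    exact Subtype.ext (h a a.2)

/-- The central support of a projection: the smallest central projection above `p`. -/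
theorem exists_csupp {A : VN H} {p : Op H} (hp : p ∈ A) :
    ∃ z, CP A z ∧ z * p = p ∧ ∀ w, Cen A w → w * p = 0 → w * z = 0 := by
  obtain ⟨z, h1, h2, h3⟩ := Exh_cen hp
  refine ⟨z, h1, h2, fun w hw h => h3 w hw.1 fun a ha => ?_⟩
  rw [← (mem_comm.1 hw.2 a ha).eq, mul_assoc, h, mul_zero]

/-- Cover lemma: the central support `z` of `p` is the strong sum of the initial projections of
partial isometries `m ∈ p A`. Recipe: Zorn on families of nonzero partial isometries `m ∈ A` with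
`p m = m` and pairwise orthogonal initial projections `m⋆ m`; if `r = z - ∑ m⋆ m ≠ 0` then
`p x r ≠ 0` for some `x ∈ A` (else `R121.mul_cen_eq_zero` gives `r z = 0`: or use that the
central support of `r` kills `p`), and `R121.exists_partial_isometry` gives a new member. -/
theorem exists_cover {A : VN H} {p z : Op H} (hp : IsStarProjection p) (hpA : p ∈ A)
    (hz : CP A z) (hzp : z * p = p) (hmin : ∀ w, CP A w → w * p = 0 → w * z = 0) :
    ∃ S : Set (Op H), (∀ m ∈ S, m ∈ A ∧ p * m = m) ∧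
      OFam (fun m : S => star (m : Op H) * (m : Op H)) z := by
  obtain ⟨S, h1, h2, h3⟩ := R121.Isom_zorn
    (fun m : Op H => m ∈ A ∧ p * m = m ∧ m * star m * m = m)
    (fun a b => star a * a * (star b * b) = 0 ∧ star b * b * (star a * a) = 0) fun a b h => h.symm
  have hpr : ∀ m : Op H, m * star m * m = m → IsStarProjection (star m * m) := fun m hm =>
    ⟨by rw [IsIdempotentElem, mul_assoc, ← mul_assoc m, hm], IsSelfAdjoint.star_mul_self m⟩
  obtain ⟨e, he, hf, hc⟩ := exists_ofam (fun m : S => star (m : Op H) * (m : Op H))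
    (fun m => hpr m (h1 m m.2).2.2) fun i j hij => (h2 i.2 j.2 fun e => hij (Subtype.ext e)).1
  have hzm : ∀ m ∈ S, z * (star m * m) = star m * m := fun m hm => by
    rw [← mul_assoc, ← (mem_comm.1 hz.2.2 _ (star_mem (h1 m hm).1)).eq, mul_assoc]
    congr 1
    conv_lhs => rw [← (h1 m hm).2.1]
    rw [← mul_assoc, hzp, (h1 m hm).2.1]
  have hze : z * e = e := Exh_mul_sum hf fun m => hzm m m.2
  have heA : e ∈ A := by
    rw [← A.commutant_commutant, mem_comm]
    exact fun y hy => hc y fun m =>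
      (mem_comm.1 hy _ (mul_mem (star_mem (h1 m m.2).1) (h1 m m.2).1)).symm
  have hr : IsStarProjection (z - e) := he.sub_of_mul_eq_right hz.1 hze
  have hrA : z - e ∈ A := sub_mem hz.2.1 heA
  have hall : ∀ a ∈ A, p * a * (z - e) = 0 := by
    intro a ha
    by_contra hne
    obtain ⟨v, v0, v1, v2, v3⟩ := R121.exists_partial_isometry (M := A)
      (x := ⟨p * a * (z - e), mul_mem (mul_mem hpA ha) hrA⟩) (p := ⟨p, hpA⟩) (q := ⟨z - e, hrA⟩)
      ⟨Subtype.ext hr.isIdempotentElem.eq, Subtype.ext hr.isSelfAdjoint.star_eq⟩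
      (fun h => hne (congrArg Subtype.val h))
      (Subtype.ext (by
        change p * (p * a * (z - e)) = p * a * (z - e)
        rw [← mul_assoc, ← mul_assoc, hp.isIdempotentElem.eq]))
      (Subtype.ext (by
        change p * a * (z - e) * (z - e) = p * a * (z - e)
        rw [mul_assoc, hr.isIdempotentElem.eq]))
    have w1 : (v : Op H) * star (v : Op H) * v = v := congrArg Subtype.val v1
    have w2 : p * (v : Op H) = v := congrArg Subtype.val v2
    have w3 : (v : Op H) * (z - e) = v := congrArg Subtype.val v3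
    have h4 : ∀ m ∈ S, star (v : Op H) * v * (star m * m) = 0 := fun m hm => by
      conv_lhs => rw [← w3]
      rw [mul_assoc, mul_assoc (v : Op H), sub_mul, hzm m hm, hf.mul_eq ⟨m, hm⟩, sub_self,
        mul_zero, mul_zero]
    have h5 := h3 v ⟨v.2, w2, w1⟩ fun m hm =>
      ⟨Exh_flip0 (hpr _ w1) (hpr m (h1 m hm).2.2) (h4 m hm), h4 m hm⟩
    have h6 := h4 v h5
    rw [(hpr _ w1).isIdempotentElem.eq] at h6
    exact v0 (Subtype.ext (by rw [← w1, mul_assoc, h6, mul_zero]; rfl))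
  obtain ⟨c, c1, c2, c3⟩ := Exh_cen hrA
  have h4 := hmin c c1 (Exh_flip0 hp c1.1 (c3 p hpA hall))
  have h5 : z - e = 0 := by
    have h6 : z * (z - e) = z - e := by rw [mul_sub, hz.1.isIdempotentElem.eq, hze]
    rw [← c2, ← h6, ← mul_assoc, h4, zero_mul]
  exact ⟨S, fun m hm => ⟨(h1 m hm).1, (h1 m hm).2.1⟩, by rwa [sub_eq_zero.1 h5]⟩

end

end Crest.Agent.R78
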