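import Crest.Agent.R78.Ind
import Crest.Agent.R78.Stmt

/-!
# Row 78: from a separating trace vector to a cyclic one
-/

open scoped InnerProductSpace Topology ComplexConjugate
open Filter MeasureTheory

set_option linter.unusedSectionVars false

namespace Crest.Agent.R78

open Crest.Agent.R121 (Alg)

noncomputable section

universe u

variable {H : Type*} [NormedAddCommGroup H] [InnerProductSpace ℂ H] [CompleteSpace H]

open R124 (CornerData cmp xpd)

/-- The projection onto the closure of `M ξ`. -/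
theorem exists_cyc_proj (M : VN H) (ξ : H) : ∃ e : Op H, IsStarProjection e ∧ e ∈ M.commutant ∧
    (∀ x ∈ M, e (x ξ) = x ξ) ∧ ∀ v, e v ∈ closure ((fun a : Op H => a ξ) '' (M : Set (Op H))) := by
  let S : Submodule ℂ H :=
    { carrier := (fun a : Op H => a ξ) '' (M : Set (Op H))
      add_mem' := by
        rintro _ _ ⟨a, ha, rfl⟩ ⟨b, hb, rfl⟩
        exact ⟨a + b, add_mem ha hb, rfl⟩
      zero_mem' := ⟨0, zero_mem M, rfl⟩
      smul_mem' := by
        rintro c _ ⟨a, ha, rfl⟩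
        exact ⟨c • a, smul_mem' c ha, rfl⟩ }
  have h2 : R121.cycSp M.commutant {ξ} ≤ S.topologicalClosure :=
    Submodule.topologicalClosure_mono (Submodule.span_le.2 (by
      rintro _ ⟨y, hy, _, rfl, rfl⟩
      rw [M.commutant_commutant] at hy
      exact ⟨y, hy, rfl⟩))
  refine ⟨(R121.cyc M.commutant {ξ} : Op H), isStarProjection_starProjection,
    (R121.cyc M.commutant {ξ}).2, fun x hx => ?_, fun v => h2 ?_⟩
  · refine Submodule.starProjection_eq_self_iff.2 (Submodule.le_topologicalClosure _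
      (Submodule.subset_span ⟨x, ?_, ξ, rfl, rfl⟩))
    rwa [M.commutant_commutant]
  · exact Submodule.starProjection_apply_mem _ v

theorem f0_norm_le_cmp {L : Type*} [NormedAddCommGroup L] [InnerProductSpace ℂ L]
    [CompleteSpace L] {q : Op H} {s : L →L[ℂ] H} {t : H →L[ℂ] L} (C : CornerData q s t)
    {M : VN H} (hM : q ∈ M.commutant) (hinj : ∀ x ∈ M, cmp s t x = 0 → x = 0) {x : Op H}
    (hx : x ∈ M) : ‖x‖ ≤ ‖cmp s t x‖ := by
  obtain ⟨y, hy, h1, h2⟩ := (mem_ind_iff C hM).1 (cmp_mem_ind C hM hx)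
  have h3 : x - y = 0 := hinj _ (sub_mem hx hy) (by rw [map_sub, h2, sub_self])
  rw [sub_eq_zero.1 h3] at h1 ⊢
  exact h1

/-- Lifting from an injective induction. Recipe: `exists_lift` for `M` and injectivity show
`‖x‖ ≤ ‖cmp x‖` on `M`; closeness (`γ < 1/2`) gives injectivity of `cmp` on `N`, so the lift `Λ` for
`N` inverts `cmp`. Put `θ x = Λ (θ' (cmp x))` and compare with `y ∈ N` near `x`. -/
theorem LinNear.of_ind {L : Type*} [NormedAddCommGroup L] [InnerProductSpace ℂ L]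
    [CompleteSpace L] {q : Op H} {s : L →L[ℂ] H} {t : H →L[ℂ] L} (C : CornerData q s t)
    {M N : VN H} (hM : q ∈ M.commutant) (hN : q ∈ N.commutant)
    (hinj : ∀ x ∈ M, cmp s t x = 0 → x = 0) {γ ε : ℝ} (hγ : 0 ≤ γ) (hγ1 : γ < 1 / 2) (hε : 0 ≤ ε)
    (h : Close M N γ) (h' : LinNear (ind M s t) (ind N s t) ε) : LinNear M N (ε + 2 * γ) := by
  have hinjN : ∀ y ∈ N, cmp s t y = 0 → y = 0 := by
    intro y hy h0
    obtain ⟨x, hx, h1⟩ := h.2 y hy
    have h2 := f0_norm_le_cmp C hM hinj hx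
    have h3 : ‖cmp s t x‖ ≤ γ * ‖y‖ := by
      have e : cmp s t x = -cmp s t (y - x) := by rw [map_sub, h0, zero_sub, neg_neg]
      rw [e, norm_neg]
      exact (C.norm_cmp _).trans h1
    have h4 : ‖y‖ ≤ ‖y - x‖ + ‖x‖ := by
      simpa using norm_add_le (y - x) x
    have h5 := norm_nonneg y
    exact norm_le_zero_iff.1 (by nlinarith)
  obtain ⟨θ', hθ1, hθ2⟩ := h'
  obtain ⟨Λ, hΛ⟩ := exists_lift C hN
  let c : Alg M →ₗ[ℂ] Alg (ind M s t) :=
    { toFun := fun x => ⟨cmp s t x, cmp_mem_ind C hM x.2⟩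
      map_add' := fun x y => Subtype.ext (map_add (cmp s t) (x : Op H) y)
      map_smul' := fun a x => Subtype.ext (map_smul (cmp s t) a (x : Op H)) }
  let θ'' : Alg (ind M s t) →ₗ[ℂ] Alg (ind N s t) :=
    { toFun := fun x => ⟨θ' x, hθ1 x⟩
      map_add' := fun x y => Subtype.ext (map_add θ' x y)
      map_smul' := fun a x => Subtype.ext (map_smul θ' a x) }
  refine ⟨Λ ∘ₗ θ'' ∘ₗ c, fun x => (hΛ _).1, fun x => ?_⟩
  obtain ⟨y, hy, h1⟩ := h.1 x x.2
  set z : Op H := Λ (θ'' (c x)) with hz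
  change ‖z - x‖ ≤ _
  have hzN : z ∈ N := (hΛ _).1
  have hzc : cmp s t z = θ' (c x) := (hΛ _).2.1
  have h2 := f0_norm_le_cmp C hN hinjN (sub_mem hzN hy)
  have h3 : ‖θ' (c x) - cmp s t x‖ ≤ ε * ‖cmp s t (x : Op H)‖ := hθ2 (c x)
  have h4 : ‖cmp s t (x : Op H)‖ ≤ ‖(x : Op H)‖ := C.norm_cmp _
  have h5 : ‖cmp s t ((x : Op H) - y)‖ ≤ γ * ‖(x : Op H)‖ := (C.norm_cmp _).trans h1
  have h6 : cmp s t (z - y) = (θ' (c x) - cmp s t x) + cmp s t ((x : Op H) - y) := by
    rw [map_sub, map_sub, hzc]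
    abel
  have h7 := norm_add_le (θ' (c x) - cmp s t x) (cmp s t ((x : Op H) - y))
  rw [← h6] at h7
  have h8 := norm_sub_le_norm_sub_add_norm_sub z y (x : Op H)
  rw [norm_sub_rev y] at h8
  have h9 := mul_le_mul_of_nonneg_left h4 hε
  have h10 : ‖x‖ = ‖(x : Op H)‖ := rfl
  rw [h10]
  linarith

/-- Recipe: `e = [M ξ] ∈ M'`; a projection `f ∈ N'` near `e` (`Close.commutant`,
`exists_proj_mem_near`), `exists_unitary_conj_proj` gives `u` with `u f u⋆ = e`, so
`e ∈ (conjVN u N)'`; `exists_cornerData` (the range is separable), `Near.ind`; `t ξ` is cyclic,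
separating (`mem_ind_iff`, `cyc_of_sep`) and tracial for `ind M s t`; `LinNear.of_ind`,
`LinNear.of_conj`. -/
theorem solv_tr (h : Solv KKCyc.{u}) : Solv KKTr.{u} := by
  intro ε hε
  obtain ⟨γ₁, hγ₁, hK⟩ := h (ε / 2) (by positivity)
  refine ⟨min (γ₁ / 400000) (min (1 / 1000000) (ε / 2000000)), by positivity, ?_⟩
  intro H _ _ _ _ M N ξ hsep htr hc
  set γ : ℝ := min (γ₁ / 400000) (min (1 / 1000000) (ε / 2000000)) with hγ
  have hγ0 : 0 < γ := by positivity
  have hγa : γ ≤ γ₁ / 400000 := min_le_left _ _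
  have hγb : γ ≤ 1 / 1000000 := (min_le_right _ _).trans (min_le_left _ _)
  have hγc : γ ≤ ε / 2000000 := (min_le_right _ _).trans (min_le_right _ _)
  obtain ⟨e, he, heM, heξ, hecl⟩ := exists_cyc_proj M ξ
  obtain ⟨f₀, hf₀, h1⟩ := (hc.commutant hγ0.le).1 e heM
  have h1' : ‖f₀ - e‖ ≤ 4200 * γ := by
    rw [norm_sub_rev]
    exact h1.trans (mul_le_of_le_one_right (by positivity) he.norm_le)
  obtain ⟨f, hfN, hf, h2⟩ := exists_proj_mem_near hf₀ he (by linarith) h1'
  obtain ⟨u, hu, hue⟩ := exists_unitary_conj_proj hf he (by linarith) h2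
  have heN : e ∈ (conjVN u N).commutant := by
    rw [conjVN_commutant, ← hue]
    exact conj_mem_conjVN u hfN
  have hc' := hc.conj_right hγ0.le (by linarith) hu
  obtain ⟨L, _, _, _, s, t, C, hL⟩ := exists_cornerData he
  have := hL (TopologicalSpace.IsSeparable.of_separableSpace _)
  have hst : s (t ξ) = ξ := by
    rw [C.st]
    exact heξ 1 (one_mem M)
  have hcmp : ∀ x : Op H, cmp s t x (t ξ) = t (x ξ) := fun x => by rw [R124.cmp_apply, hst]
  have hnt : ∀ x ∈ M, ‖cmp s t x (t ξ)‖ = ‖x ξ‖ := fun x hx => by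
    rw [hcmp, ← C.norm_s, C.st, heξ x hx]
  have hinj' : ∀ x ∈ M, cmp s t x (t ξ) = 0 → x = 0 := fun x hx h0 =>
    hsep x hx (norm_eq_zero.1 (by rw [← hnt x hx, h0, norm_zero]))
  have hinj : ∀ x ∈ M, cmp s t x = 0 → x = 0 := fun x hx h0 =>
    hinj' x hx (by rw [h0, zero_apply])
  have hcyc : Cyc (ind M s t) (t ξ) := by
    intro η
    have h3 := map_mem_closure (f := t)
      (t := (fun a : Op L => a (t ξ)) '' (ind M s t : Set (Op L))) t.continuous (hecl (s η)) (by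
        rintro _ ⟨x, hx, rfl⟩
        exact ⟨cmp s t x, cmp_mem_ind C heM hx, hcmp x⟩)
    rwa [C.tq, C.ts] at h3
  have hcyc' : Cyc (ind M s t).commutant (t ξ) := by
    refine cyc_of_sep fun T hT h0 => ?_
    obtain ⟨x, hx, -, rfl⟩ := (mem_ind_iff C heM).1 hT
    rw [hinj' x hx h0, map_zero]
  have htr' : Trc (ind M s t) (t ξ) := by
    intro T hT
    obtain ⟨x, hx, -, rfl⟩ := (mem_ind_iff C heM).1 hT
    rw [← C.cmp_star, hnt x hx, hnt _ (star_mem hx), htr x hx]
  have hγ' : 0 ≤ γ + 4 * (2 * (10 * (4200 * γ))) := by positivity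
  have hci : Close (ind M s t) (ind (conjVN u N) s t) γ₁ :=
    Close.mono ⟨hc'.1.ind C heM heN hγ', hc'.2.ind C heN heM hγ'⟩ (by linarith)
  have h4 := hK L _ _ (t ξ) hcyc hcyc' htr' hci
  have h5 := LinNear.of_ind C heM heN hinj hγ' (by linarith) (by positivity) hc' h4
  exact (h5.of_conj hu).mono (by linarith)

end

end Crest.Agent.R78
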