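import Crest.Agent.R78.Basic

/-!
# Row 78: API for the functional calculus and strong integrals
-/

open scoped InnerProductSpace Topology ComplexConjugate
open Filter MeasureTheory

set_option linter.unusedSectionVars false

namespace Crest.Agent.R78

open Crest.Agent.R121 (Alg)

noncomputable section

universe u

variable {H : Type*} [NormedAddCommGroup H] [InnerProductSpace ℂ H] [CompleteSpace H]

/-! ### Bounded continuous functions -/

theorem fca_norm_exp (t x : ℝ) : ‖Complex.exp (Complex.I * t * x)‖ = 1 := by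
  rw [mul_assoc, ← Complex.ofReal_mul, Complex.norm_exp_I_mul_ofReal]

theorem fca_conj_exp (t x : ℝ) :
    conj (Complex.exp (Complex.I * t * x)) = Complex.exp (Complex.I * t * (-x : ℝ)) := by
  rw [← Complex.exp_conj]
  simp

theorem BC.fca_int {g : ℝ → ℂ} (hg : BC g) (μ : Measure ℝ) [IsFiniteMeasure μ] :
    Integrable g μ := by
  obtain ⟨h1, C, hC⟩ := hg
  exact Integrable.of_bound h1.aestronglyMeasurable C (Eventually.of_forall hC)

theorem BC.fca_int_sq {g : ℝ → ℂ} (hg : BC g) (μ : Measure ℝ) [IsFiniteMeasure μ] :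
    Integrable (fun x => ‖g x‖ ^ 2) μ := by
  obtain ⟨h1, C, hC⟩ := hg
  refine Integrable.of_bound (h1.norm.pow 2).aestronglyMeasurable (C ^ 2)
    (Eventually.of_forall fun x => ?_)
  rw [norm_pow, norm_norm]
  exact pow_le_pow_left₀ (norm_nonneg _) (hC x) 2

theorem fca_int_conj {k : ℝ → ℂ} (hk : Integrable k) : Integrable fun t => conj (k t) :=
  Complex.conjCLE.toContinuousLinearMap.integrable_comp hk

theorem fca_ker_bc {k f : ℝ → ℂ} (h : Ker k f) : BC f := by
  have h1 : ∀ x t : ℝ, ‖k t * Complex.exp (Complex.I * t * x)‖ ≤ ‖k t‖ := fun x t => by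
    rw [norm_mul, fca_norm_exp, mul_one]
  rw [show f = _ from funext h.eq]
  refine ⟨continuous_of_dominated (bound := fun t => ‖k t‖) (fun x => ?_)
    (fun x => Eventually.of_forall (h1 x)) h.int.norm (Eventually.of_forall fun t => by fun_prop),
    ∫ t, ‖k t‖, fun x => norm_integral_le_of_norm_le h.int.norm (Eventually.of_forall (h1 x))⟩
  have := h.cont
  exact Continuous.aestronglyMeasurable (by fun_prop)

theorem fca_sc_int {k : ℝ → ℂ} {G : ℝ → Op H} (hk : Integrable k) (hG : SC G) (v : H) :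
    Integrable fun t => k t • G t v := by
  obtain ⟨h1, C, hC⟩ := hG
  refine (hk.norm.mul_const (C * ‖v‖)).mono'
    (hk.aestronglyMeasurable.smul (h1 v).aestronglyMeasurable) (Eventually.of_forall fun t => ?_)
  rw [norm_smul]
  exact mul_le_mul_of_nonneg_left ((G t).le_of_opNorm_le (hC t) v) (norm_nonneg _)

theorem fca_norm_int_le {k : ℝ → ℂ} {G : ℝ → Op H} (hk : Integrable k) {C : ℝ}
    (hC : ∀ t, ‖G t‖ ≤ C) (v : H) : ‖∫ t, k t • G t v‖ ≤ (∫ t, ‖k t‖) * C * ‖v‖ := by
  rw [mul_assoc, ← integral_mul_const]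
  refine norm_integral_le_of_norm_le (hk.norm.mul_const _) (Eventually.of_forall fun t => ?_)
  rw [norm_smul]
  exact mul_le_mul_of_nonneg_left ((G t).le_of_opNorm_le (hC t) v) (norm_nonneg _)

theorem fca_oint_apply {k : ℝ → ℂ} {G : ℝ → Op H} (hk : Integrable k) (hG : SC G) (v : H) :
    oint k G v = ∫ t, k t • G t v := by
  have h : ∃ T : Op H, ∀ v, T v = ∫ t, k t • G t v := by
    obtain ⟨C, hC⟩ := hG.2
    refine ⟨LinearMap.mkContinuous
      { toFun := fun v => ∫ t, k t • G t v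
        map_add' := fun v w => ?_
        map_smul' := fun c v => ?_ } ((∫ t, ‖k t‖) * C) (fca_norm_int_le hk hC), fun _ => rfl⟩
    · simp only [map_add, smul_add]
      exact integral_add (fca_sc_int hk hG v) (fca_sc_int hk hG w)
    · simp only [map_smul, RingHom.id_apply, smul_comm _ c]
      exact integral_smul _ _
  rw [oint, dif_pos h]
  exact h.choose_spec v

theorem fca_inner_oint {k : ℝ → ℂ} {G : ℝ → Op H} (hk : Integrable k) (hG : SC G) (v w : H) :
    ⟪w, oint k G v⟫_ℂ = ∫ t, k t * ⟪w, G t v⟫_ℂ := by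
  rw [fca_oint_apply hk hG, ← integral_inner (fca_sc_int hk hG v)]
  simp only [inner_smul_right]

/-- the cutoff `min 1 (|x| / R)` -/
def fcaCut (R : ℝ) (x : ℝ) : ℂ := (min 1 (|x| / R) : ℝ)

theorem fca_cut_le {R : ℝ} (hR : 0 ≤ R) (x : ℝ) : ‖fcaCut R x‖ ≤ 1 := by
  rw [fcaCut, Complex.norm_real, Real.norm_of_nonneg (le_min zero_le_one (by positivity))]
  exact min_le_left _ _

theorem fca_cut_bc {R : ℝ} (hR : 0 ≤ R) : BC (fcaCut R) :=
  ⟨by unfold fcaCut; fun_prop, 1, fca_cut_le hR⟩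

theorem fca_cut_eq {R : ℝ} (hR : 0 < R) {x : ℝ} (hx : R ≤ |x|) : fcaCut R x = 1 := by
  rw [fcaCut, min_eq_left ((one_le_div hR).2 hx), Complex.ofReal_one]

theorem fca_cut_tendsto (x : ℝ) : Tendsto (fun n : ℕ => fcaCut n x) atTop (𝓝 0) := by
  have h1 : Tendsto (fun n : ℕ => min 1 (|x| / (n : ℝ))) atTop (𝓝 (min 1 0)) :=
    tendsto_const_nhds.min (tendsto_const_div_atTop_nhds_zero_nat _)
  rw [min_eq_right zero_le_one] at h1
  exact (Complex.continuous_ofReal.tendsto 0).comp h1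

namespace BC

variable {f g : ℝ → ℂ}

theorem const (c : ℂ) : BC fun _ => c := by
  exact ⟨continuous_const, ‖c‖, fun _ => le_rfl⟩
theorem add (hf : BC f) (hg : BC g) : BC fun x => f x + g x := by
  obtain ⟨h1, C, hC⟩ := hf
  obtain ⟨h2, D, hD⟩ := hg
  exact ⟨h1.add h2, C + D, fun x => norm_add_le_of_le (hC x) (hD x)⟩
theorem sub (hf : BC f) (hg : BC g) : BC fun x => f x - g x := by
  obtain ⟨h1, C, hC⟩ := hf
  obtain ⟨h2, D, hD⟩ := hg
  exact ⟨h1.sub h2, C + D, fun x => norm_sub_le_of_le (hC x) (hD x)⟩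
theorem mul (hf : BC f) (hg : BC g) : BC fun x => f x * g x := by
  obtain ⟨h1, C, hC⟩ := hf
  obtain ⟨h2, D, hD⟩ := hg
  exact ⟨h1.mul h2, C * D, fun x => norm_mul_le_of_le (hC x) (hD x)⟩
theorem conj' (hf : BC f) : BC fun x => conj (f x) := by
  obtain ⟨h1, C, hC⟩ := hf
  exact ⟨Complex.continuous_conj.comp h1, C, fun x => by simpa using hC x⟩
theorem comp_neg (hf : BC f) : BC fun x => f (-x) := by
  obtain ⟨h1, C, hC⟩ := hf
  exact ⟨h1.comp continuous_neg, C, fun x => hC _⟩
theorem comp_sub (hf : BC f) (s : ℝ) : BC fun x => f (x - s) := by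
  obtain ⟨h1, C, hC⟩ := hf
  exact ⟨h1.comp (continuous_sub_right s), C, fun x => hC _⟩
theorem sum {ι : Type*} (s : Finset ι) {f : ι → ℝ → ℂ} (hf : ∀ i ∈ s, BC (f i)) :
    BC fun x => ∑ i ∈ s, f i x := by
  classical
  induction s using Finset.induction_on with
  | empty => simpa using const 0
  | insert a s ha ih =>
    simp only [Finset.sum_insert ha]
    exact (hf a (Finset.mem_insert_self _ _)).add
      (ih fun i hi => hf i (Finset.mem_insert_of_mem hi))
theorem expI (t : ℝ) : BC fun x => Complex.exp (Complex.I * t * x) := by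
  exact ⟨by fun_prop, 1, fun x => (fca_norm_exp t x).le⟩
theorem of_le (hf : Continuous f) {C : ℝ} (h : ∀ x, ‖f x‖ ≤ C) : BC f := ⟨hf, C, h⟩
theorem of_supp (hf : Continuous f) (h : HasCompactSupport f) : BC f := by
  exact ⟨hf, hf.bounded_above_of_compact_support h⟩

end BC

namespace FC

variable (F : FC H) {f g : ℝ → ℂ}

theorem fn_const (c : ℂ) : F.fn (fun _ => c) = c • (1 : Op H) := by
  simpa [F.fn_one] using F.fn_smul c (BC.const 1)

theorem fn_sub (hf : BC f) (hg : BC g) : F.fn (fun x => f x - g x) = F.fn f - F.fn g := by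
  rw [eq_sub_iff_add_eq, ← F.fn_add (hf.sub hg) hg]
  simp

theorem fn_sum {ι : Type*} (s : Finset ι) {f : ι → ℝ → ℂ} (hf : ∀ i ∈ s, BC (f i)) :
    F.fn (fun x => ∑ i ∈ s, f i x) = ∑ i ∈ s, F.fn (f i) := by
  classical
  induction s using Finset.induction_on with
  | empty => simpa using F.fn_const 0
  | insert a s ha ih =>
    have h1 := fun i hi => hf i (Finset.mem_insert_of_mem hi)
    simp only [Finset.sum_insert ha]
    rw [F.fn_add (hf a (Finset.mem_insert_self _ _)) (BC.sum s h1), ih h1]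

theorem commute_fn (hf : BC f) (hg : BC g) : Commute (F.fn f) (F.fn g) := by
  rw [Commute, SemiconjBy, ← F.fn_mul hf hg, ← F.fn_mul hg hf]
  simp only [mul_comm]

/-- The spectral measure computes norms. -/
theorem exists_meas (v : H) : ∃ μ : Measure ℝ, IsFiniteMeasure μ ∧
    (∀ g, BC g → ⟪v, F.fn g v⟫_ℂ = ∫ x, g x ∂μ) ∧ ∀ g, BC g → ‖F.fn g v‖ ^ 2 = ∫ x, ‖g x‖ ^ 2 ∂μ := by
  obtain ⟨μ, hμ, h⟩ := F.meas v
  refine ⟨μ, hμ, h, fun g hg => ?_⟩
  have h1 := h _ (hg.conj'.mul hg)
  rw [F.fn_mul hg.conj' hg, F.fn_star hg, mul_apply_eq_comp, bas_inner_star,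
    inner_self_eq_norm_sq_to_K] at h1
  simp only [Complex.conj_mul', ← Complex.ofReal_pow, integral_complex_ofReal] at h1
  exact Complex.ofReal_injective ((Complex.ofReal_pow _ _).trans h1)

/-- Pointwise inequalities between sums of squares pass to the operators. -/
theorem sum_norm_sq_le {ι κ : Type*} (s : Finset ι) (r : Finset κ) {f : ι → ℝ → ℂ}
    {g : κ → ℝ → ℂ} (hf : ∀ i ∈ s, BC (f i)) (hg : ∀ k ∈ r, BC (g k))
    (h : ∀ x, ∑ i ∈ s, ‖f i x‖ ^ 2 ≤ ∑ k ∈ r, ‖g k x‖ ^ 2) (v : H) :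
    ∑ i ∈ s, ‖F.fn (f i) v‖ ^ 2 ≤ ∑ k ∈ r, ‖F.fn (g k) v‖ ^ 2 := by
  obtain ⟨μ, hμ, -, h2⟩ := F.exists_meas v
  rw [Finset.sum_congr rfl fun i hi => h2 _ (hf i hi), Finset.sum_congr rfl fun i hi => h2 _ (hg i hi),
    ← integral_finsetSum _ fun i hi => (hf i hi).fca_int_sq μ,
    ← integral_finsetSum _ fun i hi => (hg i hi).fca_int_sq μ]
  exact integral_mono (integrable_finsetSum _ fun i hi => (hf i hi).fca_int_sq μ)
    (integrable_finsetSum _ fun i hi => (hg i hi).fca_int_sq μ) h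

theorem fca_apply_le (hf : BC f) (hg : BC g) (h : ∀ x, ‖f x‖ ≤ ‖g x‖) (v : H) :
    ‖F.fn f v‖ ≤ ‖F.fn g v‖ := by
  obtain ⟨μ, hμ, -, h2⟩ := F.exists_meas v
  refine (pow_le_pow_iff_left₀ (norm_nonneg _) (norm_nonneg _) two_ne_zero).1 ?_
  rw [h2 _ hf, h2 _ hg]
  exact integral_mono (hf.fca_int_sq μ) (hg.fca_int_sq μ) fun x =>
    pow_le_pow_left₀ (norm_nonneg _) (h x) 2

theorem norm_fn_le (hf : BC f) {C : ℝ} (h : ∀ x, ‖f x‖ ≤ C) : ‖F.fn f‖ ≤ C := by
  have h0 : 0 ≤ C := (norm_nonneg _).trans (h 0)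
  refine ContinuousLinearMap.opNorm_le_bound _ h0 fun v => ?_
  have h1 := F.fca_apply_le hf (BC.const C) (fun x => by simpa [abs_of_nonneg h0] using h x) v
  simpa [F.fn_const, norm_smul, abs_of_nonneg h0] using h1

theorem norm_fn_apply_le (hf : BC f) (hg : BC g) (h : ∀ x, ‖f x‖ ≤ ‖g x‖) (v : H) :
    ‖F.fn f v‖ ≤ ‖F.fn g v‖ := by
  exact F.fca_apply_le hf hg h v

/-- Dominated convergence along a countably generated filter. -/
theorem tendsto_fn {X : Type*} {l : Filter X} [l.IsCountablyGenerated] {g : X → ℝ → ℂ}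
    (hg : ∀ i, BC (g i)) (hf : BC f) {C : ℝ} (hC : ∀ i x, ‖g i x‖ ≤ C)
    (h : ∀ x, Tendsto (fun i => g i x) l (𝓝 (f x))) (v : H) :
    Tendsto (fun i => F.fn (g i) v) l (𝓝 (F.fn f v)) := by
  obtain ⟨μ, hμ, -, h2⟩ := F.exists_meas v
  obtain ⟨D, hD⟩ := hf.2
  have h3 : Tendsto (fun i => ∫ x, ‖g i x - f x‖ ^ 2 ∂μ) l (𝓝 (∫ _, 0 ∂μ)) := by
    refine tendsto_integral_filter_of_dominated_convergence (fun _ => (C + D) ^ 2)
      (Eventually.of_forall fun i => (((hg i).sub hf).fca_int_sq μ).aestronglyMeasurable)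
      (Eventually.of_forall fun i => Eventually.of_forall fun x => ?_) (integrable_const _)
      (Eventually.of_forall fun x => ?_)
    · rw [norm_pow, norm_norm]
      exact pow_le_pow_left₀ (norm_nonneg _) (norm_sub_le_of_le (hC i x) (hD x)) 2
    · simpa using (tendsto_iff_norm_sub_tendsto_zero.1 (h x)).pow 2
  rw [tendsto_iff_norm_sub_tendsto_zero]
  have h4 := h3.sqrt
  simp only [integral_zero, Real.sqrt_zero] at h4
  refine h4.congr fun i => ?_
  rw [← h2 _ ((hg i).sub hf), Real.sqrt_sq (norm_nonneg _), F.fn_sub (hg i) hf]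
  rfl

/-- Tightness. -/
theorem tight (v : H) {ε : ℝ} (hε : 0 < ε) : ∃ R > 0, ∀ g, BC g → ∀ C, (∀ x, ‖g x‖ ≤ C) →
    (∀ x, |x| ≤ R → g x = 0) → ‖F.fn g v‖ ≤ ε * C := by
  have h1 := F.tendsto_fn (l := atTop) (fun n : ℕ => fca_cut_bc n.cast_nonneg) (BC.const 0)
    (fun n => fca_cut_le n.cast_nonneg) fca_cut_tendsto v
  rw [F.fn_const, zero_smul, zero_apply] at h1
  obtain ⟨n, hn, hn1⟩ := ((h1.norm.eventually (ge_mem_nhds (by simpa using hε))).and
    (eventually_ge_atTop 1)).exists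
  have hn0 : (0 : ℝ) < n := by exact_mod_cast hn1
  refine ⟨n, hn0, fun g hg C hC h0 => ?_⟩
  have hC0 : 0 ≤ C := (norm_nonneg _).trans (hC 0)
  refine (F.norm_fn_apply_le hg ((BC.const C).mul (fca_cut_bc hn0.le)) (fun x => ?_) v).trans ?_
  · rcases le_total |x| n with h | h
    · rw [h0 x h, norm_zero]
      exact norm_nonneg _
    · simpa [fca_cut_eq hn0 h, abs_of_nonneg hC0] using hC x
  · rw [F.fn_smul _ (fca_cut_bc hn0.le), smul_apply, norm_smul,
      Complex.norm_real, Real.norm_of_nonneg hC0, mul_comm]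
    exact mul_le_mul_of_nonneg_right hn hC0

theorem fn_injective (hg : BC g) (h0 : ∀ x, g x ≠ 0) {v : H} (h : F.fn g v = 0) : v = 0 := by
  obtain ⟨μ, hμ, -, h2⟩ := F.exists_meas v
  have h3 := h2 _ hg
  rw [h, norm_zero, zero_pow two_ne_zero, eq_comm,
    integral_eq_zero_iff_of_nonneg (fun x => sq_nonneg _) (hg.fca_int_sq μ)] at h3
  have h4 := h2 _ (BC.const 1)
  rw [F.fn_one, one_apply_eq_self, integral_congr_ae (g := fun _ => 0)
    (h3.mono fun x hx => absurd (by simpa using hx) (h0 x)), integral_zero] at h4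
  simpa using h4

theorem fn_denseRange (hg : BC g) (h0 : ∀ x, g x ≠ 0) : DenseRange (F.fn g) := by
  have h1 : (F.fn g).range.topologicalClosure = ⊤ := by
    rw [Submodule.topologicalClosure_eq_top_iff, eq_bot_iff]
    intro w hw
    refine F.fn_injective hg.conj' (fun x => by simpa using h0 x) ?_
    rw [F.fn_star hg]
    refine ext_inner_left ℂ fun v => ?_
    rw [bas_inner_star, inner_zero_right]
    exact hw _ ⟨v, rfl⟩
  exact Submodule.dense_iff_topologicalClosure_eq_top.2 h1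

/-- If `g(D) v = g(D) w` for all continuous compactly supported `g`, then `v = w`. -/
theorem eq_of_forall_supp {v w : H}
    (h : ∀ g : ℝ → ℂ, Continuous g → HasCompactSupport g → F.fn g v = F.fn g w) : v = w := by
  have h1 := fun u => F.tendsto_fn (l := atTop) (g := fun (n : ℕ) x => 1 - fcaCut n x)
    (fun n : ℕ => (BC.const 1).sub (fca_cut_bc n.cast_nonneg)) (BC.const 1) (C := 1 + 1)
    (fun n x => norm_sub_le_of_le norm_one.le (fca_cut_le n.cast_nonneg x))
    (fun x => by simpa using (fca_cut_tendsto x).const_sub 1) u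
  simp only [F.fn_one, one_apply_eq_self] at h1
  refine tendsto_nhds_unique_of_eventuallyEq (h1 v) (h1 w) ?_
  filter_upwards [eventually_ge_atTop 1] with n hn
  have hn0 : (0 : ℝ) < n := by exact_mod_cast hn
  refine h _ ((BC.const 1).sub (fca_cut_bc hn0.le)).1
    (HasCompactSupport.intro (isCompact_closedBall 0 n) fun x hx => ?_)
  rw [fca_cut_eq hn0 (le_of_not_ge fun h => hx (by simpa using h)), sub_self]

theorem V_zero : F.V 0 = 1 := by
  simp [V, F.fn_one]
theorem V_add (s t : ℝ) : F.V (s + t) = F.V s * F.V t := by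
  rw [V, V, V, ← F.fn_mul (BC.expI s) (BC.expI t)]
  simp only [← Complex.exp_add, Complex.ofReal_add, mul_add, add_mul]
theorem star_V (t : ℝ) : star (F.V t) = F.V (-t) := by
  rw [V, V, ← F.fn_star (BC.expI t)]
  simp only [fca_conj_exp, Complex.ofReal_neg, mul_neg, neg_mul]
theorem V_mul_neg (t : ℝ) : F.V t * F.V (-t) = 1 := by
  rw [← F.V_add, add_neg_cancel, F.V_zero]
theorem V_neg_mul (t : ℝ) : F.V (-t) * F.V t = 1 := by
  rw [← F.V_add, neg_add_cancel, F.V_zero]
theorem V_mem_unitary (t : ℝ) : F.V t ∈ unitary (Op H) := by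
  rw [Unitary.mem_iff, F.star_V]
  exact ⟨F.V_neg_mul t, F.V_mul_neg t⟩
theorem norm_V_apply (t : ℝ) (v : H) : ‖F.V t v‖ = ‖v‖ := by
  exact ContinuousLinearMap.norm_map_of_mem_unitary (F.V_mem_unitary t) v
theorem norm_V_le (t : ℝ) : ‖F.V t‖ ≤ 1 := by
  exact F.norm_fn_le (BC.expI t) fun x => (fca_norm_exp t x).le
theorem continuous_V (v : H) : Continuous fun t => F.V t v := by
  exact continuous_iff_continuousAt.2 fun t => F.tendsto_fn BC.expI (BC.expI t)
    (fun s x => (fca_norm_exp s x).le) (fun x => Continuous.tendsto (by fun_prop) t) v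

/-- `V t` as a unitary. -/
def Vu (t : ℝ) : unitary (Op H) := ⟨F.V t, F.V_mem_unitary t⟩

@[simp] theorem coe_Vu (t : ℝ) : (F.Vu t : Op H) = F.V t := rfl

/-- `V` as a unitary representation of the discrete group `ℝ`. -/
def Vhom : Multiplicative ℝ →* unitary (Op H) where
  toFun t := F.Vu t.toAdd
  map_one' := Subtype.ext F.V_zero
  map_mul' s t := Subtype.ext (F.V_add _ _)

/-- Fourier representation (polarise, use the spectral measures and Fubini). -/
theorem integral_V {k : ℝ → ℂ} (h : Ker k f) (v : H) : ∫ t, k t • F.V t v = F.fn f v := by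
  have hV : SC F.V := ⟨F.continuous_V, 1, F.norm_V_le⟩
  have h1 : (oint k F.V : H →ₗ[ℂ] H) = F.fn f := by
    refine (ext_inner_map _ _).1 fun u => ?_
    obtain ⟨μ, hμ, h2⟩ := F.meas u
    rw [← inner_conj_symm, ← inner_conj_symm (_ : H) u]
    congr 1
    refine (fca_inner_oint h.int hV u u).trans (Eq.trans ?_ (h2 f (fca_ker_bc h)).symm)
    simp only [V, h2 _ (BC.expI _), h.eq, ← integral_const_mul]
    refine integral_integral_swap ((h.int.norm.comp_fst μ).mono' ?_
      (Eventually.of_forall fun p => ?_))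
    · have := h.cont
      exact Continuous.aestronglyMeasurable (by fun_prop)
    · simp only [Function.uncurry, norm_mul, fca_norm_exp, mul_one, le_refl]
  rw [← fca_oint_apply h.int hV]
  exact LinearMap.congr_fun h1 v

end FC

/-! ### Kernels -/

namespace Ker

variable {k f : ℝ → ℂ}

theorem bc (h : Ker k f) : BC f := by
  exact fca_ker_bc h

theorem star' (h : Ker k f) : Ker (fun t => conj (k t)) (fun x => conj (f (-x))) := by
  refine ⟨Complex.continuous_conj.comp h.cont, fca_int_conj h.int, fun x => ?_⟩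
  rw [h.eq, ← integral_conj]
  simp only [map_mul, fca_conj_exp, neg_neg]

theorem shift (h : Ker k f) (s : ℝ) :
    Ker (fun t => k t * Complex.exp (-(Complex.I * t * s))) (fun x => f (x - s)) := by
  have := h.cont
  refine ⟨by fun_prop, h.int.mul_bdd (c := 1) (Continuous.aestronglyMeasurable (by fun_prop))
    (Eventually.of_forall fun t => ?_), fun x => ?_⟩
  · rw [Complex.exp_neg, norm_inv, fca_norm_exp, inv_one]
  · simp only [h.eq, mul_assoc (k _), ← Complex.exp_add]
    congr 1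
    funext t
    congr 2
    push_cast
    ring

theorem neg (h : Ker k f) : Ker (fun t => k (-t)) (fun x => f (-x)) := by
  refine ⟨h.cont.comp continuous_neg, h.int.comp_neg, fun x => ?_⟩
  rw [h.eq, ← integral_neg_eq_self]
  simp only [Complex.ofReal_neg, mul_neg, neg_mul, neg_neg]

theorem smul (h : Ker k f) (c : ℂ) : Ker (fun t => c * k t) (fun x => c * f x) := by
  refine ⟨continuous_const.mul h.cont, h.int.const_mul c, fun x => ?_⟩
  simp only [h.eq, mul_assoc c, integral_const_mul]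

theorem scale (h : Ker k f) {R : ℝ} (hR : 0 < R) :
    Ker (fun t => (R : ℂ) * k (R * t)) (fun x => f (x / R)) := by
  have := h.cont
  refine ⟨by fun_prop, (h.int.comp_mul_left' hR.ne').const_mul _, fun x => ?_⟩
  have h1 := Measure.integral_comp_mul_left
    (fun t => k t * Complex.exp (Complex.I * t * (x / R : ℝ))) R
  have hR' : (R : ℂ) ≠ 0 := by exact_mod_cast hR.ne'
  have h2 : ∀ t : ℝ, Complex.I * (R * t : ℝ) * (x / R : ℝ) = Complex.I * t * x := fun t => by
    push_cast
    field_simp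
  simp only [h2] at h1
  simp only [mul_assoc (R : ℂ), integral_const_mul]
  rw [h1, ← h.eq, abs_of_pos (inv_pos.2 hR), Complex.real_smul, Complex.ofReal_inv,
    mul_inv_cancel_left₀ hR']

theorem integral_norm_scale (k : ℝ → ℂ) {R : ℝ} (hR : 0 < R) :
    ∫ t, ‖(R : ℂ) * k (R * t)‖ = ∫ t, ‖k t‖ := by
  simp only [norm_mul, integral_const_mul]
  rw [Measure.integral_comp_mul_left (fun t => ‖k t‖) R, abs_of_pos (inv_pos.2 hR), smul_eq_mul,
    Complex.norm_real, Real.norm_of_nonneg hR.le, mul_inv_cancel_left₀ hR.ne']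

end Ker

/-! ### Strong integrals -/

section oint

variable {k : ℝ → ℂ} {G G' : ℝ → Op H}

theorem SC.integrable (hk : Integrable k) (hG : SC G) (v : H) :
    Integrable fun t => k t • G t v := by
  exact fca_sc_int hk hG v

theorem oint_apply (hk : Integrable k) (hG : SC G) (v : H) :
    oint k G v = ∫ t, k t • G t v := by
  exact fca_oint_apply hk hG v

theorem norm_oint_le (hk : Integrable k) (hG : SC G) {C : ℝ} (hC : ∀ t, ‖G t‖ ≤ C) :
    ‖oint k G‖ ≤ (∫ t, ‖k t‖) * C := by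
  refine ContinuousLinearMap.opNorm_le_bound _ (mul_nonneg (integral_nonneg fun _ => norm_nonneg _)
    ((norm_nonneg _).trans (hC 0))) fun v => ?_
  rw [oint_apply hk hG]
  exact fca_norm_int_le hk hC v

theorem commute_oint (hk : Integrable k) (hG : SC G) {S : Op H} (h : ∀ t, Commute S (G t)) :
    Commute S (oint k G) := by
  ext v
  rw [mul_apply_eq_comp, mul_apply_eq_comp, oint_apply hk hG,
    oint_apply hk hG, ← S.integral_comp_comm (hG.integrable hk v)]
  congr 1
  funext t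
  rw [map_smul]
  exact congrArg (fun T : Op H => k t • T v) (h t)

theorem oint_mem (hk : Integrable k) (hG : SC G) {P : VN H} (h : ∀ t, G t ∈ P) : oint k G ∈ P := by
  exact bas_mem fun y hy => commute_oint hk hG fun t => (mem_comm.1 hy _ (h t)).symm

theorem star_oint (hk : Integrable k) (hG : SC G) (hG' : SC fun t => star (G t)) :
    star (oint k G) = oint (fun t => conj (k t)) fun t => star (G t) := by
  ext v
  refine ext_inner_left ℂ fun w => ?_
  rw [fca_inner_oint (fca_int_conj hk) hG', bas_inner_star, ← inner_conj_symm, fca_inner_oint hk hG,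
    ← integral_conj]
  simp only [map_mul, inner_conj_symm, bas_inner_star]

/-- Jensen for families: `∑ ‖∫ k_j G_j v‖² ≤ (∫ κ) ∫ κ ∑ ‖G_j v‖²` when `‖k_j‖ ≤ κ`. -/
theorem col_oint {ι : Type*} [Fintype ι] {k : ι → ℝ → ℂ} {κ : ℝ → ℝ} (hk : ∀ j, Integrable (k j))
    (hκ : Integrable κ) (hkκ : ∀ j t, ‖k j t‖ ≤ κ t) {G : ι → ℝ → Op H} (hG : ∀ j, SC (G j))
    {c : ℝ} (hc : 0 ≤ c) (h : ∀ t, Col (fun j => G j t) c) :
    Col (fun j => oint (k j) (G j)) ((∫ t, κ t) * c) := by
  intro v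
  rcases isEmpty_or_nonempty ι with _ | ⟨⟨j₀⟩⟩
  · rw [Finset.univ_eq_empty, Finset.sum_empty]
    positivity
  have hκ0 : 0 ≤ ∫ t, κ t := integral_nonneg fun t => (norm_nonneg _).trans (hkκ j₀ t)
  obtain ⟨S, hS⟩ : ∃ S, S = ∑ j, ‖oint (k j) (G j) v‖ ^ 2 := ⟨_, rfl⟩
  have hS0 : 0 ≤ S := hS ▸ Finset.sum_nonneg fun _ _ => sq_nonneg _
  have h1 : (S : ℂ) = ∫ t, ∑ j, ⟪oint (k j) (G j) v, k j t • G j t v⟫_ℂ := by
    rw [integral_finsetSum _ fun j _ => ((hG j).integrable (hk j) v).const_inner _, hS,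
      Complex.ofReal_sum]
    refine Finset.sum_congr rfl fun j _ => ?_
    rw [integral_inner ((hG j).integrable (hk j) v), ← oint_apply (hk j) (hG j),
      inner_self_eq_norm_sq_to_K]
    simp
  have h2 : S ≤ (∫ t, κ t) * (√S * (c * ‖v‖)) := by
    rw [← integral_mul_const]
    refine le_trans (by rw [Complex.norm_real, Real.norm_of_nonneg hS0]) (h1 ▸
      norm_integral_le_of_norm_le (hκ.mul_const _) (Eventually.of_forall fun t => ?_) :
      ‖(S : ℂ)‖ ≤ _)
    refine (bas_cs _ _).trans ?_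
    rw [← hS, mul_left_comm]
    refine mul_le_mul_of_nonneg_left ?_ (Real.sqrt_nonneg _)
    have h3 : 0 ≤ κ t := (norm_nonneg _).trans (hkκ j₀ t)
    rw [Real.sqrt_le_left (by positivity), mul_pow, mul_pow]
    refine le_trans ?_ (mul_le_mul_of_nonneg_left (h t v) (sq_nonneg _))
    rw [Finset.mul_sum]
    refine Finset.sum_le_sum fun j _ => ?_
    rw [norm_smul, mul_pow]
    gcongr
    exact hkκ j t
  rw [← hS, ← mul_pow, ← Real.sqrt_le_left (by positivity)]
  rcases (Real.sqrt_nonneg S).eq_or_lt with h0 | h0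
  · rw [← h0]
    positivity
  · refine le_of_mul_le_mul_left ?_ h0
    rw [Real.mul_self_sqrt hS0]
    exact h2.trans_eq (by ring)

theorem FC.sc_conj (F : FC H) (x : Op H) : SC fun t => F.V t * x * F.V (-t) := by
  refine ⟨fun v => continuous_iff_continuousAt.2 fun s => ?_, ‖x‖, fun t => ?_⟩
  · have h1 : Continuous fun t => x (F.V (-t) v) :=
      x.continuous.comp ((F.continuous_V v).comp continuous_neg)
    have h2 := (tendsto_iff_norm_sub_tendsto_zero.1 (h1.tendsto s)).add
      (tendsto_iff_norm_sub_tendsto_zero.1 ((F.continuous_V (x (F.V (-s) v))).tendsto s))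
    rw [add_zero] at h2
    refine tendsto_iff_norm_sub_tendsto_zero.2 (squeeze_zero (fun _ => norm_nonneg _)
      (fun t => ?_) h2)
    rw [← F.norm_V_apply t (x (F.V (-t) v) - _), map_sub]
    exact norm_sub_le_norm_sub_add_norm_sub _ _ _
  · refine ContinuousLinearMap.opNorm_le_bound _ (norm_nonneg _) fun v => ?_
    rw [mul_apply_eq_comp, mul_apply_eq_comp, F.norm_V_apply,
      ← F.norm_V_apply (-t) v]
    exact x.le_opNorm _

theorem FC.col_conj (F : FC H) {ι : Type*} [Fintype ι] {a : ι → Op H} {c : ℝ} (h : Col a c)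
    (t : ℝ) : Col (fun j => F.V t * a j * F.V (-t)) c := by
  intro v
  simp only [mul_apply_eq_comp, F.norm_V_apply]
  rw [← F.norm_V_apply (-t) v]
  exact h _

end oint

end

end Crest.Agent.R78
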