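import Crest.Agent.R78.FCApi
import Crest.Agent.R78.Gen

/-!
# Row 78: construction of the functional calculus of `log ((2 - R)/R)`
-/

open scoped InnerProductSpace Topology ComplexConjugate
open Filter MeasureTheory

set_option linter.unusedSectionVars false

namespace Crest.Agent.R78

open Crest.Agent.R121 (Alg)

noncomputable section

universe u

variable {H : Type*} [NormedAddCommGroup H] [InnerProductSpace ℂ H] [CompleteSpace H]

theorem fcm_bc {g : ℝ → ℝ} (hg : Continuous g) {C : ℝ} (h : ∀ x, |g x| ≤ C) :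
    BC fun x => (g x : ℂ) :=
  BC.of_le (Complex.continuous_ofReal.comp hg) (C := C) fun x => by
    rw [Complex.norm_real]
    exact h x

theorem fcm_bc_c (g : CompactlySupportedContinuousMap ℝ ℝ) : BC fun x => (g x : ℂ) :=
  BC.of_supp (Complex.continuous_ofReal.comp g.continuous)
    (g.hasCompactSupport.comp_left (g := fun r : ℝ => (r : ℂ)) Complex.ofReal_zero)

/-- Spectral measures from tightness. Recipe: `Λ g = re ⟪v, Φ g v⟫` is a positive functional on
`C_c(ℝ, ℝ)` (`Φ g = Φ(√g)⋆ Φ(√g)`); take `RealRMK.rieszMeasure`; it is finite with mass `≤ ‖v‖²`;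
for bounded continuous `g` use `g χ_n → g` (dominated convergence) and `Φ(χ_n) v → v`; split
complex `g` into real and imaginary parts (`⟪v, Φ g v⟫` is real for real `g`). -/
theorem exists_meas_of_tight (Φ : (ℝ → ℂ) → Op H)
    (hadd : ∀ {f g}, BC f → BC g → Φ (fun x => f x + g x) = Φ f + Φ g)
    (hsmul : ∀ (c : ℂ) {f}, BC f → Φ (fun x => c * f x) = c • Φ f)
    (hmul : ∀ {f g}, BC f → BC g → Φ (fun x => f x * g x) = Φ f * Φ g)
    (hstar : ∀ {f}, BC f → Φ (fun x => conj (f x)) = star (Φ f)) (hone : Φ (fun _ => 1) = 1)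
    (χ : ℕ → ℝ → ℝ) (hχc : ∀ n, Continuous (χ n)) (hχs : ∀ n, HasCompactSupport (χ n))
    (hχ01 : ∀ n x, 0 ≤ χ n x ∧ χ n x ≤ 1) (hχ1 : ∀ x, Tendsto (fun n => χ n x) atTop (𝓝 1))
    (v : H) (ht : Tendsto (fun n => Φ (fun x => (χ n x : ℂ)) v) atTop (𝓝 v)) :
    ∃ μ : Measure ℝ, IsFiniteMeasure μ ∧ ∀ g, BC g → ⟪v, Φ g v⟫_ℂ = ∫ x, g x ∂μ := by
  have hsa : ∀ {g : ℝ → ℝ}, BC (fun x => (g x : ℂ)) →
      star (Φ fun x => (g x : ℂ)) = Φ fun x => (g x : ℂ) := fun hg => by
    rw [← hstar hg]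
    simp only [Complex.conj_ofReal]
  have hre : ∀ {g : ℝ → ℝ}, BC (fun x => (g x : ℂ)) →
      (((⟪v, Φ (fun x => (g x : ℂ)) v⟫_ℂ).re : ℝ) : ℂ) = ⟪v, Φ (fun x => (g x : ℂ)) v⟫_ℂ :=
    fun hg => by
      rw [← Complex.conj_eq_iff_re, inner_conj_symm, ← bas_inner_star, hsa hg]
  have hpos : ∀ g : CompactlySupportedContinuousMap ℝ ℝ, (∀ x, 0 ≤ g x) →
      0 ≤ (⟪v, Φ (fun x => (g x : ℂ)) v⟫_ℂ).re := fun g h0 => by
    have h1 : BC fun x => ((√(g x) : ℝ) : ℂ) :=
      BC.of_supp (Complex.continuous_ofReal.comp g.continuous.sqrt)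
        (g.hasCompactSupport.comp_left (g := fun r : ℝ => ((√r : ℝ) : ℂ)) (by simp))
    have h2 : (fun x => (g x : ℂ)) = fun x => ((√(g x) : ℝ) : ℂ) * ((√(g x) : ℝ) : ℂ) := by
      funext x
      rw [← Complex.ofReal_mul, Real.mul_self_sqrt (h0 x)]
    rw [h2, hmul h1 h1, mul_apply_eq_comp]
    nth_rw 1 [← hsa h1]
    rw [bas_inner_star]
    exact inner_self_nonneg (𝕜 := ℂ)
  have hadd' : ∀ g g' : CompactlySupportedContinuousMap ℝ ℝ,
      (⟪v, Φ (fun x => ((g + g') x : ℂ)) v⟫_ℂ).re =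
        (⟪v, Φ (fun x => (g x : ℂ)) v⟫_ℂ).re + (⟪v, Φ (fun x => (g' x : ℂ)) v⟫_ℂ).re := by
    intro g g'
    rw [← Complex.add_re, ← inner_add_right, ← add_apply, ← hadd (fcm_bc_c g) (fcm_bc_c g')]
    simp
  let Λ : CompactlySupportedContinuousMap ℝ ℝ →ₚ[ℝ] ℝ :=
    { toFun g := (⟪v, Φ (fun x => (g x : ℂ)) v⟫_ℂ).re
      map_add' := hadd'
      map_smul' c g := by
        rw [RingHom.id_apply, smul_eq_mul, ← Complex.re_ofReal_mul, ← inner_smul_right,
          ← smul_apply, ← hsmul c (fcm_bc_c g)]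
        simp
      monotone' g g' h := by
        have h1 := hpos (g' - g) fun x => sub_nonneg.2 (h x)
        have h2 := hadd' g (g' - g)
        rw [add_sub_cancel] at h2
        change (⟪v, Φ (fun x => (g x : ℂ)) v⟫_ℂ).re ≤ (⟪v, Φ (fun x => (g' x : ℂ)) v⟫_ℂ).re
        linarith }
  set μ := RealRMK.rieszMeasure Λ
  have hχ : ∀ n, BC fun x => (χ n x : ℂ) := fun n => fcm_bc (hχc n) (C := 1) fun x => by
    rw [abs_of_nonneg (hχ01 n x).1]
    exact (hχ01 n x).2
  have key : ∀ {g : ℝ → ℝ}, Continuous g → BC (fun x => (g x : ℂ)) →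
      Tendsto (fun n => ∫ x, g x * χ n x ∂μ) atTop (𝓝 (⟪v, Φ (fun x => (g x : ℂ)) v⟫_ℂ).re) := by
    intro g hg hb
    have h1 := (Complex.continuous_re.tendsto _).comp ((tendsto_const_nhds (x := v)).inner
      (𝕜 := ℂ) (((Φ fun x => (g x : ℂ)).continuous.tendsto v).comp ht))
    refine h1.congr fun n => ?_
    have h2 := RealRMK.integral_rieszMeasure Λ ⟨⟨fun x => g x * χ n x, hg.mul (hχc n)⟩,
      (hχs n).mul_left⟩
    refine Eq.trans ?_ h2.symm
    change (⟪v, (Φ (fun x => (g x : ℂ)) * Φ (fun x => (χ n x : ℂ))) v⟫_ℂ).re =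
      (⟪v, Φ (fun x => ((g x * χ n x : ℝ) : ℂ)) v⟫_ℂ).re
    rw [← hmul hb (hχ n)]
    simp only [Complex.ofReal_mul]
  have hfin : IsFiniteMeasure μ := by
    have h1 := key (g := fun _ => 1) continuous_const (BC.const _)
    simp only [one_mul] at h1
    have h2 := lintegral_liminf_le (μ := μ) (u := atTop) (f := fun n x => ENNReal.ofReal (χ n x))
      fun n => (hχc n).measurable.ennreal_ofReal
    have h3 : ∀ x, liminf (fun n => ENNReal.ofReal (χ n x)) atTop = 1 := fun x => by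
      rw [← ENNReal.ofReal_one]
      exact (ENNReal.tendsto_ofReal (hχ1 x)).liminf_eq
    have h4 : ∀ n, ∫⁻ x, ENNReal.ofReal (χ n x) ∂μ = ENNReal.ofReal (∫ x, χ n x ∂μ) := fun n =>
      (ofReal_integral_eq_lintegral_ofReal ((hχc n).integrable_of_hasCompactSupport (hχs n))
        (Eventually.of_forall fun x => (hχ01 n x).1)).symm
    simp only [h3, h4, lintegral_one, (ENNReal.tendsto_ofReal h1).liminf_eq] at h2
    exact ⟨h2.trans_lt ENNReal.ofReal_lt_top⟩
  have hreal : ∀ {g : ℝ → ℝ}, Continuous g → ∀ C, (∀ x, |g x| ≤ C) →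
      ⟪v, Φ (fun x => (g x : ℂ)) v⟫_ℂ = ∫ x, (g x : ℂ) ∂μ := by
    intro g hg C hC
    rw [← hre (fcm_bc hg hC), integral_complex_ofReal]
    congr 1
    refine tendsto_nhds_unique (key hg (fcm_bc hg hC)) ?_
    refine tendsto_integral_of_dominated_convergence (fun _ => C)
      (fun n => (hg.mul (hχc n)).aestronglyMeasurable) (integrable_const C)
      (fun n => Eventually.of_forall fun x => ?_) (Eventually.of_forall fun x => ?_)
    · rw [norm_mul, Real.norm_of_nonneg (hχ01 n x).1]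
      exact (mul_le_of_le_one_right (norm_nonneg _) (hχ01 n x).2).trans (hC x)
    · simpa using (hχ1 x).const_mul (g x)
  refine ⟨μ, hfin, fun g hg => ?_⟩
  obtain ⟨hc, C, hC⟩ := hg
  have c1 : Continuous fun x => (g x).re := Complex.continuous_re.comp hc
  have c2 : Continuous fun x => (g x).im := Complex.continuous_im.comp hc
  have b1 : ∀ x, |(g x).re| ≤ C := fun x => (Complex.abs_re_le_norm _).trans (hC x)
  have b2 : ∀ x, |(g x).im| ≤ C := fun x => (Complex.abs_im_le_norm _).trans (hC x)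
  have e : g = fun x => ((g x).re : ℂ) + Complex.I * ((g x).im : ℂ) := by
    funext x
    rw [mul_comm, Complex.re_add_im]
  have i1 : ∀ {g : ℝ → ℂ}, BC g → Integrable g μ := fun hg =>
    let ⟨_, hC⟩ := hg.2
    Integrable.of_bound hg.1.aestronglyMeasurable _ (Eventually.of_forall hC)
  rw [e, hadd (fcm_bc c1 b1) ((BC.const _).mul (fcm_bc c2 b2)), hsmul _ (fcm_bc c2 b2), add_apply,
    smul_apply, inner_add_right, inner_smul_right, hreal c1 C b1, hreal c2 C b2,
    integral_add (i1 (fcm_bc c1 b1)) (i1 ((BC.const _).mul (fcm_bc c2 b2))), integral_const_mul]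

/-- Complex functions of a self-adjoint operator. -/
def fcmP (R : Op H) (G : ℝ → ℂ) : Op H := cfc (fun z : ℂ => G z.re) R

section Psi

variable {R : Op H} {G G' : ℝ → ℂ}

theorem fcm_c (hG : Continuous G) (s : Set ℂ) : ContinuousOn (fun z : ℂ => G z.re) s :=
  (hG.comp Complex.continuous_re).continuousOn

theorem fcmP_add (hG : Continuous G) (hG' : Continuous G') :
    fcmP R (fun r => G r + G' r) = fcmP R G + fcmP R G' :=
  cfc_add R _ _ (fcm_c hG _) (fcm_c hG' _)

theorem fcmP_mul (hG : Continuous G) (hG' : Continuous G') :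
    fcmP R (fun r => G r * G' r) = fcmP R G * fcmP R G' :=
  cfc_mul _ _ R (fcm_c hG _) (fcm_c hG' _)

theorem fcmP_smul (c : ℂ) (hG : Continuous G) : fcmP R (fun r => c * G r) = c • fcmP R G :=
  cfc_const_mul c _ R (fcm_c hG _)

theorem fcmP_star (G : ℝ → ℂ) : fcmP R (fun r => conj (G r)) = star (fcmP R G) :=
  cfc_star (fun z : ℂ => G z.re) R

theorem fcmP_real (hR : IsSelfAdjoint R) (f : ℝ → ℝ) : fcmP R (fun r => (f r : ℂ)) = cfc f R :=
  (cfc_real_eq_complex f hR).symm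

theorem fcmP_commute (hR : IsSelfAdjoint R) {y : Op H} (hy : Commute y R) (G : ℝ → ℂ) :
    Commute y (fcmP R G) := (hR.commute_cfc hy.symm _).symm

theorem fcmP_split (hR : IsSelfAdjoint R) (hG : Continuous G) :
    fcmP R G = cfc (fun r => (G r).re) R + Complex.I • cfc (fun r => (G r).im) R := by
  rw [← fcmP_real hR, ← fcmP_real hR, ← fcmP_smul _ (by fun_prop),
    ← fcmP_add (by fun_prop) (by fun_prop)]
  congr 1
  funext r
  rw [mul_comm, Complex.re_add_im]

theorem fcmP_normsq (hR : IsSelfAdjoint R) (hG : Continuous G) (v : H) :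
    ‖fcmP R G v‖ ^ 2 = (⟪v, cfc (fun r => ‖G r‖ ^ 2) R v⟫_ℂ).re := by
  have e : (fun r => ((‖G r‖ ^ 2 : ℝ) : ℂ)) = fun r => conj (G r) * G r := by
    funext r
    rw [Complex.conj_mul', Complex.ofReal_pow]
  rw [← fcmP_real hR, e, fcmP_mul (by fun_prop) hG, fcmP_star, mul_apply_eq_comp, bas_inner_star,
    inner_self_eq_norm_sq_to_K]
  norm_cast

theorem fcmP_le (hR : IsSelfAdjoint R) (hG : Continuous G) (hG' : Continuous G')
    (h : ∀ r, ‖G r‖ ≤ ‖G' r‖) (v : H) : ‖fcmP R G v‖ ≤ ‖fcmP R G' v‖ := by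
  refine (pow_le_pow_iff_left₀ (norm_nonneg _) (norm_nonneg _) two_ne_zero).1 ?_
  rw [fcmP_normsq hR hG, fcmP_normsq hR hG']
  have h1 : cfc (fun r => ‖G r‖ ^ 2) R ≤ cfc (fun r => ‖G' r‖ ^ 2) R :=
    cfc_mono fun r _ => pow_le_pow_left₀ (norm_nonneg _) (h r) 2
  have h2 := ((ContinuousLinearMap.le_def _ _).1 h1).re_inner_nonneg_right v
  rw [sub_apply, inner_sub_right, map_sub] at h2
  exact sub_nonneg.1 h2

theorem fcm_spec (h0 : 0 ≤ R) (h2 : R ≤ 2) : spectrum ℝ R ⊆ Set.Icc 0 2 := fun r hr =>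
  ⟨spectrum_nonneg_of_nonneg h0 hr, (le_algebraMap_iff_spectrum_le (R := ℝ) (r := 2)
    h0.isSelfAdjoint).1 (by rwa [map_ofNat]) r hr⟩

theorem fcm_approx (h0 : 0 ≤ R) (h2 : R ≤ 2) {f : ℝ → ℝ} (hf : Continuous f) {p : Polynomial ℝ}
    {ε : ℝ} (hε : 0 ≤ ε) (h : ∀ r ∈ Set.Icc (0 : ℝ) 2, |p.eval r - f r| ≤ ε) (v : H) :
    ‖Polynomial.aeval R p v - cfc f R v‖ ≤ ε * ‖v‖ := by
  have hR := h0.isSelfAdjoint
  rw [← sub_apply, ← cfc_polynomial p R, ← cfc_sub ..]
  exact ContinuousLinearMap.le_of_opNorm_le _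
    (norm_cfc_le hε fun r hr => h r (fcm_spec h0 h2 hr)) v

theorem fcm_eq_of {a b : H} {M : ℝ} (h : ∀ ε > 0, ‖a - b‖ ≤ ε * M) : a = b := by
  refine sub_eq_zero.1 (norm_le_zero_iff.1 (le_of_forall_pos_le_add fun ε hε => ?_))
  have h1 := h (ε / (|M| + 1)) (by positivity)
  have h2 : ε / (|M| + 1) * M ≤ ε := by
    rw [div_mul_eq_mul_div, div_le_iff₀ (by positivity)]
    nlinarith [le_abs_self M]
  linarith

theorem fcm_alg (a : ℝ) (v : H) : algebraMap ℝ (Op H) a v = (a : ℂ) • v := by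
  rw [Algebra.algebraMap_eq_smul_one, smul_apply, one_apply_eq_self, Complex.coe_smul]

theorem fcm_eigen (h0 : 0 ≤ R) (h2 : R ≤ 2) {v : H} (hv : R v = v) (hG : Continuous G) :
    fcmP R G v = G 1 • v := by
  have hp : ∀ p : Polynomial ℝ, Polynomial.aeval R p v = ((p.eval 1 : ℝ) : ℂ) • v := fun p => by
    induction p using Polynomial.induction_on with
    | C a => rw [Polynomial.aeval_C, fcm_alg, Polynomial.eval_C]
    | add p q hp hq => rw [map_add, add_apply, hp, hq, Polynomial.eval_add, Complex.ofReal_add,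
        add_smul]
    | monomial n a ih =>
      rw [pow_succ, ← mul_assoc, map_mul, mul_apply_eq_comp, Polynomial.aeval_X, hv, ih,
        Polynomial.eval_mul_X, mul_one]
  have hf : ∀ f : ℝ → ℝ, Continuous f → cfc f R v = ((f 1 : ℝ) : ℂ) • v := fun f hf => by
    refine fcm_eq_of (M := 2 * ‖v‖) fun ε hε => ?_
    obtain ⟨p, h1⟩ := exists_polynomial_near_of_continuousOn 0 2 f hf.continuousOn ε hε
    have h3 := fcm_approx h0 h2 hf hε.le (fun r hr => (h1 r hr).le) v
    have h4 := norm_sub_le_norm_sub_add_norm_sub (cfc f R v) (Polynomial.aeval R p v)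
      (((f 1 : ℝ) : ℂ) • v)
    rw [norm_sub_rev] at h3
    have h5 : ‖Polynomial.aeval R p v - ((f 1 : ℝ) : ℂ) • v‖ ≤ ε * ‖v‖ := by
      rw [hp, ← sub_smul, norm_smul, ← Complex.ofReal_sub, Complex.norm_real]
      exact mul_le_mul_of_nonneg_right (h1 1 (by norm_num)).le (norm_nonneg _)
    linarith
  rw [fcmP_split h0.isSelfAdjoint hG, add_apply, smul_apply, hf _ (by fun_prop), hf _ (by fun_prop),
    smul_smul, ← add_smul, mul_comm, Complex.re_add_im]

theorem fcm_J (h0 : 0 ≤ R) (h2 : R ≤ 2) {J : H ≃ₗᵢ⋆[ℂ] H} (hJ : ∀ v, J (R v) = (2 - R) (J v))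
    (hG : Continuous G) (v : H) : J (fcmP R G v) = fcmP R (fun r => conj (G (2 - r))) (J v) := by
  have hp : ∀ (p : Polynomial ℝ) (v : H),
      J (Polynomial.aeval R p v) = Polynomial.aeval (2 - R) p (J v) := fun p => by
    induction p using Polynomial.induction_on with
    | C a =>
      intro v
      rw [Polynomial.aeval_C, Polynomial.aeval_C, fcm_alg, fcm_alg, LinearIsometryEquiv.map_smulₛₗ,
        Complex.conj_ofReal]
    | add p q hp hq =>
      intro v
      rw [map_add, add_apply, map_add, hp, hq, map_add, add_apply]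
    | monomial n a ih =>
      intro v
      rw [pow_succ, ← mul_assoc, map_mul, map_mul _ _ Polynomial.X, mul_apply_eq_comp,
        mul_apply_eq_comp, Polynomial.aeval_X, Polynomial.aeval_X, ih, hJ]
  have hf : ∀ f : ℝ → ℝ, Continuous f → J (cfc f R v) = cfc (fun r => f (2 - r)) R (J v) :=
    fun f hf => by
    refine fcm_eq_of (M := 2 * ‖v‖) fun ε hε => ?_
    obtain ⟨p, h1⟩ := exists_polynomial_near_of_continuousOn 0 2 f hf.continuousOn ε hε
    have h3 := fcm_approx h0 h2 hf hε.le (fun r hr => (h1 r hr).le) v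
    have h4 := fcm_approx h0 h2 (f := fun r => f (2 - r)) (by fun_prop)
      (p := p.comp (2 - Polynomial.X)) hε.le (fun r hr => by
        rw [Polynomial.eval_comp, Polynomial.eval_sub, Polynomial.eval_ofNat, Polynomial.eval_X]
        exact (h1 _ ⟨by linarith [hr.2], by linarith [hr.1]⟩).le) (J v)
    rw [Polynomial.aeval_comp, map_sub, map_ofNat, Polynomial.aeval_X, ← hp, J.norm_map] at h4
    rw [norm_sub_rev, ← J.norm_map, map_sub] at h3
    linarith [norm_sub_le_norm_sub_add_norm_sub (J (cfc f R v)) (J (Polynomial.aeval R p v))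
      (cfc (fun r => f (2 - r)) R (J v))]
  rw [fcmP_split h0.isSelfAdjoint hG, add_apply, smul_apply, map_add,
    LinearIsometryEquiv.map_smulₛₗ, hf _ (by fun_prop), hf _ (by fun_prop),
    ← fcmP_real h0.isSelfAdjoint, ← fcmP_real h0.isSelfAdjoint, ← smul_apply, ← add_apply,
    ← fcmP_smul _ (by fun_prop), ← fcmP_add (by fun_prop) (by fun_prop)]
  congr 2
  funext r
  apply Complex.ext <;> simp

end Psi

/-- `√(r (2 - r))` -/
def fcmS (r : ℝ) : ℝ := √(r * (2 - r))

/-- `log ((2 - r) / r)` -/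
def fcmL (r : ℝ) : ℝ := Real.log ((2 - r) / r)

/-- The function `√(r (2 - r)) g (log ((2 - r) / r))`. -/
def fcmG (g : ℝ → ℂ) (r : ℝ) : ℂ := fcmS r * g (fcmL r)

theorem fcmS_cont : Continuous fcmS := by
  unfold fcmS
  fun_prop

theorem fcmS_cont' : Continuous fun r => (fcmS r : ℂ) := Complex.continuous_ofReal.comp fcmS_cont

theorem fcmS_nonneg (r : ℝ) : 0 ≤ fcmS r := Real.sqrt_nonneg _

theorem fcmS_ne {r : ℝ} (h : fcmS r ≠ 0) : 0 < r ∧ r < 2 := by
  have h1 : 0 < r * (2 - r) := Real.sqrt_ne_zero'.1 h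
  constructor <;> nlinarith

theorem fcmG_le {g : ℝ → ℂ} {C : ℝ} (h : ∀ x, ‖g x‖ ≤ C) (r : ℝ) : ‖fcmG g r‖ ≤ C * fcmS r := by
  rw [fcmG, norm_mul, Complex.norm_real, Real.norm_of_nonneg (fcmS_nonneg r), mul_comm]
  exact mul_le_mul_of_nonneg_right (h _) (fcmS_nonneg r)

theorem fcmG_cont {g : ℝ → ℂ} (hg : BC g) : Continuous (fcmG g) := by
  refine continuous_iff_continuousAt.2 fun r => ?_
  by_cases h : fcmS r = 0
  · obtain ⟨C, hC⟩ := hg.2
    have h1 : fcmG g r = 0 := by rw [fcmG, h, Complex.ofReal_zero, zero_mul]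
    rw [ContinuousAt, h1]
    refine squeeze_zero_norm (fcmG_le hC) ?_
    simpa [h] using (fcmS_cont.tendsto r).const_mul C
  · obtain ⟨h1, h2⟩ := fcmS_ne h
    refine fcmS_cont'.continuousAt.mul (hg.1.continuousAt.comp ?_)
    exact ((continuous_const.sub continuous_id).continuousAt.div continuousAt_id h1.ne').log
      (div_pos (sub_pos.2 h2) h1).ne'

theorem fcmSL (r : ℝ) : fcmS r ^ 2 * |fcmL r| ≤ 4 := by
  by_cases h : fcmS r = 0
  · simp [h]
  · obtain ⟨h1, h2⟩ := fcmS_ne h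
    have h3 : 0 < 2 - r := sub_pos.2 h2
    rw [fcmS, Real.sq_sqrt (by positivity)]
    rcases abs_choice (fcmL r) with e | e
    · rw [e]
      have h4 : fcmL r ≤ (2 - r) / r := Real.log_le_self (by positivity)
      rw [le_div_iff₀ h1] at h4
      nlinarith [mul_le_mul_of_nonneg_left h4 h3.le]
    · rw [e, fcmL, ← Real.log_inv, inv_div]
      have h4 : Real.log (r / (2 - r)) ≤ r / (2 - r) := Real.log_le_self (by positivity)
      rw [le_div_iff₀ h3] at h4
      nlinarith [mul_le_mul_of_nonneg_left h4 h1.le]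

/-- The cutoffs. -/
def fcmX (n : ℕ) (x : ℝ) : ℝ := max 0 (min 1 (n + 1 - |x|))

theorem fcmX_cont (n : ℕ) : Continuous (fcmX n) := by
  unfold fcmX
  fun_prop

theorem fcmX_mem (n : ℕ) (x : ℝ) : 0 ≤ fcmX n x ∧ fcmX n x ≤ 1 :=
  ⟨le_max_left _ _, max_le zero_le_one (min_le_left _ _)⟩

theorem fcmX_one {n : ℕ} {x : ℝ} (h : |x| ≤ n) : fcmX n x = 1 := by
  rw [fcmX, min_eq_left (by linarith), max_eq_right zero_le_one]

theorem fcmX_supp (n : ℕ) : HasCompactSupport (fcmX n) :=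
  HasCompactSupport.intro (isCompact_closedBall (0 : ℝ) (n + 1)) fun x hx => by
    rw [mem_closedBall_zero_iff, Real.norm_eq_abs, not_le] at hx
    exact max_eq_left ((min_le_right _ _).trans (by linarith))

theorem fcmX_lim (x : ℝ) : Tendsto (fun n => fcmX n x) atTop (𝓝 1) := by
  obtain ⟨N, hN⟩ := exists_nat_ge |x|
  exact tendsto_const_nhds.congr' ((eventually_ge_atTop N).mono fun n hn =>
    (fcmX_one (hN.trans (Nat.cast_le.2 hn))).symm)

theorem fcmX_abs (n : ℕ) (x : ℝ) : |fcmX n x| ≤ 1 := by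
  rw [abs_of_nonneg (fcmX_mem n x).1]
  exact (fcmX_mem n x).2

theorem fcmX_unif {ε : ℝ} (hε : 0 < ε) {n : ℕ} (hn : 4 / ε ^ 2 ≤ n) (r : ℝ) :
    ‖fcmG (fun x => (fcmX n x : ℂ)) r + -1 * (fcmS r : ℂ)‖ ≤ ε := by
  have e : fcmG (fun x => (fcmX n x : ℂ)) r + -1 * (fcmS r : ℂ) =
      ((-(fcmS r * (1 - fcmX n (fcmL r))) : ℝ) : ℂ) := by
    rw [fcmG]
    push_cast
    ring
  have h1 := fcmX_mem n (fcmL r)
  have h2 := fcmS_nonneg r
  rw [e, Complex.norm_real, norm_neg, Real.norm_of_nonneg (mul_nonneg h2 (sub_nonneg.2 h1.2))]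
  rcases le_or_gt |fcmL r| n with h | h
  · rw [fcmX_one h, sub_self, mul_zero]
    exact hε.le
  · have h3 := fcmSL r
    rw [div_le_iff₀ (by positivity)] at hn
    have h4 : fcmS r ≤ ε := by
      by_contra h5
      have h6 : ε ^ 2 < fcmS r ^ 2 := pow_lt_pow_left₀ (not_le.1 h5) hε.le two_ne_zero
      have h7 : (0 : ℝ) ≤ n := Nat.cast_nonneg n
      nlinarith
    nlinarith

/-- The functional calculus of `D = log ((2 - R)/R)`, `R = 2/(1 + e^D)`. Recipe:
`T = cfc (fun r => √(r (2 - r))) R` is self-adjoint and injective (`T² = R (2 - R)`), so has dense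
range. For `BC g` let `G_g z = √(r(2-r)) g(log((2-r)/r))`, `r = re z` (it is `0` outside `(0, 2)`
and continuous, because `g` is bounded); `‖cfc G_g R v‖ ≤ sup|g| ‖T v‖` (as
`(sup|g|)² T² - (cfc G_g R)⋆ (cfc G_g R) ≥ 0`). Define `fn g` by `fn g ∘ T = cfc G_g R`
(`exists_extend`). `fn g` commutes with everything commuting with `R` (check on the range of
`T`); `fn f fn g T T = cfc G_f cfc G_g = cfc (G_{fg} √(r(2-r))) = fn (fg) T T`. For `J`:
`J p(R) = p̄(2 - R) J` for polynomials, hence for continuous functions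
(`ContinuousMap.induction_on_of_compact` or Weierstrass on `[0, 2]`). If `R v = v` then
`cfc G R v = G 1 • v`. Tightness: `G_{χ_n} → √(r(2-r))` uniformly. -/
theorem exists_fc {R : Op H} (h0 : 0 ≤ R) (h2 : R ≤ 2) (hi : ∀ v, R v = 0 → v = 0)
    (hi' : ∀ v, (2 - R) v = 0 → v = 0) :
    ∃ F : FC H, (∀ f : ℝ → ℝ, Continuous f →
        F.fn (fun x => (f (2 / (1 + Real.exp x)) : ℂ)) = cfc f R) ∧
      (∀ y, Commute y R → ∀ g, BC g → Commute y (F.fn g)) ∧
      (∀ v, R v = v → ∀ g, BC g → F.fn g v = g 0 • v) ∧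
      ∀ J : H ≃ₗᵢ⋆[ℂ] H, (∀ v, J (R v) = (2 - R) (J v)) →
        ∀ g, BC g → ∀ v, J (F.fn g v) = F.fn (fun x => conj (g (-x))) (J v) := by
  have hR := h0.isSelfAdjoint
  set T := fcmP R fun r => (fcmS r : ℂ) with hT
  have hTs : star T = T := by
    rw [hT, ← fcmP_star]
    simp only [Complex.conj_ofReal]
  have hTT : T * T = R * (2 - R) := by
    rw [hT, fcmP_real hR, ← cfc_mul _ _ R fcmS_cont.continuousOn fcmS_cont.continuousOn,
      cfc_congr (f := fun r => fcmS r * fcmS r) (g := fun r : ℝ => r * (2 - r)) fun r hr => Real.mul_self_sqrt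
        (mul_nonneg (fcm_spec h0 h2 hr).1 (sub_nonneg.2 (fcm_spec h0 h2 hr).2)),
      cfc_mul .., cfc_sub .., cfc_id' ℝ R, cfc_const .., map_ofNat]
  have hTi : ∀ v, T v = 0 → v = 0 := fun v hv => hi' v (hi _ (by
    rw [← mul_apply_eq_comp, ← hTT, mul_apply_eq_comp, hv, map_zero]))
  have hd : DenseRange T := by
    have h1 : (LinearMap.range (T : H →ₗ[ℂ] H)).topologicalClosure = ⊤ := by
      rw [Submodule.topologicalClosure_eq_top_iff, eq_bot_iff]
      intro v hv
      refine hTi v (ext_inner_left ℂ fun w => ?_)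
      rw [← hTs, bas_inner_star, inner_zero_right]
      exact hv _ ⟨w, rfl⟩
    exact Submodule.dense_iff_topologicalClosure_eq_top.2 h1
  have cancel : ∀ {X Y : Op H}, X * T = Y * T → X = Y := fun {X Y} h =>
    DFunLike.coe_injective (hd.equalizer X.continuous Y.continuous (congrArg DFunLike.coe h))
  have hex : ∀ g, BC g → ∀ C, (∀ x, ‖g x‖ ≤ C) → ∃ X : Op H, ‖X‖ ≤ C ∧ X * T = fcmP R (fcmG g) := by
    intro g hg C hC
    have hC0 : 0 ≤ C := (norm_nonneg _).trans (hC 0)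
    obtain ⟨X, h3, h4, -⟩ := exists_extend (T : H →ₗ[ℂ] H) (fcmP R (fcmG g) : H →ₗ[ℂ] H) hC0
      fun v => by
        have h5 := fcmP_le hR (fcmG_cont hg) (G' := fun r => C * (fcmS r : ℂ))
          (continuous_const.mul fcmS_cont') (fun r => by
            rw [← Complex.ofReal_mul, Complex.norm_real,
              Real.norm_of_nonneg (mul_nonneg hC0 (fcmS_nonneg r))]
            exact fcmG_le hC r) v
        rwa [fcmP_smul _ fcmS_cont', smul_apply, norm_smul, Complex.norm_real,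
          Real.norm_of_nonneg hC0] at h5
    exact ⟨X, h3, ContinuousLinearMap.ext h4⟩
  have hex' : ∀ g, ∃ X : Op H, BC g → X * T = fcmP R (fcmG g) := fun g => by
    by_cases hg : BC g
    · obtain ⟨C, hC⟩ := hg.2
      obtain ⟨X, -, h3⟩ := hex g hg C hC
      exact ⟨X, fun _ => h3⟩
    · exact ⟨0, fun h => absurd h hg⟩
  choose fn hfn using hex'
  have hnorm : ∀ g, BC g → ∀ C, (∀ x, ‖g x‖ ≤ C) → ‖fn g‖ ≤ C := fun g hg C hC => by
    obtain ⟨X, h3, h4⟩ := hex g hg C hC
    rwa [cancel ((hfn g hg).trans h4.symm)]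
  have hcomm : ∀ y, Commute y R → ∀ g, BC g → Commute y (fn g) := fun y hy g hg => cancel (by
    rw [mul_assoc, hfn g hg, (fcmP_commute hR hy _).eq, mul_assoc, (fcmP_commute hR hy _).eq,
      ← mul_assoc, hfn g hg])
  have hTc : ∀ g, BC g → Commute T (fn g) :=
    hcomm T (fcmP_commute hR (Commute.refl R) _).symm
  have hone : fn (fun _ => 1) = 1 := cancel (by
    rw [hfn _ (BC.const 1), one_mul, hT]
    congr 1
    funext r
    exact mul_one _)
  have hadd : ∀ {f g}, BC f → BC g → fn (fun x => f x + g x) = fn f + fn g := fun hf hg =>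
    cancel (by
      rw [add_mul, hfn _ (hf.add hg), hfn _ hf, hfn _ hg, ← fcmP_add (fcmG_cont hf) (fcmG_cont hg)]
      congr 1
      funext r
      exact mul_add _ _ _)
  have hsmul : ∀ (c : ℂ) {f}, BC f → fn (fun x => c * f x) = c • fn f := fun c _ hf =>
    cancel (by
      rw [smul_mul_assoc, hfn _ ((BC.const c).mul hf), hfn _ hf, ← fcmP_smul c (fcmG_cont hf)]
      congr 1
      funext r
      exact mul_left_comm _ _ _)
  have hmul : ∀ {f g}, BC f → BC g → fn (fun x => f x * g x) = fn f * fn g := fun {f g} hf hg =>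
    cancel (cancel (by
      have e : fn f * fn g * T * T = fn f * T * (fn g * T) := by
        rw [mul_assoc (fn f) T, ← mul_assoc T, (hTc g hg).eq]
        simp only [mul_assoc]
      rw [e, hfn _ (hf.mul hg), hfn _ hf, hfn _ hg, hT, ← fcmP_mul (fcmG_cont hf) (fcmG_cont hg),
        ← fcmP_mul (fcmG_cont (hf.mul hg)) fcmS_cont']
      congr 1
      funext r
      simp only [fcmG]
      ring))
  have hstar : ∀ {f}, BC f → fn (fun x => conj (f x)) = star (fn f) := fun {f} hf =>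
    cancel (by
      rw [hfn _ hf.conj', ← hTs, ← star_mul, (hTc f hf).eq, hfn _ hf, ← fcmP_star]
      congr 1
      funext r
      simp only [fcmG, map_mul, Complex.conj_ofReal])
  have htight : ∀ v, Tendsto (fun n => fn (fun x => (fcmX n x : ℂ)) v) atTop (𝓝 v) := fun v => by
    rw [Metric.tendsto_atTop]
    intro ε hε
    obtain ⟨w, hw⟩ := hd.exists_dist_lt v (ε := ε / 3) (by positivity)
    obtain ⟨N, hN⟩ := exists_nat_ge (4 / (ε / (3 * (‖w‖ + 1))) ^ 2)
    refine ⟨N, fun n hn => ?_⟩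
    have b := fcm_bc (fcmX_cont n) (fcmX_abs n)
    have h3 : ‖fn (fun x => (fcmX n x : ℂ)) * T + (-1 : ℂ) • T‖ ≤ ε / (3 * (‖w‖ + 1)) := by
      rw [hfn _ b, hT, ← fcmP_smul _ fcmS_cont',
        ← fcmP_add (G' := fun r => -1 * (fcmS r : ℂ)) (fcmG_cont b) (continuous_const.mul fcmS_cont')]
      exact norm_cfc_le (by positivity) fun z _ =>
        fcmX_unif (by positivity) (hN.trans (Nat.cast_le.2 hn)) _
    have h4 := hnorm _ b 1 fun x => by
      rw [Complex.norm_real]
      exact fcmX_abs n x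
    generalize fn (fun x => (fcmX n x : ℂ)) = X at h3 h4
    have e : X v - v = X (v - T w) + (X * T + (-1 : ℂ) • T) w - (v - T w) := by
      rw [add_apply, smul_apply, mul_apply_eq_comp, map_sub, neg_one_smul]
      abel
    have h5 := X.le_of_opNorm_le h4 (v - T w)
    have h6 := (X * T + (-1 : ℂ) • T).le_of_opNorm_le h3 w
    have h7 : ε / (3 * (‖w‖ + 1)) * ‖w‖ ≤ ε / 3 := by
      rw [div_mul_eq_mul_div, div_le_div_iff₀ (by positivity) (by positivity)]
      nlinarith
    rw [dist_eq_norm] at hw ⊢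
    rw [e]
    linarith [norm_sub_le (X (v - T w) + (X * T + (-1 : ℂ) • T) w) (v - T w),
      norm_add_le (X (v - T w)) ((X * T + (-1 : ℂ) • T) w)]
  refine ⟨⟨fn, hone, hadd, hsmul, hmul, hstar, fun v => exists_meas_of_tight fn hadd hsmul hmul
    hstar hone fcmX fcmX_cont fcmX_supp fcmX_mem fcmX_lim v (htight v)⟩, fun f hf => ?_, hcomm,
    fun v hv g hg => ?_, fun J hJ g hg v => ?_⟩
  · obtain ⟨C, hC⟩ := (isCompact_Icc (a := (0 : ℝ)) (b := 2)).exists_bound_of_continuousOn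
      hf.continuousOn
    have b : BC fun x => (f (2 / (1 + Real.exp x)) : ℂ) :=
      fcm_bc (hf.comp (continuous_const.div (by fun_prop) fun x => by positivity)) (C := C)
        fun x => hC _ ⟨by positivity, div_le_self zero_le_two (by linarith [Real.exp_pos x])⟩
    refine cancel ?_
    rw [hfn _ b, ← fcmP_real hR, hT, ← fcmP_mul (by fun_prop) fcmS_cont']
    congr 1
    funext r
    by_cases h : fcmS r = 0
    · simp [fcmG, h]
    · obtain ⟨h3, h4⟩ := fcmS_ne h
      have e : 2 / (1 + Real.exp (fcmL r)) = r := by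
        rw [fcmL, Real.exp_log (div_pos (sub_pos.2 h4) h3)]
        field_simp
        ring
      rw [fcmG, e, mul_comm]
  · have h3 : T v = v := by
      rw [hT, fcm_eigen h0 h2 hv fcmS_cont']
      norm_num [fcmS]
    change fn g v = _
    rw [← h3, ← mul_apply_eq_comp, hfn g hg, fcm_eigen h0 h2 hv (fcmG_cont hg), h3]
    norm_num [fcmG, fcmS, fcmL]
  · have hS : ∀ r, fcmS (2 - r) = fcmS r := fun r => by
      rw [fcmS, fcmS, sub_sub_cancel, mul_comm]
    change J (fn g v) = fn _ (J v)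
    refine hd.induction_on v (isClosed_eq (J.continuous.comp (fn g).continuous)
      ((fn _).continuous.comp J.continuous)) fun w => ?_
    have h3 : J (T w) = T (J w) := by
      rw [hT, fcm_J h0 h2 hJ fcmS_cont']
      simp only [hS, Complex.conj_ofReal]
    rw [h3, ← mul_apply_eq_comp, ← mul_apply_eq_comp, hfn g hg, hfn _ hg.comp_neg.conj',
      fcm_J h0 h2 hJ (fcmG_cont hg)]
    congr 2
    funext r
    simp only [fcmG, hS, map_mul, Complex.conj_ofReal]
    rw [fcmL, fcmL, ← Real.log_inv, inv_div, sub_sub_cancel]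

end

end Crest.Agent.R78
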