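import Crest.Agent.R78.FinD
import Crest.Agent.R78.Mean

/-!
# Row 78: two-sided averaging of a primitive (auxiliary file for `Fin1`)
-/

open scoped InnerProductSpace Topology ComplexConjugate

set_option linter.unusedSectionVars false

namespace Crest.Agent.R78

noncomputable section

variable {H : Type*} [NormedAddCommGroup H] [InnerProductSpace ℂ H] [CompleteSpace H]

namespace Mean

variable {G : Type*} [Group G] (m : Mean G)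

/-- iterated mean -/
def av2 (f : G → G → H) : H := m.vec fun g => m.vec (f g)

theorem f1c_bdd {f : G → G → H} {C : ℝ} (h : ∀ g k, ‖f g k‖ ≤ C) : Bdd fun g => m.vec (f g) :=
  ⟨C, fun g => m.norm_vec_le (h g)⟩

theorem norm_av2_le {f : G → G → H} {C : ℝ} (h : ∀ g k, ‖f g k‖ ≤ C) : ‖m.av2 f‖ ≤ C :=
  m.norm_vec_le fun g => m.norm_vec_le (h g)

theorem av2_add {f f' : G → G → H} {C C' : ℝ} (h : ∀ g k, ‖f g k‖ ≤ C)
    (h' : ∀ g k, ‖f' g k‖ ≤ C') :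
    m.av2 (fun g k => f g k + f' g k) = m.av2 f + m.av2 f' := by
  unfold av2
  rw [← m.vec_add (m.f1c_bdd h) (m.f1c_bdd h')]
  congr 1
  funext g
  exact m.vec_add ⟨C, h g⟩ ⟨C', h' g⟩

theorem av2_map (S : Op H) {f : G → G → H} {C : ℝ} (h : ∀ g k, ‖f g k‖ ≤ C) :
    m.av2 (fun g k => S (f g k)) = S (m.av2 f) := by
  unfold av2
  rw [m.map_vec S (m.f1c_bdd h)]
  congr 1
  funext g
  exact (m.map_vec S ⟨C, h g⟩).symm

theorem av2_inv (g₀ k₀ : G) {f : G → G → H} {C : ℝ} (h : ∀ g k, ‖f g k‖ ≤ C) :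
    m.av2 (fun g k => f (g₀ * g) (k₀ * k)) = m.av2 f := by
  unfold av2
  rw [← m.vec_inv g₀ (m.f1c_bdd h)]
  congr 1
  funext g
  exact m.vec_inv k₀ (f := f (g₀ * g)) ⟨C, h _⟩

theorem av2_three {fA fB fC : G → G → H} {C₁ C₂ C₃ ε : ℝ} (hA : ∀ g k, ‖fA g k‖ ≤ C₁)
    (hB : ∀ g k, ‖fB g k‖ ≤ C₂) (hC : ∀ g k, ‖fC g k‖ ≤ C₃) (S T : Op H) (v : H)
    (h : ∀ g h k, ‖v - (S (fB h k) - fC g k + T (fA g h))‖ ≤ ε) :
    ‖v - (S (m.av2 fB) - m.av2 fC + T (m.av2 fA))‖ ≤ ε := by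
  have bm : ∀ (S : Op H) {f : G → H}, Bdd f → Bdd fun x => S (f x) := fun S f hf =>
    mn_bdd_of_le hf (norm_nonneg S) fun x => S.le_opNorm _
  have h1 : ∀ g h, ‖v - (S (m.vec (fB h)) - m.vec (fC g) + T (fA g h))‖ ≤ ε := fun g h' => by
    have := m.norm_vec_sub_le (f := fun k => S (fB h' k) - fC g k + T (fA g h')) (v := v)
      fun k => by rw [norm_sub_rev]; exact h g h' k
    rw [m.vec_add (mn_bdd_sub (bm S ⟨_, hB h'⟩) ⟨_, hC g⟩) (mn_bdd_const _),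
      m.vec_sub (bm S ⟨_, hB h'⟩) ⟨_, hC g⟩, m.vec_const, ← m.map_vec S ⟨_, hB h'⟩] at this
    rwa [norm_sub_rev]
  have h2 : ∀ g, ‖v - (S (m.av2 fB) - m.vec (fC g) + T (m.vec (fA g)))‖ ≤ ε := fun g => by
    have := m.norm_vec_sub_le
      (f := fun h' => S (m.vec (fB h')) - m.vec (fC g) + T (fA g h')) (v := v)
      fun k => by rw [norm_sub_rev]; exact h1 g k
    rw [m.vec_add (mn_bdd_sub (bm S (m.f1c_bdd hB)) (mn_bdd_const _)) (bm T ⟨_, hA g⟩),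
      m.vec_sub (bm S (m.f1c_bdd hB)) (mn_bdd_const _), m.vec_const,
      ← m.map_vec S (m.f1c_bdd hB), ← m.map_vec T ⟨_, hA g⟩] at this
    rwa [norm_sub_rev]
  have := m.norm_vec_sub_le
    (f := fun g => S (m.av2 fB) - m.vec (fC g) + T (m.vec (fA g))) (v := v)
    fun k => by rw [norm_sub_rev]; exact h2 k
  rw [m.vec_add (mn_bdd_sub (mn_bdd_const _) (m.f1c_bdd hC)) (bm T (m.f1c_bdd hA)),
    m.vec_sub (mn_bdd_const _) (m.f1c_bdd hC), m.vec_const,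
    ← m.map_vec T (m.f1c_bdd hA)] at this
  rwa [norm_sub_rev]

theorem exists_av2 (P : VN H) (Φ : G → G → Op H →ₗ[ℂ] H) {B : ℝ}
    (hb : ∀ g k, ∀ x ∈ P, ‖Φ g k x‖ ≤ B * ‖x‖) :
    ∃ F : Op H →ₗ[ℂ] H, ∀ x ∈ P, F x = m.av2 fun g k => Φ g k x := by
  let Q : Submodule ℂ (Op H) := P.toStarSubalgebra.toSubalgebra.toSubmodule
  let F₀ : Q →ₗ[ℂ] H :=
    { toFun := fun x => m.av2 fun g k => Φ g k x
      map_add' := fun x y => by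
        simp only [Submodule.coe_add, map_add]
        exact m.av2_add (fun g k => hb g k x x.2) fun g k => hb g k y y.2
      map_smul' := fun c x => by
        simp only [Submodule.coe_smul, map_smul, RingHom.id_apply]
        exact m.av2_map (c • (1 : Op H)) fun g k => hb g k x x.2 }
  obtain ⟨F, hF⟩ := F₀.exists_extend
  exact ⟨F, fun x hx => congrArg (fun φ : Q →ₗ[ℂ] H => φ ⟨x, hx⟩) hF⟩

end Mean

variable {M N : VN H} {ξ : H} {e : ℝ}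

namespace FinD

variable (D : FinD M N ξ e)

/-- right multiplication by a group element -/
def ru (g : D.G) : Op H := Rm D.J (D.gu g)

theorem ru_mul (g h : D.G) : D.ru (g * h) = D.ru h * D.ru g := by
  rw [ru, gu_mul, D.tr.Rm_mul]; rfl

theorem ru_one : D.ru 1 = 1 := D.tr.Rm_one

theorem norm_ru_le (g : D.G) : ‖D.ru g‖ ≤ 1 := by
  rw [ru, D.tr.norm_Rm]; exact D.norm_gu_le g

theorem ru_comm (g : D.G) {a : Op H} (ha : a ∈ M) : a * D.ru g = D.ru g * a :=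
  VonNeumannAlgebra.mem_commutant_iff.1 (D.tr.Rm_mem (D.gu_mem g)) a ha

theorem ru_inv_mul (g : D.G) : D.ru g⁻¹ * D.ru g = 1 := by
  rw [← ru_mul, mul_inv_cancel, ru_one]

theorem ru_mul_inv (g : D.G) : D.ru g * D.ru g⁻¹ = 1 := by
  rw [← ru_mul, inv_mul_cancel, ru_one]

theorem gu_inv_mul (g : D.G) : D.gu g⁻¹ * D.gu g = 1 := by
  rw [← gu_mul, inv_mul_cancel, gu_one]

theorem gu_mul_inv (g : D.G) : D.gu g * D.gu g⁻¹ = 1 := by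
  rw [← gu_mul, mul_inv_cancel, gu_one]

theorem f1c_norm {u u' w w' : Op H} (hu : ‖u‖ ≤ 1) (hu' : ‖u'‖ ≤ 1) (hw : ‖w‖ ≤ 1) (hw' : ‖w'‖ ≤ 1)
    (h1 : u' * u = 1) (h2 : w * w' = 1) (a : Op H) : ‖u * a * w‖ = ‖a‖ := by
  have key : ∀ u w a : Op H, ‖u‖ ≤ 1 → ‖w‖ ≤ 1 → ‖u * a * w‖ ≤ ‖a‖ := fun u w a hu hw =>
    calc ‖u * a * w‖ ≤ ‖u‖ * ‖a‖ * ‖w‖ :=
          (norm_mul_le _ _).trans (mul_le_mul_of_nonneg_right (norm_mul_le _ _) (norm_nonneg _))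
      _ ≤ 1 * ‖a‖ * 1 := by gcongr
      _ = ‖a‖ := by ring
  refine le_antisymm (key u w a hu hw) ?_
  have := key u' w' (u * a * w) hu' hw'
  rwa [show u' * (u * a * w) * w' = (u' * u) * a * (w * w') by noncomm_ring, h1, h2, one_mul,
    mul_one] at this

theorem norm_gag (g k : D.G) (a : Op H) : ‖D.gu g * a * D.gu k‖ = ‖a‖ :=
  f1c_norm (D.norm_gu_le _) (D.norm_gu_le _) (D.norm_gu_le _) (D.norm_gu_le _)
    (D.gu_inv_mul g) (D.gu_mul_inv k) a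

theorem norm_rar (g k : D.G) (a : Op H) : ‖D.ru g * a * D.ru k‖ = ‖a‖ :=
  f1c_norm (D.norm_ru_le _) (D.norm_ru_le _) (D.norm_ru_le _) (D.norm_ru_le _)
    (D.ru_inv_mul g) (D.ru_mul_inv k) a

/-- `g R_k⋆` -/
def tw (g k : D.G) : Op H := D.gu g * D.ru k⁻¹

theorem norm_tw_le (g k : D.G) (v : H) : ‖D.tw g k v‖ ≤ ‖v‖ := by
  have : ‖D.tw g k‖ ≤ 1 :=
    (norm_mul_le _ _).trans (mul_le_one₀ (D.norm_gu_le _) (norm_nonneg _) (D.norm_ru_le _))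
  exact ((D.tw g k).le_opNorm v).trans (mul_le_of_le_one_left (norm_nonneg _) this)

theorem tw_mul (g₀ h₀ g k : D.G) :
    D.tw (g₀ * g) (h₀⁻¹ * k) = D.gu g₀ * D.ru h₀ * D.tw g k := by
  rw [tw, tw, mul_inv_rev, inv_inv, ru_mul, gu_mul]
  have := D.ru_comm h₀ (D.gu_mem g)
  calc D.gu g₀ * D.gu g * (D.ru h₀ * D.ru k⁻¹) = D.gu g₀ * (D.gu g * D.ru h₀) * D.ru k⁻¹ := by
        noncomm_ring
    _ = _ := by rw [this]; noncomm_ring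

/-- the integrand for `F₁` -/
def Φ₁ (F : Op H →ₗ[ℂ] H) (g k : D.G) : Op H →ₗ[ℂ] H :=
  (D.tw g k).toLinearMap ∘ₗ F ∘ₗ LinearMap.mulRight ℂ (D.gu k) ∘ₗ LinearMap.mulLeft ℂ (D.gu g⁻¹)

/-- the integrand for `F₂` -/
def Φ₂ (F : Op H →ₗ[ℂ] H) (g k : D.G) : Op H →ₗ[ℂ] H :=
  (D.tw g k).toLinearMap ∘ₗ F ∘ₗ LinearMap.mulRight ℂ (D.ru g⁻¹) ∘ₗ LinearMap.mulLeft ℂ (D.ru k)

theorem Φ₁_apply (F : Op H →ₗ[ℂ] H) (g k : D.G) (a : Op H) :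
    D.Φ₁ F g k a = D.tw g k (F (D.gu g⁻¹ * a * D.gu k)) := rfl

theorem Φ₂_apply (F : Op H →ₗ[ℂ] H) (g k : D.G) (a : Op H) :
    D.Φ₂ F g k a = D.tw g k (F (D.ru k * a * D.ru g⁻¹)) := rfl

theorem gag_mem (g k : D.G) {a : Op H} (ha : a ∈ M) : D.gu g * a * D.gu k ∈ M :=
  mul_mem (mul_mem (D.gu_mem g) ha) (D.gu_mem k)

theorem rar_mem (g k : D.G) {a : Op H} (ha : a ∈ N.commutant) :
    D.ru g * a * D.ru k ∈ N.commutant :=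
  mul_mem (mul_mem (D.Rm_gu_mem g) ha) (D.Rm_gu_mem k)

namespace Sm

variable {D} (s : D.Sm)

theorem π_rar (g k : D.G) (y : Op H) : s.π (D.ru g * y * D.ru k) = D.ru g * s.π y * D.ru k := by
  rw [s.π_mul, s.π_mul, ru, ru, s.π_Rm, s.π_Rm]

theorem tw_phi {z₀ : Op H} (hz : CP M z₀) (g h k : D.G) {a y : Op H} (ha : a ∈ M)
    (hy : y ∈ N.commutant) :
    D.tw g k (s.phi z₀ (D.gu g⁻¹ * a * D.gu h) (D.ru k * y * D.ru h⁻¹)) = s.phi z₀ a y := by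
  have e1 : D.ru h⁻¹ (z₀ ξ) = D.gu h⁻¹ (z₀ ξ) := by
    have a1 := D.ru_comm h⁻¹ hz.2.1
    have a2 := VonNeumannAlgebra.mem_commutant_iff.1 hz.2.2 _ (D.gu_mem h⁻¹)
    have a3 : D.ru h⁻¹ ξ = D.gu h⁻¹ ξ := D.tr.Rm_ξ (D.gu_mem _)
    calc D.ru h⁻¹ (z₀ ξ) = (D.ru h⁻¹ * z₀) ξ := rfl
      _ = z₀ (D.gu h⁻¹ ξ) := by rw [← a1, ← a3]; rfl
      _ = (z₀ * D.gu h⁻¹) ξ := rfl
      _ = _ := by rw [← a2]; rfl
  have c1 : ∀ g : D.G, D.gu g * s.π y = s.π y * D.gu g := fun g => (s.commute_gu_π g hy).eq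
  have m1 := D.gag_mem g⁻¹ h ha
  have e2 : D.tw g k * (D.gu g⁻¹ * a * D.gu h) * D.ru k * s.π y * D.gu h⁻¹ = a * s.π y := by
    calc _ = D.gu g * (D.ru k⁻¹ * ((D.gu g⁻¹ * a * D.gu h) * D.ru k)) * (s.π y * D.gu h⁻¹) := by
          rw [tw]; noncomm_ring
      _ = D.gu g * ((D.ru k⁻¹ * D.ru k) * (D.gu g⁻¹ * a * D.gu h)) * (D.gu h⁻¹ * s.π y) := by
          rw [D.ru_comm k m1, c1]; noncomm_ring
      _ = (D.gu g * D.gu g⁻¹) * a * (D.gu h * D.gu h⁻¹) * s.π y := by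
          rw [D.ru_inv_mul]; noncomm_ring
      _ = _ := by rw [D.gu_mul_inv, D.gu_mul_inv, one_mul, mul_one]
  have e3 : D.tw g k * D.ru k * s.π y * (D.gu g⁻¹ * a * D.gu h) * D.gu h⁻¹ = s.π y * a := by
    calc _ = D.gu g * (D.ru k⁻¹ * D.ru k) * (s.π y * D.gu g⁻¹) * a * (D.gu h * D.gu h⁻¹) := by
          rw [tw]; noncomm_ring
      _ = (D.gu g * D.gu g⁻¹) * s.π y * a := by
          rw [D.ru_inv_mul, D.gu_mul_inv h, ← c1]; noncomm_ring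
      _ = _ := by rw [D.gu_mul_inv, one_mul]
  rw [phi, phi, s.π_rar, ← e2, ← e3]
  have e4 : D.ru k * s.π y * D.ru h⁻¹ * (D.gu g⁻¹ * a * D.gu h) =
      D.ru k * s.π y * (D.gu g⁻¹ * a * D.gu h) * D.ru h⁻¹ := by
    rw [mul_assoc _ (D.ru h⁻¹), ← D.ru_comm h⁻¹ m1, ← mul_assoc]
  rw [e4]
  simp only [sub_apply, mul_apply_eq_comp, map_sub, e1]

theorem tw_del (F₁ F₂ : Op H →ₗ[ℂ] H) (g h k : D.G) {a a' b b' : Op H} (ha : a ∈ M)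
    (hb' : b' ∈ N.commutant) :
    D.tw g k (s.del F₁ F₂ (D.gu g⁻¹ * a * D.gu h) (D.ru h * a' * D.ru g⁻¹)
      (D.gu h⁻¹ * b * D.gu k) (D.ru k * b' * D.ru h⁻¹)) =
    a (D.Φ₁ F₁ h k b + D.Φ₂ F₂ h k b') - (D.Φ₁ F₁ g k (a * b) + D.Φ₂ F₂ g k (b' * a')) +
      s.π b' (D.Φ₁ F₁ g h a + D.Φ₂ F₂ g h a') := by
  have m1 := D.gag_mem g⁻¹ h ha
  have e1 : D.gu g⁻¹ * a * D.gu h * (D.gu h⁻¹ * b * D.gu k) = D.gu g⁻¹ * (a * b) * D.gu k := by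
    calc _ = D.gu g⁻¹ * a * (D.gu h * D.gu h⁻¹) * b * D.gu k := by noncomm_ring
      _ = _ := by rw [D.gu_mul_inv]; noncomm_ring
  have e2 : D.ru k * b' * D.ru h⁻¹ * (D.ru h * a' * D.ru g⁻¹) = D.ru k * (b' * a') * D.ru g⁻¹ := by
    calc _ = D.ru k * b' * (D.ru h⁻¹ * D.ru h) * a' * D.ru g⁻¹ := by noncomm_ring
      _ = _ := by rw [D.ru_inv_mul]; noncomm_ring
  have e3 : D.tw g k * (D.gu g⁻¹ * a * D.gu h) = a * D.tw h k := by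
    calc _ = D.gu g * (D.ru k⁻¹ * (D.gu g⁻¹ * a * D.gu h)) := by rw [tw]; noncomm_ring
      _ = (D.gu g * D.gu g⁻¹) * a * (D.gu h * D.ru k⁻¹) := by
          rw [← D.ru_comm k⁻¹ m1]; noncomm_ring
      _ = _ := by rw [D.gu_mul_inv, one_mul, tw]
  have e4 : D.tw g k * (D.ru k * s.π b' * D.ru h⁻¹) = s.π b' * D.tw g h := by
    calc _ = D.gu g * (D.ru k⁻¹ * D.ru k) * s.π b' * D.ru h⁻¹ := by rw [tw]; noncomm_ring
      _ = (D.gu g * s.π b') * D.ru h⁻¹ := by rw [D.ru_inv_mul, mul_one]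
      _ = _ := by rw [(s.commute_gu_π g hb').eq, tw, mul_assoc]
  rw [del, e1, e2, s.π_rar, map_add, map_sub, ← mul_apply_eq_comp (D.tw g k), e3,
    ← mul_apply_eq_comp (D.tw g k) (D.ru k * s.π b' * D.ru h⁻¹), e4]
  simp only [Φ₁_apply, Φ₂_apply, mul_apply_eq_comp, map_add]

theorem Prim.bimod_aux {s : D.Sm} {z₀ : Op H} (hz : CP M z₀) {F₁ F₂ : Op H →ₗ[ℂ] H}
    {W C η : ℝ} (h : s.Prim z₀ F₁ F₂ W C η) :
    ∃ F₁' F₂' : Op H →ₗ[ℂ] H, s.Prim z₀ F₁' F₂' W C η ∧ FinD.Sm.Bimod D F₁' F₂' := by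
  have b1 : ∀ g k, ∀ x ∈ M, ‖D.Φ₁ F₁ g k x‖ ≤ C * W * ‖x‖ := fun g k x hx => by
    rw [Φ₁_apply, ← D.norm_gag g⁻¹ k x]
    exact (D.norm_tw_le _ _ _).trans (h.le₁ _ (D.gag_mem _ _ hx))
  have b2 : ∀ g k, ∀ x ∈ N.commutant, ‖D.Φ₂ F₂ g k x‖ ≤ C * W * ‖x‖ := fun g k x hx => by
    rw [Φ₂_apply, ← D.norm_rar k g⁻¹ x]
    exact (D.norm_tw_le _ _ _).trans (h.le₂ _ (D.rar_mem _ _ hx))
  obtain ⟨G₁, hG₁⟩ := D.m.exists_av2 M (D.Φ₁ F₁) b1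
  obtain ⟨G₂, hG₂⟩ := D.m.exists_av2 N.commutant (D.Φ₂ F₂) b2
  have hs : ∀ a ∈ M, ∀ a' ∈ N.commutant,
      G₁ a + G₂ a' = D.m.av2 fun g k => D.Φ₁ F₁ g k a + D.Φ₂ F₂ g k a' := fun a ha a' ha' => by
    rw [hG₁ a ha, hG₂ a' ha', D.m.av2_add (fun g k => b1 g k a ha) fun g k => b2 g k a' ha']
  have hb : ∀ a ∈ M, ∀ a' ∈ N.commutant, ∀ g k,
      ‖D.Φ₁ F₁ g k a + D.Φ₂ F₂ g k a'‖ ≤ C * W * ‖a‖ + C * W * ‖a'‖ := fun a ha a' ha' g k =>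
    (norm_add_le _ _).trans (add_le_add (b1 g k a ha) (b2 g k a' ha'))
  refine ⟨G₁, G₂, ⟨fun a ha => ?_, fun a ha => ?_, fun a ha a' ha' b hb₀ b' hb' => ?_⟩,
    fun g₀ h₀ a ha => ?_, fun g₀ h₀ a ha => ?_⟩
  · rw [hG₁ a ha]
    exact D.m.norm_av2_le fun g k => b1 g k a ha
  · rw [hG₂ a ha]
    exact D.m.norm_av2_le fun g k => b2 g k a ha
  · rw [del, hs a ha a' ha', hs b hb₀ b' hb', hs _ (mul_mem ha hb₀) _ (mul_mem hb' ha')]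
    refine D.m.av2_three (hb a ha a' ha') (hb b hb₀ b' hb')
      (hb _ (mul_mem ha hb₀) _ (mul_mem hb' ha')) _ _ _ fun g h' k => ?_
    have := h.eq _ (D.gag_mem g⁻¹ h' ha) _ (D.rar_mem h' g⁻¹ ha') _ (D.gag_mem h'⁻¹ k hb₀) _
      (D.rar_mem k h'⁻¹ hb')
    have d1 : s.dev (D.gu g⁻¹ * a * D.gu h') (D.ru h' * a' * D.ru g⁻¹) = s.dev a a' :=
      s.dev_conj _ _ _ ha'
    have d2 : s.dev (D.gu h'⁻¹ * b * D.gu k) (D.ru k * b' * D.ru h'⁻¹) = s.dev b b' :=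
      s.dev_conj _ _ _ hb'
    rw [D.norm_gag, D.norm_gag, D.norm_rar, D.norm_rar, d1, d2] at this
    rw [← s.tw_del F₁ F₂ g h' k ha hb', ← s.tw_phi hz g h' k ha hb', ← map_sub]
    exact (D.norm_tw_le _ _ _).trans this
  · have hm := D.gag_mem g₀ h₀ ha
    rw [hG₁ _ hm, hG₁ a ha, ← D.m.av2_inv g₀ h₀⁻¹ fun g k => b1 g k _ hm]
    refine Eq.trans ?_ (D.m.av2_map (D.gu g₀ * D.ru h₀) fun g k => b1 g k a ha)
    congr 1
    funext g k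
    rw [Φ₁_apply, Φ₁_apply, tw_mul, mul_inv_rev, gu_mul, gu_mul]
    have : D.gu g⁻¹ * D.gu g₀⁻¹ * (D.gu g₀ * a * D.gu h₀) * (D.gu h₀⁻¹ * D.gu k) =
        D.gu g⁻¹ * a * D.gu k := by
      calc _ = D.gu g⁻¹ * (D.gu g₀⁻¹ * D.gu g₀) * a * (D.gu h₀ * D.gu h₀⁻¹) * D.gu k := by
            noncomm_ring
        _ = _ := by rw [D.gu_inv_mul, D.gu_mul_inv, mul_one, mul_one]
    rw [this]
    rfl
  · have hm := D.rar_mem h₀ g₀ ha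
    change G₂ (D.ru h₀ * a * D.ru g₀) = _
    rw [hG₂ _ hm, hG₂ a ha, ← D.m.av2_inv g₀ h₀⁻¹ fun g k => b2 g k _ hm]
    refine Eq.trans ?_ (D.m.av2_map (D.gu g₀ * D.ru h₀) fun g k => b2 g k a ha)
    congr 1
    funext g k
    rw [Φ₂_apply, Φ₂_apply, tw_mul, mul_inv_rev, ru_mul, ru_mul]
    have : D.ru k * D.ru h₀⁻¹ * (D.ru h₀ * a * D.ru g₀) * (D.ru g₀⁻¹ * D.ru g⁻¹) =
        D.ru k * a * D.ru g⁻¹ := by
      calc _ = D.ru k * (D.ru h₀⁻¹ * D.ru h₀) * a * (D.ru g₀ * D.ru g₀⁻¹) * D.ru g⁻¹ := by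
            noncomm_ring
        _ = _ := by rw [D.ru_inv_mul, D.ru_mul_inv, mul_one, mul_one]
    rw [this]
    rfl

end Sm

end FinD

end

end Crest.Agent.R78
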