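import Crest.Agent.R78.Basic
import Crest.Agent.Lib.Banach.LpTwo

/-!
# Row 78: operators on `ℓ²(I, H)`
-/

open scoped InnerProductSpace Topology ComplexConjugate
open Filter MeasureTheory

set_option linter.unusedSectionVars false

namespace Crest.Agent.R78

open Crest.Agent.R121 (Alg)

noncomputable section

universe u

variable {H : Type*} [NormedAddCommGroup H] [InnerProductSpace ℂ H] [CompleteSpace H]

variable {I : Type*}

theorem prj_apply (i : I) (v : L2 I H) : prj i v = v i := rfl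

open Classical in
theorem inj_apply (i j : I) (x : H) : (inj i x : L2 I H) j = if j = i then x else 0 := by
  by_cases h : j = i
  · subst h
    rw [if_pos rfl]
    exact lp.single_apply_self (E := fun _ : I => H) 2 j x
  · rw [if_neg h]
    exact lp.single_apply_ne (E := fun _ : I => H) 2 i x h

theorem l2_inj_self (i : I) (x : H) : (inj i x : L2 I H) i = x := by
  rw [inj_apply, if_pos rfl]

theorem l2_inj_ne {i j : I} (h : j ≠ i) (x : H) : (inj i x : L2 I H) j = 0 := by
  rw [inj_apply, if_neg h]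

theorem l2_ext {v w : L2 I H} (h : ∀ i, v i = w i) : v = w := lp.ext (funext h)

theorem l2_star_inner_left {K : Type*} [NormedAddCommGroup K] [InnerProductSpace ℂ K]
    [CompleteSpace K] (T : Op K) (x y : K) : ⟪star T x, y⟫_ℂ = ⟪x, T y⟫_ℂ :=
  ContinuousLinearMap.adjoint_inner_left T y x

theorem l2_star_inner_right {K : Type*} [NormedAddCommGroup K] [InnerProductSpace ℂ K]
    [CompleteSpace K] (T : Op K) (x y : K) : ⟪x, star T y⟫_ℂ = ⟪T x, y⟫_ℂ :=
  ContinuousLinearMap.adjoint_inner_right T x y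

theorem norm_inj (i : I) (x : H) : ‖(inj i x : L2 I H)‖ = ‖x‖ := by
  classical
  exact lp.norm_single (E := fun _ : I => H) (p := 2) (by norm_num) i x

theorem norm_prj_le (i : I) (v : L2 I H) : ‖v i‖ ≤ ‖v‖ := by
  exact lp.norm_apply_le_norm (by norm_num) v i

theorem inner_inj_left (i : I) (x : H) (v : L2 I H) : ⟪(inj i x : L2 I H), v⟫_ℂ = ⟪x, v i⟫_ℂ := by
  classical
  exact lp.inner_single_left (G := fun _ : I => H) (𝕜 := ℂ) i x v

theorem inner_inj_right (i : I) (x : H) (v : L2 I H) :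
    ⟪v, (inj i x : L2 I H)⟫_ℂ = ⟪v i, x⟫_ℂ := by
  classical
  exact lp.inner_single_right (G := fun _ : I => H) (𝕜 := ℂ) i x v

theorem hasSum_norm_sq_L2 (v : L2 I H) : HasSum (fun i => ‖v i‖ ^ 2) (‖v‖ ^ 2) := by
  exact Lib.Banach.hasSum_norm_sq v

theorem hasSum_inj (v : L2 I H) : HasSum (fun i => (inj i (v i) : L2 I H)) v := by
  classical
  exact lp.hasSum_single (E := fun _ : I => H) (p := 2) (by norm_num) v

/-- The vectors `inj i x` span a dense subspace. -/
theorem ext_inj {K : Type*} [NormedAddCommGroup K] [NormedSpace ℂ K] {S T : L2 I H →L[ℂ] K}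
    (h : ∀ i x, S (inj i x) = T (inj i x)) : S = T := by
  ext v
  refine ((hasSum_inj v).mapL S).unique ?_
  simpa only [h] using (hasSum_inj v).mapL T

theorem ent_apply (T : Op (L2 I H)) (i j : I) (x : H) : ent T i j x = T (inj j x) i := rfl

theorem ext_ent {S T : Op (L2 I H)} (h : ∀ i j, ent S i j = ent T i j) : S = T := by
  refine ext_inj fun j x => l2_ext fun i => ?_
  rw [← ent_apply, ← ent_apply, h]

theorem norm_ent_le (T : Op (L2 I H)) (i j : I) : ‖ent T i j‖ ≤ ‖T‖ := by
  refine ContinuousLinearMap.opNorm_le_bound _ (norm_nonneg _) fun x => ?_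
  rw [ent_apply]
  refine (norm_prj_le i _).trans ?_
  rw [← norm_inj j x]
  exact T.le_opNorm _

theorem ent_star (T : Op (L2 I H)) (i j : I) : ent (star T) i j = star (ent T j i) := by
  ext x
  refine ext_inner_right ℂ fun y => ?_
  rw [ent_apply, ← inner_inj_right, l2_star_inner_left, l2_star_inner_left, inner_inj_left,
    ent_apply]

theorem ent_add (S T : Op (L2 I H)) (i j : I) : ent (S + T) i j = ent S i j + ent T i j := rfl

theorem ent_sub (S T : Op (L2 I H)) (i j : I) : ent (S - T) i j = ent S i j - ent T i j := rfl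

theorem ent_smul (c : ℂ) (T : Op (L2 I H)) (i j : I) : ent (c • T) i j = c • ent T i j := rfl

/-- The columns of an operator matrix. -/
theorem sum_ent_col_le (T : Op (L2 I H)) (j : I) (s : Finset I) (x : H) :
    ∑ i ∈ s, ‖ent T i j x‖ ^ 2 ≤ ‖T‖ ^ 2 * ‖x‖ ^ 2 := by
  simp only [ent_apply]
  refine (Lib.Banach.sum_norm_sq_le (T (inj j x)) s).trans ?_
  rw [← mul_pow, ← norm_inj j x]
  exact pow_le_pow_left₀ (norm_nonneg _) (T.le_opNorm _) 2

/-- The rows of an operator matrix. -/
theorem sum_ent_row_le (T : Op (L2 I H)) (i : I) (s : Finset I) (x : H) :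
    ∑ j ∈ s, ‖star (ent T i j) x‖ ^ 2 ≤ ‖T‖ ^ 2 * ‖x‖ ^ 2 := by
  simp only [← ent_star]
  rw [← norm_star T]
  exact sum_ent_col_le (star T) i s x

theorem l2_exists_op (T : I → Op H) (g : I ↪ I) {C : ℝ} (hC : 0 ≤ C) (hT : ∀ i, ‖T i‖ ≤ C) :
    ∃ X : Op (L2 I H), (∀ v i, X v i = T i (v (g i))) ∧ ‖X‖ ≤ C := by
  have key : ∀ (v : L2 I H) (s : Finset I), ∑ i ∈ s, ‖T i (v (g i))‖ ^ 2 ≤ (C * ‖v‖) ^ 2 := by
    intro v s
    have h1 : ∑ i ∈ s, ‖v (g i)‖ ^ 2 ≤ ‖v‖ ^ 2 := by
      have := Lib.Banach.sum_norm_sq_le v (s.map g)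
      rwa [Finset.sum_map] at this
    calc ∑ i ∈ s, ‖T i (v (g i))‖ ^ 2 ≤ ∑ i ∈ s, C ^ 2 * ‖v (g i)‖ ^ 2 := by
          refine Finset.sum_le_sum fun i _ => ?_
          rw [← mul_pow]
          exact pow_le_pow_left₀ (norm_nonneg _) ((T i).le_of_opNorm_le (hT i) _) 2
      _ ≤ (C * ‖v‖) ^ 2 := by
          rw [← Finset.mul_sum, mul_pow]
          exact mul_le_mul_of_nonneg_left h1 (sq_nonneg _)
  let L : L2 I H →ₗ[ℂ] L2 I H :=
    { toFun := fun v => ⟨fun i => T i (v (g i)), Lib.Banach.memℓp_two_of_sum_le (key v)⟩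
      map_add' := fun v w => l2_ext fun i => by
        change T i ((v + w) (g i)) = T i (v (g i)) + T i (w (g i))
        rw [← map_add]; rfl
      map_smul' := fun c v => l2_ext fun i => by
        change T i ((c • v) (g i)) = c • T i (v (g i))
        rw [← map_smul]; rfl }
  have hL : ∀ v, ‖L v‖ ≤ C * ‖v‖ := fun v => by
    have h1 : ‖L v‖ ^ 2 ≤ (C * ‖v‖) ^ 2 :=
      hasSum_le_of_sum_le (hasSum_norm_sq_L2 (L v)) (key v)
    exact (pow_le_pow_iff_left₀ (norm_nonneg _) (by positivity) two_ne_zero).1 h1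
  exact ⟨L.mkContinuous C hL, fun _ _ => rfl, L.mkContinuous_norm_le hC hL⟩

theorem l2_bdd_nonneg {T : I → Op H} (hT : Bdd T) : ∃ C : ℝ, 0 ≤ C ∧ ∀ i, ‖T i‖ ≤ C := by
  obtain ⟨C, hC⟩ := hT
  exact ⟨max C 0, le_max_right _ _, fun i => (hC i).trans (le_max_left _ _)⟩

theorem l2_bdd_const (T : Op H) : Bdd fun _ : I => T := ⟨‖T‖, fun _ => le_rfl⟩

theorem dgf_apply {T : I → Op H} (hT : Bdd T) (v : L2 I H) (i : I) : dgf T v i = T i (v i) := by
  obtain ⟨C, hC, hT⟩ := l2_bdd_nonneg hT
  obtain ⟨X, hX, -⟩ := l2_exists_op T (Function.Embedding.refl I) hC hT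
  have h : ∃ X : Op (L2 I H), ∀ v i, X v i = T i (v i) := ⟨X, hX⟩
  rw [dgf, dif_pos h]
  exact h.choose_spec v i

theorem norm_dgf_le {T : I → Op H} {C : ℝ} (hC : 0 ≤ C) (hT : ∀ i, ‖T i‖ ≤ C) : ‖dgf T‖ ≤ C := by
  obtain ⟨X, hX, hn⟩ := l2_exists_op T (Function.Embedding.refl I) hC hT
  have : dgf T = X := by
    ext1 v
    refine l2_ext fun i => ?_
    rw [dgf_apply ⟨C, hT⟩, hX]
    rfl
  rwa [this]

theorem dgf_inj {T : I → Op H} (hT : Bdd T) (i : I) (x : H) :
    dgf T (inj i x) = inj i (T i x) := by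
  refine l2_ext fun j => ?_
  rw [dgf_apply hT]
  by_cases h : j = i
  · subst h
    rw [l2_inj_self, l2_inj_self]
  · rw [l2_inj_ne h, l2_inj_ne h, map_zero]

theorem dgf_mul {S T : I → Op H} (hS : Bdd S) (hT : Bdd T) :
    dgf (fun i => S i * T i) = dgf S * dgf T := by
  have h : Bdd fun i => S i * T i := by
    obtain ⟨C, hC, hS⟩ := l2_bdd_nonneg hS
    obtain ⟨D, hD, hT⟩ := l2_bdd_nonneg hT
    exact ⟨C * D, fun i => (norm_mul_le _ _).trans (mul_le_mul (hS i) (hT i) (norm_nonneg _) hC)⟩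
  ext1 v
  refine l2_ext fun i => ?_
  rw [dgf_apply h, ContinuousLinearMap.mul_apply, ContinuousLinearMap.mul_apply, dgf_apply hS,
    dgf_apply hT]

theorem dgf_add {S T : I → Op H} (hS : Bdd S) (hT : Bdd T) :
    dgf (fun i => S i + T i) = dgf S + dgf T := by
  have h : Bdd fun i => S i + T i := by
    obtain ⟨C, hS⟩ := hS
    obtain ⟨D, hT⟩ := hT
    exact ⟨C + D, fun i => (norm_add_le _ _).trans (add_le_add (hS i) (hT i))⟩
  refine ext_inj fun i x => ?_
  rw [dgf_inj h, ContinuousLinearMap.add_apply, ContinuousLinearMap.add_apply, dgf_inj hS,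
    dgf_inj hT, map_add]

theorem dgf_smul (c : ℂ) {T : I → Op H} (hT : Bdd T) : dgf (fun i => c • T i) = c • dgf T := by
  have h : Bdd fun i => c • T i := by
    obtain ⟨D, hT⟩ := hT
    exact ⟨‖c‖ * D, fun i => by
      rw [norm_smul]; exact mul_le_mul_of_nonneg_left (hT i) (norm_nonneg _)⟩
  refine ext_inj fun i x => ?_
  rw [dgf_inj h, ContinuousLinearMap.smul_apply, ContinuousLinearMap.smul_apply, dgf_inj hT,
    map_smul]

theorem dgf_star {T : I → Op H} (hT : Bdd T) : dgf (fun i => star (T i)) = star (dgf T) := by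
  have h : Bdd fun i => star (T i) := by
    obtain ⟨D, hT⟩ := hT
    exact ⟨D, fun i => by rw [norm_star]; exact hT i⟩
  refine ext_inj fun i x => ext_inner_right ℂ fun v => ?_
  rw [dgf_inj h, inner_inj_left, l2_star_inner_left, l2_star_inner_left, inner_inj_left,
    dgf_apply hT]

open Classical in
theorem ent_dgf {T : I → Op H} (hT : Bdd T) (i j : I) :
    ent (dgf T) i j = if i = j then T i else 0 := by
  ext x
  rw [ent_apply, dgf_inj hT, inj_apply]
  split_ifs with h
  · rw [h]
  · rfl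

theorem ent_dgf_mul {T : I → Op H} (hT : Bdd T) (X : Op (L2 I H)) (i j : I) :
    ent (dgf T * X) i j = T i * ent X i j := by
  ext x
  rw [ent_apply, ContinuousLinearMap.mul_apply, dgf_apply hT, ContinuousLinearMap.mul_apply,
    ent_apply]

theorem ent_mul_dgf {T : I → Op H} (hT : Bdd T) (X : Op (L2 I H)) (i j : I) :
    ent (X * dgf T) i j = ent X i j * T j := by
  ext x
  rw [ent_apply, ContinuousLinearMap.mul_apply, dgf_inj hT, ContinuousLinearMap.mul_apply,
    ent_apply]

@[simp] theorem dg_apply (T : Op H) (v : L2 I H) (i : I) : dg I T v i = T (v i) := by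
  exact dgf_apply (l2_bdd_const T) v i

theorem dg_inj (T : Op H) (i : I) (x : H) : dg I T (inj i x) = inj i (T x) := by
  exact dgf_inj (l2_bdd_const T) i x

/-- `T ↦ T ⊗ 1` as a ⋆-homomorphism. -/
def dgHom (I : Type*) (H : Type*) [NormedAddCommGroup H] [InnerProductSpace ℂ H]
    [CompleteSpace H] : Op H →⋆ₐ[ℂ] Op (L2 I H) where
  toFun := dg I
  map_one' := ext_inj fun i x => by rw [dg_inj]; rfl
  map_mul' := fun S T => dgf_mul (l2_bdd_const S) (l2_bdd_const T)
  map_zero' := ext_inj fun i x => by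
    rw [dg_inj, ContinuousLinearMap.zero_apply, ContinuousLinearMap.zero_apply, map_zero]
  map_add' := fun S T => dgf_add (l2_bdd_const S) (l2_bdd_const T)
  commutes' := fun c => ext_inj fun i x => by
    rw [dg_inj, Algebra.algebraMap_eq_smul_one, Algebra.algebraMap_eq_smul_one,
      ContinuousLinearMap.smul_apply, ContinuousLinearMap.smul_apply, map_smul]
    rfl
  map_star' := fun T => dgf_star (l2_bdd_const T)

theorem dgHom_apply (T : Op H) : dgHom I H T = dg I T := rfl

theorem norm_dg_le (T : Op H) : ‖dg I T‖ ≤ ‖T‖ := by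
  exact norm_dgf_le (norm_nonneg T) fun _ => le_rfl

theorem ent_dg_self (T : Op H) (i : I) : ent (dg I T) i i = T := by
  rw [dg, ent_dgf (l2_bdd_const T), if_pos rfl]

theorem commute_dg_iff {Y : Op H} {T : Op (L2 I H)} :
    Commute (dg I Y) T ↔ ∀ i j, Commute Y (ent T i j) := by
  constructor
  · intro h i j
    have h1 := congrArg (fun X => ent X i j) h.eq
    simp only [dg, ent_dgf_mul (l2_bdd_const Y), ent_mul_dgf (l2_bdd_const Y)] at h1
    exact h1
  · intro h
    refine ext_ent fun i j => ?_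
    rw [dg, ent_dgf_mul (l2_bdd_const Y), ent_mul_dgf (l2_bdd_const Y)]
    exact (h i j).eq

/-- The matrix with a single entry. -/
def one1 (i j : I) (x : Op H) : Op (L2 I H) := (inj i).comp (x.comp (prj j))

theorem l2_one1_apply (i j : I) (x : Op H) (v : L2 I H) : one1 i j x v = inj i (x (v j)) := rfl

open Classical in
theorem ent_one1 (i j k l : I) (x : Op H) :
    ent (one1 i j x) k l = if k = i ∧ l = j then x else 0 := by
  ext v
  rw [ent_apply, l2_one1_apply]
  by_cases hk : k = i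
  · by_cases hl : l = j
    · subst hk hl
      rw [l2_inj_self, l2_inj_self, if_pos ⟨rfl, rfl⟩]
    · rw [l2_inj_ne (Ne.symm hl), map_zero, map_zero, if_neg (fun h => hl h.2)]
      rfl
  · rw [l2_inj_ne hk, if_neg (fun h => hk h.1)]
    rfl

theorem star_one1 (i j : I) (x : Op H) : star (one1 i j x) = one1 j i (star x) := by
  ext1 v
  refine ext_inner_right ℂ fun w => ?_
  rw [l2_star_inner_left, l2_one1_apply, l2_one1_apply, inner_inj_left, inner_inj_right,
    l2_star_inner_left]

open Classical in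
theorem one1_mul (i j k l : I) (x y : Op H) :
    one1 i j x * one1 k l y = if j = k then one1 i l (x * y) else 0 := by
  ext1 v
  rw [ContinuousLinearMap.mul_apply, l2_one1_apply, l2_one1_apply, inj_apply]
  split_ifs with h
  · rfl
  · rw [map_zero, map_zero]
    rfl

theorem emb_inj (f : I ↪ I) (i : I) (x : H) : emb H f (inj i x) = inj (f i) x := by
  obtain ⟨X, hX, -⟩ := l2_exists_op (fun _ : I => (1 : Op H)) f (norm_nonneg (1 : Op H))
    fun _ => le_rfl
  have h : ∃ X : Op (L2 I H), ∀ i x, X (inj i x) = inj (f i) x :=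
    ⟨star X, fun i x => ext_inner_right ℂ fun w => by
      rw [l2_star_inner_left, inner_inj_left, inner_inj_left, hX]; rfl⟩
  rw [emb, dif_pos h]
  exact h.choose_spec i x

theorem star_emb_apply (f : I ↪ I) (v : L2 I H) (i : I) : star (emb H f) v i = v (f i) := by
  refine ext_inner_left ℂ fun x => ?_
  rw [← inner_inj_left, l2_star_inner_right, emb_inj, inner_inj_left]

theorem star_emb_mul_emb (f : I ↪ I) : star (emb H f) * emb H f = 1 := by
  refine ext_inj fun i x => l2_ext fun j => ?_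
  rw [ContinuousLinearMap.mul_apply, emb_inj, star_emb_apply, ContinuousLinearMap.one_apply]
  by_cases h : j = i
  · subst h
    rw [l2_inj_self, l2_inj_self]
  · rw [l2_inj_ne h, l2_inj_ne (f.injective.ne h)]

theorem star_emb_mul_emb_of_ne {f g : I ↪ I} (h : ∀ i j, f i ≠ g j) :
    star (emb H f) * emb H g = 0 := by
  refine ext_inj fun i x => l2_ext fun j => ?_
  rw [ContinuousLinearMap.mul_apply, emb_inj, star_emb_apply, l2_inj_ne (h j i)]
  rfl

theorem l2_star_emb_equiv (e : I ≃ I) :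
    star (emb H e.toEmbedding) = emb H e.symm.toEmbedding := by
  refine ext_inj fun i x => l2_ext fun j => ?_
  rw [star_emb_apply, emb_inj]
  by_cases h : j = e.symm i
  · subst h
    rw [Equiv.toEmbedding_apply, Equiv.toEmbedding_apply, Equiv.apply_symm_apply, l2_inj_self,
      l2_inj_self]
  · rw [Equiv.toEmbedding_apply, Equiv.toEmbedding_apply, l2_inj_ne h,
      l2_inj_ne fun h' => h (by rw [← h', Equiv.symm_apply_apply])]

theorem emb_mem_unitary (e : I ≃ I) : emb H e.toEmbedding ∈ unitary (Op (L2 I H)) := by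
  refine ⟨star_emb_mul_emb _, ?_⟩
  have h := star_emb_mul_emb (H := H) e.symm.toEmbedding
  rwa [l2_star_emb_equiv, Equiv.symm_symm, ← l2_star_emb_equiv] at h

theorem star_emb_equiv (e : I ≃ I) : star (emb H e.toEmbedding) = emb H e.symm.toEmbedding := by
  exact l2_star_emb_equiv e

theorem commute_dg_emb (Y : Op H) (f : I ↪ I) : Commute (dg I Y) (emb H f) := by
  refine ext_inj fun i x => ?_
  rw [ContinuousLinearMap.mul_apply, ContinuousLinearMap.mul_apply, emb_inj, dg_inj, dg_inj,
    emb_inj]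

theorem ent_conj_emb (f : I ↪ I) (X : Op (L2 I H)) (i j : I) :
    ent (star (emb H f) * X * emb H f) i j = ent X (f i) (f j) := by
  ext x
  rw [ent_apply, ContinuousLinearMap.mul_apply, ContinuousLinearMap.mul_apply, emb_inj,
    star_emb_apply, ent_apply]

theorem separable_L2 [Countable I] [TopologicalSpace.SeparableSpace H] :
    TopologicalSpace.SeparableSpace (L2 I H) := by
  exact Lib.Banach.separableSpace_lp (X := fun _ : I => H)

end

end Crest.Agent.R78
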