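import Crest.Agent.R78.Mart
import Crest.Agent.R78.L2

/-!
# Row 78: approximate cocycles: amplification to `2 × 2` matrices (auxiliary constructions)
-/

open scoped InnerProductSpace Topology ComplexConjugate
open Filter MeasureTheory

set_option linter.unusedSectionVars false

namespace Crest.Agent.R78

noncomputable section

variable {K : Type*} [NormedAddCommGroup K] [InnerProductSpace ℂ K] [CompleteSpace K]

section fin

variable {J κ : Type*} [Fintype J] [Fintype κ]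

/-- A vector of a finite Hilbert sum with given coordinates. -/
def m2vec (f : J → K) : L2 J K := ∑ a, inj a (f a)

theorem m2vec_apply (f : J → K) (a : J) : m2vec f a = f a := by
  rw [m2vec, ← prj_apply, map_sum, Finset.sum_eq_single a]
  · exact l2_inj_self a _
  · exact fun b _ hb => l2_inj_ne hb.symm _
  · exact fun h => absurd (Finset.mem_univ a) h

theorem m2_norm_le (v : L2 J K) : ‖v‖ ≤ ∑ a, ‖v a‖ := by
  have h : v = m2vec fun a => v a := l2_ext fun a => (m2vec_apply _ a).symm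
  refine (congrArg norm h).trans_le ((norm_sum_le _ _).trans_eq ?_)
  simp only [norm_inj]

/-- An operator on a finite Hilbert sum. -/
def m2op (T : J → κ → Op K) (g : J → κ → J) : Op (L2 J K) := ∑ a, ∑ k, one1 a (g a k) (T a k)

theorem m2op_apply (T : J → κ → Op K) (g : J → κ → J) (v : L2 J K) (a : J) :
    m2op T g v a = ∑ k, T a k (v (g a k)) := by
  rw [← m2vec_apply (fun a => ∑ k, T a k (v (g a k))) a, m2vec, m2op]
  simp only [sum_apply, l2_one1_apply, map_sum]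

theorem m2_opNorm_le {T : Op (L2 J K)} {S : J → κ → Op K} {g : J → κ → J}
    (h : ∀ v a, T v a = ∑ k, S a k (v (g a k))) : ‖T‖ ≤ ∑ a, ∑ k, ‖S a k‖ := by
  refine ContinuousLinearMap.opNorm_le_bound _ (by positivity) fun v => (m2_norm_le _).trans ?_
  rw [Finset.sum_mul]
  refine Finset.sum_le_sum fun a _ => ?_
  rw [h, Finset.sum_mul]
  exact norm_sum_le_of_le _ fun k _ => (S a k).le_opNorm_of_le (norm_prj_le _ v)

theorem m2_le {a b : J → J → ℝ} (ha : ∀ i j, 0 ≤ a i j) (hb : ∀ i j, 0 ≤ b i j) :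
    ∑ i, ∑ j, ∑ k, a i k * b k j ≤ (∑ i, ∑ j, a i j) * ∑ i, ∑ j, b i j := by
  rw [Finset.sum_mul]
  refine Finset.sum_le_sum fun i _ => ?_
  rw [Finset.sum_comm, Finset.sum_mul]
  refine Finset.sum_le_sum fun k _ => ?_
  rw [← Finset.mul_sum]
  exact mul_le_mul_of_nonneg_left (Finset.single_le_sum (f := fun k => ∑ j, b k j)
    (fun k _ => Finset.sum_nonneg fun j _ => hb k j) (Finset.mem_univ k)) (ha i k)

theorem m2_le3 {a b c : J → J → ℝ} (ha : ∀ i j, 0 ≤ a i j) (hb : ∀ i j, 0 ≤ b i j)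
    (hc : ∀ i j, 0 ≤ c i j) : ∑ i, ∑ j, ∑ m, ∑ k, a i k * b k m * c m j ≤
      (∑ i, ∑ j, a i j) * (∑ i, ∑ j, b i j) * ∑ i, ∑ j, c i j := by
  simp only [← Finset.sum_mul]
  refine (m2_le (a := fun i m => ∑ k, a i k * b k m)
    (fun i m => Finset.sum_nonneg fun k _ => mul_nonneg (ha _ _) (hb _ _)) hc).trans ?_
  exact mul_le_mul_of_nonneg_right (m2_le ha hb)
    (Finset.sum_nonneg fun i _ => Finset.sum_nonneg fun j _ => hc i j)

end fin

theorem m2_cases : ∀ i : Fin 2, i = 0 ∨ i = 1 := by decide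

namespace ACoc

variable {𝒜 : Type*} [Ring 𝒜] [StarRing 𝒜] [Algebra ℂ 𝒜] {Λ W e : ℝ} (D : ACoc 𝒜 K Λ W e)

theorem m2_dv_zero : D.dv 0 = 0 := by
  simpa using D.dv_smul 0 0

/-- The amplified left action. -/
def m2l : Matrix (Fin 2) (Fin 2) 𝒜 →ₐ[ℂ] Op (L2 (Fin 2 × Fin 2) K) where
  toFun X := m2op (fun a k => D.l (X a.1 k)) fun a k => (k, a.2)
  map_one' := by
    ext1 v
    refine l2_ext fun a => ?_
    obtain ⟨i, j⟩ := a
    rw [m2op_apply]
    change ∑ k, D.l ((1 : Matrix (Fin 2) (Fin 2) 𝒜) i k) (v (k, j)) = v (i, j)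
    rcases m2_cases i with rfl | rfl <;> simp
  map_mul' X Y := by
    ext1 v
    refine l2_ext fun a => ?_
    simp only [mul_apply_eq_comp, m2op_apply, Matrix.mul_apply, map_sum, map_mul, sum_apply]
    exact Finset.sum_comm
  map_zero' := by
    ext1 v
    refine l2_ext fun a => ?_
    simp [m2op_apply]
  map_add' X Y := by
    ext1 v
    refine l2_ext fun a => ?_
    simp [m2op_apply, Finset.sum_add_distrib]
  commutes' c := by
    ext1 v
    refine l2_ext fun a => ?_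
    obtain ⟨i, j⟩ := a
    rw [m2op_apply]
    dsimp only
    rcases m2_cases i with rfl | rfl <;> simp [Algebra.algebraMap_eq_smul_one]

theorem m2l_apply (X : Matrix (Fin 2) (Fin 2) 𝒜) (v : L2 (Fin 2 × Fin 2) K) (a : Fin 2 × Fin 2) :
    D.m2l X v a = ∑ k, D.l (X a.1 k) (v (k, a.2)) := by
  have h : D.m2l X = m2op (fun a k => D.l (X a.1 k)) fun a k => (k, a.2) := rfl
  rw [h, m2op_apply]

/-- The amplified right action. -/
def m2r : Matrix (Fin 2) (Fin 2) 𝒜 →ₗ[ℂ] Op (L2 (Fin 2 × Fin 2) K) where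
  toFun X := m2op (fun a k => D.r (X k a.2)) fun a k => (a.1, k)
  map_add' X Y := by
    ext1 v
    refine l2_ext fun a => ?_
    simp [m2op_apply, Finset.sum_add_distrib]
  map_smul' c X := by
    ext1 v
    refine l2_ext fun a => ?_
    simp [m2op_apply]

theorem m2r_apply (X : Matrix (Fin 2) (Fin 2) 𝒜) (v : L2 (Fin 2 × Fin 2) K) (a : Fin 2 × Fin 2) :
    D.m2r X v a = ∑ k, D.r (X k a.2) (v (a.1, k)) := by
  have h : D.m2r X = m2op (fun a k => D.r (X k a.2)) fun a k => (a.1, k) := rfl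
  rw [h, m2op_apply]

/-- The amplified cochain. -/
def m2φ : Matrix (Fin 2) (Fin 2) 𝒜 →ₗ[ℂ] Matrix (Fin 2) (Fin 2) 𝒜 →ₗ[ℂ] L2 (Fin 2 × Fin 2) K :=
  LinearMap.mk₂ ℂ (fun X Y => m2vec fun a => ∑ k, D.φ (X a.1 k) (Y k a.2))
    (fun X X' Y => l2_ext fun a => by simp [m2vec_apply, Finset.sum_add_distrib])
    (fun c X Y => l2_ext fun a => by simp [m2vec_apply])
    (fun X Y Y' => l2_ext fun a => by simp [m2vec_apply, Finset.sum_add_distrib])
    (fun c X Y => l2_ext fun a => by simp [m2vec_apply])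

theorem m2φ_apply (X Y : Matrix (Fin 2) (Fin 2) 𝒜) (a : Fin 2 × Fin 2) :
    D.m2φ X Y a = ∑ k, D.φ (X a.1 k) (Y k a.2) := by
  rw [m2φ, LinearMap.mk₂_apply, m2vec_apply]

theorem m2_lr (X Y : Matrix (Fin 2) (Fin 2) 𝒜) :
    ‖D.m2l X * D.m2r Y - D.m2r Y * D.m2l X‖ ≤
      e * (∑ i, ∑ j, D.ν (X i j)) * ∑ i, ∑ j, D.ν (Y i j) := by
  refine (m2_opNorm_le (κ := Fin 2 × Fin 2)
    (S := fun a b => D.l (X a.1 b.1) * D.r (Y b.2 a.2) - D.r (Y b.2 a.2) * D.l (X a.1 b.1))
    (g := fun _ b => b) fun v a => ?_).trans ?_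
  · have h : (D.m2l X * D.m2r Y - D.m2r Y * D.m2l X) v a =
        D.m2l X (D.m2r Y v) a - D.m2r Y (D.m2l X v) a := rfl
    rw [h]
    simp only [m2l_apply, m2r_apply, map_sum, Fintype.sum_prod_type, sub_apply,
      mul_apply_eq_comp, Finset.sum_sub_distrib]
    rw [Finset.sum_comm (f := fun k m => D.r (Y k a.2) (D.l (X a.1 m) (v (m, k))))]
  · refine (Finset.sum_le_sum fun a _ => Finset.sum_le_sum fun b _ => D.lr _ _).trans_eq ?_
    simp only [Fintype.sum_prod_type, Fin.sum_univ_two]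
    ring

theorem m2_coc (hΛ : 0 ≤ Λ) (hW : 0 ≤ W) (he : 0 ≤ e) (X Y Z : Matrix (Fin 2) (Fin 2) 𝒜) :
    ‖D.m2l X (D.m2φ Y Z) - D.m2φ (X * Y) Z + D.m2φ X (Y * Z) - D.m2r Z (D.m2φ X Y)‖ ≤
      Λ * W * (∑ i, ∑ j, D.ν (X i j)) * ((∑ i, ∑ j, D.dv (Y i j)) + e * ∑ i, ∑ j, D.ν (Y i j)) *
        ∑ i, ∑ j, D.ν (Z i j) := by
  have h1 : ∀ i j, (D.m2l X (D.m2φ Y Z) - D.m2φ (X * Y) Z + D.m2φ X (Y * Z) -
      D.m2r Z (D.m2φ X Y)) (i, j) = ∑ m, ∑ k, (D.l (X i k) (D.φ (Y k m) (Z m j)) -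
        D.φ (X i k * Y k m) (Z m j) + D.φ (X i k) (Y k m * Z m j) -
        D.r (Z m j) (D.φ (X i k) (Y k m))) := fun i j => by
    have h : (D.m2l X (D.m2φ Y Z) - D.m2φ (X * Y) Z + D.m2φ X (Y * Z) -
      D.m2r Z (D.m2φ X Y)) (i, j) = D.m2l X (D.m2φ Y Z) (i, j) - D.m2φ (X * Y) Z (i, j) +
        D.m2φ X (Y * Z) (i, j) - D.m2r Z (D.m2φ X Y) (i, j) := rfl
    rw [h]
    simp only [m2l_apply, m2r_apply, m2φ_apply, Matrix.mul_apply, Fin.sum_univ_two, map_add,
      LinearMap.add_apply]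
    abel
  refine (m2_norm_le _).trans ?_
  rw [Fintype.sum_prod_type]
  have h2 := m2_le3 (a := fun i j => D.ν (X i j)) (b := fun i j => D.dv (Y i j) + e * D.ν (Y i j))
    (c := fun i j => D.ν (Z i j)) (fun _ _ => D.ν_nonneg _)
    (fun _ _ => add_nonneg (D.dv_nonneg _) (mul_nonneg he (D.ν_nonneg _))) (fun _ _ => D.ν_nonneg _)
  simp only [Finset.sum_add_distrib, ← Finset.mul_sum] at h2
  refine le_trans ?_ ((mul_le_mul_of_nonneg_left h2 (mul_nonneg hΛ hW)).trans_eq (by ring))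
  simp only [Finset.mul_sum]
  refine Finset.sum_le_sum fun i _ => Finset.sum_le_sum fun j _ => ?_
  rw [h1]
  refine norm_sum_le_of_le _ fun m _ => norm_sum_le_of_le _ fun k _ => (D.coc _ _ _).trans_eq ?_
  ring

/-- The amplified approximate cocycle. -/
def m2 (hΛ : 1 ≤ Λ) (hW : 0 ≤ W) (he : 0 ≤ e)
    (hrow : ∀ a b : 𝒜, star a * a + star b * b = 1 → D.ν a ≤ Λ) :
    ACoc (Matrix (Fin 2) (Fin 2) 𝒜) (L2 (Fin 2 × Fin 2) K) (4 * Λ) W e where
  ν X := ∑ i, ∑ j, D.ν (X i j)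
  dv X := ∑ i, ∑ j, D.dv (X i j)
  l := D.m2l
  r := D.m2r
  φ := D.m2φ
  ν_nonneg _ := Finset.sum_nonneg fun _ _ => Finset.sum_nonneg fun _ _ => D.ν_nonneg _
  ν_add X Y := by
    simp only [← Finset.sum_add_distrib]
    exact Finset.sum_le_sum fun _ _ => Finset.sum_le_sum fun _ _ => D.ν_add _ _
  ν_smul c X := by
    simp only [Finset.mul_sum, Matrix.smul_apply, D.ν_smul]
  ν_mul X Y := by
    refine le_trans (Finset.sum_le_sum fun i _ => Finset.sum_le_sum fun j _ => ?_)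
      (m2_le (fun i j => D.ν_nonneg (X i j)) fun i j => D.ν_nonneg (Y i j))
    rw [Matrix.mul_apply, Fin.sum_univ_two, Fin.sum_univ_two]
    exact (D.ν_add _ _).trans (add_le_add (D.ν_mul _ _) (D.ν_mul _ _))
  ν_star X := by
    simp only [Matrix.star_apply, D.ν_star]
    exact Finset.sum_comm
  ν_unit U hU := by
    have h : ∀ j, star (U 0 j) * U 0 j + star (U 1 j) * U 1 j = 1 := fun j => by
      have := congrFun (congrFun hU.1 j) j
      rwa [Matrix.mul_apply, Fin.sum_univ_two, Matrix.star_apply, Matrix.star_apply,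
        Matrix.one_apply_eq] at this
    simp only [Fin.sum_univ_two]
    linarith [hrow _ _ (h 0), hrow _ _ (h 1), hrow _ _ ((add_comm _ _).trans (h 0)),
      hrow _ _ ((add_comm _ _).trans (h 1))]
  dv_nonneg _ := Finset.sum_nonneg fun _ _ => Finset.sum_nonneg fun _ _ => D.dv_nonneg _
  dv_add X Y := by
    simp only [← Finset.sum_add_distrib]
    exact Finset.sum_le_sum fun _ _ => Finset.sum_le_sum fun _ _ => D.dv_add _ _
  dv_smul c X := by
    simp only [Finset.mul_sum, Matrix.smul_apply, D.dv_smul]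
  dv_mul X Y := by
    have h1 := m2_le (fun i j => D.dv_nonneg (X i j)) fun i j => D.ν_nonneg (Y i j)
    have h2 := m2_le (fun i j => D.ν_nonneg (X i j)) fun i j => D.dv_nonneg (Y i j)
    have h3 : ∑ i, ∑ j, D.dv ((X * Y) i j) ≤
        Λ * (∑ i, ∑ j, ∑ k, D.dv (X i k) * D.ν (Y k j) +
          ∑ i, ∑ j, ∑ k, D.ν (X i k) * D.dv (Y k j)) := by
      simp only [← Finset.sum_add_distrib, Finset.mul_sum]
      refine Finset.sum_le_sum fun i _ => Finset.sum_le_sum fun j _ => ?_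
      rw [Matrix.mul_apply, Fin.sum_univ_two, Fin.sum_univ_two]
      exact (D.dv_add _ _).trans (add_le_add (D.dv_mul _ _) (D.dv_mul _ _))
    refine h3.trans (mul_le_mul (by linarith) (add_le_add h1 h2) (add_nonneg ?_ ?_) (by linarith))
    · exact Finset.sum_nonneg fun _ _ => Finset.sum_nonneg fun _ _ => Finset.sum_nonneg fun _ _ =>
        mul_nonneg (D.dv_nonneg _) (D.ν_nonneg _)
    · exact Finset.sum_nonneg fun _ _ => Finset.sum_nonneg fun _ _ => Finset.sum_nonneg fun _ _ =>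
        mul_nonneg (D.ν_nonneg _) (D.dv_nonneg _)
  dv_star X := by
    rw [Finset.sum_comm]
    simp only [Matrix.star_apply, ← Finset.sum_add_distrib, Finset.mul_sum]
    exact Finset.sum_le_sum fun _ _ => Finset.sum_le_sum fun _ _ => D.dv_star _
  dv_one := by
    simp [D.dv_one, D.m2_dv_zero]
  r_one := by
    ext1 v
    refine l2_ext fun a => ?_
    obtain ⟨i, j⟩ := a
    rw [m2r_apply]
    change ∑ k, D.r ((1 : Matrix (Fin 2) (Fin 2) 𝒜) k j) (v (i, k)) = v (i, j)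
    rcases m2_cases j with rfl | rfl <;> simp [D.r_one]
  r_mul X Y := by
    ext1 v
    refine l2_ext fun a => ?_
    simp only [mul_apply_eq_comp, m2r_apply, Matrix.mul_apply, map_sum, D.r_mul, sum_apply]
    exact Finset.sum_comm
  l_le X := by
    refine (m2_opNorm_le (D.m2l_apply X)).trans ?_
    refine (Finset.sum_le_sum fun a _ => Finset.sum_le_sum fun k _ => D.l_le _).trans ?_
    have h := fun i j => mul_nonneg (zero_le_one.trans hΛ) (D.ν_nonneg (X i j))
    simp only [Fintype.sum_prod_type, Fin.sum_univ_two]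
    linarith [h 0 0, h 0 1, h 1 0, h 1 1]
  r_le X := by
    refine (m2_opNorm_le (D.m2r_apply X)).trans ?_
    refine (Finset.sum_le_sum fun a _ => Finset.sum_le_sum fun k _ => D.r_le _).trans ?_
    have h := fun i j => mul_nonneg (zero_le_one.trans hΛ) (D.ν_nonneg (X i j))
    simp only [Fintype.sum_prod_type, Fin.sum_univ_two]
    linarith [h 0 0, h 0 1, h 1 0, h 1 1]
  lr := D.m2_lr
  φ_le X Y := by
    refine (m2_norm_le _).trans ?_
    rw [Fintype.sum_prod_type, mul_assoc]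
    refine le_trans ?_ (mul_le_mul_of_nonneg_left
      (m2_le (fun i j => D.ν_nonneg (X i j)) fun i j => D.ν_nonneg (Y i j)) hW)
    simp only [Finset.mul_sum]
    refine Finset.sum_le_sum fun i _ => Finset.sum_le_sum fun j _ => ?_
    rw [m2φ_apply]
    exact norm_sum_le_of_le _ fun k _ => (D.φ_le _ _).trans_eq (mul_assoc _ _ _)
  φ_one_left Y := by
    refine l2_ext fun a => ?_
    obtain ⟨i, j⟩ := a
    rw [m2φ_apply]
    change ∑ k, D.φ ((1 : Matrix (Fin 2) (Fin 2) 𝒜) i k) (Y k j) = 0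
    rcases m2_cases i with rfl | rfl <;> simp [D.φ_one_left]
  φ_one_right X := by
    refine l2_ext fun a => ?_
    obtain ⟨i, j⟩ := a
    rw [m2φ_apply]
    change ∑ k, D.φ (X i k) ((1 : Matrix (Fin 2) (Fin 2) 𝒜) k j) = 0
    rcases m2_cases j with rfl | rfl <;> simp [D.φ_one_right]
  coc X Y Z := by
    refine (D.m2_coc (zero_le_one.trans hΛ) hW he X Y Z).trans ?_
    have h1 : ∀ X : Matrix (Fin 2) (Fin 2) 𝒜, 0 ≤ ∑ i, ∑ j, D.ν (X i j) := fun _ =>
      Finset.sum_nonneg fun _ _ => Finset.sum_nonneg fun _ _ => D.ν_nonneg _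
    have h2 : 0 ≤ ∑ i, ∑ j, D.dv (Y i j) :=
      Finset.sum_nonneg fun _ _ => Finset.sum_nonneg fun _ _ => D.dv_nonneg _
    have := h1 X
    have := h1 Y
    have := h1 Z
    gcongr
    linarith

end ACoc

end

end Crest.Agent.R78
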