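import Crest.Agent.R78.Mart
import Crest.Agent.R78.L2
import Crest.Agent.R78.Mart2Aux

/-!
# Row 78: approximate cocycles: the two by two trick
-/

open scoped InnerProductSpace Topology ComplexConjugate
open Filter MeasureTheory

set_option linter.unusedSectionVars false

namespace Crest.Agent.R78

open Crest.Agent.R121 (Alg)

noncomputable section

universe u

variable {H : Type*} [NormedAddCommGroup H] [InnerProductSpace ℂ H] [CompleteSpace H]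

/-- Amplification to `2 × 2` matrices (sizes and deviations are summed over the entries). -/
theorem ACoc.exists_mat {𝒜 : Type*} [Ring 𝒜] [StarRing 𝒜] [Algebra ℂ 𝒜] {K : Type*}
    [NormedAddCommGroup K] [InnerProductSpace ℂ K] [CompleteSpace K] {Λ W e : ℝ}
    (D : ACoc 𝒜 K Λ W e) (hΛ : 1 ≤ Λ) (hW : 0 ≤ W) (he : 0 ≤ e)
    (hrow : ∀ a b : 𝒜, star a * a + star b * b = 1 → D.ν a ≤ Λ) :
    ∃ D₂ : ACoc (Matrix (Fin 2) (Fin 2) 𝒜) (L2 (Fin 2 × Fin 2) K) (4 * Λ) W e,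
      (∀ X, D₂.ν X = ∑ i, ∑ j, D.ν (X i j)) ∧ (∀ X, D₂.dv X = ∑ i, ∑ j, D.dv (X i j)) ∧
      (∀ X v i j, D₂.l X v (i, j) = ∑ k, D.l (X i k) (v (k, j))) ∧
      (∀ X v i j, D₂.r X v (i, j) = ∑ k, D.r (X k j) (v (i, k))) ∧
      ∀ X Y i j, D₂.φ X Y (i, j) = ∑ k, D.φ (X i k) (Y k j) := by
  exact ⟨D.m2 hΛ hW he hrow, fun _ => rfl, fun _ => rfl, fun X v i j => D.m2l_apply X v (i, j),
    fun X v i j => D.m2r_apply X v (i, j), fun X Y i j => D.m2φ_apply X Y (i, j)⟩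

section M2b

variable {𝒜 : Type*} [Ring 𝒜] [StarRing 𝒜] [Algebra ℂ 𝒜] [StarModule ℂ 𝒜] {K : Type*}
  [NormedAddCommGroup K] [InnerProductSpace ℂ K] {Λ W e : ℝ}

theorem m2b_star (U V : 𝒜) : star !![U, 1; star V, -star (U * V)] = !![star U, V; 1, -(U * V)] := by
  ext i j
  fin_cases i <;> fin_cases j <;> simp [Matrix.star_apply]

theorem m2b_unitary {U V : 𝒜} (hU : U ∈ unitary 𝒜) (hV : V ∈ unitary 𝒜) {c : ℂ} (hc : star c = c)
    (hc2 : c * c * 2 = 1) : c • !![U, 1; star V, -star (U * V)] ∈ unitary (Matrix (Fin 2) (Fin 2) 𝒜) := by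
  have h1 := mul_mem hU hV
  have h2 : ∀ {N : Matrix (Fin 2) (Fin 2) 𝒜}, N = !![1 + 1, 0; 0, 1 + 1] → (c * c) • N = 1 := by
    rintro _ rfl
    rw [← one_smul ℂ (1 : Matrix (Fin 2) (Fin 2) 𝒜), ← hc2, mul_smul (c * c), two_smul,
      Matrix.one_fin_two]
    simp
  constructor <;> rw [star_smul, hc, m2b_star, smul_mul_smul_comm] <;> apply h2 <;>
    rw [Matrix.mul_fin_two]
  · simp only [hU.1, hV.2, mul_one, one_mul, h1.2, mul_neg, neg_mul, neg_neg]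
    rw [star_mul, ← mul_assoc V, hV.2, one_mul, mul_assoc U, hV.2, mul_one, add_neg_cancel,
      add_neg_cancel]
  · simp only [hU.2, hV.1, mul_one, one_mul, neg_mul_neg, h1.1]
    rw [star_mul, add_neg_cancel, add_neg_cancel]

theorem ACoc.m2b_ν0 (D : ACoc 𝒜 K Λ W e) : D.ν 0 = 0 := by simpa using D.ν_smul 0 0

theorem ACoc.m2b_neg (D : ACoc 𝒜 K Λ W e) (a : 𝒜) : D.dv (-a) = D.dv a := by
  simpa using D.dv_smul (-1) a

/-- from the four corner maps to one cochain -/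
theorem ACoc.m2b_fin (D : ACoc 𝒜 K Λ W e) (hΛ : 1 ≤ Λ) (he : 0 ≤ e) {A B C : 𝒜 →ₗ[ℂ] K}
    {M θ d : ℝ} (hM : 0 ≤ M) (hd : 0 ≤ d) (hA : ∀ X, ‖A X‖ ≤ M * D.ν X)
    (hB : ∀ X, ‖B X‖ ≤ M * D.ν X) (hC : ∀ X, ‖C X‖ ≤ M * D.ν X)
    (h : ∀ U ∈ unitary 𝒜, ∀ V ∈ unitary 𝒜, D.dv U ≤ d → D.dv V ≤ d →
      ‖D.φ U V - D.l U (A V) - D.r V (B U) + C (U * V) + D.r (U * V) (A 1)‖ ≤ θ) :
    ∃ F : 𝒜 →ₗ[ℂ] K, (∀ X, ‖F X‖ ≤ 4 * Λ ^ 2 * M * D.ν X) ∧
      ∀ U ∈ unitary 𝒜, ∀ V ∈ unitary 𝒜, D.dv U ≤ d → D.dv V ≤ d →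
        ‖D.φ U V - D.del F U V‖ ≤ 3 * Λ ^ 2 * θ + e * Λ ^ 3 * M := by
  have h1 := D.ν_unit 1 (one_mem _)
  have a1 : ‖A 1‖ ≤ M * Λ := (hA 1).trans (by gcongr)
  have b1 : ‖B 1‖ ≤ M * Λ := (hB 1).trans (by gcongr)
  have hΛ2 : 1 ≤ Λ ^ 2 := one_le_pow₀ hΛ
  refine ⟨C + (ContinuousLinearMap.apply ℂ K (A 1)).toLinearMap ∘ₗ D.r -
    (ContinuousLinearMap.apply ℂ K (A 1 + B 1)).toLinearMap ∘ₗ D.l.toLinearMap, fun X => ?_,
    fun U hU V hV dU dV => ?_⟩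
  · change ‖C X + D.r X (A 1) - D.l X (A 1 + B 1)‖ ≤ _
    have hX := D.ν_nonneg X
    have k1 := (D.r X).le_of_opNorm_le_of_le (D.r_le X) a1
    have k2 := (D.l X).le_of_opNorm_le_of_le (D.l_le X) ((norm_add_le _ _).trans (add_le_add a1 b1))
    have k3 := mul_le_mul_of_nonneg_right hΛ2 (mul_nonneg hM hX)
    refine (norm_sub_le _ _).trans ((add_le_add_left (norm_add_le _ _) _).trans ?_)
    linarith [hC X]
  · have d1 : D.dv 1 ≤ d := D.dv_one ▸ hd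
    have k0 := h U hU V hV dU dV
    have k1 := h 1 (one_mem _) V hV d1 dV
    have k2 := h U hU 1 (one_mem _) dU d1
    have nU := D.ν_unit U hU
    have nV := D.ν_unit V hV
    have k3 := (D.l U).le_of_opNorm_le_of_le ((D.l_le U).trans (by gcongr : _ ≤ Λ * Λ)) k1
    have k4 := (D.r V).le_of_opNorm_le_of_le ((D.r_le V).trans (by gcongr : _ ≤ Λ * Λ)) k2
    have k5 := (D.l U * D.r V - D.r V * D.l U).le_of_opNorm_le_of_le
      ((D.lr U V).trans (by have := D.ν_nonneg V; gcongr : _ ≤ e * Λ * Λ)) b1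
    have k6 := mul_le_mul_of_nonneg_right hΛ2 ((norm_nonneg _).trans k0)
    have k7 := (norm_sub_le _ _).trans (add_le_add ((norm_sub_le _ _).trans (add_le_add
      ((norm_sub_le _ _).trans (add_le_add k0 k3)) k4)) k5)
    refine le_trans (le_of_eq (congrArg norm ?_)) (k7.trans (by linarith))
    change D.φ U V - (D.l U (C V + D.r V (A 1) - D.l V (A 1 + B 1)) -
      (C (U * V) + D.r (U * V) (A 1) - D.l (U * V) (A 1 + B 1)) +
      D.r V (C U + D.r U (A 1) - D.l U (A 1 + B 1))) = _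
    simp only [D.φ_one_left, D.φ_one_right, D.r_one, map_one, one_mul, mul_one, map_add, map_sub,
      map_mul, map_zero, sub_apply, mul_apply_eq_comp, one_apply_eq_self]
    abel

end M2b

/-- Approximate cocycles are approximate coboundaries on good unitaries. Recipe: `mart` for the
amplification gives `F₂`; put `F_{ij} x = F₂ (single i j x) (i, j)`. For
`Û = 2^{-1/2} !![U, 1; V⋆, -V⋆ U⋆]` and diagonal sign matrices `s`, `t` apply the estimate to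
`t Û s`, conjugate by `t` and average over the four choices of each of `s`, `t`: the `(0,1)` entry
gives `φ U V ≈ U F₀₁ V - F₁₁ (U V) + (F₀₀ U) V - (F₀₁ 1) U V`. The cases `U = 1` and `V = 1` show
`F₀₁ V ≈ F'' V - (F₀₀ 1) V` and `F₀₀ U ≈ F'' U - U (F₀₁ 1)` for `F'' X = F₁₁ X + (F₀₁ 1) X`; take
`F X = F'' X - X (F₀₀ 1 + F₀₁ 1)`. -/
theorem ACoc.solve {Λ : ℝ} (hΛ : 1 ≤ Λ) : ∃ C > 0, ∀ {η : ℝ}, 0 < η → ∃ e₀ > 0,
    ∀ {𝒜 : Type u} [Ring 𝒜] [StarRing 𝒜] [Algebra ℂ 𝒜] [StarModule ℂ 𝒜] {K : Type u}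
    [NormedAddCommGroup K] [InnerProductSpace ℂ K] [CompleteSpace K] {W e : ℝ}
    (D : ACoc 𝒜 K Λ W e), 0 ≤ W → 0 ≤ e → e ≤ e₀ →
    (∀ a b : 𝒜, star a * a + star b * b = 1 → D.ν a ≤ Λ) →
    ∃ F : 𝒜 →ₗ[ℂ] K, (∀ X, ‖F X‖ ≤ C * W * D.ν X) ∧
      ∀ U ∈ unitary 𝒜, ∀ V ∈ unitary 𝒜, D.dv U ≤ e₀ → D.dv V ≤ e₀ →
        ‖D.φ U V - D.del F U V‖ ≤ η * W := by
  obtain ⟨C, hC, h⟩ := ACoc.mart.{u} (Λ := 4 * Λ) (by linarith)
  refine ⟨4 * Λ ^ 2 * C, by positivity, fun {η} hη => ?_⟩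
  obtain ⟨e₁, he₁, h⟩ := h (η := η / (12 * Λ ^ 2)) (by positivity)
  obtain ⟨e₀, he₀, h1, h2⟩ : ∃ e₀ > 0, e₀ * (6 * Λ ^ 2) ≤ e₁ ∧ e₀ * (2 * Λ ^ 3 * C) ≤ η :=
    ⟨min (e₁ / (6 * Λ ^ 2)) (η / (2 * Λ ^ 3 * C)), by positivity,
      (le_div_iff₀ (by positivity)).1 (min_le_left _ _),
      (le_div_iff₀ (by positivity)).1 (min_le_right _ _)⟩
  have hΛ2 : Λ ≤ Λ ^ 2 := by nlinarith
  refine ⟨e₀, he₀, fun {𝒜} _ _ _ _ {K} _ _ _ {W e} D hW he hee hrow => ?_⟩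
  obtain ⟨D₂, hν, hdv, hl, hr, hφ⟩ := D.exists_mat hΛ hW he hrow
  obtain ⟨F₂, hF, hF'⟩ := h D₂ hW he (by nlinarith)
  obtain ⟨g, hg⟩ : ∃ g : Fin 2 → Fin 2 → Fin 2 → Fin 2 → 𝒜 →ₗ[ℂ] K,
      ∀ i j k l x, g i j k l x = F₂ (Matrix.single k l x) (i, j) :=
    ⟨fun i j k l => (prj (i, j)).toLinearMap ∘ₗ F₂ ∘ₗ Matrix.singleLinearMap ℂ k l,
      fun _ _ _ _ _ => rfl⟩
  have g1 : ∀ i j k l x, ‖g i j k l x‖ ≤ C * W * D.ν x := fun i j k l x => by
    rw [hg]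
    refine (norm_prj_le _ _).trans ((hF _).trans_eq ?_)
    rw [hν]
    fin_cases k <;> fin_cases l <;> simp [D.m2b_ν0]
  have g2 : ∀ i j a b c d, F₂ !![a, b; c, d] (i, j) =
      g i j 0 0 a + g i j 0 1 b + g i j 1 0 c + g i j 1 1 d := fun i j a b c d => by
    rw [Matrix.matrix_eq_sum_single !![a, b; c, d]]
    simp [hg, add_assoc]
  obtain ⟨c, hc, hc2, hc1⟩ : ∃ c : ℂ, star c = c ∧ c * c * 2 = 1 ∧ ‖c‖ ≤ 1 := by
    refine ⟨(√(1 / 2) : ℝ), Complex.conj_ofReal _, ?_, ?_⟩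
    · rw [← Complex.ofReal_mul, Real.mul_self_sqrt (by norm_num)]
      norm_num
    · rw [Complex.norm_real, Real.norm_of_nonneg (Real.sqrt_nonneg _)]
      exact Real.sqrt_le_one.2 (by norm_num)
  have key : ∀ U ∈ unitary 𝒜, ∀ V ∈ unitary 𝒜, D.dv U ≤ e₀ → D.dv V ≤ e₀ →
      ‖D.φ U V - D.l U (F₂ !![star U, V; 1, -(U * V)] (0, 1)) - F₂ !![star U, V; 1, -(U * V)] (1, 1) +
        (2 : ℂ) • F₂ 1 (0, 1) - D.r V (F₂ !![U, 1; star V, -star (U * V)] (0, 0)) +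
        D.r (U * V) (F₂ !![U, 1; star V, -star (U * V)] (0, 1))‖ ≤ η / (12 * Λ ^ 2) * W * 2 := by
    intro U hU V hV dU dV
    have hu := m2b_unitary hU hV hc hc2
    have k1 := (norm_prj_le (0, 1) _).trans (hF' _ hu (by
      have n1 := D.ν_unit U hU
      have n2 := D.ν_unit V hV
      have n3 := D.ν_unit _ (mul_mem hU hV)
      have n4 := D.ν_nonneg U
      have n5 := D.ν_nonneg V
      have n6 := D.ν_nonneg (U * V)
      have n7 := D.dv_nonneg V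
      have s1 : D.dv (star V) ≤ e₀ + e₀ * Λ := (D.dv_star V).trans (by gcongr)
      have s2 : D.dv (star (U * V)) ≤ Λ * (e₀ * Λ + Λ * e₀) + e₀ * Λ :=
        (D.dv_star _).trans (add_le_add ((D.dv_mul U V).trans (by gcongr)) (by gcongr))
      rw [D₂.dv_smul]
      refine (mul_le_of_le_one_left (D₂.dv_nonneg _) hc1).trans ?_
      simp only [hdv, Fin.sum_univ_two, Matrix.of_apply, Matrix.cons_val', Matrix.cons_val_zero,
        Matrix.cons_val_one, Matrix.cons_val_fin_one, D.m2b_neg, D.dv_one]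
      nlinarith))
    rw [ACoc.del, hu.2, star_smul, hc, m2b_star] at k1
    have k2 := mul_le_mul_of_nonneg_right k1 zero_le_two
    rw [← Complex.norm_two, ← mul_comm, ← norm_smul, Complex.norm_two] at k2
    refine le_trans (le_of_eq (congrArg norm ?_)) k2
    simp only [map_smul, LinearMap.smul_apply, smul_apply, lp.coeFn_sub, lp.coeFn_add, lp.coeFn_smul,
      Pi.sub_apply, Pi.add_apply, Pi.smul_apply, hl, hr, hφ, Fin.sum_univ_two, Matrix.of_apply,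
      Matrix.cons_val', Matrix.cons_val_zero, Matrix.cons_val_one, Matrix.cons_val_fin_one,
      D.φ_one_left, map_one, map_neg, one_apply_eq_self, neg_apply, add_zero, smul_sub, smul_add,
      smul_smul, mul_comm (2 : ℂ), hc2, one_smul]
    abel
  obtain ⟨F, hF1, hF2⟩ := D.m2b_fin hΛ he (A := g 0 1 0 1) (B := g 0 0 0 0) (C := g 1 1 1 1)
    (θ := η / (12 * Λ ^ 2) * W * 2) (by positivity) he₀.le (g1 _ _ _ _) (g1 _ _ _ _) (g1 _ _ _ _)
    fun U hU V hV dU dV => by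
      have nU : -U ∈ unitary 𝒜 := (-⟨U, hU⟩ : unitary 𝒜).2
      have nV : -V ∈ unitary 𝒜 := (-⟨V, hV⟩ : unitary 𝒜).2
      have dU' := (D.m2b_neg U).trans_le dU
      have dV' := (D.m2b_neg V).trans_le dV
      have k := (norm_add_le _ _).trans (add_le_add ((norm_sub_le _ _).trans (add_le_add
        ((norm_sub_le _ _).trans (add_le_add (key U hU V hV dU dV) (key _ nU V hV dU' dV)))
        (key U hU _ nV dU dV'))) (key _ nU _ nV dU' dV'))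
      refine le_of_mul_le_mul_left ?_ four_pos
      rw [← Complex.norm_ofNat 4, ← norm_smul, Complex.norm_ofNat]
      refine le_trans (le_of_eq (congrArg norm ?_)) (k.trans (by linarith))
      simp only [g2, star_neg, map_neg, neg_mul, mul_neg, neg_neg, LinearMap.neg_apply, neg_apply,
        map_add]
      module
  refine ⟨F, fun X => (hF1 X).trans_eq (by ring), fun U hU V hV dU dV =>
    (hF2 U hU V hV dU dV).trans ?_⟩
  have e1 : 3 * Λ ^ 2 * (η / (12 * Λ ^ 2) * W * 2) = η * W / 2 := by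
    field_simp
    ring
  have e2 := mul_le_mul_of_nonneg_right h2 hW
  have e3 := mul_le_mul_of_nonneg_right hee (by positivity : 0 ≤ Λ ^ 3 * (C * W))
  linarith

end

end Crest.Agent.R78
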