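import Crest.Agent.R78.Proj
import Crest.Agent.R78.Gen
import Crest.Agent.R121.Isom

/-!
# Row 78: the p-lemma and Radon–Nikodym columns
-/

open scoped InnerProductSpace Topology ComplexConjugate
open Filter MeasureTheory

set_option linter.unusedSectionVars false

namespace Crest.Agent.R78

open Crest.Agent.R121 (Alg)

noncomputable section

universe u

variable {H : Type*} [NormedAddCommGroup H] [InnerProductSpace ℂ H] [CompleteSpace H]

/-- A positive real functional on a von Neumann algebra (not necessarily normal). -/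
structure PosF (A : VN H) (φ : Op H → ℝ) : Prop where
  add : ∀ x ∈ A, ∀ y ∈ A, φ (x + y) = φ x + φ y
  smul : ∀ (c : ℝ), ∀ x ∈ A, φ ((c : ℂ) • x) = c * φ x
  pos : ∀ x ∈ A, 0 ≤ φ (star x * x)

theorem posF_vec {ι : Type*} [Fintype ι] (A : VN H) (η : ι → H) :
    PosF A fun x => ∑ j, (⟪η j, x (η j)⟫_ℂ).re := by
  refine ⟨fun x _ y _ => ?_, fun c x _ => ?_, fun x _ => Finset.sum_nonneg fun j _ => ?_⟩
  · simp [Finset.sum_add_distrib]
  · simp [Finset.mul_sum]
  · change 0 ≤ (⟪η j, ContinuousLinearMap.adjoint x (x (η j))⟫_ℂ).re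
    rw [ContinuousLinearMap.adjoint_inner_right]
    exact inner_self_nonneg (𝕜 := ℂ)

theorem PosF.nonneg {A : VN H} {φ : Op H → ℝ} (h : PosF A φ) {x : Op H} (hx : x ∈ A)
    (h0 : 0 ≤ x) : 0 ≤ φ x := by
  obtain ⟨r, hr, hr0, hrr, -⟩ := exists_sqrt hx h0
  have := h.pos r hr
  rwa [(IsSelfAdjoint.of_nonneg hr0).star_eq, hrr] at this

/-- A positive functional as an additive map on `Alg A`. -/
def PosF.hom {A : VN H} {φ : Op H → ℝ} (h : PosF A φ) : Alg A →+ ℝ :=
  AddMonoidHom.mk' (fun x => φ x) fun x y => h.add _ x.2 _ y.2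

theorem PosF.hom_apply {A : VN H} {φ : Op H → ℝ} (h : PosF A φ) (x : Alg A) :
    h.hom x = φ x := rfl

theorem PosF.hom_smul {A : VN H} {φ : Op H → ℝ} (h : PosF A φ) (c : ℝ) (x : Alg A) :
    h.hom ((c : ℂ) • x) = c * h.hom x := h.smul c _ x.2

theorem PosF.hom_pos {A : VN H} {φ : Op H → ℝ} (h : PosF A φ) (x : Alg A) :
    0 ≤ h.hom (star x * x) := h.pos _ x.2

theorem PosF.hom_proj {A : VN H} {φ : Op H → ℝ} (h : PosF A φ) {p : Alg A}
    (hp : IsStarProjection p) : 0 ≤ h.hom p := by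
  have := h.hom_pos p
  rwa [hp.2.star_eq, hp.1.eq] at this

theorem PosF.hom_le {A : VN H} {φ : Op H → ℝ} (h : PosF A φ) {p d : Alg A}
    (hp : IsStarProjection p) (hd : IsSelfAdjoint d) (hpd : p * d * p = d) {ε : ℝ}
    (hε : ‖d‖ ≤ ε) : h.hom d ≤ ε * h.hom p := by
  have hd' : IsSelfAdjoint (d : Op H) := congrArg Subtype.val hd.star_eq
  have hp' : IsStarProjection (p : Op H) := R121.Alg.isStarProjection_iff.1 hp
  have h1 : (d : Op H) ≤ algebraMap ℝ (Op H) ε :=
    hd'.le_algebraMap_norm_self.trans (by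
      rw [Algebra.algebraMap_eq_smul_one, Algebra.algebraMap_eq_smul_one]
      exact smul_le_smul_of_nonneg_right hε zero_le_one)
  have h2 := star_left_conjugate_nonneg (sub_nonneg.2 h1) (p : Op H)
  have h3 : star (p : Op H) * (algebraMap ℝ (Op H) ε - d) * p =
      (((ε : ℂ) • p - d : Alg A) : Op H) := by
    have e1 : (p : Op H) * d * p = d := congrArg Subtype.val hpd
    rw [hp'.2.star_eq, mul_sub, sub_mul, e1, Algebra.algebraMap_eq_smul_one, mul_smul_comm,
      mul_one, smul_mul_assoc, hp'.1.eq]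
    rfl
  rw [h3] at h2
  have h4 : 0 ≤ h.hom ((ε : ℂ) • p - d) := h.nonneg (Subtype.property _) h2
  rw [map_sub, h.hom_smul] at h4
  linarith

/-- From projections to positive elements. -/
theorem plem_of_proj {A : VN H} {φ χ : Op H → ℝ} (hφ : PosF A φ) (hχ : PosF A χ)
    {r : Alg A} (hr : IsStarProjection r)
    (h : ∀ p : Alg A, IsStarProjection p → r * p = p → hφ.hom p ≤ hχ.hom p) (x : Alg A) :
    hφ.hom (star (x * r) * (x * r)) ≤ hχ.hom (star (x * r) * (x * r)) := by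
  obtain ⟨y, hy⟩ : ∃ y : Alg A, y = star (x * r) * (x * r) := ⟨_, rfl⟩
  rw [← hy]
  have hys : IsSelfAdjoint y := hy ▸ IsSelfAdjoint.star_mul_self _
  have hyr : y * r = y := by rw [hy, mul_assoc, mul_assoc, hr.1.eq]
  have hry : r * y = y := by
    have := congrArg star hyr
    rwa [star_mul, hr.2.star_eq, hys.star_eq] at this
  refine le_of_forall_pos_le_add fun δ hδ => ?_
  have hr0 := hχ.hom_proj hr
  set ε : ℝ := δ / (2 * (hχ.hom r + 1)) with hεdef
  have hε : 0 < ε := by positivity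
  obtain ⟨ι, _, q, hq, hqq, hsum, hc, hl⟩ := R121.exists_partition {y} (by simpa using hys) hr hε
  have hcy : Commute y r := hyr.trans hry.symm
  have hc' : ∀ i, Commute y (q i) := hc y hcy (by rwa [hys.star_eq]) (by
    intro z hz
    rw [Finset.mem_singleton.1 hz, hys.star_eq]
    exact ⟨Commute.refl _, Commute.refl _⟩)
  have hrq : ∀ i, r * q i = q i := fun i => by
    rw [← hsum, Finset.sum_mul, Finset.sum_eq_single i (fun j _ hj => hqq j i hj) (by simp),
      (hq i).1.eq]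
  have hysum : y = ∑ i, q i * y * q i := by
    conv_lhs => rw [← hyr, ← hsum, Finset.mul_sum]
    refine Finset.sum_congr rfl fun i _ => ?_
    rw [← (hc' i).eq, mul_assoc, (hq i).1.eq]
  have key : ∀ i, hφ.hom (q i * y * q i) ≤ hχ.hom (q i * y * q i) + 2 * ε * hχ.hom (q i) := by
    intro i
    obtain ⟨l, hl⟩ := hl i y (Finset.mem_singleton_self y)
    obtain ⟨d, hd⟩ : ∃ d : Alg A, d = q i * y * q i - (l : ℂ) • q i := ⟨_, rfl⟩
    rw [← hd] at hl
    have hds : IsSelfAdjoint d := by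
      rw [IsSelfAdjoint, hd, star_sub, star_mul, star_mul, star_smul, (hq i).2.star_eq,
        hys.star_eq, mul_assoc]
      simp
    have hpd : q i * d * q i = d := by
      rw [hd, mul_sub, sub_mul, mul_smul_comm, smul_mul_assoc, (hq i).1.eq, (hq i).1.eq,
        ← mul_assoc, ← mul_assoc, (hq i).1.eq, mul_assoc _ (q i), (hq i).1.eq]
    have a1 := hφ.hom_le (hq i) hds hpd hl
    have a2 := hχ.hom_le (hq i) hds.neg (by rw [mul_neg, neg_mul, hpd]) ((norm_neg d).trans_le hl)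
    rw [hd, map_sub, hφ.hom_smul] at a1
    rw [map_neg, hd, map_sub, hχ.hom_smul] at a2
    have a3 := h (q i) (hq i) (hrq i)
    have a4 := hφ.hom_proj (hq i)
    have a5 : 0 ≤ hχ.hom (q i * y * q i) := by
      have := hχ.hom_pos (x * r * q i)
      rwa [star_mul (x * r), (hq i).2.star_eq, mul_assoc, ← mul_assoc (star (x * r)), ← hy,
        ← mul_assoc] at this
    rcases le_total 0 (l + ε) with h0 | h0
    · nlinarith [mul_le_mul_of_nonneg_left a3 h0]
    · nlinarith [mul_nonneg (neg_nonneg.2 h0) a4, mul_nonneg hε.le (a4.trans a3)]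
  have h1 : hφ.hom y ≤ hχ.hom y + 2 * ε * hχ.hom r := by
    conv_lhs => rw [hysum, map_sum]
    conv_rhs => rw [hysum, ← hsum, map_sum, map_sum, Finset.mul_sum, ← Finset.sum_add_distrib]
    exact Finset.sum_le_sum fun i _ => key i
  have h2 : 2 * ε * (hχ.hom r + 1) = δ := by
    rw [hεdef]; field_simp
  nlinarith

/-- The p-lemma. Recipe: Zorn (`R121.Isom_zorn`) gives a maximal family of pairwise orthogonal
nonzero projections `q_i ≤ e` of `A` with `K ‖q_i ξ‖² ≤ φ q_i`; let `q` be its sum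
(`R121.exists_orth_sum`, normality of the vector state gives `‖q ξ‖² = ∑ ‖q_i ξ‖²`, positivity gives
`∑_F φ q_i ≤ φ q`), `r = e - q`. Every nonzero projection `p ≤ r` has `φ p < K ‖p ξ‖²`; for
`y = r x⋆ x r` use `R121.exists_partition` (`p = r`) to write `y ≤ ∑ (l_i + ε) r_i` and
`∑ (l_i - ε) r_i ≤ y` (the `r_i` commute with `y`, `l_i + ε ≥ 0` if `r_i ≠ 0`). -/
theorem plemma {A : VN H} {φ : Op H → ℝ} (hφ : PosF A φ) (ξ : H) {K : ℝ} (hK : 0 ≤ K)
    {e : Op H} (he : IsStarProjection e) (heA : e ∈ A) :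
    ∃ r ∈ A, IsStarProjection r ∧ e * r = r ∧ K * ‖(e - r) ξ‖ ^ 2 ≤ φ (e - r) ∧
      ∀ x ∈ A, φ (star (x * r) * (x * r)) ≤ K * ‖x (r ξ)‖ ^ 2 := by
  have hχ : PosF A fun x => K * (⟪ξ, x ξ⟫_ℂ).re := by
    have h0 := posF_vec A fun _ : Unit => ξ
    simp only [Finset.univ_unique, Finset.sum_singleton] at h0
    exact ⟨fun x hx y hy => by rw [h0.add x hx y hy, mul_add],
      fun c x hx => by rw [h0.smul c x hx]; ring, fun x hx => mul_nonneg hK (h0.pos x hx)⟩
  have hχ1 : ∀ x : Alg A, hχ.hom (star x * x) = K * ‖(x : Op H) ξ‖ ^ 2 := fun x =>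
    congrArg (K * ·) (R121.SpecQ_star_mul x ξ)
  lift e to Alg A using heA
  replace he : IsStarProjection e := R121.Alg.isStarProjection_iff.2 he
  obtain ⟨S, hS, hS', hmax⟩ := R121.Isom_zorn
    (fun q : Alg A => IsStarProjection q ∧ q * e = q ∧ hχ.hom q ≤ hφ.hom q)
    (fun a b => a * b = 0 ∧ b * a = 0) fun _ _ h => h.symm
  have hst : ∀ i : S, star (i : Alg A) = i := fun i => (hS i i.2).1.2.star_eq
  have hid : ∀ i : S, (i : Alg A) * i = i := fun i => (hS i i.2).1.1.eq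
  have horth : ∀ i j : S, i ≠ j → (i : Alg A) * j = 0 := fun i j hij =>
    (hS' i.2 j.2 fun h => hij (Subtype.ext h)).1
  obtain ⟨w, hw, hw1, hw2, -, hw4, 𝒰, -, hlim⟩ := R121.exists_orth_sum (fun i : S => (i : Alg A))
    (fun i => by rw [hst, hid, hid]) (fun i j hij => by rw [hst, horth i j hij])
    (fun i j hij => by rw [hst, horth i j hij])
  simp only [hst, hid] at hw1 hw2 hlim
  set q : Alg A := star w * w with hq
  have hqp : IsStarProjection q := R121.proj_star_mul hw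
  have hiq : ∀ i : S, (i : Alg A) * q = i := fun i => by
    have h1 := congrArg star (hw1 i)
    rw [star_mul, hst] at h1
    rw [hq, ← mul_assoc, h1, hw2]
  have hqi : ∀ i : S, q * (i : Alg A) = i := fun i => by
    have h1 := congrArg star (hiq i)
    rwa [star_mul, hst, hqp.2.star_eq] at h1
  have hqe : q * e = q := by
    have h1 := hw4 (1 - e) fun i => by rw [mul_sub, mul_one, (hS i i.2).2.1, sub_self]
    rw [mul_sub, mul_one, sub_eq_zero] at h1
    rw [hq, mul_assoc, ← h1]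
  have heq : e * q = q := by
    have h1 := congrArg star hqe
    rwa [star_mul, he.2.star_eq, hqp.2.star_eq] at h1
  have hrp : IsStarProjection (e - q) :=
    ⟨by rw [IsIdempotentElem, mul_sub, sub_mul, sub_mul, he.1.eq, hqe, heq, hqp.1.eq]; abel,
      he.2.sub hqp.2⟩
  have hle : hχ.hom q ≤ hφ.hom q := by
    have h1 := ((Complex.continuous_re.tendsto _).comp
      (hlim _ (R121.isNormal_vecF ξ ξ)).1).const_mul K
    refine le_of_tendsto' h1 fun F => ?_
    have h2 : K * (∑ i ∈ F, R121.vecF A ξ ξ (i : Alg A)).re = ∑ i ∈ F, hχ.hom i := by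
      rw [Complex.re_sum, Finset.mul_sum]; rfl
    have h3 : IsStarProjection (q - ∑ i ∈ F, (i : Alg A)) := by
      have e1 : (∑ i ∈ F, (i : Alg A)) * ∑ i ∈ F, (i : Alg A) = ∑ i ∈ F, (i : Alg A) := by
        rw [Finset.sum_mul]
        refine Finset.sum_congr rfl fun i hi => ?_
        rw [Finset.mul_sum, Finset.sum_eq_single_of_mem i hi fun j _ hj => horth i j hj.symm, hid]
      have e2 : q * ∑ i ∈ F, (i : Alg A) = ∑ i ∈ F, (i : Alg A) := by
        rw [Finset.mul_sum]; exact Finset.sum_congr rfl fun i _ => hqi i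
      have e3 : (∑ i ∈ F, (i : Alg A)) * q = ∑ i ∈ F, (i : Alg A) := by
        rw [Finset.sum_mul]; exact Finset.sum_congr rfl fun i _ => hiq i
      refine ⟨?_, hqp.2.sub ?_⟩
      · rw [IsIdempotentElem, mul_sub, sub_mul, sub_mul, e1, e2, e3, hqp.1.eq]; abel
      · rw [IsSelfAdjoint, star_sum]; exact Finset.sum_congr rfl fun i _ => hst i
    have h4 := hφ.hom_proj h3
    rw [map_sub, map_sum] at h4
    have h5 : ∑ i ∈ F, hχ.hom i ≤ ∑ i ∈ F, hφ.hom (i : Alg A) :=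
      Finset.sum_le_sum fun i _ => (hS i i.2).2.2
    change K * (∑ i ∈ F, R121.vecF A ξ ξ (i : Alg A)).re ≤ _
    linarith
  refine ⟨((e - q : Alg A) : Op H), Subtype.property _, R121.Alg.isStarProjection_iff.1 hrp,
    congrArg Subtype.val (by rw [mul_sub, he.1.eq, heq] : e * (e - q) = e - q), ?_, fun x hx => ?_⟩
  · have h1 : (e : Op H) - ((e - q : Alg A) : Op H) = q :=
      congrArg Subtype.val (sub_sub_cancel e q)
    rw [h1, ← hχ1, hqp.2.star_eq, hqp.1.eq]
    exact hle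
  · lift x to Alg A using hx
    refine (plem_of_proj hφ hχ hrp (fun p hp hrp' => ?_) x).trans_eq (hχ1 (x * (e - q)))
    by_contra hn
    have hip : ∀ i : S, (i : Alg A) * p = 0 := fun i => by
      rw [← hrp', ← mul_assoc, mul_sub, (hS i i.2).2.1, hiq, sub_self, zero_mul]
    have hep : p * e = p := by
      have h1 : e * p = p := by
        conv_lhs => rw [← hrp', ← mul_assoc, mul_sub, he.1.eq, heq, hrp']
      have h2 := congrArg star h1
      rwa [star_mul, he.2.star_eq, hp.2.star_eq] at h2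
    have hmem := hmax p ⟨hp, hep, (not_le.1 hn).le⟩ fun a ha => ⟨hip ⟨a, ha⟩, by
      have h1 := congrArg star (hip ⟨a, ha⟩)
      rwa [star_mul, hst, hp.2.star_eq, star_zero] at h1⟩
    have h0 : p = 0 := hp.1.eq.symm.trans (hip ⟨p, hmem⟩)
    rw [h0, map_zero, map_zero] at hn
    exact hn le_rfl

theorem plem_ext {E K : Type*} [AddCommGroup E] [Module ℂ E] [NormedAddCommGroup K]
    [NormedSpace ℂ K] (e : E →ₗ[ℂ] H) {S T : H →L[ℂ] K} (h₁ : ∀ x, S (e x) = T (e x))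
    (h₂ : ∀ v, (∀ x, ⟪e x, v⟫_ℂ = 0) → S v = T v) : S = T := by
  let N : Submodule ℂ H := LinearMap.ker (S - T).toLinearMap
  have hN : ∀ v, v ∈ N ↔ S v = T v := fun v => by simp [N, sub_eq_zero]
  have : CompleteSpace N := (ContinuousLinearMap.isClosed_ker (S - T)).completeSpace_coe
  have : N = ⊤ := by
    rw [← Submodule.orthogonal_eq_bot_iff, eq_bot_iff]
    intro v hv
    have h3 : v ∈ N := (hN v).2 (h₂ v fun x => hv _ ((hN _).2 (h₁ x)))
    exact inner_self_eq_zero.1 (hv v h3)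
  ext v
  exact (hN v).1 (this ▸ Submodule.mem_top)

/-- Evaluation at a vector. -/
def plemEv (A : VN H) (ξ : H) : Alg A →ₗ[ℂ] H where
  toFun x := (x : Op H) ξ
  map_add' _ _ := rfl
  map_smul' _ _ := rfl

/-- Radon–Nikodym columns: `x ξ ↦ x η_j` extends (`exists_extend`) to `y_j`, which commutes with
`A` (check on `A ξ` and on its orthogonal complement); the column bound is checked on the dense
set `A ξ + (A ξ)^⊥`. -/
theorem exists_rn {A : VN H} (ξ : H) {ι : Type*} [Fintype ι] (η : ι → H) {c : ℝ} (hc : 0 ≤ c)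
    (h : ∀ x ∈ A, ∑ j, ‖x (η j)‖ ^ 2 ≤ c ^ 2 * ‖x ξ‖ ^ 2) :
    ∃ y : ι → Op H, (∀ j, y j ∈ A.commutant) ∧ (∀ j, y j ξ = η j) ∧ Col y c := by
  let f : Alg A →ₗ[ℂ] PiLp 2 fun _ : ι => H :=
    (WithLp.linearEquiv 2 ℂ (ι → H)).symm.toLinearMap ∘ₗ LinearMap.pi fun j => plemEv A (η j)
  obtain ⟨T, hT, hT1, hT2⟩ := exists_extend (plemEv A ξ) f hc fun x => by
    refine (sq_le_sq₀ (norm_nonneg _) (mul_nonneg hc (norm_nonneg _))).1 ?_
    rw [PiLp.norm_sq_eq_of_L2, mul_pow]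
    exact h x x.2
  refine ⟨fun j => (PiLp.proj 2 (fun _ : ι => H) j).comp T, fun j => mem_comm.2 fun a ha => ?_,
    fun j => congrArg (fun z : PiLp 2 fun _ : ι => H => z j) (hT1 1), fun v => ?_⟩
  · lift a to Alg A using ha
    refine plem_ext (plemEv A ξ) (fun x => ?_) fun v hv => ?_
    · change (a : Op H) (T (plemEv A ξ x) j) = T (plemEv A ξ (a * x)) j
      rw [hT1, hT1]
      rfl
    · change (a : Op H) (T v j) = T ((a : Op H) v) j
      rw [hT2 v hv, hT2]
      · simp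
      · intro x
        rw [← hv (star a * x)]
        exact (R121.Alg.inner_star_left a _ _).symm
  · have h1 := T.le_of_opNorm_le hT v
    have h2 := (sq_le_sq₀ (norm_nonneg _) (mul_nonneg hc (norm_nonneg _))).2 h1
    rw [PiLp.norm_sq_eq_of_L2, mul_pow] at h2
    exact h2

/-- Radon–Nikodym for a dominated positive form `x ↦ ⟪ξ, x ζ⟫`. Recipe: the sesquilinear form
`(x ξ, y ξ) ↦ ⟪ξ, x⋆ y ζ⟫` is positive (so Cauchy–Schwarz holds) and bounded by
`‖x ξ‖ ‖y ξ‖`; for fixed `y` the functional gives `‖y ζ‖ ≤ ‖y ξ‖` by density of `A ξ`; apply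
`exists_rn`. -/
theorem exists_rn_pos {A : VN H} {ξ ζ : H} (hc : Cyc A ξ)
    (h₀ : ∀ x ∈ A, (⟪x ξ, x ζ⟫_ℂ).im = 0 ∧ 0 ≤ (⟪x ξ, x ζ⟫_ℂ).re)
    (h₁ : ∀ x ∈ A, (⟪x ξ, x ζ⟫_ℂ).re ≤ ‖x ξ‖ ^ 2) :
    ∃ y ∈ A.commutant, ‖y‖ ≤ 1 ∧ y ξ = ζ := by
  have k1 : ∀ x ∈ A, ∀ y ∈ A, 4 * (⟪x ξ, y ζ⟫_ℂ).re ≤ ‖x ξ + y ξ‖ ^ 2 := by
    intro x hx y hy
    have a1 := (h₀ _ (add_mem hx (smul_mem' Complex.I hy))).1
    have a2 := (h₀ _ (sub_mem hx hy)).2
    have a3 := h₁ _ (add_mem hx hy)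
    have a4 := (h₀ x hx).1
    have a5 := (h₀ y hy).1
    simp only [add_apply, sub_apply, smul_apply, inner_add_left, inner_add_right, inner_sub_left,
      inner_sub_right, inner_smul_left, inner_smul_right, Complex.add_im, Complex.add_re,
      Complex.sub_re, Complex.mul_im, Complex.mul_re, Complex.conj_I, Complex.I_re, Complex.I_im,
      Complex.neg_re, Complex.neg_im] at a1 a2 a3
    linarith
  have k2 : ∀ y ∈ A, ‖y ζ‖ ≤ ‖y ξ‖ := by
    intro y hy
    have b1 : 4 * (⟪y ζ, y ζ⟫_ℂ).re ≤ ‖y ζ + y ξ‖ ^ 2 := by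
      refine hc.induction (P := fun v => 4 * (⟪v, y ζ⟫_ℂ).re ≤ ‖v + y ξ‖ ^ 2) ?_ ?_ (y ζ)
      · rintro _ ⟨x, hx, rfl⟩
        exact k1 x hx y hy
      · exact isClosed_le (by fun_prop) (by fun_prop)
    have b2 : (⟪y ζ, y ζ⟫_ℂ).re = ‖y ζ‖ ^ 2 := inner_self_eq_norm_sq (𝕜 := ℂ) _
    have b3 := norm_add_le (y ζ) (y ξ)
    have b4 : (2 * ‖y ζ‖) ^ 2 ≤ ‖y ζ + y ξ‖ ^ 2 := by rw [mul_pow, ← b2]; linarith
    have b5 := (sq_le_sq₀ (by positivity) (norm_nonneg _)).1 b4
    linarith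
  obtain ⟨y, hy1, hy2, hy3⟩ := exists_rn (A := A) ξ (fun _ : Unit => ζ) zero_le_one
    fun x hx => by simpa using pow_le_pow_left₀ (norm_nonneg _) (k2 x hx) 2
  refine ⟨y (), hy1 (), ContinuousLinearMap.opNorm_le_bound _ zero_le_one fun v => ?_, hy2 ()⟩
  rw [one_mul]
  exact (sq_le_sq₀ (norm_nonneg _) (norm_nonneg _)).1 (by simpa using hy3 v)

end

end Crest.Agent.R78
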