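import Crest.Agent.R78.FinD
import Crest.Agent.R78.Fin1AuxC
import Crest.Agent.R78.Mart2
import Crest.Agent.R78.PLem

/-!
# Row 78: a primitive of the commutator cocycle
-/

open scoped InnerProductSpace Topology ComplexConjugate
open Filter MeasureTheory

set_option linter.unusedSectionVars false

namespace Crest.Agent.R78

open Crest.Agent.R121 (Alg)

noncomputable section

universe u

variable {H : Type*} [NormedAddCommGroup H] [InnerProductSpace ℂ H] [CompleteSpace H]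

variable {M N : VN H} {ξ : H} {e : ℝ} {D : FinD M N ξ e}

namespace FinD.Sm

variable (s : D.Sm)

theorem f1a_re_proj {p : Op H} (hp : IsStarProjection p) (v : H) :
    (⟪v, p v⟫_ℂ).re = ‖p v‖ ^ 2 := by
  have h := bas_sum_sq (fun _ : Unit => p) v
  simp only [Finset.univ_unique, Finset.sum_singleton, hp.isSelfAdjoint.star_eq,
    hp.isIdempotentElem.eq] at h
  exact h.symm

theorem f1a_re_sq (x : Op H) (v : H) : (⟪v, (star x * x) v⟫_ℂ).re = ‖x v‖ ^ 2 := by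
  have h := bas_sum_sq (fun _ : Unit => x) v
  simp only [Finset.univ_unique, Finset.sum_singleton] at h
  exact h.symm

/-- `L²`-partners. Recipe: `b₀` from `exists_partner` (WLOG `‖y‖ = 1`, `g₁ = 4e`),
`v = z₀ (π y - R_{b₀}) ξ` has `‖x v‖ ≤ g₁ ‖x z₀ ξ‖ + W ‖x‖` for `x ∈ M` (`W = w ‖z₀ ξ‖`).
`plemma` for `x ↦ re ⟪v, x v⟫` (`posF_vec`), `K = 4 g₁²`, projection `z₀`, gives `r` with
`‖(z₀ - r) ξ‖ ≤ W/g₁`, `‖(z₀ - r) v‖ ≤ 2 W`; `exists_rn` for the vector `r ξ` gives `y₁ ∈ M'`,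
`‖y₁‖ ≤ 2 g₁`, `y₁ r ξ = r v`; `b = b₀ + Rm J y₁`. -/
theorem exists_partner_L2 (he0 : 0 < e) (he : e ≤ 1 / 100) {w : ℝ} (hw0 : 0 ≤ w) (hw : s.Loc w)
    {z₀ : Op H} (hz : CP M z₀) {y : Op H} (hy : y ∈ N.commutant) :
    ∃ b ∈ M, s.dev b y ≤ 12 * e * ‖y‖ ∧ ‖z₀ (s.π y ξ - b ξ)‖ ≤ 4 * w * ‖z₀ ξ‖ * ‖y‖ := by
  obtain ⟨b₀, hb₀, -, hd⟩ := s.exists_partner he hy
  set g : ℝ := 4 * e * ‖y‖ with hg
  set W : ℝ := w * ‖z₀ ξ‖ * ‖y‖ with hW
  have hg0 : 0 ≤ g := by positivity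
  have hW0 : 0 ≤ W := by positivity
  set d : Op H := s.π y - Rm D.J b₀ with hdd
  have hR := D.tr.Rm_mem hb₀
  have hzd : Commute z₀ d := (s.commute_cen_π hz.cen hy).sub_right (mem_comm.1 hR z₀ hz.2.1)
  set v : H := z₀ (d ξ) with hv
  have h1 : ∀ x ∈ M, ‖x v‖ ≤ W * ‖x‖ + g * ‖x (z₀ ξ)‖ := by
    intro x hx
    have hzx : Commute x z₀ := mem_comm.1 hz.2.2 x hx
    have e1 : x * (z₀ * d) = z₀ * (x * s.π y - s.π y * x) + d * (x * z₀) := by
      rw [hzx.eq, ← mul_assoc d, ← hzd.eq, ← mul_assoc, hzx.eq, mul_assoc, mul_assoc, ← mul_add, hdd,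
        mul_sub, sub_mul, (mem_comm.1 hR x hx).eq]
      congr 1
      abel
    have e2 : x v = z₀ ((x * s.π y - s.π y * x) ξ) + d (x (z₀ ξ)) := congrArg (fun T : Op H => T ξ) e1
    rw [e2]
    refine (norm_add_le _ _).trans (add_le_add ((hw z₀ hz x hx y hy).trans (le_of_eq ?_))
      (d.le_of_opNorm_le hd _))
    rw [hW]; ring
  obtain ⟨r, hr, hrp, hzr, h2, h3⟩ := plemma (posF_vec M fun _ : Unit => v) ξ
    (K := (2 * g) ^ 2) (by positivity) hz.1 hz.2.1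
  simp only [Finset.univ_unique, Finset.sum_singleton] at h2 h3
  have hp : IsStarProjection (z₀ - r) := hrp.sub_of_mul_eq_right hz.1 hzr
  have hpM : z₀ - r ∈ M := sub_mem hz.2.1 hr
  have hpz : (z₀ - r) (z₀ ξ) = (z₀ - r) ξ := by
    have : (z₀ - r) * z₀ = z₀ - r := by
      rw [sub_mul, hz.1.isIdempotentElem.eq, (mem_comm.1 hz.2.2 r hr).eq, hzr]
    exact congrArg (fun T : Op H => T ξ) this
  rw [f1a_re_proj hp, ← mul_pow] at h2
  have h4 : 2 * g * ‖(z₀ - r) ξ‖ ≤ ‖(z₀ - r) v‖ :=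
    (sq_le_sq₀ (by positivity) (norm_nonneg _)).1 h2
  have h5 : ‖(z₀ - r) v‖ ≤ W + g * ‖(z₀ - r) ξ‖ := by
    have := h1 _ hpM
    rw [hpz] at this
    have h6 := mul_le_mul_of_nonneg_left hp.norm_le hW0
    linarith
  obtain ⟨y₁, hy₁, e3, hc⟩ := exists_rn (A := M) (r ξ) (fun _ : Unit => r v) (c := 2 * g)
    (by positivity) fun x hx => by
      have := h3 x hx
      rw [f1a_re_sq] at this
      simpa using this
  have hn : ‖y₁ ()‖ ≤ 2 * g := by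
    refine ContinuousLinearMap.opNorm_le_bound _ (by positivity) fun u => ?_
    have := hc u
    simp only [Finset.univ_unique, Finset.sum_singleton] at this
    rw [← mul_pow] at this
    exact (sq_le_sq₀ (norm_nonneg _) (by positivity)).1 this
  have hb : b₀ + Rm D.J (y₁ ()) ∈ M := add_mem hb₀ (D.tr.Rm_mem' (hy₁ ()))
  have e4 : Rm D.J (b₀ + Rm D.J (y₁ ())) = Rm D.J b₀ + y₁ () := by rw [Rm_add, D.tr.Rm_Rm]
  refine ⟨_, hb, ?_, ?_⟩
  · rw [dev, e4, ← sub_sub]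
    refine (norm_sub_le _ _).trans ?_
    have : ‖s.π y - Rm D.J b₀‖ ≤ g := hd
    linarith
  · have e5 : z₀ v = v := congrArg (fun T : Op H => T (d ξ)) hz.1.isIdempotentElem.eq
    have e6 : z₀ (y₁ () ξ) = y₁ () (z₀ ξ) :=
      congrArg (fun T : Op H => T ξ) (mem_comm.1 (hy₁ ()) z₀ hz.2.1).eq
    have e7 : z₀ (s.π y ξ - (b₀ + Rm D.J (y₁ ())) ξ) = (z₀ - r) v - y₁ () ((z₀ - r) ξ) := by
      rw [← D.tr.Rm_ξ hb, e4]
      simp only [_root_.sub_apply, _root_.add_apply, map_sub, map_add, e5, e6, e3 ()]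
      rw [hv, hdd]
      simp only [_root_.sub_apply, map_sub]
      abel
    rw [e7]
    refine (norm_sub_le _ _).trans ?_
    have h7 := (y₁ ()).le_of_opNorm_le hn ((z₀ - r) ξ)
    have : 4 * w * ‖z₀ ξ‖ * ‖y‖ = 4 * W := by rw [hW]; ring
    linarith

/-- The cocycle defect. Recipe: the left side is `[a, π c'] z₀ (π b' ξ - b ξ)`; insert the
`L²`-partner `b̃` of `b'`; `[a, π c'] m z₀ ξ = phi (a m) c' - a (phi m c')` for `m = b̃ - b ∈ M`,
`‖m‖ ≤ dev b b' + 12 e ‖b'‖`. -/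
theorem coc_le (he0 : 0 < e) (he : e ≤ 1 / 100) {w : ℝ} (hw0 : 0 ≤ w) (hw : s.Loc w)
    {z₀ : Op H} (hz : CP M z₀) {a b b' c' : Op H} (ha : a ∈ M) (hb : b ∈ M)
    (hb' : b' ∈ N.commutant) (hc' : c' ∈ N.commutant) :
    ‖a (s.phi z₀ b c') - s.phi z₀ (a * b) c' + s.phi z₀ a (c' * b') - s.π c' (s.phi z₀ a b')‖ ≤
      w * ‖z₀ ξ‖ * ‖a‖ * (2 * s.dev b b' + 56 * e * ‖b'‖) * ‖c'‖ := by
  obtain ⟨p, hp, h1, h2⟩ := s.exists_partner_L2 he0 he hw0 hw hz hb'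
  have hm : p - b ∈ M := sub_mem hp hb
  have h3 : ‖p - b‖ ≤ s.dev b b' + 12 * e * ‖b'‖ := by
    rw [← D.tr.norm_Rm, Rm_sub]
    have : Rm D.J p - Rm D.J b = (s.π b' - Rm D.J b) - (s.π b' - Rm D.J p) := by abel
    rw [this]
    exact (norm_sub_le _ _).trans (add_le_add le_rfl h1)
  have e1 : z₀ (s.π b' ξ) = s.π b' (z₀ ξ) :=
    congrArg (fun T : Op H => T ξ) (s.commute_cen_π hz.cen hb').eq
  have e2 : z₀ (p ξ) = p (z₀ ξ) :=
    congrArg (fun T : Op H => T ξ) (mem_comm.1 hz.2.2 p hp).eq.symm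
  have e3 : a (s.phi z₀ b c') - s.phi z₀ (a * b) c' + s.phi z₀ a (c' * b') -
      s.π c' (s.phi z₀ a b') = (a * s.π c' - s.π c' * a) (z₀ (s.π b' ξ - p ξ)) +
        (s.phi z₀ (a * (p - b)) c' - a (s.phi z₀ (p - b) c')) := by
    simp only [phi, s.π_mul, _root_.sub_apply, mul_apply_eq_comp, map_sub, e1, e2]
    abel
  have h4 := ((a * s.π c' - s.π c' * a).le_of_opNorm_le (s.norm_comm_le he ha hc') _).trans
    (mul_le_mul_of_nonneg_left h2 (by positivity))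
  have h5 := (s.norm_phi_le hw hz (mul_mem ha hm) hc').trans (mul_le_mul_of_nonneg_right
    (mul_le_mul_of_nonneg_left ((norm_mul_le _ _).trans (mul_le_mul_of_nonneg_left h3
      (norm_nonneg _))) (by positivity)) (norm_nonneg _))
  have h6 := (a.le_opNorm _).trans (mul_le_mul_of_nonneg_left ((s.norm_phi_le hw hz hm hc').trans
    (mul_le_mul_of_nonneg_right (mul_le_mul_of_nonneg_left h3 (by positivity)) (norm_nonneg _)))
    (norm_nonneg _))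
  rw [e3]
  refine (norm_add_le _ _).trans ((add_le_add h4 ((norm_sub_le _ _).trans
    (add_le_add h5 h6))).trans (le_of_eq ?_))
  ring

end FinD.Sm

theorem f1b_row {a b : Op H} (h : star a * a + star b * b = 1) : ‖a‖ ≤ 1 := by
  have h1 : star a * a ≤ 1 := by
    rw [← h]; exact le_add_of_nonneg_right (star_mul_self_nonneg b)
  have h2 := CStarAlgebra.norm_le_norm_of_nonneg_of_le (star_mul_self_nonneg a) h1
  rw [CStarRing.norm_star_mul_self] at h2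
  have h3 : ‖(1 : Op H)‖ ≤ 1 := ContinuousLinearMap.norm_id_le
  nlinarith [norm_nonneg a]

theorem f1b_ext {P : VN H} (f : Alg P →ₗ[ℂ] H) :
    ∃ F : Op H →ₗ[ℂ] H, ∀ x : Alg P, F x = f x := by
  obtain ⟨g, hg⟩ := LinearMap.exists_leftInverse_of_injective
    (P.toStarSubalgebra.subtype.toAlgHom.toLinearMap : Alg P →ₗ[ℂ] Op H)
    (LinearMap.ker_eq_bot.2 Subtype.val_injective)
  exact ⟨f.comp g, fun x => congrArg f (LinearMap.congr_fun hg x)⟩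

/-- The deviation as a linear map. -/
def FinD.Sm.dL (s : D.Sm) : Op H × Op H →ₗ[ℂ] Op H where
  toFun P := s.π P.2 - Rm D.J P.1
  map_add' P Q := by
    rw [Prod.fst_add, Prod.snd_add, s.π_add, Rm_add]; abel
  map_smul' c P := by
    rw [Prod.smul_fst, Prod.smul_snd, s.π_smul, Rm_smul, smul_sub, RingHom.id_apply]

theorem FinD.Sm.dev_eq (s : D.Sm) (a a' : Op H) : s.dev a a' = ‖s.dL (a, a')‖ := rfl

theorem FinD.Sm.phi_add_left (s : D.Sm) (z₀ a b y : Op H) :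
    s.phi z₀ (a + b) y = s.phi z₀ a y + s.phi z₀ b y := by
  simp only [FinD.Sm.phi, add_mul, mul_add, sub_apply,
    add_apply]
  abel

theorem FinD.Sm.phi_add_right (s : D.Sm) (z₀ a x y : Op H) :
    s.phi z₀ a (x + y) = s.phi z₀ a x + s.phi z₀ a y := by
  simp only [FinD.Sm.phi, s.π_add, add_mul, mul_add, sub_apply,
    add_apply]
  abel

theorem FinD.Sm.phi_smul_left (s : D.Sm) (z₀ : Op H) (c : ℂ) (a y : Op H) :
    s.phi z₀ (c • a) y = c • s.phi z₀ a y := by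
  simp only [FinD.Sm.phi, smul_mul_assoc, mul_smul_comm, ← smul_sub,
    smul_apply]

theorem FinD.Sm.phi_smul_right (s : D.Sm) (z₀ : Op H) (c : ℂ) (a y : Op H) :
    s.phi z₀ a (c • y) = c • s.phi z₀ a y := by
  simp only [FinD.Sm.phi, s.π_smul, smul_mul_assoc, mul_smul_comm, ← smul_sub,
    smul_apply]

/-- The algebra of pairs. -/
abbrev PairAlg (M N : VN H) := Alg M × (Alg N.commutant)ᵐᵒᵖ

theorem f1b_fst (X : PairAlg M N) : ‖(X.1 : Op H)‖ ≤ ‖X‖ := norm_fst_le X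
theorem f1b_snd (X : PairAlg M N) : ‖(X.2.unop : Op H)‖ ≤ ‖X‖ := norm_snd_le X

theorem f1b_row' (a b : PairAlg M N) (h : star a * a + star b * b = 1) : ‖a‖ ≤ 2 := by
  have h1 : ‖(a.1 : Op H)‖ ≤ 1 :=
    f1b_row (b := b.1) (congrArg (fun X : PairAlg M N => (X.1 : Op H)) h)
  have h2 : ‖star (a.2.unop : Op H)‖ ≤ 1 := by
    refine f1b_row (b := star (b.2.unop : Op H)) ?_
    rw [star_star, star_star]
    exact congrArg (fun X : PairAlg M N => (X.2.unop : Op H)) h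
  rw [norm_star] at h2
  exact (max_le h1 h2).trans one_le_two

/-- The approximate cocycle of an admissible similarity. -/
def FinD.Sm.acoc (s : D.Sm) (he0 : 0 < e) (he : e ≤ 1 / 100) {w : ℝ} (hw0 : 0 ≤ w) (hw : s.Loc w)
    {z₀ : Op H} (hz : CP M z₀) : ACoc (PairAlg M N) H 2 (w * ‖z₀ ξ‖) (28 * e) where
  ν X := ‖X‖
  dv X := s.dev X.1 X.2.unop
  l := M.toStarSubalgebra.subtype.toAlgHom.comp (AlgHom.fst ℂ _ _)
  r :=
    { toFun := fun X => s.π X.2.unop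
      map_add' := fun X Y => s.π_add _ _
      map_smul' := fun c X => s.π_smul _ _ }
  φ := LinearMap.mk₂ ℂ (fun X Y => s.phi z₀ X.1 Y.2.unop)
    (fun _ _ _ => s.phi_add_left _ _ _ _) (fun _ _ _ => s.phi_smul_left _ _ _ _)
    (fun _ _ _ => s.phi_add_right _ _ _ _) (fun _ _ _ => s.phi_smul_right _ _ _ _)
  ν_nonneg := norm_nonneg
  ν_add := norm_add_le
  ν_smul := norm_smul
  ν_mul := norm_mul_le
  ν_star := norm_star
  ν_unit u hu := f1b_row' u 0 (by rw [mul_zero, add_zero]; exact hu.1)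
  dv_nonneg _ := norm_nonneg _
  dv_add X Y := by
    rw [s.dev_eq, s.dev_eq, s.dev_eq]
    refine le_trans (le_of_eq ?_) (norm_add_le _ _)
    rw [← map_add]; rfl
  dv_smul c X := by
    rw [s.dev_eq, s.dev_eq, ← norm_smul, ← map_smul]; rfl
  dv_mul X Y := by
    refine (s.dev_mul he X.1 X.2.unop Y.1 Y.2.unop).trans ?_
    have h1 : 0 ≤ s.dev X.1 X.2.unop := norm_nonneg _
    have h2 : 0 ≤ s.dev Y.1 Y.2.unop := norm_nonneg _
    gcongr
    exacts [f1b_snd Y, f1b_fst X]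
  dv_star X := by
    refine (s.dev_star he X.1 X.2.unop).trans ?_
    gcongr
    exacts [by norm_num, f1b_snd X]
  dv_one := by
    change ‖s.π 1 - Rm D.J 1‖ = 0
    rw [s.π_one, D.tr.Rm_one, sub_self, norm_zero]
  r_one := s.π_one
  r_mul X Y := s.π_mul _ _
  l_le X := (f1b_fst X).trans (by linarith [norm_nonneg X])
  r_le X := (s.norm_π_le he _).trans (by linarith [f1b_snd X])
  lr X Y := by
    refine (s.norm_comm_le he X.1.2 Y.2.unop.2).trans ?_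
    gcongr
    exacts [by norm_num, f1b_fst X, f1b_snd Y]
  φ_le X Y := by
    refine (s.norm_phi_le hw hz X.1.2 Y.2.unop.2).trans ?_
    gcongr
    exacts [f1b_fst X, f1b_snd Y]
  φ_one_left Y := by
    change (1 * s.π _ - s.π _ * 1) (z₀ ξ) = 0
    rw [one_mul, mul_one, sub_self]; rfl
  φ_one_right X := by
    change (_ * s.π 1 - s.π 1 * _) (z₀ ξ) = 0
    rw [s.π_one, one_mul, mul_one, sub_self]; rfl
  coc X Y Z := by
    refine (s.coc_le he0 he hw0 hw hz X.1.2 Y.1.2 Y.2.unop.2 Z.2.unop.2).trans ?_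
    have h2 : 0 ≤ s.dev Y.1 Y.2.unop := norm_nonneg _
    calc _ ≤ w * ‖z₀ ξ‖ * ‖X‖ * (2 * s.dev Y.1 Y.2.unop + 56 * e * ‖Y‖) * ‖Z‖ := by
          gcongr
          exacts [f1b_fst X, f1b_snd Y, f1b_snd Z]
      _ = _ := by ring

/-- On unitary pairs. Recipe: `ACoc.solve` with `Λ = 2`, `𝒜 = Alg M × (Alg N.commutant)ᵐᵒᵖ`,
`ν = ‖·‖`, `dv (a, a') = dev a a'`, `l (a, a') = a`, `r (a, a') = π a'`, `φ (a, a') (b, b') =
phi z₀ a b'`, parameter `28 e`. `F₁ a = F (a, 0)`, `F₂ y = F (0, op y)`, extended linearly to all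
operators (`LinearMap.exists_extend`). -/
theorem exists_prim_unitary : ∃ C > 0, ∀ {η : ℝ}, 0 < η → ∃ e₀ > 0, ∀ {H : Type u}
    [NormedAddCommGroup H] [InnerProductSpace ℂ H] [CompleteSpace H] {M N : VN H} {ξ : H} {e : ℝ}
    {D : FinD M N ξ e} (s : D.Sm) {w : ℝ} {z₀ : Op H}, 0 < e → e ≤ e₀ → 0 ≤ w → s.Loc w →
    CP M z₀ → ∃ F₁ F₂ : Op H →ₗ[ℂ] H, (∀ a ∈ M, ‖F₁ a‖ ≤ C * (w * ‖z₀ ξ‖) * ‖a‖) ∧
      (∀ y ∈ N.commutant, ‖F₂ y‖ ≤ C * (w * ‖z₀ ξ‖) * ‖y‖) ∧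
      ∀ u u' v v' : unitary (Op H), (u : Op H) ∈ M → (u' : Op H) ∈ N.commutant →
        (v : Op H) ∈ M → (v' : Op H) ∈ N.commutant → s.dev u u' ≤ 7 * e → s.dev v v' ≤ 7 * e →
        ‖s.phi z₀ u v' - s.del F₁ F₂ u u' v v'‖ ≤ η * (w * ‖z₀ ξ‖) := by
  obtain ⟨C, hC, h⟩ := ACoc.solve.{u} (Λ := 2) one_le_two
  refine ⟨C, hC, fun {η} hη => ?_⟩
  obtain ⟨e₁, he₁, h⟩ := h hη
  refine ⟨min (e₁ / 28) (1 / 100), by positivity, ?_⟩
  intro H _ _ _ M N ξ e D s w z₀ he0 he hw0 hw hz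
  have he1 : e ≤ e₁ / 28 := he.trans (min_le_left _ _)
  have he2 : e ≤ 1 / 100 := he.trans (min_le_right _ _)
  obtain ⟨F, hF, hU⟩ := h (s.acoc he0 he2 hw0 hw hz) (by positivity) (by positivity) (by linarith)
    f1b_row'
  obtain ⟨F₁, hF₁⟩ := f1b_ext (F.comp (LinearMap.inl ℂ _ _))
  obtain ⟨F₂, hF₂⟩ := f1b_ext (F.comp ((LinearMap.inr ℂ _ _).comp
    (MulOpposite.opLinearEquiv ℂ).toLinearMap))
  have hFF : ∀ X : PairAlg M N, F₁ X.1 + F₂ X.2.unop = F X := fun X => by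
    rw [hF₁, hF₂, LinearMap.comp_apply, LinearMap.comp_apply, ← map_add]
    congr 1
    exact Prod.ext (add_zero _) (zero_add _)
  refine ⟨F₁, F₂, fun a ha => ?_, fun y hy => ?_, fun u u' v v' hu hu' hv hv' hd hd' => ?_⟩
  · rw [hF₁ ⟨a, ha⟩]
    refine (hF _).trans (le_of_eq ?_)
    congr 1
    exact max_eq_left (norm_zero.trans_le (norm_nonneg _))
  · rw [hF₂ ⟨y, hy⟩]
    refine (hF _).trans (le_of_eq ?_)
    congr 1
    exact max_eq_right (norm_zero.trans_le (norm_nonneg _))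
  · have key : ∀ (u u' : unitary (Op H)) (hu : (u : Op H) ∈ M) (hu' : (u' : Op H) ∈ N.commutant),
        ((⟨u, hu⟩, MulOpposite.op ⟨u', hu'⟩) : PairAlg M N) ∈ unitary (PairAlg M N) :=
      fun u u' _ _ =>
        ⟨Prod.ext (Subtype.ext (bas_su u)) (MulOpposite.unop_injective (Subtype.ext (bas_us u'))),
         Prod.ext (Subtype.ext (bas_us u)) (MulOpposite.unop_injective (Subtype.ext (bas_su u')))⟩
    have := hU _ (key u u' hu hu') _ (key v v' hv hv') (hd.trans (by linarith))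
      (hd'.trans (by linarith))
    unfold ACoc.del at this
    rw [← hFF, ← hFF, ← hFF] at this
    exact this

/-- `phi - del` as a bilinear map on pairs. -/
def FinD.Sm.pB (s : D.Sm) (z₀ : Op H) (F₁ F₂ : Op H →ₗ[ℂ] H) :
    Op H × Op H →ₗ[ℂ] Op H × Op H →ₗ[ℂ] H :=
  LinearMap.mk₂ ℂ (fun P Q => s.phi z₀ P.1 Q.2 - s.del F₁ F₂ P.1 P.2 Q.1 Q.2)
    (fun P P' Q => by
      simp only [FinD.Sm.del, Prod.fst_add, Prod.snd_add, s.phi_add_left, add_mul, mul_add, map_add,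
        add_apply]
      abel)
    (fun c P Q => by
      simp only [FinD.Sm.del, Prod.smul_fst, Prod.smul_snd, s.phi_smul_left, smul_mul_assoc,
        mul_smul_comm, map_smul, map_add, smul_apply, smul_add, smul_sub])
    (fun P Q Q' => by
      simp only [FinD.Sm.del, Prod.fst_add, Prod.snd_add, s.phi_add_right, add_mul, mul_add, map_add,
        s.π_add, add_apply]
      abel)
    (fun c P Q => by
      simp only [FinD.Sm.del, Prod.smul_fst, Prod.smul_snd, s.phi_smul_right, smul_mul_assoc,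
        mul_smul_comm, map_smul, map_add, s.π_smul, smul_apply, smul_add,
        smul_sub])

theorem FinD.Sm.pB_le (s : D.Sm) (he : e ≤ 1 / 100) {w : ℝ} (hw0 : 0 ≤ w) (hw : s.Loc w) {z₀ : Op H}
    (hz : CP M z₀) {F₁ F₂ : Op H →ₗ[ℂ] H} {C : ℝ} (hC : 0 ≤ C)
    (h₁ : ∀ a ∈ M, ‖F₁ a‖ ≤ C * (w * ‖z₀ ξ‖) * ‖a‖)
    (h₂ : ∀ y ∈ N.commutant, ‖F₂ y‖ ≤ C * (w * ‖z₀ ξ‖) * ‖y‖) {a a' b b' : Op H} (ha : a ∈ M)
    (ha' : a' ∈ N.commutant) (hb : b ∈ M) (hb' : b' ∈ N.commutant) {m n : ℝ} (h1 : ‖a‖ ≤ m)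
    (h2 : ‖a'‖ ≤ m) (h3 : ‖b‖ ≤ n) (h4 : ‖b'‖ ≤ n) :
    ‖s.pB z₀ F₁ F₂ (a, a') (b, b')‖ ≤ (1 + 8 * C) * (w * ‖z₀ ξ‖) * (m * n) := by
  have hm : 0 ≤ m := (norm_nonneg _).trans h1
  have hn : 0 ≤ n := (norm_nonneg _).trans h3
  obtain ⟨W, hW⟩ : ∃ W, W = w * ‖z₀ ξ‖ := ⟨_, rfl⟩
  have hW0 : 0 ≤ W := by rw [hW]; positivity
  have e1 := s.norm_phi_le hw hz ha hb'
  rw [← hW] at h₁ h₂ e1 ⊢
  have k : ∀ {x y : Op H} {t : ℝ}, x ∈ M → y ∈ N.commutant → ‖x‖ ≤ t → ‖y‖ ≤ t →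
      ‖F₁ x + F₂ y‖ ≤ 2 * (C * W * t) := fun {x y t} hx hy h h' => by
    have := mul_le_mul_of_nonneg_left h (mul_nonneg hC hW0)
    have := mul_le_mul_of_nonneg_left h' (mul_nonneg hC hW0)
    linarith [norm_add_le (F₁ x) (F₂ y), h₁ x hx, h₂ y hy]
  have e1' : ‖s.phi z₀ a b'‖ ≤ W * m * n := e1.trans (by gcongr)
  have e2 : ‖a (F₁ b + F₂ b')‖ ≤ m * (2 * (C * W * n)) :=
    (a.le_opNorm _).trans (mul_le_mul h1 (k hb hb' h3 h4) (norm_nonneg _) hm)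
  have e3 : ‖F₁ (a * b) + F₂ (b' * a')‖ ≤ 2 * (C * W * (m * n)) :=
    k (mul_mem ha hb) (mul_mem hb' ha') ((norm_mul_le _ _).trans (by gcongr))
      ((norm_mul_le _ _).trans (by rw [mul_comm]; gcongr))
  have e4 : ‖s.π b' (F₁ a + F₂ a')‖ ≤ 2 * n * (2 * (C * W * m)) :=
    ((s.π b').le_opNorm _).trans (mul_le_mul ((s.norm_π_le he _).trans (by linarith))
      (k ha ha' h1 h2) (norm_nonneg _) (by positivity))
  change ‖s.phi z₀ a b' - (a (F₁ b + F₂ b') - (F₁ (a * b) + F₂ (b' * a')) + s.π b' (F₁ a + F₂ a'))‖ ≤ _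
  refine (norm_sub_le _ _).trans ((add_le_add le_rfl ((norm_add_le _ _).trans
    (add_le_add (norm_sub_le _ _) le_rfl))).trans ?_)
  linarith

theorem FinD.Sm.f1b_decomp (s : D.Sm) (he0 : 0 < e) (he : e ≤ 1 / 100) {a a' : Op H} (ha : a ∈ M)
    (ha' : a' ∈ N.commutant) : ∃ (u u' : Fin 4 → unitary (Op H)) (c : Fin 4 → ℂ) (a₀ y : Op H),
      (∀ i, (u i : Op H) ∈ M ∧ (u' i : Op H) ∈ N.commutant ∧ s.dev (u i) (u' i) ≤ 7 * e) ∧
      ∑ i, ‖c i‖ ≤ 2 * ‖a‖ ∧ a₀ ∈ N.commutant ∧ y ∈ N.commutant ∧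
      (a, a₀) = ∑ i, c i • ((u i : Op H), (u' i : Op H)) ∧ (a, a') = (a, a₀) + (0, y) ∧
      ‖a₀‖ ≤ 2 * ‖a‖ ∧ ‖y‖ ≤ 2 * s.dev a a' + 28 * e * ‖a‖ := by
  obtain ⟨u, c, hu, hac, hc, -⟩ := exists_four_unitary ha
  choose u' hu' hd using fun i => s.exists_partner_unitary he (hu i)
  have h0 : ∑ i, c i • (u' i : Op H) ∈ N.commutant := sum_mem fun i _ => smul_mem' _ (hu' i)
  have h1 : (a, ∑ i, c i • (u' i : Op H)) = ∑ i, c i • ((u i : Op H), (u' i : Op H)) :=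
    Prod.ext (by rw [Prod.fst_sum]; exact hac) (by rw [Prod.snd_sum]; rfl)
  refine ⟨u, u', c, _, a' - ∑ i, c i • (u' i : Op H), fun i => ⟨hu i, hu' i, hd i⟩, hc, h0,
    sub_mem ha' h0, h1, Prod.ext (add_zero _).symm (add_sub_cancel _ _).symm, ?_, ?_⟩
  · refine (norm_sum_le _ _).trans (le_trans (Finset.sum_le_sum fun i _ => ?_) hc)
    rw [norm_smul]
    exact mul_le_of_le_one_right (norm_nonneg _)
      (f1b_row (b := 0) (by rw [mul_zero, add_zero]; exact bas_su _))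
  · have h2 : s.dev a (∑ i, c i • (u' i : Op H)) ≤ 14 * e * ‖a‖ := by
      rw [s.dev_eq, h1, map_sum]
      refine (norm_sum_le _ _).trans ?_
      calc _ ≤ ∑ i, ‖c i‖ * (7 * e) := Finset.sum_le_sum fun i _ => by
            rw [map_smul, norm_smul]
            exact mul_le_mul_of_nonneg_left (hd i) (norm_nonneg _)
        _ ≤ 2 * ‖a‖ * (7 * e) := by rw [← Finset.sum_mul]; gcongr
        _ = _ := by ring
    refine (s.norm_le_π he _).trans ?_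
    rw [s.π_sub, ← sub_sub_sub_cancel_right _ _ (Rm D.J a)]
    have h3 := norm_sub_le (s.π a' - Rm D.J a) (s.π (∑ i, c i • (u' i : Op H)) - Rm D.J a)
    unfold FinD.Sm.dev at h2 ⊢
    linarith

/-- On all pairs. Recipe: `exists_four_unitary` for `a` and `b`, `exists_partner_unitary`;
`a₀' = ∑ c_i u_i'` has `dev a a₀' ≤ 14 e ‖a‖`, so `‖a' - a₀'‖ ≤ 2 (dev a a' + 14 e ‖a‖)`;
`phi - del` is bilinear in the pairs and bounded by `C' W` on pairs of the form `(0, y)`. -/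
theorem exists_prim : ∃ C > 0, ∀ {η : ℝ}, 0 < η → ∃ e₀ > 0, ∀ {H : Type u}
    [NormedAddCommGroup H] [InnerProductSpace ℂ H] [CompleteSpace H] {M N : VN H} {ξ : H} {e : ℝ}
    {D : FinD M N ξ e} (s : D.Sm) {w : ℝ} {z₀ : Op H}, 0 < e → e ≤ e₀ → 0 ≤ w → s.Loc w →
    CP M z₀ → ∃ F₁ F₂ : Op H →ₗ[ℂ] H, s.Prim z₀ F₁ F₂ (w * ‖z₀ ξ‖) C η := by
  obtain ⟨C, hC, h⟩ := exists_prim_unitary.{u}
  refine ⟨4 * (1 + 8 * C), by positivity, fun {η} hη => ?_⟩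
  obtain ⟨e₁, he₁, h⟩ := h (η := η / 8) (by positivity)
  refine ⟨min e₁ (min (1 / 100) (η / (168 * (1 + 8 * C)))), by positivity, ?_⟩
  intro H _ _ _ M N ξ e D s w z₀ he0 he hw0 hw hz
  have he1 : e ≤ e₁ := he.trans (min_le_left _ _)
  have he2 : e ≤ 1 / 100 := he.trans ((min_le_right _ _).trans (min_le_left _ _))
  have he3 : e * (168 * (1 + 8 * C)) ≤ η :=
    (le_div_iff₀ (by positivity)).1 (he.trans ((min_le_right _ _).trans (min_le_right _ _)))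
  obtain ⟨F₁, F₂, h₁, h₂, hU⟩ := h s he0 he1 hw0 hw hz
  have hB := fun {a a' b b' : Op H} (ha : a ∈ M) (ha' : a' ∈ N.commutant) (hb : b ∈ M)
    (hb' : b' ∈ N.commutant) {m n : ℝ} => s.pB_le he2 hw0 hw hz hC.le h₁ h₂ ha ha' hb hb' (m := m)
      (n := n)
  obtain ⟨W, hW⟩ : ∃ W, W = w * ‖z₀ ξ‖ := ⟨_, rfl⟩
  have hW0 : 0 ≤ W := by rw [hW]; positivity
  rw [← hW] at h₁ h₂ hU hB ⊢
  have hCW : C * W ≤ 4 * (1 + 8 * C) * W := by gcongr; linarith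
  refine ⟨F₁, F₂, fun a ha => (h₁ a ha).trans (by gcongr), fun y hy => (h₂ y hy).trans (by gcongr),
    fun a ha a' ha' b hb b' hb' => ?_⟩
  obtain ⟨u, u', c, a₀, y, hu, hc, ha₀, hy, e1, e2, n1, n2⟩ := s.f1b_decomp he0 he2 ha ha'
  obtain ⟨v, v', d, b₀, x, hv, hd, hb₀, hx, f1, f2, m1, m2⟩ := s.f1b_decomp he0 he2 hb hb'
  have key : s.pB z₀ F₁ F₂ (a, a') (b, b') = s.pB z₀ F₁ F₂ (a, a₀) (b, b₀) +
      s.pB z₀ F₁ F₂ (a, a₀) (0, x) + s.pB z₀ F₁ F₂ (0, y) (b, b') := by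
    rw [← map_add, ← f2, ← LinearMap.add_apply, ← map_add, ← e2]
  obtain ⟨m, hm⟩ : ∃ m, m = max ‖a‖ ‖a'‖ := ⟨_, rfl⟩
  obtain ⟨n, hn⟩ : ∃ n, n = max ‖b‖ ‖b'‖ := ⟨_, rfl⟩
  have hma : ‖a‖ ≤ m := hm ▸ le_max_left _ _
  have hnb : ‖b‖ ≤ n := hn ▸ le_max_left _ _
  have hnb' : ‖b'‖ ≤ n := hn ▸ le_max_right _ _
  have hm0 : 0 ≤ m := (norm_nonneg _).trans hma
  have hn0 : 0 ≤ n := (norm_nonneg _).trans hnb
  have hda : 0 ≤ s.dev a a' := norm_nonneg _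
  have hdb : 0 ≤ s.dev b b' := norm_nonneg _
  have k1 : ‖s.pB z₀ F₁ F₂ (a, a₀) (b, b₀)‖ ≤ 2 * m * (2 * n * (η / 8 * W)) := by
    rw [e1, map_sum, LinearMap.sum_apply]
    refine (norm_sum_le _ _).trans ?_
    calc _ ≤ ∑ i, ‖c i‖ * (2 * n * (η / 8 * W)) := Finset.sum_le_sum fun i _ => by
          rw [map_smul, LinearMap.smul_apply, norm_smul, f1, map_sum]
          refine mul_le_mul_of_nonneg_left ((norm_sum_le _ _).trans ?_) (norm_nonneg _)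
          calc _ ≤ ∑ j, ‖d j‖ * (η / 8 * W) := Finset.sum_le_sum fun j _ => by
                rw [map_smul, norm_smul]
                exact mul_le_mul_of_nonneg_left (hU (u i) (u' i) (v j) (v' j) (hu i).1 (hu i).2.1
                  (hv j).1 (hv j).2.1 (hu i).2.2 (hv j).2.2) (norm_nonneg _)
            _ ≤ _ := by rw [← Finset.sum_mul]; gcongr; linarith
      _ ≤ _ := by rw [← Finset.sum_mul]; gcongr; linarith
  have k2 := hB ha ha₀ (zero_mem _) hx (m := 2 * m) (n := 2 * s.dev b b' + 28 * e * n)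
    (by linarith) (by linarith) (by rw [norm_zero]; positivity) (m2.trans (by gcongr))
  have k3 := hB (zero_mem _) hy hb hb' (m := 2 * s.dev a a' + 28 * e * m) (n := n)
    (by rw [norm_zero]; positivity) (n2.trans (by gcongr)) hnb hnb'
  change ‖s.pB z₀ F₁ F₂ (a, a') (b, b')‖ ≤ _
  rw [key, ← hm, ← hn]
  refine (norm_add₃_le).trans ?_
  have k4 := mul_le_mul_of_nonneg_right he3 (show 0 ≤ W * (m * n) by positivity)
  have k5 : 0 ≤ (1 + 8 * C) * W * (s.dev a a' * n) := by positivity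
  linarith

/-- Averaging over the group on both sides. Recipe:
`F̂₁ a = m_g m_k g R_k⋆ F₁ (g⋆ a k)`, `F̂₂ y = m_g m_k g R_k⋆ F₂ (R_k y R_g⋆)` (iterated `Mean.vec`;
they are linear since the integrands are bounded: by `‖F₁‖`-bounds on `M` and `N'`; to get linear
maps on all operators define them on `Alg M`, `Alg N.commutant` and extend). Apply `Prim.eq` to the
pairs `ĝ⋆ A ĥ`, `ĥ⋆ B k̂` (`dev_conj`), multiply by `g R_k⋆`; `phi` is exactly multimodular; average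
over `k`, `h`, `g`. Left invariance of `m` gives bimodularity. -/
theorem FinD.Sm.Prim.bimod {s : D.Sm} {z₀ : Op H} (hz : CP M z₀) {F₁ F₂ : Op H →ₗ[ℂ] H}
    {W C η : ℝ} (hW : 0 ≤ W) (hC : 0 ≤ C) (h : s.Prim z₀ F₁ F₂ W C η) :
    ∃ F₁' F₂' : Op H →ₗ[ℂ] H, s.Prim z₀ F₁' F₂' W C η ∧ FinD.Sm.Bimod D F₁' F₂' :=
  h.bimod_aux hz

end

end Crest.Agent.R78
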