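import Crest.Agent.R78.GP
import Crest.Agent.R78.PLem
import Crest.Agent.R78.Gen
import Crest.Agent.R124.Pietsch

/-!
# Row 78: Grothendieck, Pietsch and cutting (part a, auxiliary file)
-/

open scoped InnerProductSpace Topology ComplexConjugate
open Filter MeasureTheory

set_option linter.unusedSectionVars false

namespace Crest.Agent.R78

open Crest.Agent.R121 (Alg)

noncomputable section

variable {H : Type*} [NormedAddCommGroup H] [InnerProductSpace ℂ H] [CompleteSpace H]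

theorem f2a_abs {A : Type*} [CStarAlgebra A] {K : Type*} [NormedAddCommGroup K]
    [InnerProductSpace ℂ K] (u : A →L[ℂ] K) {c : ℝ} (hc : ‖u‖ ≤ c) :
    ∃ ψ : A →ₗ[ℝ] ℝ, (∀ a, ψ a ≤ ‖a‖) ∧ (∀ x, 0 ≤ ψ (star x * x)) ∧
      ∀ x, ‖u x‖ ^ 2 ≤ 16 * c ^ 2 * (ψ (star x * x) + ψ (x * star x)) := by
  let _ := CStarAlgebra.spectralOrder A
  have _ := CStarAlgebra.spectralOrderedRing A
  obtain ⟨ψ, h1, h2⟩ := R124.pietsch_cone (normSeminorm ℝ A)
    {s | ∃ (n : ℕ) (x : Fin n → A),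
      (16 * c ^ 2) • ∑ i, (star (x i) * x i + x i * star (x i)) ≤ s.1 ∧ s.2 ≤ ∑ i, ‖u (x i)‖ ^ 2}
    ⟨0, Fin.elim0, by simp, by simp⟩
    (by
      rintro s ⟨n, x, hx, hx'⟩ t ⟨m, y, hy, hy'⟩
      refine ⟨n + m, Fin.append x y, ?_, ?_⟩
      · simpa only [Fin.sum_univ_add, Fin.append_left, Fin.append_right, smul_add,
          Prod.fst_add] using add_le_add hx hy
      · simpa only [Fin.sum_univ_add, Fin.append_left, Fin.append_right, Prod.snd_add] using
          add_le_add hx' hy')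
    (by
      rintro d hd s ⟨n, x, hx, hx'⟩
      refine ⟨n, fun i => ((√d : ℝ) : ℂ) • x i, ?_, ?_⟩
      · refine le_trans (le_of_eq ?_) (smul_le_smul_of_nonneg_left hx hd.le)
        rw [smul_comm d, Finset.smul_sum (r := d)]
        congr 1
        refine Finset.sum_congr rfl fun i _ => ?_
        rw [star_smul, smul_mul_smul_comm, smul_mul_smul_comm, Complex.star_def,
          Complex.conj_ofReal, ← Complex.ofReal_mul, Real.mul_self_sqrt hd.le, Complex.coe_smul,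
          Complex.coe_smul, smul_add]
      · simp only [Prod.smul_snd, smul_eq_mul, map_smul, norm_smul, mul_pow, Complex.norm_real,
          Real.norm_eq_abs, sq_abs, Real.sq_sqrt hd.le, ← Finset.mul_sum]
        exact mul_le_mul_of_nonneg_left hx' hd.le)
    (by
      rintro s ⟨n, x, hx, hx'⟩
      have p1 : (0 : A) ≤ ∑ i, star (x i) * x i :=
        Finset.sum_nonneg fun i _ => star_mul_self_nonneg _
      have p2 : (0 : A) ≤ ∑ i, x i * star (x i) :=
        Finset.sum_nonneg fun i _ => mul_star_self_nonneg _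
      rw [Finset.sum_add_distrib] at hx
      have q1 := CStarAlgebra.norm_le_norm_of_nonneg_of_le p1 (le_add_of_nonneg_right p2)
      have q2 := CStarAlgebra.norm_le_norm_of_nonneg_of_le p2 (le_add_of_nonneg_left p1)
      have q3 := CStarAlgebra.norm_le_norm_of_nonneg_of_le
        (smul_nonneg (by positivity) (add_nonneg p1 p2)) hx
      rw [norm_smul, Real.norm_of_nonneg (by positivity)] at q3
      have q4 := pow_le_pow_left₀ (norm_nonneg u) hc 2
      refine hx'.trans ((littleGT' u x).trans (le_trans ?_ q3))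
      calc _ ≤ 8 * c ^ 2 * (‖∑ i, star (x i) * x i‖ + ‖∑ i, x i * star (x i)‖) := by gcongr
        _ ≤ _ := by nlinarith [sq_nonneg c])
  refine ⟨ψ, h1, fun x => h2 (star x * x, 0) ⟨0, Fin.elim0, ?_, by simp⟩, fun x => ?_⟩
  · simp
  · have h3 := h2 ((16 * c ^ 2) • (star x * x + x * star x), ‖u x‖ ^ 2)
      ⟨1, fun _ => x, by simp, by simp⟩
    simpa only [map_smul, map_add, smul_eq_mul] using h3

theorem f2a_gp_state (P : VN H) {K : Type*} [NormedAddCommGroup K] [InnerProductSpace ℂ K]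
    (F : Op H →ₗ[ℂ] K) {c : ℝ} (hc : 0 ≤ c) (h : ∀ x ∈ P, ‖F x‖ ≤ c * ‖x‖) :
    ∃ ψ : Op H → ℝ, PosF P ψ ∧ ψ 1 ≤ 1 ∧
      ∀ x ∈ P, ‖F x‖ ^ 2 ≤ 16 * c ^ 2 * (ψ (star x * x) + ψ (x * star x)) := by
  classical
  let u : Alg P →L[ℂ] K := LinearMap.mkContinuous
    (F ∘ₗ P.toStarSubalgebra.subtype.toAlgHom.toLinearMap) c fun x => h x x.2
  obtain ⟨ψ, h1, h2, h3⟩ := f2a_abs u (LinearMap.mkContinuous_norm_le _ hc _)
  let φ : Op H → ℝ := fun x => if hx : x ∈ P then ψ ⟨x, hx⟩ else 0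
  have hφ : ∀ x : Alg P, φ x = ψ x := fun x => dif_pos x.2
  refine ⟨φ, ⟨fun x hx y hy => ?_, fun d x hx => ?_, fun x hx => ?_⟩, ?_, fun x hx => ?_⟩
  · lift x to Alg P using hx
    lift y to Alg P using hy
    exact (hφ (x + y)).trans (by rw [map_add, hφ, hφ])
  · lift x to Alg P using hx
    exact (hφ ((d : ℂ) • x)).trans (by rw [Complex.coe_smul, map_smul, hφ, smul_eq_mul])
  · lift x to Alg P using hx
    exact (h2 x).trans_eq (hφ (star x * x)).symm
  · exact (hφ 1).trans_le ((h1 1).trans ContinuousLinearMap.norm_id_le)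
  · lift x to Alg P using hx
    have h4 := h3 x
    rwa [← hφ, ← hφ] at h4

theorem f2a_extend_two {E K : Type*} [AddCommGroup E] [Module ℂ E] [NormedAddCommGroup K]
    [InnerProductSpace ℂ K] [CompleteSpace K] (e₁ e₂ : E →ₗ[ℂ] H) (f : E →ₗ[ℂ] K) {C : ℝ}
    (hC : 0 ≤ C) (h : ∀ x, ‖f x‖ ^ 2 ≤ C ^ 2 * (‖e₁ x‖ ^ 2 + ‖e₂ x‖ ^ 2)) :
    ∃ T₁ T₂ : H →L[ℂ] K, ‖T₁‖ ≤ C ∧ ‖T₂‖ ≤ C ∧ ∀ x, f x = T₁ (e₁ x) + T₂ (e₂ x) := by
  let L : (H × H) →L[ℂ] WithLp 2 (H × H) := (WithLp.prodContinuousLinearEquiv 2 ℂ H H).symm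
  obtain ⟨T, hT, hT', -⟩ := exists_extend (H := WithLp 2 (H × H)) (L.toLinearMap ∘ₗ e₁.prod e₂) f hC
    fun x => by
      refine le_of_sq_le_sq ?_ (by positivity)
      rw [mul_pow, WithLp.prod_norm_sq_eq_of_L2]
      exact h x
  refine ⟨T ∘L L ∘L ContinuousLinearMap.inl ℂ H H, T ∘L L ∘L ContinuousLinearMap.inr ℂ H H,
    ContinuousLinearMap.opNorm_le_bound _ hC fun v => ?_,
    ContinuousLinearMap.opNorm_le_bound _ hC fun v => ?_, fun x => ?_⟩
  · exact (T.le_of_opNorm_le hT _).trans_eq (congrArg (C * ·) (WithLp.norm_toLp_fst 2 H H v))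
  · exact (T.le_of_opNorm_le hT _).trans_eq (congrArg (C * ·) (WithLp.norm_toLp_snd 2 H H v))
  · rw [← hT' x]
    simp only [ContinuousLinearMap.comp_apply, ← map_add]
    simp

theorem f2a_cut_graph (P : VN H) (J : H ≃ₗᵢ⋆[ℂ] H) (ξ : H) (F : Op H →ₗ[ℂ] H) {c ρ : ℝ}
    (hc : 0 ≤ c) (hρ : 0 < ρ) (h : ∀ x ∈ P, ‖F x‖ ≤ c * ρ * ‖x‖) {q : Op H}
    (hq : IsStarProjection q) (hqP : q ∈ P) :
    ∃ r ∈ P, IsStarProjection r ∧ q * r = r ∧ ‖(q - r) ξ‖ ≤ ρ / 100 ∧
      ∃ T₁ T₂ : Op H, ‖T₁‖ ≤ 400 * c ∧ ‖T₂‖ ≤ 400 * c ∧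
        ∀ x ∈ P, r * x * r = x → F x = T₁ (x ξ) + T₂ (J (star x ξ)) := by
  obtain ⟨ψ, hψ, h1, h2⟩ := f2a_gp_state P F (mul_nonneg hc hρ.le) h
  obtain ⟨r, hrP, hr, hqr, h3, h4⟩ := plemma hψ ξ (K := 10 ^ 4 / ρ ^ 2) (by positivity) hq hqP
  have hp : IsStarProjection (1 - (q - r)) := (hr.sub_of_mul_eq_right hq hqr).one_sub
  have hpP : 1 - (q - r) ∈ P := sub_mem (one_mem P) (sub_mem hqP hrP)
  have h5 : ψ (q - r) ≤ 1 := by
    have k1 := hψ.pos _ hpP
    have k2 := hψ.add _ hpP _ (sub_mem hqP hrP)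
    rw [hp.isSelfAdjoint.star_eq, hp.isIdempotentElem.eq] at k1
    rw [sub_add_cancel] at k2
    linarith
  let e₁ : Alg P →ₗ[ℂ] H :=
    { toFun := fun x => (r * x * r) ξ
      map_add' := fun x y => by simp [mul_add, add_mul]
      map_smul' := fun d x => by simp }
  let e₂ : Alg P →ₗ[ℂ] H :=
    { toFun := fun x => J (star (r * x * r) ξ)
      map_add' := fun x y => by simp [mul_add, add_mul]
      map_smul' := fun d x => by simp [map_smulₛₗ] }
  let f : Alg P →ₗ[ℂ] H :=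
    { toFun := fun x => F (r * x * r)
      map_add' := fun x y => by simp [mul_add, add_mul]
      map_smul' := fun d x => by simp }
  obtain ⟨T₁, T₂, k1, k2, k3⟩ := f2a_extend_two e₁ e₂ f (C := 400 * c) (by positivity) fun x => by
    have hs : star (r * x * r) = r * star (x : Op H) * r := by
      rw [star_mul, star_mul, hr.isSelfAdjoint.star_eq, mul_assoc]
    have a1 := h4 _ (mul_mem hrP x.2)
    have a2 := h4 _ (mul_mem hrP (star_mem x.2))
    have a3 := h2 _ (mul_mem (mul_mem hrP x.2) hrP)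
    rw [← mul_apply_eq_comp] at a1 a2
    rw [← hs, star_star] at a2
    change ‖F (r * x * r)‖ ^ 2 ≤
      (400 * c) ^ 2 * (‖(r * x * r) ξ‖ ^ 2 + ‖J (star (r * x * r) ξ)‖ ^ 2)
    rw [J.norm_map]
    refine a3.trans ((mul_le_mul_of_nonneg_left (add_le_add a1 a2) (by positivity)).trans_eq ?_)
    field_simp
    ring
  refine ⟨r, hrP, hr, hqr, ?_, T₁, T₂, k1, k2, fun x hx hrx => ?_⟩
  · refine le_of_sq_le_sq ?_ (by positivity)
    have k4 := h3.trans h5
    rw [div_mul_eq_mul_div, div_le_one (by positivity)] at k4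
    linarith
  · have k4 : F (r * x * r) = T₁ ((r * x * r) ξ) + T₂ (J (star (r * x * r) ξ)) := k3 ⟨x, hx⟩
    rwa [hrx] at k4

end

end Crest.Agent.R78
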