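import Crest.Agent.R124.GT

/-!
# Row 78: embezzling data and the little Grothendieck inequality for general elements
-/

namespace Crest.Agent.R78.GPAux

open Finset

noncomputable section

/-- the nodes `(l, i)`, `l < L`, `i < 2 ^ l` -/
def nodes (L : ℕ) : Finset (Σ _ : ℕ, ℕ) := (range L).sigma fun l => range (2 ^ l)

theorem mem_nodes {L : ℕ} {p : Σ _ : ℕ, ℕ} : p ∈ nodes L ↔ p.1 < L ∧ p.2 < 2 ^ p.1 := by
  simp [nodes]

/-- the weights -/
def lam (L : ℕ) (b : nodes L) : ℝ := 1 / (2 ^ b.1.1 * L)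

theorem sum_lam (L : ℕ) (T : ℕ → Prop) [DecidablePred T] :
    ∑ b : nodes L, (if T b.1.1 then lam L b else 0) = ((range L).filter T).card / (L : ℝ) := by
  have h := sum_coe_sort (nodes L) fun p => if T p.1 then 1 / ((2 : ℝ) ^ p.1 * L) else 0
  refine h.trans ?_
  rw [nodes, sum_sigma, card_filter, Nat.cast_sum, sum_div]
  refine sum_congr rfl fun l _ => ?_
  simp only [sum_const, card_range, nsmul_eq_mul]
  split_ifs
  · push_cast
    field_simp
  · simp

/-- a map of nodes -/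
def lift {L : ℕ} (f : (Σ _ : ℕ, ℕ) → Σ _ : ℕ, ℕ) (b : nodes L) : nodes L :=
  if h : f b.1 ∈ nodes L then ⟨f b.1, h⟩ else b

theorem lift_val {L : ℕ} {f : (Σ _ : ℕ, ℕ) → Σ _ : ℕ, ℕ} {b : nodes L} (h : f b.1 ∈ nodes L) :
    (lift f b).1 = f b.1 := by
  rw [lift, dif_pos h]

theorem card_lt {M k : ℕ} (h : k ≤ M) : (univ.filter fun r : Fin (2 ^ M) => r.val < 2 ^ k).card = 2 ^ k := by
  rw [Fin.card_filter_val_lt, min_eq_right (Nat.pow_le_pow_right (by norm_num) h)]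

theorem half_le {L : ℕ} {κ : ℝ} {ρ : Type} [Fintype ρ] (dom : ρ → Finset (nodes L)) (T : ℕ → Prop)
    [DecidablePred T] (hL : 0 < L) (hT : L ≤ 2 * ((range L).filter T).card)
    (h : ∀ b, κ * ((univ.filter fun r => b ∈ dom r).card : ℝ) = if T b.1.1 then 1 else 0) :
    1 / 2 ≤ κ * ∑ r, ∑ b ∈ dom r, lam L b := by
  have h1 : κ * ∑ r, ∑ b ∈ dom r, lam L b = ∑ b : nodes L, (if T b.1.1 then lam L b else 0) := by
    have e : ∀ r, ∑ b ∈ dom r, lam L b = ∑ b, if b ∈ dom r then lam L b else 0 := fun r => by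
      rw [← sum_filter, filter_mem_eq_inter, univ_inter]
    simp only [e]
    rw [sum_comm, mul_sum]
    refine sum_congr rfl fun b _ => ?_
    rw [← sum_filter, sum_const, nsmul_eq_mul, ← mul_assoc, h b]
    split_ifs <;> simp
  have h2 : (0 : ℝ) < L := by exact_mod_cast hL
  have h3 : (L : ℝ) ≤ 2 * ((range L).filter T).card := by exact_mod_cast hT
  rw [h1, sum_lam, le_div_iff₀ h2]
  linarith

/-- the data for one exponent -/
def One (M : ℕ) (m : ℤ) : Prop :=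
  ∃ (κ : ℝ) (dom : Fin (2 ^ M) → Finset (nodes (2 * M + 1)))
    (π : Fin (2 ^ M) → nodes (2 * M + 1) → nodes (2 * M + 1)),
    0 ≤ κ ∧ (∀ r, Set.InjOn (π r) (dom r)) ∧
    (∀ r, ∀ b ∈ dom r, lam _ b = (2 : ℝ) ^ m * lam _ (π r b)) ∧
    (∀ b, κ * ((univ.filter fun r => b ∈ dom r).card : ℝ) ≤ 1) ∧
    (∀ a, κ * ((univ.filter fun r => a ∈ (dom r).image (π r)).card : ℝ) ≤ (2 : ℝ) ^ (-m)) ∧
    1 / 2 ≤ κ * ∑ r, ∑ b ∈ dom r, lam _ b

theorem one_pos {M k : ℕ} (hk : k ≤ M) : One M k := by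
  let dom : Fin (2 ^ M) → Finset (nodes (2 * M + 1)) := fun r =>
    univ.filter fun b => r.val < 2 ^ k ∧ b.1.1 + k < 2 * M + 1
  have hd : ∀ r b, b ∈ dom r ↔ r.val < 2 ^ k ∧ b.1.1 + k < 2 * M + 1 := fun r b => by simp [dom]
  let π : Fin (2 ^ M) → nodes (2 * M + 1) → nodes (2 * M + 1) := fun r =>
    lift fun p => ⟨p.1 + k, p.2 * 2 ^ k + r.val⟩
  have hπ : ∀ r, ∀ b ∈ dom r, (π r b).1 = ⟨b.1.1 + k, b.1.2 * 2 ^ k + r.val⟩ := fun r b hb => by
    obtain ⟨h1, h2⟩ := (hd r b).1 hb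
    refine lift_val (mem_nodes.2 ⟨h2, ?_⟩)
    have h3 : (b.1.2 + 1) * 2 ^ k ≤ 2 ^ b.1.1 * 2 ^ k := Nat.mul_le_mul_right _ (mem_nodes.1 b.2).2
    simp only [pow_add]
    rw [add_mul, one_mul] at h3
    omega
  have hc : ∀ b, (1 / 2 ^ k : ℝ) * ((univ.filter fun r => b ∈ dom r).card : ℝ) =
      if b.1.1 + k < 2 * M + 1 then 1 else 0 := fun b => by
    simp only [hd]
    split_ifs with h
    · simp only [h, and_true, card_lt hk]
      push_cast
      field_simp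
    · simp [h]
  refine ⟨1 / 2 ^ k, dom, π, by positivity, fun r b hb b' hb' e => ?_, fun r b hb => ?_, fun b => ?_,
    fun a => ?_, half_le dom (fun l => l + k < 2 * M + 1) (by omega) ?_ hc⟩
  · have h1 := congrArg Subtype.val e
    rw [hπ r b hb, hπ r b' hb'] at h1
    obtain ⟨h2, h3⟩ := Sigma.mk.inj_iff.1 h1
    have h4 := eq_of_heq h3
    have h5 : b.1.2 = b'.1.2 := Nat.eq_of_mul_eq_mul_right (Nat.two_pow_pos k) (by omega)
    exact Subtype.ext (Sigma.ext (by omega) (heq_of_eq h5))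
  · simp only [lam, hπ r b hb, zpow_natCast, pow_add]
    field_simp
  · rw [hc]
    split_ifs <;> norm_num
  · have h1 : (univ.filter fun r => a ∈ (dom r).image (π r)).card ≤ 1 := by
      have key : ∀ r, a ∈ (dom r).image (π r) → r.val = a.1.2 % 2 ^ k := fun r hr => by
        obtain ⟨b, hb, rfl⟩ := mem_image.1 hr
        rw [hπ r b hb, Nat.mul_add_mod_of_lt ((hd r b).1 hb).1]
      exact card_le_one.2 fun r hr r' hr' =>
        Fin.ext ((key r (mem_filter.1 hr).2).trans (key r' (mem_filter.1 hr').2).symm)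
    have h2 : ((univ.filter fun r => a ∈ (dom r).image (π r)).card : ℝ) ≤ 1 := by exact_mod_cast h1
    rw [zpow_neg, zpow_natCast, one_div]
    exact mul_le_of_le_one_right (by positivity) h2
  · have : range (M + 1) ⊆ (range (2 * M + 1)).filter fun l => l + k < 2 * M + 1 := fun l hl => by
      simp only [mem_filter, mem_range] at hl ⊢
      omega
    have := card_le_card this
    rw [card_range] at this
    omega

theorem one_neg {M k : ℕ} (hk : k ≤ M) : One M (-k) := by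
  let dom : Fin (2 ^ M) → Finset (nodes (2 * M + 1)) := fun r =>
    univ.filter fun b => b.1.2 % 2 ^ k = r.val ∧ k ≤ b.1.1
  have hd : ∀ r b, b ∈ dom r ↔ b.1.2 % 2 ^ k = r.val ∧ k ≤ b.1.1 := fun r b => by simp [dom]
  let π : Fin (2 ^ M) → nodes (2 * M + 1) → nodes (2 * M + 1) := fun _ =>
    lift fun p => ⟨p.1 - k, p.2 / 2 ^ k⟩
  have hπ : ∀ r, ∀ b ∈ dom r, (π r b).1 = ⟨b.1.1 - k, b.1.2 / 2 ^ k⟩ := fun r b hb => by
    obtain ⟨h1, h2⟩ := (hd r b).1 hb
    obtain ⟨h3, h4⟩ := mem_nodes.1 b.2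
    refine lift_val (mem_nodes.2 ⟨by simp only; omega, ?_⟩)
    simp only
    rw [Nat.div_lt_iff_lt_mul (Nat.two_pow_pos k), ← pow_add, Nat.sub_add_cancel h2]
    exact h4
  have hc : ∀ b, (1 : ℝ) * ((univ.filter fun r => b ∈ dom r).card : ℝ) =
      if k ≤ b.1.1 then 1 else 0 := fun b => by
    simp only [hd]
    split_ifs with h
    · have h1 : b.1.2 % 2 ^ k < 2 ^ M :=
        (Nat.mod_lt _ (Nat.two_pow_pos k)).trans_le (Nat.pow_le_pow_right (by norm_num) hk)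
      have h2 : (univ.filter fun r : Fin (2 ^ M) => b.1.2 % 2 ^ k = r.val ∧ k ≤ b.1.1) = {⟨_, h1⟩} := by
        ext r
        simp only [mem_filter, mem_univ, true_and, h, and_true, mem_singleton, Fin.ext_iff]
        exact eq_comm
      rw [h2, card_singleton, Nat.cast_one, mul_one]
    · simp [h]
  refine ⟨1, dom, π, zero_le_one, fun r b hb b' hb' e => ?_, fun r b hb => ?_, fun b => ?_,
    fun a => ?_, half_le dom (fun l => k ≤ l) (by omega) ?_ hc⟩
  · have h1 := congrArg Subtype.val e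
    rw [hπ r b hb, hπ r b' hb'] at h1
    obtain ⟨h2, h3⟩ := Sigma.mk.inj_iff.1 h1
    have h4 := eq_of_heq h3
    obtain ⟨k1, k2⟩ := (hd r b).1 hb
    obtain ⟨k3, k4⟩ := (hd r b').1 hb'
    have h5 : b.1.2 = b'.1.2 := by
      rw [← Nat.div_add_mod b.1.2 (2 ^ k), ← Nat.div_add_mod b'.1.2 (2 ^ k), h4, k1, k3]
    exact Subtype.ext (Sigma.ext (by omega) (heq_of_eq h5))
  · obtain ⟨l, hl⟩ := Nat.exists_eq_add_of_le ((hd r b).1 hb).2
    simp only [lam, hπ r b hb, zpow_neg, zpow_natCast, hl, Nat.add_sub_cancel_left, pow_add]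
    field_simp
  · rw [hc]
    split_ifs <;> norm_num
  · have h1 : (univ.filter fun r => a ∈ (dom r).image (π r)) ⊆
        univ.filter fun r : Fin (2 ^ M) => r.val < 2 ^ k := fun r hr => by
      obtain ⟨b, hb, -⟩ := mem_image.1 (mem_filter.1 hr).2
      rw [mem_filter, ← ((hd r b).1 hb).1]
      exact ⟨mem_univ _, Nat.mod_lt _ (Nat.two_pow_pos k)⟩
    have h2 := card_le_card h1
    rw [card_lt hk] at h2
    rw [neg_neg, zpow_natCast, one_mul]
    exact_mod_cast h2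
  · have : Ico M (2 * M + 1) ⊆ (range (2 * M + 1)).filter fun l => k ≤ l := fun l hl => by
      simp only [mem_filter, mem_range, mem_Ico] at hl ⊢
      omega
    have := card_le_card this
    rw [Nat.card_Ico] at this
    omega

theorem embezzle {ι : Type} [Fintype ι] (m : ι → ℤ) :
    ∃ (D : Type) (_ : Fintype D) (_ : DecidableEq D) (ρ : Type) (_ : Fintype ρ) (lam : D → ℝ)
      (κ : ι → ℝ) (dom : ι → ρ → Finset D) (π : ι → ρ → D → D),
      (∀ b, 0 < lam b) ∧ ∑ b, lam b ≤ 1 ∧ (∀ j, 0 ≤ κ j) ∧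
      (∀ j r, Set.InjOn (π j r) (dom j r)) ∧
      (∀ j r, ∀ b ∈ dom j r, lam b = (2 : ℝ) ^ m j * lam (π j r b)) ∧
      (∀ j b, κ j * ((Finset.univ.filter fun r => b ∈ dom j r).card : ℝ) ≤ 1) ∧
      (∀ j a, κ j * ((Finset.univ.filter fun r => a ∈ (dom j r).image (π j r)).card : ℝ) ≤
        (2 : ℝ) ^ (-m j)) ∧
      ∀ j, 1 / 2 ≤ κ j * ∑ r, ∑ b ∈ dom j r, lam b := by
  set M := univ.sup fun j => (m j).natAbs
  have h : ∀ j, One M (m j) := fun j => by
    have hj : (m j).natAbs ≤ M := le_sup (f := fun j => (m j).natAbs) (mem_univ j)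
    rcases Int.natAbs_eq (m j) with e | e
    · rw [e]
      exact one_pos hj
    · rw [e]
      exact one_neg hj
  choose κ dom π h1 h2 h3 h4 h5 h6 using h
  refine ⟨nodes (2 * M + 1), inferInstance, inferInstance, Fin (2 ^ M), inferInstance, lam _, κ, dom, π,
    fun b => ?_, ?_, h1, h2, h3, h4, h5, h6⟩
  · rw [lam]
    positivity
  · have := sum_lam (2 * M + 1) fun _ => True
    simp only [if_true, filter_true, card_range] at this
    rw [this, div_self (by positivity)]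

open scoped ComplexStarModule in
theorem littleGT' {A : Type*} [CStarAlgebra A] {K : Type*} [NormedAddCommGroup K]
    [InnerProductSpace ℂ K] (u : A →L[ℂ] K) {ι : Type} [Fintype ι] (x : ι → A) :
    ∑ i, ‖u (x i)‖ ^ 2 ≤
      8 * ‖u‖ ^ 2 * (‖∑ i, star (x i) * x i‖ + ‖∑ i, x i * star (x i)‖) := by
  have h1 := R124.littleGT u (Sum.elim (fun i => (ℜ (x i) : A)) fun i => (ℑ (x i) : A))
    (by rintro (i | i); exacts [(ℜ (x i)).2, (ℑ (x i)).2])
  simp only [Fintype.sum_sum_type, Sum.elim_inl, Sum.elim_inr] at h1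
  have h2 : ∀ i, ‖u (x i)‖ ^ 2 ≤ 2 * (‖u (ℜ (x i) : A)‖ ^ 2 + ‖u (ℑ (x i) : A)‖ ^ 2) := fun i => by
    have h3 : ‖u (x i)‖ ≤ ‖u (ℜ (x i) : A)‖ + ‖u (ℑ (x i) : A)‖ := by
      conv_lhs => rw [← realPart_add_I_smul_imaginaryPart (x i), map_add, map_smul]
      refine (norm_add_le _ _).trans (le_of_eq ?_)
      rw [norm_smul, Complex.norm_I, one_mul]
    have h4 := pow_le_pow_left₀ (norm_nonneg _) h3 2
    nlinarith [sq_nonneg (‖u (ℜ (x i) : A)‖ - ‖u (ℑ (x i) : A)‖)]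
  have h3 : (∑ i, star (x i) * x i) + ∑ i, x i * star (x i) =
      (2 : ℝ) • (∑ i, (ℜ (x i) : A) * ℜ (x i) + ∑ i, (ℑ (x i) : A) * ℑ (x i)) := by
    rw [← sum_add_distrib, ← sum_add_distrib, smul_sum]
    refine sum_congr rfl fun i _ => ?_
    rw [star_mul_self_add_self_mul_star, two_smul, two_smul]
  have h4 := norm_add_le (∑ i, star (x i) * x i) (∑ i, x i * star (x i))
  rw [h3, norm_smul, Real.norm_two] at h4
  have h5 := sum_le_sum fun i (_ : i ∈ univ) => h2 i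
  rw [← mul_sum, sum_add_distrib] at h5
  have h6 := norm_nonneg (∑ i, (ℜ (x i) : A) * ℜ (x i) + ∑ i, (ℑ (x i) : A) * ℑ (x i))
  nlinarith [sq_nonneg ‖u‖, mul_le_mul_of_nonneg_left h4 (sq_nonneg ‖u‖), mul_nonneg (sq_nonneg ‖u‖) h6]

end

end Crest.Agent.R78.GPAux
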