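import Crest.Agent.R78.GPAuxB
import Crest.Agent.R78.L2VN
import Crest.Agent.R124.GT
import Crest.Agent.R78.GPAux

/-!
# Row 78: the graph distance lemma (weighted little Grothendieck inequality)
-/

open scoped InnerProductSpace Topology ComplexConjugate
open Filter MeasureTheory

set_option linter.unusedSectionVars false

namespace Crest.Agent.R78

open Crest.Agent.R121 (Alg)

noncomputable section

universe u

variable {H : Type*} [NormedAddCommGroup H] [InnerProductSpace ℂ H] [CompleteSpace H]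

/-- Embezzling data. Recipe: `D = Σ l : Fin L, Fin (2 ^ l)` (or pairs of naturals), `lam (l, i) =
2^{-l}/L`, `L = 2 max |m_j| + 2`. For `m = m_j ≥ 0`: `r < 2^m`, `dom = {levels l with l + m < L}`,
`π (l, i) = (l + m, i 2^m + r)`, `κ = 2^{-m}`. For `m = -k < 0`: `r < 2^k`,
`dom = {(l + k, i 2^k + r)}`, `π (l + k, i 2^k + r) = (l, i)`, `κ = 1`. Unused `r` get the empty
domain. -/
theorem embezzle {ι : Type} [Fintype ι] (m : ι → ℤ) :
    ∃ (D : Type) (_ : Fintype D) (_ : DecidableEq D) (ρ : Type) (_ : Fintype ρ) (lam : D → ℝ)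
      (κ : ι → ℝ) (dom : ι → ρ → Finset D) (π : ι → ρ → D → D),
      (∀ b, 0 < lam b) ∧ ∑ b, lam b ≤ 1 ∧ (∀ j, 0 ≤ κ j) ∧
      (∀ j r, Set.InjOn (π j r) (dom j r)) ∧
      (∀ j r, ∀ b ∈ dom j r, lam b = (2 : ℝ) ^ m j * lam (π j r b)) ∧
      (∀ j b, κ j * ((Finset.univ.filter fun r => b ∈ dom j r).card : ℝ) ≤ 1) ∧
      (∀ j a, κ j * ((Finset.univ.filter fun r => a ∈ (dom j r).image (π j r)).card : ℝ) ≤
        (2 : ℝ) ^ (-m j)) ∧
      ∀ j, 1 / 2 ≤ κ j * ∑ r, ∑ b ∈ dom j r, lam b :=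
  GPAux.embezzle m

/-- Little Grothendieck for general elements: split into real and imaginary parts. -/
theorem littleGT' {A : Type*} [CStarAlgebra A] {K : Type*} [NormedAddCommGroup K]
    [InnerProductSpace ℂ K] (u : A →L[ℂ] K) {ι : Type} [Fintype ι] (x : ι → A) :
    ∑ i, ‖u (x i)‖ ^ 2 ≤
      8 * ‖u‖ ^ 2 * (‖∑ i, star (x i) * x i‖ + ‖∑ i, x i * star (x i)‖) :=
  GPAux.littleGT' u x

/-- Graph distance lemma. Recipe: `m_j = ⌊u_j / log 2⌋`, so `2^{m_j} ≤ e^{u_j} < 2^{m_j + 1}`; take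
`embezzle m`. For `θ > 0` let `G_θ ⊆ R124.Amp (Fin 2) H` be the closure of the complex subspace
`{(y ξ, θ^{-1/2} J y⋆ ξ) : y ∈ A'}` and `Q_θ` the projection onto its complement. The map
`U : Alg (ampVN D A) → R124.Amp (D × D) (Amp (Fin 2) H)`,
`U X (a, b) = √(lam b) Q_θ (X_ab ξ, θ^{-1/2} J X_ab⋆ ξ)`, `θ = lam b / lam a`, is complex linear; the
same formula kills `ampVN D A'` and has norm `≤ √2 ‖ξ‖` on all operators (`sum_ent_col_le`,
`sum_ent_row_le`), so `‖U‖ ≤ √2 cA γ ‖ξ‖` by `Near.ampVN`. Apply `littleGT'` to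
`X_{j,r} = √κ_j ∑_{b ∈ dom} one1 (π b) b (x j)`: column norm `≤ c`, row norm `≤ √2 c`, and
`∑_r ‖U X_{j,r}‖² ≥ dist_j² / 2`. -/
theorem gp : ∃ C > 0, ∀ {H : Type u} [NormedAddCommGroup H] [InnerProductSpace ℂ H]
    [CompleteSpace H] (_ : H ≃ₗᵢ⋆[ℂ] H) {A A' : VN H} {γ : ℝ}, 0 ≤ γ → Near A A' γ →
    ∀ (ξ : H) {ι : Type} [Fintype ι] (x : ι → Op H) (u : ι → ℝ) {c : ℝ}, 0 ≤ c →
    (∀ j, x j ∈ A) → Col x c →
    (∀ v, ∑ j, Real.exp (-u j) * ‖star (x j) v‖ ^ 2 ≤ c ^ 2 * ‖v‖ ^ 2) → ∀ ε > 0,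
    ∃ y : ι → Op H, (∀ j, y j ∈ A') ∧
      ∑ j, (‖(x j - y j) ξ‖ ^ 2 + Real.exp (-u j) * ‖star (x j - y j) ξ‖ ^ 2) ≤
        C * γ ^ 2 * c ^ 2 * ‖ξ‖ ^ 2 + ε := by
  refine ⟨96 * cA ^ 2, by have := one_le_cA; positivity, ?_⟩
  intro H _ _ _ J A A' γ hγ hN ξ ι _ x u c hc hx hcol hrow ε hε
  choose m hm1 hm2 using fun j => gpa_floor (u j)
  obtain ⟨D, _, _, ρ, _, lam, κ, dom, π, hl, hs, hκ, hinj, hsc, hc1, hc2, hmass⟩ := embezzle m
  obtain ⟨R, hR⟩ := gpa_R J A' ξ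
  obtain ⟨U, hU, hUX⟩ := gpa_U hγ hN ξ R (fun τ hτ => (hR τ hτ).1) (fun τ hτ => (hR τ hτ).2.1)
    lam hl hs
  have h2m : ∀ j, (0 : ℝ) < 2 ^ (-m j) := fun j => zpow_pos two_pos _
  let X : ι × ρ → Alg (ampVN D A) := fun p =>
    ⟨gpaX (κ p.1) (dom p.1 p.2) (π p.1 p.2) (x p.1), gpaX_mem _ _ _ (hx p.1)⟩
  have hXc : ∀ p, (X p : Op (L2 D H)) = gpaX (κ p.1) (dom p.1 p.2) (π p.1 p.2) (x p.1) :=
    fun p => rfl
  -- the column norm
  have hcolX : Col (fun p => (X p : Op (L2 D H))) c := by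
    intro v
    rw [Fintype.sum_prod_type]
    calc ∑ j, ∑ r, ‖(X (j, r) : Op (L2 D H)) v‖ ^ 2 ≤ ∑ j, ∑ b, ‖x j (v b)‖ ^ 2 := by
          refine Finset.sum_le_sum fun j _ => ?_
          simp only [hXc, gpaX_col (hκ j) (hinj j _)]
          simpa only [one_mul] using gpa_count (dom j) (fun b => ‖x j (v b)‖ ^ 2)
            (fun b => by positivity) (hc1 j)
      _ ≤ ∑ b, c ^ 2 * ‖v b‖ ^ 2 := by
          rw [Finset.sum_comm]
          exact Finset.sum_le_sum fun b _ => hcol (v b)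
      _ = c ^ 2 * ‖v‖ ^ 2 := by rw [← Finset.mul_sum, gpa_sum_norm_sq]
  -- the row norm
  have hrowX : Col (fun p => star (X p : Op (L2 D H))) (√2 * c) := by
    intro v
    rw [Fintype.sum_prod_type]
    calc ∑ j, ∑ r, ‖star (X (j, r) : Op (L2 D H)) v‖ ^ 2
        ≤ ∑ j, ∑ a, 2 * (Real.exp (-u j) * ‖star (x j) (v a)‖ ^ 2) := by
          refine Finset.sum_le_sum fun j _ => ?_
          simp only [hXc, gpaX_row (hκ j)]
          have e : ∀ r, ∑ b ∈ dom j r, ‖star (x j) (v (π j r b))‖ ^ 2 =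
              ∑ a ∈ (dom j r).image (π j r), ‖star (x j) (v a)‖ ^ 2 := fun r =>
            (Finset.sum_image (f := fun a => ‖star (x j) (v a)‖ ^ 2) (hinj j r)).symm
          simp only [e]
          refine (gpa_count (fun r => (dom j r).image (π j r))
            (fun a => ‖star (x j) (v a)‖ ^ 2) (fun b => by positivity) (hc2 j)).trans ?_
          rw [Finset.mul_sum]
          refine Finset.sum_le_sum fun a _ => ?_
          rw [← mul_assoc]
          exact mul_le_mul_of_nonneg_right (hm2 j) (by positivity)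
      _ ≤ ∑ a, 2 * (c ^ 2 * ‖v a‖ ^ 2) := by
          rw [Finset.sum_comm]
          refine Finset.sum_le_sum fun a _ => ?_
          rw [← Finset.mul_sum]
          exact mul_le_mul_of_nonneg_left (hrow (v a)) zero_le_two
      _ = (√2 * c) ^ 2 * ‖v‖ ^ 2 := by
          rw [← Finset.mul_sum, ← Finset.mul_sum, gpa_sum_norm_sq, mul_pow,
            Real.sq_sqrt zero_le_two, mul_assoc]
  have n1 : ‖∑ p, star (X p) * X p‖ ≤ c ^ 2 := by
    rw [← R121.Alg.norm_coe, AddSubmonoidClass.coe_finsetSum]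
    exact (col_iff_norm hc).1 hcolX
  have n2 : ‖∑ p, X p * star (X p)‖ ≤ 2 * c ^ 2 := by
    rw [← R121.Alg.norm_coe, AddSubmonoidClass.coe_finsetSum]
    have := (col_iff_norm (by positivity)).1 hrowX
    rw [mul_pow, Real.sq_sqrt zero_le_two] at this
    simp only [star_star] at this
    exact this
  have hGT := littleGT' U X
  -- the lower bound
  have hlow : ∀ j, ‖R (2 ^ (-m j)) (x j)‖ ^ 2 ≤ 2 * ∑ r, ‖U (X (j, r))‖ ^ 2 := by
    intro j
    have e : ∀ r, ‖U (X (j, r))‖ ^ 2 =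
        (κ j * ∑ b ∈ dom j r, lam b) * ‖R (2 ^ (-m j)) (x j)‖ ^ 2 := by
      intro r
      rw [hUX, Finset.sum_comm, hXc, Finset.mul_sum, Finset.sum_mul,
        ← Finset.sum_subset (Finset.subset_univ (dom j r))]
      · refine Finset.sum_congr rfl fun b hb => ?_
        rw [Finset.sum_eq_single (π j r b)]
        · have e2 : lam (π j r b) / lam b = 2 ^ (-m j) := by
            rw [hsc j r b hb, zpow_neg]
            have := (hl (π j r b)).ne'
            have h3 : (2 : ℝ) ^ m j ≠ 0 := (zpow_pos two_pos _).ne'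
            field_simp
          rw [gpaX_ent, if_pos ⟨rfl, hb⟩, e2, map_smul, norm_smul, Complex.norm_real, mul_pow,
            Real.norm_eq_abs, sq_abs, Real.sq_sqrt (hκ j)]
          ring
        · intro a _ ha
          rw [gpaX_ent, if_neg fun h => ha h.1, map_zero, norm_zero]
          simp
        · intro h; exact absurd (Finset.mem_univ _) h
      · intro b _ hb
        refine Finset.sum_eq_zero fun a _ => ?_
        rw [gpaX_ent, if_neg fun h => hb h.2, map_zero, norm_zero]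
        simp
    simp only [e]
    rw [← Finset.sum_mul, ← Finset.mul_sum]
    have := mul_le_mul_of_nonneg_right (hmass j) (sq_nonneg ‖R (2 ^ (-m j)) (x j)‖)
    linarith
  have htot : ∑ j, ‖R (2 ^ (-m j)) (x j)‖ ^ 2 ≤ 96 * cA ^ 2 * γ ^ 2 * c ^ 2 * ‖ξ‖ ^ 2 := by
    refine (Finset.sum_le_sum fun j _ => hlow j).trans ?_
    rw [← Finset.mul_sum, ← Fintype.sum_prod_type (f := fun p => ‖U (X p)‖ ^ 2)]
    have h1 : ‖U‖ ^ 2 * (‖∑ p, star (X p) * X p‖ + ‖∑ p, X p * star (X p)‖) ≤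
        (2 * (cA * γ) ^ 2 * ‖ξ‖ ^ 2) * (c ^ 2 + 2 * c ^ 2) :=
      mul_le_mul hU (add_le_add n1 n2) (by positivity) (by positivity)
    nlinarith
  have hε' : 0 < ε / (Fintype.card ι + 1) := by positivity
  choose y hy hxy using fun j => (hR _ (h2m j).le).2.2 (x j) _ hε'
  refine ⟨y, hy, ?_⟩
  have h3 : ∑ j, (‖(x j - y j) ξ‖ ^ 2 + Real.exp (-u j) * ‖star (x j - y j) ξ‖ ^ 2) ≤
      ∑ j, (‖R (2 ^ (-m j)) (x j)‖ ^ 2 + ε / (Fintype.card ι + 1)) := by
    refine Finset.sum_le_sum fun j _ => le_trans ?_ (hxy j)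
    have := mul_le_mul_of_nonneg_right (hm1 j) (sq_nonneg ‖star (x j - y j) ξ‖)
    linarith
  refine h3.trans ?_
  rw [Finset.sum_add_distrib, Finset.sum_const, Finset.card_univ, nsmul_eq_mul]
  have h4 : (Fintype.card ι : ℝ) * (ε / (Fintype.card ι + 1)) ≤ ε := by
    rw [← mul_div_assoc, div_le_iff₀ (by positivity)]
    nlinarith
  linarith

end

end Crest.Agent.R78
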