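import Crest.Agent.R78.FinD
import Crest.Agent.R78.GP
import Crest.Agent.R78.PLem
import Crest.Agent.R124.Pietsch
import Crest.Agent.R78.Fin2A

/-!
# Row 78: Grothendieck, Pietsch and cutting
-/

open scoped InnerProductSpace Topology ComplexConjugate
open Filter MeasureTheory

set_option linter.unusedSectionVars false

namespace Crest.Agent.R78

open Crest.Agent.R121 (Alg)

noncomputable section

universe u

variable {H : Type*} [NormedAddCommGroup H] [InnerProductSpace ℂ H] [CompleteSpace H]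

/-- Grothendieck–Pietsch. Recipe: `littleGT'` for `F` restricted to `Alg P`,
`‖∑ x⋆ x‖ + ‖∑ x x⋆‖ ≤ 2 ‖∑ (x⋆ x + x x⋆)‖`, and `R124.pietsch_cone` exactly as in the proof of
`R124.exists_pietsch`. -/
theorem exists_gp_state (P : VN H) {K : Type*} [NormedAddCommGroup K] [InnerProductSpace ℂ K]
    (F : Op H →ₗ[ℂ] K) {c : ℝ} (hc : 0 ≤ c) (h : ∀ x ∈ P, ‖F x‖ ≤ c * ‖x‖) :
    ∃ ψ : Op H → ℝ, PosF P ψ ∧ ψ 1 ≤ 1 ∧
      ∀ x ∈ P, ‖F x‖ ^ 2 ≤ 16 * c ^ 2 * (ψ (star x * x) + ψ (x * star x)) := by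
  exact f2a_gp_state P F hc h

/-- `exists_extend` on `WithLp 2 (H × H)`. -/
theorem exists_extend_two {E K : Type*} [AddCommGroup E] [Module ℂ E] [NormedAddCommGroup K]
    [InnerProductSpace ℂ K] [CompleteSpace K] (e₁ e₂ : E →ₗ[ℂ] H) (f : E →ₗ[ℂ] K) {C : ℝ}
    (hC : 0 ≤ C) (h : ∀ x, ‖f x‖ ^ 2 ≤ C ^ 2 * (‖e₁ x‖ ^ 2 + ‖e₂ x‖ ^ 2)) :
    ∃ T₁ T₂ : H →L[ℂ] K, ‖T₁‖ ≤ C ∧ ‖T₂‖ ≤ C ∧ ∀ x, f x = T₁ (e₁ x) + T₂ (e₂ x) := by
  exact f2a_extend_two e₁ e₂ f hC h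

/-- Cutting makes `F` `L²`-bounded. Recipe: `exists_gp_state`, `plemma` with `K = 10⁴/ρ²`
(`ψ (q - r) ≤ ψ 1 ≤ 1`); for `x = r x r`, `ψ (x⋆ x) ≤ K ‖x ξ‖²`, `ψ (x x⋆) ≤ K ‖x⋆ ξ‖²`;
`exists_extend_two` on `Alg P` with `f x = F (r x r)`, `e₁ x = r x r ξ`, `e₂ x = J (r x⋆ r ξ)`. -/
theorem exists_cut_graph (P : VN H) (J : H ≃ₗᵢ⋆[ℂ] H) (ξ : H) (F : Op H →ₗ[ℂ] H) {c ρ : ℝ}
    (hc : 0 ≤ c) (hρ : 0 < ρ) (h : ∀ x ∈ P, ‖F x‖ ≤ c * ρ * ‖x‖) {q : Op H}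
    (hq : IsStarProjection q) (hqP : q ∈ P) :
    ∃ r ∈ P, IsStarProjection r ∧ q * r = r ∧ ‖(q - r) ξ‖ ≤ ρ / 100 ∧
      ∃ T₁ T₂ : Op H, ‖T₁‖ ≤ 400 * c ∧ ‖T₂‖ ≤ 400 * c ∧
        ∀ x ∈ P, r * x * r = x → F x = T₁ (x ξ) + T₂ (J (star x ξ)) := by
  exact f2a_cut_graph P J ξ F hc hρ h hq hqP

/-- A cutting pair. Recipe (`ρ = ‖z₀ ξ‖ > 0` by separation): `exists_cut_graph` for `F₂` on `N'`
with the projection `z₀` gives `q'`; a projection `q̃ ∈ M'` with `‖q̃ - q'‖ ≤ 10 e`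
(`exists_proj_mem_near`), `q = Rm J (z₀ q̃) ∈ M`; `exists_cut_graph` for `F₁` on `M` with `q` gives
`r`; `y ∈ N'` near `R_r`, `r' = q' (y + y⋆)/2 q'`. `T₀ = (T₁ + T₂ + T₁' + T₂') r R_r`; note
`r a r ξ = r R_r a ξ`, `J (r a⋆ r ξ) = r a r ξ`, and `x' = r' a' r'` is within
`C (dev a a' + e max ‖a‖ ‖a'‖)` of `R_{r a r}`, both being supported under `z₀`. -/
theorem exists_cut_pair : ∃ C' > 0, ∀ {H : Type u} [NormedAddCommGroup H] [InnerProductSpace ℂ H]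
    [CompleteSpace H] {M N : VN H} {ξ : H} {e : ℝ} {D : FinD M N ξ e} (s : D.Sm) {c : ℝ}
    {z₀ : Op H} (F₁ F₂ : Op H →ₗ[ℂ] H), e ≤ 1 / 1000 → 0 ≤ c → CP M z₀ → z₀ ≠ 0 →
    (∀ a ∈ M, ‖F₁ a‖ ≤ c * ‖z₀ ξ‖ * ‖a‖) → (∀ y ∈ N.commutant, ‖F₂ y‖ ≤ c * ‖z₀ ξ‖ * ‖y‖) →
    ∃ r ∈ M, ∃ r' ∈ N.commutant, IsStarProjection r ∧ z₀ * r = r ∧ ‖r'‖ ≤ 2 ∧
      s.dev r r' ≤ C' * e ∧ ‖(z₀ - r) ξ‖ ≤ ‖z₀ ξ‖ / 10 ∧ ∃ T₀ : Op H, ‖T₀‖ ≤ C' * c ∧
      ∀ a ∈ M, ∀ a' ∈ N.commutant, ‖F₁ (r * a * r) + F₂ (r' * a' * r') - T₀ (a ξ)‖ ≤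
        C' * c * ‖z₀ ξ‖ * (s.dev a a' + e * max ‖a‖ ‖a'‖) := by
  refine ⟨55200, by norm_num, ?_⟩
  intro H _ _ _ M N ξ e D s c z₀ F₁ F₂ he hc hz hz0 hF₁ hF₂
  have he0 : 0 ≤ e := (norm_nonneg _).trans s.nS
  have he' : e ≤ 1 / 100 := by linarith
  have htr := D.tr
  have hzM : z₀ ∈ M := hz.2.1
  have hzM' : z₀ ∈ M.commutant := hz.2.2
  have hzc : Cen M z₀ := ⟨hzM, hzM'⟩
  have hzN' : z₀ ∈ N.commutant := (D.cen_N hzc).2
  have hzs : star z₀ = z₀ := hz.1.isSelfAdjoint.star_eq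
  set ρ := ‖z₀ ξ‖ with hρdef
  have hρ : 0 < ρ := norm_pos_iff.2 fun h => hz0 (htr.cyc'.sep hzM h)
  have hsupp : ∀ d : Op H, d * z₀ = d → ‖d ξ‖ ≤ ‖d‖ * ρ := fun d hd => by
    conv_lhs => rw [← hd]
    exact d.le_opNorm _
  have hstar : ∀ {x y : Op H}, IsStarProjection x → IsStarProjection y → x * y = y → y * x = y :=
    fun hx hy h => by
      have := congrArg star h
      rwa [star_mul, hx.isSelfAdjoint.star_eq, hy.isSelfAdjoint.star_eq] at this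
  have hRp : ∀ {x : Op H}, IsStarProjection x → IsStarProjection (Rm D.J x) := fun {x} hx =>
    ⟨by rw [IsIdempotentElem, ← htr.Rm_mul, hx.isIdempotentElem.eq],
      by rw [IsSelfAdjoint, ← htr.Rm_star, hx.isSelfAdjoint.star_eq]⟩
  -- cutting `F₂`
  obtain ⟨q', hq'N, hq', hzq', hq'ξ, T₁', T₂', hT₁', hT₂', hE₂⟩ :=
    exists_cut_graph N.commutant D.J ξ F₂ hc hρ hF₂ hz.1 hzN'
  have hq'z : q' * z₀ = q' := hstar hz.1 hq' hzq'
  obtain ⟨y₀, hy₀, hy₀n⟩ := D.near' q' hq'N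
  obtain ⟨qt, hqtM, hqt, hqtn⟩ := exists_proj_mem_near hy₀ hq' (δ := e) (by linarith) (by
    rw [norm_sub_rev]
    exact hy₀n.trans (mul_le_of_le_one_right he0 hq'.norm_le))
  have hcq : z₀ * qt = qt * z₀ := (VonNeumannAlgebra.mem_commutant_iff.1 hqtM) z₀ hzM
  set p := z₀ * qt with hpdef
  have hp : IsStarProjection p := hz.1.mul hqt hcq
  have hpM : p ∈ M.commutant := mul_mem hzM' hqtM
  have hzp : z₀ * p = p := by rw [hpdef, ← mul_assoc, hz.1.isIdempotentElem.eq]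
  have hpz : p * z₀ = p := hstar hz.1 hp hzp
  have hpn : ‖q' - p‖ ≤ 10 * e := by
    have e1 : q' - p = z₀ * (q' - qt) := by rw [mul_sub, hzq']
    rw [e1]
    refine (norm_mul_le _ _).trans ?_
    rw [norm_sub_rev]
    exact (mul_le_of_le_one_left (norm_nonneg _) hz.1.norm_le).trans hqtn
  set q := Rm D.J p with hqdef
  have hq : IsStarProjection q := hRp hp
  have hqM : q ∈ M := htr.Rm_mem' hpM
  have hRq : Rm D.J q = p := htr.Rm_Rm p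
  have hzq : z₀ * q = q := by
    rw [hqdef, ← htr.Rm_cen hzc, ← htr.Rm_mul, hpz]
  have hqξ : q ξ = p ξ := by rw [← htr.Rm_ξ hqM, hRq]
  -- cutting `F₁`
  obtain ⟨r, hrM, hr, hqr, hrξ, T₁, T₂, hT₁, hT₂, hE₁⟩ :=
    exists_cut_graph M D.J ξ F₁ hc hρ hF₁ hq hqM
  have hrq : r * q = r := hstar hq hr hqr
  have hzr : z₀ * r = r := by rw [← hqr, ← mul_assoc, hzq]
  set R := Rm D.J r with hRdef
  have hR : IsStarProjection R := hRp hr
  have hRM : R ∈ M.commutant := htr.Rm_mem hrM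
  have hRp' : R * p = R := by rw [← hRq, hRdef, ← htr.Rm_mul, hqr]
  have hpR : p * R = R := by rw [← hRq, hRdef, ← htr.Rm_mul, hrq]
  have hRz : R * z₀ = R := by rw [← hRp', mul_assoc, hpz]
  have hzR : z₀ * R = R := by rw [← hpR, ← mul_assoc, hzp]
  obtain ⟨y, hy, hyn⟩ := D.near R hRM
  have hyn' : ‖y - R‖ ≤ e := by
    rw [norm_sub_rev]
    exact hyn.trans (mul_le_of_le_one_right he0 hR.norm_le)
  set r' := q' * y * q' with hr'def
  have hr'N : r' ∈ N.commutant := mul_mem (mul_mem hq'N hy) hq'N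
  have hq'r' : q' * r' = r' := by
    rw [hr'def, ← mul_assoc, ← mul_assoc, hq'.isIdempotentElem.eq]
  have hr'q' : r' * q' = r' := by rw [hr'def, mul_assoc, hq'.isIdempotentElem.eq]
  have hr'z : r' * z₀ = r' := by rw [← hr'q', mul_assoc, hq'z]
  have hzr' : z₀ * r' = r' := by rw [← hq'r', ← mul_assoc, hzq']
  have n3 : ∀ (x₁ x₂ x₃ : Op H) {a₁ a₂ a₃ : ℝ}, ‖x₁‖ ≤ a₁ → ‖x₂‖ ≤ a₂ → ‖x₃‖ ≤ a₃ →
      ‖x₁ * x₂ * x₃‖ ≤ a₁ * a₂ * a₃ := fun x₁ x₂ x₃ _ _ _ h₁ h₂ h₃ =>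
    norm_mul_le_of_le (norm_mul_le_of_le h₁ h₂) h₃
  have hr'R : ‖r' - R‖ ≤ 21 * e := by
    have e1 : r' - R = q' * (y - R) * q' + (q' - p) * R * q' + p * R * (q' - p) := by
      have : R = p * R * p := by rw [hpR, hRp']
      rw [hr'def]
      conv_lhs => rw [this]
      noncomm_ring
    rw [e1]
    have a1 := n3 _ _ _ hq'.norm_le hyn' hq'.norm_le
    have a2 := n3 _ _ _ hpn hR.norm_le hq'.norm_le
    have a3 := n3 _ _ _ hp.norm_le hR.norm_le hpn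
    have := norm_add₃_le (a := q' * (y - R) * q') (b := (q' - p) * R * q') (c := p * R * (q' - p))
    linarith
  have hr'n : ‖r'‖ ≤ 2 := by
    have := norm_le_insert' r' R
    have := hR.norm_le
    linarith
  refine ⟨r, hrM, r', hr'N, hr, hzr, hr'n, ?_, ?_, (T₁ + T₂ + T₁' + T₂') * (r * R), ?_, ?_⟩
  · have a1 := s.norm_π_sub_le he' r'
    have a2 : s.dev r r' ≤ ‖s.π r' - r'‖ + ‖r' - R‖ := norm_sub_le_norm_sub_add_norm_sub _ _ _
    nlinarith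
  · have e1 : (z₀ - r) ξ = (z₀ - q') ξ + (q' - p) ξ + (q - r) ξ := by
      simp only [ContinuousLinearMap.sub_apply, hqξ]
      abel
    have a1 := hsupp (q' - p) (by rw [sub_mul, hq'z, hpz])
    have a2 : ‖q' - p‖ * ρ ≤ 1 / 100 * ρ := mul_le_mul_of_nonneg_right (by linarith) hρ.le
    have := norm_add₃_le (a := (z₀ - q') ξ) (b := (q' - p) ξ) (c := (q - r) ξ)
    rw [e1]
    linarith
  · have a1 : ‖T₁ + T₂ + T₁' + T₂'‖ ≤ 1600 * c := by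
      have := norm_add_le (T₁ + T₂ + T₁') T₂'
      have := norm_add₃_le (a := T₁) (b := T₂) (c := T₁')
      linarith
    have a2 := norm_mul_le_of_le a1 (norm_mul_le_of_le hr.norm_le hR.norm_le)
    linarith
  intro a ha a' ha'
  set b := r * a * r with hbdef
  set x := r' * a' * r' with hxdef
  have hbM : b ∈ M := mul_mem (mul_mem hrM ha) hrM
  have hb : r * b * r = b := by
    rw [hbdef, ← mul_assoc, ← mul_assoc, hr.isIdempotentElem.eq, mul_assoc (r * a),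
      hr.isIdempotentElem.eq]
  have hxN : x ∈ N.commutant := mul_mem (mul_mem hr'N ha') hr'N
  have hx : q' * x * q' = x := by
    calc q' * x * q' = (q' * r') * a' * (r' * q') := by rw [hxdef]; noncomm_ring
      _ = x := by rw [hq'r', hr'q']
  have hJb : D.J (star b ξ) = b ξ := by rw [htr.Jx _ (star_mem hbM), star_star]
  have hbξ : (r * R) (a ξ) = b ξ := by
    have hc' : a * R = R * a := (VonNeumannAlgebra.mem_commutant_iff.1 hRM) a ha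
    have h1 : R (a ξ) = a (r ξ) := by
      rw [← htr.Rm_ξ hrM]
      exact (congrArg (fun T : Op H => T ξ) hc').symm
    change r (R (a ξ)) = r (a (r ξ))
    rw [h1]
  have hRb : Rm D.J b = R * Rm D.J a * R := by rw [hbdef, htr.Rm_mul, htr.Rm_mul, mul_assoc]
  set d := x - Rm D.J b with hddef
  set m := max ‖a‖ ‖a'‖ with hm
  have hma : ‖a‖ ≤ m := le_max_left _ _
  have hma' : ‖a'‖ ≤ m := le_max_right _ _
  have hm0 : 0 ≤ m := (norm_nonneg _).trans hma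
  have hdev : 0 ≤ s.dev a a' := norm_nonneg _
  have hem : 0 ≤ e * m := mul_nonneg he0 hm0
  have hd : ‖d‖ ≤ 69 * (s.dev a a' + e * m) := by
    have e1 : d = (r' - R) * a' * r' + R * (a' - Rm D.J a) * r' + R * Rm D.J a * (r' - R) := by
      rw [hddef, hxdef, hRb]
      noncomm_ring
    have a0 : ‖a' - Rm D.J a‖ ≤ s.dev a a' + 3 * (e * m) := by
      have := s.norm_sub_Rm_le he' a a'
      have := mul_le_mul_of_nonneg_left hma' he0
      linarith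
    have a1 := n3 _ _ _ hr'R hma' hr'n
    have a2 := n3 _ _ _ hR.norm_le a0 hr'n
    have a3 := n3 _ _ _ hR.norm_le ((htr.norm_Rm a).le.trans hma) hr'R
    have := norm_add₃_le (a := (r' - R) * a' * r') (b := R * (a' - Rm D.J a) * r')
      (c := R * Rm D.J a * (r' - R))
    rw [e1]
    linarith
  have hdz : d * z₀ = d := by
    rw [hddef, sub_mul, hxdef, hRb, mul_assoc _ r', hr'z, mul_assoc _ R, hRz]
  have hzd : z₀ * d = d := by
    calc z₀ * d = (z₀ * r') * a' * r' - (z₀ * R) * Rm D.J a * R := by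
          rw [hddef, hxdef, hRb]; noncomm_ring
      _ = d := by rw [hzr', hzR, hddef, hRb]
  have hdz' : star d * z₀ = star d := by
    have := congrArg star hzd
    rwa [star_mul, hzs] at this
  have h1 : x ξ = b ξ + d ξ := by
    rw [hddef, ContinuousLinearMap.sub_apply, htr.Rm_ξ hbM, add_sub_cancel]
  have h2 : D.J (star x ξ) = b ξ + D.J (star d ξ) := by
    rw [hddef, star_sub, ContinuousLinearMap.sub_apply, map_sub, ← htr.Rm_star,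
      htr.Rm_ξ (star_mem hbM), hJb, add_sub_cancel]
  have e1 : F₁ b + F₂ x - ((T₁ + T₂ + T₁' + T₂') * (r * R)) (a ξ) =
      T₁' (d ξ) + T₂' (D.J (star d ξ)) := by
    have h3 : ((T₁ + T₂ + T₁' + T₂') * (r * R)) (a ξ) = (T₁ + T₂ + T₁' + T₂') (b ξ) := by
      rw [← hbξ]; rfl
    rw [hE₁ b hbM hb, hE₂ x hxN hx, hJb, h1, h2, h3]
    simp only [ContinuousLinearMap.add_apply, map_add]
    abel
  set t := 69 * (s.dev a a' + e * m) * ρ with ht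
  have b1 : ‖d ξ‖ ≤ t := (hsupp d hdz).trans (mul_le_mul_of_nonneg_right hd hρ.le)
  have b2 : ‖D.J (star d ξ)‖ ≤ t := by
    rw [LinearIsometryEquiv.norm_map]
    refine (hsupp _ hdz').trans ?_
    rw [norm_star]
    exact mul_le_mul_of_nonneg_right hd hρ.le
  have c1 := T₁'.le_of_opNorm_le_of_le hT₁' b1
  have c2 := T₂'.le_of_opNorm_le_of_le hT₂' b2
  rw [e1]
  refine (norm_add_le _ _).trans ((add_le_add c1 c2).trans (le_of_eq ?_))
  rw [ht]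
  ring

end

end Crest.Agent.R78
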