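import Crest.Agent.R78.Fin1
import Crest.Agent.R78.Fin2

/-!
# Row 78: the sandwich average and the core estimate
-/

open scoped InnerProductSpace Topology ComplexConjugate
open Filter MeasureTheory

set_option linter.unusedSectionVars false

namespace Crest.Agent.R78

open Crest.Agent.R121 (Alg)

noncomputable section

universe u

variable {H : Type*} [NormedAddCommGroup H] [InnerProductSpace ℂ H] [CompleteSpace H]

variable {M N : VN H} {ξ : H} {e : ℝ}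

theorem f3a_star_Rm (D : FinD M N ξ e) (g : D.G) :
    star (Rm D.J (D.gu g)) = jc D.J (D.gu g) := by
  rw [← D.tr.Rm_star, Rm, star_star]

theorem f3a_star_Rm' (D : FinD M N ξ e) (g : D.G) :
    star (Rm D.J (D.gu g)) = Rm D.J (D.gu g⁻¹) := by
  rw [← D.tr.Rm_star, D.gu_inv]

/-- The representation `g ↦ J g J = R_g⋆`. -/
def f3aRho (D : FinD M N ξ e) : D.G →* unitary (Op H) where
  toFun g := ⟨star (Rm D.J (D.gu g)), by
    rw [Unitary.mem_iff, star_star, ← D.tr.Rm_star, ← D.tr.Rm_mul, ← D.tr.Rm_mul]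
    exact ⟨by rw [FinD.gu, bas_su, D.tr.Rm_one], by rw [FinD.gu, bas_us, D.tr.Rm_one]⟩⟩
  map_one' := Subtype.ext (by
    change star (Rm D.J (D.gu 1)) = 1
    rw [D.gu_one, D.tr.Rm_one, star_one])
  map_mul' g h := Subtype.ext (by
    change star (Rm D.J (D.gu (g * h))) = star (Rm D.J (D.gu g)) * star (Rm D.J (D.gu h))
    rw [D.gu_mul, D.tr.Rm_mul, star_mul])

theorem f3a_comm (D : FinD M N ξ e) {x : Op H} (hx : x ∈ M) (h : D.G) :
    Commute x (Rm D.J (D.gu h)) := mem_comm.1 (D.tr.Rm_mem (D.gu_mem h)) x hx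

/-- The two-sided average of an operator. -/
theorem FinD.exists_avg (D : FinD M N ξ e) (T₀ : Op H) : ∃ T : Op H, ‖T‖ ≤ ‖T₀‖ ∧
    (∀ g, Commute (D.gu g) T ∧ Commute (Rm D.J (D.gu g)) T) ∧
    ∀ v, T v = D.m.vec fun g => D.m.vec fun h =>
      D.gu g (star (Rm D.J (D.gu h)) (T₀ (star (D.gu g) (Rm D.J (D.gu h) v)))) := by
  have hb := Mean.mn_bdd_conj (f3aRho D) T₀
  have hb' := Mean.mn_bdd_conj D.G.subtype (D.m.cE (f3aRho D) T₀)
  refine ⟨D.m.cE D.G.subtype (D.m.cE (f3aRho D) T₀),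
    (D.m.norm_cE_le _ _).trans (D.m.norm_cE_le _ _),
    fun k => ⟨D.m.commute_cE D.G.subtype _ k, ?_⟩,
    fun v => ?_⟩
  · have h1 : Commute (Rm D.J (D.gu k)) (D.m.cE (f3aRho D) T₀) := by
      have := D.m.commute_cE (f3aRho D) T₀ k⁻¹
      change Commute (star (Rm D.J (D.gu k⁻¹))) _ at this
      rwa [f3a_star_Rm', inv_inv] at this
    refine D.m.commute_op hb' fun g => ?_
    exact ((f3a_comm D (D.gu_mem g) k).symm.mul_right h1).mul_right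
      (f3a_comm D (D.gu_mem g⁻¹) k).symm
  · rw [Mean.cE, D.m.op_apply hb']
    congr 1
    funext g
    change D.gu g (D.m.cE (f3aRho D) T₀ (star (D.gu g) v)) = _
    rw [Mean.cE, D.m.op_apply hb, D.m.map_vec (D.gu g) (mn_bdd_app hb _)]
    congr 1
    funext h
    change D.gu g (star (Rm D.J (D.gu h)) (T₀ (star (star (Rm D.J (D.gu h)))
      (star (D.gu g) v)))) = _
    have h2 : Rm D.J (D.gu h) (star (D.gu g) v) = star (D.gu g) (Rm D.J (D.gu h) v) :=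
      (DFunLike.congr_fun (f3a_comm D (D.gu_mem g⁻¹) h).eq v).symm
    rw [star_star, h2]

theorem f3a_app {x y : Op H} (h : Commute x y) (v : H) : y (x v) = x (y v) :=
  (DFunLike.congr_fun h.eq v).symm

/-- The algebra behind `sandwich_pt`. -/
theorem f3a_alg {G G' K R R' Q' p q r a : Op H} {FP FX ζ : H} (h1 : Commute r R')
    (h2 : Commute G' R') (h3 : Commute a R') (h4 : Commute K R') (h5 : Commute G R')
    (h6 : Commute G' R) (h7 : Commute G R) (h8 : Commute a R) (h9 : Commute G' p)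
    (h10 : Commute G p) (h11 : Commute G' q) (h12 : Commute G q) (h13 : Commute K p)
    (h14 : K ζ = R ζ) (h15 : Commute r Q') (h16 : Q' ζ = G' ζ) :
    G (R' (r ((G' * a * K) FP + p (G' (R FX)) - (G' * a * K * p - p * (G' * a * K)) ζ) +
      (p * (R * q * Q')) FP - (r * (p * (R * q * Q')) - p * (R * q * Q') * r) ζ)) =
    (G * r * G') (a ((K * R') FP)) + (G * r * G') ((R' * p * R) FX) -
      (G * r * G') ((a * (R' * p * R) - R' * p * R * a) ζ) + (R' * p * R * q) ((G * Q') FP) -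
      (G * r * G' * (R' * p * R * q) - R' * p * R * q * (G * r * G')) ζ := by
  have e1 : K (p ζ) = p (R ζ) := by rw [← f3a_app h13, h14]
  have e2 : Q' (r ζ) = r (G' ζ) := by rw [f3a_app h15, h16]
  simp only [map_add, map_sub, sub_apply, mul_apply_eq_comp, e1, e2,
    h14, h16, f3a_app h1, f3a_app h2, f3a_app h3, f3a_app h4, f3a_app h5, f3a_app h6, f3a_app h7,
    f3a_app h8, f3a_app h9, f3a_app h10, f3a_app h11, f3a_app h12]

/-- The sandwich identity before averaging. With `F = F₁ + F₂` on pairs, `P = (r, r')`,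
`X' = ĝ⋆ X ĥ`: `Prim.eq` for `(P, X' P)` and `(X', P)` gives
`F (P X' P) ≈ r (x' F P + π r' F X' - φ(X', P)) + π (r' x'') F P - φ(P, X' P)`; multiply by `g R_h⋆`,
use `Bimod` and that `g` commutes with `π N'` and `R_h` with `M`, `h z₀ ξ = R_h z₀ ξ`. -/
theorem sandwich_pt : ∃ C' > 0, ∀ {H : Type u} [NormedAddCommGroup H] [InnerProductSpace ℂ H]
    [CompleteSpace H] {M N : VN H} {ξ : H} {e : ℝ} {D : FinD M N ξ e} (s : D.Sm) {z₀ : Op H}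
    {F₁ F₂ : Op H →ₗ[ℂ] H} {W C η d : ℝ} {r r' a a' : Op H}, e ≤ 1 / 100 → 0 ≤ W → 0 ≤ C →
    0 ≤ η → CP M z₀ → s.Prim z₀ F₁ F₂ W C η → FinD.Sm.Bimod D F₁ F₂ → r ∈ M →
    r' ∈ N.commutant → ‖r‖ ≤ 2 → ‖r'‖ ≤ 2 → s.dev r r' ≤ d → a ∈ M → a' ∈ N.commutant →
    ‖a‖ ≤ 2 → ‖a'‖ ≤ 2 → s.dev a a' ≤ d → ∀ g h : D.G,
    ‖D.gu g (star (Rm D.J (D.gu h)) (F₁ (r * (star (D.gu g) * a * D.gu h) * r) +
        F₂ (r' * (Rm D.J (D.gu h) * a' * star (Rm D.J (D.gu g))) * r'))) -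
      ((D.gu g * r * star (D.gu g)) (a (adj D.J (D.gu h) (F₁ r + F₂ r'))) +
        (D.gu g * r * star (D.gu g))
          (s.π (star (Rm D.J (D.gu h)) * r' * Rm D.J (D.gu h)) (F₁ a + F₂ a')) -
        (D.gu g * r * star (D.gu g))
          (s.phi z₀ a (star (Rm D.J (D.gu h)) * r' * Rm D.J (D.gu h))) +
        s.π (star (Rm D.J (D.gu h)) * r' * Rm D.J (D.gu h) * a')
          (adj D.J (D.gu g) (F₁ r + F₂ r')) -
        s.phi z₀ (D.gu g * r * star (D.gu g))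
          (star (Rm D.J (D.gu h)) * r' * Rm D.J (D.gu h) * a'))‖ ≤ C' * W * (η + C * d) := by
  refine ⟨28, by norm_num, ?_⟩
  intro H _ _ _ M N ξ e D s z₀ F₁ F₂ W C η d r r' a a' he hW hC hη hz hP hB hr hr' nr nr' dr ha ha'
    na na' da g h
  have hd : 0 ≤ d := (norm_nonneg _).trans dr
  have nG : ∀ k : D.G, ‖D.gu k‖ ≤ 1 := D.norm_gu_le
  have nR : ∀ k : D.G, ‖Rm D.J (D.gu k)‖ ≤ 1 := fun k => (D.tr.norm_Rm _).trans_le (nG k)
  have n3 : ∀ {u v x : Op H}, ‖u‖ ≤ 1 → ‖v‖ ≤ 1 → ‖x‖ ≤ 2 → ‖u * x * v‖ ≤ 2 := by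
    intro u v x hu hv hx
    calc ‖u * x * v‖ ≤ ‖u‖ * ‖x‖ * ‖v‖ :=
          (norm_mul_le _ _).trans (mul_le_mul_of_nonneg_right (norm_mul_le _ _) (norm_nonneg _))
      _ ≤ 1 * 2 * 1 := by gcongr
      _ = 2 := by norm_num
  have n2 : ∀ {u v : Op H}, ‖u‖ ≤ 2 → ‖v‖ ≤ 2 → ‖u * v‖ ≤ 4 := by
    intro u v hu hv
    calc ‖u * v‖ ≤ ‖u‖ * ‖v‖ := norm_mul_le _ _
      _ ≤ 2 * 2 := by gcongr
      _ = 4 := by norm_num
  have hζ : ∀ k : D.G, D.gu k (z₀ ξ) = Rm D.J (D.gu k) (z₀ ξ) := fun k => by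
    rw [f3a_app (f3a_comm D hz.2.1 k), D.tr.Rm_ξ (D.gu_mem k),
      f3a_app (mem_comm.1 hz.2.2 _ (D.gu_mem k))]
  rw [f3a_star_Rm' D g, f3a_star_Rm' D h, ← D.gu_inv g]
  set x := D.gu g⁻¹ * a * D.gu h with hx
  set x' := Rm D.J (D.gu h) * a' * Rm D.J (D.gu g⁻¹) with hx'
  have hxM : x ∈ M := mul_mem (mul_mem (D.gu_mem _) ha) (D.gu_mem _)
  have hxN : x' ∈ N.commutant := mul_mem (mul_mem (D.Rm_gu_mem _) ha') (D.Rm_gu_mem _)
  have nx : ‖x‖ ≤ 2 := n3 (nG _) (nG _) na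
  have nx' : ‖x'‖ ≤ 2 := n3 (nR _) (nR _) na'
  have dx : s.dev x x' ≤ d := (s.dev_conj g⁻¹ h a ha').trans_le da
  have dxr : s.dev (x * r) (r' * x') ≤ 8 * d := by
    refine (s.dev_mul he x x' r r').trans ?_
    have h0 : 0 ≤ s.dev r r' := norm_nonneg _
    have : s.dev x x' * ‖r'‖ + ‖x‖ * s.dev r r' ≤ d * 2 + 2 * d := by gcongr
    linarith
  have E1 : ‖s.phi z₀ r (r' * x') - s.del F₁ F₂ r r' (x * r) (r' * x')‖ ≤
      W * (η * 2 * 4 + C * (d * 4 + 2 * (8 * d))) := by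
    refine (hP.eq r hr r' hr' (x * r) (mul_mem hxM hr) (r' * x') (mul_mem hr' hxN)).trans ?_
    have m1 : max ‖r‖ ‖r'‖ ≤ 2 := max_le nr nr'
    have m2 : max ‖x * r‖ ‖r' * x'‖ ≤ 4 := max_le (n2 nx nr) (n2 nr' nx')
    have h0 : 0 ≤ s.dev (x * r) (r' * x') := norm_nonneg _
    gcongr
  have E2 : ‖s.phi z₀ x r' - s.del F₁ F₂ x x' r r'‖ ≤
      W * (η * 2 * 2 + C * (d * 2 + 2 * d)) := by
    refine (hP.eq x hxM x' hxN r hr r' hr').trans ?_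
    have m1 : max ‖r‖ ‖r'‖ ≤ 2 := max_le nr nr'
    have m2 : max ‖x‖ ‖x'‖ ≤ 2 := max_le nx nx'
    have h0 : 0 ≤ s.dev r r' := norm_nonneg _
    gcongr
  have hFX : F₁ x + F₂ x' = D.gu g⁻¹ (Rm D.J (D.gu h) (F₁ a + F₂ a')) := by
    rw [hx, hx', hB.eq₁ _ _ a ha, hB.eq₂ _ _ a' ha', map_add, map_add]
  have alg := f3a_alg (G := D.gu g) (G' := D.gu g⁻¹) (K := D.gu h) (R := Rm D.J (D.gu h))
    (R' := Rm D.J (D.gu h⁻¹)) (Q' := Rm D.J (D.gu g⁻¹)) (p := s.π r') (q := s.π a') (r := r)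
    (a := a) (FP := F₁ r + F₂ r') (FX := F₁ a + F₂ a') (ζ := z₀ ξ) (f3a_comm D hr _)
    (f3a_comm D (D.gu_mem _) _) (f3a_comm D ha _) (f3a_comm D (D.gu_mem _) _)
    (f3a_comm D (D.gu_mem _) _) (f3a_comm D (D.gu_mem _) _) (f3a_comm D (D.gu_mem _) _)
    (f3a_comm D ha _) (s.commute_gu_π _ hr') (s.commute_gu_π _ hr') (s.commute_gu_π _ ha')
    (s.commute_gu_π _ ha') (s.commute_gu_π _ hr') (hζ h) (f3a_comm D hr _) (hζ g⁻¹).symm
  have a1 : ∀ k : D.G, adj D.J (D.gu k) = D.gu k * Rm D.J (D.gu k⁻¹) := fun k => by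
    rw [adj, ← f3a_star_Rm, f3a_star_Rm']
  have p1 : s.π (Rm D.J (D.gu h⁻¹) * r' * Rm D.J (D.gu h)) =
      Rm D.J (D.gu h⁻¹) * s.π r' * Rm D.J (D.gu h) := by
    rw [s.π_mul, s.π_mul, s.π_Rm, s.π_Rm]
  have p2 : s.π (Rm D.J (D.gu h⁻¹) * r' * Rm D.J (D.gu h) * a') =
      Rm D.J (D.gu h⁻¹) * s.π r' * Rm D.J (D.gu h) * s.π a' := by
    rw [s.π_mul, p1]
  have p3 : s.π (r' * x') = s.π r' * (Rm D.J (D.gu h) * s.π a' * Rm D.J (D.gu g⁻¹)) := by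
    rw [s.π_mul, hx', s.π_mul, s.π_mul, s.π_Rm, s.π_Rm]
  rw [a1, a1, FinD.Sm.phi, FinD.Sm.phi, p1, p2, ← alg, ← hx, ← p3, ← hFX, ← map_sub, ← map_sub]
  have key : F₁ (r * x * r) + F₂ (r' * x' * r') -
      (r (x (F₁ r + F₂ r') + s.π r' (F₁ x + F₂ x') - (x * s.π r' - s.π r' * x) (z₀ ξ)) +
        s.π (r' * x') (F₁ r + F₂ r') - (r * s.π (r' * x') - s.π (r' * x') * r) (z₀ ξ)) =
      (s.phi z₀ r (r' * x') - s.del F₁ F₂ r r' (x * r) (r' * x')) +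
        r (s.phi z₀ x r' - s.del F₁ F₂ x x' r r') := by
    simp only [FinD.Sm.phi, FinD.Sm.del, map_add, map_sub, mul_assoc]
    abel
  rw [key]
  refine (ContinuousLinearMap.le_of_opNorm_le _ (nG g) _).trans ?_
  rw [one_mul]
  refine (ContinuousLinearMap.le_of_opNorm_le _ (nR h⁻¹) _).trans ?_
  rw [one_mul]
  refine (norm_add_le _ _).trans ?_
  have E3 := (ContinuousLinearMap.le_of_opNorm_le _ nr
    (s.phi z₀ x r' - s.del F₁ F₂ x x' r r')).trans (mul_le_mul_of_nonneg_left E2 zero_le_two)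
  have h0 : 0 ≤ W * η := mul_nonneg hW hη
  linarith

theorem fin3b_add {G : Type*} [Group G] {m : Mean G} {f g : G → H} {v w : H}
    (hf : Bdd f ∧ m.vec f = v) (hg : Bdd g ∧ m.vec g = w) :
    Bdd (fun x => f x + g x) ∧ m.vec (fun x => f x + g x) = v + w :=
  ⟨mn_bdd_add hf.1 hg.1, by rw [m.vec_add hf.1 hg.1, hf.2, hg.2]⟩

theorem fin3b_sub {G : Type*} [Group G] {m : Mean G} {f g : G → H} {v w : H}
    (hf : Bdd f ∧ m.vec f = v) (hg : Bdd g ∧ m.vec g = w) :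
    Bdd (fun x => f x - g x) ∧ m.vec (fun x => f x - g x) = v - w :=
  ⟨mn_bdd_sub hf.1 hg.1, by rw [m.vec_sub hf.1 hg.1, hf.2, hg.2]⟩

theorem fin3b_map {G : Type*} [Group G] {m : Mean G} {f : G → H} {v : H} (A : Op H)
    (hf : Bdd f ∧ m.vec f = v) : Bdd (fun x => A (f x)) ∧ m.vec (fun x => A (f x)) = A v :=
  ⟨mn_bdd_of_le hf.1 (norm_nonneg A) fun x => A.le_opNorm _, by rw [← m.map_vec A hf.1, hf.2]⟩

theorem fin3b_op {G : Type*} [Group G] (m : Mean G) {F : G → Op H} (hF : Bdd F) (w : H) :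
    Bdd (fun x => F x w) ∧ m.vec (fun x => F x w) = m.op F w :=
  ⟨mn_bdd_app hF w, (m.op_apply hF w).symm⟩

theorem fin3b_near {G : Type*} [Group G] {m : Mean G} {f g : G → H} {v : H} {K : ℝ}
    (hf : Bdd f ∧ m.vec f = v) (h : ∀ x, ‖g x - f x‖ ≤ K) : ‖m.vec g - v‖ ≤ K := by
  rw [← hf.2, norm_sub_rev]
  exact m.norm_vec_sub_vec_le hf.1 fun x => by rw [norm_sub_rev]; exact h x

/-- The abstract double average. -/
theorem fin3b_avg {G : Type*} [Group G] (m : Mean G) {R P : G → Op H} {k : G → H} (hR : Bdd R)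
    (hP : Bdd P) (hk : Bdd k) (a b : Op H) (X ζ : H) {f : G → G → H} {K : ℝ}
    (h : ∀ g h, ‖f g h - (R g (a (k h)) + R g (P h X) - R g (a (P h ζ) - P h (a ζ)) +
      P h (b (k g)) - (R g (P h (b ζ)) - P h (b (R g ζ))))‖ ≤ K) :
    ‖m.vec (fun g => m.vec (f g)) - (m.op R (a (m.vec k)) + m.op R (m.op P X) -
      m.op R (a (m.op P ζ) - m.op P (a ζ)) + m.op P (b (m.vec k)) -
      (m.op R (m.op P (b ζ)) - m.op P (b (m.op R ζ))))‖ ≤ K := by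
  have hk' : Bdd k ∧ m.vec k = m.vec k := ⟨hk, rfl⟩
  refine fin3b_near (fin3b_sub (fin3b_add (fin3b_sub (fin3b_add (fin3b_op m hR _)
    (fin3b_op m hR _)) (fin3b_op m hR _)) (fin3b_map _ (fin3b_map b hk')))
    (fin3b_sub (fin3b_op m hR _) (fin3b_map _ (fin3b_map b (fin3b_op m hR _))))) fun g => ?_
  exact fin3b_near (fin3b_sub (fin3b_add (fin3b_sub (fin3b_add (fin3b_map _ (fin3b_map a hk'))
    (fin3b_map _ (fin3b_op m hP _))) (fin3b_map _ (fin3b_sub (fin3b_map a (fin3b_op m hP _))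
    (fin3b_op m hP _)))) (fin3b_op m hP _))
    (fin3b_sub (fin3b_map _ (fin3b_op m hP _)) (fin3b_op m hP _))) (h g)

theorem fin3b_app_le {A : Op H} {v : H} {s t : ℝ} (hA : ‖A‖ ≤ s) (hv : ‖v‖ ≤ t) :
    ‖A v‖ ≤ s * t :=
  (A.le_opNorm v).trans (mul_le_mul hA hv (norm_nonneg _) ((norm_nonneg _).trans hA))

theorem fin3b_conj_le {A x B : Op H} {t : ℝ} (hA : ‖A‖ ≤ 1) (hx : ‖x‖ ≤ t) (hB : ‖B‖ ≤ 1) :
    ‖A * x * B‖ ≤ t := by
  have h1 := norm_mul_le (A * x) B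
  have h2 := norm_mul_le A x
  have h3 := norm_nonneg x
  have h4 := norm_nonneg (A * x)
  have h5 := norm_nonneg A
  nlinarith [norm_nonneg B]

/-- The final estimate. -/
theorem fin3b_final {c p a b Ra : Op H} {X ζ κ : H} {d V : ℝ} (_hd : 0 ≤ d) (_hV : 0 ≤ V)
    (hc : ‖c‖ ≤ 1) (hp : ‖p - c‖ ≤ d) (hb : ‖b‖ ≤ 4) (hba : ‖b - Ra‖ ≤ d) (hX : ‖X‖ ≤ 4 * V)
    (hκ : ‖κ‖ ≤ 3 * V) (hRa : Ra κ = a κ) (hphi : ‖a (p ζ) - p (a ζ)‖ ≤ 4 * V * d)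
    (hcp : Commute c p) (hcb : Commute c b) :
    ‖(c (a κ) + c (p X) - c (a (p ζ) - p (a ζ)) + p (b κ) - (c (p (b ζ)) - p (b (c ζ)))) -
      (c (c X) + (2 : ℂ) • c (a κ))‖ ≤ 23 * V * d := by
  have h1 : (c (a κ) + c (p X) - c (a (p ζ) - p (a ζ)) + p (b κ) -
      (c (p (b ζ)) - p (b (c ζ)))) - (c (c X) + (2 : ℂ) • c (a κ)) =
      c ((p - c) X) - c (a (p ζ) - p (a ζ)) + (p - c) (b κ) + c ((b - Ra) κ) := by
    rw [Graph_comm_apply hcp (b ζ), Graph_comm_apply hcb ζ, two_smul]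
    simp only [sub_apply, map_sub, hRa]
    abel
  rw [h1]
  have h2 := fin3b_app_le hc (fin3b_app_le hp hX)
  have h3 := fin3b_app_le hc hphi
  have h4 := fin3b_app_le hp (fin3b_app_le hb hκ)
  have h5 := fin3b_app_le hc (fin3b_app_le hba hκ)
  have h6 := norm_add_le (c ((p - c) X) - c (a (p ζ) - p (a ζ)) + (p - c) (b κ)) (c ((b - Ra) κ))
  have h7 := norm_add_le (c ((p - c) X) - c (a (p ζ) - p (a ζ))) ((p - c) (b κ))
  have h8 := norm_sub_le (c ((p - c) X)) (c (a (p ζ) - p (a ζ)))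
  nlinarith

/-- The sandwich average. Recipe: `T` from `exists_avg T₀`, `c = cE r`, `c' = m_h R_h⋆ r' R_h ∈ N'`
has `‖π c' - c‖ ≤ d` (`Rm_cen`), `κ₂ = m_h adj h (F₁ r + F₂ r')` lies in `zsp` (`fix`). Average
`sandwich_pt` over `h`, then over `g` (`Mean.map_vec`, `op_apply`): the five terms become
`c a κ₂`, `c (π c') F X`, `c phi a c' = c phi a (c' - c)`, `π (c' a') κ₂ ≈ c a κ₂` (`Rm_zsp`), and
`phi c (c' a') = 0`. `(z₀ - c) ξ` is the mean of `adj g ((z₀ - r) ξ)`. -/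
theorem sandwich_avg : ∃ C' > 0, ∀ {H : Type u} [NormedAddCommGroup H] [InnerProductSpace ℂ H]
    [CompleteSpace H] {M N : VN H} {ξ : H} {e : ℝ} {D : FinD M N ξ e} (s : D.Sm) {z₀ : Op H}
    {F₁ F₂ : Op H →ₗ[ℂ] H} {w C η d β : ℝ} {r r' T₀ : Op H}, e ≤ 1 / 100 → 0 ≤ w → 1 ≤ C →
    0 ≤ η → 0 ≤ d → 0 ≤ β → CP M z₀ → s.Loc w → s.Prim z₀ F₁ F₂ (w * ‖z₀ ξ‖) C η →
    FinD.Sm.Bimod D F₁ F₂ → r ∈ M → r' ∈ N.commutant → IsStarProjection r → z₀ * r = r →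
    ‖r'‖ ≤ 2 → s.dev r r' ≤ d →
    (∀ a ∈ M, ∀ a' ∈ N.commutant, ‖a‖ ≤ 2 → ‖a'‖ ≤ 2 → s.dev a a' ≤ d →
      ‖F₁ (r * a * r) + F₂ (r' * a' * r') - T₀ (a ξ)‖ ≤ β) →
    ∃ (T c : Op H) (κ₂ : H), ‖T‖ ≤ ‖T₀‖ ∧
      (∀ g, Commute (D.gu g) T ∧ Commute (Rm D.J (D.gu g)) T) ∧ Cen M c ∧ z₀ * c = c ∧
      ‖(z₀ - c) ξ‖ ≤ ‖(z₀ - r) ξ‖ ∧ ‖c‖ ≤ 1 ∧
      ∀ a ∈ M, ∀ a' ∈ N.commutant, ‖a‖ ≤ 2 → ‖a'‖ ≤ 2 → s.dev a a' ≤ d →
        ‖T (a ξ) - (c (c (F₁ a + F₂ a')) + (2 : ℂ) • c (a κ₂))‖ ≤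
          β + C' * (w * ‖z₀ ξ‖) * (η + C * d) := by
  obtain ⟨C₁, hC₁, hpt⟩ := sandwich_pt.{u}
  refine ⟨C₁ + 23, by positivity, ?_⟩
  intro H _ _ _ M N ξ e D s z₀ F₁ F₂ w C η d β r r' T₀ he hw hC hη hd hβ hz hloc hprim hbim hr
    hr' hrp hzr hr'2 hdr hT₀
  obtain ⟨T, hTn, hTc, hT⟩ := D.exists_avg T₀
  have hW : 0 ≤ w * ‖z₀ ξ‖ := by positivity
  set W := w * ‖z₀ ξ‖ with hWdef
  have hr1 : ‖r‖ ≤ 1 := hrp.norm_le
  have hg1 : ∀ g, ‖star (D.gu g)‖ ≤ 1 := fun g => by rw [norm_star]; exact D.norm_gu_le g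
  have hR1 : ∀ g, ‖Rm D.J (D.gu g)‖ ≤ 1 := fun g => by rw [D.tr.norm_Rm]; exact D.norm_gu_le g
  have hR2 : ∀ g, ‖star (Rm D.J (D.gu g))‖ ≤ 1 := fun g => by rw [norm_star]; exact hR1 g
  have hRs : ∀ g, Rm D.J (D.gu g⁻¹) = star (Rm D.J (D.gu g)) := fun g => by
    rw [D.gu_inv, D.tr.Rm_star]
  -- the three families
  set R : D.G → Op H := fun g => D.gu g * r * star (D.gu g) with hRdef
  set Q : D.G → Op H := fun h => star (Rm D.J (D.gu h)) * r' * Rm D.J (D.gu h) with hQdef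
  set k : D.G → H := fun h => adj D.J (D.gu h) (F₁ r + F₂ r') with hkdef
  have hRn : ∀ g, ‖R g‖ ≤ 1 := fun g => fin3b_conj_le (D.norm_gu_le g) hr1 (hg1 g)
  have hQn : ∀ g, ‖Q g‖ ≤ 2 := fun g => fin3b_conj_le (hR2 g) hr'2 (hR1 g)
  have hκ : ‖F₁ r + F₂ r'‖ ≤ 3 * (C * W) := by
    have h1 := hprim.le₁ r hr
    have h2 := hprim.le₂ r' hr'
    have h3 := norm_add_le (F₁ r) (F₂ r')
    have h4 : 0 ≤ C * W := by positivity
    nlinarith
  have hkn : ∀ g, ‖k g‖ ≤ 3 * (C * W) := fun g =>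
    (fin3b_app_le (popb_norm_adj (J := D.J) (g : unitary (Op H))) hκ).trans (one_mul _).le
  have hRb : Bdd R := ⟨1, hRn⟩
  have hQb : Bdd Q := ⟨2, hQn⟩
  have hkb : Bdd k := ⟨_, hkn⟩
  have hPb : Bdd fun h => s.π (Q h) :=
    mn_bdd_of_le hQb zero_le_two fun h => s.norm_π_le he _
  have hRM : ∀ g, R g ∈ M := fun g =>
    mul_mem (mul_mem (D.gu_mem g) hr) (star_mem (D.gu_mem g))
  have hQN : ∀ g, Q g ∈ N.commutant := fun g =>
    mul_mem (mul_mem (star_mem (D.Rm_gu_mem g)) hr') (D.Rm_gu_mem g)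
  have hc : Cen M (D.m.op R) := D.cen_cE hr
  have hcn : ‖D.m.op R‖ ≤ 1 := D.m.norm_op_le hRn
  have hc' : D.m.op Q ∈ N.commutant := D.m.op_mem hQb hQN
  have hp : D.m.op (fun h => s.π (Q h)) = s.π (D.m.op Q) := by
    unfold FinD.Sm.π
    rw [D.m.op_mul_right, D.m.op_mul_left _ hQb]
    exact mn_bdd_of_le hQb (norm_nonneg s.S) fun h => norm_mul_le _ _
  have hRRb : Bdd fun h => Rm D.J (R h) := ⟨1, fun h => by rw [D.tr.norm_Rm]; exact hRn h⟩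
  have hcR : D.m.op (fun h => Rm D.J (R h)) = D.m.op R := by
    rw [← sub_eq_zero]
    refine Cyc.sep (A := M.commutant) (by rw [VonNeumannAlgebra.commutant_commutant]; exact D.tr.cyc)
      (sub_mem (D.m.op_mem hRRb fun h => D.tr.Rm_mem (hRM h)) hc.2) ?_
    rw [sub_apply, D.m.op_apply hRRb, D.m.op_apply hRb]
    simp only [D.tr.Rm_ξ (hRM _), sub_self]
  have hpc : ‖s.π (D.m.op Q) - D.m.op R‖ ≤ d := by
    rw [← hp, ← hcR, ← D.m.op_sub hPb hRRb]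
    refine D.m.norm_op_le fun h => ?_
    have h1 := s.dev_conj h h⁻¹ r hr'
    rw [hRs, D.gu_inv] at h1
    exact h1.le.trans hdr
  have hκ₂ : D.m.vec k ∈ zsp M ξ := by
    refine D.fix _ fun g => ?_
    rw [D.m.map_vec _ hkb, ← D.m.vec_inv g hkb]
    congr 1
    funext h
    exact popb_adj_mul D.tr (D.gu_mem g) (D.gu_mem h) _
  refine ⟨T, D.m.op R, D.m.vec k, hTn, hTc, hc, ?_, ?_, hcn, ?_⟩
  · rw [← D.m.op_mul_left _ hRb]
    congr 1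
    funext g
    have h1 : Commute (D.gu g) z₀ := mem_comm.1 hz.2.2 _ (D.gu_mem g)
    simp only [hRdef]
    rw [← mul_assoc, ← mul_assoc, ← h1.eq, mul_assoc _ z₀, hzr]
  · rw [sub_apply, D.m.op_apply hRb, norm_sub_rev]
    refine D.m.norm_vec_sub_le fun g => ?_
    have h1 : Commute (star (D.gu g)) z₀ := mem_comm.1 hz.2.2 _ (star_mem (D.gu_mem g))
    have h2 : Commute (z₀ - r) (star (Rm D.J (D.gu g))) :=
      mem_comm.1 (star_mem (D.tr.Rm_mem (D.gu_mem g))) _ (sub_mem hz.2.1 hr)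
    have h3 : z₀ ξ - R g ξ = D.gu g (star (Rm D.J (D.gu g)) ((z₀ - r) ξ)) := by
      rw [← Graph_comm_apply h2, ← D.tr.Rm_star, D.tr.Rm_ξ (star_mem (D.gu_mem g)), sub_apply,
        map_sub, ← Graph_comm_apply h1, ← mul_apply_eq_comp (D.gu g) (star (D.gu g))]
      have h4 : D.gu g * star (D.gu g) = 1 := bas_us _
      rw [h4]
      rfl
    rw [norm_sub_rev, h3]
    simpa only [one_mul] using fin3b_app_le (D.norm_gu_le g) (fin3b_app_le (hR2 g) le_rfl)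
  intro a ha a' ha' ha2 ha'2 hda
  have hX : ‖F₁ a + F₂ a'‖ ≤ 4 * (C * W) := by
    have h1 := hprim.le₁ a ha
    have h2 := hprim.le₂ a' ha'
    have h3 := norm_add_le (F₁ a) (F₂ a')
    have h4 : 0 ≤ C * W := by positivity
    nlinarith
  have h1 := fin3b_avg D.m hRb hPb hkb a (s.π a') (F₁ a + F₂ a') (z₀ ξ)
    (f := fun g h => D.gu g (star (Rm D.J (D.gu h))
      (T₀ (star (D.gu g) (Rm D.J (D.gu h) (a ξ)))))) (K := β + C₁ * W * (η + C * d)) (by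
      intro g h
      have h2 := hpt s he hW (zero_le_one.trans hC) hη hz hprim hbim hr hr' (hr1.trans one_le_two)
        hr'2 hdr ha ha' ha2 ha'2 hda g h
      have h3 := hT₀ (star (D.gu g) * a * D.gu h)
        (mul_mem (mul_mem (star_mem (D.gu_mem g)) ha) (D.gu_mem h))
        (Rm D.J (D.gu h) * a' * star (Rm D.J (D.gu g)))
        (mul_mem (mul_mem (D.Rm_gu_mem h) ha') (star_mem (D.Rm_gu_mem g)))
        (fin3b_conj_le (hg1 g) ha2 (D.norm_gu_le h)) (fin3b_conj_le (hR1 h) ha'2 (hR2 g)) (by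
          have h4 := s.dev_conj g⁻¹ h a ha'
          rw [hRs, D.gu_inv] at h4
          exact h4.le.trans hda)
      have h4 := fin3b_app_le (D.norm_gu_le g) (fin3b_app_le (hR2 h) h3)
      have h5 : Commute a (Rm D.J (D.gu h)) := mem_comm.1 (D.tr.Rm_mem (D.gu_mem h)) _ ha
      have h6 : (star (D.gu g) * a * D.gu h) ξ = star (D.gu g) (Rm D.J (D.gu h) (a ξ)) := by
        rw [← Graph_comm_apply h5, D.tr.Rm_ξ (D.gu_mem h)]
        rfl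
      rw [h6, map_sub, map_sub, norm_sub_rev, one_mul, one_mul] at h4
      refine (norm_sub_le_norm_sub_add_norm_sub _ _ _).trans (add_le_add h4 (le_of_eq_of_le ?_ h2))
      simp only [FinD.Sm.phi, s.π_mul, sub_apply, mul_apply_eq_comp, hRdef, hQdef, hkdef])
  rw [← hT, hp] at h1
  have hcN : D.m.op R ∈ N.commutant := (D.cen_N hc).2
  have h2 : ‖a (s.π (D.m.op Q) (z₀ ξ)) - s.π (D.m.op Q) (a (z₀ ξ))‖ ≤ 4 * (C * W) * d := by
    have h3 := s.norm_phi_le hloc hz ha (sub_mem hc' hcN)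
    have h4 := s.norm_le_π he (D.m.op Q - D.m.op R)
    have h5 : Commute a (D.m.op R) := mem_comm.1 hc.2 _ ha
    rw [s.π_sub, s.π_cen hc] at h4
    have h6 : s.phi z₀ a (D.m.op Q - D.m.op R) =
        a (s.π (D.m.op Q) (z₀ ξ)) - s.π (D.m.op Q) (a (z₀ ξ)) := by
      simp only [FinD.Sm.phi, s.π_sub, s.π_cen hc, sub_apply, mul_apply_eq_comp, map_sub,
        Graph_comm_apply h5]
      abel
    rw [h6, ← hWdef] at h3
    have h7 : W * ‖a‖ * ‖D.m.op Q - D.m.op R‖ ≤ W * 2 * (2 * d) := by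
      gcongr
      linarith
    have h8 : 0 ≤ W * d := by positivity
    nlinarith
  have h3 := fin3b_final (X := F₁ a + F₂ a') hd (by positivity : 0 ≤ C * W) hcn hpc
    ((s.norm_π_le he a').trans (by linarith)) hda hX (D.m.norm_vec_le hkn)
    (D.tr.Rm_zsp ha hκ₂) h2 (s.commute_cen_π hc hc') (s.commute_cen_π hc ha')
  refine (norm_sub_le_norm_sub_add_norm_sub _ _ _).trans ((add_le_add h1 h3).trans ?_)
  have h4 : 0 ≤ W * η := by positivity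
  nlinarith

theorem fc_bilin {P Q : VN H} (Φ : Op H → Op H → H)
    (h₁ : ∀ (c : ℂ) a y, Φ (c • a) y = c • Φ a y) (h₂ : ∀ (c : ℂ) a y, Φ a (c • y) = c • Φ a y)
    {β : ℝ} (h : ∀ a ∈ P, ∀ y ∈ Q, ‖a‖ ≤ 1 → ‖y‖ ≤ 1 → ‖Φ a y‖ ≤ β) {a y : Op H} (ha : a ∈ P)
    (hy : y ∈ Q) : ‖Φ a y‖ ≤ β * ‖a‖ * ‖y‖ := by
  rcases eq_or_ne a 0 with rfl | ha0
  · have := h₁ 0 0 y
    rw [zero_smul, zero_smul] at this
    simp [this]
  rcases eq_or_ne y 0 with rfl | hy0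
  · have := h₂ 0 a 0
    rw [zero_smul, zero_smul] at this
    simp [this]
  have hna : 0 < ‖a‖ := norm_pos_iff.2 ha0
  have hny : 0 < ‖y‖ := norm_pos_iff.2 hy0
  have h3 := h _ (smul_mem' ((‖a‖⁻¹ : ℝ) : ℂ) ha) _ (smul_mem' ((‖y‖⁻¹ : ℝ) : ℂ) hy)
    (by rw [norm_smul, Complex.norm_real, norm_inv, norm_norm, inv_mul_cancel₀ hna.ne'])
    (by rw [norm_smul, Complex.norm_real, norm_inv, norm_norm, inv_mul_cancel₀ hny.ne'])
  rw [h₁, h₂, norm_smul, norm_smul, Complex.norm_real, Complex.norm_real, norm_inv, norm_inv,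
    norm_norm, norm_norm, inv_mul_le_iff₀ hna, inv_mul_le_iff₀ hny] at h3
  linarith

theorem fc_dfc_smul {D : FinD M N ξ e} (s : D.Sm) (T : Op H) (c : ℂ) (a y : Op H) :
    s.dfc T (c • a) y = c • s.dfc T a y ∧ s.dfc T a (c • y) = c • s.dfc T a y := by
  constructor
  · simp only [FinD.Sm.dfc, smul_mul_assoc, mul_smul_comm, sub_apply, smul_apply, map_smul,
      smul_sub, smul_add]
  · simp only [FinD.Sm.dfc, s.π_smul, smul_mul_assoc, mul_smul_comm, sub_apply, smul_apply,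
      map_smul, smul_sub, smul_add]

theorem fc_prim_mono {D : FinD M N ξ e} {s : D.Sm} {z₀ : Op H} {F₁ F₂ : Op H →ₗ[ℂ] H}
    {W C C' η : ℝ} (hW : 0 ≤ W) (hC : C ≤ C') (h : s.Prim z₀ F₁ F₂ W C η) :
    s.Prim z₀ F₁ F₂ W C' η := by
  refine ⟨fun a ha => (h.le₁ a ha).trans (by gcongr), fun a ha => (h.le₂ a ha).trans (by gcongr),
    fun a ha a' ha' b hb b' hb' => (h.eq a ha a' ha' b hb b' hb').trans ?_⟩
  have h1 : 0 ≤ s.dev a a' := norm_nonneg _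
  have h2 : 0 ≤ s.dev b b' := norm_nonneg _
  gcongr

theorem fc_app_le {a : Op H} {c : ℝ} (ha : ‖a‖ ≤ c) (v : H) : ‖a v‖ ≤ c * ‖v‖ :=
  (a.le_opNorm v).trans (by gcongr)

/-- The core estimate. Recipe: `exists_prim`, `Prim.bimod`, `exists_cut_pair` (`c = C w`),
`sandwich_avg` with `d = C'' e`. For the pair `(1, 1)`: `‖F₁ 1 + F₂ 1‖ ≤ η W` (`Prim.eq`), so
`2 c κ₂ ≈ T̄ ξ = κ₀ ξ` (`exists_cen_apply`) and `(T̄ - κ₀) (a ξ) ≈ c² (F₁ a + F₂ a')`. `z` from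
`exists_cp_cut c (1/2)` (`z ≤ z₀`, `‖(z₀ - z) ξ‖ ≤ 2 ‖(z₀ - c) ξ‖ ≤ ‖z₀ ξ‖/5`), `d₀` from
`exists_cen_inv`, `T = d₀² (T̄ - κ₀)`. For `‖a‖, ‖y‖ ≤ 1` take partners `a'`, `b`; `Prim.eq` for
`(a, a')`, `(b, y)`; `T (π y ξ) ≈ T (b ξ)`, `T (π y a ξ) ≈ T (a b ξ)` up to `‖T‖ dev ‖z ξ‖`. Choose
`η`, then `e₀`, so that the total error is `≤ w ‖z ξ‖ / 8`. -/
theorem fin_core : ∃ C > 0, ∃ e₀ > 0, ∀ {H : Type u} [NormedAddCommGroup H]
    [InnerProductSpace ℂ H] [CompleteSpace H] {M N : VN H} {ξ : H} {e : ℝ} {D : FinD M N ξ e}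
    (s : D.Sm) {w : ℝ} {z₀ : Op H}, 0 < e → e ≤ e₀ → 0 ≤ w → s.Loc w → CP M z₀ → z₀ ≠ 0 →
    ∃ z, CP M z ∧ z ≠ 0 ∧ z₀ * z = z ∧ ∃ T : Op H, ‖T‖ ≤ C * w ∧
      (∀ g, Commute (D.gu g) T ∧ Commute (Rm D.J (D.gu g)) T) ∧ T ξ = 0 ∧
      ∀ a ∈ M, ∀ y ∈ N.commutant, ‖z (s.dfc T a y)‖ ≤ w / 8 * ‖a‖ * ‖y‖ * ‖z ξ‖ := by
  obtain ⟨C₁, hC₁, hprim⟩ := exists_prim.{u}
  obtain ⟨C₂, hC₂, hcut⟩ := exists_cut_pair.{u}
  obtain ⟨C₃, hC₃, havg⟩ := sandwich_avg.{u}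
  set C := C₁ + 1 with hC
  have hC1 : 1 ≤ C := by linarith
  set K₁ := 36 + 48 * C₃ with hK₁
  set K₂ := 18 * C + 48 * (C₂ * C * (C₂ + 20) + C₃ * C * (C₂ + 18)) with hK₂
  have hK₁0 : 0 < K₁ := by positivity
  have hK₂0 : 0 < K₂ := by positivity
  set η := 1 / (20 * K₁) with hη
  have hη0 : 0 < η := by positivity
  obtain ⟨e₁, he₁, hprim⟩ := hprim hη0
  set e₂ := 1 / (16 * (5 / 4 * K₂ + 64 * C₂ * C)) with he₂
  have he₂0 : 0 < e₂ := by positivity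
  refine ⟨8 * C₂ * C, by positivity, min (min e₁ e₂) (1 / 1000), by positivity, ?_⟩
  intro H _ _ _ M N ξ e D s w z₀ he0 he hw hL hz₀ hz0
  have hee₁ : e ≤ e₁ := he.trans ((min_le_left _ _).trans (min_le_left _ _))
  have hee₂ : e ≤ e₂ := he.trans ((min_le_left _ _).trans (min_le_right _ _))
  have he3 : e ≤ 1 / 1000 := he.trans (min_le_right _ _)
  have he2 : e ≤ 1 / 100 := by linarith
  set ρ := ‖z₀ ξ‖ with hρ
  have hρ0 : 0 < ρ := norm_pos_iff.2 fun h0 => hz0 (D.tr.cyc'.sep hz₀.2.1 h0)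
  have hW : 0 ≤ w * ρ := by positivity
  obtain ⟨F₁', F₂', hP'⟩ := hprim s he0 hee₁ hw hL hz₀
  obtain ⟨F₁, F₂, hP, hB⟩ := (fc_prim_mono hW (by linarith : C₁ ≤ C) hP').bimod hz₀ hW
    (by linarith)
  obtain ⟨r, hr, r', hr', hrp, hzr, hr'n, hrd, hrξ, T₀, hT₀, hF⟩ := hcut s (c := C * w) F₁ F₂ he3
    (by positivity) hz₀ hz0 (fun a ha => (hP.le₁ a ha).trans (le_of_eq (by ring)))
    (fun a ha => (hP.le₂ a ha).trans (le_of_eq (by ring)))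
  set d := (C₂ + 18) * e with hd
  obtain ⟨Tb, c, κ₂, hTb, hTG, hc, hzc, hcξ, hc1, hS⟩ := havg s (d := d)
    (β := C₂ * (C * w) * ρ * (d + e * 2)) (T₀ := T₀) he2 hw hC1 hη0.le (by positivity)
    (by positivity) hz₀ hL hP hB hr hr' hrp hzr hr'n (hrd.trans (by rw [hd]; gcongr; linarith))
    (fun a ha a' ha' h1 h2 h3 => (hF a ha a' ha').trans (by
      have : max ‖a‖ ‖a'‖ ≤ 2 := max_le h1 h2
      gcongr))
  set Δ := C₂ * (C * w) * ρ * (d + e * 2) + C₃ * (w * ρ) * (η + C * d) with hΔ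
  obtain ⟨κ₀, hκ₀, hκ₀n, hκ₀ξ⟩ := D.exists_cen_apply hTG
  have hn1 : ‖(1 : Op H)‖ ≤ 1 := ContinuousLinearMap.norm_id_le
  have hdev1 : s.dev 1 1 = 0 := by rw [FinD.Sm.dev, s.π_one, D.tr.Rm_one, sub_self, norm_zero]
  have hκ₁ : ‖F₁ 1 + F₂ 1‖ ≤ w * ρ * η := by
    have h1 := hP.eq 1 (one_mem _) 1 (one_mem _) 1 (one_mem _) 1 (one_mem _)
    simp only [FinD.Sm.phi, FinD.Sm.del, s.π_one, mul_one, sub_self, hdev1, max_self, zero_mul,
      mul_zero, add_zero, one_apply_eq_self, zero_apply, zero_add, zero_sub, norm_neg] at h1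
    refine h1.trans ?_
    have : η * ‖(1 : Op H)‖ * ‖(1 : Op H)‖ ≤ η * 1 * 1 := by gcongr
    gcongr
    linarith
  have hκ₂ : ‖κ₀ ξ - (2 : ℂ) • c κ₂‖ ≤ Δ + w * ρ * η := by
    have h1 := hS 1 (one_mem _) 1 (one_mem _) (by linarith) (by linarith)
      (by rw [hdev1]; positivity)
    simp only [one_apply_eq_self] at h1
    rw [hκ₀ξ] at h1
    have h2 : ‖c (c (F₁ 1 + F₂ 1))‖ ≤ w * ρ * η := by
      have := fc_app_le hc1 (c (F₁ 1 + F₂ 1))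
      have := fc_app_le hc1 (F₁ 1 + F₂ 1)
      linarith
    have h3 : κ₀ ξ - (2 : ℂ) • c κ₂ =
        (κ₀ ξ - (c (c (F₁ 1 + F₂ 1)) + (2 : ℂ) • c κ₂)) + c (c (F₁ 1 + F₂ 1)) := by abel
    rw [h3]
    exact (norm_add_le _ _).trans (add_le_add h1 h2)
  obtain ⟨z, hz, hz1, hz2⟩ := exists_cp_cut hc (δ := 1 / 2) (by norm_num)
  obtain ⟨d₀, hd₀, hd₀n, hd₀c, hzd₀⟩ := exists_cen_inv hc hz (by norm_num) hz1
  have hd₀n' : ‖d₀‖ ≤ 2 := hd₀n.trans (by norm_num)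
  have hzz : z₀ * z = z := by
    rw [← hd₀c, ← mul_assoc, (Graph_cen_comm hz₀.cen hd₀).eq, mul_assoc, hzc]
  have hzρ : 4 / 5 * ρ ≤ ‖z ξ‖ := by
    have h1 := hz2 (z₀ ξ)
    have h2 : (1 - z) ((z₀ - c) ξ) = (1 - z) (z₀ ξ) - c ((1 - z) (z₀ ξ)) := by
      rw [sub_apply z₀, map_sub, Graph_comm_apply (Graph_cen_comm hc hz.one_sub.cen),
        ← mul_apply_eq_comp c, (Graph_cen_comm hc hz₀.cen).eq, hzc]
    have h3 : ‖(1 - z) ((z₀ - c) ξ)‖ ≤ ρ / 10 := by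
      have := fc_app_le hz.one_sub.1.norm_le ((z₀ - c) ξ)
      linarith
    have h4 := norm_sub_norm_le ((1 - z) (z₀ ξ)) (c ((1 - z) (z₀ ξ)))
    rw [← h2] at h4
    have h5 : z₀ ξ = z ξ + (1 - z) (z₀ ξ) := by
      rw [sub_apply, one_apply_eq_self, ← mul_apply_eq_comp z, (Graph_cen_comm hz.cen hz₀.cen).eq,
        hzz]
      abel
    have h6 : ρ ≤ ‖z ξ‖ + ‖(1 - z) (z₀ ξ)‖ := by
      rw [hρ]
      nth_rewrite 1 [h5]
      exact norm_add_le _ _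
    linarith
  set T := d₀ * d₀ * (Tb - κ₀) with hT
  have hTn : ‖T‖ ≤ 8 * C₂ * C * w := by
    have h1 : ‖Tb - κ₀‖ ≤ 2 * (C₂ * (C * w)) := (norm_sub_le _ _).trans (by linarith)
    calc ‖T‖ ≤ ‖d₀‖ * ‖d₀‖ * ‖Tb - κ₀‖ :=
          (norm_mul_le _ _).trans (by gcongr; exact norm_mul_le _ _)
      _ ≤ 2 * 2 * (2 * (C₂ * (C * w))) := by gcongr
      _ = _ := by ring
  have hcenM : ∀ {k x : Op H}, Cen M k → x ∈ M → Commute x k := fun hk hx => mem_comm.1 hk.2 _ hx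
  have hcenM' : ∀ {k y : Op H}, Cen M k → y ∈ M.commutant → Commute y k :=
    fun hk hy => (mem_comm.1 hy _ hk.1).symm
  have hTG' : ∀ g, Commute (D.gu g) T ∧ Commute (Rm D.J (D.gu g)) T := fun g =>
    ⟨((hcenM hd₀ (D.gu_mem g)).mul_right (hcenM hd₀ (D.gu_mem g))).mul_right
        ((hTG g).1.sub_right (hcenM hκ₀ (D.gu_mem g))),
      ((hcenM' hd₀ (D.tr.Rm_mem (D.gu_mem g))).mul_right
        (hcenM' hd₀ (D.tr.Rm_mem (D.gu_mem g)))).mul_right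
        ((hTG g).2.sub_right (hcenM' hκ₀ (D.tr.Rm_mem (D.gu_mem g))))⟩
  have hzT : z * T = T := by rw [hT, ← mul_assoc, ← mul_assoc, hzd₀]
  have hTz : T * z = T := by rw [← (D.cenG T (fun g => (hTG' g).1) z hz.cen).eq, hzT]
  have hpair : ∀ a ∈ M, ∀ a' ∈ N.commutant, ‖a‖ ≤ 2 → ‖a'‖ ≤ 2 → s.dev a a' ≤ 18 * e →
      ‖z (F₁ a + F₂ a') - T (a ξ)‖ ≤ 4 * (3 * Δ + 2 * (w * ρ * η)) := by
    intro a ha a' ha' h1 h2 h3
    have h4 := hS a ha a' ha' h1 h2 (h3.trans (by rw [hd]; gcongr; linarith))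
    have h5 : (Tb - κ₀) (a ξ) - c (c (F₁ a + F₂ a')) =
        (Tb (a ξ) - (c (c (F₁ a + F₂ a')) + (2 : ℂ) • c (a κ₂))) -
          a (κ₀ ξ - (2 : ℂ) • c κ₂) := by
      rw [map_sub a, map_smul, Graph_comm_apply (hcenM hκ₀ ha), Graph_comm_apply (hcenM hc ha),
        sub_apply]
      abel
    have h6 : ‖(Tb - κ₀) (a ξ) - c (c (F₁ a + F₂ a'))‖ ≤ 3 * Δ + 2 * (w * ρ * η) := by
      rw [h5]
      have := fc_app_le h1 (κ₀ ξ - (2 : ℂ) • c κ₂)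
      refine (norm_sub_le _ _).trans ?_
      linarith
    have h7 : d₀ * d₀ * (c * c) = z := by
      calc d₀ * d₀ * (c * c) = d₀ * (d₀ * c) * c := by noncomm_ring
        _ = z * (d₀ * c) := by rw [hd₀c, (Graph_cen_comm hd₀ hz.cen).eq, mul_assoc, hd₀c]
        _ = z := by rw [hd₀c, hz.1.isIdempotentElem.eq]
    have h8 : z (F₁ a + F₂ a') - T (a ξ) =
        -(d₀ (d₀ ((Tb - κ₀) (a ξ) - c (c (F₁ a + F₂ a'))))) := by
      rw [← h7, hT]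
      simp only [mul_apply_eq_comp, map_sub d₀, neg_sub]
    rw [h8, norm_neg]
    have := fc_app_le hd₀n' (d₀ ((Tb - κ₀) (a ξ) - c (c (F₁ a + F₂ a'))))
    have := fc_app_le hd₀n' ((Tb - κ₀) (a ξ) - c (c (F₁ a + F₂ a')))
    linarith
  refine ⟨z, hz, fun h0 => ?_, hzz, T, hTn, hTG', ?_, fun a ha y hy => ?_⟩
  · rw [h0, zero_apply, norm_zero] at hzρ
    linarith
  · rw [hT, mul_apply_eq_comp, sub_apply, hκ₀ξ, sub_self, map_zero]
  have hmain := fc_bilin (P := M) (Q := N.commutant) (fun a y => z (s.dfc T a y))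
    (fun c a y => by rw [(fc_dfc_smul s T c a y).1, map_smul])
    (fun c a y => by rw [(fc_dfc_smul s T c a y).2, map_smul]) (β := w / 8 * ‖z ξ‖) ?_ ha hy
  · exact hmain.trans (le_of_eq (by ring))
  intro a ha y hy ha1 hy1
  obtain ⟨a', ha', ha'n, had⟩ := s.exists_partner' he2 ha
  obtain ⟨b, hb, hbn, hbd⟩ := s.exists_partner he2 hy
  have ha'2 : ‖a'‖ ≤ 2 := by linarith
  have hb2 : ‖b‖ ≤ 2 := by linarith
  have had' : s.dev a a' ≤ 5 * e := had.trans (mul_le_of_le_one_right (by positivity) ha1)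
  have hbd' : s.dev b y ≤ 4 * e := hbd.trans (mul_le_of_le_one_right (by positivity) hy1)
  have hdA : 0 ≤ s.dev a a' := norm_nonneg _
  have hdB : 0 ≤ s.dev b y := norm_nonneg _
  have p1 := hpair a ha a' ha' (by linarith) ha'2 (by linarith)
  have p2 := hpair b hb y hy hb2 (by linarith) (by linarith)
  have p3 := hpair (a * b) (mul_mem ha hb) (y * a') (mul_mem hy ha')
    ((norm_mul_le _ _).trans ((mul_le_of_le_one_left (norm_nonneg _) ha1).trans hb2))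
    ((norm_mul_le _ _).trans ((mul_le_of_le_one_left (norm_nonneg _) hy1).trans ha'2))
    ((s.dev_mul he2 a a' b y).trans (by
      have := mul_le_of_le_one_right hdA hy1
      have := mul_le_of_le_one_left hdB ha1
      linarith))
  have p4 : ‖s.phi z₀ a y - s.del F₁ F₂ a a' b y‖ ≤ w * ρ * (4 * η + 18 * C * e) := by
    refine (hP.eq a ha a' ha' b hb y hy).trans ?_
    have m1 : max ‖a‖ ‖a'‖ ≤ 2 := max_le (by linarith) ha'2
    have m2 : max ‖b‖ ‖y‖ ≤ 2 := max_le hb2 (by linarith)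
    calc _ ≤ w * ρ * (η * 2 * 2 + C * (5 * e * 2 + 2 * (4 * e))) := by gcongr
      _ = _ := by ring
  have hza : Commute z a := (hcenM hz.cen ha).symm
  have hzy : Commute z (s.π y) := s.commute_cen_π hz.cen hy
  have hTv : ∀ v, z (T v) = T v := fun v => by rw [← mul_apply_eq_comp, hzT]
  have hTv' : ∀ v, T v = T (z v) := fun v => by rw [← mul_apply_eq_comp, hTz]
  have hzR : Commute z (s.π y - Rm D.J b) := hzy.sub_right (hcenM' hz.cen (D.tr.Rm_mem hb)).symm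
  have p5 : ∀ x ∈ M, ‖x‖ ≤ 1 →
      ‖T ((s.π y - Rm D.J b) (x ξ))‖ ≤ 8 * C₂ * C * w * (4 * e * ‖z ξ‖) := by
    intro x hx hx1
    rw [hTv', Graph_comm_apply hzR, Graph_comm_apply (hcenM hz.cen hx).symm]
    refine (fc_app_le hTn _).trans ?_
    have h1 := fc_app_le hbd' (x (z ξ))
    have h2 := fc_app_le hx1 (z ξ)
    gcongr
    exact h1.trans (by rw [one_mul] at h2; gcongr)
  have p6 := p5 1 (one_mem _) hn1
  have p7 := p5 a ha ha1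
  have hid : z (s.dfc T a y) = z (s.phi z₀ a y - s.del F₁ F₂ a a' b y) +
      a (z (F₁ b + F₂ y) - T (b ξ)) - (z (F₁ (a * b) + F₂ (y * a')) - T ((a * b) ξ)) +
      s.π y (z (F₁ a + F₂ a') - T (a ξ)) - a (T ((s.π y - Rm D.J b) ((1 : Op H) ξ))) +
      T ((s.π y - Rm D.J b) (a ξ)) := by
    have e1 : z ((a * s.π y - s.π y * a) (z₀ ξ)) = z ((a * s.π y - s.π y * a) ξ) := by
      have hc' : Commute z (a * s.π y - s.π y * a) :=
        (hza.mul_right hzy).sub_right (hzy.mul_right hza)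
      rw [Graph_comm_apply hc', Graph_comm_apply hc', ← mul_apply_eq_comp z,
        (Graph_cen_comm hz.cen hz₀.cen).eq, hzz]
    have e2 : Rm D.J b (a ξ) = (a * b) ξ := by
      rw [← Graph_comm_apply (mem_comm.1 (D.tr.Rm_mem hb) _ ha), D.tr.Rm_ξ hb, mul_apply_eq_comp]
    simp only [FinD.Sm.dfc, FinD.Sm.phi, FinD.Sm.del, map_sub z, e1]
    simp only [map_add z, map_sub z, Graph_comm_apply hza, Graph_comm_apply hzy, hTv, sub_apply,
      one_apply_eq_self, e2, D.tr.Rm_ξ hb, map_sub, map_add]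
    abel
  have q1 := fc_app_le hz.1.norm_le (s.phi z₀ a y - s.del F₁ F₂ a a' b y)
  have q2 := fc_app_le ha1 (z (F₁ b + F₂ y) - T (b ξ))
  have q3 := fc_app_le ((s.norm_π_le he2 y).trans (by linarith : 2 * ‖y‖ ≤ 2))
    (z (F₁ a + F₂ a') - T (a ξ))
  have q4 := fc_app_le ha1 (T ((s.π y - Rm D.J b) ((1 : Op H) ξ)))
  have htot : ‖z (s.dfc T a y)‖ ≤ w * ρ * (K₁ * η + K₂ * e) + w * ‖z ξ‖ * (64 * C₂ * C * e) := by
    rw [hid]
    refine (norm_add_le _ _).trans ?_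
    refine (add_le_add_left (norm_sub_le _ _) _).trans ?_
    refine (add_le_add_left (add_le_add_left (norm_add_le _ _) _) _).trans ?_
    refine (add_le_add_left (add_le_add_left (add_le_add_left (norm_sub_le _ _) _) _) _).trans ?_
    refine (add_le_add_left (add_le_add_left (add_le_add_left (add_le_add_left
      (norm_add_le _ _) _) _) _) _).trans ?_
    have : w * ρ * (K₁ * η + K₂ * e) + w * ‖z ξ‖ * (64 * C₂ * C * e) =
        w * ρ * (4 * η + 18 * C * e) + 16 * (3 * Δ + 2 * (w * ρ * η)) +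
          2 * (8 * C₂ * C * w * (4 * e * ‖z ξ‖)) := by
      rw [hK₁, hK₂, hΔ, hd]; ring
    rw [this]
    linarith
  refine htot.trans ?_
  have t1 : K₁ * η = 1 / 20 := by rw [hη]; field_simp
  have t2 : (5 / 4 * K₂ + 64 * C₂ * C) * e ≤ 1 / 16 := by
    calc _ ≤ (5 / 4 * K₂ + 64 * C₂ * C) * e₂ := by gcongr
      _ = 1 / 16 := by rw [he₂]; field_simp
  have t3 : w * ρ ≤ w * (5 / 4 * ‖z ξ‖) := by gcongr; linarith
  have t4 : 0 ≤ w * ‖z ξ‖ := by positivity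
  calc _ ≤ w * (5 / 4 * ‖z ξ‖) * (K₁ * η + K₂ * e) + w * ‖z ξ‖ * (64 * C₂ * C * e) := by gcongr
    _ = w * ‖z ξ‖ * (1 / 16 + (5 / 4 * K₂ + 64 * C₂ * C) * e) := by rw [t1]; ring
    _ ≤ w * ‖z ξ‖ * (1 / 16 + 1 / 16) := by gcongr
    _ = _ := by ring

end

end Crest.Agent.R78
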