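import Crest.Agent.R78.Fin3
import Crest.Agent.R78.Exh

/-!
# Row 78: the Newton iteration in the finite case
-/

open scoped InnerProductSpace Topology ComplexConjugate
open Filter MeasureTheory

set_option linter.unusedSectionVars false

namespace Crest.Agent.R78

open Crest.Agent.R121 (Alg)

noncomputable section

universe u

variable {H : Type*} [NormedAddCommGroup H] [InnerProductSpace ℂ H] [CompleteSpace H]

variable {M N : VN H} {ξ : H} {e : ℝ}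

theorem f4a_glue {I : Type*} {z : I → Op H} {p : Op H} (h : OFam z p) (T : I → Op H) {β : ℝ}
    (hβ : 0 ≤ β) (hT : ∀ i, ‖T i‖ ≤ β) (hc : ∀ i, Commute (z i) (T i)) :
    ∃ X : Op H, ‖X‖ ≤ β ∧ (∀ i, z i * X = z i * T i) ∧
      (∀ v, HasSum (fun i => z i (T i v)) (X v)) ∧
      ∀ y, (∀ i, Commute y (z i)) → (∀ i, Commute y (T i)) → Commute y X := by
  obtain ⟨X, h1, h2, -, h4, h5⟩ := h.exists_dsum (fun i => z i * T i) hβ
    (fun i => (norm_mul_le _ _).trans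
      ((mul_le_of_le_one_left (norm_nonneg _) (h.proj i).norm_le).trans (hT i)))
    (fun i => by rw [← mul_assoc, (h.proj i).isIdempotentElem.eq])
    (fun i => by rw [mul_assoc, ← (hc i).eq, ← mul_assoc, (h.proj i).isIdempotentElem.eq])
  exact ⟨X, h1, h2, h4, fun y a b => h5 y fun i => (a i).mul_right (b i)⟩

theorem f4a_glue_mem {P : VN H} {I : Type*} {z : I → Op H} {p : Op H} (h : OFam z p)
    (hz : ∀ i, Cen P (z i)) (T : I → Op H) (hP : ∀ i, T i ∈ P) (hT : ∀ i, ‖T i‖ ≤ 1) :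
    ∃ X ∈ P, ‖X‖ ≤ 1 ∧ ∀ i, z i * X = z i * T i := by
  obtain ⟨X, h1, h2, -, h4⟩ := f4a_glue h T zero_le_one hT
    fun i => (mem_comm.1 (hz i).2 _ (hP i)).symm
  exact ⟨X, bas_mem fun y hy => h4 y (fun i => (mem_comm.1 hy _ (hz i).1).symm)
    fun i => (mem_comm.1 hy _ (hP i)).symm, h1, h2⟩

theorem f4a_le {p q : Op H} (hq : IsStarProjection q) (h : q * p = q) (v : H) : ‖q v‖ ≤ ‖p v‖ := by
  conv_lhs => rw [← h]
  exact (q.le_opNorm _).trans (mul_le_of_le_one_left (norm_nonneg _) hq.norm_le)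

theorem f4a_mul {R : Type*} [Ring R] {z u v u' v' : R} (h : z * u = z * u') (h' : z * v = z * v')
    (hc : Commute z u') : z * (u * v) = z * (u' * v') := by
  rw [← mul_assoc, h, hc.eq, mul_assoc, h', ← mul_assoc, ← hc.eq, mul_assoc]

theorem f4a_dfc {D : FinD M N ξ e} (s : D.Sm) {z T a y T' a' y' : Op H} (ha : z * a = z * a')
    (hy : z * s.π y = z * s.π y') (hT : z * T = z * T') (ca : Commute z a')
    (cy : Commute z (s.π y')) (cT : Commute z T') : z (s.dfc T a y) = z (s.dfc T' a' y') := by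
  have key : ∀ T a y : Op H, z (s.dfc T a y) = (z * (a * s.π y) - z * (s.π y * a) -
      (z * (a * (T * s.π y)) + z * (s.π y * (T * a)) - z * (T * (s.π y * a)))) ξ := by
    intro T a y
    simp [FinD.Sm.dfc]
  rw [key, key, f4a_mul ha hy ca, f4a_mul hy ha cy, f4a_mul ha (f4a_mul hT hy cT) ca,
    f4a_mul hy (f4a_mul hT ha cT) cy, f4a_mul hT (f4a_mul hy ha cy) cT]

theorem f4a_dfc_smul {D : FinD M N ξ e} (s : D.Sm) (T a y : Op H) (c d : ℂ) :
    s.dfc T (c • a) (d • y) = (c * d) • s.dfc T a y := by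
  simp only [FinD.Sm.dfc, s.π_smul, smul_mul_assoc, mul_smul_comm, ContinuousLinearMap.smul_apply,
    ContinuousLinearMap.sub_apply, map_smul, smul_sub, smul_add, smul_smul, mul_comm d c]

theorem f4a_unit {P : VN H} {a : Op H} (ha : a ∈ P) :
    ∃ a₀ ∈ P, ‖a₀‖ ≤ 1 ∧ a = ((‖a‖ : ℝ) : ℂ) • a₀ := by
  refine ⟨((‖a‖ : ℝ) : ℂ)⁻¹ • a, smul_mem' _ ha, ?_, ?_⟩
  · rw [norm_smul, norm_inv, Complex.norm_real, norm_norm]
    exact inv_mul_le_one_of_le₀ le_rfl (norm_nonneg _)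
  · rcases eq_or_ne a 0 with rfl | h
    · simp
    · rw [smul_smul, mul_inv_cancel₀ (by simpa using h), one_smul]

/-- From a global bound to a local one. Recipe: `exists_max_cp` for
`P z = ∃ a y, ‖a‖ ≤ 1, ‖y‖ ≤ 1, β ‖z ξ‖ < ‖z (Φ a y)‖`. For a finite subfamily glue
`a = ∑ z_i a_i`, `y = ∑ z_i y_i` (norms `≤ 1`) and use locality:
`β² ∑ ‖z_i ξ‖² ≤ ‖z₀ (Φ a y)‖² ≤ β² ‖z₀ ξ‖²/4`; so `z = z₀ - e ≠ 0` (`β = 0` is trivial). -/
theorem loc_upgrade {P Q : VN H} (hc : Cyc M.commutant ξ) (hP : ∀ z, CP M z → Cen P z)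
    (hQ : ∀ z, CP M z → Cen Q z) (Φ : Op H → Op H → H)
    (hΦ : ∀ z, CP M z → ∀ a ∈ P, ∀ y ∈ Q, z (Φ (z * a) (z * y)) = z (Φ a y)) {β : ℝ}
    (hβ : 0 ≤ β) {z₀ : Op H} (hz : CP M z₀) (h0 : z₀ ≠ 0)
    (h : ∀ a ∈ P, ∀ y ∈ Q, ‖a‖ ≤ 1 → ‖y‖ ≤ 1 → ‖z₀ (Φ a y)‖ ≤ β / 2 * ‖z₀ ξ‖) :
    ∃ z, CP M z ∧ z ≠ 0 ∧ z₀ * z = z ∧ ∀ z', CP M z' → z * z' = z' →
      ∀ a ∈ P, ∀ y ∈ Q, ‖a‖ ≤ 1 → ‖y‖ ≤ 1 → ‖z' (Φ a y)‖ ≤ β * ‖z' ξ‖ := by
  rcases hβ.eq_or_lt with rfl | hβ'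
  · refine ⟨z₀, hz, h0, hz.1.isIdempotentElem.eq, fun z' hz' hle a ha y hy na ny => ?_⟩
    have h1 := h a ha y hy na ny
    have h2 := f4a_le hz'.1 (Exh_flip hz.1 hz'.1 hle) (Φ a y)
    simp only [zero_div, zero_mul] at h1 ⊢
    exact h2.trans h1
  obtain ⟨S, p, hp, hzp, hS, hf, hmax⟩ := exists_max_cp hz fun z =>
    ∃ a ∈ P, ∃ y ∈ Q, ‖a‖ ≤ 1 ∧ ‖y‖ ≤ 1 ∧ β * ‖z ξ‖ < ‖z (Φ a y)‖
  have hw : CP M (z₀ - p) :=
    ⟨hp.1.sub_of_mul_eq_right hz.1 hzp, sub_mem hz.2.1 hp.2.1, sub_mem hz.2.2 hp.2.2⟩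
  refine ⟨z₀ - p, hw, fun hzero => ?_, by rw [mul_sub, hz.1.isIdempotentElem.eq, hzp],
    fun z' hz' hle a ha y hy na ny => ?_⟩
  · obtain rfl : z₀ = p := sub_eq_zero.1 hzero
    choose a ha y hy na ny hlt using fun i : S => (hS i i.2).2
    obtain ⟨A, hA, nA, eA⟩ := f4a_glue_mem hf (fun i => hP _ (hS i i.2).1) a ha na
    obtain ⟨Y, hY, nY, eY⟩ := f4a_glue_mem hf (fun i => hQ _ (hS i i.2).1) y hy ny
    have h1 : β ^ 2 * ‖z₀ ξ‖ ^ 2 ≤ ‖z₀ (Φ A Y)‖ ^ 2 := by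
      refine hasSum_le (fun i => ?_) ((hf.hasSum_norm_sq ξ).mul_left (β ^ 2))
        (hf.hasSum_norm_sq (Φ A Y))
      rw [← hΦ _ (hS i i.2).1 A hA Y hY, eA, eY, hΦ _ (hS i i.2).1 _ (ha i) _ (hy i), ← mul_pow]
      exact pow_le_pow_left₀ (by positivity) (hlt i).le 2
    have h2 := pow_le_pow_left₀ (norm_nonneg _) (h A hA Y hY nA nY) 2
    have h3 : 0 < ‖z₀ ξ‖ := norm_pos_iff.2 fun h' => h0 (hc.sep hz.2.1 h')
    have h4 : 0 < (β * ‖z₀ ξ‖) ^ 2 := by positivity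
    nlinarith
  · by_contra hlt
    have := hmax z' hz' hle ⟨a, ha, y, hy, na, ny, not_le.1 hlt⟩
    subst this
    simp at hlt

/-- Gluing. Recipe: `fin_core`, `loc_upgrade` (`β = w/4`), `exhaust_cp` with `z₀ = 1`,
`OFam.exists_dsum` for `z_i T_i`; `z_i (dfc T a y) = z_i (dfc T_i a y)`;
`OFam.hasSum_norm_sq`; homogeneity of `dfc` in `a`, `y`. -/
theorem fin_glue : ∃ C > 0, ∃ e₀ > 0, ∀ {H : Type u} [NormedAddCommGroup H]
    [InnerProductSpace ℂ H] [CompleteSpace H] {M N : VN H} {ξ : H} {e : ℝ} {D : FinD M N ξ e}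
    (s : D.Sm) {w : ℝ}, 0 < e → e ≤ e₀ → 0 ≤ w → s.Loc w →
    ∃ T : Op H, ‖T‖ ≤ C * w ∧ (∀ g, Commute (D.gu g) T ∧ Commute (Rm D.J (D.gu g)) T) ∧ T ξ = 0 ∧
      ∀ z, CP M z → ∀ a ∈ M, ∀ y ∈ N.commutant,
        ‖z (s.dfc T a y)‖ ≤ w / 4 * ‖a‖ * ‖y‖ * ‖z ξ‖ := by
  obtain ⟨C, hC, e₀, he₀, hcore⟩ := fin_core.{u}
  refine ⟨C, hC, e₀, he₀, ?_⟩
  intro H _ _ _ M N ξ e D s w he he' hw hL
  have hloc : ∀ T : Op H, (∀ g, Commute (D.gu g) T) → ∀ z, CP M z → ∀ a ∈ M, ∀ y ∈ N.commutant,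
      z (s.dfc T (z * a) (z * y)) = z (s.dfc T a y) := by
    intro T hT z hz a ha y hy
    refine f4a_dfc s ?_ ?_ rfl (mem_comm.1 hz.2.2 a ha).symm (s.commute_cen_π hz.cen hy)
      (D.cenG T hT z hz.cen)
    · rw [← mul_assoc, hz.1.isIdempotentElem.eq]
    · rw [s.π_mul, s.π_cen hz.cen, ← mul_assoc, hz.1.isIdempotentElem.eq]
  obtain ⟨S, hS, hf⟩ := exhaust_cp (A := M) (z₀ := 1)
    ⟨IsStarProjection.one _, one_mem _, one_mem _⟩
    (fun z => ∃ T : Op H, ‖T‖ ≤ C * w ∧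
      (∀ g, Commute (D.gu g) T ∧ Commute (Rm D.J (D.gu g)) T) ∧ T ξ = 0 ∧
      ∀ z', CP M z' → z * z' = z' → ∀ a ∈ M, ∀ y ∈ N.commutant, ‖a‖ ≤ 1 → ‖y‖ ≤ 1 →
        ‖z' (s.dfc T a y)‖ ≤ w / 4 * ‖z' ξ‖)
    (fun w₀ hw₀ hne _ => by
      obtain ⟨z₁, c1, n1, l1, T, nT, cT, T0, hT⟩ := hcore s he he' hw hL hw₀ hne
      obtain ⟨z, c2, n2, l2, h2⟩ := loc_upgrade (P := M) (Q := N.commutant) D.tr.cyc'
        (fun z hz => hz.cen) (fun z hz => (D.cen_N hz.cen).commutant) (s.dfc T)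
        (hloc T fun g => (cT g).1) (β := w / 4) (by positivity) c1 n1 (fun a ha y hy na ny => by
          refine (hT a ha y hy).trans ?_
          calc w / 8 * ‖a‖ * ‖y‖ * ‖z₁ ξ‖ ≤ w / 8 * 1 * 1 * ‖z₁ ξ‖ := by gcongr
            _ = _ := by ring)
      exact ⟨z, c2, n2, by rw [← l2, ← mul_assoc, l1], T, nT, cT, T0, h2⟩)
  choose T nT cT T0 hT using fun i : S => (hS i i.2).2
  have hcp : ∀ i : S, CP M (i : Op H) := fun i => (hS i i.2).1
  obtain ⟨X, nX, eX, sX, cX⟩ := f4a_glue hf T (by positivity) nT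
    fun i => D.cenG _ (fun g => (cT i g).1) _ (hcp i).cen
  refine ⟨X, nX, fun g => ⟨cX _ (fun i => mem_comm.1 (hcp i).2.2 _ (D.gu_mem g)) fun i => (cT i g).1,
    cX _ (fun i => (mem_comm.1 (D.Rm_gu_mem g) _ (D.cen_N (hcp i).cen).1).symm)
      fun i => (cT i g).2⟩, ?_, fun z hz a ha y hy => ?_⟩
  · have := sX ξ
    simp only [T0, map_zero] at this
    exact this.unique hasSum_zero
  · obtain ⟨a₀, ha₀, na, ea⟩ := f4a_unit ha
    obtain ⟨y₀, hy₀, ny, ey⟩ := f4a_unit hy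
    have h1 : ‖z (s.dfc X a₀ y₀)‖ ^ 2 ≤ (w / 4) ^ 2 * ‖z ξ‖ ^ 2 := by
      refine hasSum_le (fun i => ?_) (hf.hasSum_norm_sq (z (s.dfc X a₀ y₀)))
        ((hf.hasSum_norm_sq (z ξ)).mul_left ((w / 4) ^ 2))
      have hz' := (hcp i).mul hz
      have hcm : (i : Op H) * z = z * i := (mem_comm.1 hz.2.2 _ (hcp i).2.1).eq
      have h2 := hT i _ hz' (by rw [← mul_assoc, (hcp i).1.isIdempotentElem.eq]) a₀ ha₀ y₀ hy₀ na ny
      have h3 : ((i : Op H) * z) (s.dfc X a₀ y₀) = ((i : Op H) * z) (s.dfc (T i) a₀ y₀) :=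
        f4a_dfc s rfl rfl (by rw [hcm, mul_assoc, mul_assoc, eX]) (mem_comm.1 hz'.2.2 _ ha₀).symm
          (s.commute_cen_π hz'.cen hy₀) (D.cenG _ (fun g => (cT i g).1) _ hz'.cen)
      rw [← h3] at h2
      rw [← mul_pow]
      exact pow_le_pow_left₀ (norm_nonneg _) h2 2
    rw [← mul_pow] at h1
    have h2 := (pow_le_pow_iff_left₀ (norm_nonneg _) (by positivity) two_ne_zero).1 h1
    conv_lhs => rw [ea, ey, f4a_dfc_smul, map_smul, norm_smul, norm_mul, Complex.norm_real,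
      Complex.norm_real, norm_norm, norm_norm]
    calc ‖a‖ * ‖y‖ * ‖z (s.dfc X a₀ y₀)‖ ≤ ‖a‖ * ‖y‖ * (w / 4 * ‖z ξ‖) := by gcongr
      _ = _ := by ring

/-- The new similarity. Recipe: with `U = (1 - T)⁻¹` and `Y = π y`,
`(1 - T) Y U = Y - [T, Y] - [T, Y] T U`; `[a, [T, Y]] ξ = a T Y ξ + Y T a ξ - T Y a ξ` as `T ξ = 0`;
the last term contributes an operator of norm `≤ 2 ‖a‖ · 2 ‖T‖ · 2 ‖y‖ · 2 ‖T‖` commuting with the
central projections. -/
theorem FinD.Sm.Loc.step {D : FinD M N ξ e} {s s' : D.Sm} (he : e ≤ 1 / 100) {T : Op H}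
    {β τ : ℝ} (hτ : τ ≤ 1 / 2) (hT : ‖T‖ ≤ τ) (hG : ∀ g, Commute (D.gu g) T) (h0 : T ξ = 0)
    (hS : s'.S = (1 - T) * s.S)
    (h : ∀ z, CP M z → ∀ a ∈ M, ∀ y ∈ N.commutant, ‖z (s.dfc T a y)‖ ≤ β * ‖a‖ * ‖y‖ * ‖z ξ‖) :
    s'.Loc (β + 16 * τ ^ 2) := by
  intro z hz a ha y hy
  have hc : Cen M z := hz.2
  obtain ⟨U, hU⟩ : ∃ U, U = s.S * s'.S' := ⟨_, rfl⟩
  have hU1 : (1 - T) * U = 1 := by rw [hU, ← mul_assoc, ← hS, s'.SS']
  have hU2 : U * (1 - T) = 1 := by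
    calc U * (1 - T) = U * ((1 - T) * s.S) * s.S' := by
          rw [mul_assoc, mul_assoc, s.SS', mul_one]
      _ = 1 := by rw [← hS, hU, mul_assoc s.S, s'.S'S, mul_one, s.SS']
  have hU3 : U = 1 + T * U := by rw [← hU1, sub_mul, one_mul, sub_add_cancel]
  have hτ0 : 0 ≤ τ := (norm_nonneg _).trans hT
  have hUn : ‖U‖ ≤ 2 := by
    have h1 := norm_add_le (1 : Op H) (T * U)
    rw [← hU3] at h1
    have h2 : ‖(1 : Op H)‖ ≤ 1 := ContinuousLinearMap.norm_id_le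
    have h3 := (norm_mul_le T U).trans (mul_le_mul_of_nonneg_right (hT.trans hτ) (norm_nonneg U))
    linarith
  have hzT : Commute z T := D.cenG T hG z hc
  have hzU : Commute z U := by
    have h1 : Commute z (1 - T) := (Commute.one_right z).sub_right hzT
    calc z * U = U * (1 - T) * z * U := by rw [hU2, one_mul]
      _ = U * z * ((1 - T) * U) := by rw [mul_assoc U, ← h1.eq]; simp only [mul_assoc]
      _ = U * z := by rw [hU1, mul_one]
  have hzY := s.commute_cen_π hc hy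
  have hza : Commute z a := (mem_comm.1 hc.2 a ha).symm
  have hYn := s.norm_π_le he y
  have h' := h z hz a ha y hy
  have hπ : s'.π y = (1 - T) * s.π y * U := by
    unfold FinD.Sm.π
    rw [hS, hU]
    simp only [mul_assoc]
    rw [← mul_assoc s.S', s.S'S, one_mul]
  unfold FinD.Sm.dfc at h'
  generalize s.π y = Y at *
  obtain ⟨R, hR⟩ : ∃ R, R = (T * Y - Y * T) * T * U := ⟨_, rfl⟩
  have hY' : (1 - T) * Y * U = Y - (T * Y - Y * T) - R := by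
    have e : (1 - T) * Y * U = Y * ((1 - T) * U) - (T * Y - Y * T) * U := by noncomm_ring
    rw [e, hU1, mul_one, hR, sub_sub, mul_assoc, ← mul_one_add, ← hU3]
  have hzR : Commute z (a * R - R * a) := by
    have h1 : Commute z R := hR ▸ (((hzT.mul_right hzY).sub_right (hzY.mul_right hzT)).mul_right
      hzT).mul_right hzU
    exact (hza.mul_right h1).sub_right (h1.mul_right hza)
  have hRn : ‖R‖ ≤ 8 * τ ^ 2 * ‖y‖ := by
    have h1 : ‖T * Y - Y * T‖ ≤ 4 * τ * ‖y‖ := by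
      have a1 := (norm_mul_le T Y).trans (mul_le_mul hT hYn (norm_nonneg _) hτ0)
      have a2 := (norm_mul_le Y T).trans (mul_le_mul hYn hT (norm_nonneg _) (by positivity))
      linarith [norm_sub_le (T * Y) (Y * T)]
    rw [hR]
    refine (norm_mul_le _ _).trans ((mul_le_mul ((norm_mul_le _ _).trans
      (mul_le_mul h1 hT (norm_nonneg _) (by positivity))) hUn (norm_nonneg _)
      (by positivity)).trans_eq (by ring))
  have hcn : ‖a * R - R * a‖ ≤ 16 * τ ^ 2 * ‖a‖ * ‖y‖ := by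
    have a1 := (norm_mul_le a R).trans (mul_le_mul_of_nonneg_left hRn (norm_nonneg _))
    have a2 := (norm_mul_le R a).trans (mul_le_mul_of_nonneg_right hRn (norm_nonneg _))
    linarith [norm_sub_le (a * R) (R * a)]
  have e : z ((a * (Y - (T * Y - Y * T) - R) - (Y - (T * Y - Y * T) - R) * a) ξ) =
      z ((a * Y - Y * a) ξ - (a (T (Y ξ)) + Y (T (a ξ)) - T (Y (a ξ)))) - (a * R - R * a) (z ξ) := by
    rw [← mul_apply_eq_comp (a * R - R * a), ← hzR.eq, mul_apply_eq_comp, ← map_sub]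
    congr 1
    simp only [mul_sub, sub_mul, sub_apply, mul_apply_eq_comp, h0, map_zero]
    abel
  rw [hπ, hY', e]
  have h1 := (a * R - R * a).le_of_opNorm_le hcn (z ξ)
  exact (norm_sub_le _ _).trans (by linarith)

theorem Fin4_inv {S : Op H} {δ : ℝ} (hδ : δ ≤ 1 / 2) (h : ‖S - 1‖ ≤ δ) :
    ∃ v : (Op H)ˣ, (v : Op H) = S ∧ ‖((v⁻¹ :) : Op H) - 1‖ ≤ 2 * δ := by
  have h1 : ‖1 - S‖ ≤ δ := by rwa [norm_sub_rev]
  obtain ⟨v, rfl⟩ : ∃ v : (Op H)ˣ, (v : Op H) = S :=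
    ⟨Units.oneSub (1 - S) (by linarith), by simp⟩
  refine ⟨v, rfl, ?_⟩
  have e1 : ((v⁻¹ :) : Op H) - 1 = ((v⁻¹ :) - 1) * (1 - v) + (1 - v) := by
    rw [sub_mul, one_mul, sub_add_cancel, mul_sub, mul_one, v.inv_mul]
  have h2 := norm_add_le ((((v⁻¹ :) : Op H) - 1) * (1 - v)) (1 - v)
  rw [← e1] at h2
  have h3 := (norm_mul_le (((v⁻¹ :) : Op H) - 1) _).trans
    (mul_le_mul_of_nonneg_left (h1.trans hδ) (norm_nonneg _))
  linarith

/-- Recipe: `newton` in `Op H` from `S = 1`, with `D S d` saying that `S` commutes with the group,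
fixes `ξ`, and that the local defect of `y ↦ S y (Ring.inverse S)` is at most `d`; use
`D.mono (γ ≤ e₀)`, radius `r = e₀/2`, `d₀ = 2γ`. In the limit `[a, S y S⁻¹] ξ = 0` for all `a ∈ M`,
hence `[a, S y S⁻¹] = 0` (test on `b ξ`), and `θ a = S⁻¹ a S ∈ N`. -/
theorem fin_newton : ∃ C > 0, ∃ γ₀ > 0, ∀ {H : Type u} [NormedAddCommGroup H]
    [InnerProductSpace ℂ H] [CompleteSpace H] {M N : VN H} {ξ : H} {γ : ℝ} (_ : FinD M N ξ γ),
    0 ≤ γ → γ ≤ γ₀ → LinNear M N (C * γ) := by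
  obtain ⟨C, hC, e₀, he₀, hglue⟩ := fin_glue.{u}
  obtain ⟨e, he0, he1, he2⟩ : ∃ e : ℝ, 0 < e ∧ e ≤ e₀ ∧ e ≤ 1 / 100 :=
    ⟨min e₀ (1 / 100), by positivity, min_le_left _ _, min_le_right _ _⟩
  refine ⟨40 * C, by positivity, min e (min (e / (32 * C)) (1 / (128 * C ^ 2))), by positivity, ?_⟩
  intro H _ _ _ M N ξ γ D₀ hγ0 hγ
  have hγ1 : γ ≤ e := hγ.trans (min_le_left _ _)
  have hγ2 : γ * (32 * C) ≤ e :=
    (le_div_iff₀ (by positivity)).1 (hγ.trans ((min_le_right _ _).trans (min_le_left _ _)))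
  have hγ3 : γ * (128 * C ^ 2) ≤ 1 :=
    (le_div_iff₀ (by positivity)).1 (hγ.trans ((min_le_right _ _).trans (min_le_right _ _)))
  let D := D₀.mono hγ1
  obtain ⟨x, S, hx, hS, -, hD⟩ := newton (fun (S : Op H) d => ∃ s : D.Sm, s.S = S ∧ s.Loc d) 1
    (d₀ := 2 * γ) (C := 2 * C) (r := e / 4) (by positivity) (by positivity) (by linarith)
    (by
      refine ⟨⟨1, 1, mul_one _, mul_one _, by simpa using he0.le, by simpa using he0.le,
        fun g => ⟨Commute.one_right _, Commute.one_right _⟩, rfl⟩, rfl, fun z hz a ha y hy => ?_⟩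
      obtain ⟨y', hy', h1⟩ := D₀.near' y hy
      have hzy : Commute z y := mem_comm.1 hy z (D₀.cen_N hz.2).1
      have hza : Commute z a := (mem_comm.1 hz.2.2 a ha).symm
      have h2 : ‖a * y - y * a‖ ≤ 2 * γ * ‖a‖ * ‖y‖ := by
        have e1 : a * y - y * a = a * (y - y') - (y - y') * a := by
          rw [mul_sub, sub_mul, (mem_comm.1 hy' a ha).eq]
          abel
        have a1 := (norm_mul_le a _).trans (mul_le_mul_of_nonneg_left h1 (norm_nonneg _))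
        have a2 := (norm_mul_le _ a).trans (mul_le_mul_of_nonneg_right h1 (norm_nonneg _))
        rw [e1]
        linarith [norm_sub_le (a * (y - y')) ((y - y') * a)]
      change ‖z ((a * (1 * y * 1) - 1 * y * 1 * a) ξ)‖ ≤ _
      rw [one_mul, mul_one, ← mul_apply_eq_comp,
        ((hza.mul_right hzy).sub_right (hzy.mul_right hza)).eq]
      exact (a * y - y * a).le_of_opNorm_le h2 (z ξ))
    (by
      rintro _ d hr hd0 hd ⟨s, rfl, hs⟩
      obtain ⟨T, hT, hG, hξ, hdf⟩ := hglue s he0 he1 hd0 hs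
      have hCd : C * d ≤ C * (2 * γ) := mul_le_mul_of_nonneg_left hd hC.le
      have h1 : dist ((1 - T) * s.S) s.S ≤ 2 * C * d := by
        have a1 : ‖s.S‖ ≤ 2 := by
          have a2 : ‖(1 : Op H)‖ ≤ 1 := ContinuousLinearMap.norm_id_le
          linarith [norm_le_norm_add_norm_sub' s.S 1, s.nS]
        rw [dist_eq_norm, sub_mul, one_mul, sub_sub_cancel_left, norm_neg]
        exact (norm_mul_le _ _).trans ((mul_le_mul hT a1 (norm_nonneg _) (by positivity)).trans_eq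
          (by ring))
      have h2 : ‖(1 - T) * s.S - 1‖ ≤ e / 2 := by
        rw [← dist_eq_norm]
        linarith [dist_triangle ((1 - T) * s.S) s.S 1]
      obtain ⟨v, hv, hv'⟩ := Fin4_inv (by linarith) h2
      let s' : D.Sm := ⟨(1 - T) * s.S, (v⁻¹ :), by rw [← hv, v.mul_inv], by rw [← hv, v.inv_mul],
        by linarith, by linarith,
        fun g => ⟨((Commute.one_right _).sub_right (hG g).1).mul_right (s.cG g).1,
          ((Commute.one_right _).sub_right (hG g).2).mul_right (s.cG g).2⟩,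
        by rw [mul_apply_eq_comp, s.Sξ, sub_apply, hξ, sub_zero, one_apply_eq_self]⟩
      refine ⟨_, h1, s', rfl, fun z hz a ha y hy => ?_⟩
      refine (FinD.Sm.Loc.step (s := s) (s' := s') he2 (by linarith) hT (fun g => (hG g).1) hξ rfl
        hdf z hz a ha y hy).trans ?_
      have h3 : d / 4 + 16 * (C * d) ^ 2 ≤ d / 2 := by
        have a1 : d * (C ^ 2 * d) ≤ d * (C ^ 2 * (2 * γ)) := by gcongr
        have a2 : d * (γ * (128 * C ^ 2)) ≤ d * 1 := by gcongr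
        nlinarith
      gcongr)
  choose s hs1 hs2 using hD
  rw [dist_eq_norm] at hx
  obtain ⟨v, rfl, hv'⟩ := Fin4_inv (by linarith) hx
  have hS' : Tendsto (fun n => (s n).S') atTop (𝓝 (v⁻¹ :)) := by
    have h1 := (NormedRing.inverse_continuousAt v).tendsto.comp hS
    rw [Ring.inverse_unit] at h1
    refine h1.congr fun n => ?_
    rw [Function.comp_apply, ← hs1]
    exact Ring.inverse_unit ⟨_, _, (s n).SS', (s n).S'S⟩
  have hξ : ∀ y ∈ N.commutant, ∀ a ∈ M,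
      a (((v : Op H) * y * (v⁻¹ :)) ξ) = ((v : Op H) * y * (v⁻¹ :)) (a ξ) := by
    intro y hy a ha
    have h1 : Tendsto (fun n => (s n).π y) atTop (𝓝 ((v : Op H) * y * (v⁻¹ :))) := by
      unfold FinD.Sm.π
      simp only [hs1]
      exact (hS.mul_const y).mul hS'
    have h2 := ((ContinuousLinearMap.apply ℂ H ξ).continuous.tendsto _).comp
      ((h1.const_mul a).sub (h1.mul_const a))
    have h3 : Tendsto (fun n : ℕ => 2 * γ / 2 ^ n * ‖a‖ * ‖y‖ * ‖ξ‖) atTop (𝓝 0) := by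
      have := (((tendsto_const_nhds (x := 2 * γ)).div_atTop
        (tendsto_pow_atTop_atTop_of_one_lt one_lt_two)).mul_const ‖a‖).mul_const ‖y‖
      simpa using this.mul_const ‖ξ‖
    have h4 := squeeze_zero_norm (fun n => hs2 n 1 ⟨.one _, one_mem _, one_mem _⟩ a ha y hy) h3
    exact sub_eq_zero.1 (tendsto_nhds_unique h2 h4)
  have hcm : ∀ y ∈ N.commutant, ∀ a ∈ M, Commute a ((v : Op H) * y * (v⁻¹ :)) := by
    intro y hy a ha
    refine D.tr.cyc.ext fun b hb => ?_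
    rw [mul_apply_eq_comp, mul_apply_eq_comp _ a, ← hξ y hy b hb, ← mul_apply_eq_comp a b,
      ← mul_apply_eq_comp a b, hξ y hy _ (mul_mem ha hb)]
  refine ⟨LinearMap.mulRight ℂ (v : Op H) ∘ₗ LinearMap.mulLeft ℂ ((v⁻¹ :) : Op H) ∘ₗ
    ⟨⟨fun a : Alg M => (a : Op H), fun _ _ => rfl⟩, fun _ _ => rfl⟩, fun a => ?_, fun a => ?_⟩
  · change ((v⁻¹ :) : Op H) * a * v ∈ N
    rw [← N.commutant_commutant, mem_comm]
    intro y hy
    calc y * ((v⁻¹ :) * a * v) = (v⁻¹ :) * ((v : Op H) * y * (v⁻¹ :) * a) * v := by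
          simp only [← mul_assoc, v.inv_mul, one_mul]
      _ = (v⁻¹ :) * a * v * y := by
          rw [← (hcm y hy a a.2).eq]
          simp only [mul_assoc, v.inv_mul, mul_one]
  · change ‖((v⁻¹ :) : Op H) * a * v - a‖ ≤ 40 * C * γ * ‖(a : Op H)‖
    have e1 : ((v⁻¹ :) : Op H) * a * v - a = ((v⁻¹ :) - 1) * a * v + a * (v - 1) := by noncomm_ring
    have a1 : ‖(v : Op H)‖ ≤ 2 := by
      have a2 : ‖(1 : Op H)‖ ≤ 1 := ContinuousLinearMap.norm_id_le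
      linarith [norm_le_norm_add_norm_sub' (v : Op H) 1]
    have a2 := (norm_mul_le _ (v : Op H)).trans (mul_le_mul ((norm_mul_le _ (a : Op H)).trans
      (mul_le_mul_of_nonneg_right hv' (norm_nonneg _))) a1 (norm_nonneg _) (by positivity))
    have a3 := (norm_mul_le (a : Op H) _).trans (mul_le_mul_of_nonneg_left hx (norm_nonneg _))
    rw [e1]
    exact (norm_add_le _ _).trans (by linarith)

/-- `exists_finD`, `fin_newton`, `LinNear.of_conj`. -/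
theorem solv_q : Solv KKQ.{u} := by
  intro ε hε
  obtain ⟨C₁, hC₁, γ₁, hγ₁, h₁⟩ := exists_finD.{u}
  obtain ⟨C₂, hC₂, γ₂, hγ₂, h₂⟩ := fin_newton.{u}
  refine ⟨min γ₁ (min (γ₂ / C₁) (ε / (C₂ * C₁ + 2 * C₁))), by positivity, ?_⟩
  intro H _ _ _ _ M N ξ X Z a1 a2 a3 a4 a5
  obtain ⟨u, hu, ⟨D⟩⟩ := h₁ (by positivity) (min_le_left _ _) a1 a2 a3 a4 a5
  refine ((h₂ D (by positivity) ((le_div_iff₀' hC₁).1
    ((min_le_right _ _).trans (min_le_left _ _)))).of_conj hu).mono ?_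
  have := (le_div_iff₀' (by positivity : 0 < C₂ * C₁ + 2 * C₁)).1
    ((min_le_right γ₁ _).trans (min_le_right (γ₂ / C₁) (ε / (C₂ * C₁ + 2 * C₁))))
  linarith

end

end Crest.Agent.R78
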