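import Crest.Agent.R78.Basic

/-!
# Row 78: abstract part of the Rieffel–van Daele construction (two real projections, polar
decomposition of their difference)
-/

open scoped InnerProductSpace Topology ComplexConjugate
open Complex (I)

set_option linter.unusedSectionVars false

namespace Crest.Agent.R78

noncomputable section

variable {H : Type*} [NormedAddCommGroup H] [InnerProductSpace ℂ H] [CompleteSpace H]

theorem rv_smul (c : ℂ) (v : H) : c • v = c.re • v + c.im • (I • v) := by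
  conv_lhs => rw [← Complex.re_add_im c]
  rw [add_smul, mul_smul, Complex.coe_smul, Complex.coe_smul]

theorem rv_II (v : H) : I • I • v = -v := by
  rw [smul_smul, Complex.I_mul_I, neg_one_smul]

theorem rv_re_I_left (v w : H) : (⟪I • v, w⟫_ℂ).re = (⟪v, w⟫_ℂ).im := by
  rw [inner_smul_left]
  simp

theorem rv_re_I_right (v w : H) : (⟪v, I • w⟫_ℂ).re = -(⟪v, w⟫_ℂ).im := by
  rw [inner_smul_right]
  simp

theorem rv_re_symm (v w : H) : (⟪v, w⟫_ℂ).re = (⟪w, v⟫_ℂ).re := by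
  rw [← inner_conj_symm v w, Complex.conj_re]

theorem rv_im_symm (v w : H) : (⟪v, w⟫_ℂ).im = -(⟪w, v⟫_ℂ).im := by
  rw [← inner_conj_symm v w, Complex.conj_im]

theorem rv_re_self (v : H) : (⟪v, v⟫_ℂ).re = ‖v‖ ^ 2 := inner_self_eq_norm_sq (𝕜 := ℂ) v

theorem rv_ext {v w : H} (h : ∀ u, (⟪v, u⟫_ℂ).re = (⟪w, u⟫_ℂ).re) : v = w := by
  have h1 := h (v - w)
  have h2 : ‖v - w‖ ^ 2 = 0 := by
    rw [← rv_re_self, inner_sub_left, Complex.sub_re, h1, sub_self]
  exact sub_eq_zero.1 (norm_eq_zero.1 (pow_eq_zero_iff two_ne_zero |>.1 h2))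

theorem rv_lin (F : H →L[ℝ] H) (h : ∀ v, F (I • v) = I • F v) : ∃ R : Op H, ∀ v, R v = F v :=
  ⟨{ toFun := F
     map_add' := F.map_add
     map_smul' := fun c v => by
       rw [RingHom.id_apply, rv_smul c v, rv_smul c (F v), map_add, map_smul, map_smul, h]
     cont := F.continuous }, fun _ => rfl⟩

theorem rv_alin (F : H →L[ℝ] H) (h : ∀ v, F (I • v) = -(I • F v)) :
    ∃ C : H →L⋆[ℂ] H, ∀ v, C v = F v :=
  ⟨{ toFun := F
     map_add' := F.map_add
     map_smul' := fun c v => by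
       rw [rv_smul c v, rv_smul _ (F v), map_add, map_smul, map_smul, h]
       simp
     cont := F.continuous }, fun _ => rfl⟩

/-- a real orthogonal projection -/
structure RP (P : H →L[ℝ] H) : Prop where
  idem : ∀ v, P (P v) = P v
  symm : ∀ v w, (⟪P v, w⟫_ℂ).re = (⟪v, P w⟫_ℂ).re

theorem RP.re_self {P : H →L[ℝ] H} (h : RP P) (v : H) : (⟪P v, v⟫_ℂ).re = ‖P v‖ ^ 2 := by
  rw [← rv_re_self, ← h.symm (P v) v, h.idem]

theorem RP.one_sub {P : H →L[ℝ] H} (h : RP P) : RP (ContinuousLinearMap.id ℝ H - P) where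
  idem v := by simp [h.idem]
  symm v w := by simp [h.symm]

theorem RP.exists_Q {P : H →L[ℝ] H} (h : RP P) :
    ∃ Q : H →L[ℝ] H, (∀ v, Q v = -(I • P (I • v))) ∧ RP Q := by
  let m : H →L[ℝ] H := (I • ContinuousLinearMap.id ℂ H).restrictScalars ℝ
  have e : ∀ v, (-(m ∘L P ∘L m)) v = -(I • P (I • v)) := fun _ => rfl
  refine ⟨-(m ∘L P ∘L m), e, fun v => ?_, fun v w => ?_⟩
  · rw [e, e, smul_neg, rv_II, neg_neg, h.idem]
  · rw [e, e, inner_neg_left, inner_neg_right, Complex.neg_re, Complex.neg_re, rv_re_I_left,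
      rv_re_I_right, ← rv_re_I_right, h.symm, ← rv_re_I_left v, neg_neg, rv_re_I_left,
      ← rv_re_I_left v]

theorem rv_sa {R : Op H} (h : ∀ v w, (⟪R v, w⟫_ℂ).re = (⟪v, R w⟫_ℂ).re) : IsSelfAdjoint R := by
  rw [ContinuousLinearMap.isSelfAdjoint_iff_isSymmetric]
  intro v w
  refine Complex.ext (h v w) ?_
  have := h (I • v) w
  rwa [map_smul, rv_re_I_left, rv_re_I_left] at this

theorem rv_pos {P Q : H →L[ℝ] H} (hP : RP P) (hQ : RP Q) {R : Op H} (hR : ∀ v, R v = P v + Q v) :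
    0 ≤ R ∧ ∀ v, R v = 0 → P v = 0 ∧ Q v = 0 := by
  have e : ∀ v, (⟪R v, v⟫_ℂ).re = ‖P v‖ ^ 2 + ‖Q v‖ ^ 2 := fun v => by
    rw [hR, inner_add_left, Complex.add_re, hP.re_self, hQ.re_self]
  constructor
  · rw [ContinuousLinearMap.nonneg_iff_isPositive, ContinuousLinearMap.isPositive_def']
    refine ⟨rv_sa fun v w => ?_, fun v => ?_⟩
    · rw [hR, hR, inner_add_left, inner_add_right, Complex.add_re, Complex.add_re, hP.symm, hQ.symm]
    · exact le_of_le_of_eq (by positivity) (e v).symm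
  · intro v hv
    have h := e v
    rw [hv, inner_zero_left, Complex.zero_re] at h
    constructor
    · exact norm_eq_zero.1 (by nlinarith [sq_nonneg ‖P v‖, sq_nonneg ‖Q v‖])
    · exact norm_eq_zero.1 (by nlinarith [sq_nonneg ‖P v‖, sq_nonneg ‖Q v‖])

/-- a conjugate linear operator commuting with `S = S⋆` commutes with `f(S)` for real `f` -/
theorem rv_cfc_comm (C : H →L⋆[ℂ] H) {S : Op H} (hS : IsSelfAdjoint S)
    (h : ∀ v, C (S v) = S (C v)) {f : ℝ → ℝ} (hf : Continuous f) (v : H) :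
    C (cfc f S v) = cfc f S (C v) := by
  have key : ∀ g : C(spectrum ℝ S, ℝ), ∀ v, C (cfcHom hS g v) = cfcHom hS g (C v) := by
    intro g
    open scoped ContinuousFunctionalCalculus in
    induction g using ContinuousMap.induction_on_of_compact with
    | const r =>
      intro v
      have e : cfcHom hS (ContinuousMap.const (spectrum ℝ S) r) = algebraMap ℝ (Op H) r :=
        AlgHomClass.commutes (cfcHom hS) r
      rw [e, Algebra.algebraMap_eq_smul_one, ← Complex.coe_smul, smul_apply, smul_apply,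
        one_apply_eq_self, one_apply_eq_self, map_smulₛₗ, Complex.conj_ofReal]
    | id => rwa [cfcHom_id hS]
    | star_id => rwa [map_star, cfcHom_id, hS.star_eq]
    | add f g hf hg =>
      intro v
      rw [map_add, add_apply, add_apply, map_add, hf, hg]
    | mul f g hf hg =>
      intro v
      rw [map_mul, mul_apply_eq_comp, mul_apply_eq_comp, hf, hg]
    | frequently f hf =>
      have hc : IsClosed {x : Op H | ∀ v, C (x v) = x (C v)} := by
        rw [Set.ofPred_forall]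
        exact isClosed_iInter fun v => isClosed_eq (by fun_prop) (by fun_prop)
      have : cfcHom hS f ∈ closure {x : Op H | ∀ v, C (x v) = x (C v)} :=
        mem_closure_of_frequently_of_tendsto hf ((cfcHom_continuous hS).tendsto _)
      rwa [hc.closure_eq] at this
  rw [cfc_apply f S hS hf.continuousOn]
  exact key _ v

theorem rv_dense {T : Op H} (hT : IsSelfAdjoint T) (h : ∀ v, T v = 0 → v = 0) : DenseRange T := by
  have h1 : T.range.topologicalClosure = ⊤ := by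
    rw [Submodule.topologicalClosure_eq_top_iff, ContinuousLinearMap.orthogonal_range,
      ← ContinuousLinearMap.star_eq_adjoint, hT.star_eq]
    exact LinearMap.ker_eq_bot'.2 h
  exact Submodule.dense_iff_topologicalClosure_eq_top.2 h1

/-- polar decomposition `C = J T = T J` of a conjugate linear symmetric operator -/
theorem rv_polar (C : H →L⋆[ℂ] H) {T : Op H} (hT : IsSelfAdjoint T) (hi : ∀ v, T v = 0 → v = 0)
    (hs : ∀ v w, (⟪C v, w⟫_ℂ).re = (⟪v, C w⟫_ℂ).re) (hCC : ∀ v, C (C v) = T (T v))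
    (hCT : ∀ v, C (T v) = T (C v)) :
    ∃ J : H ≃ₗᵢ⋆[ℂ] H, (∀ v, J (J v) = v) ∧ (∀ v, J (T v) = C v) ∧ ∀ v, T (J v) = C v := by
  have hd := rv_dense hT hi
  have hn : ∀ v, ‖C v‖ = ‖T v‖ := fun v => by
    have : ‖C v‖ ^ 2 = ‖T v‖ ^ 2 := by
      rw [← rv_re_self, ← rv_re_self, hs, hCC, ← bas_inner_star, hT.star_eq]
    exact (pow_left_inj₀ (norm_nonneg _) (norm_nonneg _) two_ne_zero).1 this
  let J₀ : H →L⋆[ℂ] H := (C : H →ₗ⋆[ℂ] H).extendOfNorm (T : H →ₗ[ℂ] H)
  have h1 : ∀ v, J₀ (T v) = C v := fun v =>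
    LinearMap.extendOfNorm_eq (f := (C : H →ₗ⋆[ℂ] H)) (e := (T : H →ₗ[ℂ] H)) hd
      ⟨1, fun x => by rw [one_mul]; exact (hn x).le⟩ v
  have h2 : ∀ v, ‖J₀ v‖ = ‖v‖ := fun v =>
    hd.induction_on v (isClosed_eq (by fun_prop) (by fun_prop)) fun v => by rw [h1, hn]
  have h3 : ∀ v, T (J₀ v) = C v := fun v =>
    hd.induction_on v (isClosed_eq (by fun_prop) (by fun_prop)) fun v => by rw [h1, hCT]
  have h4 : ∀ v, J₀ (J₀ v) = v := fun v => hi _ ?_ |> sub_eq_zero.1
  · let J₁ : H →ₗᵢ⋆[ℂ] H := ⟨(J₀ : H →ₗ⋆[ℂ] H), h2⟩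
    exact ⟨LinearIsometryEquiv.ofSurjective J₁ fun v => ⟨J₀ v, h4 v⟩, h4, h1, h3⟩
  · refine hi _ ?_
    rw [map_sub, map_sub, h3, ← hCT, h3, hCC, sub_self]

/-- the square roots `√R`, `√(2 - R)` and their product -/
theorem rv_sqrt {R : Op H} (h0 : 0 ≤ R) (h2 : R ≤ 2) :
    cfc (fun r : ℝ => √r) R * cfc (fun r : ℝ => √r) R = R ∧
    cfc (fun r : ℝ => √(2 - r)) R * cfc (fun r : ℝ => √(2 - r)) R = 2 - R ∧
    cfc (fun r : ℝ => √(r * (2 - r))) R = cfc (fun r : ℝ => √r) R * cfc (fun r : ℝ => √(2 - r)) R ∧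
    cfc (fun r : ℝ => √(r * (2 - r))) R = cfc (fun r : ℝ => √(2 - r)) R * cfc (fun r : ℝ => √r) R ∧
    cfc (fun r : ℝ => √(r * (2 - r))) R = cfc (fun r : ℝ => √r) (R * (2 - R)) := by
  have hs : IsSelfAdjoint R := .of_nonneg h0
  have s0 : ∀ r ∈ spectrum ℝ R, 0 ≤ r := fun r hr => spectrum_nonneg_of_nonneg h0 hr
  have e2 : (2 : Op H) = algebraMap ℝ (Op H) 2 := (map_ofNat _ 2).symm
  have s2 : ∀ r ∈ spectrum ℝ R, r ≤ 2 := by
    rw [e2] at h2
    exact (le_algebraMap_iff_spectrum_le hs).1 h2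
  have e : cfc (fun r : ℝ => 2 - r) R = 2 - R := by
    rw [cfc_sub .., cfc_const 2 R, cfc_id' ℝ R, e2]
  refine ⟨?_, ?_, ?_, ?_, ?_⟩
  · rw [← cfc_mul ..]
    conv_rhs => rw [← cfc_id' ℝ R]
    exact cfc_congr fun r hr => Real.mul_self_sqrt (s0 r hr)
  · rw [← cfc_mul .., ← e]
    exact cfc_congr fun r hr => Real.mul_self_sqrt (sub_nonneg.2 (s2 r hr))
  · rw [← cfc_mul ..]
    exact cfc_congr fun r hr => Real.sqrt_mul (s0 r hr) _
  · rw [← cfc_mul ..]
    exact cfc_congr fun r hr => by rw [mul_comm (√(2 - r))]; exact Real.sqrt_mul (s0 r hr) _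
  · have e3 : cfc (fun r : ℝ => r * (2 - r)) R = R * (2 - R) := by
      rw [cfc_mul .., cfc_id' ℝ R, e]
    rw [← e3, ← cfc_comp' ..]

end

end Crest.Agent.R78
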