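import Crest.Agent.R78.Proj
import Crest.Agent.R78.Gen
import Crest.Agent.R78.RvDAux

/-!
# Row 78: the Rieffel–van Daele operators
-/

open scoped InnerProductSpace Topology ComplexConjugate
open Filter MeasureTheory
open Complex (I)

set_option linter.unusedSectionVars false

namespace Crest.Agent.R78

open Crest.Agent.R121 (Alg)

noncomputable section

universe u

variable {H : Type*} [NormedAddCommGroup H] [InnerProductSpace ℂ H] [CompleteSpace H]

/-- The Rieffel–van Daele data: `R = P + Q`, `P - Q = J T`, `T = √R √(2 - R)`. -/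
structure RvD (A B : VN H) (ξ : H) where
  /-- `R = P + Q` -/
  R : Op H
  /-- the conjugation -/
  J : H ≃ₗᵢ⋆[ℂ] H
  nonneg : 0 ≤ R
  le_two : R ≤ 2
  inj : ∀ v, R v = 0 → v = 0
  inj' : ∀ v, (2 - R) v = 0 → v = 0
  JJ : ∀ v, J (J v) = v
  Jξ : J ξ = ξ
  Rξ : R ξ = ξ
  JR : ∀ v, J (R v) = (2 - R) (J v)
  srel : ∀ x ∈ A, cfc (fun r : ℝ => √(2 - r)) R (x ξ) = cfc (fun r : ℝ => √r) R (J (star x ξ))
  frel : ∀ y ∈ B, cfc (fun r : ℝ => √r) R (y ξ) = cfc (fun r : ℝ => √(2 - r)) R (J (star y ξ))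
  proj : ∀ (v : H), ∀ b ∈ A,
    (∀ a ∈ A, ⟪a ξ, v⟫_ℂ = ⟪a ξ, b ξ⟫_ℂ + ⟪star b ξ, star a ξ⟫_ℂ) →
      R v = (2 : ℂ) • b ξ ∧ J (cfc (fun r : ℝ => √(r * (2 - r))) R v) = (2 : ℂ) • star b ξ
  real : ∀ x ∈ A, ∀ y ∈ A, IsSelfAdjoint x → IsSelfAdjoint y → (⟪J (x ξ), y ξ⟫_ℂ).im = 0
  cenR : ∀ z, Cen A z → Commute z R
  cenJ : ∀ z, Cen A z → jc J z = star z
  trace : Trc A ξ → R = 1

/-- The two real projections. `P` is the real orthogonal projection onto
`K = closure {x ξ : x = x⋆ ∈ A}` (use `letI := InnerProductSpace.rclikeToReal ℂ H`), recorded through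
its properties. -/
theorem exists_realProj (A : VN H) (ξ : H) :
    ∃ P : H →L[ℝ] H, (∀ v, P (P v) = P v) ∧ (∀ v w, (⟪P v, w⟫_ℂ).re = (⟪v, P w⟫_ℂ).re) ∧
      (∀ x ∈ A, IsSelfAdjoint x → P (x ξ) = x ξ) ∧
      (∀ v, (∀ x ∈ A, IsSelfAdjoint x → (⟪x ξ, v⟫_ℂ).re = 0) → P v = 0) := by
  let _ := InnerProductSpace.rclikeToReal ℂ H
  let S : Set H := {v | ∃ x ∈ A, IsSelfAdjoint x ∧ v = x ξ}
  let K : Submodule ℝ H := (Submodule.span ℝ S).topologicalClosure
  have hK : ∀ x ∈ A, IsSelfAdjoint x → x ξ ∈ K := fun x hx hs =>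
    Submodule.le_topologicalClosure _ (Submodule.subset_span ⟨x, hx, hs, rfl⟩)
  refine ⟨K.starProjection, fun v => ?_, fun v w => K.inner_starProjection_left_eq_right v w,
    fun x hx hs => Submodule.starProjection_eq_self_iff.2 (hK x hx hs), fun v hv => ?_⟩
  · exact Submodule.starProjection_eq_self_iff.2 (K.starProjection_apply_mem v)
  · refine (Submodule.starProjection_apply_eq_zero_iff K).2 ?_
    rw [Submodule.orthogonal_closure, Submodule.mem_orthogonal]
    intro u hu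
    induction hu using Submodule.span_induction with
    | mem u hu =>
      obtain ⟨x, hx, hs, rfl⟩ := hu
      exact hv x hx hs
    | zero => exact inner_zero_left v
    | add a b _ _ ha hb => rw [inner_add_left, ha, hb, add_zero]
    | smul c a _ ha => rw [real_inner_smul_left, ha, mul_zero]

/-- real and imaginary parts, inside any von Neumann algebra -/
theorem rv_decomp (x : Op H) : ∃ a b : Op H, IsSelfAdjoint a ∧ IsSelfAdjoint b ∧
    x = a + I • b ∧ star x = a - I • b ∧ ∀ P : VN H, x ∈ P → a ∈ P ∧ b ∈ P := by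
  refine ⟨(2 : ℂ)⁻¹ • (x + star x), (2⁻¹ * I) • (star x - x), ?_, ?_, ?_, ?_, fun P hx =>
    ⟨smul_mem' _ (add_mem hx (star_mem hx)), smul_mem' _ (sub_mem (star_mem hx) hx)⟩⟩
  · rw [IsSelfAdjoint, star_smul, star_add, star_star, add_comm]
    simp
  · rw [IsSelfAdjoint, star_smul, star_sub, star_star, ← neg_sub (star x), smul_neg, ← neg_smul]
    simp
  · rw [smul_smul, mul_left_comm, Complex.I_mul_I]
    module
  · rw [smul_smul, mul_left_comm, Complex.I_mul_I]
    module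

theorem rv_sa_inner {x : Op H} (hx : IsSelfAdjoint x) (v w : H) : ⟪x v, w⟫_ℂ = ⟪v, x w⟫_ℂ := by
  rw [← bas_inner_star, hx.star_eq]

/-- a vector orthogonal to `x ξ` for all self-adjoint `x ∈ A` vanishes -/
theorem rv_eq_zero {A : VN H} {ξ : H} (hA : Cyc A ξ) {v : H}
    (h : ∀ x ∈ A, IsSelfAdjoint x → (⟪x ξ, v⟫_ℂ).re = 0 ∧ (⟪x ξ, v⟫_ℂ).im = 0) : v = 0 := by
  refine hA.ext_inner fun x hx => ?_
  obtain ⟨a, b, ha, hb, e, -, hm⟩ := rv_decomp x
  have h1 : ⟪a ξ, v⟫_ℂ = 0 := Complex.ext (h a (hm A hx).1 ha).1 (h a (hm A hx).1 ha).2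
  have h2 : ⟪b ξ, v⟫_ℂ = 0 := Complex.ext (h b (hm A hx).2 hb).1 (h b (hm A hx).2 hb).2
  rw [e, add_apply, smul_apply, inner_add_left, inner_smul_left, h1, h2, inner_zero_right,
    mul_zero, add_zero]

theorem rv_inner_real {x y : Op H} (hx : IsSelfAdjoint x) (hy : IsSelfAdjoint y)
    (h : Commute x y) (ξ : H) : (⟪x ξ, y ξ⟫_ℂ).im = 0 := by
  have h1 : ⟪x ξ, y ξ⟫_ℂ = ⟪y ξ, x ξ⟫_ℂ := by
    rw [rv_sa_inner hx, rv_sa_inner hy, ← mul_apply_eq_comp, h.eq, mul_apply_eq_comp]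
  have h2 := rv_im_symm (x ξ) (y ξ)
  rw [← h1] at h2
  linarith

theorem rv_J_I (J : H ≃ₗᵢ⋆[ℂ] H) (v : H) : J (I • v) = -(I • J v) := by
  rw [map_smulₛₗ, Complex.conj_I, neg_smul]

/-- extension of the relations `S (x ξ) = T (J (x ξ))` from self-adjoint elements -/
theorem rv_rel {A : VN H} {ξ : H} {S T : Op H} {J : H ≃ₗᵢ⋆[ℂ] H}
    (h : ∀ x ∈ A, IsSelfAdjoint x → S (x ξ) = T (J (x ξ))) {x : Op H} (hx : x ∈ A) :
    S (x ξ) = T (J (star x ξ)) := by
  obtain ⟨a, b, ha, hb, e, e', hm⟩ := rv_decomp x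
  rw [e', e, add_apply, sub_apply, smul_apply, map_add, map_sub, rv_J_I, sub_neg_eq_add, map_add,
    map_smul, map_smul, h a (hm A hx).1 ha, h b (hm A hx).2 hb]

theorem rv_two (R : Op H) (v : H) : (2 - R) v = v + v - R v := by
  rw [sub_apply, ← one_add_one_eq_two, add_apply, one_apply_eq_self]

/-- Recipe (Rieffel–van Daele). `Q v = -i P(i v)`, `R = P + Q` is complex linear, `C = P - Q` is
conjugate linear; `re ⟪v, R v⟫ = ‖P v‖² + ‖Q v‖²`, `re ⟪v, (2-R) v⟫ = ‖v - P v‖² + ‖v - Q v‖²`;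
`C² = R (2 - R) = T²`, `C R = (2 - R) C`, `‖C v‖ = ‖T v‖`. Injectivity: `P v = Q v = 0` gives
`v ⊥ A ξ`; `P v = Q v = v` gives `v ⊥ B ξ` (`⟪x ξ, y ξ⟫` is real for self-adjoint `x ∈ A`, `y ∈ B`, so
`P (i y ξ) = 0`, `Q (y ξ) = 0`). `J` is defined on the dense range of `T` by `J T = C` (extend the real
linear isometry; `C f(R) = f(2 - R) C` for real continuous `f`, so `C T = T C`, `J T = T J`,
`J² = 1`). `srel`: for `k = x ξ`, `x = x⋆`: `(2 - R) k = C k = T J k`, cancel the injective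
`√(2-R)`. `frel`: `R k' = C k'`. `proj`: testing with self-adjoint `a` gives
`P v = (b + b⋆) ξ`, `Q v = (b - b⋆) ξ`. `real`: `J Q J = 1 - P` (from `P = (R + C)/2`,
`Q = (R - C)/2`, `J C J = C`), so `Q J k = 0` for `k ∈ K`. `cenR`, `cenJ`: a self-adjoint central
`z` maps `K` and `K^⊥` into themselves. `trace`: `⟪x ξ, y ξ⟫` is real for self-adjoint
`x, y ∈ A` (polarise `Trc` with `x + i y`), so `Q k = 0`, `R k = k`. -/
theorem exists_rvd {A B : VN H} (hB : A.commutant = B) {ξ : H} (hA : Cyc A ξ) (hB' : Cyc B ξ) :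
    Nonempty (RvD A B ξ) := by
  subst hB
  obtain ⟨P, p1, p2, p3, p4⟩ := exists_realProj A ξ
  have hP : RP P := ⟨p1, p2⟩
  obtain ⟨Q, q0, hQ⟩ := hP.exists_Q
  have qI : ∀ v, Q (I • v) = I • P v := fun v => by rw [q0, rv_II, map_neg, smul_neg, neg_neg]
  have pI : ∀ v, P (I • v) = I • Q v := fun v => by rw [q0, smul_neg, rv_II, neg_neg]
  obtain ⟨R, hR⟩ : ∃ R : Op H, ∀ v, R v = P v + Q v := rv_lin (P + Q) fun v => by
    rw [add_apply, add_apply, qI, pI, smul_add, add_comm]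
  obtain ⟨C, hC⟩ : ∃ C : H →L⋆[ℂ] H, ∀ v, C v = P v - Q v := rv_alin (P - Q) fun v => by
    rw [sub_apply, sub_apply, qI, pI, smul_sub, neg_sub]
  have hR' : ∀ v, (2 - R) v =
      (ContinuousLinearMap.id ℝ H - P) v + (ContinuousLinearMap.id ℝ H - Q) v := fun v => by
    rw [rv_two, hR, sub_apply, sub_apply, ContinuousLinearMap.id_apply]
    abel
  obtain ⟨r0, r1⟩ := rv_pos hP hQ hR
  obtain ⟨r2, r3⟩ := rv_pos hP.one_sub hQ.one_sub hR'
  have r2' : R ≤ 2 := sub_nonneg.1 r2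
  have hRs : IsSelfAdjoint R := .of_nonneg r0
  -- `Q` vanishes on the self-adjoint part of the commutant
  have qB : ∀ y ∈ A.commutant, IsSelfAdjoint y → P (I • y ξ) = 0 ∧ Q (y ξ) = 0 := by
    intro y hy hs
    have : P (I • y ξ) = 0 := p4 _ fun x hx hxs => by
      rw [rv_re_I_right, rv_inner_real hxs hs (mem_comm.1 hy x hx), neg_zero]
    exact ⟨this, by rw [q0, this, smul_zero, neg_zero]⟩
  have inj : ∀ v, R v = 0 → v = 0 := fun v hv => rv_eq_zero hA fun x hx hs => by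
    obtain ⟨a1, a2⟩ := r1 v hv
    have a3 : P (I • v) = 0 := by rw [pI, a2, smul_zero]
    constructor
    · rw [← p3 x hx hs, p2, a1, inner_zero_right, Complex.zero_re]
    · rw [← neg_eq_zero, ← rv_re_I_right, ← p3 x hx hs, p2, a3, inner_zero_right, Complex.zero_re]
  have inj' : ∀ v, (2 - R) v = 0 → v = 0 := fun v hv => rv_eq_zero hB' fun y hy hs => by
    obtain ⟨a1, a2⟩ := r3 v hv
    rw [sub_apply, ContinuousLinearMap.id_apply, sub_eq_zero] at a1 a2
    constructor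
    · rw [a2, ← hQ.symm, (qB y hy hs).2, inner_zero_left, Complex.zero_re]
    · rw [← rv_re_I_left, a1, ← p2, (qB y hy hs).1, inner_zero_left, Complex.zero_re]
  have hCC : ∀ v, C (C v) = (R * (2 - R)) v := fun v => by
    simp only [mul_apply_eq_comp, rv_two, hC, hR, map_add, map_sub, p1, hQ.idem]
    abel
  have hCR : ∀ v, C (R v) = (2 - R) (C v) := fun v => by
    simp only [rv_two, hC, hR, map_add, map_sub, p1, hQ.idem]
    abel
  have hCs : ∀ v w, (⟪C v, w⟫_ℂ).re = (⟪v, C w⟫_ℂ).re := fun v w => by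
    rw [hC, hC, inner_sub_left, inner_sub_right, Complex.sub_re, Complex.sub_re, p2, hQ.symm]
  obtain ⟨s1, s2, s3, s4, s5⟩ := rv_sqrt r0 r2'
  set a := cfc (fun r : ℝ => √r) R with ha
  set b := cfc (fun r : ℝ => √(2 - r)) R with hb
  set T := cfc (fun r : ℝ => √(r * (2 - r))) R with hT
  have ai : ∀ v, a v = 0 → v = 0 := fun v hv => inj v (by
    rw [← s1, mul_apply_eq_comp, hv, map_zero])
  have bi : ∀ v, b v = 0 → v = 0 := fun v hv => inj' v (by
    rw [← s2, mul_apply_eq_comp, hv, map_zero])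
  have Ti : ∀ v, T v = 0 → v = 0 := fun v hv => bi v (ai _ (by rwa [s3] at hv))
  have T0 : 0 ≤ T := cfc_nonneg fun _ _ => Real.sqrt_nonneg _
  have hTs : IsSelfAdjoint T := .of_nonneg T0
  have hTT : T * T = R * (2 - R) := by
    conv_lhs => rw [s3]
    rw [mul_assoc, ← mul_assoc b, ← s4, s3, mul_assoc, s2, ← mul_assoc, s1]
  have hSs : IsSelfAdjoint (R * (2 - R)) := by
    rw [← hTT]
    simpa only [hTs.star_eq] using IsSelfAdjoint.star_mul_self T
  have hCT : ∀ v, C (T v) = T (C v) := fun v => by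
    rw [s5]
    exact rv_cfc_comm C hSs (fun v => by rw [← hCC, ← hCC]) Real.continuous_sqrt v
  obtain ⟨J, j1, j2, j3⟩ := rv_polar C hTs Ti hCs
    (fun v => by rw [hCC, ← hTT, mul_apply_eq_comp]) hCT
  have hd := rv_dense hTs Ti
  have comm : ∀ z : Op H, Commute R z → ∀ v, T (z v) = z (T v) := fun z hz v => by
    rw [← mul_apply_eq_comp, (hz.cfc_real _).eq, mul_apply_eq_comp]
  have JR : ∀ v, J (R v) = (2 - R) (J v) := fun v =>
    hd.induction_on v (isClosed_eq (by fun_prop) (by fun_prop)) fun v => by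
      rw [← comm R (Commute.refl R), j2, j2, hCR]
  have kA : ∀ x ∈ A, IsSelfAdjoint x → (2 - R) (x ξ) = C (x ξ) := fun x hx hs => by
    rw [rv_two, hR, hC, p3 x hx hs]
    abel
  have p1' : P ξ = ξ := p3 1 (one_mem A) (.one _)
  have q1' : Q ξ = 0 := (qB 1 (one_mem _) (.one _)).2
  have Rξ : R ξ = ξ := by rw [hR, p1', q1', add_zero]
  have Tξ : T ξ = ξ := by
    have e1 : T (T ξ) = ξ := by
      rw [← mul_apply_eq_comp, hTT, mul_apply_eq_comp, rv_two, Rξ, add_sub_cancel_right, Rξ]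
    have e2 : T (T ξ - ξ) = -(T ξ - ξ) := by rw [map_sub, e1, neg_sub]
    have e3 := ((ContinuousLinearMap.nonneg_iff_isPositive T).1 T0).re_inner_nonneg_left (T ξ - ξ)
    rw [e2, inner_neg_left, map_neg, inner_self_eq_norm_sq] at e3
    exact sub_eq_zero.1 (norm_eq_zero.1 (by nlinarith [sq_nonneg ‖T ξ - ξ‖]))
  -- self-adjoint central elements
  have cen : ∀ z, Cen A z → IsSelfAdjoint z → Commute z R ∧ jc J z = z := by
    intro z hz hs
    have e1 : ∀ v, P (z v) = P (z (P v)) := fun v => by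
      rw [← sub_eq_zero, ← map_sub, ← map_sub]
      refine p4 _ fun x hx hxs => ?_
      have hc := mem_comm.1 hz.2 x hx
      rw [← rv_sa_inner hs, ← mul_apply_eq_comp,
        ← p3 _ (mul_mem hz.1 hx) ((hs.commute_iff hxs).1 hc.symm), p2, map_sub, p1, sub_self,
        inner_zero_right, Complex.zero_re]
    have e2 : ∀ v, P (z v) = z (P v) := fun v => rv_ext fun w => by
      rw [e1, p2, rv_sa_inner hs, p2, rv_sa_inner hs, p2, e1 w]
    have e3 : ∀ v, Q (z v) = z (Q v) := fun v => by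
      rw [q0, q0, ← map_smul z, e2, map_neg z, map_smul z]
    have e4 : Commute z R := by
      ext v
      rw [mul_apply_eq_comp, mul_apply_eq_comp, hR, hR, e2, e3, map_add]
    have e5 : ∀ v, J (z v) = z (J v) := fun v =>
      hd.induction_on v (isClosed_eq (by fun_prop) (by fun_prop)) fun v => by
        rw [← comm z e4.symm, j2, j2, hC, hC, e2, e3, map_sub]
    refine ⟨e4, ?_⟩
    ext v
    rw [jc_apply, e5, j1]
  refine ⟨{
    R := R, J := J, nonneg := r0, le_two := r2', inj := inj, inj' := inj', JJ := j1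
    Jξ := by rw [← Tξ, j2, hC, Tξ, p1', q1', sub_zero]
    Rξ := Rξ, JR := JR
    srel := fun x hx => rv_rel (fun x hx hs => ?_) hx
    frel := fun y hy => rv_rel (fun y hy hs => ?_) hy
    proj := fun v c hc h => ?_
    real := fun x hx y hy hxs hys => ?_
    cenR := fun z hz => ?_
    cenJ := fun z hz => ?_
    trace := fun ht => ?_ }⟩
  · refine sub_eq_zero.1 (bi _ ?_)
    rw [map_sub, ← mul_apply_eq_comp, ← mul_apply_eq_comp b, s2, ← s4, j3, kA x hx hs, sub_self]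
  · refine sub_eq_zero.1 (ai _ ?_)
    rw [map_sub, ← mul_apply_eq_comp, ← mul_apply_eq_comp a, s1, ← s3, j3, hR, hC, (qB y hy hs).2,
      add_zero, sub_zero, sub_self]
  · have e1 : P v = c ξ + star c ξ := by
      rw [← add_apply, ← p3 _ (add_mem hc (star_mem hc)) (.add_star_self c), ← sub_eq_zero,
        ← map_sub]
      refine p4 _ fun x hx hs => ?_
      rw [inner_sub_right, h x hx, hs.star_eq, add_apply, inner_add_right, Complex.sub_re,
        Complex.add_re, Complex.add_re, rv_re_symm (star c ξ), sub_self]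
    have e2 : Q v = c ξ - star c ξ := by
      have hs : IsSelfAdjoint (I • (c - star c)) := by
        rw [IsSelfAdjoint, star_smul, star_sub, star_star, Complex.star_def, Complex.conj_I,
          neg_smul, ← smul_neg, neg_sub]
      have e3 : P (I • v) = (I • (c - star c)) ξ := by
        rw [← p3 _ (smul_mem' _ (sub_mem hc (star_mem hc))) hs, ← sub_eq_zero, ← map_sub]
        refine p4 _ fun x hx hs => ?_
        rw [smul_apply, ← smul_sub, rv_re_I_right, inner_sub_right, h x hx, hs.star_eq, sub_apply,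
          inner_sub_right, Complex.sub_im, Complex.sub_im, Complex.add_im, rv_im_symm (star c ξ)]
        ring
      rw [q0, e3, smul_apply, rv_II, neg_neg, sub_apply]
    rw [j2, hR, hC, e1, e2, two_smul, two_smul]
    constructor <;> abel
  · have e1 : R (J (x ξ)) = C (J (x ξ)) := by
      have e2 := JR (x ξ)
      have e3 := congrArg J (kA x hx hxs)
      rw [rv_two, map_sub, map_add, e2, rv_two, ← j3, ← j1 (T _), j2, j1] at e3
      rw [← e3]
      abel
    rw [hR, hC, sub_eq_add_neg, add_right_inj, eq_neg_iff_add_eq_zero, ← two_smul ℂ,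
      smul_eq_zero_iff_right two_ne_zero] at e1
    rw [← rv_re_I_left, ← p3 y hy hys, ← p2, pI, e1, smul_zero, inner_zero_left, Complex.zero_re]
  · obtain ⟨c, d, hc, hd, e, -, hm⟩ := rv_decomp z
    rw [e]
    exact (cen c ⟨(hm _ hz.1).1, (hm _ hz.2).1⟩ hc).1.add_left
      ((cen d ⟨(hm _ hz.1).2, (hm _ hz.2).2⟩ hd).1.smul_left _)
  · obtain ⟨c, d, hc, hd, e, e', hm⟩ := rv_decomp z
    rw [e', e, jc_add, jc_smul, (cen c ⟨(hm _ hz.1).1, (hm _ hz.2).1⟩ hc).2,
      (cen d ⟨(hm _ hz.1).2, (hm _ hz.2).2⟩ hd).2, Complex.conj_I, neg_smul, sub_eq_add_neg]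
  · have e1 : ∀ y ∈ A, IsSelfAdjoint y → R (y ξ) = y ξ := fun y hy hys => by
      have : P (I • y ξ) = 0 := p4 _ fun x hx hxs => by
        have h1 := ht (x + I • y) (add_mem hx (smul_mem' _ hy))
        rw [star_add, star_smul, hxs.star_eq, hys.star_eq, Complex.star_def, Complex.conj_I,
          neg_smul, ← sub_eq_add_neg, add_apply, sub_apply, smul_apply] at h1
        have h2 := norm_add_sq (𝕜 := ℂ) (x ξ) (I • y ξ)
        have h3 := norm_sub_sq (𝕜 := ℂ) (x ξ) (I • y ξ)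
        rw [h1, h2] at h3
        have h4 : RCLike.re ⟪x ξ, I • y ξ⟫_ℂ = 0 := by linarith
        exact h4
      rw [hR, p3 y hy hys, q0, this, smul_zero, neg_zero, add_zero]
    refine hA.ext fun x hx => ?_
    obtain ⟨c, d, hc, hd, e, -, hm⟩ := rv_decomp x
    rw [one_apply_eq_self, e, add_apply, smul_apply, map_add, map_smul, e1 c (hm A hx).1 hc,
      e1 d (hm A hx).2 hd]

theorem rv_jc_mem {A : VN H} {ξ : H} (hA : Cyc A ξ) {J : H ≃ₗᵢ⋆[ℂ] H}
    (h : ∀ x ∈ A, J (x ξ) = star x ξ) {x : Op H} (hx : x ∈ A) : jc J x ∈ A.commutant := by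
  have e : ∀ a ∈ A, jc J x (a ξ) = a (star x ξ) := fun a ha => by
    rw [jc_apply, h a ha, ← mul_apply_eq_comp, h _ (mul_mem hx (star_mem ha)), star_mul, star_star,
      mul_apply_eq_comp]
  refine mem_comm.2 fun b hb => hA.ext fun a ha => ?_
  rw [mul_apply_eq_comp, mul_apply_eq_comp, e a ha, ← mul_apply_eq_comp b a ξ, e _ (mul_mem hb ha),
    mul_apply_eq_comp]

/-- The conjugation of a cyclic separating trace vector. Recipe: `RvD.trace`, `srel`, `frel` give
the two formulas; `jc J x * a ξ = a x⋆ ξ` shows `jc J x ∈ A'`; symmetric for `A'`. -/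
theorem exists_trace_J {A : VN H} {ξ : H} (hA : Cyc A ξ) (hB : Cyc A.commutant ξ) (ht : Trc A ξ) :
    ∃ J : H ≃ₗᵢ⋆[ℂ] H, (∀ v, J (J v) = v) ∧ (∀ x ∈ A, J (x ξ) = star x ξ) ∧
      (∀ y ∈ A.commutant, J (y ξ) = star y ξ) ∧ (∀ x ∈ A, jc J x ∈ A.commutant) ∧
      ∀ y ∈ A.commutant, jc J y ∈ A := by
  obtain ⟨D⟩ := exists_rvd rfl hA hB
  have e1 : cfc (fun r : ℝ => √(2 - r)) D.R = 1 := by
    rw [D.trace ht, cfc_apply_one]
    norm_num
  have e2 : cfc (fun r : ℝ => √r) D.R = 1 := by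
    rw [D.trace ht, cfc_apply_one]
    norm_num
  have h1 : ∀ x ∈ A, D.J (x ξ) = star x ξ := fun x hx => by
    have := D.srel x hx
    rw [e1, e2, one_apply_eq_self, one_apply_eq_self] at this
    rw [this, D.JJ]
  have h2 : ∀ y ∈ A.commutant, D.J (y ξ) = star y ξ := fun x hx => by
    have := D.frel x hx
    rw [e1, e2, one_apply_eq_self, one_apply_eq_self] at this
    rw [this, D.JJ]
  refine ⟨D.J, D.JJ, h1, h2, fun x hx => rv_jc_mem hA h1 hx, fun y hy => ?_⟩
  have := rv_jc_mem hB h2 hy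
  rwa [A.commutant_commutant] at this

end

end Crest.Agent.R78
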