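import Crest.Agent.R78.Popa
import Crest.Agent.R78.Chr
import Crest.Agent.R78.RvD
import Crest.Agent.R78.PLem

/-!
# Row 78: the normalised finite situation
-/

open scoped InnerProductSpace Topology ComplexConjugate
open Filter MeasureTheory

set_option linter.unusedSectionVars false

namespace Crest.Agent.R78

open Crest.Agent.R121 (Alg)

noncomputable section

universe u

variable {H : Type*} [NormedAddCommGroup H] [InnerProductSpace ℂ H] [CompleteSpace H]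

/-- The normalised situation: an amenable group `G ⊆ M ∩ N` with `J G J ⊆ N'` whose fixed vectors
are central. -/
structure FinD (M N : VN H) (ξ : H) (e : ℝ) where
  /-- the conjugation -/
  J : H ≃ₗᵢ⋆[ℂ] H
  tr : TrJ M ξ J
  /-- the group -/
  G : Subgroup (unitary (Op H))
  /-- an invariant mean -/
  m : Mean G
  GM : ∀ g : G, ((g : unitary (Op H)) : Op H) ∈ M
  GN : ∀ g : G, ((g : unitary (Op H)) : Op H) ∈ N
  GN' : ∀ g : G, jc J ((g : unitary (Op H)) : Op H) ∈ N.commutant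
  cenG : ∀ T : Op H, (∀ g : G, Commute ((g : unitary (Op H)) : Op H) T) →
    ∀ z, Cen M z → Commute z T
  fix : ∀ v, (∀ g : G, adj J ((g : unitary (Op H)) : Op H) v = v) → v ∈ zsp M ξ
  near : Near M.commutant N.commutant e
  near' : Near N.commutant M.commutant e

/-- `g ↦ J g J` on unitaries. -/
def fda_jU {J : H ≃ₗᵢ⋆[ℂ] H} (hJ : ∀ v, J (J v) = v) : unitary (Op H) →* unitary (Op H) where
  toFun g := ⟨jc J g, by
    rw [Unitary.mem_iff, ← jc_star hJ, ← jc_mul hJ, ← jc_mul hJ, bas_su, bas_us, jc_one hJ]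
    exact ⟨rfl, rfl⟩⟩
  map_one' := Subtype.ext (jc_one hJ)
  map_mul' g h := Subtype.ext (jc_mul hJ _ _)

theorem fda_closure_mem {M : VN H} {S : Set (unitary (Op H))} (h : ∀ a ∈ S, (a : Op H) ∈ M)
    {g : unitary (Op H)} (hg : g ∈ Subgroup.closure S) : (g : Op H) ∈ M := by
  induction hg using Subgroup.closure_induction with
  | mem x hx => exact h x hx
  | one => exact one_mem M
  | mul x y _ _ hx hy => exact mul_mem hx hy
  | inv x _ hx => exact star_mem hx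

theorem fda_group {M : VN H} {Y Z : ℕ → unitary (Op H)} (hq : PQ M Y Z) :
    ∃ G : Subgroup (unitary (Op H)), Nonempty (Mean G) ∧
      (∀ g : G, ((g : unitary (Op H)) : Op H) ∈ M) ∧ (∀ k, Y k ∈ G ∧ Z k ∈ G) ∧
      ∀ T : Op H, (∀ g : G, Commute ((g : unitary (Op H)) : Op H) T) →
        ∀ z, Cen M z → Commute z T := by
  set S : Set (unitary (Op H)) := Set.range Y ∪ Set.range Z ∪
    {s | ∃ z, CP M z ∧ (s : Op H) = z + z - 1} with hS
  have hM : ∀ a ∈ S, (a : Op H) ∈ M := by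
    rintro a ((⟨k, rfl⟩ | ⟨k, rfl⟩) | ⟨z, hz, ha⟩)
    · exact hq.memX k
    · exact hq.memZ k
    · rw [ha]; exact sub_mem (add_mem hz.2.1 hz.2.1) (one_mem M)
  have hcen : ∀ a ∈ S, ∀ b : unitary (Op H), (∃ z, CP M z ∧ (b : Op H) = z + z - 1) →
      Commute (a : Op H) b := by
    rintro a ha b ⟨z, hz, hb⟩
    refine mem_comm.1 ?_ _ (hM a ha)
    rw [hb]; exact sub_mem (add_mem hz.2.2 hz.2.2) (one_mem _)
  refine ⟨Subgroup.closure S, mean_pauli S ?_ ?_, fun g => fda_closure_mem hM g.2,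
    fun k => ⟨Subgroup.subset_closure (Or.inl (Or.inl ⟨k, rfl⟩)),
      Subgroup.subset_closure (Or.inl (Or.inr ⟨k, rfl⟩))⟩, fun T hT z hz => ?_⟩
  · rintro a ((⟨k, rfl⟩ | ⟨k, rfl⟩) | ⟨z, hz, ha⟩)
    · exact hq.XX k
    · exact hq.ZZ k
    · refine Subtype.ext ?_
      change (a : Op H) * a = 1
      have := hz.1.isIdempotentElem.eq
      rw [ha]
      simp only [mul_sub, sub_mul, mul_add, add_mul, this, mul_one, one_mul]
      abel
  · intro a ha b hb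
    rcases hb with hb | hb
    swap
    · exact Or.inl (hcen a ha b hb)
    rcases ha with ha | ha
    swap
    · exact Or.inl (hcen b (Or.inl hb) a ha).symm
    rcases ha with ⟨k, rfl⟩ | ⟨k, rfl⟩ <;> rcases hb with ⟨l, rfl⟩ | ⟨l, rfl⟩
    · exact Or.inl (hq.cXX k l)
    · by_cases h : k = l
      · subst h; exact Or.inr (hq.anti k)
      · exact Or.inl (hq.cXZ k l h)
    · by_cases h : l = k
      · subst h; right; rw [hq.anti l, neg_neg]
      · exact Or.inl (hq.cXZ l k h).symm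
    · exact Or.inl (hq.cZZ k l)
  · refine commute_cen_of_cp (fun p hp => ?_) hz
    have h1 : Commute (p + p - 1) T :=
      hT ⟨⟨p + p - 1, pj_symm hp.1⟩, Subgroup.subset_closure (Or.inr ⟨p, hp, rfl⟩)⟩
    have h2 : Commute (p + p) T := by
      simpa using h1.add_left (Commute.one_left T)
    have h3 : p = (2 : ℂ)⁻¹ • (p + p) := by
      rw [← two_smul ℂ p, smul_smul]; simp
    rw [h3]
    exact h2.smul_left _

/-- Recipe: `exists_trace_J`, `exists_popa`; `G` is the closure of the `Y k`, `Z k` and the central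
symmetries `1 - (z + z)` (`mean_pauli`; `commute_cen_of_cp` for `cenG`). `christensen` for
`G.subtype` and `N` gives `u₁`; `christensen` for `g ↦ jc J g` and `(conjVN u₁ N)'` gives `u₂`,
which commutes with `G`. `u = u₂ u₁`; `conjVN_commutant`, `Close.conj_right`, `Close.commutant`. -/
theorem exists_finD : ∃ C > 0, ∃ γ₀ > 0, ∀ {H : Type u} [NormedAddCommGroup H]
    [InnerProductSpace ℂ H] [CompleteSpace H] [TopologicalSpace.SeparableSpace H] {M N : VN H}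
    {ξ : H} {X Z : ℕ → unitary (Op H)} {γ : ℝ}, 0 ≤ γ → γ ≤ γ₀ → Cyc M ξ → Cyc M.commutant ξ →
    Trc M ξ → Qubits M ξ X Z → Close M N γ →
    ∃ u : unitary (Op H), ‖(u : Op H) - 1‖ ≤ C * γ ∧ Nonempty (FinD M (conjVN u N) ξ (C * γ)) := by
  obtain ⟨C₁, hC₁, d₀, hd₀, hchr⟩ := christensen.{u, u}
  refine ⟨4200 * (1 + 4 * (2 * C₁ + 2 * C₁ * (1 + 8 * C₁))), by positivity,
    min 1 (d₀ / (2 * (1 + 8 * C₁))), by positivity, ?_⟩
  intro H _ _ _ _ M N ξ X Z γ hγ hγ₀ hc hc' ht hq hcl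
  have hγ1 : γ ≤ 1 := hγ₀.trans (min_le_left _ _)
  have hγd : 2 * (γ + 4 * (C₁ * (2 * γ))) ≤ d₀ := by
    have := hγ₀.trans (min_le_right _ _)
    rw [le_div_iff₀ (by positivity)] at this
    linarith
  have hCγ : 0 ≤ C₁ * γ := by positivity
  obtain ⟨J, hJ, hJx, -, hjM, hjM'⟩ := exists_trace_J hc hc' ht
  have tr : TrJ M ξ J := ⟨hJ, hJx, hjM, hjM', hc, hc'⟩
  obtain ⟨Y, hY, hfix⟩ := exists_popa tr hq
  obtain ⟨G, ⟨m⟩, hGM, hYZ, hcen⟩ := fda_group hY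
  obtain ⟨u₁, hu₁, hG₁, -⟩ := hchr m G.subtype N (d := 2 * γ) (by positivity) (by linarith)
    (fun g y hy => (hcl.1.comm_le (hGM g) hy).trans (by
      have := pj_norm_unitary (g : unitary (Op H)).2
      exact mul_le_mul_of_nonneg_right (mul_le_of_le_one_right (by positivity) this)
        (norm_nonneg y)))
  have hcl₁ := hcl.conj_right hγ hγ1 hu₁
  obtain ⟨u₂, hu₂, hG₂, hcomm⟩ := hchr m ((fda_jU hJ).comp G.subtype) (conjVN u₁ N).commutant
    (d := 2 * (γ + 4 * (C₁ * (2 * γ)))) (by positivity) hγd (fun g y hy => by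
      rw [VonNeumannAlgebra.commutant_commutant] at hy
      rw [norm_sub_rev]
      refine (hcl₁.2.comm_le hy (hjM _ (hGM g))).trans ?_
      refine mul_le_of_le_one_right (by positivity) ?_
      rw [norm_jc hJ]
      exact pj_norm_unitary (g : unitary (Op H)).2)
  have hu : ‖((u₂ * u₁ : unitary (Op H)) : Op H) - 1‖ ≤ (2 * C₁ + 2 * C₁ * (1 + 8 * C₁)) * γ := by
    have e : ((u₂ * u₁ : unitary (Op H)) : Op H) - 1 = ((u₂ : Op H) - 1) * u₁ + (u₁ - 1) := by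
      rw [sub_mul, one_mul, sub_add_sub_cancel]; rfl
    have h1 : ‖((u₂ : Op H) - 1) * u₁‖ ≤ ‖(u₂ : Op H) - 1‖ :=
      (norm_mul_le _ _).trans (mul_le_of_le_one_right (norm_nonneg _) (pj_norm_unitary u₁.2))
    rw [e]
    refine (norm_add_le _ _).trans ?_
    linarith
  have hK : 0 ≤ (2 * C₁ + 2 * C₁ * (1 + 8 * C₁)) * γ := by positivity
  have hcl₂ := (hcl.conj_right hγ hγ1 hu).commutant (by positivity)
  have e : 4200 * (γ + 4 * ((2 * C₁ + 2 * C₁ * (1 + 8 * C₁)) * γ)) =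
      4200 * (1 + 4 * (2 * C₁ + 2 * C₁ * (1 + 8 * C₁))) * γ := by ring
  rw [e] at hcl₂
  refine ⟨u₂ * u₁, hu.trans (by rw [← e]; linarith), ⟨⟨J, tr, G, m, hGM, fun g => ?_, fun g => ?_,
    hcen, fun v hv => hfix v fun k => ⟨hv ⟨_, (hYZ k).1⟩, hv ⟨_, (hYZ k).2⟩⟩, hcl₂.1, hcl₂.2⟩⟩⟩
  · have h1 : Commute ((g : unitary (Op H)) : Op H) u₂ :=
      hcomm _ (by rw [VonNeumannAlgebra.commutant_commutant]; exact hG₁ g)
        fun h => mem_comm.1 (hjM _ (hGM h)) _ (hGM g)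
    rw [conjVN_mul, mem_conjVN, mul_assoc, h1.eq, bas_su']
    exact hG₁ g
  · rw [conjVN_mul, conjVN_commutant]
    exact hG₂ g

variable {M N : VN H} {ξ : H} {e : ℝ}

namespace FinD

variable (D : FinD M N ξ e)

/-- Group elements as operators. -/
def gu (g : D.G) : Op H := ((g : unitary (Op H)) : Op H)

/-- Weakening the closeness parameter. -/
def mono {e' : ℝ} (h : e ≤ e') : FinD M N ξ e' :=
  { D with near := D.near.mono h, near' := D.near'.mono h }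

theorem gu_mem (g : D.G) : D.gu g ∈ M := D.GM g
theorem gu_mul (g h : D.G) : D.gu (g * h) = D.gu g * D.gu h := rfl
theorem gu_one : D.gu 1 = 1 := rfl
theorem gu_inv (g : D.G) : D.gu g⁻¹ = star (D.gu g) := rfl
theorem norm_gu_le (g : D.G) : ‖D.gu g‖ ≤ 1 := by
  exact pj_norm_unitary (g : unitary (Op H)).2
theorem Rm_gu_mem (g : D.G) : Rm D.J (D.gu g) ∈ N.commutant := by
  exact D.GN' g⁻¹

include D in
/-- `N'` commutes with `G`; `J N J` commutes with `G`. -/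
theorem cen_N {z : Op H} (hz : Cen M z) : Cen N z := by
  refine ⟨bas_mem fun y hy => (D.cenG y (fun g => mem_comm.1 hy _ (D.GN g)) z hz).symm,
    mem_comm.2 fun x hx => ?_⟩
  have hJ := D.tr.JJ
  have h1 : Commute (star z) (jc D.J x) := by
    refine D.cenG _ (fun g => ?_) _ (Graph_cen_star hz)
    have := congrArg (jc D.J) (mem_comm.1 (D.GN' g) x hx).eq
    rw [jc_mul hJ, jc_mul hJ, jc_jc hJ] at this
    exact this.symm
  have h2 := congrArg (jc D.J) h1.eq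
  have h3 : jc D.J (star z) = z := D.tr.Rm_cen hz
  rw [jc_mul hJ, jc_mul hJ, jc_jc hJ, h3] at h2
  exact h2.symm

theorem fda_jc (g : D.G) : jc D.J (D.gu g) = Rm D.J (D.gu g⁻¹) := by
  rw [gu_inv, Rm, star_star]

theorem fda_fix {T : Op H} (h : ∀ g, Commute (D.gu g) T ∧ Commute (Rm D.J (D.gu g)) T) :
    T ξ ∈ zsp M ξ := by
  refine D.fix _ fun g => ?_
  change D.gu g (jc D.J (D.gu g) (T ξ)) = T ξ
  rw [fda_jc, Graph_comm_apply (h g⁻¹).2, D.tr.Rm_ξ (D.gu_mem _), Graph_comm_apply (h g).1]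
  change T ((D.gu g * D.gu g⁻¹) ξ) = T ξ
  rw [← gu_mul, mul_inv_cancel, gu_one]
  rfl

/-- The mean of `g x g⋆` is central (`fix`, `cen_of_apply_mem`). -/
theorem cen_cE {x : Op H} (hx : x ∈ M) : Cen M (D.m.cE D.G.subtype x) := by
  have hm : D.m.cE D.G.subtype x ∈ M := D.m.cE_mem _ (fun g => nrm_of_mem (D.GM g)) hx
  exact cen_of_apply_mem D.tr.cyc' hm (D.fda_fix fun g => ⟨D.m.commute_cE D.G.subtype x g,
    (mem_comm.1 (D.tr.Rm_mem (D.gu_mem g)) _ hm).symm⟩)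

theorem fda_inner {x : Op H} (hx : x ∈ M) {v : H} (hv : v ∈ zsp M ξ) :
    (⟪v, D.m.cE D.G.subtype (star x * x) v⟫_ℂ).re = ‖x v‖ ^ 2 := by
  have hb := Mean.mn_bdd_conj D.G.subtype (star x * x)
  rw [Mean.cE, D.m.op_apply hb, D.m.re_inner_vec (mn_bdd_app hb v), ← D.m.L_const (‖x v‖ ^ 2)]
  congr 1
  funext g
  have e : (D.G.subtype g : Op H) * (star x * x) * star (D.G.subtype g : Op H) =
      star (x * D.gu g⁻¹) * (x * D.gu g⁻¹) := by
    rw [star_mul, gu_inv, star_star]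
    simp only [mul_assoc]
    rfl
  rw [e, Graph_norm_sq_star]
  congr 1
  change ‖x (D.gu g⁻¹ v)‖ = _
  rw [← D.tr.Rm_zsp (D.gu_mem _) hv,
    Graph_comm_apply (mem_comm.1 (D.tr.Rm_mem (D.gu_mem g⁻¹)) _ hx), ← fda_jc]
  exact ContinuousLinearMap.norm_map_of_mem_unitary (fda_jU D.tr.JJ (g : unitary (Op H))).2 _

/-- Recipe: `η = T ξ` is fixed by `adj g`, so it lies in `zsp`; for `x ∈ M` and `c = cE (x⋆ x)`,
`‖x η‖² = re ⟪η, c η⟫ = ‖T √c ξ‖² ≤ ‖T‖² ‖x ξ‖²`; `exists_rn`, `cen_of_apply_mem` for `M'`. -/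
theorem exists_cen_apply {T : Op H}
    (h : ∀ g, Commute (D.gu g) T ∧ Commute (Rm D.J (D.gu g)) T) :
    ∃ κ, Cen M κ ∧ ‖κ‖ ≤ ‖T‖ ∧ T ξ = κ ξ := by
  have hη := D.fda_fix h
  obtain ⟨y, hy, hyξ, hcol⟩ := exists_rn (A := M) ξ (fun _ : Unit => T ξ) (norm_nonneg T)
    (fun x hx => by
      have hxx : star x * x ∈ M := mul_mem (star_mem hx) hx
      have hc := D.cen_cE hxx
      have h0 : 0 ≤ D.m.cE D.G.subtype (star x * x) :=
        D.m.op_nonneg (Mean.mn_bdd_conj _ _) fun g => star_right_conjugate_nonneg (star_mul_self_nonneg x) _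
      obtain ⟨r, -, hr0, hrr, hrc⟩ := exists_sqrt hc.1 h0
      have hTr : Commute T r := hrc T (D.cenG T (fun g => (h g).1) _ hc).symm
      have key : ∀ v ∈ zsp M ξ, ‖x v‖ ^ 2 = ‖r v‖ ^ 2 := fun v hv => by
        rw [← D.fda_inner hx hv, ← hrr, ← Graph_norm_sq_star, hr0.isSelfAdjoint.star_eq]
      rw [Fintype.sum_unique, key _ hη, key _ (self_mem_zsp M ξ), ← Graph_comm_apply hTr, ← mul_pow]
      gcongr
      exact T.le_opNorm _)
  have hc : Cen M.commutant (y ()) :=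
    cen_of_apply_mem (by rw [VonNeumannAlgebra.commutant_commutant]; exact D.tr.cyc) (hy ())
      (by rw [hyξ, zsp_commutant]; exact hη)
  refine ⟨y (), ⟨by simpa using hc.2, hc.1⟩, ?_, (hyξ ()).symm⟩
  refine ContinuousLinearMap.opNorm_le_bound _ (norm_nonneg T) fun v => ?_
  have := hcol v
  rw [Fintype.sum_unique, ← mul_pow] at this
  exact (pow_le_pow_iff_left₀ (norm_nonneg _) (by positivity) two_ne_zero).1 this

/-- An admissible similarity. -/
structure Sm where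
  /-- the similarity -/
  S : Op H
  /-- its inverse -/
  S' : Op H
  SS' : S * S' = 1
  S'S : S' * S = 1
  nS : ‖S - 1‖ ≤ e
  nS' : ‖S' - 1‖ ≤ e
  cG : ∀ g, Commute (D.gu g) S ∧ Commute (Rm D.J (D.gu g)) S
  Sξ : S ξ = ξ

namespace Sm

variable {D} (s : D.Sm)

/-- The representation `π y = S y S⁻¹` of `N'`. -/
def π (y : Op H) : Op H := s.S * y * s.S'

/-- The local `L²` defect. -/
def Loc (w : ℝ) : Prop := ∀ z, CP M z → ∀ a ∈ M, ∀ y ∈ N.commutant,
  ‖z ((a * s.π y - s.π y * a) ξ)‖ ≤ w * ‖a‖ * ‖y‖ * ‖z ξ‖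

/-- The deviation of a pair. -/
def dev (a a' : Op H) : ℝ := ‖s.π a' - Rm D.J a‖

/-- The cocycle. -/
def phi (z₀ a y : Op H) : H := (a * s.π y - s.π y * a) (z₀ ξ)

/-- The coboundary of the pair map `(a, a') ↦ F₁ a + F₂ a'`. -/
def del (F₁ F₂ : Op H →ₗ[ℂ] H) (a a' b b' : Op H) : H :=
  a (F₁ b + F₂ b') - (F₁ (a * b) + F₂ (b' * a')) + s.π b' (F₁ a + F₂ a')

/-- The linearised defect after the correction `S ↦ (1 - T) S`. -/
def dfc (T a y : Op H) : H :=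
  (a * s.π y - s.π y * a) ξ - (a (T (s.π y ξ)) + s.π y (T (a ξ)) - T (s.π y (a ξ)))

/-- An approximate primitive of the cocycle on pairs of small deviation. -/
structure Prim (z₀ : Op H) (F₁ F₂ : Op H →ₗ[ℂ] H) (W C η : ℝ) : Prop where
  le₁ : ∀ a ∈ M, ‖F₁ a‖ ≤ C * W * ‖a‖
  le₂ : ∀ y ∈ N.commutant, ‖F₂ y‖ ≤ C * W * ‖y‖
  eq : ∀ a ∈ M, ∀ a' ∈ N.commutant, ∀ b ∈ M, ∀ b' ∈ N.commutant,
    ‖s.phi z₀ a b' - s.del F₁ F₂ a a' b b'‖ ≤ W * (η * max ‖a‖ ‖a'‖ * max ‖b‖ ‖b'‖ +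
      C * (s.dev a a' * max ‖b‖ ‖b'‖ + max ‖a‖ ‖a'‖ * s.dev b b'))

/-- Bimodularity over the group. -/
structure Bimod (D : FinD M N ξ e) (F₁ F₂ : Op H →ₗ[ℂ] H) : Prop where
  eq₁ : ∀ g h, ∀ a ∈ M, F₁ (D.gu g * a * D.gu h) = D.gu g (Rm D.J (D.gu h) (F₁ a))
  eq₂ : ∀ g h, ∀ y ∈ N.commutant,
    F₂ (Rm D.J (D.gu h) * y * Rm D.J (D.gu g)) = D.gu g (Rm D.J (D.gu h) (F₂ y))

include s in
theorem fdb_e : 0 ≤ e := (norm_nonneg _).trans s.nS

theorem fdb_comm {x : Op H} (h : Commute x s.S) : Commute x s.S' := by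
  change x * s.S' = s.S' * x
  calc x * s.S' = s.S' * s.S * x * s.S' := by rw [s.S'S, one_mul]
    _ = s.S' * x * (s.S * s.S') := by rw [mul_assoc s.S' s.S, ← h.eq]; simp only [mul_assoc]
    _ = s.S' * x := by rw [s.SS', mul_one]

theorem fdb_π_of_comm {x : Op H} (h : Commute x s.S) : s.π x = x := by
  rw [π, ← h.eq, mul_assoc, s.SS', mul_one]

theorem fdb_comm_π {x y : Op H} (h : Commute x s.S) (hy : Commute x y) : Commute x (s.π y) :=
  (h.mul_right hy).mul_right (s.fdb_comm h)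

theorem fdb_Rm_unitary (h : TrJ M ξ D.J) {u : Op H} (hu : u ∈ unitary (Op H)) :
    Rm D.J u ∈ unitary (Op H) := by
  rw [Unitary.mem_iff, ← h.Rm_star, ← h.Rm_mul, ← h.Rm_mul, (Unitary.mem_iff.1 hu).1,
    (Unitary.mem_iff.1 hu).2, h.Rm_one]
  exact ⟨rfl, rfl⟩

theorem π_mul (x y : Op H) : s.π (x * y) = s.π x * s.π y := by
  calc s.π (x * y) = s.S * x * (s.S' * s.S) * y * s.S' := by
        rw [s.S'S, mul_one, π, mul_assoc s.S x y]
    _ = s.π x * s.π y := by simp only [π, mul_assoc]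
theorem π_one : s.π 1 = 1 := by rw [π, mul_one, s.SS']
theorem π_add (x y : Op H) : s.π (x + y) = s.π x + s.π y := by simp only [π, mul_add, add_mul]
theorem π_sub (x y : Op H) : s.π (x - y) = s.π x - s.π y := by simp only [π, mul_sub, sub_mul]
theorem π_smul (c : ℂ) (x : Op H) : s.π (c • x) = c • s.π x := by
  simp only [π, mul_smul_comm, smul_mul_assoc]
theorem π_Rm (g : D.G) : s.π (Rm D.J (D.gu g)) = Rm D.J (D.gu g) := s.fdb_π_of_comm (s.cG g).2
theorem π_cen {z : Op H} (hz : Cen M z) : s.π z = z :=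
  s.fdb_π_of_comm (D.cenG s.S (fun g => (s.cG g).1) z hz)

theorem commute_gu_π (g : D.G) {y : Op H} (hy : y ∈ N.commutant) : Commute (D.gu g) (s.π y) :=
  s.fdb_comm_π (s.cG g).1 (mem_comm.1 hy _ (D.GN g))

theorem commute_cen_π {z y : Op H} (hz : Cen M z) (hy : y ∈ N.commutant) :
    Commute z (s.π y) :=
  s.fdb_comm_π (D.cenG s.S (fun g => (s.cG g).1) z hz) (mem_comm.1 hy _ (D.cen_N hz).1)

theorem norm_π_sub_le (he : e ≤ 1 / 100) (y : Op H) : ‖s.π y - y‖ ≤ 3 * e * ‖y‖ := by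
  have e1 : s.π y - y = (s.S - 1) * y * (s.S' - 1) + (s.S - 1) * y + y * (s.S' - 1) := by
    rw [π]
    noncomm_ring
  have h0 := s.fdb_e
  have hy := norm_nonneg y
  have h1 : ‖(s.S - 1) * y‖ ≤ e * ‖y‖ :=
    (norm_mul_le _ _).trans (mul_le_mul_of_nonneg_right s.nS hy)
  have h2 : ‖y * (s.S' - 1)‖ ≤ ‖y‖ * e :=
    (norm_mul_le _ _).trans (mul_le_mul_of_nonneg_left s.nS' hy)
  have h3 : ‖(s.S - 1) * y * (s.S' - 1)‖ ≤ e * ‖y‖ * e :=
    (norm_mul_le _ _).trans (mul_le_mul h1 s.nS' (norm_nonneg _) (by positivity))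
  rw [e1]
  refine norm_add₃_le.trans ?_
  nlinarith [mul_nonneg h0 hy]
theorem norm_π_le (he : e ≤ 1 / 100) (y : Op H) : ‖s.π y‖ ≤ 2 * ‖y‖ := by
  have h1 := s.norm_π_sub_le he y
  have h2 := norm_sub_norm_le (s.π y) y
  nlinarith [norm_nonneg y]
theorem norm_le_π (he : e ≤ 1 / 100) (y : Op H) : ‖y‖ ≤ 2 * ‖s.π y‖ := by
  have h1 := s.norm_π_sub_le he y
  have h2 := norm_sub_norm_le y (s.π y)
  rw [norm_sub_rev] at h2
  nlinarith [norm_nonneg y]

theorem norm_comm_le (he : e ≤ 1 / 100) {a y : Op H} (ha : a ∈ M) (hy : y ∈ N.commutant) :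
    ‖a * s.π y - s.π y * a‖ ≤ 8 * e * ‖a‖ * ‖y‖ := by
  obtain ⟨y', hy', h1⟩ := D.near' y hy
  have h2 := s.norm_π_sub_le he y
  have h3 := norm_sub_le_norm_sub_add_norm_sub (s.π y) y y'
  have e1 : a * s.π y - s.π y * a = a * (s.π y - y') - (s.π y - y') * a := by
    rw [mul_sub, sub_mul, (mem_comm.1 hy' a ha).eq]
    abel
  rw [e1]
  refine (bas_comm_le _ _).trans ?_
  nlinarith [norm_nonneg a]

theorem exists_partner (he : e ≤ 1 / 100) {y : Op H} (hy : y ∈ N.commutant) :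
    ∃ b ∈ M, ‖b‖ ≤ 2 * ‖y‖ ∧ s.dev b y ≤ 4 * e * ‖y‖ := by
  obtain ⟨y', hy', h1⟩ := D.near' y hy
  have h2 := s.norm_π_sub_le he y
  have h3 := norm_sub_le_norm_sub_add_norm_sub (s.π y) y y'
  have h4 := norm_sub_norm_le y' y
  rw [norm_sub_rev] at h4
  refine ⟨Rm D.J y', D.tr.Rm_mem' hy', ?_, ?_⟩
  · rw [D.tr.norm_Rm]
    nlinarith [norm_nonneg y]
  · rw [dev, D.tr.Rm_Rm]
    linarith

theorem exists_partner' (he : e ≤ 1 / 100) {a : Op H} (ha : a ∈ M) :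
    ∃ a' ∈ N.commutant, ‖a'‖ ≤ 2 * ‖a‖ ∧ s.dev a a' ≤ 5 * e * ‖a‖ := by
  obtain ⟨a', ha', h1⟩ := D.near _ (D.tr.Rm_mem ha)
  have h2 := s.norm_π_sub_le he a'
  have h3 := norm_sub_le_norm_sub_add_norm_sub (s.π a') a' (Rm D.J a)
  have h4 := norm_sub_norm_le a' (Rm D.J a)
  rw [norm_sub_rev, D.tr.norm_Rm] at h1
  rw [D.tr.norm_Rm] at h4
  have h0 := s.fdb_e
  have h5 := norm_nonneg a
  have h6 : ‖a'‖ ≤ 101 / 100 * ‖a‖ := by nlinarith
  refine ⟨a', ha', by linarith, ?_⟩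
  rw [dev]
  nlinarith [mul_le_mul_of_nonneg_left h6 h0, mul_nonneg h0 h5]

/-- `exists_unitary_mem_near`. -/
theorem exists_partner_unitary (he : e ≤ 1 / 100) {u : unitary (Op H)} (hu : (u : Op H) ∈ M) :
    ∃ u' : unitary (Op H), (u' : Op H) ∈ N.commutant ∧ s.dev u u' ≤ 7 * e := by
  obtain ⟨x, hx, h1⟩ := D.near _ (D.tr.Rm_mem hu)
  have h0 := s.fdb_e
  rw [norm_sub_rev, D.tr.norm_Rm] at h1
  obtain ⟨u', hu', h2⟩ := exists_unitary_mem_near hx ⟨_, fdb_Rm_unitary D.tr u.2⟩ (δ := e)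
    (by linarith) (h1.trans (mul_le_of_le_one_right h0 (pj_norm_unitary u.2)))
  refine ⟨u', hu', ?_⟩
  have h3 := s.norm_π_sub_le he u'
  have h4 := norm_sub_le_norm_sub_add_norm_sub (s.π u') u' (Rm D.J u)
  have h5 : ‖(u' : Op H)‖ ≤ 1 := pj_norm_unitary u'.2
  rw [dev]
  dsimp only at h2
  nlinarith

theorem dev_mul (he : e ≤ 1 / 100) (a a' b b' : Op H) :
    s.dev (a * b) (b' * a') ≤ 2 * (s.dev a a' * ‖b'‖ + ‖a‖ * s.dev b b') := by
  have e1 : s.π (b' * a') - Rm D.J (a * b) =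
      s.π b' * (s.π a' - Rm D.J a) + (s.π b' - Rm D.J b) * Rm D.J a := by
    rw [π_mul, D.tr.Rm_mul]
    noncomm_ring
  have h1 := norm_mul_le (s.π b') (s.π a' - Rm D.J a)
  have h2 := norm_mul_le (s.π b' - Rm D.J b) (Rm D.J a)
  rw [D.tr.norm_Rm] at h2
  have h3 := mul_le_mul_of_nonneg_right (s.norm_π_le he b') (norm_nonneg (s.π a' - Rm D.J a))
  have h4 := mul_nonneg (norm_nonneg (s.π b' - Rm D.J b)) (norm_nonneg a)
  unfold dev
  rw [e1]
  refine (norm_add_le _ _).trans ?_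
  nlinarith

theorem dev_star (he : e ≤ 1 / 100) (a a' : Op H) :
    s.dev (star a) (star a') ≤ s.dev a a' + 6 * e * ‖a'‖ := by
  have e1 : s.π (star a') - Rm D.J (star a) =
      (s.π (star a') - star a') - star (s.π a' - a') + star (s.π a' - Rm D.J a) := by
    rw [D.tr.Rm_star, star_sub, star_sub]
    abel
  have h1 := s.norm_π_sub_le he (star a')
  have h2 := s.norm_π_sub_le he a'
  have h3 := norm_sub_le (s.π (star a') - star a') (star (s.π a' - a'))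
  rw [norm_star] at h1 h3
  unfold dev
  rw [e1]
  refine (norm_add_le _ _).trans ?_
  rw [norm_star]
  linarith

theorem dev_conj (g h : D.G) (a : Op H) {a' : Op H} (ha' : a' ∈ N.commutant) :
    s.dev (D.gu g * a * D.gu h) (Rm D.J (D.gu h) * a' * Rm D.J (D.gu g)) = s.dev a a' := by
  have hg := fdb_Rm_unitary D.tr (u := D.gu g) (g : unitary (Op H)).2
  have hh := fdb_Rm_unitary D.tr (u := D.gu h) (h : unitary (Op H)).2
  unfold dev
  rw [π_mul, π_mul, π_Rm, π_Rm, D.tr.Rm_mul, D.tr.Rm_mul, ← mul_assoc, ← sub_mul, ← mul_sub,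
    CStarRing.norm_mul_mem_unitary _ hg, CStarRing.norm_mem_unitary_mul _ hh]

theorem norm_sub_Rm_le (he : e ≤ 1 / 100) (a a' : Op H) :
    ‖a' - Rm D.J a‖ ≤ s.dev a a' + 3 * e * ‖a'‖ := by
  have h1 := s.norm_π_sub_le he a'
  have h2 := norm_sub_le_norm_sub_add_norm_sub a' (s.π a') (Rm D.J a)
  rw [norm_sub_rev] at h1
  unfold dev
  linarith

theorem norm_phi_le {w : ℝ} (hw : s.Loc w) {z₀ : Op H} (hz : CP M z₀) {a y : Op H} (ha : a ∈ M)
    (hy : y ∈ N.commutant) : ‖s.phi z₀ a y‖ ≤ w * ‖z₀ ξ‖ * ‖a‖ * ‖y‖ := by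
  have h1 : Commute z₀ a := (mem_comm.1 hz.2.2 a ha).symm
  have h2 := s.commute_cen_π hz.cen hy
  have h3 : Commute z₀ (a * s.π y - s.π y * a) := (h1.mul_right h2).sub_right (h2.mul_right h1)
  have e1 : s.phi z₀ a y = z₀ ((a * s.π y - s.π y * a) ξ) :=
    (congrArg (fun T : Op H => T ξ) h3.eq).symm
  rw [e1]
  exact (hw z₀ hz a ha y hy).trans (le_of_eq (by ring))

end Sm

end FinD

end

end Crest.Agent.R78
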