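import Crest.Agent.R78.L2VN

/-!
# Row 78: auxiliary lemmas for the graph distance lemma (`GP.lean`)
-/

open scoped InnerProductSpace Topology ComplexConjugate
open Filter MeasureTheory

set_option linter.unusedSectionVars false

namespace Crest.Agent.R78

open Crest.Agent.R121 (Alg)

noncomputable section

variable {H : Type*} [NormedAddCommGroup H] [InnerProductSpace ℂ H] [CompleteSpace H]

/-- The complex linear graph map `y ↦ (y ξ, √τ J y⋆ ξ)`. -/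
def gpaPhi (J : H ≃ₗᵢ⋆[ℂ] H) (ξ : H) (τ : ℝ) : Op H →ₗ[ℂ] WithLp 2 (H × H) where
  toFun y := WithLp.toLp 2 (y ξ, ((√τ : ℝ) : ℂ) • J (star y ξ))
  map_add' x y := by
    rw [← WithLp.toLp_add, Prod.mk_add_mk, star_add, add_apply,
      add_apply, map_add, smul_add]
  map_smul' c x := by
    rw [RingHom.id_apply, ← WithLp.toLp_smul, Prod.smul_mk, star_smul,
      smul_apply, smul_apply, LinearIsometryEquiv.map_smulₛₗ,
      smul_comm c]
    simp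

theorem gpaPhi_norm_sq (J : H ≃ₗᵢ⋆[ℂ] H) (ξ : H) {τ : ℝ} (hτ : 0 ≤ τ) (y : Op H) :
    ‖gpaPhi J ξ τ y‖ ^ 2 = ‖y ξ‖ ^ 2 + τ * ‖star y ξ‖ ^ 2 := by
  rw [WithLp.prod_norm_sq_eq_of_L2]
  have e1 : (gpaPhi J ξ τ y).fst = y ξ := rfl
  have e2 : (gpaPhi J ξ τ y).snd = ((√τ : ℝ) : ℂ) • J (star y ξ) := rfl
  rw [e1, e2, norm_smul, LinearIsometryEquiv.norm_map, Complex.norm_real, mul_pow,
    Real.norm_eq_abs, sq_abs, Real.sq_sqrt hτ]

/-- The graph distance to `A'` is the norm of a complex linear map. -/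
theorem gpa_R (J : H ≃ₗᵢ⋆[ℂ] H) (A' : VN H) (ξ : H) :
    ∃ R : ℝ → (Op H →ₗ[ℂ] WithLp 2 (H × H)), ∀ τ, 0 ≤ τ → (∀ y ∈ A', R τ y = 0) ∧
      (∀ x, ‖R τ x‖ ^ 2 ≤ ‖x ξ‖ ^ 2 + τ * ‖star x ξ‖ ^ 2) ∧
      ∀ x, ∀ ε > 0, ∃ y ∈ A',
        ‖(x - y) ξ‖ ^ 2 + τ * ‖star (x - y) ξ‖ ^ 2 ≤ ‖R τ x‖ ^ 2 + ε := by
  let G₀ : ℝ → Submodule ℂ (WithLp 2 (H × H)) := fun τ =>
    (Subalgebra.toSubmodule A'.toStarSubalgebra.toSubalgebra).map (gpaPhi J ξ τ)
  let G : ℝ → Submodule ℂ (WithLp 2 (H × H)) := fun τ => (G₀ τ).topologicalClosure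
  have : ∀ τ, CompleteSpace (G τ) := fun τ => by
    simp only [G]; infer_instance
  refine ⟨fun τ => ((G τ)ᗮ.starProjection : _ →L[ℂ] _).toLinearMap.comp (gpaPhi J ξ τ),
    fun τ hτ => ⟨fun y hy => ?_, fun x => ?_, fun x ε hε => ?_⟩⟩
  · refine Submodule.starProjection_orthogonal_apply_eq_zero ?_
    exact (G₀ τ).le_topologicalClosure ⟨y, hy, rfl⟩
  · rw [← gpaPhi_norm_sq J ξ hτ]
    exact pow_le_pow_left₀ (norm_nonneg _) (Submodule.norm_starProjection_apply_le _ _) 2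
  · set v := gpaPhi J ξ τ x with hv
    have hmem : (G τ).starProjection v ∈ closure (G₀ τ : Set (WithLp 2 (H × H))) :=
      (G τ).starProjection_apply_mem v
    obtain ⟨w, ⟨y, hy, rfl⟩, hw⟩ := Metric.mem_closure_iff.1 hmem (√ε) (Real.sqrt_pos.2 hε)
    refine ⟨y, hy, ?_⟩
    have hyG : gpaPhi J ξ τ y ∈ G τ := (G₀ τ).le_topologicalClosure ⟨y, hy, rfl⟩
    rw [← gpaPhi_norm_sq J ξ hτ, map_sub, ← hv,
      Submodule.norm_sq_eq_add_norm_sq_starProjection _ (G τ), map_sub, map_sub,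
      Submodule.starProjection_orthogonal_apply_eq_zero hyG, sub_zero,
      Submodule.starProjection_eq_self_iff.2 hyG, add_comm]
    rw [dist_eq_norm] at hw
    have h2 : ‖(G τ).starProjection v - gpaPhi J ξ τ y‖ ^ 2 ≤ ε := by
      rw [← Real.sq_sqrt hε.le]
      exact pow_le_pow_left₀ (norm_nonneg _) hw.le 2
    exact add_le_add le_rfl h2

/-- The weighted matrix of graph distances is a bounded linear map of small norm. -/
theorem gpa_U {E : Type*} [NormedAddCommGroup E] [InnerProductSpace ℂ E] {A A' : VN H} {γ : ℝ}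
    (hγ : 0 ≤ γ) (hN : Near A A' γ) (ξ : H) (R : ℝ → (Op H →ₗ[ℂ] E))
    (hR0 : ∀ τ, 0 ≤ τ → ∀ y ∈ A', R τ y = 0)
    (hR1 : ∀ τ, 0 ≤ τ → ∀ x, ‖R τ x‖ ^ 2 ≤ ‖x ξ‖ ^ 2 + τ * ‖star x ξ‖ ^ 2)
    {D : Type} [Fintype D] (lam : D → ℝ) (hl : ∀ b, 0 < lam b) (hs : ∑ b, lam b ≤ 1) :
    ∃ U : Alg (ampVN D A) →L[ℂ] PiLp 2 (fun _ : D × D => E),
      ‖U‖ ^ 2 ≤ 2 * (cA * γ) ^ 2 * ‖ξ‖ ^ 2 ∧ ∀ X : Alg (ampVN D A),
        ‖U X‖ ^ 2 = ∑ a, ∑ b, lam b * ‖R (lam a / lam b) (ent (X : Op (L2 D H)) a b)‖ ^ 2 := by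
  let U₀ : Op (L2 D H) →ₗ[ℂ] PiLp 2 (fun _ : D × D => E) :=
    { toFun := fun X => WithLp.toLp 2 fun p =>
        ((√(lam p.2) : ℝ) : ℂ) • R (lam p.1 / lam p.2) (ent X p.1 p.2)
      map_add' := fun X Y => by
        rw [← WithLp.toLp_add]
        congr 1
        funext p
        rw [Pi.add_apply, ent_add, map_add, smul_add]
      map_smul' := fun c X => by
        rw [RingHom.id_apply, ← WithLp.toLp_smul]
        congr 1
        funext p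
        rw [Pi.smul_apply, ent_smul, map_smul, smul_comm c] }
  have hτ : ∀ a b, 0 ≤ lam a / lam b := fun a b => (div_pos (hl a) (hl b)).le
  have hU₀ : ∀ X, ‖U₀ X‖ ^ 2 = ∑ a, ∑ b, lam b * ‖R (lam a / lam b) (ent X a b)‖ ^ 2 := by
    intro X
    rw [PiLp.norm_sq_eq_of_L2, Fintype.sum_prod_type]
    refine Finset.sum_congr rfl fun a _ => Finset.sum_congr rfl fun b _ => ?_
    have e : U₀ X (a, b) = ((√(lam b) : ℝ) : ℂ) • R (lam a / lam b) (ent X a b) := rfl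
    rw [e, norm_smul, Complex.norm_real, mul_pow, Real.norm_eq_abs, sq_abs,
      Real.sq_sqrt (hl b).le]
  have hbd : ∀ X, ‖U₀ X‖ ^ 2 ≤ 2 * (‖X‖ ^ 2 * ‖ξ‖ ^ 2) := by
    intro X
    have h1 : ∑ a, ∑ b, lam b * ‖ent X a b ξ‖ ^ 2 ≤ ‖X‖ ^ 2 * ‖ξ‖ ^ 2 := by
      rw [Finset.sum_comm]
      calc ∑ b, ∑ a, lam b * ‖ent X a b ξ‖ ^ 2 ≤ ∑ b, lam b * (‖X‖ ^ 2 * ‖ξ‖ ^ 2) := by
            refine Finset.sum_le_sum fun b _ => ?_
            rw [← Finset.mul_sum]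
            exact mul_le_mul_of_nonneg_left (sum_ent_col_le X b _ ξ) (hl b).le
        _ ≤ ‖X‖ ^ 2 * ‖ξ‖ ^ 2 := by
            rw [← Finset.sum_mul]
            exact mul_le_of_le_one_left (by positivity) hs
    have h2 : ∑ a, ∑ b, lam a * ‖star (ent X a b) ξ‖ ^ 2 ≤ ‖X‖ ^ 2 * ‖ξ‖ ^ 2 := by
      calc ∑ a, ∑ b, lam a * ‖star (ent X a b) ξ‖ ^ 2 ≤ ∑ a, lam a * (‖X‖ ^ 2 * ‖ξ‖ ^ 2) := by
            refine Finset.sum_le_sum fun a _ => ?_
            rw [← Finset.mul_sum]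
            exact mul_le_mul_of_nonneg_left (sum_ent_row_le X a _ ξ) (hl a).le
        _ ≤ ‖X‖ ^ 2 * ‖ξ‖ ^ 2 := by
            rw [← Finset.sum_mul]
            exact mul_le_of_le_one_left (by positivity) hs
    have h3 : ∑ a, ∑ b, lam b * ‖R (lam a / lam b) (ent X a b)‖ ^ 2 ≤
        ∑ a, ∑ b, lam b * ‖ent X a b ξ‖ ^ 2 + ∑ a, ∑ b, lam a * ‖star (ent X a b) ξ‖ ^ 2 := by
      rw [← Finset.sum_add_distrib]
      refine Finset.sum_le_sum fun a _ => ?_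
      rw [← Finset.sum_add_distrib]
      refine Finset.sum_le_sum fun b _ => ?_
      refine (mul_le_mul_of_nonneg_left (hR1 _ (hτ a b) _) (hl b).le).trans (le_of_eq ?_)
      have := (hl b).ne'
      field_simp
    rw [hU₀]
    linarith
  have hkill : ∀ Y ∈ ampVN D A', U₀ Y = 0 := by
    intro Y hY
    have : ‖U₀ Y‖ ^ 2 = 0 := by
      rw [hU₀]
      refine Finset.sum_eq_zero fun a _ => Finset.sum_eq_zero fun b _ => ?_
      rw [hR0 _ (hτ a b) _ (mem_ampVN.1 hY a b), norm_zero]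
      simp
    exact norm_eq_zero.1 (pow_eq_zero_iff two_ne_zero |>.1 this)
  have hcA : 0 ≤ cA * γ := mul_nonneg (zero_le_one.trans one_le_cA) hγ
  let U₁ : Alg (ampVN D A) →ₗ[ℂ] PiLp 2 (fun _ : D × D => E) :=
    U₀.comp (ampVN D A).toStarSubalgebra.subtype.toLinearMap
  have hU₁ : ∀ X : Alg (ampVN D A), ‖U₁ X‖ ≤ (√2 * (cA * γ) * ‖ξ‖) * ‖X‖ := by
    intro X
    obtain ⟨Y, hY, hXY⟩ := (hN.ampVN (I := D) hγ) X X.2
    have e : U₁ X = U₀ ((X : Op (L2 D H)) - Y) := by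
      rw [map_sub, hkill Y hY, sub_zero]; rfl
    rw [e]
    refine (sq_le_sq₀ (norm_nonneg _) (by positivity)).1 ?_
    refine (hbd _).trans ?_
    have h4 : ‖(X : Op (L2 D H)) - Y‖ ^ 2 ≤ (cA * γ * ‖X‖) ^ 2 :=
      pow_le_pow_left₀ (norm_nonneg _) hXY 2
    have e2 : (√2 * (cA * γ) * ‖ξ‖ * ‖X‖) ^ 2 = 2 * ((cA * γ * ‖X‖) ^ 2 * ‖ξ‖ ^ 2) := by
      rw [mul_pow, mul_pow, mul_pow, Real.sq_sqrt (by norm_num)]; ring
    rw [e2]
    gcongr
  refine ⟨U₁.mkContinuous _ hU₁, ?_, fun X => hU₀ X⟩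
  have h5 := LinearMap.mkContinuous_norm_le U₁ (by positivity) hU₁
  refine (pow_le_pow_left₀ (norm_nonneg _) h5 2).trans (le_of_eq ?_)
  rw [mul_pow, mul_pow, Real.sq_sqrt (by norm_num)]

theorem gpa_norm_sum_inj {I κ : Type*} (s : Finset κ) (f : κ → I) (hf : Set.InjOn f s)
    (v : κ → H) : ‖∑ b ∈ s, (inj (f b) (v b) : L2 I H)‖ ^ 2 = ∑ b ∈ s, ‖v b‖ ^ 2 := by
  classical
  have h1 : ∀ b ∈ s, (∑ b' ∈ s, (inj (f b') (v b') : L2 I H)) (f b) = v b := by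
    intro b hb
    rw [← prj_apply, map_sum, Finset.sum_eq_single b]
    · rw [prj_apply, l2_inj_self]
    · intro b' hb' hne
      rw [prj_apply, l2_inj_ne]
      exact fun h => hne (hf hb' hb h.symm)
    · intro h; exact absurd hb h
  rw [@norm_sq_eq_re_inner ℂ, sum_inner, map_sum]
  refine Finset.sum_congr rfl fun b hb => ?_
  rw [inner_inj_left, h1 b hb, @norm_sq_eq_re_inner ℂ]

/-- The partial permutation matrix with entry `k • x`. -/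
def gpaX {D : Type} (k : ℝ) (s : Finset D) (π : D → D) (x : Op H) : Op (L2 D H) :=
  ((√k : ℝ) : ℂ) • ∑ b ∈ s, one1 (π b) b x

theorem gpaX_mem {D : Type} (k : ℝ) (s : Finset D) (π : D → D) {A : VN H} {x : Op H}
    (hx : x ∈ A) : gpaX k s π x ∈ ampVN D A :=
  smul_mem' _ (sum_mem fun b _ => one1_mem_ampVN (π b) b hx)

theorem gpaX_ent {D : Type} [DecidableEq D] (k : ℝ) (s : Finset D) (π : D → D) (x : Op H)
    (a b : D) : ent (gpaX k s π x) a b =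
      if a = π b ∧ b ∈ s then ((√k : ℝ) : ℂ) • x else 0 := by
  have h : ∀ t : Finset D, ent (∑ b' ∈ t, one1 (π b') b' x) a b =
      ∑ b' ∈ t, ent (one1 (π b') b' x) a b := by
    intro t
    induction t using Finset.induction_on with
    | empty => simp only [Finset.sum_empty]; ext v; rfl
    | insert c t hc ih => rw [Finset.sum_insert hc, Finset.sum_insert hc, ent_add, ih]
  rw [gpaX, ent_smul, h]
  by_cases hb : b ∈ s
  · rw [Finset.sum_eq_single b]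
    · rw [ent_one1]
      by_cases ha : a = π b <;> simp [ha, hb]
    · intro b' _ hne
      rw [ent_one1, if_neg]
      exact fun h => hne h.2.symm
    · intro h; exact absurd hb h
  · rw [if_neg (fun h => hb h.2), Finset.sum_eq_zero, smul_zero]
    intro b' hb'
    rw [ent_one1, if_neg]
    exact fun h => hb (h.2 ▸ hb')

theorem gpaX_col {D : Type} {k : ℝ} (hk : 0 ≤ k) {s : Finset D} {π : D → D}
    (hπ : Set.InjOn π s) (x : Op H) (v : L2 D H) :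
    ‖gpaX k s π x v‖ ^ 2 = k * ∑ b ∈ s, ‖x (v b)‖ ^ 2 := by
  rw [gpaX, smul_apply, norm_smul, Complex.norm_real, mul_pow,
    Real.norm_eq_abs, sq_abs, Real.sq_sqrt hk, sum_apply]
  simp only [l2_one1_apply]
  rw [gpa_norm_sum_inj s π hπ]

theorem gpaX_row {D : Type} {k : ℝ} (hk : 0 ≤ k) (s : Finset D) (π : D → D)
    (x : Op H) (v : L2 D H) :
    ‖star (gpaX k s π x) v‖ ^ 2 = k * ∑ b ∈ s, ‖star x (v (π b))‖ ^ 2 := by
  rw [gpaX, star_smul, smul_apply, norm_smul, norm_star, Complex.norm_real,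
    mul_pow, Real.norm_eq_abs, sq_abs, Real.sq_sqrt hk, star_sum, sum_apply]
  simp only [star_one1, l2_one1_apply]
  rw [gpa_norm_sum_inj s (fun b => b) (fun _ _ _ _ h => h)]

theorem gpa_sum_norm_sq {D : Type} [Fintype D] (v : L2 D H) : ∑ b, ‖v b‖ ^ 2 = ‖v‖ ^ 2 :=
  (hasSum_fintype _).unique (hasSum_norm_sq_L2 v)

/-- Counting: `∑_r ∑_{b ∈ s r} f b = ∑_b #{r | b ∈ s r} f b`. -/
theorem gpa_count {D ρ : Type} [Fintype D] [DecidableEq D] [Fintype ρ] (s : ρ → Finset D)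
    (f : D → ℝ) (hf : ∀ b, 0 ≤ f b) {k w : ℝ}
    (h : ∀ b, k * ((Finset.univ.filter fun r => b ∈ s r).card : ℝ) ≤ w) :
    ∑ r, k * ∑ b ∈ s r, f b ≤ w * ∑ b, f b := by
  have e : ∀ r, ∑ b ∈ s r, f b = ∑ b, if b ∈ s r then f b else 0 := by
    intro r
    rw [Finset.sum_ite_mem, Finset.univ_inter]
  simp only [e]
  rw [← Finset.mul_sum, Finset.sum_comm, Finset.mul_sum, Finset.mul_sum]
  refine Finset.sum_le_sum fun b _ => ?_
  rw [← Finset.sum_filter, Finset.sum_const, nsmul_eq_mul, ← mul_assoc]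
  exact mul_le_mul_of_nonneg_right (h b) (hf b)

theorem gpa_floor (u : ℝ) : ∃ m : ℤ, Real.exp (-u) ≤ (2 : ℝ) ^ (-m) ∧
    (2 : ℝ) ^ (-m) ≤ 2 * Real.exp (-u) := by
  obtain ⟨m, h1, h2⟩ := exists_mem_Ico_zpow (Real.exp_pos u) (one_lt_two (α := ℝ))
  have hp : (0 : ℝ) < 2 ^ m := zpow_pos two_pos m
  refine ⟨m, ?_, ?_⟩
  · rw [Real.exp_neg, zpow_neg]
    exact inv_anti₀ hp h1
  · rw [Real.exp_neg, zpow_neg, ← div_eq_mul_inv, inv_eq_one_div,
      div_le_div_iff₀ hp (Real.exp_pos u)]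
    rw [zpow_add_one₀ two_ne_zero] at h2
    linarith

end

end Crest.Agent.R78
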