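import Crest.Agent.R78.Proj
import Crest.Agent.R78.Mean

/-!
# Row 78: the space `[Z ξ]` and the graph lemma
-/

open scoped InnerProductSpace Topology ComplexConjugate
open Filter MeasureTheory

set_option linter.unusedSectionVars false

namespace Crest.Agent.R78

open Crest.Agent.R121 (Alg)

noncomputable section

universe u

variable {H : Type*} [NormedAddCommGroup H] [InnerProductSpace ℂ H] [CompleteSpace H]

variable {A : VN H} {ξ : H}

theorem Graph_mem_of_comm {x : Op H} (h : ∀ y ∈ A.commutant, Commute y x) : x ∈ A := by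
  have := (mem_comm (P := A.commutant)).2 h
  rwa [VonNeumannAlgebra.commutant_commutant] at this

theorem Graph_cen_one (A : VN H) : Cen A 1 := ⟨one_mem _, one_mem _⟩

theorem Graph_cen_zero (A : VN H) : Cen A 0 := ⟨zero_mem _, zero_mem _⟩

theorem Graph_cen_add {x y : Op H} (hx : Cen A x) (hy : Cen A y) : Cen A (x + y) :=
  ⟨add_mem hx.1 hy.1, add_mem hx.2 hy.2⟩

theorem Graph_cen_sub {x y : Op H} (hx : Cen A x) (hy : Cen A y) : Cen A (x - y) :=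
  ⟨sub_mem hx.1 hy.1, sub_mem hx.2 hy.2⟩

theorem Graph_cen_mul {x y : Op H} (hx : Cen A x) (hy : Cen A y) : Cen A (x * y) :=
  ⟨mul_mem hx.1 hy.1, mul_mem hx.2 hy.2⟩

theorem Graph_cen_smul (c : ℂ) {x : Op H} (hx : Cen A x) : Cen A (c • x) :=
  ⟨smul_mem' c hx.1, smul_mem' c hx.2⟩

theorem Graph_cen_star {x : Op H} (hx : Cen A x) : Cen A (star x) :=
  ⟨star_mem hx.1, star_mem hx.2⟩

theorem Graph_cen_comm {x y : Op H} (hx : Cen A x) (hy : Cen A y) : Commute x y :=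
  mem_comm.1 hy.2 x hx.1

/-- Everything commuting with whatever commutes with a central element is central. -/
theorem Graph_cen_of_bicomm {n q : Op H} (hn : Cen A n) (h : ∀ y, Commute y n → Commute y q) :
    Cen A q :=
  ⟨Graph_mem_of_comm fun y hy => h y (mem_comm.1 hy n hn.1).symm,
    mem_comm.2 fun x hx => h x (mem_comm.1 hn.2 x hx)⟩

theorem Graph_inner_star (T : Op H) (v w : H) : ⟪star T v, w⟫_ℂ = ⟪v, T w⟫_ℂ :=
  ContinuousLinearMap.adjoint_inner_left T w v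

theorem Graph_inner_star' (T : Op H) (v w : H) : ⟪v, star T w⟫_ℂ = ⟪T v, w⟫_ℂ :=
  ContinuousLinearMap.adjoint_inner_right T v w

theorem Graph_comm_apply {S T : Op H} (h : Commute S T) (v : H) : S (T v) = T (S v) :=
  congrArg (fun X : Op H => X v) h.eq

theorem Graph_norm_sq_star (T : Op H) (v : H) : (⟪v, (star T * T) v⟫_ℂ).re = ‖T v‖ ^ 2 := by
  change (⟪v, star T (T v)⟫_ℂ).re = _
  rw [Graph_inner_star', ← inner_self_eq_norm_sq (𝕜 := ℂ)]
  rfl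

theorem Graph_norm_star {c : Op H} (hc : Cen A c) (v : H) : ‖star c v‖ = ‖c v‖ := by
  have h1 := Graph_norm_sq_star c v
  have h2 := Graph_norm_sq_star (star c) v
  rw [star_star, (Graph_cen_comm hc (Graph_cen_star hc)).eq, h1] at h2
  exact ((pow_left_inj₀ (norm_nonneg _) (norm_nonneg _) two_ne_zero).1 h2).symm

/-- Closed properties of `z ξ` pass to `[Z ξ]`. -/
theorem Graph_zsp_ind {p : H → Prop} (hp : IsClosed {v | p v}) (h : ∀ z, Cen A z → p (z ξ)) {v : H}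
    (hv : v ∈ zsp A ξ) : p v := by
  have h1 : ∀ w ∈ Submodule.span ℂ {v | ∃ z, Cen A z ∧ v = z ξ}, ∃ z, Cen A z ∧ w = z ξ := by
    intro w hw
    induction hw using Submodule.span_induction with
    | mem x hx => exact hx
    | zero => exact ⟨0, Graph_cen_zero A, rfl⟩
    | add x y _ _ hx hy =>
      obtain ⟨a, ha, rfl⟩ := hx
      obtain ⟨b, hb, rfl⟩ := hy
      exact ⟨a + b, Graph_cen_add ha hb, rfl⟩
    | smul c x _ hx =>
      obtain ⟨a, ha, rfl⟩ := hx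
      exact ⟨c • a, Graph_cen_smul c ha, rfl⟩
  refine closure_minimal (s := (Submodule.span ℂ {v | ∃ z, Cen A z ∧ v = z ξ} : Set H))
    (t := {v | p v}) (fun w hw => ?_) hp hv
  obtain ⟨z, hz, rfl⟩ := h1 w hw
  exact h z hz

/-- An operator leaving a closed subspace and its complement invariant commutes with the
projection. -/
theorem Graph_proj_comm {K : Type*} [NormedAddCommGroup K] [InnerProductSpace ℂ K]
    (G : Submodule ℂ K) [G.HasOrthogonalProjection] {T T' : K →L[ℂ] K}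
    (hT : ∀ p q, ⟪p, T q⟫_ℂ = ⟪T' p, q⟫_ℂ) (h : ∀ p ∈ G, T p ∈ G) (h' : ∀ p ∈ G, T' p ∈ G) (p : K) :
    G.starProjection (T p) = T (G.starProjection p) := by
  refine Submodule.eq_starProjection_of_mem_orthogonal (h _ (G.starProjection_apply_mem p)) ?_
  rw [← map_sub, Submodule.mem_orthogonal]
  intro g hg
  rw [hT]
  exact (Submodule.mem_orthogonal _ _).1 (G.sub_starProjection_mem_orthogonal p) _ (h' g hg)

theorem eZ_proj (A : VN H) (ξ : H) : IsStarProjection (eZ A ξ) := by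
  exact isStarProjection_starProjection

theorem eZ_mem (A : VN H) (ξ v : H) : eZ A ξ v ∈ zsp A ξ := by
  exact (zsp A ξ).starProjection_apply_mem v

theorem eZ_of_mem {v : H} (hv : v ∈ zsp A ξ) : eZ A ξ v = v := by
  exact Submodule.starProjection_eq_self_iff.2 hv

theorem norm_sub_eZ_le (v : H) {w : H} (hw : w ∈ zsp A ξ) : ‖v - eZ A ξ v‖ ≤ ‖v - w‖ := by
  unfold eZ
  rw [Submodule.starProjection_minimal]
  exact ciInf_le ⟨0, by rintro _ ⟨x, rfl⟩; exact norm_nonneg _⟩ (⟨w, hw⟩ : zsp A ξ)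

theorem cen_apply_mem {z : Op H} (hz : Cen A z) : z ξ ∈ zsp A ξ := by
  exact Submodule.le_topologicalClosure _ (Submodule.subset_span ⟨z, hz, rfl⟩)

theorem self_mem_zsp (A : VN H) (ξ : H) : ξ ∈ zsp A ξ := by
  exact cen_apply_mem (z := 1) (Graph_cen_one A)

theorem zsp_commutant (A : VN H) (ξ : H) : zsp A.commutant ξ = zsp A ξ := by
  have h : ∀ z, Cen A.commutant z ↔ Cen A z := fun z => by
    unfold Cen
    rw [VonNeumannAlgebra.commutant_commutant, and_comm]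
  unfold zsp
  simp only [h]

theorem eZ_commutant (A : VN H) (ξ : H) : eZ A.commutant ξ = eZ A ξ := by
  refine ContinuousLinearMap.ext fun v => ?_
  refine Submodule.eq_starProjection_of_mem_orthogonal ?_ ?_
  · rw [zsp_commutant]
    exact eZ_mem A ξ v
  · rw [zsp_commutant]
    exact (zsp A ξ).sub_starProjection_mem_orthogonal v

theorem Graph_isClosed (A : VN H) (ξ : H) : IsClosed (zsp A ξ : Set H) :=
  Submodule.isClosed_topologicalClosure _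

theorem Graph_zsp_inv {z : Op H} (hz : Cen A z) {v : H} (hv : v ∈ zsp A ξ) : z v ∈ zsp A ξ :=
  Graph_zsp_ind (p := fun v => z v ∈ zsp A ξ) ((Graph_isClosed A ξ).preimage z.continuous)
    (fun c hc => cen_apply_mem (z := z * c) (Graph_cen_mul hz hc)) hv

theorem exists_cen_near {v : H} (hv : v ∈ zsp A ξ) {ε : ℝ} (hε : 0 < ε) :
    ∃ z, Cen A z ∧ ‖v - z ξ‖ ≤ ε := by
  have h : v ∈ closure {w | ∃ z, Cen A z ∧ w = z ξ} :=
    Graph_zsp_ind (p := fun v => v ∈ closure {w | ∃ z, Cen A z ∧ w = z ξ}) isClosed_closure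
      (fun z hz => subset_closure ⟨z, hz, rfl⟩) hv
  obtain ⟨_, ⟨z, hz, rfl⟩, h1⟩ := Metric.mem_closure_iff.1 h ε hε
  exact ⟨z, hz, by rw [← dist_eq_norm]; exact h1.le⟩

theorem commute_eZ {z : Op H} (hz : Cen A z) : Commute z (eZ A ξ) := by
  refine ContinuousLinearMap.ext fun v => ?_
  exact (Graph_proj_comm (zsp A ξ) (fun p q => (Graph_inner_star z p q).symm)
    (fun _ => Graph_zsp_inv hz) (fun _ => Graph_zsp_inv (Graph_cen_star hz)) v).symm

/-- Two operators commuting with the centre and agreeing on `ξ` agree on `[Z ξ]`. -/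
theorem eq_on_zsp {K : Type*} [NormedAddCommGroup K] [NormedSpace ℂ K] {S T : H →L[ℂ] K}
    (h : ∀ z, Cen A z → S (z ξ) = T (z ξ)) {v : H} (hv : v ∈ zsp A ξ) : S v = T v := by
  exact Graph_zsp_ind (p := fun v => S v = T v) (isClosed_eq S.continuous T.continuous) h hv

theorem Graph_inner_le {m : Op H} (hm : m ∈ A.commutant) {r : H} (hr : r ∈ zsp A ξ) :
    ‖⟪r, star m ξ⟫_ℂ‖ ≤ ‖m ξ‖ * ‖r‖ := by
  refine Graph_zsp_ind (p := fun r => ‖⟪r, star m ξ⟫_ℂ‖ ≤ ‖m ξ‖ * ‖r‖)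
    (isClosed_le (by fun_prop) (by fun_prop)) (fun c hc => ?_) hr
  rw [Graph_inner_star', ← Graph_comm_apply (mem_comm.1 hm c hc.1), ← Graph_inner_star',
    ← Graph_norm_star hc]
  exact norm_inner_le_norm _ _

theorem Graph_star_le (hc : Cyc A.commutant ξ) {d : Op H} (hd : d ∈ A) (h : d ξ ∈ zsp A ξ) :
    ‖star d ξ‖ ≤ ‖d ξ‖ := by
  have h1 : ∀ s : H, ‖⟪s, star d ξ⟫_ℂ‖ ≤ ‖s‖ * ‖d ξ‖ := by
    intro s
    refine hc.induction (P := fun s => ‖⟪s, star d ξ⟫_ℂ‖ ≤ ‖s‖ * ‖d ξ‖) ?_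
      (isClosed_le (by fun_prop) (by fun_prop)) s
    rintro _ ⟨m, hm, rfl⟩
    change ‖⟪m ξ, star d ξ⟫_ℂ‖ ≤ ‖m ξ‖ * ‖d ξ‖
    rw [Graph_inner_star', Graph_comm_apply (mem_comm.1 hm d hd), ← Graph_inner_star']
    exact Graph_inner_le hm h
  have h2 := h1 (star d ξ)
  rw [inner_self_eq_norm_sq_to_K, norm_pow, RCLike.norm_ofReal, abs_norm, sq] at h2
  rcases (norm_nonneg (star d ξ)).eq_or_lt with h0 | h0
  · rw [← h0]
    exact norm_nonneg _
  · exact le_of_mul_le_mul_left h2 h0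

/-- `y ∈ A` with `y ξ ∈ [Z ξ]` is central. Recipe: `z_k ξ → y ξ`; `‖z⋆ ξ‖ = ‖z ξ‖` for central
(normal) `z`, so `z_k⋆ ξ → ζ`, and `⟪n' ξ, ζ⟫ = ⟪y ξ, n'⋆ ξ⟫ = ⟪n' ξ, y⋆ ξ⟫` gives `ζ = y⋆ ξ`; then
`⟪n' ξ, n y ξ⟫ = lim ⟪n' z_k⋆ ξ, n ξ⟫ = ⟪n' ξ, y n ξ⟫`, so `n y ξ = y n ξ`, `n y = y n`. -/
theorem cen_of_apply_mem (hc : Cyc A.commutant ξ) {y : Op H} (hy : y ∈ A)
    (h : y ξ ∈ zsp A ξ) : Cen A y := by
  refine ⟨hy, mem_comm.2 fun n hn => ?_⟩
  refine sub_eq_zero.1 (hc.sep (sub_mem (mul_mem hn hy) (mul_mem hy hn)) ?_)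
  refine hc.ext_inner fun m hm => ?_
  rw [inner_zero_right]
  refine norm_le_zero_iff.1 (le_of_forall_pos_le_add fun ε hε => ?_)
  set C := ‖m ξ‖ * ‖n‖ + ‖m‖ * ‖n ξ‖ + 1 with hC
  have hC0 : 0 < C := by positivity
  obtain ⟨z, hz, h1⟩ := exists_cen_near h (div_pos hε hC0)
  have hd : y - z ∈ A := sub_mem hy hz.1
  have h2 : ‖(y - z) ξ‖ ≤ ε / C := h1
  have h3 : ‖star (y - z) ξ‖ ≤ ε / C :=
    (Graph_star_le hc hd (sub_mem h (cen_apply_mem hz))).trans h2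
  have e : n * y - y * n = n * (y - z) - (y - z) * n := by
    rw [mul_sub, sub_mul, (mem_comm.1 hz.2 n hn).eq]
    abel
  have e2 : ⟪m ξ, (n * y - y * n) ξ⟫_ℂ =
      ⟪m ξ, n ((y - z) ξ)⟫_ℂ - ⟪m (star (y - z) ξ), n ξ⟫_ℂ := by
    rw [e, ← Graph_comm_apply (mem_comm.1 hm _ (star_mem hd)), Graph_inner_star, ← inner_sub_right]
    rfl
  have a1 : ‖⟪m ξ, n ((y - z) ξ)⟫_ℂ‖ ≤ ‖m ξ‖ * (‖n‖ * (ε / C)) :=
    (norm_inner_le_norm _ _).trans (mul_le_mul_of_nonneg_left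
      ((n.le_opNorm _).trans (mul_le_mul_of_nonneg_left h2 (norm_nonneg _))) (norm_nonneg _))
  have a2 : ‖⟪m (star (y - z) ξ), n ξ⟫_ℂ‖ ≤ ‖m‖ * (ε / C) * ‖n ξ‖ :=
    (norm_inner_le_norm _ _).trans (mul_le_mul_of_nonneg_right
      ((m.le_opNorm _).trans (mul_le_mul_of_nonneg_left h3 (norm_nonneg _))) (norm_nonneg _))
  have a3 : C * (ε / C) = ε := mul_div_cancel₀ _ hC0.ne'
  have a4 := div_pos hε hC0
  rw [e2]
  refine (norm_sub_le _ _).trans ?_
  rw [hC] at a3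
  rw [hC] at a1 a2 a4
  nlinarith

/-- The pair `(a, b)` in `H ⊕ H`. -/
abbrev Graph_pr (a b : H) : WithLp 2 (H × H) := WithLp.toLp 2 (a, b)

/-- The diagonal operator on `H ⊕ H`. -/
def Graph_dg (T : Op H) : WithLp 2 (H × H) →L[ℂ] WithLp 2 (H × H) :=
  ((WithLp.prodContinuousLinearEquiv 2 ℂ H H).symm : H × H →L[ℂ] WithLp 2 (H × H)).comp
    ((T.prodMap T).comp (WithLp.prodContinuousLinearEquiv 2 ℂ H H : WithLp 2 (H × H) →L[ℂ] H × H))

theorem Graph_dg_apply (T : Op H) (p : WithLp 2 (H × H)) :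
    Graph_dg T p = Graph_pr (T p.fst) (T p.snd) := rfl

theorem Graph_dg_inner (T : Op H) (p q : WithLp 2 (H × H)) :
    ⟪p, Graph_dg T q⟫_ℂ = ⟪Graph_dg (star T) p, q⟫_ℂ := by
  rw [WithLp.prod_inner_apply, WithLp.prod_inner_apply]
  exact congrArg₂ (· + ·) (Graph_inner_star T _ _).symm (Graph_inner_star T _ _).symm

/-- The graph. -/
def Graph_G (A : VN H) (ξ v : H) : Submodule ℂ (WithLp 2 (H × H)) :=
  Submodule.topologicalClosure
    { carrier := {p | ∃ x ∈ A, p = Graph_pr (x ξ) (x v)}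
      add_mem' := by
        rintro _ _ ⟨x, hx, rfl⟩ ⟨y, hy, rfl⟩
        exact ⟨x + y, add_mem hx hy, rfl⟩
      zero_mem' := ⟨0, zero_mem _, rfl⟩
      smul_mem' := by
        rintro c _ ⟨x, hx, rfl⟩
        exact ⟨c • x, smul_mem' c hx, rfl⟩ }

instance (A : VN H) (ξ v : H) : CompleteSpace (Graph_G A ξ v) := by
  unfold Graph_G; infer_instance

theorem Graph_G_closed (A : VN H) (ξ v : H) :
    IsClosed (Graph_G A ξ v : Set (WithLp 2 (H × H))) := Submodule.isClosed_topologicalClosure _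

theorem Graph_G_mem {v : H} {x : Op H} (hx : x ∈ A) : Graph_pr (x ξ) (x v) ∈ Graph_G A ξ v :=
  subset_closure (s := {p | ∃ x ∈ A, p = Graph_pr (x ξ) (x v)}) ⟨x, hx, rfl⟩

theorem Graph_G_ind {v : H} {P : WithLp 2 (H × H) → Prop} (hP : IsClosed {p | P p})
    (h : ∀ x ∈ A, P (Graph_pr (x ξ) (x v))) {p : WithLp 2 (H × H)} (hp : p ∈ Graph_G A ξ v) :
    P p := by
  refine closure_minimal (s := {p | ∃ x ∈ A, p = Graph_pr (x ξ) (x v)}) (t := {p | P p}) ?_ hP hp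
  rintro _ ⟨x, hx, rfl⟩
  exact h x hx

theorem Graph_G_inv {v : H} {a : Op H} (ha : a ∈ A) {p : WithLp 2 (H × H)}
    (hp : p ∈ Graph_G A ξ v) : Graph_dg a p ∈ Graph_G A ξ v :=
  Graph_G_ind (P := fun p => Graph_dg a p ∈ Graph_G A ξ v)
    ((Graph_G_closed A ξ v).preimage (Graph_dg a).continuous)
    (fun x hx => Graph_G_mem (x := a * x) (mul_mem ha hx)) hp

theorem Graph_G_inv' {v : H}
    (h₂ : ∀ y ∈ A.commutant, ∀ ε > 0, ∃ x ∈ A, ‖x ξ - y ξ‖ ≤ ε ∧ ‖x v - y v‖ ≤ ε)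
    {y : Op H} (hy : y ∈ A.commutant) {p : WithLp 2 (H × H)}
    (hp : p ∈ Graph_G A ξ v) : Graph_dg y p ∈ Graph_G A ξ v := by
  have h0 : Graph_pr (y ξ) (y v) ∈ Graph_G A ξ v := by
    rw [← SetLike.mem_coe, ← (Graph_G_closed A ξ v).closure_eq, Metric.mem_closure_iff]
    intro ε hε
    obtain ⟨x, hx, h1, h2⟩ := h₂ y hy (ε / 2) (by linarith)
    refine ⟨_, Graph_G_mem hx, ?_⟩
    rw [dist_comm, dist_eq_norm]
    refine lt_of_pow_lt_pow_left₀ 2 hε.le ?_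
    rw [WithLp.prod_norm_sq_eq_of_L2]
    change ‖x ξ - y ξ‖ ^ 2 + ‖x v - y v‖ ^ 2 < ε ^ 2
    have a1 := pow_le_pow_left₀ (norm_nonneg _) h1 2
    have a2 := pow_le_pow_left₀ (norm_nonneg _) h2 2
    nlinarith
  refine Graph_G_ind (P := fun p => Graph_dg y p ∈ Graph_G A ξ v)
    ((Graph_G_closed A ξ v).preimage (Graph_dg y).continuous) (fun x hx => ?_) hp
  have h1 := Graph_G_inv hx h0
  have e : Graph_dg y (Graph_pr (x ξ) (x v)) = Graph_dg x (Graph_pr (y ξ) (y v)) := by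
    change Graph_pr (y (x ξ)) (y (x v)) = Graph_pr (x (y ξ)) (x (y v))
    rw [Graph_comm_apply (mem_comm.1 hy x hx), Graph_comm_apply (mem_comm.1 hy x hx)]
  rwa [e]

/-- The lower entries of the projection onto the graph are central. -/
theorem Graph_ent {v : H}
    (h₂ : ∀ y ∈ A.commutant, ∀ ε > 0, ∃ x ∈ A, ‖x ξ - y ξ‖ ≤ ε ∧ ‖x v - y v‖ ≤ ε)
    (i : H →L[ℂ] WithLp 2 (H × H)) (hi : ∀ (T : Op H) u, i (T u) = Graph_dg T (i u)) :
    ∃ c, Cen A c ∧ ∀ u, c u = ((Graph_G A ξ v).starProjection (i u)).snd := by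
  let c : Op H := (ContinuousLinearMap.snd ℂ H H).comp
    ((WithLp.prodContinuousLinearEquiv 2 ℂ H H : WithLp 2 (H × H) →L[ℂ] H × H).comp
      ((Graph_G A ξ v).starProjection.comp i))
  have hc : ∀ u, c u = ((Graph_G A ξ v).starProjection (i u)).snd := fun _ => rfl
  have key : ∀ T : Op H, (∀ p ∈ Graph_G A ξ v, Graph_dg T p ∈ Graph_G A ξ v) →
      (∀ p ∈ Graph_G A ξ v, Graph_dg (star T) p ∈ Graph_G A ξ v) → Commute T c := by
    intro T h1 h2
    refine ContinuousLinearMap.ext fun u => ?_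
    change T (c u) = c (T u)
    rw [hc, hc, hi, Graph_proj_comm _ (Graph_dg_inner T) h1 h2]
    rfl
  exact ⟨c, ⟨Graph_mem_of_comm fun y hy => key y (fun _ => Graph_G_inv' h₂ hy)
      fun _ => Graph_G_inv' h₂ (star_mem hy),
    mem_comm.2 fun x hx => key x (fun _ => Graph_G_inv hx) fun _ => Graph_G_inv (star_mem hx)⟩, hc⟩

/-- Graph lemma. Recipe: in `R124.Amp (Fin 2) H` let `G` be the closure of `{(x ξ, x v) : x ∈ A}`;
by `h₁`, `h₂` it is also the closure of `{(y ξ, y v) : y ∈ A'}`, so the projection `Π` onto `G`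
commutes with `amp x` and `amp y`: its entries are central. `(ξ, v) ∈ G` gives
`(1 - Π₁₁) v = Π₁₀ ξ`, so `u = v - eZ v` satisfies `(1 - Π₁₁) u = 0`, i.e. `(0, u) ∈ G`
(`‖Π (0,u)‖² = re ⟪u, Π₁₁ u⟫ = ‖u‖²`). The same holds for `(0, a u)`, `a ∈ A` or `a ∈ A'`
(`G` is invariant), and `(w, -ξ) ⊥ G` by `h₃`; so `⟪ξ, a u⟫ = 0` for `a ∈ A`, i.e.
`u ⊥ A ξ`, `u = 0`. -/
theorem mem_zsp_of_graph (hc : Cyc A ξ) {v w : H}
    (h₁ : ∀ x ∈ A, ∀ ε > 0, ∃ y ∈ A.commutant, ‖x ξ - y ξ‖ ≤ ε ∧ ‖x v - y v‖ ≤ ε)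
    (h₂ : ∀ y ∈ A.commutant, ∀ ε > 0, ∃ x ∈ A, ‖x ξ - y ξ‖ ≤ ε ∧ ‖x v - y v‖ ≤ ε)
    (h₃ : ∀ x ∈ A, ⟪ξ, x v⟫_ℂ = ⟪w, x ξ⟫_ℂ) : v ∈ zsp A ξ := by
  have _ := h₁
  obtain ⟨c₀, hc₀, e₀⟩ := Graph_ent h₂
    (((WithLp.prodContinuousLinearEquiv 2 ℂ H H).symm : H × H →L[ℂ] WithLp 2 (H × H)).comp
      (ContinuousLinearMap.inl ℂ H H)) fun T u => by
        change Graph_pr (T u) 0 = Graph_pr (T u) (T 0)
        rw [map_zero]
  obtain ⟨c₁, hc₁, e₁⟩ := Graph_ent h₂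
    (((WithLp.prodContinuousLinearEquiv 2 ℂ H H).symm : H × H →L[ℂ] WithLp 2 (H × H)).comp
      (ContinuousLinearMap.inr ℂ H H)) fun T u => by
        change Graph_pr 0 (T u) = Graph_pr (T 0) (T u)
        rw [map_zero]
  replace e₀ : ∀ u, c₀ u = ((Graph_G A ξ v).starProjection (Graph_pr u 0)).snd := e₀
  replace e₁ : ∀ u, c₁ u = ((Graph_G A ξ v).starProjection (Graph_pr 0 u)).snd := e₁
  have a1 : c₀ ξ + c₁ v = v := by
    have b1 : Graph_pr ξ v ∈ Graph_G A ξ v := Graph_G_mem (x := 1) (one_mem _)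
    have b2 : Graph_pr ξ v = Graph_pr ξ 0 + Graph_pr 0 v := by
      change _ = Graph_pr (ξ + 0) (0 + v)
      rw [add_zero, zero_add]
    have b3 := Submodule.starProjection_eq_self_iff.2 b1
    rw [e₀, e₁, ← WithLp.add_snd, ← map_add, ← b2, b3]
    rfl
  set u := v - eZ A ξ v with hu
  have a2 : c₁ u = u := by
    have b1 : c₁ v = v - c₀ ξ := eq_sub_of_add_eq' a1
    rw [hu, map_sub, Graph_comm_apply (commute_eZ hc₁), b1, map_sub, eZ_of_mem (cen_apply_mem hc₀)]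
    abel
  have a3 : Graph_pr 0 u ∈ Graph_G A ξ v := by
    set r := Graph_pr 0 u - (Graph_G A ξ v).starProjection (Graph_pr 0 u) with hr
    have b1 : r.snd = 0 := by
      rw [hr, WithLp.sub_snd, ← e₁, a2]
      exact sub_self u
    have b2 : ⟪(Graph_G A ξ v).starProjection (Graph_pr 0 u), r⟫_ℂ = 0 :=
      (Submodule.mem_orthogonal _ _).1 ((Graph_G A ξ v).sub_starProjection_mem_orthogonal _) _
        ((Graph_G A ξ v).starProjection_apply_mem _)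
    have b3 : ⟪Graph_pr 0 u, r⟫_ℂ = 0 := by
      rw [WithLp.prod_inner_apply]
      change ⟪(0 : H), r.fst⟫_ℂ + ⟪u, r.snd⟫_ℂ = 0
      rw [b1, inner_zero_left, inner_zero_right, add_zero]
    have b4 : ⟪r, r⟫_ℂ = 0 := by
      nth_rewrite 1 [hr]
      rw [inner_sub_left, b2, b3, sub_zero]
    rw [sub_eq_zero.1 (inner_self_eq_zero.1 b4 : Graph_pr 0 u - _ = 0)]
    exact (Graph_G A ξ v).starProjection_apply_mem _
  have a4 : ∀ p ∈ Graph_G A ξ v, ⟪Graph_pr w (-ξ), p⟫_ℂ = 0 := fun p hp =>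
    Graph_G_ind (P := fun p => ⟪Graph_pr w (-ξ), p⟫_ℂ = 0)
      (isClosed_eq (by fun_prop) continuous_const) (fun x hx => by
        rw [WithLp.prod_inner_apply]
        change ⟪w, x ξ⟫_ℂ + ⟪-ξ, x v⟫_ℂ = 0
        rw [inner_neg_left, h₃ x hx, add_neg_cancel]) hp
  have a5 : u = 0 := hc.ext_inner fun a ha => by
    have b1 := a4 _ (Graph_G_inv (star_mem ha) a3)
    rw [WithLp.prod_inner_apply] at b1
    change ⟪w, star a 0⟫_ℂ + ⟪-ξ, star a u⟫_ℂ = 0 at b1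
    rw [map_zero, inner_zero_right, zero_add, inner_neg_left, neg_eq_zero, Graph_inner_star'] at b1
    rw [b1, inner_zero_right]
  rw [sub_eq_zero.1 (hu.symm.trans a5)]
  exact eZ_mem A ξ v

/-- A central cut: on `z` the central element `c` is bounded below, on `1 - z` above
(`exists_cut` for `c⋆ c`). -/
theorem exists_cp_cut {c : Op H} (hc : Cen A c) {δ : ℝ} (hδ : 0 ≤ δ) :
    ∃ z, CP A z ∧ (∀ v, δ * ‖z v‖ ≤ ‖c (z v)‖) ∧ ∀ v, ‖c ((1 - z) v)‖ ≤ δ * ‖(1 - z) v‖ := by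
  obtain ⟨q, hq, h1, h2, h3⟩ := exists_cut (IsSelfAdjoint.star_mul_self c) (δ ^ 2)
  refine ⟨q, ⟨hq, Graph_cen_of_bicomm (Graph_cen_mul (Graph_cen_star hc) hc) h1⟩, fun v => ?_,
    fun v => ?_⟩
  · have h4 := h2 v
    rw [Graph_norm_sq_star, ← mul_pow] at h4
    exact le_of_pow_le_pow_left₀ two_ne_zero (norm_nonneg _) h4
  · have h4 := h3 v
    rw [Graph_norm_sq_star, ← mul_pow] at h4
    exact le_of_pow_le_pow_left₀ two_ne_zero (mul_nonneg hδ (norm_nonneg _)) h4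

/-- A central inverse on a central cut. -/
theorem exists_cen_inv {c z : Op H} (hc : Cen A c) (hz : CP A z) {δ : ℝ} (hδ : 0 < δ)
    (h : ∀ v, δ * ‖z v‖ ≤ ‖c (z v)‖) : ∃ d, Cen A d ∧ ‖d‖ ≤ δ⁻¹ ∧ d * c = z ∧ z * d = d := by
  have hzc := hz.cen
  have hzz : z * z = z := hz.1.isIdempotentElem.eq
  have hn := Graph_cen_mul (Graph_cen_star hc) hc
  have hb := Graph_cen_mul hc hzc
  set f : Op H := star (c * z) * (c * z) + ((δ ^ 2 : ℝ) : ℂ) • (star (1 - z) * (1 - z)) with hf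
  have h1 := Graph_cen_sub (Graph_cen_one A) hzc
  have hfc : Cen A f := Graph_cen_add (Graph_cen_mul (Graph_cen_star hb) hb)
    (Graph_cen_smul _ (Graph_cen_mul (Graph_cen_star h1) h1))
  have hu : IsUnit f := by
    refine ContinuousLinearMap.isUnit_of_forall_le_norm_inner_map f
      (c := ⟨δ ^ 2, sq_nonneg δ⟩) (pow_pos hδ 2) fun x => ?_
    rw [norm_inner_symm]
    refine le_trans ?_ (Complex.re_le_norm _)
    have e1 : (⟪x, f x⟫_ℂ).re = ‖c (z x)‖ ^ 2 + δ ^ 2 * ‖(1 - z) x‖ ^ 2 := by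
      rw [hf, add_apply, inner_add_right, Complex.add_re, Graph_norm_sq_star,
        smul_apply, inner_smul_right, Complex.re_ofReal_mul, Graph_norm_sq_star]
      rfl
    have e2 : ‖x‖ ^ 2 = ‖z x‖ ^ 2 + ‖(1 - z) x‖ ^ 2 := by
      rw [← Graph_norm_sq_star, ← Graph_norm_sq_star, ← Complex.add_re, ← inner_add_right,
        ← add_apply, hz.1.isSelfAdjoint.star_eq, hz.1.one_sub.isSelfAdjoint.star_eq,
        hzz, hz.1.one_sub.isIdempotentElem.eq, add_sub_cancel, ← inner_self_eq_norm_sq (𝕜 := ℂ)]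
      rfl
    have e3 := pow_le_pow_left₀ (mul_nonneg hδ.le (norm_nonneg _)) (h x) 2
    rw [e1, e2]
    change _ * δ ^ 2 ≤ _
    nlinarith
  clear_value f
  obtain ⟨g, rfl⟩ := hu
  have hg : Cen A ((g⁻¹ : (Op H)ˣ) : Op H) :=
    Graph_cen_of_bicomm hfc fun y hy => hy.units_inv_right
  have e1 : (g : Op H) * z = star c * c * z := by
    rw [hf, add_mul, smul_mul_assoc, mul_assoc (star (1 - z)), sub_mul, one_mul, hzz, sub_self,
      mul_zero, smul_zero, add_zero, star_mul, hz.1.isSelfAdjoint.star_eq, mul_assoc, mul_assoc c,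
      hzz, mul_assoc z, ← mul_assoc (star c), (Graph_cen_comm hzc (Graph_cen_mul hn hzc)).eq,
      mul_assoc, hzz]
  have hd := Graph_cen_mul (Graph_cen_mul hzc hg) (Graph_cen_star hc)
  have e2 : z * ((g⁻¹ : (Op H)ˣ) : Op H) * star c * c = z := by
    rw [mul_assoc, mul_assoc, (Graph_cen_comm hzc (Graph_cen_mul hg hn)).eq, mul_assoc, ← e1,
      ← mul_assoc, Units.inv_mul, one_mul]
  refine ⟨_, hd, ?_, e2, by rw [← mul_assoc, ← mul_assoc, hzz]⟩
  refine ContinuousLinearMap.opNorm_le_bound _ (inv_nonneg.2 hδ.le) fun v => ?_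
  have a1 := h ((((g⁻¹ : (Op H)ˣ) : Op H) * star c) v)
  have a2 : c (z ((((g⁻¹ : (Op H)ˣ) : Op H) * star c) v)) = z v := by
    have := (Graph_cen_comm hc hd).eq.trans e2
    exact congrArg (fun X : Op H => X v) this
  have a3 : ‖z v‖ ≤ ‖v‖ := by
    have := z.le_opNorm v
    nlinarith [hz.1.norm_le, norm_nonneg v]
  rw [a2] at a1
  rw [le_inv_mul_iff₀ hδ]
  exact a1.trans a3

end

end Crest.Agent.R78
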