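import Crest.Agent.R78.Exh

/-!
# Row 78: 2-hyperreflexivity
-/

open scoped InnerProductSpace Topology ComplexConjugate
open Filter MeasureTheory

set_option linter.unusedSectionVars false

namespace Crest.Agent.R78

open Crest.Agent.R121 (Alg)

noncomputable section

universe u

variable {H : Type*} [NormedAddCommGroup H] [InnerProductSpace ℂ H] [CompleteSpace H]

/-- The unital completely positive `N`-bimodule maps `S ↦ ∑ m_j⋆ S m_j`, `m_j ∈ N'`. -/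
def Kraus (N : VN H) (Φ : Op H → Op H) : Prop :=
  ∃ (ι : Type u) (_ : Fintype ι) (m : ι → Op H), (∀ j, m j ∈ N.commutant) ∧
    ∑ j, star (m j) * m j = 1 ∧ ∀ S, Φ S = ∑ j, star (m j) * S * m j

/-- Weakly closed sets. -/
def WClosed (K : Set (Op H)) : Prop :=
  ∀ (𝒰 : Ultrafilter (Op H)) (Q : Op H), K ∈ 𝒰 → WLim (𝒰 : Filter (Op H)) id Q → Q ∈ K

theorem H2_wclosed_mem {K : Set (Op H)} (hc : WClosed K) {X : Type*} (𝒰 : Ultrafilter X)
    {T : X → Op H} {Q : Op H} (hT : ∀ᶠ i in 𝒰, T i ∈ K) (h : WLim (𝒰 : Filter X) T Q) : Q ∈ K :=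
  hc (𝒰.map T) Q (Ultrafilter.mem_map.2 hT) fun v w => by
    rw [Ultrafilter.coe_map, tendsto_map'_iff]
    exact h v w

theorem H2_kraus_conj {N : VN H} {m : Op H} (hm : m ∈ N.commutant) (h1 : star m * m = 1) :
    Kraus.{u} N fun S => star m * S * m :=
  ⟨PUnit, inferInstance, fun _ => m, fun _ => hm, by simpa using h1, fun S => by simp⟩

theorem H2_kraus_id (N : VN H) : Kraus.{u} N fun S => S := by
  simpa using H2_kraus_conj.{u} (N := N) (one_mem N.commutant) (by simp)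

theorem Kraus.comp {N : VN H} {Φ Ψ : Op H → Op H} (hΦ : Kraus.{u} N Φ) (hΨ : Kraus.{u} N Ψ) :
    Kraus.{u} N fun S => Φ (Ψ S) := by
  obtain ⟨ι, _, a, ha, ha1, hΦ⟩ := hΦ
  obtain ⟨κ, _, b, hb, hb1, hΨ⟩ := hΨ
  refine ⟨ι × κ, inferInstance, fun p => b p.2 * a p.1, fun p => mul_mem (hb _) (ha _), ?_,
    fun S => ?_⟩
  · rw [Fintype.sum_prod_type, ← ha1]
    refine Finset.sum_congr rfl fun i _ => ?_
    have : ∑ j, star (b j * a i) * (b j * a i) = star (a i) * (∑ j, star (b j) * b j) * a i := by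
      rw [Finset.mul_sum, Finset.sum_mul]
      exact Finset.sum_congr rfl fun j _ => by simp only [star_mul, mul_assoc]
    rw [this, hb1, mul_one]
  · beta_reduce
    rw [hΦ, hΨ, Fintype.sum_prod_type]
    refine Finset.sum_congr rfl fun i _ => ?_
    rw [Finset.mul_sum, Finset.sum_mul]
    exact Finset.sum_congr rfl fun j _ => by simp only [star_mul, mul_assoc]

theorem H2_norm_one : ‖(1 : Op H)‖ ≤ 1 := ContinuousLinearMap.norm_id_le

theorem Kraus.norm_le {N : VN H} {Φ : Op H → Op H} (hΦ : Kraus.{u} N Φ) (S : Op H) :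
    ‖Φ S‖ ≤ ‖S‖ := by
  obtain ⟨ι, _, a, -, ha1, hΦ⟩ := hΦ
  have hc : Col a 1 := (col_iff_norm zero_le_one).2 (by rw [ha1, one_pow]; exact H2_norm_one)
  have := hc.norm_sandwich_le hc zero_le_one zero_le_one (x := fun _ => S) (norm_nonneg S)
    fun _ => le_rfl
  rw [hΦ]
  simpa using this

theorem Kraus.sub {N : VN H} {Φ : Op H → Op H} (hΦ : Kraus.{u} N Φ) (S S' : Op H) :
    Φ (S - S') = Φ S - Φ S' := by
  obtain ⟨ι, _, a, -, -, hΦ⟩ := hΦ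
  simp only [hΦ, mul_sub, sub_mul, Finset.sum_sub_distrib]

theorem Kraus.star {N : VN H} {Φ : Op H → Op H} (hΦ : Kraus.{u} N Φ) (S : Op H) :
    Φ (star S) = star (Φ S) := by
  obtain ⟨ι, _, a, -, -, hΦ⟩ := hΦ
  simp only [hΦ, star_sum, star_mul, star_star, mul_assoc]

theorem Kraus.mul_right {N : VN H} {Φ : Op H → Op H} (hΦ : Kraus.{u} N Φ) (S : Op H) {y : Op H}
    (hy : y ∈ N) : Φ (S * y) = Φ S * y := by
  obtain ⟨ι, _, a, ha, -, hΦ⟩ := hΦ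
  simp only [hΦ, Finset.sum_mul, mul_assoc]
  exact Finset.sum_congr rfl fun j _ => by rw [(mem_comm.1 (ha j) y hy).eq]

theorem Kraus.mul_left {N : VN H} {Φ : Op H → Op H} (hΦ : Kraus.{u} N Φ) (S : Op H) {y : Op H}
    (hy : y ∈ N) : Φ (y * S) = y * Φ S := by
  obtain ⟨ι, _, a, ha, -, hΦ⟩ := hΦ
  simp only [hΦ, Finset.mul_sum, ← mul_assoc]
  exact Finset.sum_congr rfl fun j _ => by rw [(mem_comm.1 (star_mem (ha j)) y hy).eq]

theorem Kraus.one {N : VN H} {Φ : Op H → Op H} (hΦ : Kraus.{u} N Φ) : Φ 1 = 1 := by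
  obtain ⟨ι, _, a, -, ha1, hΦ⟩ := hΦ
  simp only [hΦ, mul_one, ha1]

theorem Kraus.of_mem {N : VN H} {Φ : Op H → Op H} (hΦ : Kraus.{u} N Φ) {y : Op H} (hy : y ∈ N) :
    Φ y = y := by
  have := hΦ.mul_right 1 hy
  rwa [one_mul, hΦ.one, one_mul] at this

theorem H2_inner_sum {ι : Type*} [Fintype ι] (a : ι → Op H) (X : Op H) (v : H) :
    (⟪v, (∑ j, star (a j) * X * a j) v⟫_ℂ).re = ∑ j, (⟪a j v, X (a j v)⟫_ℂ).re := by
  rw [sum_apply, inner_sum, Complex.re_sum]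
  refine Finset.sum_congr rfl fun j _ => ?_
  rw [mul_apply_eq_comp, mul_apply_eq_comp, bas_inner_star]

theorem Kraus.wlim {N : VN H} {Φ : Op H → Op H} (hΦ : Kraus.{u} N Φ) {X : Type*} {l : Filter X}
    {T : X → Op H} {Q : Op H} (h : WLim l T Q) : WLim l (fun i => Φ (T i)) (Φ Q) := by
  obtain ⟨ι, _, a, -, -, hΦ⟩ := hΦ
  intro v w
  simp only [hΦ, sum_apply, inner_sum]
  exact tendsto_finsetSum _ fun j _ => ((h.mul_left (Star.star (a j))).mul_right (a j)) v w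

theorem H2_re_le (X : Op H) (v : H) : |(⟪v, X v⟫_ℂ).re| ≤ ‖X‖ * ‖v‖ ^ 2 := by
  refine (Complex.abs_re_le_norm _).trans ((norm_inner_le_norm _ _).trans ?_)
  have := mul_le_mul_of_nonneg_left (X.le_opNorm v) (norm_nonneg v)
  nlinarith

theorem H2_norm_sq (v : H) : (⟪v, (1 : Op H) v⟫_ℂ).re = ‖v‖ ^ 2 := by
  rw [one_apply_eq_self, inner_self_eq_norm_sq_to_K]
  norm_cast

/-- A minimal nonempty weakly closed invariant subset (Zorn; the intersection of a chain is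
nonempty: choose a point in each member, push forward an ultrafilter on the chain that contains
all lower sets, take `exists_wlim`). -/
theorem exists_minimal (N : VN H) {K : Set (Op H)} {C : ℝ} (hb : ∀ S ∈ K, ‖S‖ ≤ C)
    (hne : K.Nonempty) (hc : WClosed K) (hi : ∀ Φ, Kraus.{u} N Φ → ∀ S ∈ K, Φ S ∈ K) :
    ∃ K₀ ⊆ K, K₀.Nonempty ∧ WClosed K₀ ∧ (∀ Φ, Kraus.{u} N Φ → ∀ S ∈ K₀, Φ S ∈ K₀) ∧
      ∀ K₁ ⊆ K₀, K₁.Nonempty → WClosed K₁ → (∀ Φ, Kraus.{u} N Φ → ∀ S ∈ K₁, Φ S ∈ K₁) →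
        K₁ = K₀ := by
  let 𝒮 : Set (Set (Op H)) := {K₁ | K₁ ⊆ K ∧ K₁.Nonempty ∧ WClosed K₁ ∧
    ∀ Φ, Kraus.{u} N Φ → ∀ S ∈ K₁, Φ S ∈ K₁}
  suffices hZ : ∀ c ⊆ 𝒮, IsChain (· ⊆ ·) c → c.Nonempty → ∃ lb ∈ 𝒮, ∀ s ∈ c, lb ⊆ s by
    obtain ⟨K₀, -, hK₀⟩ := zorn_superset_nonempty 𝒮 hZ K ⟨subset_rfl, hne, hc, hi⟩
    refine ⟨K₀, hK₀.1.1, hK₀.1.2.1, hK₀.1.2.2.1, hK₀.1.2.2.2, fun K₁ h1 h2 h3 h4 => ?_⟩
    exact Set.Subset.antisymm h1 (hK₀.2 ⟨h1.trans hK₀.1.1, h2, h3, h4⟩ h1)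
  intro c hcS hch hcne
  refine ⟨⋂₀ c, ⟨?_, ?_, ?_, ?_⟩, fun s hs => Set.sInter_subset_of_mem hs⟩
  · obtain ⟨s, hs⟩ := hcne
    exact (Set.sInter_subset_of_mem hs).trans (hcS hs).1
  · have : Nonempty c := hcne.to_subtype
    have : IsCodirectedOrder c := ⟨fun s t => by
      rcases hch.total s.2 t.2 with h | h
      · exact ⟨s, le_rfl, h⟩
      · exact ⟨t, h, le_rfl⟩⟩
    choose f hf using fun s : c => (hcS s.2).2.1
    let 𝒰 : Ultrafilter c := Ultrafilter.of atBot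
    obtain ⟨Q, hQ⟩ := exists_wlim 𝒰 (T := f) (C := C)
      (Eventually.of_forall fun s => hb _ ((hcS s.2).1 (hf s)))
    refine ⟨Q, Set.mem_sInter.2 fun s hs => H2_wclosed_mem (hcS hs).2.2.1 𝒰 ?_ hQ⟩
    refine (Ultrafilter.of_le atBot) ?_
    filter_upwards [eventually_le_atBot (⟨s, hs⟩ : c)] with t ht
    exact (show (t : Set (Op H)) ⊆ s from ht) (hf t)
  · intro 𝒰 Q h1 h2
    exact Set.mem_sInter.2 fun s hs => (hcS hs).2.2.1 𝒰 Q
      (mem_of_superset h1 (Set.sInter_subset_of_mem hs)) h2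
  · intro Φ hΦ S hS
    exact Set.mem_sInter.2 fun s hs => (hcS hs).2.2.2 Φ hΦ S (Set.mem_sInter.1 hS s hs)

/-- The truncated covering maps. -/
theorem H2_kraus_trunc {H : Type u} [NormedAddCommGroup H] [InnerProductSpace ℂ H]
    [CompleteSpace H] {N : VN H} {M : Set (Op H)} {z : Op H} (hM : ∀ m ∈ M, m ∈ N.commutant)
    (ho : OFam (fun m : M => star (m : Op H) * (m : Op H)) z) (F : Finset M) :
    ∃ Φ, Kraus.{u} N Φ ∧ ∀ (X : Op H) (v : H), (⟪v, Φ X v⟫_ℂ).re =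
      ∑ m ∈ F, (⟪(m : Op H) v, X ((m : Op H) v)⟫_ℂ).re +
        (⟪v - ∑ m ∈ F, (star (m : Op H) * (m : Op H)) v,
          X (v - ∑ m ∈ F, (star (m : Op H) * (m : Op H)) v)⟫_ℂ).re := by
  classical
  set e : Op H := ∑ m ∈ F, star (m : Op H) * (m : Op H) with he
  have he1 : star e = e := by
    rw [he, star_sum]
    exact Finset.sum_congr rfl fun m _ => by rw [star_mul, star_star]
  have he2 : e * e = e := by
    rw [he, Finset.sum_mul_sum]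
    refine Finset.sum_congr rfl fun m hm => ?_
    rw [Finset.sum_eq_single m (fun m' _ hne => ho.orth m m' hne.symm) fun h => absurd hm h]
    exact (ho.proj m).isIdempotentElem.eq
  have heN : e ∈ N.commutant :=
    sum_mem fun m _ => mul_mem (star_mem (hM _ m.2)) (hM _ m.2)
  let a : Option F → Op H := fun o => o.elim (1 - e) fun m => ((m : M) : Op H)
  refine ⟨fun S => ∑ j, star (a j) * S * a j, ⟨Option F, inferInstance, a, ?_, ?_, fun _ => rfl⟩,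
    fun X v => ?_⟩
  · rintro (_ | m)
    · exact sub_mem (one_mem _) heN
    · exact hM _ (m : M).2
  · rw [Fintype.sum_option]
    have : ∑ m : F, star (a (some m)) * a (some m) = e := by
      rw [he, ← Finset.sum_coe_sort F]
      rfl
    rw [this]
    change star (1 - e) * (1 - e) + e = 1
    rw [star_sub, star_one, he1, sub_mul, mul_sub, mul_sub, he2]
    simp
  · rw [H2_inner_sum, Fintype.sum_option, add_comm, ← Finset.sum_coe_sort F]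
    have : a none v = v - ∑ m ∈ F, (star (m : Op H) * (m : Op H)) v := by
      change (1 - e) v = _
      rw [sub_apply, one_apply_eq_self, he, sum_apply]
    rw [this]
    rfl

theorem H2_half {H : Type u} [NormedAddCommGroup H] [InnerProductSpace ℂ H]
    [CompleteSpace H] (N : VN H) {K₀ : Set (Op H)} {C : ℝ} (hb : ∀ S ∈ K₀, ‖S‖ ≤ C)
    (hc : WClosed K₀) (hi : ∀ Φ, Kraus.{u} N Φ → ∀ S ∈ K₀, Φ S ∈ K₀)
    (hmin : ∀ K₁ ⊆ K₀, K₁.Nonempty → WClosed K₁ → (∀ Φ, Kraus.{u} N Φ → ∀ S ∈ K₁, Φ S ∈ K₁) →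
      K₁ = K₀) {S₁ S₂ a : Op H} (h₁ : S₁ ∈ K₀) (h₂ : S₂ ∈ K₀) (ha : a ∈ N.commutant)
    (hsa : IsSelfAdjoint a) {η c : ℝ} (hηc : η < c) (h : ‖S₂ - S₁ - a‖ ≤ η) (v : H) :
    (⟪v, a v⟫_ℂ).re ≤ c * ‖v‖ ^ 2 := by
  obtain ⟨p, hp, hpa, hp1, hp2⟩ := exists_cut hsa c
  by_cases hp0 : p = 0
  · simpa [hp0] using hp2 v
  exfalso
  have hpN : p ∈ N.commutant := mem_of_bicomm ha fun y hy _ => hpa y hy
  obtain ⟨z, hz, hzp, hzmin⟩ := exists_csupp hpN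
  obtain ⟨M, hM, ho⟩ := exists_cover hp hpN hz hzp fun w hw => hzmin w hw.cen
  obtain ⟨ζ, hζ0, hζ⟩ : ∃ ζ : H, ζ ≠ 0 ∧ z ζ = ζ := by
    obtain ⟨w, hw⟩ : ∃ w, p w ≠ 0 := by
      by_contra hcon
      push Not at hcon
      exact hp0 (ContinuousLinearMap.ext hcon)
    exact ⟨p w, hw, by rw [← mul_apply_eq_comp, hzp]⟩
  choose Φ hΦ hΦe using H2_kraus_trunc (fun m hm => (hM m hm).1) ho
  let 𝒰 : Ultrafilter (Finset M) := Ultrafilter.of atTop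
  obtain ⟨Q₁, hQ₁⟩ := exists_wlim 𝒰 (T := fun F => Φ F S₁) (C := C)
    (Eventually.of_forall fun F => hb _ (hi _ (hΦ F) _ h₁))
  obtain ⟨Q₂, hQ₂⟩ := exists_wlim 𝒰 (T := fun F => Φ F S₂) (C := C)
    (Eventually.of_forall fun F => hb _ (hi _ (hΦ F) _ h₂))
  have hQ₁K := H2_wclosed_mem hc 𝒰 (Eventually.of_forall fun F => hi _ (hΦ F) _ h₁) hQ₁
  have hQ₂K := H2_wclosed_mem hc 𝒰 (Eventually.of_forall fun F => hi _ (hΦ F) _ h₂) hQ₂
  have hD : ∀ w, p w = w → (c - η) * ‖w‖ ^ 2 ≤ (⟪w, (S₂ - S₁) w⟫_ℂ).re := by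
    intro w hw
    have e1 : (S₂ - S₁) w = a w + (S₂ - S₁ - a) w := by simp
    have e2 := hp1 w
    rw [hw] at e2
    have e3 := (abs_le.1 (H2_re_le (S₂ - S₁ - a) w)).1
    have e4 := mul_le_mul_of_nonneg_right h (sq_nonneg ‖w‖)
    rw [e1, inner_add_right, Complex.add_re]
    linarith
  have hgap : ∀ w, z w = w → (c - η) * ‖w‖ ^ 2 ≤ (⟪w, (Q₂ - Q₁) w⟫_ℂ).re := by
    intro w hw
    have t1 : Tendsto (fun F : Finset M => w - ∑ m ∈ F, (star (m : Op H) * (m : Op H)) w)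
        𝒰 (𝓝 0) := by
      have t0 : Tendsto (fun F : Finset M => ∑ m ∈ F, (star (m : Op H) * (m : Op H)) w)
          atTop (𝓝 (z w)) := by simpa [HasSum] using ho.sum w
      have := (tendsto_const_nhds (x := w)).sub (t0.mono_left (Ultrafilter.of_le atTop))
      rwa [hw, sub_self] at this
    have t2 : Tendsto (fun F : Finset M => (c - η) * ‖w‖ ^ 2 - (c - η + ‖S₂ - S₁‖) *
        ‖w - ∑ m ∈ F, (star (m : Op H) * (m : Op H)) w‖ ^ 2) 𝒰
        (𝓝 ((c - η) * ‖w‖ ^ 2 - (c - η + ‖S₂ - S₁‖) * ‖(0 : H)‖ ^ 2)) :=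
      tendsto_const_nhds.sub ((t1.norm.pow 2).const_mul _)
    rw [norm_zero, zero_pow two_ne_zero, mul_zero, sub_zero] at t2
    have t3 := (Complex.continuous_re.tendsto _).comp ((hQ₂.sub hQ₁) w w)
    refine le_of_tendsto_of_tendsto' t2 t3 fun F => ?_
    have k1 := hΦe F 1 w
    rw [(hΦ F).one, H2_norm_sq, H2_norm_sq] at k1
    simp only [H2_norm_sq] at k1
    have k2 := hΦe F (S₂ - S₁) w
    rw [(hΦ F).sub] at k2
    have k3 : (c - η) * ∑ m ∈ F, ‖(m : Op H) w‖ ^ 2 ≤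
        ∑ m ∈ F, (⟪(m : Op H) w, (S₂ - S₁) ((m : Op H) w)⟫_ℂ).re := by
      rw [Finset.mul_sum]
      exact Finset.sum_le_sum fun m _ => hD _ (by rw [← mul_apply_eq_comp, (hM _ m.2).2])
    have k4 := (abs_le.1 (H2_re_le (S₂ - S₁)
      (w - ∑ m ∈ F, (star (m : Op H) * (m : Op H)) w))).1
    simp only [Function.comp]
    rw [k2, k1]
    linarith
  have hshift : ∀ Ψ, Kraus.{u} N Ψ →
      (⟪ζ, Ψ Q₁ ζ⟫_ℂ).re + (c - η) * ‖ζ‖ ^ 2 ≤ (⟪ζ, Ψ Q₂ ζ⟫_ℂ).re := by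
    intro Ψ hΨ
    have k0 : (⟪ζ, Ψ (Q₂ - Q₁) ζ⟫_ℂ).re = (⟪ζ, Ψ Q₂ ζ⟫_ℂ).re - (⟪ζ, Ψ Q₁ ζ⟫_ℂ).re := by
      rw [hΨ.sub, sub_apply, inner_sub_right, Complex.sub_re]
    obtain ⟨ι, _, b, hbN, hb1, hΨ⟩ := hΨ
    have k1 := bas_sum_sq b ζ
    rw [hb1, H2_norm_sq] at k1
    rw [hΨ, H2_inner_sum] at k0
    have k2 : (c - η) * ∑ j, ‖b j ζ‖ ^ 2 ≤ ∑ j, (⟪b j ζ, (Q₂ - Q₁) (b j ζ)⟫_ℂ).re := by
      rw [Finset.mul_sum]
      refine Finset.sum_le_sum fun j _ => hgap _ ?_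
      rw [← mul_apply_eq_comp, ← (mem_comm.1 hz.2.2 _ (hbN j)).eq, mul_apply_eq_comp, hζ]
    rw [k1] at k2
    linarith
  have hδ : 0 < (c - η) * ‖ζ‖ ^ 2 := mul_pos (sub_pos.2 hηc) (by positivity)
  have hstep : ∀ n : ℕ, ∀ S ∈ K₀, ∀ Ψ, Kraus.{u} N Ψ →
      (⟪ζ, Ψ S ζ⟫_ℂ).re ≤ C * ‖ζ‖ ^ 2 - n * ((c - η) * ‖ζ‖ ^ 2) := by
    intro n
    induction n with
    | zero =>
      intro S hS Ψ hΨ
      have k1 := (abs_le.1 (H2_re_le (Ψ S) ζ)).2
      have k2 := mul_le_mul_of_nonneg_right (hb _ (hi Ψ hΨ S hS)) (sq_nonneg ‖ζ‖)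
      simp only [Nat.cast_zero, zero_mul, sub_zero]
      linarith
    | succ n ih =>
      have := hmin {S | S ∈ K₀ ∧ ∀ Ψ, Kraus.{u} N Ψ →
        (⟪ζ, Ψ S ζ⟫_ℂ).re ≤ C * ‖ζ‖ ^ 2 - (n + 1 : ℕ) * ((c - η) * ‖ζ‖ ^ 2)}
        (fun S hS => hS.1) ⟨Q₁, hQ₁K, fun Ψ hΨ => ?_⟩ (fun 𝒱 Q k1 k2 => ⟨?_, fun Ψ hΨ => ?_⟩)
        (fun Θ hΘ S hS => ⟨hi Θ hΘ S hS.1, fun Ψ hΨ => hS.2 _ (hΨ.comp hΘ)⟩)
      · intro S hS
        rw [← this] at hS
        exact hS.2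
      · have k1 := hshift Ψ hΨ
        have k2 := ih Q₂ hQ₂K Ψ hΨ
        push_cast
        linarith
      · exact hc 𝒱 Q (mem_of_superset k1 fun S hS => hS.1) k2
      · refine le_of_tendsto ((Complex.continuous_re.tendsto _).comp (hΨ.wlim k2 ζ ζ)) ?_
        filter_upwards [k1] with S hS
        exact hS.2 Ψ hΨ
  obtain ⟨n, hn⟩ := exists_nat_gt ((C * ‖ζ‖ ^ 2 - (⟪ζ, S₁ ζ⟫_ℂ).re) / ((c - η) * ‖ζ‖ ^ 2))
  have := hstep n S₁ h₁ _ (H2_kraus_id N)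
  rw [div_lt_iff₀ hδ] at hn
  linarith

/-- In a minimal set, a difference that is close to `N'` is small. Recipe: suppose
`a ∈ N'` self-adjoint, `‖S₂ - S₁ - a‖ ≤ η`, and the cut `p` of `a` at `c > η` (`exists_cut`) is
nonzero; `z` = central support of `p` in `N'`, `ζ` a unit vector in `z H`.
`g S = sup_Φ re ⟪ζ, Φ S ζ⟫` has weakly closed invariant sublevel sets (Kraus maps compose), so `g` is
constant on `K₀`. `exists_cover` gives `m_j ∈ p N'`; `Φ_F S = ∑_F m⋆ S m + r_F S r_F`,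
`r_F = 1 - ∑_F m⋆ m`, and `Ψ S` = weak limit along an ultrafilter `≤ atTop` on finsets lies in
`K₀`; `re ⟪v, (Ψ S₂ - Ψ S₁) v⟫ ≥ (c - η) ‖v‖²` for `v ∈ z H`. Choose `Φ` nearly optimal for `Ψ S₁`:
`g ≥ re ⟪ζ, Φ (Ψ S₂) ζ⟫ ≥ g - ε + (c - η)`, contradiction. So `a ≤ c` for all `c > η`; by symmetry
`‖a‖ ≤ η`. -/
theorem minimal_diam {H : Type u} [NormedAddCommGroup H] [InnerProductSpace ℂ H]
    [CompleteSpace H] (N : VN H) {K₀ : Set (Op H)} {C : ℝ} (hb : ∀ S ∈ K₀, ‖S‖ ≤ C)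
    (hc : WClosed K₀) (hi : ∀ Φ, Kraus.{u} N Φ → ∀ S ∈ K₀, Φ S ∈ K₀)
    (hmin : ∀ K₁ ⊆ K₀, K₁.Nonempty → WClosed K₁ → (∀ Φ, Kraus.{u} N Φ → ∀ S ∈ K₁, Φ S ∈ K₁) →
      K₁ = K₀) {S₁ S₂ a : Op H} (h₁ : S₁ ∈ K₀) (h₂ : S₂ ∈ K₀) (ha : a ∈ N.commutant)
    (hsa : IsSelfAdjoint a) {η : ℝ} (hη : 0 ≤ η) (h : ‖S₂ - S₁ - a‖ ≤ η) : ‖a‖ ≤ η := by
  refine le_of_forall_gt_imp_ge_of_dense fun c hc' => ?_
  refine pj_norm_le hsa (hη.trans hc'.le) fun ζ => ?_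
  have k1 := H2_half N hb hc hi hmin h₁ h₂ ha hsa hc' h ζ
  have k2 := H2_half N hb hc hi hmin h₂ h₁ (neg_mem ha) hsa.neg hc'
    (by rw [show S₁ - S₂ - -a = -(S₂ - S₁ - a) by abel, norm_neg]; exact h) ζ
  rw [neg_apply, inner_neg_right, Complex.neg_re] at k2
  rw [← inner_conj_symm, Complex.conj_re, abs_le]
  constructor <;> linarith

theorem H2_sa_near (N : VN H) {D : Op H} (hD : star D = D) {g : ℝ} (hg : 0 ≤ g)
    (h : ∀ y ∈ N, ‖D * y - y * D‖ ≤ g * ‖y‖) :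
    ∃ a ∈ N.commutant, IsSelfAdjoint a ∧ ‖D - a‖ ≤ 2100 * g := by
  obtain ⟨a, ha, h1⟩ := exists_near_of_comm N.commutant D hg
    (by rwa [N.commutant_commutant])
  refine ⟨(2 : ℂ)⁻¹ • (a + star a), smul_mem' _ (add_mem ha (star_mem ha)), ?_, ?_⟩
  · rw [IsSelfAdjoint, star_smul, star_add, star_star, add_comm]
    simp
  · have e : D - (2 : ℂ)⁻¹ • (a + star a) = (2 : ℂ)⁻¹ • ((D - a) + star (D - a)) := by
      rw [star_sub, hD]
      module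
    have e2 := norm_add_le (D - a) (star (D - a))
    rw [norm_star] at e2
    rw [e, norm_smul, norm_inv, Complex.norm_ofNat]
    linarith

theorem H2_sa {H : Type u} [NormedAddCommGroup H] [InnerProductSpace ℂ H]
    [CompleteSpace H] (N : VN H) {T : Op H} (hT : star T = T) {η : ℝ} (hη : 0 ≤ η)
    (h : ∀ y ∈ N, ∀ y' ∈ N.commutant,
      ‖(T * y - y * T) * y' - y' * (T * y - y * T)‖ ≤ η * ‖y‖ * ‖y'‖) :
    ∃ n ∈ N, ∃ n' ∈ N.commutant, ‖T - n - n'‖ ≤ 8401 * (2100 * (4200 * η)) ∧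
      ‖n‖ ≤ ‖T‖ + 8401 * (2100 * (4200 * η)) ∧ ‖n'‖ ≤ 2 * ‖T‖ + 8401 * (2100 * (4200 * η)) := by
  choose! ν hν hν' using fun y (hy : y ∈ N) =>
    exists_near_of_comm N (T * y - y * T) (mul_nonneg hη (norm_nonneg y)) (h y hy)
  let K : Set (Op H) := {S | star S = S ∧ ‖S‖ ≤ ‖T‖ ∧
    ∀ y ∈ N, ‖S * y - y * S - ν y‖ ≤ 2100 * (η * ‖y‖)}
  have hTK : T ∈ K := ⟨hT, le_rfl, hν'⟩
  have hKc : WClosed K := by
    intro 𝒰 Q k1 k2
    refine ⟨?_, k2.norm_le (mem_of_superset k1 fun S hS => hS.2.1), fun y hy => ?_⟩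
    · refine k2.star.unique (k2.congr ?_)
      filter_upwards [k1] with S hS
      exact hS.1.symm
    · exact (((k2.mul_right y).sub (k2.mul_left y)).sub (wlim_const _ (ν y))).norm_le
        (mem_of_superset k1 fun S hS => hS.2.2 y hy)
  have hKi : ∀ Φ, Kraus.{u} N Φ → ∀ S ∈ K, Φ S ∈ K := by
    intro Φ hΦ S hS
    refine ⟨by rw [← hΦ.star, hS.1], (hΦ.norm_le S).trans hS.2.1, fun y hy => ?_⟩
    rw [← hΦ.mul_right S hy, ← hΦ.mul_left S hy, ← hΦ.of_mem (hν y hy), ← hΦ.sub, ← hΦ.sub]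
    exact (hΦ.norm_le _).trans (hS.2.2 y hy)
  have hdiff : ∀ S₁ ∈ K, ∀ S₂ ∈ K, ∃ a ∈ N.commutant, IsSelfAdjoint a ∧
      ‖S₂ - S₁ - a‖ ≤ 2100 * (4200 * η) := by
    intro S₁ h₁ S₂ h₂
    refine H2_sa_near N (by rw [star_sub, h₁.1, h₂.1]) (by positivity) fun y hy => ?_
    have e : (S₂ - S₁) * y - y * (S₂ - S₁) =
        (S₂ * y - y * S₂ - ν y) - (S₁ * y - y * S₁ - ν y) := by noncomm_ring
    have := norm_sub_le (S₂ * y - y * S₂ - ν y) (S₁ * y - y * S₁ - ν y)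
    rw [e]
    linarith [h₁.2.2 y hy, h₂.2.2 y hy]
  obtain ⟨K₀, hK₀, ⟨S, hS⟩, hc, hi, hmin⟩ :=
    exists_minimal.{u} N (C := ‖T‖) (fun S hS => hS.2.1) ⟨T, hTK⟩ hKc hKi
  set κ := 2100 * (4200 * η) with hκ
  have hκ0 : 0 ≤ κ := by positivity
  have hu : ∀ w : unitary (Op H), (w : Op H) ∈ N.commutant →
      ‖S * (w : Op H) - (w : Op H) * S‖ ≤ 2 * κ := by
    intro w hw
    have k1 := hi _ (H2_kraus_conj hw (bas_su w)) S hS
    obtain ⟨a, ha, hsa, k2⟩ := hdiff _ (hK₀ hS) _ (hK₀ k1)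
    have k3 := minimal_diam N (fun S hS => (hK₀ hS).2.1) hc hi hmin hS k1 ha hsa hκ0 k2
    have e : S * (w : Op H) - (w : Op H) * S =
        (w : Op H) * (star (w : Op H) * S * (w : Op H) - S - a + a) := by
      rw [sub_add_cancel, mul_sub, mul_assoc, bas_us']
    rw [e, CStarRing.norm_coe_unitary_mul]
    exact (norm_add_le _ _).trans (by linarith)
  obtain ⟨n, hn, k1⟩ := exists_near_of_comm N S (g := 4 * κ) (by positivity) fun y hy => by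
    obtain ⟨w, c, hw, hy1, hy2, -⟩ := exists_four_unitary hy
    have e : S * y - y * S = ∑ i, c i • (S * (w i : Op H) - (w i : Op H) * S) := by
      conv_lhs => rw [hy1]
      simp only [Finset.mul_sum, Finset.sum_mul, mul_smul_comm, smul_mul_assoc, smul_sub,
        Finset.sum_sub_distrib]
    rw [e]
    refine (norm_sum_le _ _).trans ?_
    have : ∑ i, ‖c i • (S * (w i : Op H) - (w i : Op H) * S)‖ ≤ (∑ i, ‖c i‖) * (2 * κ) := by
      rw [Finset.sum_mul]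
      refine Finset.sum_le_sum fun i _ => ?_
      rw [norm_smul]
      exact mul_le_mul_of_nonneg_left (hu _ (hw i)) (norm_nonneg _)
    nlinarith
  obtain ⟨a, ha, -, k2⟩ := hdiff _ (hK₀ hS) _ hTK
  have k3 := (hK₀ hS).2.1
  refine ⟨n, hn, a, ha, ?_, ?_, ?_⟩
  · have e : T - n - a = (T - S - a) + (S - n) := by abel
    rw [e]
    exact (norm_add_le _ _).trans (by linarith)
  · have e : n = S - (S - n) := by abel
    rw [e]
    exact (norm_sub_le _ _).trans (by linarith)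
  · have e : a = T - S - (T - S - a) := by abel
    have k4 := norm_sub_le T S
    rw [e]
    exact (norm_sub_le _ _).trans (by linarith)

/-- 2-hyperreflexivity. Recipe: split `T` into real and imaginary parts. For `T = T⋆` choose
`n_y ∈ N` with `‖[T, y] - n_y‖ ≤ 2100 η ‖y‖`; `K = {S = S⋆, ‖S‖ ≤ ‖T‖, ‖[S, y] - n_y‖ ≤ 2100 η ‖y‖}`
is weakly closed, invariant, contains `T`; differences of members are near `N'`
(`exists_near_of_comm` for `N'`, take the self-adjoint part). For `S` in a minimal subset,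
`‖u⋆ S u - S‖` is small for unitaries `u ∈ N'` (`minimal_diam`), so `S` is near `N`
(`exists_four_unitary`). -/
theorem two_hyper : ∃ C > 0, ∀ {H : Type u} [NormedAddCommGroup H] [InnerProductSpace ℂ H]
    [CompleteSpace H] (N : VN H) (T : Op H) {η : ℝ}, 0 ≤ η →
    (∀ y ∈ N, ∀ y' ∈ N.commutant,
      ‖(T * y - y * T) * y' - y' * (T * y - y * T)‖ ≤ η * ‖y‖ * ‖y'‖) →
    ∃ n ∈ N, ∃ n' ∈ N.commutant, ‖T - n - n'‖ ≤ C * η ∧ ‖n‖ ≤ 2 * ‖T‖ + C * η ∧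
      ‖n'‖ ≤ 4 * ‖T‖ + C * η := by
  refine ⟨2 * (8401 * (2100 * 4200)), by norm_num, fun {H} _ _ _ N T η hη h => ?_⟩
  have h' : ∀ y ∈ N, ∀ y' ∈ N.commutant,
      ‖(star T * y - y * star T) * y' - y' * (star T * y - y * star T)‖ ≤ η * ‖y‖ * ‖y'‖ := by
    intro y hy y' hy'
    have := h _ (star_mem hy) _ (star_mem hy')
    rw [norm_star, norm_star, ← norm_star] at this
    refine le_of_eq_of_le (congrArg norm ?_) this
    simp only [star_sub, star_mul, star_star]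
    noncomm_ring
  have hcomb : ∀ c d : ℂ, ‖c‖ = 2⁻¹ → ‖d‖ = 2⁻¹ → ‖c • T + d • star T‖ ≤ ‖T‖ ∧
      ∀ y ∈ N, ∀ y' ∈ N.commutant,
      ‖((c • T + d • star T) * y - y * (c • T + d • star T)) * y' -
        y' * ((c • T + d • star T) * y - y * (c • T + d • star T))‖ ≤ η * ‖y‖ * ‖y'‖ := by
    intro c d hc hd
    refine ⟨(norm_add_le _ _).trans ?_, fun y hy y' hy' => ?_⟩
    · rw [norm_smul, norm_smul, hc, hd, norm_star]
      linarith
    · have e : ((c • T + d • star T) * y - y * (c • T + d • star T)) * y' -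
          y' * ((c • T + d • star T) * y - y * (c • T + d • star T)) =
          c • ((T * y - y * T) * y' - y' * (T * y - y * T)) +
          d • ((star T * y - y * star T) * y' - y' * (star T * y - y * star T)) := by
        simp only [add_mul, mul_add, sub_mul, mul_sub, smul_mul_assoc, mul_smul_comm, smul_sub]
        abel
      rw [e]
      refine (norm_add_le _ _).trans ?_
      rw [norm_smul, norm_smul, hc, hd]
      linarith [h y hy y' hy', h' y hy y' hy']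
  obtain ⟨a1, b1⟩ := hcomb 2⁻¹ 2⁻¹ (by simp) (by simp)
  obtain ⟨a2, b2⟩ := hcomb (-(Complex.I * 2⁻¹)) (Complex.I * 2⁻¹) (by simp) (by simp)
  obtain ⟨n₁, hn₁, m₁, hm₁, c1, c2, c3⟩ := H2_sa N (by
    rw [star_add, star_smul, star_smul, star_star, add_comm]
    simp) hη b1
  obtain ⟨n₂, hn₂, m₂, hm₂, d1, d2, d3⟩ := H2_sa N (by
    rw [star_add, star_smul, star_smul, star_star, add_comm]
    simp) hη b2
  have hI : ∀ x y : Op H, ‖x + Complex.I • y‖ ≤ ‖x‖ + ‖y‖ := fun x y => by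
    simpa [norm_smul] using norm_add_le x (Complex.I • y)
  refine ⟨n₁ + Complex.I • n₂, add_mem hn₁ (smul_mem' _ hn₂), m₁ + Complex.I • m₂,
    add_mem hm₁ (smul_mem' _ hm₂), ?_, (hI _ _).trans (by linarith), (hI _ _).trans (by linarith)⟩
  have e : T - (n₁ + Complex.I • n₂) - (m₁ + Complex.I • m₂) =
      ((2 : ℂ)⁻¹ • T + (2 : ℂ)⁻¹ • star T - n₁ - m₁) + Complex.I •
        (-(Complex.I * 2⁻¹) • T + (Complex.I * 2⁻¹) • star T - n₂ - m₂) := by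
    match_scalars <;> first
      | ring1
      | linear_combination (2⁻¹ : ℂ) * Complex.I_mul_I
      | linear_combination (-2⁻¹ : ℂ) * Complex.I_mul_I
  rw [e]
  exact (hI _ _).trans (by linarith)

end

end Crest.Agent.R78
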