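import Crest.Agent.R78.Step
import Crest.Agent.R78.Dual
import Crest.Agent.R78.Exh

/-!
# Row 78: the twist is almost a product of unitaries of the two algebras
-/

open scoped InnerProductSpace Topology ComplexConjugate
open Filter MeasureTheory

set_option linter.unusedSectionVars false

namespace Crest.Agent.R78

open Crest.Agent.R121 (Alg)

noncomputable section

universe u

variable {H : Type*} [NormedAddCommGroup H] [InnerProductSpace ℂ H] [CompleteSpace H]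

variable {A B : VN H} {ξ : H} {γ : ℝ}

/-- The normal completely positive map `X ↦ ∑ m⋆ X m` of an orthogonal cover. Recipe: finite sums
are bounded by `‖X‖` and Cauchy (`Col.norm_sum_star_le`, `OFam.hasSum_norm_sq`: `‖m v‖ =
‖m⋆ m v‖`). -/
theorem exists_cover_map {I : Type*} {m : I → Op H} (h : OFam (fun i => star (m i) * m i) 1) :
    ∃ Φ : Op H →ₗ[ℂ] Op H, (∀ X, ‖Φ X‖ ≤ ‖X‖) ∧
      ∀ X v, HasSum (fun i => star (m i) (X (m i v))) (Φ X v) := by
  have h1 : ∀ i, m i * (star (m i) * m i) = m i := fun i => by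
    have e := (h.proj i).isIdempotentElem.eq
    rw [← sub_eq_zero, ← CStarRing.star_mul_self_eq_zero_iff, star_sub, star_mul,
      (h.proj i).isSelfAdjoint.star_eq, sub_mul, mul_sub, mul_sub, mul_assoc _ (star (m i)),
      mul_assoc _ (star (m i)) (m i), ← mul_assoc (star (m i)) (m i), e, e]
    abel
  have h2 : ∀ i, star (m i) * m i * star (m i) = star (m i) := fun i => by
    have := congrArg star (h1 i)
    rwa [star_mul, (h.proj i).isSelfAdjoint.star_eq] at this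
  have h3 : ∀ i, ‖m i‖ ≤ 1 := fun i => by
    have := (h.proj i).norm_le
    rw [CStarRing.norm_star_mul_self] at this
    nlinarith [norm_nonneg (m i)]
  have key : ∀ X : Op H, ∃ Y : Op H, ‖Y‖ ≤ ‖X‖ ∧
      ∀ v, HasSum (fun i => star (m i) (X (m i v))) (Y v) := fun X => by
    obtain ⟨Y, hY, -, -, hs, -⟩ := h.exists_dsum (fun i => star (m i) * X * m i) (norm_nonneg X)
      (fun i => by
        refine (norm_mul₃_le).trans ?_
        rw [norm_star]
        have := mul_le_mul (mul_le_of_le_one_left (norm_nonneg X) (h3 i)) (h3 i) (norm_nonneg _)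
          (norm_nonneg X)
        rwa [mul_one] at this)
      (fun i => by rw [← mul_assoc, ← mul_assoc, h2]) (fun i => by rw [mul_assoc, h1])
    exact ⟨Y, hY, hs⟩
  choose Φ hΦ hΦ' using key
  refine ⟨⟨⟨Φ, fun X Y => ?_⟩, fun c X => ?_⟩, hΦ, hΦ'⟩
  · ext v
    refine (hΦ' (X + Y) v).unique ?_
    simpa only [add_apply, map_add] using (hΦ' X v).add (hΦ' Y v)
  · ext v
    refine (hΦ' (c • X) v).unique ?_
    simpa only [smul_apply, map_smul, RingHom.id_apply] using (hΦ' X v).const_smul c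

theorem i0a_side {P : VN H} (W : unitary (Op H)) {γ : ℝ} (hγ : 0 ≤ γ)
    (hN : Near (conjVN W⁻¹ P.commutant) P.commutant γ) {e : Op H} (he : e ∈ P)
    (hp : IsStarProjection e) (hmin : ∀ w, CP P w → w * e = 0 → w = 0) :
    ∃ Φ : Op H →ₗ[ℂ] Op H, (∀ X, ‖Φ X‖ ≤ ‖X‖) ∧ Φ 1 = 1 ∧ (∀ X, Φ (X * e) = Φ X) ∧
      (∀ X, ∀ y ∈ P.commutant, Φ (X * y) = Φ X * y) ∧
      ∃ v ∈ P, ‖(W : Op H) * Φ (star (W : Op H)) - v‖ ≤ 4200 * γ := by
  obtain ⟨S, hS, hO⟩ := exists_cover (z := 1) hp he ⟨IsStarProjection.one _, one_mem _, one_mem _⟩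
    (one_mul e) fun w hw h => by rw [hmin w hw h, zero_mul]
  obtain ⟨Φ, hΦ, hs⟩ := exists_cover_map hO
  have hr : ∀ X, ∀ y ∈ P.commutant, Φ (X * y) = Φ X * y := fun X y hy => by
    ext v
    refine (hs (X * y) v).unique ?_
    simpa only [mul_apply_eq_comp, cpl_app (mem_comm.1 hy _ (hS _ (Subtype.prop _)).1)]
      using hs X (y v)
  have hl : ∀ X, ∀ y ∈ P.commutant, Φ (y * X) = y * Φ X := fun X y hy => by
    ext v
    refine (hs (y * X) v).unique ?_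
    simpa only [mul_apply_eq_comp, cpl_app (mem_comm.1 hy _ (star_mem (hS _ (Subtype.prop _)).1))]
      using (hs X v).mapL y
  refine ⟨Φ, hΦ, ?_, fun X => ?_, hr, ?_⟩
  · ext v
    exact (hs 1 v).unique (hO.sum v)
  · ext v
    refine (hs (X * e) v).unique ?_
    have h1 : ∀ m : S, e ((m : Op H) v) = (m : Op H) v := fun m =>
      congrArg (fun T : Op H => T v) (hS m m.2).2
    simpa only [mul_apply_eq_comp, h1] using hs X v
  have hW : ‖star (W : Op H)‖ ≤ 1 := by rw [norm_star]; exact pj_norm_unitary W.2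
  obtain ⟨v, hv, hv'⟩ := exists_near_of_comm P ((W : Op H) * Φ (star (W : Op H)))
    (g := 2 * γ) (by positivity) fun y hy => by
      obtain ⟨y', hy', hd⟩ := hN (star (W : Op H) * y * W) (mem_conjVN.2 (by
        rwa [bas_inv, star_star, ← mul_assoc, ← mul_assoc, bas_us, one_mul, mul_assoc, bas_us,
          mul_one]))
      rw [bas_norm_conj'] at hd
      obtain ⟨d, hdd⟩ : ∃ d, d = star (W : Op H) * y * W - y' := ⟨_, rfl⟩
      rw [← hdd] at hd
      have e1 : star (W : Op H) * y = y' * star (W : Op H) + d * star (W : Op H) := by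
        rw [← add_mul, hdd, add_sub_cancel, mul_assoc, bas_us, mul_one]
      have e2 : y * (W : Op H) = W * y' + W * d := by
        rw [← mul_add, hdd, add_sub_cancel, mul_assoc, bas_us']
      have e3 : (W : Op H) * Φ (star (W : Op H)) * y - y * (W * Φ (star (W : Op H))) =
          W * (Φ (d * star (W : Op H)) - d * Φ (star (W : Op H))) := by
        rw [mul_assoc, ← hr _ y hy, e1, map_add, hl _ y' hy', ← mul_assoc y, e2]
        noncomm_ring
      rw [e3, CStarRing.norm_coe_unitary_mul]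
      refine (norm_sub_le _ _).trans ?_
      have a1 : ‖Φ (d * star (W : Op H))‖ ≤ ‖d‖ :=
        (hΦ _).trans ((norm_mul_le _ _).trans (mul_le_of_le_one_right (norm_nonneg _) hW))
      have a2 : ‖d * Φ (star (W : Op H))‖ ≤ ‖d‖ :=
        (norm_mul_le _ _).trans (mul_le_of_le_one_right (norm_nonneg _) ((hΦ _).trans hW))
      linarith
  exact ⟨v, hv, hv'.trans_eq (by ring)⟩

/-- Factorisation. Recipe: `exists_cover` for `e` in `A` and `e'` in `A'` (`z = 1`), maps `Φ`, `Φ'`.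
`Φ (Φ' (e e')) = 1`, `Φ (Φ' (W⋆ e e')) = Φ (Φ' W⋆)`, so `‖1 - Φ (Φ' W⋆)‖ ≤ δ`. `v₀ = W Φ (W⋆)` commutes
with `y ∈ A'` up to `2γ` (`W⋆ y ≈ ỹ W⋆`, `ỹ ∈ A'`), so `v₀ ≈ v ∈ A` (`exists_near_of_comm`, `4200 γ`);
likewise `W Φ' (W⋆) ≈ v' ∈ A'`. Then `Φ (Φ' W⋆) ≈ Φ (W⋆ v') = W⋆ v₀ v'`; `exists_unitary_factors`. -/
theorem factor : ∃ C > 0, ∀ {H : Type u} [NormedAddCommGroup H] [InnerProductSpace ℂ H]
    [CompleteSpace H] {A : VN H} (W : unitary (Op H)) {γ δ : ℝ}, 0 ≤ γ → 0 ≤ δ →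
    C * (γ + δ) ≤ 1 → Near (conjVN W⁻¹ A) A γ → Near (conjVN W⁻¹ A.commutant) A.commutant γ →
    ∀ {e e' : Op H}, e ∈ A → e' ∈ A.commutant → IsStarProjection e → IsStarProjection e' →
    (∀ w, CP A w → w * e = 0 → w = 0) → (∀ w, CP A w → w * e' = 0 → w = 0) →
    ‖((W : Op H) - 1) * (e * e')‖ ≤ δ →
    ∃ u u' : unitary (Op H), (u : Op H) ∈ A ∧ (u' : Op H) ∈ A.commutant ∧
      ‖(W : Op H) - (u : Op H) * (u' : Op H)‖ ≤ C * (γ + δ) := by
  refine ⟨1260000, by norm_num, ?_⟩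
  intro H _ _ _ A W γ δ hγ hδ hC hA hB e e' he he' hp hp' hm hm' hδ'
  obtain ⟨Φ, a1, a2, a3, a4, v, hv, a5⟩ := i0a_side W hγ hB he hp hm
  obtain ⟨Φ', b1, b2, b3, b4, v', hv', b5⟩ := i0a_side (P := A.commutant) W hγ
    (by rwa [VonNeumannAlgebra.commutant_commutant]) he' hp' fun w hw h =>
      hm' w (by simpa only [VonNeumannAlgebra.commutant_commutant] using hw.commutant) h
  rw [VonNeumannAlgebra.commutant_commutant] at b4
  have hW : ‖star (W : Op H)‖ ≤ 1 := by rw [norm_star]; exact pj_norm_unitary W.2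
  have c1 : ‖Φ (Φ' (star (W : Op H))) - 1‖ ≤ δ := by
    have e1 : Φ (Φ' (star (W : Op H))) - 1 = Φ (Φ' ((star (W : Op H) - 1) * e * e')) := by
      rw [b3, b4 _ e he, a3, map_sub, map_sub, b2, a2]
    have e2 : (W : Op H) * ((star (W : Op H) - 1) * e * e') = -(((W : Op H) - 1) * (e * e')) := by
      rw [← mul_assoc, ← mul_assoc, mul_sub, bas_us]
      noncomm_ring
    rw [e1]
    refine (a1 _).trans ((b1 _).trans ?_)
    rwa [← CStarRing.norm_coe_unitary_mul W, e2, norm_neg]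
  have c2 : ‖Φ (Φ' (star (W : Op H))) - Φ (star (W : Op H)) * v'‖ ≤ 4200 * γ := by
    rw [← a4 _ v' hv', ← map_sub]
    refine (a1 _).trans ?_
    rwa [← CStarRing.norm_coe_unitary_mul W, mul_sub, bas_us']
  have c3 : ∀ {Ψ : Op H →ₗ[ℂ] Op H} {x : Op H}, (∀ X, ‖Ψ X‖ ≤ ‖X‖) →
      ‖(W : Op H) * Ψ (star (W : Op H)) - x‖ ≤ 4200 * γ → ‖x‖ ≤ 1 + 4200 * γ := by
    intro Ψ x h1 h2
    have h3 := norm_sub_norm_le x ((W : Op H) * Ψ (star (W : Op H)))
    rw [norm_sub_rev, CStarRing.norm_coe_unitary_mul] at h3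
    linarith [h1 (star (W : Op H))]
  have c4 := c3 a1 a5
  have c5 := c3 b1 b5
  have c6 : ‖(W : Op H) - v * v'‖ ≤ 12600 * (γ + δ) := by
    have e2 : (W : Op H) - v * v' = W * ((Φ (Φ' (star (W : Op H))) - Φ (star (W : Op H)) * v') -
        (Φ (Φ' (star (W : Op H))) - 1)) + (W * Φ (star (W : Op H)) - v) * v' := by
      noncomm_ring
    rw [e2]
    refine (norm_add_le _ _).trans ?_
    rw [CStarRing.norm_coe_unitary_mul]
    have d1 := norm_sub_le (Φ (Φ' (star (W : Op H))) - Φ (star (W : Op H)) * v')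
      (Φ (Φ' (star (W : Op H))) - 1)
    have d2 := (norm_mul_le _ v').trans (mul_le_mul a5 (c5.trans (by linarith : _ ≤ (2 : ℝ)))
      (norm_nonneg _) (by positivity))
    linarith
  obtain ⟨u, u', hu, hu', h⟩ := exists_unitary_factors hv hv' W (δ := 12600 * (γ + δ))
    (by linarith) (by linarith) (by linarith) c6
  exact ⟨u, u', hu, hu', by linarith⟩

theorem i0b_ext {I : Type*} {z : I → Op H} (h : OFam z 1) {X Y : Op H}
    (he : ∀ i, z i * X = z i * Y) : X = Y := by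
  ext1 v
  have h1 : HasSum (fun i => z i (X v)) (X v) := h.sum (X v)
  have h2 : HasSum (fun i => z i (Y v)) (Y v) := h.sum (Y v)
  have h3 : (fun i => z i (X v)) = fun i => z i (Y v) := funext fun i =>
    congrArg (fun T : Op H => T v) (he i)
  rw [h3] at h1
  exact h1.unique h2

theorem i0b_dsum_proj {I : Type*} {z : I → Op H} (h : OFam z 1) {P : VN H} {e : I → Op H}
    (hP : ∀ i, e i ∈ P) (he : ∀ i, IsStarProjection (e i)) (hz : ∀ i, z i * e i = e i) :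
    ∃ X ∈ P, IsStarProjection X ∧ (∀ i, z i * X = e i) ∧ ∀ i, X * z i = e i := by
  have hz' : ∀ i, e i * z i = e i := fun i => Exh_flip (h.proj i) (he i) (hz i)
  obtain ⟨X, -, h1, h2, -, h4⟩ := h.exists_dsum e zero_le_one (fun i => (he i).norm_le) hz hz'
  refine ⟨X, bas_mem fun y hy => h4 y fun i => (mem_comm.1 hy _ (hP i)).symm, ⟨?_, ?_⟩, h1, h2⟩
  · refine i0b_ext h fun i => ?_
    rw [← mul_assoc, h1, ← hz' i, mul_assoc, h1, (he i).isIdempotentElem.eq, hz']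
  · refine i0b_ext h fun i => ?_
    rw [h1, ← (h.proj i).isSelfAdjoint.star_eq, ← star_mul, h2, (he i).isSelfAdjoint.star_eq]

theorem i0b_xpd_proj {L : Type*} [NormedAddCommGroup L] [InnerProductSpace ℂ L] [CompleteSpace L]
    {w : Op H} {s : L →L[ℂ] H} {t : H →L[ℂ] L} (C : R124.CornerData w s t) {e : Op L}
    (he : IsStarProjection e) : IsStarProjection (R124.xpd s t e) ∧
      w * R124.xpd s t e = R124.xpd s t e := by
  refine ⟨⟨?_, ?_⟩, ?_⟩
  · rw [IsIdempotentElem, ← xpd_mul C, he.isIdempotentElem.eq]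
  · rw [IsSelfAdjoint, ← C.xpd_star, he.isSelfAdjoint.star_eq]
  · ext1 v
    exact C.qs _

theorem i0b_cut {A : VN H} {f f' : Op H} (hf : f ∈ A) (hf' : f' ∈ A.commutant)
    (pf : IsStarProjection f) (pf' : IsStarProjection f') (h0 : f * f' ≠ 0) {w : Op H}
    (hw : CP A w) (hwf : w * f = f) :
    ∃ z, CP A z ∧ z ≠ 0 ∧ w * z = z ∧ ∃ e ∈ A, ∃ e' ∈ A.commutant, IsStarProjection e ∧
      IsStarProjection e' ∧ z * e = e ∧ z * e' = e' ∧ (∀ y, CP A y → y * e = 0 → y * z = 0) ∧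
      (∀ y, CP A y → y * e' = 0 → y * z = 0) ∧ e * e' = f * f' := by
  obtain ⟨z₁, a1, a2, a3⟩ := exists_csupp hf
  obtain ⟨z₂, b1, b2, b3⟩ := exists_csupp hf'
  have b1' : CP A z₂ := by
    have := b1.commutant
    rwa [VonNeumannAlgebra.commutant_commutant] at this
  have hz : CP A (z₁ * z₂) := a1.mul b1'
  have c12 : Commute z₁ z₂ := mem_comm.1 b1'.2.2 _ a1.2.1
  have hz1 : z₁ * z₂ * z₁ = z₁ * z₂ := by
    rw [mul_assoc, ← c12.eq, ← mul_assoc, a1.1.isIdempotentElem.eq]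
  have hz2 : z₁ * z₂ * z₂ = z₁ * z₂ := by rw [mul_assoc, b1'.1.isIdempotentElem.eq]
  have hff : z₁ * z₂ * (f * f') = f * f' := by
    rw [mul_assoc, ← mul_assoc z₂, ← (mem_comm.1 b1'.2.2 _ hf).eq, mul_assoc, b2, ← mul_assoc, a2]
  have hw1 : w * z₁ = z₁ := by
    have := a3 (1 - w) hw.one_sub.cen (by rw [sub_mul, one_mul, hwf, sub_self])
    rw [sub_mul, one_mul] at this
    exact (sub_eq_zero.1 this).symm
  have hwz : w * (z₁ * z₂) = z₁ * z₂ := by rw [← mul_assoc, hw1]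
  generalize z₁ * z₂ = z at hz hz1 hz2 hff hwz
  have cf : Commute z f := (mem_comm.1 hz.2.2 _ hf).symm
  have cf' : Commute z f' := mem_comm.1 hf' _ hz.2.1
  refine ⟨z, hz, fun h => h0 (by rw [← hff, h, zero_mul]), hwz, z * f, mul_mem hz.2.1 hf, z * f',
    mul_mem hz.2.2 hf', hz.1.mul pf cf, hz.1.mul pf' cf', ?_, ?_, fun y hy h => ?_,
    fun y hy h => ?_, ?_⟩
  · rw [← mul_assoc, hz.1.isIdempotentElem.eq]
  · rw [← mul_assoc, hz.1.isIdempotentElem.eq]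
  · have := a3 (y * z) (hy.mul hz).cen (by rw [mul_assoc, h])
    rwa [mul_assoc, hz1] at this
  · have := b3 (y * z) (hy.mul hz).cen.commutant (by rw [mul_assoc, h])
    rwa [mul_assoc, hz2] at this
  · rw [mul_assoc, ← mul_assoc f, ← cf.eq, mul_assoc, ← mul_assoc, hz.1.isIdempotentElem.eq, hff]

/-- One corner. Recipe: reduce by `w` (`exists_cornerData`, `Tw.exists_red`, `Tw.Loc.red`;
`t ξ ≠ 0` because `ξ` is separating), `all_small`, `dual`, lift `e₀`, `e₀'` by `xpd`; `z` is the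
product of the central supports (`exists_csupp` for `A` and for `B`), `e = z e₀`, `e' = z e₀'`. -/
theorem exists_pair_loc : ∃ C > 0, ∀ {H : Type u} [NormedAddCommGroup H] [InnerProductSpace ℂ H]
    [CompleteSpace H] {A B : VN H} {ξ : H} {γ : ℝ} (S : Tw A B ξ γ) {ε : ℝ}, 0 < ε →
    (∀ Λ, S.Loc Λ ε) → ∀ {w : Op H}, CP A w → w ≠ 0 →
    ∃ z, CP A z ∧ z ≠ 0 ∧ w * z = z ∧ ∃ e ∈ A, ∃ e' ∈ B, IsStarProjection e ∧
      IsStarProjection e' ∧ z * e = e ∧ z * e' = e' ∧ (∀ y, CP A y → y * e = 0 → y * z = 0) ∧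
      (∀ y, CP A y → y * e' = 0 → y * z = 0) ∧ ‖((S.W : Op H) - 1) * (e * e')‖ ≤ C * √ε := by
  obtain ⟨C₁, hC₁, hall⟩ := all_small.{u}
  refine ⟨12 * √C₁, by positivity, ?_⟩
  intro H _ _ _ A B ξ γ S ε hε hL w hw hw0
  have hB := S.comm
  subst hB
  obtain ⟨L, _, _, _, s, t, C, -⟩ := exists_cornerData hw.1
  obtain ⟨S', hW⟩ := S.exists_red hw C
  have hξ : t ξ ≠ 0 := fun h => hw0 (S.cycB.sep hw.2.1 (by rw [← C.st, h, map_zero]))
  obtain ⟨e₀, he₀, e₀', he₀', p₀, p₀', h0, hn⟩ := dual S'.comm S'.cycA S'.cycB hξ S'.W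
    (mul_pos hC₁ hε) (hall S' hε.le fun Λ => (Tw.Loc.red hw C hW (hL Λ)).glob)
  obtain ⟨pf, hwf⟩ := i0b_xpd_proj C p₀
  obtain ⟨pf', -⟩ := i0b_xpd_proj C p₀'
  have hne : R124.xpd s t e₀ * R124.xpd s t e₀' ≠ 0 := by
    rw [← xpd_mul C, ← norm_ne_zero_iff, norm_xpd_eq C, norm_ne_zero_iff]
    exact h0
  obtain ⟨z, a1, a2, a3, e, a4, e', a5, a6, a7, a8, a9, a10, a11, a12⟩ :=
    i0b_cut ((mem_ind_cen C hw).1 he₀) ((mem_ind_cen C hw.commutant).1 he₀') pf pf' hne hw hwf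
  refine ⟨z, a1, a2, a3, e, a4, e', a5, a6, a7, a8, a9, a10, a11, ?_⟩
  have key : ((S.W : Op H) - 1) * (R124.xpd s t e₀ * R124.xpd s t e₀') =
      R124.xpd s t (((S'.W : Op L) - 1) * (e₀ * e₀')) := by
    rw [← xpd_mul C, hW]
    generalize e₀ * e₀' = T
    ext1 v
    have h1 : w ((S.W : Op H) (s (T (t v)))) = (S.W : Op H) (w (s (T (t v)))) :=
      cpl_app (S.W_cen w hw.cen) _
    simp only [mul_apply_eq_comp, sub_apply, one_apply_eq_self,
      R124.xpd_apply, R124.cmp_apply, map_sub, C.st, h1, C.qs]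
  rw [a12, key, norm_xpd_eq C, mul_assoc, ← Real.sqrt_mul hC₁.le]
  exact hn

/-- Gluing: `exhaust_cp` with `z₀ = 1`, `OFam.exists_dsum` (or `exists_ofam`) for the projections;
`(W - 1) e e'` is the direct sum of its pieces. -/
theorem exists_pair : ∃ C > 0, ∀ {H : Type u} [NormedAddCommGroup H] [InnerProductSpace ℂ H]
    [CompleteSpace H] {A B : VN H} {ξ : H} {γ : ℝ} (S : Tw A B ξ γ) {ε : ℝ}, 0 < ε →
    (∀ Λ, S.Loc Λ ε) → ∃ e ∈ A, ∃ e' ∈ B, IsStarProjection e ∧ IsStarProjection e' ∧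
      (∀ y, CP A y → y * e = 0 → y = 0) ∧ (∀ y, CP A y → y * e' = 0 → y = 0) ∧
      ‖((S.W : Op H) - 1) * (e * e')‖ ≤ C * √ε := by
  obtain ⟨C, hC, hloc⟩ := exists_pair_loc.{u}
  refine ⟨C, hC, ?_⟩
  intro H _ _ _ A B ξ γ S ε hε hL
  have h1 : CP A (1 : Op H) := ⟨IsStarProjection.one _, one_mem _, one_mem _⟩
  obtain ⟨T, hT, hf⟩ := exhaust_cp h1 _ fun w hw hw0 _ => hloc S hε hL hw hw0
  choose e a1 e' a2 a3 a4 a5 a6 a7 a8 a9 using fun z : T => (hT z z.2).2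
  obtain ⟨X, x1, x2, x3, x4⟩ := i0b_dsum_proj hf a1 a3 a5
  obtain ⟨X', y1, y2, y3, y4⟩ := i0b_dsum_proj hf a2 a4 a6
  have hy : ∀ y, CP A y → (∀ z : T, y * z = 0) → y = 0 := fun y hy h =>
    i0b_ext hf fun z => by rw [mul_zero, Exh_flip0 hy.1 (hf.proj z) (h z)]
  have hc : ∀ z : T, (z : Op H) * ((S.W : Op H) - 1) = ((S.W : Op H) - 1) * z := fun z =>
    ((S.W_cen z (hT z z.2).1.cen).sub_right (Commute.one_right _)).eq
  refine ⟨X, x1, X', y1, x2, y2, fun y h₁ h₂ => hy y h₁ fun z => a7 z y h₁ ?_,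
    fun y h₁ h₂ => hy y h₁ fun z => a8 z y h₁ ?_, ?_⟩
  · rw [← x4, ← mul_assoc, h₂, zero_mul]
  · rw [← y4, ← mul_assoc, h₂, zero_mul]
  · obtain ⟨Y, n1, n2, -⟩ := hf.exists_dsum (fun z => ((S.W : Op H) - 1) * (e z * e' z))
      (by positivity : 0 ≤ C * √ε) a9
      (fun z => by rw [← mul_assoc, hc, mul_assoc, ← mul_assoc (z : Op H), a5])
      (fun z => by rw [mul_assoc, mul_assoc, Exh_flip (hf.proj z) (a4 z) (a6 z)])
    have : ((S.W : Op H) - 1) * (X * X') = Y := i0b_ext hf fun z => by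
      rw [n2, ← mul_assoc, hc, mul_assoc, ← mul_assoc (z : Op H), x3,
        ← Exh_flip (hf.proj z) (a3 z) (a5 z), mul_assoc, y3, Exh_flip (hf.proj z) (a3 z) (a5 z)]
    rwa [this]

/-- `loc_all`, `exists_pair`, `factor`. -/
theorem i0 {ε : ℝ} (hε : 0 < ε) : ∃ Λ₀ : ℝ, ∃ δ > 0,
    ∀ {H : Type u} [NormedAddCommGroup H] [InnerProductSpace ℂ H] [CompleteSpace H]
    {A B : VN H} {ξ : H} {γ : ℝ} (S : Tw A B ξ γ), 0 ≤ γ → γ ≤ δ → S.Loc Λ₀ δ →
    ∃ u u' : unitary (Op H), (u : Op H) ∈ A ∧ (u' : Op H) ∈ B ∧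
      ‖(S.W : Op H) - (u : Op H) * (u' : Op H)‖ ≤ ε := by
  obtain ⟨C, hC, hfac⟩ := factor.{u}
  obtain ⟨D, hD, hpair⟩ := exists_pair.{u}
  obtain ⟨η, hη, hη1, hη2⟩ : ∃ η > 0, C * (η + η) ≤ 1 ∧ C * (η + η) ≤ ε := by
    refine ⟨min ε 1 / (2 * C), by positivity, ?_⟩
    have : C * (min ε 1 / (2 * C) + min ε 1 / (2 * C)) = min ε 1 := by field_simp; ring
    rw [this]
    exact ⟨min_le_right _ _, min_le_left _ _⟩
  obtain ⟨Λ₀, δ₀, hδ₀, hall⟩ := loc_all.{u} (by positivity : 0 < (η / D) ^ 2)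
  refine ⟨Λ₀, min δ₀ η, lt_min hδ₀ hη, ?_⟩
  intro H _ _ _ A B ξ γ S hγ hγδ hL
  have hB := S.comm
  subst hB
  obtain ⟨e, a1, e', a2, a3, a4, a5, a6, a7⟩ := hpair S (by positivity)
    (hall S hγ (hγδ.trans (min_le_left _ _)) (hL.mono le_rfl (min_le_left _ _)))
  rw [Real.sqrt_sq (by positivity), mul_div_cancel₀ _ hD.ne'] at a7
  have hm : C * (γ + η) ≤ C * (η + η) := by
    have := hγδ.trans (min_le_right _ _)
    gcongr
  obtain ⟨u, u', b1, b2, b3⟩ := hfac S.W hγ hη.le (hm.trans hη1) S.nA' S.nB' a1 a2 a3 a4 a5 a6 a7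
  exact ⟨u, u', b1, b2, b3.trans (hm.trans hη2)⟩

end

end Crest.Agent.R78
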