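import Crest.Agent.R78.Sand

/-!
# Row 78: two estimates for a near fixed vector (part b of `IM`)
-/

open scoped InnerProductSpace Topology ComplexConjugate
open Filter MeasureTheory

set_option linter.unusedSectionVars false

namespace Crest.Agent.R78

open Crest.Agent.R121 (Alg)

noncomputable section

variable {H : Type*} [NormedAddCommGroup H] [InnerProductSpace ℂ H] [CompleteSpace H]

variable {A B : VN H} {ξ : H} {γ : ℝ}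

theorem imb_le {x y K : ℝ} (hK : 0 ≤ K) (h : ∀ ε > 0, x ≤ y + ε * K) : x ≤ y := by
  refine le_of_forall_pos_le_add fun ε hε => (h (ε / (K + 1)) (by positivity)).trans ?_
  have : ε / (K + 1) * K ≤ ε := by
    rw [div_mul_eq_mul_div, div_le_iff₀ (by positivity)]
    nlinarith
  linarith

theorem imb_op {ι : Type*} [Fintype ι] (x : Op H) {c : ℝ} (hx : ‖x‖ ≤ c) (v : ι → H) :
    √(∑ j, ‖x (v j)‖ ^ 2) ≤ c * √(∑ j, ‖v j‖ ^ 2) := by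
  have hc : 0 ≤ c := (norm_nonneg _).trans hx
  refine Real.sqrt_le_iff.2 ⟨by positivity, ?_⟩
  rw [mul_pow, Real.sq_sqrt (Finset.sum_nonneg fun _ _ => sq_nonneg _), Finset.mul_sum]
  refine Finset.sum_le_sum fun j _ => ?_
  rw [← mul_pow]
  exact pow_le_pow_left₀ (norm_nonneg _) (x.le_of_opNorm_le hx _) 2

theorem imb_sqrt {s δ : ℝ} (hδ : 0 ≤ δ) {v : H} (h : s ≤ δ * ‖v‖ ^ 2) : √s ≤ √δ * ‖v‖ := by
  refine Real.sqrt_le_iff.2 ⟨by positivity, ?_⟩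
  rwa [mul_pow, Real.sq_sqrt hδ]

theorem imb_col {ι : Type*} [Fintype ι] {a : ι → Op H} (h : Col a 1) (v : H) :
    √(∑ j, ‖a j v‖ ^ 2) ≤ ‖v‖ := by
  simpa using bas_sqrt_le h zero_le_one v

theorem imb_norm_u (u : unitary (Op H)) (v : H) : ‖(u : Op H) v‖ = ‖v‖ :=
  Unitary.norm_map u v

theorem imb_norm_su (u : unitary (Op H)) (v : H) : ‖star (u : Op H) v‖ = ‖v‖ :=
  Unitary.norm_map (star u) v

theorem imb_us (u : unitary (Op H)) (v : H) : (u : Op H) (star (u : Op H) v) = v :=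
  congrArg (fun T : Op H => T v) (bas_us u)

theorem imb_su (u : unitary (Op H)) (v : H) : star (u : Op H) ((u : Op H) v) = v :=
  congrArg (fun T : Op H => T v) (bas_su u)

theorem imb_cp (c : Cpl A B ξ) (x : Op H) (v w : H) :
    ⟪v, c.cp x w⟫_ℂ = ∑ j, ⟪c.a j v, x (c.a j w)⟫_ℂ := by
  simp only [Cpl.cp, sum_apply, inner_sum, mul_apply_eq_comp, bas_inner_star]

theorem imb_cp_sq (c : Cpl A B ξ) (x : Op H) (v : H) :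
    ∑ j, ‖x (c.a j v)‖ ^ 2 = (⟪v, c.cp (star x * x) v⟫_ℂ).re := by
  rw [imb_cp, Complex.re_sum]
  exact Finset.sum_congr rfl fun j _ => (Graph_norm_sq_star x _).symm

theorem imb_defect (c : Cpl A B ξ) {τ : ℝ} (hτ : 0 ≤ τ) (h : c.Dfc (τ ^ 2)) :
    ‖(1 - c.cp 1) ξ‖ ≤ τ * ‖ξ‖ := by
  have h1 := c.norm_defect_le h
  rw [← mul_pow] at h1
  exact (pow_le_pow_iff_left₀ (norm_nonneg _) (by positivity) two_ne_zero).1 h1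

theorem imb_swap_dfc {c : Cpl A B ξ} {τ : ℝ} (h : c.Dfc τ) : c.swap.Dfc τ := by
  rwa [Cpl.Dfc, Cpl.swap_mass]

theorem imb_left {ι : Type*} [Fintype ι] (u u' w : ι → H) {p q : ℝ} (hp : 0 ≤ p)
    (h₁ : √(∑ j, ‖u j - u' j‖ ^ 2) ≤ p) (h₂ : √(∑ j, ‖w j‖ ^ 2) ≤ q) :
    ‖∑ j, ⟪u j, w j⟫_ℂ - ∑ j, ⟪u' j, w j⟫_ℂ‖ ≤ p * q := by
  rw [← Finset.sum_sub_distrib]
  simp only [← inner_sub_left]
  exact (norm_sum_inner_le _ _).trans (mul_le_mul h₁ h₂ (Real.sqrt_nonneg _) hp)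

theorem imb_right {ι : Type*} [Fintype ι] (u w w' : ι → H) {p q : ℝ} (hp : 0 ≤ p)
    (h₁ : √(∑ j, ‖u j‖ ^ 2) ≤ p) (h₂ : √(∑ j, ‖w j - w' j‖ ^ 2) ≤ q) :
    ‖∑ j, ⟪u j, w j⟫_ℂ - ∑ j, ⟪u j, w' j⟫_ℂ‖ ≤ p * q := by
  rw [← Finset.sum_sub_distrib]
  simp only [← inner_sub_right]
  exact (norm_sum_inner_le _ _).trans (mul_le_mul h₁ h₂ (Real.sqrt_nonneg _) hp)

theorem imb_inner {v w w' : H} {p q : ℝ} (hp : ‖v‖ ≤ p) (h : ‖w - w'‖ ≤ q) :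
    ‖⟪v, w⟫_ℂ - ⟪v, w'⟫_ℂ‖ ≤ p * q := by
  rw [← inner_sub_right]
  exact (norm_inner_le_norm _ _).trans
    (mul_le_mul hp h (norm_nonneg _) ((norm_nonneg _).trans hp))

theorem Tw.eta_fun' (S : Tw A B ξ γ) (hγ : 0 ≤ γ) {δ₁ τ : ℝ} (hδ : 0 ≤ δ₁) (hτ : 0 < τ)
    (hG : S.Glob 2 δ₁) {η : H} (hη : ‖η‖ ≤ ‖ξ‖)
    (h : ∀ a : Cpl A B ξ, a.Soft 2 → a.Dfc τ →
      ∑ i, ‖(S.W : Op H) (a.a i (star (S.W : Op H) η)) - a.a' i η‖ ^ 2 ≤ δ₁ * ‖ξ‖ ^ 2)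
    {n : Op H} (hn : n ∈ B) :
    ‖⟪η - eZ A ξ η, n ξ⟫_ℂ‖ ≤ (2 * √δ₁ + 2 * γ * (1 + γ)) * ‖n‖ * ‖ξ‖ ^ 2 := by
  set β := star (S.W : Op H) η with hβ
  have hβn : ‖β‖ ≤ ‖ξ‖ := by rwa [hβ, imb_norm_su]
  set m : Op H := star (S.W : Op H) * n * (S.W : Op H) with hm
  obtain ⟨n', hn', hmn⟩ := S.nB' m (by
    have := conj_mem_conjVN S.W⁻¹ hn
    rwa [bas_inv, star_star] at this)
  rw [hm, bas_norm_conj', ← hm] at hmn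
  have hWξ : (S.W : Op H) ξ = ξ := S.Wξ
  refine imb_le (K := ‖ξ‖ + ‖ξ‖ * (‖n'‖ * ‖ξ‖)) (by positivity) fun ε hε => ?_
  obtain ⟨c, hcS, hcD, hc⟩ := S.toTom.swap.mix_soft (ι := Unit) (x := fun _ => n) (fun _ => hn) hε
    (τ := min τ (ε ^ 2)) (by positivity)
  have hc1 := hc ()
  rw [S.toTom.eZ_eq] at hc1
  set a := c.swap with ha
  have haS : a.Soft 2 := hcS.swap
  have haD : a.Dfc (min τ (ε ^ 2)) := imb_swap_dfc hcD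
  have hE := h a haS (haD.mono (min_le_left _ _))
  have hen := hG a haS
  have hdf := imb_defect a hε.le (haD.mono (min_le_right _ _))
  have c0 : √(∑ j, ‖n (a.a j ξ)‖ ^ 2) ≤ ‖n‖ * ‖ξ‖ :=
    (imb_op n le_rfl _).trans (mul_le_mul_of_nonneg_left (imb_col a.col ξ) (norm_nonneg _))
  have cβ : √(∑ j, ‖a.a j β‖ ^ 2) ≤ ‖ξ‖ := (imb_col a.col β).trans hβn
  -- the chain
  have e1 : ⟪η, c.cp n ξ⟫_ℂ = ∑ j, ⟪a.a' j η, n (a.a j ξ)⟫_ℂ := by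
    rw [imb_cp]
    exact Finset.sum_congr rfl fun j _ => by rw [a.eq j]; rfl
  have s0 : ‖⟪η, c.cp n ξ⟫_ℂ - ⟪η, eZ A ξ (n ξ)⟫_ℂ‖ ≤ ‖ξ‖ * ε := imb_inner hη hc1
  have s1 : ‖∑ j, ⟪(S.W : Op H) (a.a j β), n (a.a j ξ)⟫_ℂ - ∑ j, ⟪a.a' j η, n (a.a j ξ)⟫_ℂ‖ ≤
      √δ₁ * ‖ξ‖ * (‖n‖ * ‖ξ‖) := imb_left _ _ _ (by positivity) (imb_sqrt hδ hE) c0
  have s2 : ‖∑ j, ⟪(S.W : Op H) (a.a j β), n ((S.W : Op H) (a.a j ξ))⟫_ℂ -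
      ∑ j, ⟪(S.W : Op H) (a.a j β), n (a.a j ξ)⟫_ℂ‖ ≤ ‖ξ‖ * (‖n‖ * (√δ₁ * ‖ξ‖)) := by
    refine imb_right _ _ _ (norm_nonneg _) (by simpa only [imb_norm_u] using cβ) ?_
    simp only [← map_sub]
    refine (imb_op n le_rfl _).trans (mul_le_mul_of_nonneg_left ?_ (norm_nonneg _))
    exact imb_sqrt hδ hen
  have e3 : ∑ j, ⟪(S.W : Op H) (a.a j β), n ((S.W : Op H) (a.a j ξ))⟫_ℂ =
      ∑ j, ⟪a.a j β, m (a.a j ξ)⟫_ℂ :=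
    Finset.sum_congr rfl fun j _ => by rw [← bas_inner_star]; rfl
  have s3 : ‖∑ j, ⟪a.a j β, n' (a.a j ξ)⟫_ℂ - ∑ j, ⟪a.a j β, m (a.a j ξ)⟫_ℂ‖ ≤
      ‖ξ‖ * (γ * ‖n‖ * ‖ξ‖) := by
    refine imb_right _ _ _ (norm_nonneg _) cβ ?_
    simp only [← sub_apply]
    exact (imb_op (n' - m) (by rwa [norm_sub_rev]) _).trans
      (mul_le_mul_of_nonneg_left (imb_col a.col ξ) (by positivity))
  have e4 : ∑ j, ⟪a.a j β, n' (a.a j ξ)⟫_ℂ = ⟪β, n' (a.cp 1 ξ)⟫_ℂ := by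
    rw [← cpl_app (S.toTom.commute (a.cp_mem (one_mem _)) hn'), imb_cp]
    exact Finset.sum_congr rfl fun j _ => by
      rw [cpl_app (S.toTom.commute (a.mem j) hn')]; rfl
  have s4 : ‖⟪β, n' ξ⟫_ℂ - ⟪β, n' (a.cp 1 ξ)⟫_ℂ‖ ≤ ‖ξ‖ * (‖n'‖ * (ε * ‖ξ‖)) := by
    refine imb_inner hβn ?_
    rw [← map_sub]
    exact (n'.le_opNorm _).trans (mul_le_mul_of_nonneg_left hdf (norm_nonneg _))
  have s5 : ‖⟪β, m ξ⟫_ℂ - ⟪β, n' ξ⟫_ℂ‖ ≤ ‖ξ‖ * (γ * ‖n‖ * ‖ξ‖) :=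
    imb_inner hβn ((m - n').le_of_opNorm_le hmn ξ)
  have e6 : ⟪β, m ξ⟫_ℂ = ⟪η, n ξ⟫_ℂ := by
    rw [hβ, bas_star_inner, hm, mul_apply_eq_comp, mul_apply_eq_comp, imb_us, hWξ]
  have e7 : ⟪η - eZ A ξ η, n ξ⟫_ℂ = ⟪η, n ξ⟫_ℂ - ⟪η, eZ A ξ (n ξ)⟫_ℂ := by
    rw [inner_sub_left, ← bas_star_inner (eZ A ξ), (eZ_proj A ξ).isSelfAdjoint.star_eq]
  rw [e1] at s0
  rw [e3] at s2
  rw [e4] at s3
  rw [e6] at s5
  rw [e7]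
  have t1 := norm_sub_le_norm_sub_add_norm_sub ⟪η, n ξ⟫_ℂ ⟪β, n' ξ⟫_ℂ ⟪η, eZ A ξ (n ξ)⟫_ℂ
  have t2 := norm_sub_le_norm_sub_add_norm_sub ⟪β, n' ξ⟫_ℂ ⟪β, n' (a.cp 1 ξ)⟫_ℂ
    ⟪η, eZ A ξ (n ξ)⟫_ℂ
  have t3 := norm_sub_le_norm_sub_add_norm_sub ⟪β, n' (a.cp 1 ξ)⟫_ℂ
    (∑ j, ⟪a.a j β, m (a.a j ξ)⟫_ℂ) ⟪η, eZ A ξ (n ξ)⟫_ℂ
  have t4 := norm_sub_le_norm_sub_add_norm_sub (∑ j, ⟪a.a j β, m (a.a j ξ)⟫_ℂ)
    (∑ j, ⟪(S.W : Op H) (a.a j β), n (a.a j ξ)⟫_ℂ) ⟪η, eZ A ξ (n ξ)⟫_ℂ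
  have t5 := norm_sub_le_norm_sub_add_norm_sub (∑ j, ⟪(S.W : Op H) (a.a j β), n (a.a j ξ)⟫_ℂ)
    (∑ j, ⟪a.a' j η, n (a.a j ξ)⟫_ℂ) ⟪η, eZ A ξ (n ξ)⟫_ℂ
  have : 0 ≤ γ * γ * ‖n‖ * ‖ξ‖ ^ 2 := by positivity
  nlinarith

theorem Tw.eta_wdom' (S : Tw A B ξ γ) (hγ : 0 ≤ γ) {δ₁ τ : ℝ} (hδ : 0 ≤ δ₁) (hτ : 0 < τ)
    {η : H} (hη : ∀ z, Cen A z → ‖z η‖ ≤ ‖z ξ‖)
    (h : ∀ a : Cpl A B ξ, a.Soft 2 → a.Dfc τ →
      ∑ i, ‖(S.W : Op H) (a.a i (star (S.W : Op H) η)) - a.a' i η‖ ^ 2 ≤ δ₁ * ‖ξ‖ ^ 2)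
    {x : Op H} (hx : x ∈ A) (hx1 : ‖x‖ ≤ 1) :
    ‖x (star (S.W : Op H) η)‖ ≤ ‖x ξ‖ + (√δ₁ + 2 * γ) * ‖ξ‖ := by
  set β := star (S.W : Op H) η with hβ
  have hηn : ‖η‖ ≤ ‖ξ‖ := hη 1 (Graph_cen_one A)
  have hhA : star x * x ∈ A := mul_mem (star_mem hx) hx
  have hhn : ‖star x * x‖ ≤ 1 := by
    rw [CStarRing.norm_star_mul_self]
    exact mul_le_one₀ hx1 (norm_nonneg _) hx1
  obtain ⟨y, hy, hyξ, hyn, hy0⟩ := S.toTom.exists_cen_exp hhA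
  obtain ⟨r, -, hr0, hrr, hrc⟩ := exists_sqrt hy.1 (hy0 (star_mul_self_nonneg x))
  have hr : Cen A r := Graph_cen_of_bicomm hy hrc
  have hry : star r * r = y := by rw [hr0.isSelfAdjoint.star_eq, hrr]
  have hyβ : (⟪β, y β⟫_ℂ).re ≤ ‖x ξ‖ ^ 2 := by
    have h1 : ‖r β‖ = ‖r η‖ := by
      have : Commute r (star (S.W : Op H)) := by
        have := (S.W_cen r hr).star_star
        rwa [hr0.isSelfAdjoint.star_eq] at this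
      rw [hβ, cpl_app this, imb_norm_su]
    have h2 : ‖r ξ‖ ^ 2 = ‖x ξ‖ ^ 2 := by
      rw [← Graph_norm_sq_star, ← Graph_norm_sq_star, hry, hyξ, ← bas_star_inner (eZ A ξ),
        (eZ_proj A ξ).isSelfAdjoint.star_eq, eZ_of_mem (self_mem_zsp A ξ)]
    rw [← hry, Graph_norm_sq_star, h1, ← h2]
    exact pow_le_pow_left₀ (norm_nonneg _) (hη r hr) 2
  set X : Op H := (S.W : Op H) * x * star (S.W : Op H) with hX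
  obtain ⟨x', hx', hXx⟩ := S.nA X (conj_mem_conjVN S.W hx)
  have hXn : ‖X‖ ≤ 1 := by rwa [hX, bas_norm_conj]
  have hXx' : ‖X - x'‖ ≤ γ := hXx.trans (mul_le_of_le_one_right hγ hXn)
  refine imb_le (K := 2 + ‖β‖) (by positivity) fun ε hε => ?_
  obtain ⟨d₁, hd₁, H₁⟩ := Cyc.strong (A := A) (ξ := ξ) (by rw [S.comm]; exact S.cycB) (C := 2) β
    (ε := ε ^ 2) (by positivity)
  obtain ⟨d₂, hd₂, H₂⟩ := Cyc.strong (A := B) (ξ := ξ) (by rw [S.toTom.comm']; exact S.cycA)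
    (C := 2) (x' η) hε
  obtain ⟨a, haS, haD, ha⟩ := S.toTom.mix_soft (ι := Unit) (x := fun _ => star x * x)
    (fun _ => hhA) hd₁ (τ := min τ ((d₂ / (‖ξ‖ + 1)) ^ 2)) (by positivity)
  have hE := h a haS (haD.mono (min_le_left _ _))
  have b1 : ‖(a.cp (star x * x) - y) β‖ ≤ ε ^ 2 := by
    refine H₁ _ (sub_mem (a.cp_mem hhA) hy.1) ?_ ?_
    · exact (norm_sub_le _ _).trans (by linarith [a.norm_cp_le (star x * x)])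
    · rw [sub_apply, hyξ]; exact ha ()
  have b2 : ‖(1 - a.swap.cp 1) (x' η)‖ ≤ ε := by
    refine H₂ _ (sub_mem (one_mem _) (a.swap.cp_mem (one_mem _))) ?_ ?_
    · exact (norm_sub_le _ _).trans
        (by linarith [a.swap.norm_cp_le 1, pj_norm_one (A := Op H)])
    · refine (imb_defect a.swap (by positivity)
        (imb_swap_dfc (haD.mono (min_le_right _ _)))).trans ?_
      rw [div_mul_eq_mul_div, div_le_iff₀ (by positivity)]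
      nlinarith
  -- upper bound
  have u1 : √(∑ j, ‖x (a.a j β)‖ ^ 2) ≤ ‖x ξ‖ + ε * (1 + ‖β‖) := by
    refine Real.sqrt_le_iff.2 ⟨by positivity, ?_⟩
    have h1 : (⟪β, a.cp (star x * x) β⟫_ℂ).re - (⟪β, y β⟫_ℂ).re ≤ ‖β‖ * ε ^ 2 := by
      rw [← Complex.sub_re]
      exact (Complex.re_le_norm _).trans (imb_inner le_rfl b1)
    rw [imb_cp_sq]
    have h2 : 0 ≤ ‖x ξ‖ * (ε * (1 + ‖β‖)) := by positivity
    have h3 : 0 ≤ ε ^ 2 * (1 + ‖β‖ + ‖β‖ ^ 2) := by positivity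
    nlinarith
  have u2 : √(∑ j, ‖X (a.a' j η)‖ ^ 2) ≤ √(∑ j, ‖x (a.a j β)‖ ^ 2) + √δ₁ * ‖ξ‖ := by
    have h1 := sqrt_sum_add_le (fun j => X ((S.W : Op H) (a.a j β)))
      fun j => -X ((S.W : Op H) (a.a j β) - a.a' j η)
    have h2 : ∀ j, X ((S.W : Op H) (a.a j β)) + -X ((S.W : Op H) (a.a j β) - a.a' j η) =
        X (a.a' j η) := fun j => by rw [map_sub]; abel
    have h3 : ∀ j, ‖X ((S.W : Op H) (a.a j β))‖ = ‖x (a.a j β)‖ := fun j => by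
      rw [hX, mul_apply_eq_comp, mul_apply_eq_comp, imb_su, imb_norm_u]
    simp only [h2, h3, norm_neg] at h1
    have h4 := imb_op X hXn fun j => (S.W : Op H) (a.a j β) - a.a' j η
    have h5 := imb_sqrt hδ hE
    linarith
  have u3 : √(∑ j, ‖a.a' j (x' η)‖ ^ 2) ≤ √(∑ j, ‖X (a.a' j η)‖ ^ 2) + γ * ‖ξ‖ := by
    have h1 := sqrt_sum_add_le (fun j => X (a.a' j η)) fun j => -(X - x') (a.a' j η)
    have h2 : ∀ j, X (a.a' j η) + -(X - x') (a.a' j η) = a.a' j (x' η) := fun j => by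
      rw [← cpl_app (S.toTom.commute hx' (a.mem' j)), sub_apply]; abel
    simp only [h2, norm_neg] at h1
    have h4 := imb_op (X - x') hXx' fun j => a.a' j η
    have h5 := mul_le_mul_of_nonneg_left ((imb_col a.col' η).trans hηn) hγ
    linarith
  have u4 : ‖x' η‖ ≤ √(∑ j, ‖a.a' j (x' η)‖ ^ 2) + ε := by
    have h1 : ∑ j, ‖a.a' j (x' η)‖ ^ 2 = (⟪x' η, a.swap.cp 1 (x' η)⟫_ℂ).re := by
      have := imb_cp_sq a.swap 1 (x' η)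
      rw [star_one, mul_one] at this
      exact this
    have h2 : (⟪x' η, x' η⟫_ℂ).re - (⟪x' η, a.swap.cp 1 (x' η)⟫_ℂ).re ≤ ‖x' η‖ * ε := by
      rw [← Complex.sub_re]
      exact (Complex.re_le_norm _).trans (imb_inner le_rfl b2)
    have h3 : (⟪x' η, x' η⟫_ℂ).re = ‖x' η‖ ^ 2 := inner_self_eq_norm_sq (𝕜 := ℂ) _
    have h4 := Real.sq_sqrt (Finset.sum_nonneg fun j (_ : j ∈ Finset.univ) =>
      sq_nonneg ‖a.a' j (x' η)‖)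
    have h5 := Real.sqrt_nonneg (∑ j, ‖a.a' j (x' η)‖ ^ 2)
    by_contra hlt
    push Not at hlt
    nlinarith
  have u5 : ‖x β‖ ≤ ‖x' η‖ + γ * ‖ξ‖ := by
    have h1 : ‖x β‖ = ‖X η‖ := by
      rw [hX, mul_apply_eq_comp, mul_apply_eq_comp, imb_norm_u]
    have h2 : X η = x' η + (X - x') η := by rw [sub_apply]; abel
    have h3 := (X - x').le_of_opNorm_le hXx' η
    have h4 := mul_le_mul_of_nonneg_left hηn hγ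
    rw [h1, h2]
    linarith [norm_add_le (x' η) ((X - x') η)]
  linarith

end

end Crest.Agent.R78
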