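import Crest.Agent.R78.Sand
import Crest.Agent.R78.Sak
import Crest.Agent.R78.L2VN
import Crest.Agent.R78.IMB

/-!
# Row 78: improving the energy bound by a near fixed vector
-/

open scoped InnerProductSpace Topology ComplexConjugate
open Filter MeasureTheory

set_option linter.unusedSectionVars false

namespace Crest.Agent.R78

open Crest.Agent.R121 (Alg)

noncomputable section

universe u

variable {H : Type*} [NormedAddCommGroup H] [InnerProductSpace ℂ H] [CompleteSpace H]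

variable {A B : VN H} {ξ : H} {γ : ℝ}

/-- The vector `η(b) = ∑ b'_j⋆ W b_j ξ`. -/
def Cpl.eta (b : Cpl A B ξ) (W : Op H) : H := ∑ j, star (b.a' j) (W (b.a j ξ))

/-- The contraction `Ψ_a = ∑ a'_i⋆ W a_i W⋆`. -/
def Cpl.Psi (a : Cpl A B ξ) (W : Op H) : Op H := ∑ i, star (a.a' i) * W * a.a i * star W

theorem ima_norm (W : unitary (Op H)) (v : H) : ‖(W : Op H) v‖ = ‖v‖ :=
  ContinuousLinearMap.norm_map_of_mem_unitary W.2 v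

theorem ima_norm' (W : unitary (Op H)) (v : H) : ‖star (W : Op H) v‖ = ‖v‖ :=
  ima_norm W⁻¹ v

theorem ima_su (W : unitary (Op H)) (v : H) : star (W : Op H) ((W : Op H) v) = v := by
  rw [← mul_apply_eq_comp, bas_su]; rfl

theorem ima_eta_le (b : Cpl A B ξ) (W : unitary (Op H)) (v : H) :
    ‖∑ j, star (b.a' j) ((W : Op H) (b.a j v))‖ ≤ ‖v‖ := by
  refine (b.col'.norm_sum_star_le zero_le_one _).trans ?_
  simp only [ima_norm, one_mul]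
  simpa using bas_sqrt_le b.col zero_le_one v

theorem ima_Psi_apply (a : Cpl A B ξ) (W : Op H) (v : H) :
    a.Psi W v = ∑ i, star (a.a' i) (W (a.a i (star W v))) := by
  simp [Cpl.Psi]

theorem Cpl.norm_Psi_le (a : Cpl A B ξ) (W : unitary (Op H)) : ‖a.Psi W‖ ≤ 1 := by
  refine ContinuousLinearMap.opNorm_le_bound _ zero_le_one fun v => ?_
  rw [ima_Psi_apply, one_mul]
  exact (ima_eta_le a W _).trans (ima_norm' W v).le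

theorem Cpl.mix_eta {s : ℝ} (hs : 0 ≤ s) (hs1 : s ≤ 1) (c d : Cpl A B ξ) (W : Op H) :
    (Cpl.mix s hs hs1 c d).eta W = (s : ℂ) • c.eta W + ((1 - s : ℝ) : ℂ) • d.eta W := by
  have h : ∀ {t : ℝ}, 0 ≤ t → ∀ x y : Op H,
      star ((√t : ℂ) • x) (W (((√t : ℂ) • y) ξ)) = (t : ℂ) • star x (W (y ξ)) := by
    intro t ht x y
    rw [cpl_star]
    simp only [smul_apply, map_smul, smul_smul]
    rw [← Complex.ofReal_mul, Real.mul_self_sqrt ht]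
  refine (Fintype.sum_sum_type _).trans ?_
  simp only [Cpl.mix, Sum.elim_inl, Sum.elim_inr, Cpl.eta, Finset.smul_sum, h hs,
    h (sub_nonneg.2 hs1)]

/-- `‖(W - 1) v‖² = 2 ‖v‖² - 2 re ⟪v, W v⟫`. -/
theorem Cpl.re_inner_eta (b : Cpl A B ξ) (W : unitary (Op H)) :
    (⟪ξ, b.eta W⟫_ℂ).re = b.mass - b.en W 1 / 2 := by
  unfold Cpl.eta Cpl.mass Cpl.en
  rw [inner_sum, Complex.re_sum, Finset.sum_div, ← Finset.sum_sub_distrib]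
  refine Finset.sum_congr rfl fun j _ => ?_
  rw [bas_inner_star, ← b.eq j]
  have h := norm_sub_sq (𝕜 := ℂ) (b.a j ξ) ((W : Op H) (b.a j ξ))
  rw [ima_norm, norm_sub_rev] at h
  have e : ((W : Op H) - 1) (b.a j ((1 : Op H) ξ)) = (W : Op H) (b.a j ξ) - b.a j ξ := rfl
  rw [e, h]
  simp only [RCLike.re_to_complex]
  ring

/-- `z η = ∑ b'⋆ W b z ξ`. -/
theorem Tw.norm_cen_eta_le (S : Tw A B ξ γ) (b : Cpl A B ξ) {z : Op H} (hz : Cen A z) :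
    ‖z (b.eta S.W)‖ ≤ ‖z ξ‖ := by
  have e : z (b.eta S.W) = ∑ j, star (b.a' j) ((S.W : Op H) (b.a j (z ξ))) := by
    unfold Cpl.eta
    rw [map_sum]
    refine Finset.sum_congr rfl fun j _ => ?_
    rw [cpl_app (cpl_comm S.comm hz.1 (star_mem (b.mem' j))), cpl_app (S.W_cen z hz),
      ← cpl_app (mem_comm.1 hz.2 _ (b.mem j))]
  rw [e]
  exact ima_eta_le b S.W _

/-- Recipe: `Near.col` gives `ã_i ∈ A` with `Col (W a_i W⋆ - ã_i) (cA γ)`; replace `W a_i W⋆` by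
`ã_i`, commute it with `b'_j⋆`, replace back (`Col.norm_sum_star_le` for `a'` and for
`(comp a b).a'`). -/
theorem Tw.eta_comp (S : Tw A B ξ γ) (hγ : 0 ≤ γ) (a b : Cpl A B ξ) :
    ‖(a.comp S.comm b).eta S.W - a.Psi S.W (b.eta S.W)‖ ≤ 2 * cA * γ * ‖ξ‖ := by
  have hcol : Col (fun i => (S.W : Op H) * a.a i * star (S.W : Op H)) 1 := by
    intro v
    simp only [mul_apply_eq_comp, ima_norm]
    simpa [ima_norm'] using a.col (star (S.W : Op H) v)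
  obtain ⟨t, ht, hd⟩ := S.nA.col hγ (fun i => conj_mem_conjVN S.W (a.mem i)) zero_le_one hcol
  have hc : 0 ≤ cA * γ * 1 := by have := one_le_cA; positivity
  set d : a.ι → Op H := fun i => (S.W : Op H) * a.a i * star (S.W : Op H) - t i with hdd
  have hx : ∀ i v, (S.W : Op H) (a.a i (star (S.W : Op H) v)) = t i v + d i v := by
    intro i v
    simp [hdd]
  have e1 : (a.comp S.comm b).eta S.W =
      ∑ p : a.ι × b.ι, star ((a.comp S.comm b).a' p) (t p.1 ((S.W : Op H) (b.a p.2 ξ))) +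
      ∑ p : a.ι × b.ι, star ((a.comp S.comm b).a' p) (d p.1 ((S.W : Op H) (b.a p.2 ξ))) := by
    rw [← Finset.sum_add_distrib]
    refine Finset.sum_congr rfl fun p _ => ?_
    rw [← map_add, ← hx, ima_su]
    rfl
  have e2 : a.Psi S.W (b.eta S.W) =
      ∑ p : a.ι × b.ι, star ((a.comp S.comm b).a' p) (t p.1 ((S.W : Op H) (b.a p.2 ξ))) +
      ∑ i, star (a.a' i) (d i (b.eta S.W)) := by
    rw [ima_Psi_apply, Fintype.sum_prod_type, ← Finset.sum_add_distrib]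
    refine Finset.sum_congr rfl fun i _ => ?_
    rw [hx, map_add]
    congr 1
    unfold Cpl.eta
    rw [map_sum, map_sum]
    refine Finset.sum_congr rfl fun j _ => ?_
    rw [cpl_app (cpl_comm S.comm (ht i) (star_mem (b.mem' j)))]
    change _ = star (b.a' j * a.a' i) _
    rw [star_mul]
    rfl
  rw [e1, e2, add_sub_add_left_eq_sub]
  have h1 : ‖∑ p : a.ι × b.ι, star ((a.comp S.comm b).a' p) (d p.1 ((S.W : Op H) (b.a p.2 ξ)))‖ ≤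
      cA * γ * ‖ξ‖ := by
    refine ((a.comp S.comm b).col'.norm_sum_star_le zero_le_one
      (fun p : a.ι × b.ι => d p.1 ((S.W : Op H) (b.a p.2 ξ)))).trans ?_
    rw [one_mul]
    refine Real.sqrt_le_iff.2 ⟨by rw [mul_one] at hc; positivity, ?_⟩
    refine (Fintype.sum_prod_type_right _).le.trans ?_
    refine (Finset.sum_le_sum fun j _ => hd ((S.W : Op H) (b.a j ξ))).trans ?_
    simp only [ima_norm]
    rw [← Finset.mul_sum, mul_one, mul_pow (cA * γ)]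
    exact mul_le_mul_of_nonneg_left b.mass_le (sq_nonneg _)
  have h2 : ‖∑ i, star (a.a' i) (d i (b.eta S.W))‖ ≤ cA * γ * ‖ξ‖ := by
    refine (a.col'.norm_sum_star_le zero_le_one _).trans ?_
    rw [one_mul]
    refine (bas_sqrt_le hd hc _).trans ?_
    rw [mul_one] at hc ⊢
    exact mul_le_mul_of_nonneg_left (ima_eta_le b S.W ξ) hc
  refine (norm_sub_le _ _).trans ?_
  linarith

theorem ima_sum_le (a : Cpl A B ξ) (W : unitary (Op H)) (η : H) :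
    ∑ i, ‖(W : Op H) (a.a i (star (W : Op H) η)) - a.a' i η‖ ^ 2 ≤ 2 * ‖η‖ * ‖η - a.Psi W η‖ := by
  have e : ∀ i, ‖(W : Op H) (a.a i (star (W : Op H) η)) - a.a' i η‖ ^ 2 =
      ‖a.a' i η‖ ^ 2 - 2 * (⟪η, star (a.a' i) ((W : Op H) (a.a i (star (W : Op H) η)))⟫_ℂ).re +
        ‖a.a i (star (W : Op H) η)‖ ^ 2 := by
    intro i
    rw [norm_sub_rev, norm_sub_sq (𝕜 := ℂ), ima_norm, bas_inner_star]
    rfl
  simp only [e, Finset.sum_add_distrib, Finset.sum_sub_distrib, ← Finset.mul_sum]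
  rw [← Complex.re_sum, ← inner_sum, ← ima_Psi_apply]
  have h1 := a.col' η
  have h2 := a.col (star (W : Op H) η)
  rw [ima_norm'] at h2
  have h3 : (⟪η, η - a.Psi W η⟫_ℂ).re ≤ ‖η‖ * ‖η - a.Psi W η‖ :=
    (Complex.re_le_norm _).trans (norm_inner_le_norm _ _)
  have h4 : (⟪η, η⟫_ℂ).re = ‖η‖ ^ 2 := inner_self_eq_norm_sq (𝕜 := ℂ) η
  rw [inner_sub_right, Complex.sub_re, h4] at h3
  linarith

theorem ima_dist (b : Cpl A B ξ) (W : unitary (Op H)) :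
    ‖b.eta W - ξ‖ ^ 2 = ‖b.eta W‖ ^ 2 + ‖ξ‖ ^ 2 - 2 * b.mass + b.en W 1 := by
  have h := b.re_inner_eta W
  rw [norm_sub_rev, norm_sub_sq (𝕜 := ℂ)]
  simp only [RCLike.re_to_complex]
  rw [h]; ring

theorem ima_pigeon (S : Tw A B ξ γ) {L : ℕ} {Λ₁ ε₀ τ : ℝ} (hL : 1 ≤ L)
    (hG : S.Glob (L * Λ₁) ε₀) :
    ∃ l : ℕ, l < L ∧ ∃ b : Cpl A B ξ, b.Soft (l * Λ₁) ∧ b.Dfc (l * τ) ∧
      ∀ c : Cpl A B ξ, c.Soft ((l + 1 : ℕ) * Λ₁) → c.Dfc ((l + 1 : ℕ) * τ) →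
        ‖b.eta S.W‖ ^ 2 ≤ ‖c.eta S.W‖ ^ 2 + (ε₀ / L + 2 * τ) * ‖ξ‖ ^ 2 := by
  by_contra hc
  push Not at hc
  have key : ∀ l : ℕ, l < L → ∃ b : Cpl A B ξ, b.Soft ((l + 1 : ℕ) * Λ₁) ∧
      b.Dfc ((l + 1 : ℕ) * τ) ∧
      ‖b.eta S.W‖ ^ 2 + ((l : ℝ) + 1) * ((ε₀ / L + 2 * τ) * ‖ξ‖ ^ 2) < ‖ξ‖ ^ 2 := by
    intro l
    induction l with
    | zero =>
      intro h0
      obtain ⟨c, h1, h2, h3⟩ := hc 0 h0 (Cpl.one A B ξ) (by simpa using Cpl.one_soft)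
        (by simp [Cpl.Dfc, Cpl.one_mass])
      refine ⟨c, h1, h2, ?_⟩
      have h4 : ‖(Cpl.one A B ξ).eta S.W‖ ≤ ‖ξ‖ := ima_eta_le _ S.W ξ
      have h5 := pow_le_pow_left₀ (norm_nonneg _) h4 2
      simp only [Nat.cast_zero, zero_add, one_mul]
      linarith
    | succ l ih =>
      intro h0
      obtain ⟨b, h1, h2, h3⟩ := ih (by omega)
      obtain ⟨c, h4, h5, h6⟩ := hc (l + 1) h0 b h1 h2
      refine ⟨c, h4, h5, ?_⟩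
      push_cast
      linarith
  obtain ⟨l, rfl⟩ : ∃ l, L = l + 1 := ⟨L - 1, by omega⟩
  obtain ⟨b, h1, h2, h3⟩ := key l (by omega)
  have h4 := hG b h1
  have h5 := ima_dist b S.W
  have h6 := sq_nonneg ‖b.eta S.W - ξ‖
  unfold Cpl.Dfc at h2
  have h7 : ((l : ℝ) + 1) * ((ε₀ / ((l + 1 : ℕ) : ℝ) + 2 * τ) * ‖ξ‖ ^ 2) =
      ε₀ * ‖ξ‖ ^ 2 + 2 * (((l : ℝ) + 1) * τ) * ‖ξ‖ ^ 2 := by
    push_cast
    field_simp
  push_cast at h2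
  rw [h7] at h3
  linarith

/-- A near fixed vector. Recipe (trivial for `ξ = 0`): `𝒞_l = {b | b.Soft (l Λ₁) ∧ b.Dfc (l τ)}`
increases with `l`, `m_l = inf {‖η b‖² | b ∈ 𝒞_l}` decreases, `m_0 ≤ ‖ξ‖²` (`Cpl.one`),
`m_L ≥ (1 - 2 L τ - ε₀) ‖ξ‖²` (`re_inner_eta`). Pigeonhole: `m_l - m_{l+1} ≤ (ε₀/L + 2τ) ‖ξ‖²` for
some `l < L`; take `b ∈ 𝒞_l` with `‖η b‖² ≤ m_l + τ ‖ξ‖²`. For `a ∈ 𝒞_1` the mixture of `b` and
`comp a b` lies in `𝒞_{l+1}`; the parallelogram law and `eta_comp`, `norm_Psi_le` bound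
`‖η - Ψ_a η‖`; finally `∑ ‖W a W⋆ η - a' η‖² ≤ 2 ‖η‖² - 2 re ⟪η, Ψ_a η⟫`. -/
theorem near_fixed : ∃ C > 0, ∀ {H : Type u} [NormedAddCommGroup H] [InnerProductSpace ℂ H]
    [CompleteSpace H] {A B : VN H} {ξ : H} {γ : ℝ} (S : Tw A B ξ γ) {L : ℕ} {Λ₁ ε₀ τ : ℝ},
    0 ≤ γ → γ ≤ 1 → 1 ≤ L → 0 ≤ Λ₁ → 0 ≤ ε₀ → 0 < τ → S.Glob (L * Λ₁) ε₀ →
    ∃ b : Cpl A B ξ, ‖b.eta S.W - ξ‖ ^ 2 ≤ (ε₀ + 2 * L * τ) * ‖ξ‖ ^ 2 ∧
      ∀ a : Cpl A B ξ, a.Soft Λ₁ → a.Dfc τ →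
        ∑ i, ‖(S.W : Op H) (a.a i (star (S.W : Op H) (b.eta S.W))) - a.a' i (b.eta S.W)‖ ^ 2 ≤
          C * √(γ + ε₀ / L + τ) * ‖ξ‖ ^ 2 := by
  have hcA := one_le_cA
  refine ⟨14 * cA, by positivity, ?_⟩
  intro H _ _ _ A B ξ γ S L Λ₁ ε₀ τ hγ hγ1 hL hΛ hε hτ hG
  obtain ⟨l, hl, b, hb1, hb2, hb⟩ := ima_pigeon (τ := τ) S hL hG
  have hlL : (l : ℝ) ≤ L := by exact_mod_cast hl.le
  have hn : ‖b.eta S.W‖ ≤ ‖ξ‖ := ima_eta_le b S.W ξ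
  have hn2 := pow_le_pow_left₀ (norm_nonneg _) hn 2
  refine ⟨b, ?_, fun a ha1 ha2 => ?_⟩
  · have h1 := hG b (hb1.mono (by gcongr))
    have h2 : b.Dfc (L * τ) := hb2.mono (by gcongr)
    unfold Cpl.Dfc at h2
    rw [ima_dist]
    linarith
  · have hc1 : (a.comp S.comm b).Soft ((l + 1 : ℕ) * Λ₁) :=
      (ha1.comp S.comm hb1).mono (by push_cast; linarith)
    have hc2 : (a.comp S.comm b).Dfc ((l + 1 : ℕ) * τ) :=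
      (ha2.comp S.comm hb2).mono (by push_cast; linarith)
    have hb1' : b.Soft ((l + 1 : ℕ) * Λ₁) := hb1.mono (by push_cast; linarith)
    have hb2' : b.Dfc ((l + 1 : ℕ) * τ) := hb2.mono (by push_cast; linarith)
    have h0 : (0 : ℝ) ≤ 1 / 2 := by norm_num
    have h1 : (1 / 2 : ℝ) ≤ 1 := by norm_num
    have hm := hb (Cpl.mix (1 / 2) h0 h1 b (a.comp S.comm b)) (hb1'.mix h0 h1 hc1) (by
      unfold Cpl.Dfc at hb2' hc2 ⊢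
      rw [Cpl.mix_mass]
      linarith)
    rw [Cpl.mix_eta] at hm
    set η := b.eta S.W with hη
    set ζ := (a.comp S.comm b).eta S.W with hζ
    have e : ((1 / 2 : ℝ) : ℂ) • η + ((1 - 1 / 2 : ℝ) : ℂ) • ζ = ((1 / 2 : ℝ) : ℂ) • (η + ζ) := by
      rw [smul_add]; norm_num
    rw [e, norm_smul, Complex.norm_real, Real.norm_of_nonneg h0] at hm
    have hpar := parallelogram_law_with_norm ℂ η ζ
    have hcomp : ‖ζ - a.Psi S.W η‖ ≤ 2 * cA * γ * ‖ξ‖ := S.eta_comp hγ a b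
    have hψ : ‖a.Psi S.W η‖ ≤ ‖η‖ :=
      ((a.Psi S.W).le_opNorm η).trans (mul_le_of_le_one_left (norm_nonneg _) (a.norm_Psi_le S.W))
    have hζ1 : ‖ζ‖ ≤ ‖η‖ + 2 * cA * γ * ‖ξ‖ := by
      have := norm_le_norm_add_norm_sub' ζ (a.Psi S.W η)
      linarith
    have hζ2 := pow_le_pow_left₀ (norm_nonneg _) hζ1 2
    have hεL : 0 ≤ ε₀ / L := by positivity
    set σ := γ + ε₀ / L + τ with hσ
    have hσ0 : 0 ≤ σ := by positivity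
    have hs := Real.sq_sqrt hσ0
    have hs0 := Real.sqrt_nonneg σ
    have hγσ : γ ≤ √σ := Real.le_sqrt_of_sq_le (by nlinarith)
    have hξ := norm_nonneg ξ
    have hξ2 := sq_nonneg ‖ξ‖
    have t1 : ‖η‖ * (cA * γ * ‖ξ‖) ≤ cA ^ 2 * (γ * ‖ξ‖ ^ 2) := by
      calc ‖η‖ * (cA * γ * ‖ξ‖) ≤ ‖ξ‖ * (cA * γ * ‖ξ‖) := by gcongr
        _ = cA * 1 * (γ * ‖ξ‖ ^ 2) := by ring
        _ ≤ cA * cA * (γ * ‖ξ‖ ^ 2) := by gcongr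
        _ = _ := by ring
    have t2 : (cA * γ * ‖ξ‖) ^ 2 ≤ cA ^ 2 * (γ * ‖ξ‖ ^ 2) := by
      calc (cA * γ * ‖ξ‖) ^ 2 = cA ^ 2 * (γ * γ * ‖ξ‖ ^ 2) := by ring
        _ ≤ cA ^ 2 * (γ * 1 * ‖ξ‖ ^ 2) := by gcongr
        _ = _ := by ring
    have t3 : (ε₀ / L + τ) * ‖ξ‖ ^ 2 ≤ cA ^ 2 * ((ε₀ / L + τ) * ‖ξ‖ ^ 2) :=
      le_mul_of_one_le_left (by positivity) (one_le_pow₀ hcA)
    have t4 : 0 ≤ cA ^ 2 * (γ * ‖ξ‖ ^ 2) := by positivity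
    have t5 : 0 ≤ ε₀ / L * ‖ξ‖ ^ 2 := by positivity
    have t6 : 0 ≤ cA ^ 2 * ((ε₀ / L + τ) * ‖ξ‖ ^ 2) := by positivity
    have hd : ‖η - ζ‖ ≤ 4 * cA * √σ * ‖ξ‖ := by
      refine (pow_le_pow_iff_left₀ (norm_nonneg _) (by positivity) two_ne_zero).1 ?_
      have : (4 * cA * √σ * ‖ξ‖) ^ 2 =
          16 * (cA ^ 2 * (γ * ‖ξ‖ ^ 2)) + 16 * (cA ^ 2 * ((ε₀ / L + τ) * ‖ξ‖ ^ 2)) := by
        rw [mul_pow, mul_pow, hs, hσ]; ring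
      rw [this]
      nlinarith
    have hd2 : ‖η - a.Psi S.W η‖ ≤ 6 * cA * √σ * ‖ξ‖ := by
      have t7 : 2 * cA * γ * ‖ξ‖ ≤ 2 * cA * √σ * ‖ξ‖ := by gcongr
      have := norm_sub_le_norm_sub_add_norm_sub η ζ (a.Psi S.W η)
      linarith
    refine (ima_sum_le a S.W η).trans ?_
    calc 2 * ‖η‖ * ‖η - a.Psi S.W η‖ ≤ 2 * ‖ξ‖ * (6 * cA * √σ * ‖ξ‖) := by gcongr
      _ = 12 * (cA * √σ * ‖ξ‖ ^ 2) := by ring
      _ ≤ 14 * (cA * √σ * ‖ξ‖ ^ 2) := by gcongr; norm_num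
      _ = _ := by ring

/-- The functional `n' ↦ ⟪η - eZ η, n' ξ⟫` is small. Recipe: `β = W⋆ η`; `mix_soft` for `T.swap`
gives `a` (soft of width `2`, defect `τ' ≤ τ` tiny) with `∑ a'⋆ n' a' ξ ≈ eZ (n' ξ)`. Then
`⟪η, ∑ a'⋆ n' a' ξ⟫ = ∑ ⟪a' η, n' a ξ⟫ ≈ ∑ ⟪W a β, n' a ξ⟫ ≈ ∑ ⟪a β, W⋆ n' W a ξ⟫ ≈ ∑ ⟪a β, ñ a ξ⟫
= ⟪β, ñ (cp 1) ξ⟫ ≈ ⟪β, ñ ξ⟫ ≈ ⟪β, W⋆ n' W ξ⟫ = ⟪η, n' ξ⟫` with `ñ ∈ B` from `nB'`. -/
theorem Tw.eta_fun (S : Tw A B ξ γ) (hγ : 0 ≤ γ) {δ₁ τ : ℝ} (hδ : 0 ≤ δ₁) (hτ : 0 < τ)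
    (hG : S.Glob 2 δ₁) {η : H} (hη : ‖η‖ ≤ ‖ξ‖)
    (h : ∀ a : Cpl A B ξ, a.Soft 2 → a.Dfc τ →
      ∑ i, ‖(S.W : Op H) (a.a i (star (S.W : Op H) η)) - a.a' i η‖ ^ 2 ≤ δ₁ * ‖ξ‖ ^ 2)
    {n : Op H} (hn : n ∈ B) :
    ‖⟪η - eZ A ξ η, n ξ⟫_ℂ‖ ≤ (2 * √δ₁ + 2 * γ * (1 + γ)) * ‖n‖ * ‖ξ‖ ^ 2 :=
  S.eta_fun' hγ hδ hτ hG hη h hn

/-- Weak domination of `β = W⋆ η`. Recipe: `h = x⋆ x`, `y` central, `0 ≤ y`, `y ξ = eZ (h ξ)`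
(`exists_cen_exp`), `x̃ ∈ A` near `W x W⋆`. Choose `a` by `mix_soft` with `cp h ξ ≈ y ξ` and tiny
defect; `Cyc.strong` gives `cp h β ≈ y β` and `(swap.cp 1) (x̃ η) ≈ x̃ η`. Then
`∑ ‖x a β‖² ≈ ⟪β, y β⟫ = ‖√y η‖² ≤ ‖√y ξ‖² = ‖x ξ‖²`, and
`√∑ ‖x a β‖² ≥ √∑ ‖W x W⋆ a' η‖² - √δ₁ ‖ξ‖ ≥ √∑ ‖a' x̃ η‖² - (γ + √δ₁) ‖ξ‖ ≈ ‖x̃ η‖ - …`,
`‖x̃ η‖ ≥ ‖x β‖ - γ ‖ξ‖`. -/
theorem Tw.eta_wdom (S : Tw A B ξ γ) (hγ : 0 ≤ γ) {δ₁ τ : ℝ} (hδ : 0 ≤ δ₁) (hτ : 0 < τ)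
    {η : H} (hη : ∀ z, Cen A z → ‖z η‖ ≤ ‖z ξ‖)
    (h : ∀ a : Cpl A B ξ, a.Soft 2 → a.Dfc τ →
      ∑ i, ‖(S.W : Op H) (a.a i (star (S.W : Op H) η)) - a.a' i η‖ ^ 2 ≤ δ₁ * ‖ξ‖ ^ 2)
    {x : Op H} (hx : x ∈ A) (hx1 : ‖x‖ ≤ 1) :
    ‖x (star (S.W : Op H) η)‖ ≤ ‖x ξ‖ + (√δ₁ + 2 * γ) * ‖ξ‖ :=
  S.eta_wdom' hγ hδ hτ hη h hx hx1

theorem imc_le {T : Op H} {c : ℝ} (h : ‖T‖ ≤ c) (v : H) : ‖T v‖ ≤ c * ‖v‖ := T.le_of_opNorm_le h v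

theorem imc_le1 {T : Op H} (h : ‖T‖ ≤ 1) (v : H) : ‖T v‖ ≤ ‖v‖ := by simpa using imc_le h v

theorem imc_add_sq (v w : H) : ‖v + w‖ ^ 2 ≤ 2 * ‖v‖ ^ 2 + 2 * ‖w‖ ^ 2 := by
  have h1 := pow_le_pow_left₀ (norm_nonneg _) (norm_add_le v w) 2
  nlinarith [sq_nonneg (‖v‖ - ‖w‖)]

/-- A weakly dominated `W⋆ η` gives `η ≈ y ξ` with `y ∈ B` bounded. -/
theorem Tw.imc_near (S : Tw A B ξ γ) (hγ : 0 ≤ γ) {κ : ℝ} (hκ : 0 ≤ κ) {η : H}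
    (h : ∀ x ∈ A, ‖x‖ ≤ 1 → ‖x (star (S.W : Op H) η)‖ ≤ ‖x ξ‖ + κ * ‖ξ‖) :
    ∃ y ∈ B, ‖y‖ ≤ 2 + 2 * γ ∧ ‖η - y ξ‖ ≤ (7 * κ + 2 * γ) * ‖ξ‖ := by
  obtain ⟨b, hb, -, e1, e2⟩ := trim S.cycA (fun _ : Unit => star (S.W : Op H) η) (K := 2)
    (δ := 2 * (κ * ‖ξ‖) ^ 2) zero_le_two one_pos le_rfl fun x hx hx1 => by
      have h1 := pow_le_pow_left₀ (norm_nonneg _) (h x hx hx1) 2
      rw [Fintype.sum_unique]
      nlinarith [sq_nonneg (‖x ξ‖ - κ * ‖ξ‖)]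
  obtain ⟨y, hy, e3, e4⟩ := exists_rn (A := A) ξ (fun _ : Unit => b (star (S.W : Op H) η)) zero_le_two
    fun x hx => (e2 x hx).trans_eq (by ring)
  have hy2 : ‖y ()‖ ≤ 2 := ContinuousLinearMap.opNorm_le_bound _ zero_le_two fun v => by
    have h1 := e4 v
    rw [Fintype.sum_unique, ← mul_pow] at h1
    exact le_of_pow_le_pow_left₀ two_ne_zero (by positivity) h1
  obtain ⟨y', hy', e5⟩ := S.nB _ (conj_mem_conjVN S.W (S.comm ▸ hy ()))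
  rw [bas_norm_conj] at e5
  have e6 : ‖(S.W : Op H) * y () * star (S.W : Op H) - y'‖ ≤ 2 * γ := e5.trans (by nlinarith)
  refine ⟨y', hy', ?_, ?_⟩
  · have h1 := norm_sub_norm_le y' ((S.W : Op H) * y () * star (S.W : Op H))
    rw [bas_norm_conj, norm_sub_rev] at h1
    linarith
  · have h1 : η - y' ξ = (S.W : Op H) (star (S.W : Op H) η - b (star (S.W : Op H) η)) +
        ((S.W : Op H) * y () * star (S.W : Op H) - y') ξ := by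
      rw [map_sub, ← mul_apply_eq_comp (S.W : Op H) (star _), bas_us, sub_apply, mul_apply_eq_comp,
        mul_apply_eq_comp, (S.W_zsp (self_mem_zsp A ξ)).2, e3, one_apply_eq_self]
      abel
    have h2 : ‖star (S.W : Op H) η - b (star (S.W : Op H) η)‖ ≤ 7 * κ * ‖ξ‖ := by
      rw [Fintype.sum_unique] at e1
      refine le_of_pow_le_pow_left₀ two_ne_zero (by positivity) (e1.trans ?_)
      nlinarith [sq_nonneg (κ * ‖ξ‖)]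
    rw [h1]
    refine (norm_add_le _ _).trans ?_
    have h3 := imc_le1 (pj_norm_unitary S.W.2) (star (S.W : Op H) η - b (star (S.W : Op H) η))
    have h4 := imc_le e6 ξ
    linarith

/-- A near fixed vector is almost central. Recipe: `eta_wdom` gives `WDom A ξ β 1 δ₄`; `trim`
(`κ = 1`) and `exists_rn` give `y' ∈ B`, `‖y'‖ ≤ √2`, `β ≈ y' ξ`; so `η = W β ≈ W y' W⋆ ξ ≈ ỹ ξ`,
`ỹ ∈ B` (`nB`), and `‖η - eZ η‖² = re ⟪η - eZ η, η⟫`; use `eta_fun` with `n = ỹ`. -/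
theorem eta_central {δ : ℝ} (hδ : 0 < δ) : ∃ δ₁ > 0, ∀ {H : Type u} [NormedAddCommGroup H]
    [InnerProductSpace ℂ H] [CompleteSpace H] {A B : VN H} {ξ : H} {γ : ℝ} (S : Tw A B ξ γ),
    0 ≤ γ → γ ≤ δ₁ → S.Glob 2 δ₁ → ∀ {η : H} {τ : ℝ}, 0 < τ →
    (∀ z, Cen A z → ‖z η‖ ≤ ‖z ξ‖) →
    (∀ a : Cpl A B ξ, a.Soft 2 → a.Dfc τ →
      ∑ i, ‖(S.W : Op H) (a.a i (star (S.W : Op H) η)) - a.a' i η‖ ^ 2 ≤ δ₁ * ‖ξ‖ ^ 2) →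
    ‖η - eZ A ξ η‖ ≤ δ * ‖ξ‖ := by
  obtain ⟨s, hs0, hs1, hs⟩ : ∃ s : ℝ, 0 < s ∧ s ≤ 1 ∧ 47 * s ≤ δ ^ 2 :=
    ⟨min 1 (δ ^ 2 / 47), by positivity, min_le_left _ _, by linarith [min_le_right 1 (δ ^ 2 / 47)]⟩
  refine ⟨s ^ 2, by positivity, fun {H} _ _ _ {A B ξ γ} S hγ hγ1 hG {η τ} hτ hη h => ?_⟩
  have hγs : γ ≤ s := by nlinarith
  have hη1 : ‖η‖ ≤ ‖ξ‖ := hη 1 (Graph_cen_one A)
  obtain ⟨y, hy, e1, e2⟩ := S.imc_near hγ (κ := s + 2 * γ) (by positivity) fun x hx hx1 => by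
    have := S.eta_wdom hγ (sq_nonneg s) hτ hη h hx hx1
    rwa [Real.sqrt_sq hs0.le] at this
  have e3 := S.eta_fun hγ (sq_nonneg s) hτ hG hη1 h hy
  rw [Real.sqrt_sq hs0.le] at e3
  have e4 : ‖η - eZ A ξ η‖ ≤ ‖ξ‖ := by
    have := norm_sub_eZ_le (A := A) (ξ := ξ) η (zero_mem _)
    rw [sub_zero] at this
    exact this.trans hη1
  have e5 : ⟪η - eZ A ξ η, η - eZ A ξ η⟫_ℂ =
      ⟪η - eZ A ξ η, y ξ⟫_ℂ + ⟪η - eZ A ξ η, η - y ξ⟫_ℂ := by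
    have := (Submodule.mem_orthogonal' _ _).1 ((zsp A ξ).sub_starProjection_mem_orthogonal η) _
      (eZ_mem A ξ η)
    change ⟪η - eZ A ξ η, _⟫_ℂ = 0 at this
    rw [inner_sub_right, this, inner_sub_right]
    ring
  have e6 : ‖η - eZ A ξ η‖ ^ 2 ≤ ‖⟪η - eZ A ξ η, y ξ⟫_ℂ‖ + ‖η - eZ A ξ η‖ * ‖η - y ξ‖ := by
    rw [← inner_self_eq_norm_sq (𝕜 := ℂ), e5]
    exact (RCLike.re_le_norm _).trans ((norm_add_le _ _).trans (by gcongr; exact norm_inner_le_norm _ _))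
  have e7 : ‖η - eZ A ξ η‖ * ‖η - y ξ‖ ≤ ‖ξ‖ * (23 * s * ‖ξ‖) := by
    gcongr
    exact e2.trans (by gcongr; linarith)
  have e8 : (2 * s + 2 * γ * (1 + γ)) * ‖y‖ * ‖ξ‖ ^ 2 ≤ 6 * s * 4 * ‖ξ‖ ^ 2 := by
    gcongr
    · nlinarith
    · linarith
  refine le_of_pow_le_pow_left₀ two_ne_zero (by positivity) ?_
  have e9 := mul_le_mul_of_nonneg_right hs (sq_nonneg ‖ξ‖)
  rw [mul_pow]
  nlinarith

/-- The energy on the range of a central projection where `c` is bounded below. -/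
theorem Tw.imc_cut (S : Tw A B ξ γ) (a : Cpl A B ξ) {c z : Op H} (hc : Cen A c) (hz : CP A z)
    (h : ∀ v, 1 / 2 * ‖z v‖ ≤ ‖c (z v)‖) :
    a.en S.W z ≤ 4 * ∑ j, ‖((S.W : Op H) - 1) (a.a j (c ξ))‖ ^ 2 := by
  rw [Finset.mul_sum]
  refine Finset.sum_le_sum fun j _ => ?_
  have k : ∀ {c : Op H}, Cen A c → ((S.W : Op H) - 1) (a.a j (c ξ)) =
      c (((S.W : Op H) - 1) (a.a j ξ)) := fun {c} hc => by
    rw [cpl_app (mem_comm.1 hc.2 _ (a.mem j)),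
      cpl_app ((S.W_cen c hc).symm.sub_left (Commute.one_left c))]
  rw [k hz.cen, k hc]
  have h1 := h (((S.W : Op H) - 1) (a.a j ξ))
  rw [cpl_app (Graph_cen_comm hc hz.cen)] at h1
  have h2 := imc_le1 hz.1.norm_le (c (((S.W : Op H) - 1) (a.a j ξ)))
  have h3 : ‖z (((S.W : Op H) - 1) (a.a j ξ))‖ ≤ 2 * ‖c (((S.W : Op H) - 1) (a.a j ξ))‖ := by linarith
  exact (pow_le_pow_left₀ (norm_nonneg _) h3 2).trans_eq (by ring)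

/-- The energy at a vector `w` close to `ζ ∈ zsp` close to a near fixed vector `η`. -/
theorem Tw.imc_en (S : Tw A B ξ γ) (a : Cpl A B ξ) {η ζ w : H} (hζ : ζ ∈ zsp A ξ) {r : ℝ}
    (h : ∑ i, ‖(S.W : Op H) (a.a i (star (S.W : Op H) η)) - a.a' i η‖ ^ 2 ≤ r)
    (h1 : ‖η - ζ‖ ^ 2 ≤ r) (h2 : ‖ζ - w‖ ^ 2 ≤ r) :
    ∑ j, ‖((S.W : Op H) - 1) (a.a j w)‖ ^ 2 ≤ 40 * r := by
  have hW := pj_norm_unitary S.W.2
  have k : ∀ j, ‖((S.W : Op H) - 1) (a.a j w)‖ ^ 2 ≤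
      8 * ‖(S.W : Op H) (a.a j (star (S.W : Op H) η)) - a.a' j η‖ ^ 2 + 8 * ‖a.a' j (η - ζ)‖ ^ 2 +
        4 * ‖a.a j (star (S.W : Op H) (ζ - η))‖ ^ 2 + 8 * ‖a.a j (w - ζ)‖ ^ 2 := fun j => by
    have e : ((S.W : Op H) - 1) (a.a j w) =
        (S.W : Op H) (a.a j (star (S.W : Op H) η)) - a.a' j η + a.a' j (η - ζ) +
          (S.W : Op H) (a.a j (star (S.W : Op H) (ζ - η))) + ((S.W : Op H) - 1) (a.a j (w - ζ)) := by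
      simp only [map_sub, sub_apply, one_apply_eq_self, (S.W_zsp hζ).2, a.eq_on_zsp S.comm j hζ]
      abel
    have b1 := pow_le_pow_left₀ (norm_nonneg _) (imc_le1 hW (a.a j (star (S.W : Op H) (ζ - η)))) 2
    have b2 := pow_le_pow_left₀ (norm_nonneg _) (imc_le (T := (S.W : Op H) - 1) (c := 2)
      ((norm_sub_le _ _).trans (by linarith [pj_norm_one (A := Op H)])) (a.a j (w - ζ))) 2
    rw [e]
    refine (imc_add_sq _ _).trans ?_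
    have b3 := imc_add_sq ((S.W : Op H) (a.a j (star (S.W : Op H) η)) - a.a' j η + a.a' j (η - ζ))
      ((S.W : Op H) (a.a j (star (S.W : Op H) (ζ - η))))
    have b4 := imc_add_sq ((S.W : Op H) (a.a j (star (S.W : Op H) η)) - a.a' j η) (a.a' j (η - ζ))
    rw [mul_pow] at b2
    linarith
  refine (Finset.sum_le_sum fun j _ => k j).trans ?_
  simp only [Finset.sum_add_distrib, ← Finset.mul_sum]
  have c1 := a.col' (η - ζ)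
  have c2 := a.col (star (S.W : Op H) (ζ - η))
  have c3 := a.col (w - ζ)
  have c4 := pow_le_pow_left₀ (norm_nonneg _)
    (imc_le1 (T := star (S.W : Op H)) (by rwa [norm_star]) (ζ - η)) 2
  rw [norm_sub_rev] at c4 c3
  have c5 := sq_nonneg ‖η - ζ‖
  linarith

/-- The improvement. Recipe: choose `δ`, then `δ₁` (`eta_central`), then `L`, then `τ` (with
`2 L τ ≤ ε₀/2`). `near_fixed` gives `η`; `ζ = eZ η` satisfies `W⋆ ζ = ζ`, `a ζ = a' ζ`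
(`W_zsp`, `Cpl.eq_on_zsp`), so `√∑ ‖(W - 1) a ζ‖² ≤ (√δ₁ + 2δ) ‖ξ‖`, and `‖ζ - ξ‖ ≤ ‖η - ξ‖`.
Replace `ζ` by `c ξ`, `c` central (`exists_cen_near`; trivial if `ξ = 0`), `z` from `exists_cp_cut`
at `1/2`: `en W z ≤ 4 ∑ ‖(W - 1) a c ξ‖²`, `‖(1 - z) ξ‖ ≤ 2 ‖ξ - c ξ‖`, and
`en W (1 - z) ≤ ε₀ ‖(1 - z) ξ‖²` by `Loc`; `en_split`. -/
theorem improve {ε₀ β : ℝ} (hε₀ : 0 < ε₀) (hε₁ : ε₀ ≤ 1) (hβ : 0 < β) :
    ∃ L : ℕ, 1 ≤ L ∧ ∃ τ > 0, ∃ δ₁ > 0, ∀ {H : Type u} [NormedAddCommGroup H]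
    [InnerProductSpace ℂ H] [CompleteSpace H] {A B : VN H} {ξ : H} {γ : ℝ} (S : Tw A B ξ γ)
    {Λ₁ : ℝ}, 0 ≤ γ → γ ≤ δ₁ → 2 ≤ Λ₁ → S.Glob 2 δ₁ → S.Loc (L * Λ₁) ε₀ →
    ∀ a : Cpl A B ξ, a.Soft Λ₁ → a.Dfc τ → a.en S.W 1 ≤ (8 * ε₀ ^ 2 + β) * ‖ξ‖ ^ 2 := by
  obtain ⟨C, hC, hN⟩ := near_fixed.{u}
  obtain ⟨δ, hδ, hδβ⟩ : ∃ δ : ℝ, 0 < δ ∧ 176 * δ ^ 2 = β :=
    ⟨√(β / 176), by positivity, by rw [Real.sq_sqrt (by positivity)]; ring⟩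
  obtain ⟨δ₁, hδ₁, hE⟩ := eta_central.{u} hδ
  obtain ⟨d, hd, hd1, hd2⟩ : ∃ d : ℝ, 0 < d ∧ d ≤ δ₁ ∧ d ≤ δ ^ 2 :=
    ⟨min δ₁ (δ ^ 2), by positivity, min_le_left _ _, min_le_right _ _⟩
  obtain ⟨r, hr, hr1, hr2, hr3⟩ : ∃ r : ℝ, 0 < r ∧ r ≤ 1 ∧ r ≤ δ₁ ∧ 3 * r ≤ (d / C) ^ 2 :=
    ⟨min (min 1 δ₁) ((d / C) ^ 2 / 3), by positivity, (min_le_left _ _).trans (min_le_left _ _),
      (min_le_left _ _).trans (min_le_right _ _),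
      by linarith [min_le_right (min 1 δ₁) ((d / C) ^ 2 / 3)]⟩
  obtain ⟨L, hL⟩ := exists_nat_ge (1 / r)
  have hL1 : (1 : ℝ) ≤ L := (one_le_one_div hr hr1).trans hL
  have hL2 : ε₀ / L ≤ r := by
    rw [div_le_iff₀ hr] at hL
    rw [div_le_iff₀ (by linarith)]
    linarith
  obtain ⟨τ, hτ, hτ1, hτ2⟩ : ∃ τ : ℝ, 0 < τ ∧ τ ≤ r ∧ 2 * L * τ ≤ ε₀ / 2 := by
    refine ⟨min r (ε₀ / (4 * L)), by positivity, min_le_left _ _, ?_⟩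
    have := (le_div_iff₀ (by positivity)).1 (min_le_right r (ε₀ / (4 * L)))
    linarith
  refine ⟨L, by exact_mod_cast hL1, τ, hτ, r, hr,
    fun {H} _ _ _ {A B ξ γ} S {Λ₁} hγ hγ1 hΛ hG hloc a ha ha' => ?_⟩
  rcases eq_or_ne ξ 0 with rfl | hξ
  · simpa using a.en_le S.W 1
  have hξ' : 0 < ‖ξ‖ := norm_pos_iff.2 hξ
  have hsq := sq_nonneg ‖ξ‖
  obtain ⟨b, b1, b2⟩ := hN S hγ (hγ1.trans hr1) (by exact_mod_cast hL1) (by linarith) hε₀.le hτ hloc.glob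
  have b3 : C * √(γ + ε₀ / L + τ) ≤ d := by
    rw [← le_div_iff₀' hC]
    exact Real.sqrt_le_iff.2 ⟨by positivity, by linarith⟩
  have b4 := hE S hγ (hγ1.trans hr2) (fun c hc => (hG c hc).trans (by gcongr)) hτ
    (fun z hz => S.norm_cen_eta_le b hz) fun c hc hc' =>
      (b2 c (hc.mono hΛ) hc').trans (by gcongr; exact b3.trans hd1)
  obtain ⟨c, hc, b5⟩ := exists_cen_near (eZ_mem A ξ (b.eta S.W)) (ε := δ * ‖ξ‖) (by positivity)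
  obtain ⟨z, hz, z1, z2⟩ := exists_cp_cut hc (δ := 1 / 2) (by norm_num)
  have b6 := S.imc_en a (eZ_mem A ξ (b.eta S.W)) (r := (δ * ‖ξ‖) ^ 2)
    ((b2 a ha ha').trans (by rw [mul_pow]; gcongr; exact b3.trans hd2))
    (pow_le_pow_left₀ (norm_nonneg _) b4 2) (pow_le_pow_left₀ (norm_nonneg _) b5 2)
  have b7 := S.imc_cut a hc hz z1
  have b8 := hloc _ hz.one_sub a (ha.mono (by nlinarith))
  have b9 : ‖ξ - eZ A ξ (b.eta S.W)‖ ≤ ‖b.eta S.W - ξ‖ := by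
    have := imc_le1 (eZ_proj A ξ).norm_le (b.eta S.W - ξ)
    rwa [map_sub, eZ_of_mem (self_mem_zsp A ξ), norm_sub_rev] at this
  have b10 : ‖(1 - z) ξ‖ ≤ 2 * (‖b.eta S.W - ξ‖ + δ * ‖ξ‖) := by
    have e : (1 - z) ξ = (1 - z) (ξ - eZ A ξ (b.eta S.W) + (eZ A ξ (b.eta S.W) - c ξ)) +
        c ((1 - z) ξ) := by
      rw [sub_add_sub_cancel, map_sub, cpl_app (Graph_cen_comm hc hz.one_sub.cen), sub_add_cancel]
    have h1 := norm_add_le ((1 - z) (ξ - eZ A ξ (b.eta S.W) + (eZ A ξ (b.eta S.W) - c ξ)))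
      (c ((1 - z) ξ))
    rw [← e] at h1
    have h2 := (imc_le1 hz.one_sub.1.norm_le _).trans
      (norm_add_le (ξ - eZ A ξ (b.eta S.W)) (eZ A ξ (b.eta S.W) - c ξ))
    linarith [z2 ξ]
  have b11 : ‖(1 - z) ξ‖ ^ 2 ≤ 8 * ε₀ * ‖ξ‖ ^ 2 + 16 * (δ * ‖ξ‖) ^ 2 := by
    have h1 := pow_le_pow_left₀ (norm_nonneg _) b10 2
    have h2 := mul_le_mul_of_nonneg_right hτ2 hsq
    nlinarith [sq_nonneg (‖b.eta S.W - ξ‖ - 3 * (δ * ‖ξ‖))]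
  rw [a.en_split _ hz (S.W_cen z hz.cen), ← hδβ]
  have b12 := mul_le_mul_of_nonneg_left b11 hε₀.le
  have b13 := mul_le_mul_of_nonneg_right hε₁ (sq_nonneg (δ * ‖ξ‖))
  nlinarith

end

end Crest.Agent.R78
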