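import Crest.Agent.R78.Proj
import Crest.Agent.R78.Gen

/-!
# Row 78: induced algebras
-/

open scoped InnerProductSpace Topology ComplexConjugate
open Filter MeasureTheory

set_option linter.unusedSectionVars false

namespace Crest.Agent.R78

open Crest.Agent.R121 (Alg)

noncomputable section

universe u

variable {H : Type*} [NormedAddCommGroup H] [InnerProductSpace ℂ H] [CompleteSpace H]

open R124 (CornerData cmp xpd)

/-- Every projection has corner data on its range. -/
theorem exists_cornerData {H : Type u} [NormedAddCommGroup H] [InnerProductSpace ℂ H]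
    [CompleteSpace H] {q : Op H} (hq : IsStarProjection q) :
    ∃ (L : Type u) (_ : NormedAddCommGroup L) (_ : InnerProductSpace ℂ L) (_ : CompleteSpace L)
      (s : L →L[ℂ] H) (t : H →L[ℂ] L), CornerData q s t ∧
        (TopologicalSpace.IsSeparable (Set.range q) → TopologicalSpace.SeparableSpace L) := by
  let V : Submodule ℂ H := LinearMap.ker ((1 - q : H →L[ℂ] H) : H →ₗ[ℂ] H)
  have hV : ∀ x, x ∈ V ↔ q x = x := by
    intro x
    simp only [V, LinearMap.mem_ker, ContinuousLinearMap.coe_coe, sub_apply, one_apply_eq_self,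
      sub_eq_zero]
    exact eq_comm
  have hVc : IsClosed (V : Set H) := ContinuousLinearMap.isClosed_ker (1 - q)
  have : CompleteSpace V := hVc.completeSpace_coe
  have hqq : ∀ x, q (q x) = q x := fun x =>
    congrArg (fun T : H →L[ℂ] H => T x) hq.isIdempotentElem.eq
  have C : CornerData q V.subtypeL (q.codRestrict V fun x => (hV _).2 (hqq x)) := by
    refine ⟨fun x => Subtype.ext ((hV _).1 x.2), fun x => rfl, fun x y => ?_⟩
    change ⟪(x : H), y⟫_ℂ = ⟪(x : H), q y⟫_ℂ
    have h1 : ContinuousLinearMap.adjoint q = q := hq.isSelfAdjoint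
    conv_rhs => rw [← h1]
    rw [ContinuousLinearMap.adjoint_inner_right, (hV _).1 x.2]
  refine ⟨V, inferInstance, inferInstance, this, _, _, C, fun hsep => ?_⟩
  have hs : TopologicalSpace.IsSeparable (V : Set H) :=
    hsep.mono fun x hx => ⟨x, (hV x).1 hx⟩
  exact hs.separableSpace

variable {L : Type*} [NormedAddCommGroup L] [InnerProductSpace ℂ L] [CompleteSpace L]
  {q : Op H} {s : L →L[ℂ] H} {t : H →L[ℂ] L} {P : VN H}

theorem cmp_xpd (C : CornerData q s t) (T : Op L) : cmp s t (xpd s t T) = T := by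
  ext1 x
  rw [R124.cmp_apply, R124.xpd_apply, C.ts, C.ts]

theorem norm_xpd_eq (C : CornerData q s t) (T : Op L) : ‖xpd s t T‖ = ‖T‖ := by
  refine le_antisymm (C.norm_xpd T) ?_
  conv_lhs => rw [← cmp_xpd C T]
  exact C.norm_cmp _

theorem xpd_mul (C : CornerData q s t) (S T : Op L) :
    xpd s t (S * T) = xpd s t S * xpd s t T := by
  ext1 x
  simp only [mul_apply_eq_comp, R124.xpd_apply, C.ts]

theorem ind_mem_iff (C : CornerData q s t) (hq : q ∈ P.commutant) {T : Op L} :
    T ∈ ind P s t ↔ ∀ a ∈ P.commutant, Commute (cmp s t a) T := by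
  have key : ∀ a ∈ P.commutant, xpd s t (cmp s t a) ∈ P.commutant := fun a ha => by
    rw [C.xpd_cmp]
    exact mul_mem (mul_mem hq ha) hq
  unfold ind
  rw [mem_cm]
  constructor
  · intro h a ha
    exact (h _ (key a ha)).1
  · intro h S hS
    have hS' : xpd s t S ∈ P.commutant := hS
    constructor
    · rw [← cmp_xpd C S]
      exact h _ hS'
    · rw [← cmp_xpd C (star S), C.xpd_star]
      exact h _ (star_mem hS')

theorem cmp_mem_ind (C : CornerData q s t) (hq : q ∈ P.commutant) {x : Op H} (hx : x ∈ P) :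
    cmp s t x ∈ ind P s t := by
  refine (ind_mem_iff C hq).2 fun a ha => ?_
  have hxq : Commute x q := mem_comm.1 hq x hx
  show cmp s t a * cmp s t x = cmp s t x * cmp s t a
  rw [C.cmp_mul_right _ hxq, C.cmp_mul_left hxq, (mem_comm.1 ha x hx).eq]

theorem mem_ind_commutant (C : CornerData q s t) (hq : q ∈ P.commutant) {T : Op L} :
    T ∈ (ind P s t).commutant ↔ xpd s t T ∈ P.commutant := by
  constructor
  · intro hT
    refine mem_comm.2 fun x hx => ?_
    have h1 : Commute (cmp s t x) T := mem_comm.1 hT _ (cmp_mem_ind C hq hx)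
    have hxq : ∀ v, x (q v) = q (x v) := fun v =>
      congrArg (fun S : Op H => S v) (mem_comm.1 hq x hx).eq
    show x * xpd s t T = xpd s t T * x
    ext1 v
    have h2 : cmp s t x (T (t v)) = T (cmp s t x (t v)) :=
      congrArg (fun S : Op L => S (t v)) h1.eq
    rw [R124.cmp_apply, R124.cmp_apply, C.st, hxq, C.tq] at h2
    simp only [mul_apply_eq_comp, R124.xpd_apply]
    rw [← h2, C.st, ← hxq, C.qs]
  · intro hT
    exact mem_comm.2 fun y hy => ((mem_cm.1 hy) T hT).1.symm

/-- Operators agreeing on the range of `e` and on its orthogonal complement agree. -/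
theorem ind_ext_of_range {E : Type*} [AddCommGroup E] [Module ℂ E] (e : E →ₗ[ℂ] H) {Y Z : Op H}
    (h₁ : ∀ x, Y (e x) = Z (e x)) (h₂ : ∀ v, (∀ x, ⟪e x, v⟫_ℂ = 0) → Y v = Z v) : Y = Z := by
  ext1 v
  let V : Submodule ℂ H := (LinearMap.range e).topologicalClosure
  have hV : ∀ w ∈ V, Y w = Z w := by
    intro w hw
    have hc : IsClosed {w | Y w = Z w} := isClosed_eq Y.continuous Z.continuous
    refine closure_minimal (s := (LinearMap.range e : Set H)) ?_ hc hw
    rintro _ ⟨x, rfl⟩
    exact h₁ x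
  obtain ⟨a, ha, b, hb, rfl⟩ := V.exists_add_mem_mem_orthogonal v
  rw [map_add, map_add, hV a ha, h₂ b fun x => ?_]
  exact hb _ (Submodule.le_topologicalClosure _ (LinearMap.mem_range_self e x))

/-- The map `∑ c_i (a_i, η_i) ↦ ∑ c_i a_i s A η_i`. -/
def indF (P : VN H) (s : L →L[ℂ] H) (A : Op L) : (Alg P.commutant × L →₀ ℂ) →ₗ[ℂ] H :=
  Finsupp.linearCombination ℂ fun p => (p.1 : Op H) (s (A p.2))

theorem indF_single (A : Op L) (p : Alg P.commutant × L) (c : ℂ) :
    indF P s A (Finsupp.single p c) = c • (p.1 : Op H) (s (A p.2)) :=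
  Finsupp.linearCombination_single _ _ _

theorem indF_add (A B : Op L) (x : Alg P.commutant × L →₀ ℂ) :
    indF P s (A + B) x = indF P s A x + indF P s B x := by
  induction x using Finsupp.induction_linear with
  | zero => simp
  | add x y hx hy =>
    rw [map_add, map_add, map_add, hx, hy]
    abel
  | single p c => simp only [indF_single, add_apply, map_add, smul_add]

theorem indF_smul (d : ℂ) (A : Op L) (x : Alg P.commutant × L →₀ ℂ) :
    indF P s (d • A) x = d • indF P s A x := by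
  induction x using Finsupp.induction_linear with
  | zero => simp
  | add x y hx hy => rw [map_add, map_add, hx, hy, smul_add]
  | single p c => simp only [indF_single, smul_apply, map_smul, smul_comm c d]

theorem indF_shift {b : Op H} (hb : b ∈ P.commutant) (x : Alg P.commutant × L →₀ ℂ) :
    ∃ x' : Alg P.commutant × L →₀ ℂ, ∀ A : Op L, indF P s A x' = b (indF P s A x) := by
  induction x using Finsupp.induction_linear with
  | zero => exact ⟨0, fun A => by simp⟩
  | add x y hx hy =>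
    obtain ⟨x', hx'⟩ := hx
    obtain ⟨y', hy'⟩ := hy
    exact ⟨x' + y', fun A => by rw [map_add, map_add, map_add, hx', hy']⟩
  | single p c =>
    refine ⟨Finsupp.single ((⟨b, hb⟩ : Alg P.commutant) * p.1, p.2) c, fun A => ?_⟩
    rw [indF_single, indF_single, map_smul]
    rfl

theorem indF_inner (C : CornerData q s t) (hq : q ∈ P.commutant) {A : Op L} (hA : A ∈ ind P s t)
    (B : Op L) (x y : Alg P.commutant × L →₀ ℂ) :
    ⟪indF P s A x, indF P s B y⟫_ℂ = ⟪indF P s 1 x, indF P s (star A * B) y⟫_ℂ := by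
  induction x using Finsupp.induction_linear with
  | zero => simp
  | add x x' hx hx' => rw [map_add, map_add, inner_add_left, inner_add_left, hx, hx']
  | single p c =>
    induction y using Finsupp.induction_linear with
    | zero => simp
    | add y y' hy hy' => rw [map_add, map_add, inner_add_right, inner_add_right, hy, hy']
    | single p' c' =>
      simp only [indF_single, inner_smul_left, inner_smul_right]
      congr 2
      have key : ∀ (η ζ : L), ⟪(p.1 : Op H) (s η), (p'.1 : Op H) (s ζ)⟫_ℂ =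
          ⟪η, cmp s t (star (p.1 : Op H) * (p'.1 : Op H)) ζ⟫_ℂ := by
        intro η ζ
        rw [R124.cmp_apply, ← C.adj, mul_apply_eq_comp, ContinuousLinearMap.star_eq_adjoint,
          ContinuousLinearMap.adjoint_inner_right]
      have hc : Commute (cmp s t (star (p.1 : Op H) * (p'.1 : Op H))) (star A) :=
        (ind_mem_iff C hq).1 (star_mem hA) _ (mul_mem (star_mem p.1.2) p'.1.2)
      have hc' := congrArg (fun S : Op L => S (B p'.2)) hc.eq
      simp only [mul_apply_eq_comp] at hc'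
      rw [key, key, mul_apply_eq_comp, hc', ContinuousLinearMap.star_eq_adjoint A,
        ContinuousLinearMap.adjoint_inner_right, one_apply_eq_self]

theorem indF_norm_le (C : CornerData q s t) (hq : q ∈ P.commutant) {T : Op L}
    (hT : T ∈ ind P s t) (x : Alg P.commutant × L →₀ ℂ) :
    ‖indF P s T x‖ ≤ ‖T‖ * ‖indF P s 1 x‖ := by
  have hmem : ((‖T‖ ^ 2 : ℝ) : ℂ) • (1 : Op L) - star T * T ∈ ind P s t :=
    sub_mem (smul_mem' _ (one_mem _)) (mul_mem (star_mem hT) hT)
  have hpos : 0 ≤ ((‖T‖ ^ 2 : ℝ) : ℂ) • (1 : Op L) - star T * T := by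
    have h1 := CStarAlgebra.star_mul_le_algebraMap_norm_sq (a := T)
    rw [Algebra.algebraMap_eq_smul_one] at h1
    exact sub_nonneg.2 h1
  obtain ⟨r, hr, hr0, hrr, -⟩ := exists_sqrt hmem hpos
  have hsa : star r = r := (IsSelfAdjoint.of_nonneg hr0).star_eq
  have e1 := indF_inner C hq hT T x x
  have e2 := indF_inner C hq hr r x x
  rw [hsa, hrr] at e2
  have e3 : ⟪indF P s T x, indF P s T x⟫_ℂ + ⟪indF P s r x, indF P s r x⟫_ℂ =
      ((‖T‖ ^ 2 : ℝ) : ℂ) * ⟪indF P s 1 x, indF P s 1 x⟫_ℂ := by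
    rw [e1, e2, ← inner_add_right, ← indF_add, add_sub_cancel, indF_smul, inner_smul_right]
  simp only [inner_self_eq_norm_sq_to_K] at e3
  have e4 : ‖indF P s T x‖ ^ 2 + ‖indF P s r x‖ ^ 2 = ‖T‖ ^ 2 * ‖indF P s 1 x‖ ^ 2 := by
    have e5 : (((‖indF P s T x‖ ^ 2 + ‖indF P s r x‖ ^ 2 : ℝ)) : ℂ) =
        ((‖T‖ ^ 2 * ‖indF P s 1 x‖ ^ 2 : ℝ) : ℂ) := by
      push_cast at e3 ⊢
      exact e3
    exact Complex.ofReal_injective e5
  refine abs_le_of_sq_le_sq' ?_ (by positivity) |>.2
  nlinarith [sq_nonneg ‖indF P s r x‖]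

/-- Lifting. Recipe: for a contraction `T ∈ ind P`, the positive block matrix
`(t a_j⋆ a_i s)_{j,i}` (entries in `q P' q`) commutes with `T ⊗ 1`, hence
`‖∑ a_i s T η_i‖ ≤ ‖T‖ ‖∑ a_i s η_i‖` for `a_i ∈ P'` (write `T` as a combination of four unitaries
of `ind P` to see that the map `∑ a_i s η_i ↦ ∑ a_i s T η_i` is well defined and bounded; for the
sharp bound use that `T ↦ y` is a ⋆-homomorphism, or directly `1 - T⋆T = R⋆R` with `R ∈ ind P`:
`‖∑ a s Tη‖² + ‖∑ a s Rη‖² = ‖∑ a s η‖²`). Extend by `exists_extend` (`E = (P' × L) →₀ ℂ`) to `y`,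
zero on the complement; `y` commutes with `P'`. Linearity: `y` is the unique element of `P` with
`cmp y = T` vanishing on the orthogonal complement of `P' s L`. -/
theorem exists_lift (C : CornerData q s t) (hq : q ∈ P.commutant) :
    ∃ Λ : Alg (ind P s t) →ₗ[ℂ] Op H, ∀ T, Λ T ∈ P ∧ cmp s t (Λ T) = T ∧ ‖Λ T‖ ≤ ‖T‖ := by
  have hex : ∀ T : Alg (ind P s t), ∃ Y : Op H, ‖Y‖ ≤ ‖T‖ ∧
      (∀ x, Y (indF P s 1 x) = indF P s T x) ∧
      ∀ v, (∀ x, ⟪indF P s 1 x, v⟫_ℂ = 0) → Y v = 0 := fun T =>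
    exists_extend (indF P s 1) (indF P s T) (norm_nonneg T) (indF_norm_le C hq T.2)
  choose Y hY1 hY2 hY3 using hex
  refine ⟨⟨⟨Y, fun S T => ?_⟩, fun c T => ?_⟩, fun T => ⟨?_, ?_, hY1 T⟩⟩
  · refine ind_ext_of_range (indF P s 1) (fun x => ?_) (fun v hv => ?_)
    · rw [add_apply, hY2, hY2, hY2, ← indF_add]
      rfl
    · rw [add_apply, hY3 _ v hv, hY3 _ v hv, hY3 _ v hv, add_zero]
  · refine ind_ext_of_range (indF P s 1) (fun x => ?_) (fun v hv => ?_)
    · rw [RingHom.id_apply, smul_apply, hY2, hY2, ← indF_smul]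
      rfl
    · rw [RingHom.id_apply, smul_apply, hY3 _ v hv, hY3 _ v hv, smul_zero]
  · show Y T ∈ P
    rw [← P.commutant_commutant]
    refine mem_comm.2 fun b hb => ?_
    show b * Y T = Y T * b
    refine ind_ext_of_range (indF P s 1) (fun x => ?_) (fun v hv => ?_)
    · obtain ⟨x', hx'⟩ := indF_shift (s := s) hb x
      rw [mul_apply_eq_comp, mul_apply_eq_comp, ← hx', hY2, hY2, hx']
    · rw [mul_apply_eq_comp, mul_apply_eq_comp, hY3 _ v hv, map_zero, hY3]
      intro x
      obtain ⟨x', hx'⟩ := indF_shift (s := s) (star_mem hb) x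
      rw [← ContinuousLinearMap.adjoint_inner_left, ← ContinuousLinearMap.star_eq_adjoint, ← hx',
        hv]
  · show cmp s t (Y T) = T
    ext1 η
    have h1 := hY2 T (Finsupp.single (1, η) 1)
    rw [indF_single, indF_single, one_smul, one_smul] at h1
    rw [R124.cmp_apply]
    change Y T (s η) = s ((T : Op L) η) at h1
    rw [h1, C.ts]

theorem mem_ind_iff (C : CornerData q s t) (hq : q ∈ P.commutant) {T : Op L} :
    T ∈ ind P s t ↔ ∃ x ∈ P, ‖x‖ ≤ ‖T‖ ∧ cmp s t x = T := by
  constructor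
  · intro hT
    obtain ⟨Λ, hΛ⟩ := exists_lift C hq
    exact ⟨Λ ⟨T, hT⟩, (hΛ _).1, (hΛ _).2.2, (hΛ _).2.1⟩
  · rintro ⟨x, hx, -, rfl⟩
    exact cmp_mem_ind C hq hx

theorem Near.ind (C : CornerData q s t) {M N : VN H} (hM : q ∈ M.commutant)
    (hN : q ∈ N.commutant) {γ : ℝ} (h : Near M N γ) (hγ : 0 ≤ γ) :
    Near (ind M s t) (ind N s t) γ := by
  intro T hT
  obtain ⟨x, hx, hn, rfl⟩ := (mem_ind_iff C hM).1 hT
  obtain ⟨y, hy, hxy⟩ := h x hx
  refine ⟨cmp s t y, cmp_mem_ind C hN hy, ?_⟩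
  rw [← map_sub]
  exact (C.norm_cmp _).trans (hxy.trans (mul_le_mul_of_nonneg_left hn hγ))

/-- Central projections. -/
theorem mem_ind_cen (C : CornerData q s t) (hq : CP P q) {T : Op L} :
    T ∈ ind P s t ↔ xpd s t T ∈ P := by
  constructor
  · intro hT
    obtain ⟨x, hx, -, rfl⟩ := (mem_ind_iff C hq.2.2).1 hT
    rw [C.xpd_cmp]
    exact mul_mem (mul_mem hq.2.1 hx) hq.2.1
  · intro hT
    rw [← cmp_xpd C T]
    exact cmp_mem_ind C hq.2.2 hT

theorem ind_commutant_cen (C : CornerData q s t) (hq : CP P q) :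
    (ind P s t).commutant = ind P.commutant s t := by
  ext T
  rw [mem_ind_commutant C hq.2.2, mem_ind_cen C hq.commutant]

theorem cen_ind_cen (C : CornerData q s t) (hq : CP P q) {T : Op L} :
    Cen (ind P s t) T ↔ Cen P (xpd s t T) := by
  unfold Cen
  rw [mem_ind_commutant C hq.2.2, mem_ind_cen C hq]

theorem Cyc.ind (C : CornerData q s t) (hq : q ∈ P.commutant) {ξ : H} (h : Cyc P ξ) :
    Cyc (ind P s t) (t ξ) := by
  intro η
  have h1 := map_mem_closure (f := t)
    (t := (fun a : Op L => a (t ξ)) '' (R78.ind P s t : Set (Op L))) t.continuous (h (s η)) (by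
      rintro _ ⟨x, hx, rfl⟩
      refine ⟨cmp s t x, cmp_mem_ind C hq hx, ?_⟩
      have hxq : x (q ξ) = q (x ξ) := congrArg (fun S : Op H => S ξ) (mem_comm.1 hq x hx).eq
      show cmp s t x (t ξ) = t (x ξ)
      rw [R124.cmp_apply, C.st, hxq, C.tq])
  rwa [C.ts] at h1

end

end Crest.Agent.R78
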