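import Crest.Agent.R78.H2
import Crest.Agent.R78.Mean
import Crest.Agent.R78.Gen

/-!
# Row 78: local Kadison–Kastler for normalisers, invariance under amenable groups
-/

open scoped InnerProductSpace Topology ComplexConjugate
open Filter MeasureTheory

set_option linter.unusedSectionVars false

namespace Crest.Agent.R78

open Crest.Agent.R121 (Alg)

noncomputable section

universe u

variable {H : Type*} [NormedAddCommGroup H] [InnerProductSpace ℂ H] [CompleteSpace H]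

universe v

theorem lkk_norm_one : ‖(1 : Op H)‖ ≤ 1 := ContinuousLinearMap.norm_id_le

theorem lkk_norm_u (u : unitary (Op H)) : ‖(u : Op H)‖ ≤ 1 := by
  rw [← mul_one (u : Op H), CStarRing.norm_coe_unitary_mul]
  exact lkk_norm_one

theorem DN.mono {N : VN H} {X : Op H} {ε ε' : ℝ} (h : DN N X ε) (hε : ε ≤ ε') : DN N X ε' := by
  obtain ⟨u, h1, h2⟩ := h
  exact ⟨u, h1, h2.trans hε⟩

theorem DN.mul {N : VN H} {X Y : unitary (Op H)} {ε ε' : ℝ} (h : DN N X ε) (h' : DN N Y ε') :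
    DN N ((X : Op H) * Y) (ε + ε') := by
  obtain ⟨u, h1, h2⟩ := h
  obtain ⟨v, h3, h4⟩ := h'
  refine ⟨u * v, h1.mul h3, ?_⟩
  rw [Submonoid.coe_mul, show (X : Op H) * Y - u * v = (X - u) * Y + u * (Y - v) by noncomm_ring]
  refine (norm_add_le _ _).trans ?_
  rw [CStarRing.norm_mul_coe_unitary, CStarRing.norm_coe_unitary_mul]
  exact add_le_add h2 h4

theorem DN.conj {N : VN H} {X : Op H} {ε : ℝ} (h : DN N X ε) (w : unitary (Op H)) :
    DN (conjVN w N) X (ε + 2 * ‖(w : Op H) - 1‖) := by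
  obtain ⟨u, h1, h2⟩ := h
  refine ⟨w * u * w⁻¹, h1.conj w, (norm_sub_le_norm_sub_add_norm_sub _ (u : Op H) _).trans
    (add_le_add h2 ?_)⟩
  rw [norm_sub_rev]
  exact (norm_conj_sub_le w u).trans (mul_le_of_le_one_right (by positivity) (lkk_norm_u u))

theorem AlmN.mono {N : VN H} {X : Op H} {η η' : ℝ} (h : AlmN N X η) (hη : η ≤ η') :
    AlmN N X η' := by
  intro y hy y' hy'
  refine (h y hy y' hy').trans ?_
  gcongr

theorem almN_of_near {N : VN H} {X : unitary (Op H)} {γ : ℝ} (h : Near (conjVN X N) N γ) :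
    AlmN N X (2 * γ) := by
  intro y hy y' hy'
  have := h.comm_le (conj_mem_conjVN X hy) hy'
  rwa [bas_norm_conj] at this

theorem nrm_of_almN {N : VN H} {X : unitary (Op H)} (h : AlmN N X 0)
    (h' : AlmN N (star (X : Op H)) 0) : Nrm N X := by
  intro y hy
  constructor
  · refine bas_mem fun y' hy' => ?_
    have := h y hy y' hy'
    rw [zero_mul, zero_mul, norm_le_zero_iff, sub_eq_zero] at this
    exact this.symm
  · refine bas_mem fun y' hy' => ?_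
    have := h' y hy y' hy'
    rw [zero_mul, zero_mul, norm_le_zero_iff, sub_eq_zero, star_star] at this
    exact this.symm

/-- the double commutator bound -/
def lkk_DC (N : VN H) (k : Op H) (η : ℝ) : Prop :=
  ∀ y ∈ N, ∀ y' ∈ N.commutant,
    ‖(k * y - y * k) * y' - y' * (k * y - y * k)‖ ≤ η * ‖y‖ * ‖y'‖

/-- the skew part -/
def lkk_sk (x : Op H) : Op H := (2 : ℂ)⁻¹ • (x - star x)

theorem lkk_sk_star (x : Op H) : star (lkk_sk x) = -lkk_sk x := by
  rw [lkk_sk, star_smul, star_sub, star_star, ← smul_neg, neg_sub]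
  simp

theorem lkk_sk_norm (x : Op H) : ‖lkk_sk x‖ ≤ ‖x‖ := by
  have h := norm_sub_le x (star x)
  rw [norm_star] at h
  rw [lkk_sk, norm_smul, norm_inv, Complex.norm_ofNat]
  linarith

theorem lkk_sk_mem {N : VN H} {x : Op H} (h : x ∈ N) : lkk_sk x ∈ N :=
  smul_mem' _ (sub_mem h (star_mem h))

theorem lkk_sk_fo {u : unitary (Op H)} {δ : ℝ} (h : ‖(u : Op H) - 1‖ ≤ δ) :
    ‖(u : Op H) - (1 + lkk_sk u)‖ ≤ δ ^ 2 ∧ ‖lkk_sk (u : Op H)‖ ≤ δ := by
  obtain ⟨h1, h2⟩ := unitary_skew_part u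
  rw [← sub_sub]
  exact ⟨h1.trans (pow_le_pow_left₀ (norm_nonneg _) h 2), h2.trans h⟩

theorem lkk_fo_mul {u a b : Op H} (v : unitary (Op H)) {ε ε' α β : ℝ} (hu : ‖u - (1 + a)‖ ≤ ε)
    (hv : ‖(v : Op H) - (1 + b)‖ ≤ ε') (ha : ‖a‖ ≤ α) (hb : ‖b‖ ≤ β) (h1 : α ≤ 1) :
    ‖u * v - (1 + (a + b))‖ ≤ ε + 2 * ε' + α * β := by
  rw [show u * v - (1 + (a + b)) = (u - (1 + a)) * v + (1 + a) * (v - (1 + b)) + a * b by
    noncomm_ring]
  refine norm_add₃_le.trans (add_le_add_three ?_ ?_ ?_)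
  · rwa [CStarRing.norm_mul_coe_unitary]
  · refine (norm_mul_le _ _).trans (mul_le_mul ?_ hv (norm_nonneg _) zero_le_two)
    linarith [norm_add_le (1 : Op H) a, lkk_norm_one (H := H)]
  · exact (norm_mul_le _ _).trans (mul_le_mul ha hb (norm_nonneg _) ((norm_nonneg _).trans ha))

theorem lkk_fo_conj {Y : unitary (Op H)} {k : Op H} {ε δ : ℝ} (hY : ‖(Y : Op H) - (1 + k)‖ ≤ ε)
    (hs : star k = -k) (hk : ‖k‖ ≤ δ) (h1 : δ ≤ 1) (y : Op H) :
    ‖(Y : Op H) * y * star (Y : Op H) - y - (k * y - y * k)‖ ≤ (δ ^ 2 + 3 * ε) * ‖y‖ := by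
  have e1 : star ((Y : Op H) - (1 + k)) = star (Y : Op H) - (1 - k) := by
    rw [star_sub, star_add, star_one, hs, ← sub_eq_add_neg]
  rw [show (Y : Op H) * y * star (Y : Op H) - y - (k * y - y * k) =
    ((Y : Op H) - (1 + k)) * y * star (Y : Op H) + (1 + k) * y * star ((Y : Op H) - (1 + k)) +
      -(k * y * k) by rw [e1]; noncomm_ring]
  have h0 := norm_nonneg y
  have hk0 := norm_nonneg k
  have a1 : ‖((Y : Op H) - (1 + k)) * y * star (Y : Op H)‖ ≤ ε * ‖y‖ := by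
    rw [← Unitary.coe_star, CStarRing.norm_mul_coe_unitary]
    exact (norm_mul_le _ _).trans (mul_le_mul_of_nonneg_right hY h0)
  have a2 : ‖(1 + k) * y * star ((Y : Op H) - (1 + k))‖ ≤ 2 * ‖y‖ * ε := by
    refine (norm_mul_le _ _).trans (mul_le_mul ((norm_mul_le _ _).trans
      (mul_le_mul_of_nonneg_right ?_ h0)) (by rwa [norm_star]) (norm_nonneg _) (by positivity))
    linarith [norm_add_le (1 : Op H) k, lkk_norm_one (H := H)]
  have a3 : ‖-(k * y * k)‖ ≤ δ * ‖y‖ * δ := by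
    rw [norm_neg]
    exact (norm_mul_le _ _).trans (mul_le_mul ((norm_mul_le _ _).trans
      (mul_le_mul_of_nonneg_right hk h0)) hk hk0 (mul_nonneg (hk0.trans hk) h0))
  refine norm_add₃_le.trans ?_
  linarith

theorem lkk_diff {N : VN H} {Y : unitary (Op H)} {k : Op H} {ε δ : ℝ}
    (hY : ‖(Y : Op H) - (1 + k)‖ ≤ ε) (hs : star k = -k) (hk : ‖k‖ ≤ δ) (h1 : δ ≤ 1) {y y' : Op H}
    (hy : y ∈ N) (hy' : y' ∈ N.commutant) :
    ‖((Y : Op H) * y * star (Y : Op H) * y' - y' * ((Y : Op H) * y * star (Y : Op H))) -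
      ((k * y - y * k) * y' - y' * (k * y - y * k))‖ ≤ 2 * (δ ^ 2 + 3 * ε) * ‖y‖ * ‖y'‖ := by
  have h2 := lkk_fo_conj hY hs hk h1 y
  have h3 := (mem_comm.1 hy' y hy).eq
  generalize (Y : Op H) * y * star (Y : Op H) = A at h2 ⊢
  generalize k * y - y * k = B at h2 ⊢
  have e : A * y' - y' * A - (B * y' - y' * B) = (A - y - B) * y' - y' * (A - y - B) := by
    rw [sub_mul, sub_mul, mul_sub, mul_sub, h3]
    abel
  rw [e]
  refine (bas_comm_le _ _).trans ?_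
  have := mul_le_mul_of_nonneg_right h2 (norm_nonneg y')
  linarith

theorem lkk_dc_of_alm {N : VN H} {Y : unitary (Op H)} {k : Op H} {ε δ η : ℝ}
    (hY : ‖(Y : Op H) - (1 + k)‖ ≤ ε) (hs : star k = -k) (hk : ‖k‖ ≤ δ) (h1 : δ ≤ 1)
    (h : AlmN N Y η) : lkk_DC N k (η + 2 * (δ ^ 2 + 3 * ε)) := by
  intro y hy y' hy'
  have h2 := lkk_diff hY hs hk h1 hy hy'
  have h3 := h y hy y' hy'
  rw [norm_sub_rev] at h2
  have h4 := norm_le_norm_add_norm_sub' ((k * y - y * k) * y' - y' * (k * y - y * k))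
    ((Y : Op H) * y * star (Y : Op H) * y' - y' * ((Y : Op H) * y * star (Y : Op H)))
  linarith

theorem lkk_alm_of_dc {N : VN H} {Y : unitary (Op H)} {k : Op H} {ε δ η : ℝ}
    (hY : ‖(Y : Op H) - (1 + k)‖ ≤ ε) (hs : star k = -k) (hk : ‖k‖ ≤ δ) (h1 : δ ≤ 1)
    (h : lkk_DC N k η) : AlmN N Y (η + 2 * (δ ^ 2 + 3 * ε)) := by
  intro y hy y' hy'
  have h2 := lkk_diff hY hs hk h1 hy hy'
  have h3 := h y hy y' hy'
  have h4 := norm_le_norm_add_norm_sub'
    ((Y : Op H) * y * star (Y : Op H) * y' - y' * ((Y : Op H) * y * star (Y : Op H)))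
    ((k * y - y * k) * y' - y' * (k * y - y * k))
  linarith

theorem lkk_alm_mul {N : VN H} {X : Op H} {η : ℝ} (h : AlmN N X η) {U : unitary (Op H)}
    (hU : Nrm N U) : AlmN N (X * U) η := by
  intro y hy y' hy'
  have h1 := h _ (hU y hy).1 y' hy'
  rw [bas_norm_conj] at h1
  simpa only [star_mul, mul_assoc] using h1

theorem lkk_alm_nrm {N : VN H} {U : unitary (Op H)} (hU : Nrm N U) : AlmN N U 0 := by
  intro y hy y' hy'
  rw [(mem_comm.1 hy' _ (hU y hy).1).eq, sub_self, norm_zero, zero_mul, zero_mul]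

theorem lkk_alm_conj {N : VN H} {X : Op H} {η : ℝ} {u : unitary (Op H)}
    (h : AlmN N (star (u : Op H) * X * u) η) : AlmN (conjVN u N) X η := by
  intro y hy y' hy'
  rw [conjVN_commutant] at hy'
  have h1 := h _ (mem_conjVN.1 hy) _ (mem_conjVN.1 hy')
  rw [bas_norm_conj', bas_norm_conj'] at h1
  rw [← bas_norm_conj' u]
  simpa only [star_mul, star_star, mul_assoc, bas_us', mul_sub, sub_mul] using h1

theorem lkk_alm_conj' {N : VN H} {X : Op H} {η : ℝ} {u : unitary (Op H)}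
    (h : AlmN (conjVN u N) X η) : AlmN N (star (u : Op H) * X * u) η := by
  have h1 := lkk_alm_conj (N := conjVN u N) (X := star (u : Op H) * X * u) (η := η) (u := u⁻¹) (by
    simpa only [bas_inv, star_star, mul_assoc, bas_us', bas_us, mul_one] using h)
  rwa [← conjVN_mul, inv_mul_cancel, conjVN_one] at h1

/-- An operator `1 + n + n' + O(η)` with small terms is within `O(η + δ²)` of the normaliser:
pass to skew parts and use `exists_unitary_skew` in `N` and `N'`. -/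
theorem dn_of_first_order : ∃ C > 0, ∃ δ₀ > 0, ∀ {H : Type u} [NormedAddCommGroup H]
    [InnerProductSpace ℂ H] [CompleteSpace H] (N : VN H) {k : Op H} {δ η : ℝ}, 0 ≤ η → η ≤ δ →
    δ ≤ δ₀ → star k = -k → ‖k‖ ≤ δ →
    (∀ y ∈ N, ∀ y' ∈ N.commutant,
      ‖(k * y - y * k) * y' - y' * (k * y - y * k)‖ ≤ η * ‖y‖ * ‖y'‖) →
    DN N (1 + k) (C * (η + δ ^ 2)) := by
  obtain ⟨C, hC, h2⟩ := two_hyper.{u}
  refine ⟨C + 4 * (4 + C) ^ 2, by positivity, 1 / (2 * (4 + C)), by positivity, ?_⟩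
  intro H _ _ _ N k δ η h0 hη hδ hs hk h
  obtain ⟨n, hn, n', hn', a1, a2, a3⟩ := h2 N k h0 h
  have hδ0 := h0.trans hη
  have b0 := mul_le_mul_of_nonneg_left hη hC.le
  have b1 : ‖lkk_sk n‖ ≤ (4 + C) * δ := by linarith [lkk_sk_norm n]
  have b2 : ‖lkk_sk n'‖ ≤ (4 + C) * δ := by linarith [lkk_sk_norm n']
  have b3 : (4 + C) * δ ≤ 1 / 2 := by
    rw [le_div_iff₀ (by positivity)] at hδ
    linarith
  obtain ⟨u, hu, cu⟩ := exists_unitary_skew (lkk_sk_star n) (b1.trans b3)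
  obtain ⟨v, hv, cv⟩ := exists_unitary_skew (lkk_sk_star n') (b2.trans b3)
  refine ⟨u * v, (nrm_of_mem (mem_of_bicomm (lkk_sk_mem hn) fun y hy _ => cu y hy)).mul
    (nrm_of_mem_commutant (mem_of_bicomm (lkk_sk_mem hn') fun y hy _ => cv y hy)), ?_⟩
  have c1 := lkk_fo_mul v (hu.trans (pow_le_pow_left₀ (norm_nonneg _) b1 2))
    (hv.trans (pow_le_pow_left₀ (norm_nonneg _) b2 2)) b1 b2 (by linarith)
  have c2 : ‖(1 + k) - (1 + (lkk_sk n + lkk_sk n'))‖ ≤ C * η := by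
    have e : (1 + k) - (1 + (lkk_sk n + lkk_sk n')) = lkk_sk (k - n - n') := by
      simp only [lkk_sk, star_sub, hs]
      module
    rw [e]
    exact (lkk_sk_norm _).trans a1
  rw [norm_sub_rev] at c1
  refine (norm_sub_le_norm_sub_add_norm_sub _ _ _).trans ((add_le_add c2 c1).trans ?_)
  nlinarith [mul_nonneg hC.le (sq_nonneg δ), mul_nonneg (sq_nonneg (4 + C)) h0]

theorem lkk_sub_one {X U : unitary (Op H)} :
    ‖((X * U⁻¹ : unitary (Op H)) : Op H) - 1‖ = ‖(X : Op H) - U‖ := by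
  rw [← CStarRing.norm_mul_coe_unitary _ U, sub_mul, one_mul, ← Submonoid.coe_mul,
    inv_mul_cancel_right]

theorem lkk_step : ∃ C ≥ 1, ∃ δ₀ > 0, ∀ {H : Type u} [NormedAddCommGroup H] [InnerProductSpace ℂ H]
    [CompleteSpace H] (N : VN H) (X : unitary (Op H)) {η δ : ℝ}, 0 < η → δ ≤ δ₀ → AlmN N X η →
    DN N X δ → DN N X (C * (η + δ ^ 2)) := by
  obtain ⟨C, hC, δ₁, hδ₁, h1⟩ := dn_of_first_order.{u}
  refine ⟨12 * C + 1, by linarith, min (1 / 8) (δ₁ / 2), by positivity, ?_⟩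
  intro H _ _ _ N X η δ hη hδ hA hD
  obtain ⟨a1, a2⟩ := le_min_iff.1 hδ
  have q1 := mul_nonneg hC.le (sq_nonneg δ)
  have q2 := mul_nonneg hC.le hη.le
  rcases le_total δ η with h | h
  · exact hD.mono (by nlinarith [sq_nonneg δ])
  obtain ⟨U, hU, h2⟩ := hD
  obtain ⟨b1, b2⟩ := lkk_sk_fo (lkk_sub_one.trans_le h2)
  have b3 := lkk_dc_of_alm b1 (lkk_sk_star _) b2 (by linarith) (lkk_alm_mul hA hU.inv)
  obtain ⟨V, hV, b4⟩ := h1 N (δ := 2 * δ) (by positivity) (by nlinarith) (by linarith)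
    (lkk_sk_star _) (by linarith) b3
  refine ⟨V * U, hV.mul hU, ?_⟩
  have e : (X : Op H) - (V * U : unitary (Op H)) =
      (((X * U⁻¹ : unitary (Op H)) : Op H) - V) * U := by
    rw [sub_mul, ← Submonoid.coe_mul, inv_mul_cancel_right, Submonoid.coe_mul]
  rw [e, CStarRing.norm_mul_coe_unitary]
  refine (norm_sub_le_norm_sub_add_norm_sub _ _ _).trans ((add_le_add b1 b4).trans ?_)
  nlinarith

/-- LKK. Recipe: `Y = X U⋆ = 1 + k + O(δ²)` (`unitary_skew_part`), `Y y Y⋆ = y + [k, y] + O(δ²)`,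
`AlmN N Y η` (because `U` normalises `N`), so `‖[[k, y], y']‖ ≤ η + C δ²`; if `η ≥ δ` there is
nothing to prove; else `dn_of_first_order` (with `δ` replaced by `2δ`). Then iterate
`δ ↦ C (η + δ²) ≤ C η + δ/2`. -/
theorem lkk : ∃ C > 0, ∃ δ₀ > 0, ∀ {H : Type u} [NormedAddCommGroup H] [InnerProductSpace ℂ H]
    [CompleteSpace H] (N : VN H) (X : unitary (Op H)) {η : ℝ}, 0 < η → AlmN N X η →
    DN N X δ₀ → DN N X (C * η) := by
  obtain ⟨C, hC, δ₁, hδ₁, h1⟩ := lkk_step.{u}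
  have hC0 : 0 < C := by linarith
  refine ⟨4 * C, by positivity, min δ₁ (1 / (2 * C)), by positivity, ?_⟩
  intro H _ _ _ N X η hη hA hD
  have h0 : 0 < min δ₁ (1 / (2 * C)) := by positivity
  have a1 := min_le_left δ₁ (1 / (2 * C))
  have a2 := min_le_right δ₁ (1 / (2 * C))
  generalize min δ₁ (1 / (2 * C)) = δ₀ at hD h0 a1 a2
  rw [le_div_iff₀ (by positivity)] at a2
  have key : ∀ j : ℕ, DN N X (δ₀ * (3 / 4) ^ j) ∨ DN N X (4 * C * η) := by
    intro j
    induction j with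
    | zero => exact Or.inl (by simpa using hD)
    | succ j ih =>
      rcases ih with ih | ih
      swap
      · exact Or.inr ih
      have b1 : δ₀ * (3 / 4) ^ j ≤ δ₀ :=
        mul_le_of_le_one_right h0.le (pow_le_one₀ (by norm_num) (by norm_num))
      have b2 : 0 ≤ δ₀ * (3 / 4) ^ j := by positivity
      rw [pow_succ, ← mul_assoc]
      generalize δ₀ * (3 / 4) ^ j = δ at ih b1 b2
      rcases le_total δ (4 * C * η) with h | h
      · exact Or.inr (ih.mono h)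
      · refine Or.inl ((h1 N X hη (b1.trans a1) hA ih).mono ?_)
        nlinarith [mul_le_mul_of_nonneg_left b1 (mul_nonneg hC0.le b2)]
  obtain ⟨j, hj⟩ := exists_pow_lt_of_lt_one (x := 4 * C * η / δ₀) (by positivity)
    (by norm_num : (3 / 4 : ℝ) < 1)
  rw [lt_div_iff₀' h0] at hj
  exact (key j).elim (fun h => h.mono hj.le) id

theorem lkk_fo3 (u p v w : unitary (Op H)) {a b c : Op H} {δ : ℝ} (h3 : δ ≤ 1 / 3)
    (hu : ‖(u : Op H) - (1 + a)‖ ≤ δ ^ 2) (hv : ‖(v : Op H) - (1 + b)‖ ≤ δ ^ 2)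
    (hw : ‖(w : Op H) - (1 + c)‖ ≤ δ ^ 2) (ha : ‖a‖ ≤ δ) (hb : ‖b‖ ≤ δ) (hc : ‖c‖ ≤ δ)
    (sa : star a = -a) (sb : star b = -b) (sc : star c = -c) :
    ‖((u⁻¹ * (p * v * p⁻¹) * w : unitary (Op H)) : Op H) -
        (1 + (-a + (p : Op H) * b * star (p : Op H) + c))‖ ≤ 8 * δ ^ 2 ∧
      star (-a + (p : Op H) * b * star (p : Op H) + c) =
        -(-a + (p : Op H) * b * star (p : Op H) + c) ∧
      ‖-a + (p : Op H) * b * star (p : Op H) + c‖ ≤ 3 * δ := by
  have a1 : ‖((u⁻¹ : unitary (Op H)) : Op H) - (1 + -a)‖ ≤ δ ^ 2 := by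
    rwa [bas_inv, ← sa, ← star_one (Op H), ← star_add, ← star_sub, norm_star]
  have a2 : ‖((p * v * p⁻¹ : unitary (Op H)) : Op H) - (1 + (p : Op H) * b * star (p : Op H))‖ ≤
      δ ^ 2 := by
    rw [← bas_norm_conj p] at hv
    rwa [mul_sub, sub_mul, mul_add, add_mul, mul_one, bas_us] at hv
  have a3 : ‖-a‖ ≤ δ := by rwa [norm_neg]
  have a4 : ‖(p : Op H) * b * star (p : Op H)‖ ≤ δ := by rwa [bas_norm_conj]
  have a5 := (norm_add_le _ _).trans (add_le_add a3 a4)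
  refine ⟨(lkk_fo_mul w (lkk_fo_mul _ a1 a2 a3 a4 (by linarith)) hw a5 hc (by linarith)).trans_eq
    (by ring), ?_, (norm_add_le _ _).trans (by linarith)⟩
  simp only [star_add, star_neg, star_mul, star_star, sa, sb, sc]
  noncomm_ring

theorem lkk_dc_op {G : Type v} [Group G] (m : Mean G) {N : VN H} {F : G → Op H} (hF : Bdd F)
    {η : ℝ} (h : ∀ g, lkk_DC N (F g) η) : lkk_DC N (m.op F) η := by
  intro y hy y' hy'
  have l : ∀ {F : G → Op H} (S : Op H), Bdd F → Bdd fun g => S * F g := fun S hF =>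
    mn_bdd_of_le hF (norm_nonneg S) fun _ => norm_mul_le _ _
  have r : ∀ {F : G → Op H} (S : Op H), Bdd F → Bdd fun g => F g * S := fun S hF =>
    mn_bdd_of_le hF (norm_nonneg S) fun _ => (norm_mul_le _ _).trans_eq (mul_comm _ _)
  have h1 := mn_bdd_sub (r y hF) (l y hF)
  rw [← m.op_mul_left y hF, ← m.op_mul_right y hF, ← m.op_sub (r y hF) (l y hF),
    ← m.op_mul_left y' h1, ← m.op_mul_right y' h1, ← m.op_sub (r y' h1) (l y' h1)]
  exact m.norm_op_le fun g => h g y hy y' hy'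

/-- One Newton step. Recipe: by `lkk` choose `W_g` normalising `N` with `‖π g - W_g‖ ≤ C d`;
`U_g = π(g) W_g⋆ = 1 + k_g + O(d²)`, `σ_g = Ad π(g)`. Since `π(g) N π(g)⋆ = U_g N U_g⋆`, the
unitary `U_{gh}⋆ σ_g(U_h) U_g = W_{gh} π(gh)⋆ π(g) π(h) W_h⋆ π(g)⋆ π(g) W_g⋆ = W_{gh} W_h⋆ W_g⋆`
normalises `N`, so `c = -k_{gh} + σ_g(k_h) + k_g` has `‖[[c, y], y']‖ = O(d²)`. Average over `h`:
`k = mean k_h`, `c_g = -k + σ_g(k) + k_g` has the same bound. Let `u = 1 + k + O(d²)`. Then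
`Y_g = u⋆ σ_g(u) U_g = 1 + c_g + O(d²)` satisfies `AlmN N Y_g O(d²)` directly
(`Y y Y⋆ = y + [c_g, y] + O(d²)`), and `u⋆ π(g) u = Y_g W_g`, so `AlmN N (u⋆ π(g) u) O(d²)`,
which is `AlmN (conjVN u N) (π g) O(d²)`. -/
theorem inv_step : ∃ C > 0, ∃ d₀ > 0, ∃ δ₀ > 0, ∀ {H : Type u} [NormedAddCommGroup H]
    [InnerProductSpace ℂ H] [CompleteSpace H] {G : Type v} [Group G] (_ : Mean G)
    (π : G →* unitary (Op H)) (N : VN H) {d : ℝ}, 0 < d → d ≤ d₀ → (∀ g, AlmN N (π g) d) →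
    (∀ g, DN N (π g) δ₀) →
    ∃ u : unitary (Op H), ‖(u : Op H) - 1‖ ≤ C * d ∧ ∀ g, AlmN (conjVN u N) (π g) (d / 2) := by
  obtain ⟨C, hC, δ₁, hδ₁, h1⟩ := lkk.{u}
  refine ⟨2 * C, by positivity, min (1 / (3 * C)) (1 / (264 * C ^ 2)), by positivity, δ₁, hδ₁, ?_⟩
  intro H _ _ _ G _ m π N d hd hd' hA hD
  obtain ⟨a1, a2⟩ := le_min_iff.1 hd'
  rw [le_div_iff₀ (by positivity)] at a1 a2
  choose W hW hW' using fun g => h1 N (π g) hd (hA g) (hD g)
  have h3 : C * d ≤ 1 / 3 := by linarith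
  have h0 : 0 ≤ C * d := by positivity
  set k : G → Op H := fun g => lkk_sk ((π g * (W g)⁻¹ : unitary (Op H)) : Op H) with hk
  have b1 : ∀ g, ‖((π g * (W g)⁻¹ : unitary (Op H)) : Op H) - (1 + k g)‖ ≤ (C * d) ^ 2 :=
    fun g => (lkk_sk_fo (lkk_sub_one.trans_le (hW' g))).1
  have b2 : ∀ g, ‖k g‖ ≤ C * d := fun g => (lkk_sk_fo (lkk_sub_one.trans_le (hW' g))).2
  have b3 : ∀ g, star (k g) = -k g := fun g => lkk_sk_star _
  clear_value k
  have hb : Bdd k := ⟨_, b2⟩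
  have c1 : ∀ g h, lkk_DC N (-k (g * h) + (π g : Op H) * k h * star (π g : Op H) + k g)
      (0 + 2 * ((3 * (C * d)) ^ 2 + 3 * (8 * (C * d) ^ 2))) := by
    intro g h
    obtain ⟨e1, e2, e3⟩ := lkk_fo3 _ (π g) _ _ h3 (b1 (g * h)) (b1 h) (b1 g) (b2 _) (b2 _) (b2 _)
      (b3 _) (b3 _) (b3 _)
    refine lkk_dc_of_alm e1 e2 e3 (by linarith) (lkk_alm_nrm ?_)
    have e : (π (g * h) * (W (g * h))⁻¹)⁻¹ * (π g * (π h * (W h)⁻¹) * (π g)⁻¹) *
        (π g * (W g)⁻¹) = W (g * h) * (W h)⁻¹ * (W g)⁻¹ := by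
      rw [map_mul]
      group
    rw [e]
    exact ((hW _).mul (hW _).inv).mul (hW _).inv
  have c2 : ‖m.op k‖ ≤ C * d := m.norm_op_le b2
  have c3 : star (m.op k) = -m.op k := by
    rw [← m.op_star hb, ← neg_one_smul ℂ (m.op k), ← m.op_smul _ hb]
    simp only [b3, neg_one_smul]
  obtain ⟨u, hu, -⟩ := exists_unitary_skew c3 (by linarith)
  replace hu := hu.trans (pow_le_pow_left₀ (norm_nonneg _) c2 2)
  refine ⟨u, ?_, fun g => lkk_alm_conj ?_⟩
  · have := norm_add_le ((u : Op H) - (1 + m.op k)) (m.op k)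
    rw [show (u : Op H) - (1 + m.op k) + m.op k = u - 1 by abel] at this
    nlinarith
  · have d1 : Bdd fun h => (-1 : ℂ) • k (g * h) :=
      ⟨C * d, fun h => by simpa using b2 _⟩
    have d2 : Bdd fun h => (π g : Op H) * k h :=
      ⟨C * d, fun h => by rw [CStarRing.norm_coe_unitary_mul]; exact b2 _⟩
    have d3 : Bdd fun h => (π g : Op H) * k h * star (π g : Op H) :=
      ⟨C * d, fun h => by rw [bas_norm_conj]; exact b2 _⟩
    have d4 := lkk_dc_op m (F := fun h => (-1 : ℂ) • k (g * h) +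
        (π g : Op H) * k h * star (π g : Op H) + k g)
      (mn_bdd_add (mn_bdd_add d1 d3) (mn_bdd_const _)) fun h => by
        simpa only [neg_one_smul] using c1 g h
    rw [m.op_add (mn_bdd_add d1 d3) (mn_bdd_const _), m.op_add d1 d3, m.op_const,
      m.op_smul _ (mn_bdd_comp hb _), m.op_inv g hb, m.op_mul_right _ d2, m.op_mul_left _ hb,
      neg_one_smul] at d4
    obtain ⟨e1, e2, e3⟩ := lkk_fo3 u (π g) u _ h3 hu hu (b1 g) c2 c2 (b2 _) c3 c3 (b3 _)
    have d5 := lkk_alm_mul (lkk_alm_of_dc e1 e2 e3 (by linarith) d4) (hW g)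
    have e : u⁻¹ * (π g * u * (π g)⁻¹) * (π g * (W g)⁻¹) * W g = u⁻¹ * π g * u := by group
    rw [← Submonoid.coe_mul, e] at d5
    exact AlmN.mono d5 (by nlinarith)

/-- Invariance theorem (`newton`; `DN.conj` keeps `DN` below the threshold of `inv_step`). -/
theorem invariance : ∃ C > 0, ∃ d₀ > 0, ∃ δ₀ > 0, ∀ {H : Type u} [NormedAddCommGroup H]
    [InnerProductSpace ℂ H] [CompleteSpace H] {G : Type v} [Group G] (_ : Mean G)
    (π : G →* unitary (Op H)) (N : VN H) {d : ℝ}, 0 < d → d ≤ d₀ → (∀ g, AlmN N (π g) d) →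
    (∀ g, DN N (π g) δ₀) →
    ∃ u : unitary (Op H), ‖(u : Op H) - 1‖ ≤ C * d ∧ ∀ g, Nrm (conjVN u N) (π g) := by
  obtain ⟨C, hC, d₁, hd₁, δ₁, hδ₁, h1⟩ := inv_step.{u, v}
  refine ⟨2 * C, by positivity, min d₁ (δ₁ / (8 * C)), by positivity, δ₁ / 2, by positivity, ?_⟩
  intro H _ _ _ G _ m π N d hd hd' hA hD
  obtain ⟨a1, a2⟩ := le_min_iff.1 hd'
  rw [le_div_iff₀ (by positivity)] at a2
  obtain ⟨x, s, b1, b2, -, b3⟩ := newton
    (fun (x : Op H) (e : ℝ) => x ∈ unitary (Op H) ∧ ∀ g, AlmN N (star x * π g * x) e) 1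
    (C := C) (r := δ₁ / 4) hd.le hC.le (by linarith) ⟨one_mem _, fun g => by simpa using hA g⟩
    (by
      rintro x e hx he he' ⟨hu, h2⟩
      rcases he.eq_or_lt with rfl | he0
      · exact ⟨x, by simp, hu, by simpa using h2⟩
      lift x to unitary (Op H) using hu
      rw [dist_eq_norm] at hx
      obtain ⟨w, c1, c2⟩ := h1 m π (conjVN x N) he0 (he'.trans a1) (fun g => lkk_alm_conj (h2 g))
        fun g => ((hD g).conj x).mono (by linarith)
      refine ⟨(w * x : unitary (Op H)), ?_, (w * x).2, fun g => lkk_alm_conj' ?_⟩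
      · rwa [dist_eq_norm, Submonoid.coe_mul, ← sub_one_mul, CStarRing.norm_mul_coe_unitary]
      · rw [conjVN_mul]
        exact c2 g)
  have hx : x ∈ unitary (Op H) := by
    constructor
    · exact tendsto_nhds_unique (b2.star.mul b2)
        (tendsto_const_nhds.congr fun n => ((b3 n).1.1).symm)
    · exact tendsto_nhds_unique (b2.mul b2.star)
        (tendsto_const_nhds.congr fun n => ((b3 n).1.2).symm)
  have key : ∀ g, AlmN N (star x * π g * x) 0 := by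
    intro g y hy y' hy'
    have c1 : Tendsto (fun n => star (s n) * π g * s n) atTop (𝓝 (star x * π g * x)) :=
      (b2.star.mul_const _).mul b2
    have c2 := (c1.mul_const y).mul c1.star
    have c3 : Tendsto (fun n : ℕ => d / 2 ^ n) atTop (𝓝 0) :=
      tendsto_const_nhds.div_atTop (tendsto_pow_atTop_atTop_of_one_lt one_lt_two)
    exact le_of_tendsto_of_tendsto' ((c2.mul_const y').sub (c2.const_mul y')).norm
      ((c3.mul_const _).mul_const _) fun n => (b3 n).2 g y hy y' hy'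
  lift x to unitary (Op H) using hx
  refine ⟨x, by rwa [dist_eq_norm] at b1, fun g => nrm_of_almN (lkk_alm_conj (key g)) ?_⟩
  have := lkk_alm_conj (key g⁻¹)
  rwa [map_inv, bas_inv] at this

end

end Crest.Agent.R78
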