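import Crest.Agent.R78.Gen

/-!
# Row 78: Sakai's linear Radon–Nikodym theorem
-/

open scoped InnerProductSpace Topology ComplexConjugate
open Filter MeasureTheory

set_option linter.unusedSectionVars false

namespace Crest.Agent.R78

open Crest.Agent.R121 (Alg)

noncomputable section

universe u

variable {H : Type*} [NormedAddCommGroup H] [InnerProductSpace ℂ H] [CompleteSpace H]

theorem lin_root {A : VN H} {a : Op H} (ha : a ∈ A) {η : ℝ} (hη : 0 < η) :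
    ∃ c ∈ A, ∃ d ∈ A, star c = c ∧ star d = d ∧ c * d = 1 ∧ d * c = 1 ∧
      c * c * (c * c) = star a * a + (η : ℂ) • 1 := by
  have hQ : IsSelfAdjoint (star a * a) := IsSelfAdjoint.star_mul_self a
  have hpos : ∀ t ∈ spectrum ℝ (star a * a), 0 < t + η := fun t ht => by
    linarith [spectrum_star_mul_self_nonneg t ht]
  have hne : ∀ t ∈ spectrum ℝ (star a * a), √(√(t + η)) ≠ 0 := fun t ht =>
    (Real.sqrt_pos.2 (Real.sqrt_pos.2 (hpos t ht))).ne'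
  have hc : ContinuousOn (fun t : ℝ => (√(√(t + η)))⁻¹) (spectrum ℝ (star a * a)) :=
    ContinuousOn.inv₀ (by fun_prop) hne
  have hm : ∀ f : ℝ → ℝ, cfc f (star a * a) ∈ A := fun f => bas_mem fun y hy =>
    ((mem_comm.1 hy _ (mul_mem (star_mem ha) ha)).cfc_real f).symm
  refine ⟨cfc (fun t : ℝ => √(√(t + η))) (star a * a), hm _,
    cfc (fun t : ℝ => (√(√(t + η)))⁻¹) (star a * a), hm _,
    (cfc_predicate _ _ : IsSelfAdjoint _), (cfc_predicate _ _ : IsSelfAdjoint _), ?_, ?_, ?_⟩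
  · rw [← cfc_mul _ _ _ (by fun_prop) hc, ← cfc_const_one ℝ (star a * a)]
    exact cfc_congr fun t ht => mul_inv_cancel₀ (hne t ht)
  · rw [← cfc_mul _ _ _ hc, ← cfc_const_one ℝ (star a * a)]
    exact cfc_congr fun t ht => inv_mul_cancel₀ (hne t ht)
  · rw [← cfc_mul .., ← cfc_mul .., Complex.coe_smul, ← Algebra.algebraMap_eq_smul_one]
    conv_rhs => rw [← cfc_id' ℝ (star a * a), ← cfc_add_const η _ (star a * a)]
    refine cfc_congr fun t ht => ?_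
    simp only [Real.mul_self_sqrt (Real.sqrt_nonneg _), Real.mul_self_sqrt (hpos t ht).le]

theorem lin_inner (T : Op H) (u w : H) : ⟪T u, w⟫_ℂ = ⟪u, star T w⟫_ℂ :=
  (ContinuousLinearMap.adjoint_inner_right T u w).symm

theorem lin_sq (u : H) : (⟪u, u⟫_ℂ).re = ‖u‖ ^ 2 := inner_self_eq_norm_sq (𝕜 := ℂ) u

/-- For a single test element. Recipe: `b = (a⋆ a + ε)^{1/2}` (positive, invertible, in `A`),
`v = a b⁻¹` (a contraction), `c = b^{1/2}`. `|⟪a ξ, y ξ⟫| = |⟪c ξ, y c v⋆ ξ⟫| ≤ ‖y‖ ‖c ξ‖ ‖c v⋆ ξ‖`;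
with `x = ‖y‖ v`: `⟪a ξ, v ξ⟫ = ω(b v⋆ v) = ω(b) - ε ω(b⁻¹) ≥ ‖c ξ‖² - √ε ‖ξ‖²` and
`⟪v⋆ ξ, a⋆ ξ⟫ = ‖c v⋆ ξ‖²`; use `p q ≤ μ p² + μ⁻¹ q²`. -/
theorem linRN_test {A : VN H} (ξ : H) {y : Op H} (hy : y ∈ A.commutant) {μ : ℝ} (hμ : 0 < μ)
    {a : Op H} (ha : a ∈ A) {ε : ℝ} (hε : 0 < ε) :
    ∃ x ∈ A, ‖x‖ ≤ ‖y‖ ∧ (⟪a ξ, y ξ⟫_ℂ).re ≤
      μ * (⟪a ξ, x ξ⟫_ℂ).re + μ⁻¹ * (⟪star x ξ, star a ξ⟫_ℂ).re + ε := by
  obtain ⟨δ, hδ, hδε⟩ : ∃ δ > 0, μ * ‖y‖ * ‖ξ‖ ^ 2 * δ ≤ ε :=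
    ⟨ε / (μ * ‖y‖ * ‖ξ‖ ^ 2 + 1), by positivity, by
      rw [← mul_div_assoc, div_le_iff₀ (by positivity)]
      nlinarith⟩
  obtain ⟨c, hc, d, hd, sc, sd, cd, dc, h4⟩ := lin_root ha (η := δ ^ 2) (by positivity)
  have cd' : ∀ w, c (d w) = w := fun w => congrArg (fun T : Op H => T w) cd
  have dc' : ∀ w, d (c w) = w := fun w => congrArg (fun T : Op H => T w) dc
  have h5 : ∀ u w, ⟪c (c u), c (c w)⟫_ℂ = ⟪a u, a w⟫_ℂ + ((δ ^ 2 : ℝ) : ℂ) * ⟪u, w⟫_ℂ := fun u w => by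
    rw [lin_inner, lin_inner, lin_inner a, sc, ← inner_smul_right, ← inner_add_right]
    exact congrArg (fun T : Op H => ⟪u, T w⟫_ℂ) h4
  obtain ⟨v, hv⟩ : ∃ v, v = a * d * d := ⟨_, rfl⟩
  have hv' : ∀ w, v w = a (d (d w)) := fun w => by rw [hv]; rfl
  have hav : ∀ w, a w = v (c (c w)) := fun w => by rw [hv', dc', dc']
  have h6 : ∀ u, ‖u‖ ^ 2 = ‖v u‖ ^ 2 + δ ^ 2 * ‖d (d u)‖ ^ 2 := fun u => by
    have := congrArg Complex.re (h5 (d (d u)) (d (d u)))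
    rwa [cd', cd', Complex.add_re, Complex.re_ofReal_mul, lin_sq, lin_sq, lin_sq, ← hv'] at this
  have hv1 : ‖v‖ ≤ 1 := ContinuousLinearMap.opNorm_le_bound _ zero_le_one fun u => by
    rw [one_mul]
    exact (pow_le_pow_iff_left₀ (norm_nonneg _) (norm_nonneg _) two_ne_zero).1
      (by nlinarith [h6 u, sq_nonneg (δ * ‖d (d u)‖)])
  have h7 : δ * ‖d (d ξ)‖ ≤ ‖ξ‖ := (pow_le_pow_iff_left₀ (by positivity) (norm_nonneg _) two_ne_zero).1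
    (by nlinarith [h6 ξ, sq_nonneg ‖v ξ‖])
  have hvA : v ∈ A := hv ▸ mul_mem (mul_mem ha hd) hd
  -- the three inner products
  have e1 : (⟪a ξ, y ξ⟫_ℂ).re ≤ ‖c ξ‖ * (‖y‖ * ‖c (star v ξ)‖) := by
    have : c (star v (y ξ)) = y (c (star v ξ)) :=
      congrArg (fun T : Op H => T ξ) (mem_comm.1 hy _ (mul_mem hc (star_mem hvA))).eq
    rw [hav, lin_inner v, lin_inner c, sc, this]
    exact (Complex.re_le_norm _).trans ((norm_inner_le_norm _ _).trans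
      (mul_le_mul_of_nonneg_left (y.le_opNorm _) (norm_nonneg _)))
  have e2 : ‖c ξ‖ ^ 2 ≤ (⟪a ξ, v ξ⟫_ℂ).re + δ * ‖ξ‖ ^ 2 := by
    have h8 := congrArg Complex.re (h5 ξ (d (d ξ)))
    rw [cd', cd', Complex.add_re, Complex.re_ofReal_mul, ← hv', lin_inner c, sc, lin_sq] at h8
    have h9 : (⟪ξ, d (d ξ)⟫_ℂ).re ≤ ‖ξ‖ * ‖d (d ξ)‖ :=
      (Complex.re_le_norm _).trans (norm_inner_le_norm _ _)
    nlinarith [mul_le_mul_of_nonneg_left h9 (sq_nonneg δ),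
      mul_le_mul_of_nonneg_left h7 (mul_nonneg hδ.le (norm_nonneg ξ))]
  have e3 : (⟪star v ξ, star a ξ⟫_ℂ).re = ‖c (star v ξ)‖ ^ 2 := by
    rw [← lin_inner a, hav, lin_inner v, lin_inner c, sc, lin_sq]
  refine ⟨(‖y‖ : ℂ) • v, smul_mem' _ hvA, ?_, ?_⟩
  · rw [norm_smul, Complex.norm_real, norm_norm]
    exact mul_le_of_le_one_right (norm_nonneg _) hv1
  · rw [star_smul, smul_apply, smul_apply, inner_smul_right,
      inner_smul_left, Complex.star_def, Complex.conj_ofReal, Complex.conj_ofReal,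
      Complex.re_ofReal_mul, Complex.re_ofReal_mul, e3]
    have h8 : ‖c ξ‖ * ‖c (star v ξ)‖ ≤ μ * ‖c ξ‖ ^ 2 + μ⁻¹ * ‖c (star v ξ)‖ ^ 2 := by
      have := two_mul_le_add_mul_sq (a := ‖c ξ‖) (b := ‖c (star v ξ)‖) hμ
      nlinarith [mul_nonneg (norm_nonneg (c ξ)) (norm_nonneg (c (star v ξ)))]
    nlinarith [mul_le_mul_of_nonneg_left h8 (norm_nonneg y),
      mul_le_mul_of_nonneg_left e2 (mul_nonneg hμ.le (norm_nonneg y))]

/-- the real bilinear form `μ re ⟪a ξ, x ξ⟫ + μ⁻¹ re ⟪x⋆ ξ, a⋆ ξ⟫` -/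
def linG (ξ : H) (μ ν : ℝ) : Op H →ₗ[ℝ] Op H →ₗ[ℝ] ℝ :=
  LinearMap.mk₂ ℝ (fun a x => μ * (⟪a ξ, x ξ⟫_ℂ).re + ν * (⟪star x ξ, star a ξ⟫_ℂ).re)
    (fun a b x => by simp; ring)
    (fun r a x => by
      rw [← Complex.coe_smul]
      simp only [star_smul, smul_apply, inner_smul_left, inner_smul_right,
        Complex.star_def, Complex.conj_ofReal, Complex.re_ofReal_mul, smul_eq_mul]
      ring)
    (fun a b x => by simp; ring)
    (fun r a x => by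
      rw [← Complex.coe_smul]
      simp only [star_smul, smul_apply, inner_smul_left, inner_smul_right,
        Complex.star_def, Complex.conj_ofReal, Complex.re_ofReal_mul, smul_eq_mul]
      ring)

theorem linG_apply (ξ : H) (μ ν : ℝ) (a x : Op H) :
    linG ξ μ ν a x = μ * (⟪a ξ, x ξ⟫_ℂ).re + ν * (⟪star x ξ, star a ξ⟫_ℂ).re := rfl

/-- Recipe: `fan_ultra` on the ball `K = {x ∈ A, ‖x‖ ≤ ‖y‖}` with `I = Alg A` and the affine
functions `e a x = re (⟪a ξ, y ξ⟫ - μ ⟪a ξ, x ξ⟫ - μ⁻¹ ⟪x⋆ ξ, a⋆ ξ⟫)`, which are real linear in `a`;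
weak limit `x`; then replace `a` by `-a`, `± i a`. -/
theorem linRN {A : VN H} (ξ : H) {y : Op H} (hy : y ∈ A.commutant) {μ : ℝ} (hμ : 0 < μ) :
    ∃ x ∈ A, ‖x‖ ≤ ‖y‖ ∧ ∀ a ∈ A, ⟪a ξ, y ξ⟫_ℂ =
      (μ : ℂ) * ⟪a ξ, x ξ⟫_ℂ + (μ : ℂ)⁻¹ * ⟪star x ξ, star a ξ⟫_ℂ := by
  have hK : Convex ℝ {x : Op H | x ∈ A ∧ ‖x‖ ≤ ‖y‖} := fun x hx z hz s t hs ht hst =>
    ⟨add_mem (rsmul_mem s hx.1) (rsmul_mem t hz.1), by
      simpa using convex_closedBall (0 : Op H) ‖y‖ (mem_closedBall_zero_iff.2 hx.2)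
        (mem_closedBall_zero_iff.2 hz.2) hs ht hst⟩
  obtain ⟨𝒰, h1, h2⟩ := fan_ultra (I := Alg A) {x : Op H | x ∈ A ∧ ‖x‖ ≤ ‖y‖} ⟨0, zero_mem A, by simp⟩
    (fun a x => linG ξ 1 0 a y + (-linG ξ μ μ⁻¹ a) x)
    (fun a => (convexOn_const _ hK).add (LinearMap.convexOn _ hK)) fun s w _ _ ε hε => by
      obtain ⟨x, hx, h3, h4⟩ := linRN_test ξ hy hμ (a := ∑ i ∈ s, w i • (i : Op H))
        (sum_mem fun i _ => rsmul_mem _ i.2) hε
      refine ⟨x, ⟨hx, h3⟩, ?_⟩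
      have h5 : linG ξ 1 0 (∑ i ∈ s, w i • (i : Op H)) y ≤
          linG ξ μ μ⁻¹ (∑ i ∈ s, w i • (i : Op H)) x + ε := by
        rwa [linG_apply, linG_apply, one_mul, zero_mul, add_zero]
      simp only [map_sum, map_smul, LinearMap.sum_apply, LinearMap.smul_apply, smul_eq_mul] at h5
      simp only [LinearMap.neg_apply, mul_add, mul_neg, Finset.sum_add_distrib,
        Finset.sum_neg_distrib]
      linarith
  have h3 : ∀ᶠ x in (𝒰 : Filter (Op H)), x ∈ A ∧ ‖x‖ ≤ ‖y‖ := h1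
  obtain ⟨x, hx⟩ := exists_wlim 𝒰 (T := fun x => x) (h3.mono fun x hx => hx.2)
  have h4 : ∀ a ∈ A, linG ξ 1 0 a y ≤ linG ξ μ μ⁻¹ a x := fun a ha => by
    have h5 : Tendsto (fun t => linG ξ μ μ⁻¹ a t) 𝒰 (𝓝 (linG ξ μ μ⁻¹ a x)) := by
      simp only [linG_apply, bas_star_inner]
      exact (((Complex.continuous_re.tendsto _).comp (hx ξ (a ξ))).const_mul μ).add
        (((Complex.continuous_re.tendsto _).comp (hx (star a ξ) ξ)).const_mul μ⁻¹)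
    refine le_of_forall_pos_le_add fun ε hε => ?_
    refine ge_of_tendsto (h5.add_const ε) ((h2 ⟨a, ha⟩ ε hε).mono fun t ht => ?_)
    simp only [LinearMap.neg_apply] at ht
    linarith
  have h5 : ∀ a ∈ A, (⟪a ξ, y ξ⟫_ℂ).re =
      μ * (⟪a ξ, x ξ⟫_ℂ).re + μ⁻¹ * (⟪star x ξ, star a ξ⟫_ℂ).re := fun a ha => by
    have h6 := h4 (-a) (neg_mem ha)
    rw [map_neg, map_neg, LinearMap.neg_apply, LinearMap.neg_apply, neg_le_neg_iff] at h6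
    simpa [linG_apply] using (h4 a ha).antisymm h6
  refine ⟨x, hx.mem (h3.mono fun x hx => hx.1), hx.norm_le (h3.mono fun x hx => hx.2),
    fun a ha => Complex.ext ?_ ?_⟩
  · rw [← Complex.ofReal_inv, Complex.add_re, Complex.re_ofReal_mul, Complex.re_ofReal_mul, h5 a ha]
  · rw [← Complex.ofReal_inv, Complex.add_im, Complex.im_ofReal_mul, Complex.im_ofReal_mul]
    simpa [inner_smul_left, inner_smul_right] using h5 (Complex.I • a) (smul_mem' _ ha)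

end

end Crest.Agent.R78
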