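import Crest.Agent.R78.L2VN
import Crest.Agent.R78.Mean
import Crest.Agent.R78.Amen
import Crest.Agent.R78.Stmt

/-!
# Row 78: tensoring with the hyperfinite factor
-/

open scoped InnerProductSpace Topology ComplexConjugate
open Filter MeasureTheory

set_option linter.unusedSectionVars false

namespace Crest.Agent.R78

open Crest.Agent.R121 (Alg)

noncomputable section

universe u

variable {H : Type*} [NormedAddCommGroup H] [InnerProductSpace ℂ H] [CompleteSpace H]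

open scoped symmDiff

/-- Pauli strings `X^a Z^b`. -/
abbrev PS : Type := Finset ℕ × Finset ℕ

/-- The sign `(-1)^{[n ∈ a]}`. -/
def sgn (n : ℕ) (a : Finset ℕ) : ℂ := if n ∈ a then -1 else 1

/-- Left (`X`, `Z`) and right (`X'`, `Z'`) Pauli operators on `ℓ²(PS, H)`. -/
structure PauliModel (X Z X' Z' : ℕ → unitary (Op (L2 PS H))) : Prop where
  X_inj : ∀ n a b x, (X n : Op (L2 PS H)) (inj (a, b) x) = inj (a ∆ {n}, b) x
  Z_inj : ∀ n a b x, (Z n : Op (L2 PS H)) (inj (a, b) x) = sgn n a • inj (a, b ∆ {n}) x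
  X'_inj : ∀ n a b x, (X' n : Op (L2 PS H)) (inj (a, b) x) = sgn n b • inj (a ∆ {n}, b) x
  Z'_inj : ∀ n a b x, (Z' n : Op (L2 PS H)) (inj (a, b) x) = inj (a, b ∆ {n}) x

theorem pa_sgn_sq (n : ℕ) (a : Finset ℕ) : sgn n a * sgn n a = 1 := by
  unfold sgn; split_ifs <;> simp

theorem pa_sgn_conj (n : ℕ) (a : Finset ℕ) : star (sgn n a) = sgn n a := by
  unfold sgn; split_ifs <;> simp

theorem pa_sgn_ne {n m : ℕ} (h : n ≠ m) (a : Finset ℕ) : sgn n (a ∆ {m}) = sgn n a := by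
  unfold sgn
  have : n ∈ a ∆ {m} ↔ n ∈ a := by simp [Finset.mem_symmDiff, h]
  simp only [this]

theorem pa_sgn_self (n : ℕ) (a : Finset ℕ) : sgn n (a ∆ {n}) = -sgn n a := by
  unfold sgn
  have : n ∈ a ∆ {n} ↔ n ∉ a := by simp [Finset.mem_symmDiff]
  simp only [this]
  split_ifs <;> simp_all

/-- signed permutation unitaries -/
theorem pa_exists_signed {I : Type*} (e : I ≃ I) (s : I → ℂ) (hs : ∀ p, s p * s p = 1)
    (hs' : ∀ p, star (s p) = s p) :
    ∃ U : unitary (Op (L2 I H)), ∀ p x, (U : Op (L2 I H)) (inj p x) = s p • inj (e p) x := by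
  have hn : ∀ p, ‖s p‖ = 1 := fun p => by
    have h1 : ‖s p‖ * ‖s p‖ = 1 := by rw [← norm_mul, hs, norm_one]
    nlinarith [norm_nonneg (s p)]
  have hb : Bdd fun p => s p • (1 : Op H) :=
    ⟨‖(1 : Op H)‖, fun p => by rw [norm_smul, hn, one_mul]⟩
  set D : Op (L2 I H) := dgf fun p => s p • (1 : Op H) with hD
  have hDi : ∀ p x, D (inj p x) = s p • inj p x := fun p x => by
    rw [hD, dgf_inj hb, ContinuousLinearMap.smul_apply, map_smul]; rfl
  have hst : star D = D := by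
    rw [hD, ← dgf_star hb]
    congr 1
    funext p
    rw [star_smul, star_one, hs']
  have hDD : D * D = 1 := ext_inj fun p x => by
    rw [ContinuousLinearMap.mul_apply, hDi, map_smul, hDi, smul_smul, hs, one_smul]; rfl
  have hDu : D ∈ unitary (Op (L2 I H)) := ⟨by rw [hst, hDD], by rw [hst, hDD]⟩
  refine ⟨⟨emb H e.toEmbedding * D, mul_mem (emb_mem_unitary e) hDu⟩, fun p x => ?_⟩
  change emb H e.toEmbedding (D (inj p x)) = _
  rw [hDi, map_smul, emb_inj]
  rfl

theorem pa_mem_amp {I : Type*} {T : Op (L2 I H)} {e : I → I} {s : I → ℂ}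
    (h : ∀ p x, T (inj p x) = s p • inj (e p) x) (P : VN H) : T ∈ ampVN I P := by
  classical
  refine mem_ampVN.2 fun i j => ?_
  have : ent T i j = if i = e j then s j • (1 : Op H) else 0 := by
    ext x
    rw [ent_apply, h]
    change s j • (inj (e j) x : L2 I H) i = _
    rw [inj_apply]
    split_ifs
    · rfl
    · rw [smul_zero]; rfl
  rw [this]
  split_ifs
  · exact smul_mem' _ (one_mem P)
  · exact zero_mem P

theorem pa_commute_dg {I : Type*} {T : Op (L2 I H)} {e : I → I} {s : I → ℂ}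
    (h : ∀ p x, T (inj p x) = s p • inj (e p) x) (y : Op H) : Commute T (dg I y) := by
  refine ext_inj fun p x => ?_
  rw [ContinuousLinearMap.mul_apply, ContinuousLinearMap.mul_apply, dg_inj, h, h, map_smul, dg_inj]

/-- flip the `X` part -/
def paL (n : ℕ) : PS ≃ PS :=
  Function.Involutive.toPerm (fun p => (p.1 ∆ {n}, p.2)) fun p => by
    simp only [symmDiff_symmDiff_cancel_right]

/-- flip the `Z` part -/
def paR (n : ℕ) : PS ≃ PS :=
  Function.Involutive.toPerm (fun p => (p.1, p.2 ∆ {n})) fun p => by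
    simp only [symmDiff_symmDiff_cancel_right]

/-- `emb` of an involutive permutation times a diagonal of signs. -/
theorem exists_pauliModel (H : Type*) [NormedAddCommGroup H] [InnerProductSpace ℂ H]
    [CompleteSpace H] : ∃ X Z X' Z' : ℕ → unitary (Op (L2 PS H)), PauliModel X Z X' Z' := by
    choose X hX using fun n => pa_exists_signed (H := H) (paL n) (fun _ => 1) (fun _ => one_mul 1)
      fun _ => star_one ℂ
    choose Z hZ using fun n => pa_exists_signed (H := H) (paR n) (fun p => sgn n p.1)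
      (fun p => pa_sgn_sq n p.1) fun p => pa_sgn_conj n p.1
    choose X' hX' using fun n => pa_exists_signed (H := H) (paL n) (fun p => sgn n p.2)
      (fun p => pa_sgn_sq n p.2) fun p => pa_sgn_conj n p.2
    choose Z' hZ' using fun n => pa_exists_signed (H := H) (paR n) (fun _ => 1) (fun _ => one_mul 1)
      fun _ => star_one ℂ
    refine ⟨X, Z, X', Z', fun n a b x => ?_, fun n a b x => hZ n (a, b) x,
      fun n a b x => hX' n (a, b) x, fun n a b x => ?_⟩
    · rw [hX, one_smul]; rfl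
    · rw [hZ', one_smul]; rfl

/-- The algebra `P ⊗ R`: the elements of `P ⊗ B(ℓ²)` commuting with the right Pauli operators. -/
def tensR (X' Z' : ℕ → unitary (Op (L2 PS H))) (P : VN H) : VN (L2 PS H) :=
  fixVN (Subgroup.closure (Set.range X' ∪ Set.range Z')).subtype (ampVN PS P)

variable {X Z X' Z' : ℕ → unitary (Op (L2 PS H))}

theorem mem_tensR {P : VN H} {T : Op (L2 PS H)} : T ∈ tensR X' Z' P ↔
    T ∈ ampVN PS P ∧ ∀ n, Commute (X' n : Op (L2 PS H)) T ∧ Commute (Z' n : Op (L2 PS H)) T := by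
    rw [tensR, mem_fixVN]
    refine and_congr_right fun _ => ⟨fun h n => ⟨?_, ?_⟩, fun h g => ?_⟩
    · exact h ⟨X' n, Subgroup.subset_closure (Or.inl ⟨n, rfl⟩)⟩
    · exact h ⟨Z' n, Subgroup.subset_closure (Or.inr ⟨n, rfl⟩)⟩
    · obtain ⟨g, hg⟩ := g
      change Commute (g : Op (L2 PS H)) T
      induction hg using Subgroup.closure_induction with
      | mem x hx =>
        rcases hx with ⟨n, rfl⟩ | ⟨n, rfl⟩
        · exact (h n).1
        · exact (h n).2
      | one => exact Commute.one_left T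
      | mul x y _ _ hx hy => exact Commute.mul_left hx hy
      | inv x _ hx =>
        rw [bas_inv]
        calc star (x : Op (L2 PS H)) * T
            = star (x : Op (L2 PS H)) * (T * x * star (x : Op (L2 PS H))) := by
              rw [mul_assoc T, bas_us, mul_one]
          _ = T * star (x : Op (L2 PS H)) := by
              rw [← hx.eq, mul_assoc, bas_su']

theorem PauliModel.X'_signed (h : PauliModel X Z X' Z') (n : ℕ) (p : PS) (x : H) :
    (X' n : Op (L2 PS H)) (inj p x) = sgn n p.2 • inj (p.1 ∆ {n}, p.2) x := h.X'_inj n p.1 p.2 x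

theorem PauliModel.Z'_signed (h : PauliModel X Z X' Z') (n : ℕ) (p : PS) (x : H) :
    (Z' n : Op (L2 PS H)) (inj p x) = (1 : ℂ) • inj (p.1, p.2 ∆ {n}) x := by
  rw [one_smul]; exact h.Z'_inj n p.1 p.2 x

theorem PauliModel.X'Z' (h : PauliModel X Z X' Z') (n m : ℕ) :
    (X' n : Op (L2 PS H)) * Z' m = (Z' m : Op (L2 PS H)) * X' n ∨
      (X' n : Op (L2 PS H)) * Z' m = -((Z' m : Op (L2 PS H)) * X' n) := by
  by_cases hnm : n = m
  · subst hnm
    refine Or.inr (ext_inj fun ⟨a, b⟩ x => ?_)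
    rw [ContinuousLinearMap.neg_apply, ContinuousLinearMap.mul_apply,
      ContinuousLinearMap.mul_apply, h.Z'_inj, h.X'_inj, h.X'_inj, map_smul, h.Z'_inj,
      pa_sgn_self, neg_smul]
  · refine Or.inl (ext_inj fun ⟨a, b⟩ x => ?_)
    rw [ContinuousLinearMap.mul_apply, ContinuousLinearMap.mul_apply, h.Z'_inj, h.X'_inj,
      h.X'_inj, map_smul, h.Z'_inj, pa_sgn_ne hnm]

theorem PauliModel.mean (h : PauliModel X Z X' Z') :
    Nonempty (Mean (Subgroup.closure (Set.range X' ∪ Set.range Z'))) := by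
  refine mean_pauli _ ?_ ?_
  · rintro _ (⟨n, rfl⟩ | ⟨n, rfl⟩)
    · refine Subtype.ext (ext_inj fun ⟨a, b⟩ x => ?_)
      change (X' n : Op (L2 PS H)) ((X' n : Op (L2 PS H)) (inj (a, b) x)) = inj (a, b) x
      rw [h.X'_inj, map_smul, h.X'_inj, smul_smul, pa_sgn_sq, one_smul,
        symmDiff_symmDiff_cancel_right]
    · refine Subtype.ext (ext_inj fun ⟨a, b⟩ x => ?_)
      change (Z' n : Op (L2 PS H)) ((Z' n : Op (L2 PS H)) (inj (a, b) x)) = inj (a, b) x
      rw [h.Z'_inj, h.Z'_inj, symmDiff_symmDiff_cancel_right]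
  · rintro _ (⟨n, rfl⟩ | ⟨n, rfl⟩) _ (⟨m, rfl⟩ | ⟨m, rfl⟩)
    · refine Or.inl (ext_inj fun ⟨a, b⟩ x => ?_)
      rw [ContinuousLinearMap.mul_apply, ContinuousLinearMap.mul_apply, h.X'_inj, h.X'_inj,
        map_smul, map_smul, h.X'_inj, h.X'_inj, smul_smul, smul_smul, mul_comm,
        symmDiff_right_comm]
    · exact h.X'Z' n m
    · rcases h.X'Z' m n with h1 | h1
      · exact Or.inl h1.symm
      · exact Or.inr (by rw [h1, neg_neg])
    · refine Or.inl (ext_inj fun ⟨a, b⟩ x => ?_)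
      rw [ContinuousLinearMap.mul_apply, ContinuousLinearMap.mul_apply, h.Z'_inj, h.Z'_inj,
        h.Z'_inj, h.Z'_inj, symmDiff_right_comm]

/-- `mean_pauli`, `Near.ampVN`, `Near.fixVN` (the Pauli operators lie in every `ampVN PS P`). -/
theorem PauliModel.near (h : PauliModel X Z X' Z') {M N : VN H} {γ : ℝ} (hγ : 0 ≤ γ)
    (hn : Near M N γ) : Near (tensR X' Z' M) (tensR X' Z' N) (cA * γ) := by
    obtain ⟨m⟩ := h.mean
    refine Near.fixVN m _ (hn.ampVN hγ) fun g => nrm_of_mem ?_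
    obtain ⟨g, hg⟩ := g
    change (g : Op (L2 PS H)) ∈ ampVN PS N
    induction hg using Subgroup.closure_induction with
    | mem x hx =>
      rcases hx with ⟨n, rfl⟩ | ⟨n, rfl⟩
      · exact pa_mem_amp (h.X'_signed n) N
      · exact pa_mem_amp (h.Z'_signed n) N
    | one => exact one_mem _
    | mul x y _ _ hx hy => exact mul_mem hx hy
    | inv x _ hx =>
      rw [bas_inv]
      exact star_mem hx

theorem PauliModel.dg_mem (h : PauliModel X Z X' Z') {P : VN H} {x : Op H} (hx : x ∈ P) :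
    dg PS x ∈ tensR X' Z' P := by
    exact mem_tensR.2 ⟨dg_mem_ampVN hx,
      fun n => ⟨pa_commute_dg (h.X'_signed n) x, pa_commute_dg (h.Z'_signed n) x⟩⟩

theorem pb_dense {I : Type*} (S : AddSubmonoid (L2 I H)) {D : Set H} (hD : Dense D)
    (h : ∀ i, ∀ w ∈ D, (inj i w : L2 I H) ∈ S) : Dense (S : Set (L2 I H)) := by
  intro v
  have h1 : ∀ i w, (inj i w : L2 I H) ∈ S.topologicalClosure := fun i w =>
    map_mem_closure (inj i : H →L[ℂ] L2 I H).continuous (hD w) (h i)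
  exact S.isClosed_topologicalClosure.mem_of_tendsto (hasSum_inj v)
    (Eventually.of_forall fun s => sum_mem fun i _ => h1 i _)

theorem pb_symmDiff_insert {n : ℕ} {a : Finset ℕ} (h : n ∉ a) : a ∆ {n} = insert n a := by
  ext k
  simp only [Finset.mem_symmDiff, Finset.mem_singleton, Finset.mem_insert]
  constructor
  · rintro (⟨h1, -⟩ | ⟨h1, -⟩)
    · exact Or.inr h1
    · exact Or.inl h1
  · rintro (rfl | h1)
    · exact Or.inr ⟨rfl, h⟩
    · exact Or.inl ⟨h1, fun h2 => h (h2 ▸ h1)⟩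

theorem pb_empty_symmDiff (a : Finset ℕ) : ∅ ∆ a = a := bot_symmDiff a

theorem pb_symmDiff_empty (a : Finset ℕ) : a ∆ ∅ = a := symmDiff_bot a

theorem PauliModel.X_signed (h : PauliModel X Z X' Z') (n : ℕ) (p : PS) (x : H) :
    (X n : Op (L2 PS H)) (inj p x) = (1 : ℂ) • inj (p.1 ∆ {n}, p.2) x := by
  rw [one_smul]; exact h.X_inj n p.1 p.2 x

theorem PauliModel.Z_signed (h : PauliModel X Z X' Z') (n : ℕ) (p : PS) (x : H) :
    (Z n : Op (L2 PS H)) (inj p x) = sgn n p.1 • inj (p.1, p.2 ∆ {n}) x := h.Z_inj n p.1 p.2 x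

theorem PauliModel.X_mem (h : PauliModel X Z X' Z') (P : VN H) (n : ℕ) :
    (X n : Op (L2 PS H)) ∈ tensR X' Z' P := by
  refine mem_tensR.2 ⟨pa_mem_amp (h.X_signed n) P, fun m => ⟨?_, ?_⟩⟩
  · refine ext_inj fun ⟨a, b⟩ x => ?_
    rw [mul_apply_eq_comp, mul_apply_eq_comp, h.X_inj, h.X'_inj, h.X'_inj, map_smul, h.X_inj,
      symmDiff_right_comm]
  · refine ext_inj fun ⟨a, b⟩ x => ?_
    rw [mul_apply_eq_comp, mul_apply_eq_comp, h.X_inj, h.Z'_inj, h.Z'_inj, h.X_inj]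

theorem pb_sgn_swap (n m : ℕ) (a b : Finset ℕ) :
    sgn n a * sgn m (b ∆ {n}) = sgn m b * sgn n (a ∆ {m}) := by
  by_cases hnm : n = m
  · subst hnm
    rw [pa_sgn_self, pa_sgn_self]
    ring
  · rw [pa_sgn_ne hnm, pa_sgn_ne (Ne.symm hnm), mul_comm]

theorem PauliModel.Z_mem (h : PauliModel X Z X' Z') (P : VN H) (n : ℕ) :
    (Z n : Op (L2 PS H)) ∈ tensR X' Z' P := by
  refine mem_tensR.2 ⟨pa_mem_amp (h.Z_signed n) P, fun m => ⟨?_, ?_⟩⟩
  · refine ext_inj fun ⟨a, b⟩ x => ?_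
    rw [mul_apply_eq_comp, mul_apply_eq_comp, h.Z_inj, h.X'_inj, map_smul, map_smul, h.X'_inj,
      h.Z_inj, smul_smul, smul_smul, pb_sgn_swap]
  · refine ext_inj fun ⟨a, b⟩ x => ?_
    rw [mul_apply_eq_comp, mul_apply_eq_comp, h.Z_inj, h.Z'_inj, map_smul, h.Z'_inj, h.Z_inj,
      symmDiff_right_comm]

theorem PauliModel.cXX (h : PauliModel X Z X' Z') (n m : ℕ) :
    Commute (X n : Op (L2 PS H)) (X m) := by
  refine ext_inj fun ⟨a, b⟩ x => ?_
  rw [mul_apply_eq_comp, mul_apply_eq_comp, h.X_inj, h.X_inj, h.X_inj, h.X_inj,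
    symmDiff_right_comm]

theorem PauliModel.cZZ (h : PauliModel X Z X' Z') (n m : ℕ) :
    Commute (Z n : Op (L2 PS H)) (Z m) := by
  refine ext_inj fun ⟨a, b⟩ x => ?_
  rw [mul_apply_eq_comp, mul_apply_eq_comp, h.Z_inj, h.Z_inj, map_smul, map_smul, h.Z_inj,
    h.Z_inj, smul_smul, smul_smul, mul_comm, symmDiff_right_comm]

theorem PauliModel.cXZ (h : PauliModel X Z X' Z') {n m : ℕ} (hnm : n ≠ m) :
    Commute (X n : Op (L2 PS H)) (Z m) := by
  refine ext_inj fun ⟨a, b⟩ x => ?_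
  rw [mul_apply_eq_comp, mul_apply_eq_comp, h.Z_inj, h.X_inj, map_smul, h.X_inj, h.Z_inj,
    pa_sgn_ne (Ne.symm hnm)]

/-- The left Pauli string `X^a Z^b`. -/
theorem PauliModel.exists_left (h : PauliModel X Z X' Z') (P : VN H) (a b : Finset ℕ) :
    ∃ (m : ℕ) (l : Op (L2 PS H)), l ∈ tensR X' Z' P ∧
      (∀ n, m ≤ n → Commute (X n : Op (L2 PS H)) l ∧ Commute (Z n : Op (L2 PS H)) l) ∧
      ∀ w, l (inj (∅, ∅) w) = inj (a, b) w := by
  induction a using Finset.induction_on with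
  | empty =>
    induction b using Finset.induction_on with
    | empty => exact ⟨0, 1, one_mem _, fun n _ => ⟨Commute.one_right _, Commute.one_right _⟩,
        fun w => rfl⟩
    | insert k b hk ih =>
      obtain ⟨m, l, h1, h2, h3⟩ := ih
      refine ⟨max m (k + 1), (Z k : Op (L2 PS H)) * l, mul_mem (h.Z_mem P k) h1,
        fun n hn => ?_, fun w => ?_⟩
      · have hm := h2 n ((le_max_left _ _).trans hn)
        have hk' : n ≠ k := by have := (le_max_right _ _).trans hn; omega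
        exact ⟨(h.cXZ hk').mul_right hm.1, (h.cZZ n k).mul_right hm.2⟩
      · rw [mul_apply_eq_comp, h3, h.Z_inj, pb_symmDiff_insert hk, sgn,
          if_neg (Finset.notMem_empty k), one_smul]
  | insert k a hk ih =>
    obtain ⟨m, l, h1, h2, h3⟩ := ih
    refine ⟨max m (k + 1), (X k : Op (L2 PS H)) * l, mul_mem (h.X_mem P k) h1,
      fun n hn => ?_, fun w => ?_⟩
    · have hm := h2 n ((le_max_left _ _).trans hn)
      have hk' : k ≠ n := by have := (le_max_right _ _).trans hn; omega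
      exact ⟨(h.cXX n k).mul_right hm.1, (h.cXZ hk').symm.mul_right hm.2⟩
    · rw [mul_apply_eq_comp, h3, h.X_inj, pb_symmDiff_insert hk]

/-- The right Pauli string: a signed translation in the commutant. -/
theorem PauliModel.exists_right (h : PauliModel X Z X' Z') (P : VN H) (a b : Finset ℕ) :
    ∃ (r : Op (L2 PS H)) (s : Finset ℕ → Finset ℕ → ℂ), r ∈ (tensR X' Z' P).commutant ∧
      (∀ c d, s c d * s c d = 1) ∧
      ∀ c d w, r (inj (c, d) w) = s c d • inj (c ∆ a, d ∆ b) w := by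
  induction a using Finset.induction_on with
  | empty =>
    induction b using Finset.induction_on with
    | empty =>
      refine ⟨1, fun _ _ => 1, one_mem _, fun _ _ => one_mul 1, fun c d w => ?_⟩
      rw [pb_symmDiff_empty, pb_symmDiff_empty, one_smul]
      rfl
    | insert k b hk ih =>
      obtain ⟨r, s, h1, h2, h3⟩ := ih
      refine ⟨(Z' k : Op (L2 PS H)) * r, s,
        mul_mem (mem_comm.2 fun T hT => ((mem_tensR.1 hT).2 k).2.symm) h1, h2, fun c d w => ?_⟩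
      rw [mul_apply_eq_comp, h3, map_smul, h.Z'_inj, symmDiff_assoc, pb_symmDiff_insert hk]
  | insert k a hk ih =>
    obtain ⟨r, s, h1, h2, h3⟩ := ih
    refine ⟨(X' k : Op (L2 PS H)) * r, fun c d => s c d * sgn k (d ∆ b),
      mul_mem (mem_comm.2 fun T hT => ((mem_tensR.1 hT).2 k).1.symm) h1, fun c d => ?_,
      fun c d w => ?_⟩
    · rw [mul_mul_mul_comm, h2, pa_sgn_sq, one_mul]
    · rw [mul_apply_eq_comp, h3, map_smul, h.X'_inj, symmDiff_assoc, pb_symmDiff_insert hk,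
        smul_smul]

theorem pb_norm_sign {c : ℂ} (h : c * c = 1) : ‖c‖ = 1 := by
  have h1 : ‖c‖ * ‖c‖ = 1 := by rw [← norm_mul, h, norm_one]
  nlinarith [norm_nonneg c]

/-- `T_{0,p} = ± T_{p,0}`. -/
theorem PauliModel.norm_ent_swap (h : PauliModel X Z X' Z') {P : VN H} {T : Op (L2 PS H)}
    (hT : T ∈ tensR X' Z' P) (p : PS) (x : H) :
    ‖ent T (∅, ∅) p x‖ = ‖ent T p (∅, ∅) x‖ := by
  obtain ⟨a, b⟩ := p
  obtain ⟨r, s, h1, h2, h3⟩ := h.exists_right P a b
  have e : (prj (∅, ∅) : L2 PS H →L[ℂ] H).comp r = s a b • prj (a, b) := by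
    refine ext_inj fun ⟨c, d⟩ w => ?_
    rw [ContinuousLinearMap.comp_apply, h3, map_smul, ContinuousLinearMap.smul_apply, prj_apply,
      prj_apply]
    by_cases hcd : ((a, b) : PS) = (c, d)
    · obtain ⟨rfl, rfl⟩ := Prod.mk.inj hcd
      rw [symmDiff_self, symmDiff_self, l2_inj_self]
      exact congrArg _ (l2_inj_self _ _)
    · rw [l2_inj_ne hcd, l2_inj_ne, smul_zero, smul_zero]
      intro h0
      obtain ⟨h4, h5⟩ := Prod.mk.inj h0
      exact hcd (by rw [symmDiff_eq_bot.1 h4.symm, symmDiff_eq_bot.1 h5.symm])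
  have e1 : r (T (inj (∅, ∅) x)) (∅, ∅) = s a b • T (inj (∅, ∅) x) (a, b) :=
    congrArg (fun f : L2 PS H →L[ℂ] H => f (T (inj (∅, ∅) x))) e
  have e2 : r (T (inj (∅, ∅) x)) = s ∅ ∅ • T (inj (a, b) x) := by
    rw [← mul_apply_eq_comp, ← (mem_comm.1 h1 T hT).eq, mul_apply_eq_comp, h3, map_smul,
      pb_empty_symmDiff, pb_empty_symmDiff]
  have e3 : s ∅ ∅ • T (inj (a, b) x) (∅, ∅) = s a b • T (inj (∅, ∅) x) (a, b) := by
    rw [← e1, e2]
    rfl
  have e4 := congrArg norm e3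
  rwa [norm_smul, norm_smul, pb_norm_sign (h2 _ _), pb_norm_sign (h2 _ _), one_mul, one_mul] at e4

/-- Every `inj p (x ξ)` is `± (dg x) X^a Z^b (inj (∅, ∅) ξ)`; finite sums are dense
(`hasSum_inj`). The finite products commute with the qubits beyond their support. -/
theorem PauliModel.qubits (h : PauliModel X Z X' Z') {M : VN H} {ξ : H} (hc : Cyc M ξ) :
    Cyc (tensR X' Z' M) (inj (∅, ∅) ξ) ∧ Qubits (tensR X' Z' M) (inj (∅, ∅) ξ) X Z := by
  let S : AddSubmonoid (L2 PS H) :=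
    { carrier := {v | ∃ m : ℕ, ∃ x ∈ tensR X' Z' M,
        (∀ n, m ≤ n → Commute (X n : Op (L2 PS H)) x ∧ Commute (Z n : Op (L2 PS H)) x) ∧
          x (inj (∅, ∅) ξ) = v}
      zero_mem' := ⟨0, 0, zero_mem _, fun n _ => ⟨Commute.zero_right _, Commute.zero_right _⟩, rfl⟩
      add_mem' := by
        rintro _ _ ⟨m, x, h1, h2, rfl⟩ ⟨m', x', h1', h2', rfl⟩
        refine ⟨max m m', x + x', add_mem h1 h1', fun n hn => ?_, rfl⟩
        have h3 := h2 n ((le_max_left _ _).trans hn)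
        have h4 := h2' n ((le_max_right _ _).trans hn)
        exact ⟨h3.1.add_right h4.1, h3.2.add_right h4.2⟩ }
  have hS : Dense (S : Set (L2 PS H)) := by
    refine pb_dense S hc ?_
    rintro ⟨a, b⟩ _ ⟨x, hx, rfl⟩
    obtain ⟨m, l, h1, h2, h3⟩ := h.exists_left M a b
    refine ⟨m, l * dg PS x, mul_mem h1 (h.dg_mem hx), fun n hn => ?_, ?_⟩
    · exact ⟨(h2 n hn).1.mul_right (pa_commute_dg (h.X_signed n) x),
        (h2 n hn).2.mul_right (pa_commute_dg (h.Z_signed n) x)⟩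
    · rw [mul_apply_eq_comp, dg_inj, h3]
  refine ⟨hS.mono ?_, h.X_mem M, h.Z_mem M, fun n => ?_, fun n => ?_, fun n => ?_, h.cXX, h.cZZ,
    fun n m hnm => h.cXZ hnm, fun v ε hε => ?_⟩
  · rintro _ ⟨m, x, h1, -, rfl⟩
    exact ⟨x, h1, rfl⟩
  · refine Subtype.ext (ext_inj fun ⟨a, b⟩ x => ?_)
    change (X n : Op (L2 PS H)) ((X n : Op (L2 PS H)) (inj (a, b) x)) = inj (a, b) x
    rw [h.X_inj, h.X_inj, symmDiff_symmDiff_cancel_right]
  · refine Subtype.ext (ext_inj fun ⟨a, b⟩ x => ?_)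
    change (Z n : Op (L2 PS H)) ((Z n : Op (L2 PS H)) (inj (a, b) x)) = inj (a, b) x
    rw [h.Z_inj, map_smul, h.Z_inj, smul_smul, pa_sgn_sq, one_smul,
      symmDiff_symmDiff_cancel_right]
  · refine ext_inj fun ⟨a, b⟩ x => ?_
    rw [ContinuousLinearMap.neg_apply, mul_apply_eq_comp, mul_apply_eq_comp, h.Z_inj, h.X_inj,
      map_smul, h.X_inj, h.Z_inj, pa_sgn_self, neg_smul, neg_neg]
  · obtain ⟨_, ⟨m, x, h1, h2, rfl⟩, h3⟩ := hS.exists_dist_lt v hε
    exact ⟨m, x, h1, h2, by rw [← dist_eq_norm]; exact h3.le⟩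

/-- For each `p` a product `ρ_p` of right Pauli operators maps `inj (∅,∅) x` to `± inj p x` and
`inj p x` to `± inj (∅,∅) x`. The commutant contains `dg y`, `y ∈ M'`, and `ρ_p`. For the trace:
`T_{0,p} = ± T_{p,0}`, and `‖T⋆ ξ̃‖² = ∑ ‖(T_{0,p})⋆ ξ‖² = ∑ ‖T_{0,p} ξ‖²`. -/
theorem PauliModel.trc (h : PauliModel X Z X' Z') {M : VN H} {ξ : H} (hc : Cyc M.commutant ξ)
    (ht : Trc M ξ) : Cyc (tensR X' Z' M).commutant (inj (∅, ∅) ξ) ∧
      Trc (tensR X' Z' M) (inj (∅, ∅) ξ) := by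
  constructor
  · let S : AddSubmonoid (L2 PS H) :=
      { carrier := (fun a : Op (L2 PS H) => a (inj (∅, ∅) ξ)) ''
          ((tensR X' Z' M).commutant : Set (Op (L2 PS H)))
        zero_mem' := ⟨0, zero_mem _, rfl⟩
        add_mem' := by
          rintro _ _ ⟨x, h1, rfl⟩ ⟨x', h1', rfl⟩
          exact ⟨x + x', add_mem h1 h1', rfl⟩ }
    refine pb_dense S hc ?_
    rintro ⟨a, b⟩ _ ⟨y, hy, rfl⟩
    obtain ⟨r, s, h1, h2, h3⟩ := h.exists_right M a b
    have hd : dg PS y ∈ (tensR X' Z' M).commutant := mem_comm.2 fun T hT =>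
      ((mem_cm.1 (mem_tensR.1 hT).1) _ ⟨y, hy, rfl⟩).1.symm
    refine ⟨s ∅ ∅ • (r * dg PS y), smul_mem' _ (mul_mem h1 hd), ?_⟩
    change s ∅ ∅ • r (dg PS y (inj (∅, ∅) ξ)) = _
    rw [dg_inj, h3, smul_smul, h2, one_smul, pb_empty_symmDiff, pb_empty_symmDiff]
  · intro T hT
    have h1 := hasSum_norm_sq_L2 (star T (inj (∅, ∅) ξ))
    have h2 := hasSum_norm_sq_L2 (T (inj (∅, ∅) ξ))
    have e : (fun p => ‖star T (inj (∅, ∅) ξ) p‖ ^ 2) = fun p => ‖T (inj (∅, ∅) ξ) p‖ ^ 2 := by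
      funext p
      rw [← ent_apply, ← ent_apply, ent_star, ht _ (mem_ampVN.1 (mem_tensR.1 hT).1 _ _),
        h.norm_ent_swap hT]
    rw [e] at h1
    exact (pow_left_inj₀ (norm_nonneg _) (norm_nonneg _) two_ne_zero).1 (h1.unique h2)

/-- `separable_L2`, `LinNear.of_amp`. -/
theorem solv_cyc (h : Solv KKQ.{u}) : Solv KKCyc.{u} := by
    intro ε hε
    obtain ⟨γ, hγ, hQ⟩ := h ε hε
    have hc : 0 < cA := lt_of_lt_of_le one_pos one_le_cA
    refine ⟨γ / cA, div_pos hγ hc, ?_⟩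
    intro H _ _ _ _ M N ξ h1 h2 h3 hMN
    obtain ⟨X, Z, X', Z', hP⟩ := exists_pauliModel H
    have : TopologicalSpace.SeparableSpace (L2 PS H) := separable_L2
    have hγ' : 0 ≤ γ / cA := (div_pos hγ hc).le
    have e : cA * (γ / cA) = γ := by field_simp
    have hcl : Close (tensR X' Z' M) (tensR X' Z' N) γ :=
      ⟨e ▸ hP.near hγ' hMN.1, e ▸ hP.near hγ' hMN.2⟩
    have hq := hP.qubits h1
    have ht := hP.trc h2 h3
    exact LinNear.of_amp hε.le (fun x hx => hP.dg_mem hx) (fun T hT => (mem_tensR.1 hT).1)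
      (hQ (L2 PS H) _ _ _ X Z hq.1 ht.1 ht.2 hq.2 hcl)

end

end Crest.Agent.R78
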