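import Crest.Agent.R78.Ind
import Crest.Agent.R78.Stmt
import Crest.Agent.R124.Kaplansky

/-!
# Row 78: reduction to separable Hilbert spaces
-/

open scoped InnerProductSpace Topology ComplexConjugate
open Filter MeasureTheory

set_option linter.unusedSectionVars false

namespace Crest.Agent.R78

open Crest.Agent.R121 (Alg)

noncomputable section

universe u

variable {H : Type*} [NormedAddCommGroup H] [InnerProductSpace ℂ H] [CompleteSpace H]

open TopologicalSpace R124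

open Pointwise in
theorem sep_monoid {S : Set (Op H)} (hS : IsSeparable S) :
    IsSeparable (Submonoid.closure S : Set (Op H)) := by
  have h1 : ∀ n : ℕ, IsSeparable (S ^ n) := fun n => by
    induction n with
    | zero => exact (Set.finite_singleton 1).isSeparable
    | succ n ih =>
      rw [pow_succ, ← Set.image_mul_prod]
      exact (ih.prod hS).image continuous_mul
  refine (IsSeparable.iUnion h1).mono fun x hx => ?_
  induction hx using Submonoid.closure_induction with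
  | mem x hx => exact Set.mem_iUnion.2 ⟨1, by rwa [pow_one]⟩
  | one => exact Set.mem_iUnion.2 ⟨0, rfl⟩
  | mul x y _ _ hx hy =>
    obtain ⟨m, hm⟩ := Set.mem_iUnion.1 hx
    obtain ⟨n, hn⟩ := Set.mem_iUnion.1 hy
    exact Set.mem_iUnion.2 ⟨m + n, by rw [pow_add]; exact Set.mul_mem_mul hm hn⟩

theorem sep_adjoin {S : Set (Op H)} (hS : IsSeparable S) :
    IsSeparable (StarAlgebra.adjoin ℂ S : Set (Op H)) := by
  have h1 : IsSeparable (S ∪ star S) := hS.union (by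
    rw [← Set.image_star]
    exact hS.image continuous_star)
  have h2 := (sep_monoid h1).span (R := ℂ)
  rwa [← StarAlgebra.adjoin_eq_span] at h2

theorem sep_union {S D : ℕ → Set (Op H)} (hS : Monotone S)
    (hD : ∀ n, (StarAlgebra.adjoin ℂ (S n) : Set (Op H)) ⊆ closure (D n)) :
    ((StarAlgebra.adjoin ℂ (⋃ n, S n)).topologicalClosure : Set (Op H)) ⊆ closure (⋃ n, D n) := by
  have e : StarAlgebra.adjoin ℂ (⋃ n, S n) = ⨆ n, StarAlgebra.adjoin ℂ (S n) :=
    StarAlgebra.gc.l_iSup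
  rw [StarSubalgebra.topologicalClosure_coe, e,
    StarSubalgebra.coe_iSup_of_directed (S := fun n => StarAlgebra.adjoin ℂ (S n))
      (StarAlgebra.gc.monotone_l.comp hS).directed_le]
  exact closure_minimal (Set.iUnion_subset fun n =>
    (hD n).trans (closure_mono (Set.subset_iUnion D n))) isClosed_closure

theorem sep_near {γ : ℝ} (hγ : 0 < γ) {E : Set (Op H)} {B : StarSubalgebra ℂ (Op H)}
    (h : ∀ e ∈ E, ∃ y ∈ B, ‖e - y‖ ≤ γ * ‖e‖) {x : Op H} (hx : x ∈ closure E) :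
    ∃ y ∈ B, ‖x - y‖ ≤ 2 * γ * ‖x‖ := by
  rcases eq_or_ne x 0 with rfl | h0
  · exact ⟨0, zero_mem B, by simp⟩
  have h1 : 0 < ‖x‖ := norm_pos_iff.2 h0
  obtain ⟨e, he, h2⟩ := Metric.mem_closure_iff.1 hx (γ * ‖x‖ / (1 + γ)) (by positivity)
  obtain ⟨y, hy, h3⟩ := h e he
  refine ⟨y, hy, ?_⟩
  rw [dist_eq_norm, lt_div_iff₀ (by positivity)] at h2
  have h4 := norm_sub_le_norm_sub_add_norm_sub x e y
  have h5 := mul_le_mul_of_nonneg_left (norm_le_norm_add_norm_sub x e) hγ.le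
  linarith

theorem sep_le {P : VN H} {S : Set (Op H)} (h : ∀ x ∈ S, x ∈ P) :
    ∀ x ∈ (StarAlgebra.adjoin ℂ S).topologicalClosure, x ∈ P :=
  StarSubalgebra.topologicalClosure_minimal (t := P.toStarSubalgebra) (StarAlgebra.adjoin_le h)
    (isClosed_vN P)

/-- Separable closed ⋆-subalgebras that are near each other. Recipe: build increasing countable
sets `S_n ⊆ M`, `T_n ⊆ N`: given countable `S_n`, the closure `A_n` of `StarAlgebra.adjoin ℂ S_n`
is separable; choose a countable dense `D_n ⊆ A_n` and put the partners of `D_n` into `T_{n+1}`,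
and symmetrically. `A` = closure of `adjoin ℂ (⋃ S_n)`; an element of `adjoin ℂ (⋃ S_n)` lies in
some `adjoin ℂ S_n` (directed union). -/
theorem exists_sep_sub {M N : VN H} {γ : ℝ} (hγ : 0 < γ) (h : Close M N γ) (F : Finset (Op H))
    (hF : ∀ x ∈ F, x ∈ M) :
    ∃ A B : StarSubalgebra ℂ (Op H), IsClosed (A : Set (Op H)) ∧ IsClosed (B : Set (Op H)) ∧
      IsSeparable (A : Set (Op H)) ∧ IsSeparable (B : Set (Op H)) ∧ (∀ x ∈ A, x ∈ M) ∧
      (∀ y ∈ B, y ∈ N) ∧ (∀ x ∈ F, x ∈ A) ∧ (∀ x ∈ A, ∃ y ∈ B, ‖x - y‖ ≤ 2 * γ * ‖x‖) ∧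
      ∀ y ∈ B, ∃ x ∈ A, ‖y - x‖ ≤ 2 * γ * ‖y‖ := by
  choose! f hf1 hf2 using h.1
  choose! g hg1 hg2 using h.2
  have hD : ∀ S : Set (Op H), IsSeparable S → ∃ D ⊆ (StarAlgebra.adjoin ℂ S : Set (Op H)),
      D.Countable ∧ (StarAlgebra.adjoin ℂ S : Set (Op H)) ⊆ closure D := fun S hS =>
    (sep_adjoin hS).exists_countable_dense_subset
  choose! D hD1 hD2 hD3 using hD
  let p : ℕ → Set (Op H) × Set (Op H) := fun n => Nat.rec (F, ∅)
    (fun _ q => (q.1 ∪ g '' D q.2, q.2 ∪ f '' D q.1)) n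
  have hp1 : ∀ n, (p (n + 1)).1 = (p n).1 ∪ g '' D (p n).2 := fun _ => rfl
  have hp2 : ∀ n, (p (n + 1)).2 = (p n).2 ∪ f '' D (p n).1 := fun _ => rfl
  have hsub : ∀ {P : VN H} {S : Set (Op H)}, IsSeparable S → (∀ x ∈ S, x ∈ P) →
      ∀ x ∈ D S, x ∈ P := fun hS h x hx =>
    sep_le h x (StarSubalgebra.le_topologicalClosure _ (hD1 _ hS hx))
  have inv : ∀ n, IsSeparable (p n).1 ∧ IsSeparable (p n).2 ∧ (∀ x ∈ (p n).1, x ∈ M) ∧
      ∀ y ∈ (p n).2, y ∈ N := by
    intro n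
    induction n with
    | zero => exact ⟨F.finite_toSet.isSeparable, Set.finite_empty.isSeparable, hF, fun _ h => h.elim⟩
    | succ n ih =>
      obtain ⟨h1, h2, h3, h4⟩ := ih
      rw [hp1, hp2]
      refine ⟨h1.union ((hD2 _ h2).image g).isSeparable,
        h2.union ((hD2 _ h1).image f).isSeparable, ?_, ?_⟩
      · rintro x (hx | ⟨y, hy, rfl⟩)
        exacts [h3 x hx, hg1 y (hsub h2 h4 y hy)]
      · rintro y (hy | ⟨x, hx, rfl⟩)
        exacts [h4 y hy, hf1 x (hsub h1 h3 x hx)]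
  have hm1 : Monotone fun n => (p n).1 := monotone_nat_of_le_succ fun n => Set.subset_union_left
  have hm2 : Monotone fun n => (p n).2 := monotone_nat_of_le_succ fun n => Set.subset_union_left
  have hin : ∀ {S : ℕ → Set (Op H)} {n : ℕ} {x : Op H}, x ∈ S n →
      x ∈ (StarAlgebra.adjoin ℂ (⋃ n, S n)).topologicalClosure := fun hx =>
    StarSubalgebra.le_topologicalClosure _
      (StarAlgebra.subset_adjoin ℂ _ (Set.mem_iUnion.2 ⟨_, hx⟩))
  refine ⟨(StarAlgebra.adjoin ℂ (⋃ n, (p n).1)).topologicalClosure,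
    (StarAlgebra.adjoin ℂ (⋃ n, (p n).2)).topologicalClosure,
    StarSubalgebra.isClosed_topologicalClosure _, StarSubalgebra.isClosed_topologicalClosure _,
    (sep_adjoin (.iUnion fun n => (inv n).1)).closure,
    (sep_adjoin (.iUnion fun n => (inv n).2.1)).closure, sep_le fun x hx => ?_,
    sep_le fun x hx => ?_, fun x hx => hin (S := fun n => (p n).1) (n := 0) hx,
    fun x hx => sep_near hγ (fun e he => ?_) (sep_union hm1 (fun n => hD3 _ (inv n).1) hx),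
    fun x hx => sep_near hγ (fun e he => ?_) (sep_union hm2 (fun n => hD3 _ (inv n).2.1) hx)⟩
  · obtain ⟨n, hn⟩ := Set.mem_iUnion.1 hx
    exact (inv n).2.2.1 x hn
  · obtain ⟨n, hn⟩ := Set.mem_iUnion.1 hx
    exact (inv n).2.2.2 x hn
  · obtain ⟨n, hn⟩ := Set.mem_iUnion.1 he
    exact ⟨f e, hin (S := fun n => (p n).2) (n := n + 1) (Or.inr ⟨e, hn, rfl⟩),
      hf2 e (hsub (inv n).1 (inv n).2.2.1 e hn)⟩
  · obtain ⟨n, hn⟩ := Set.mem_iUnion.1 he
    exact ⟨g e, hin (S := fun n => (p n).1) (n := n + 1) (Or.inr ⟨e, hn, rfl⟩),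
      hg2 e (hsub (inv n).2.1 (inv n).2.2.2 e hn)⟩

/-- Bicommutants of near C⋆-algebras are near: `R124.ad_bound_bicommutant` for the inclusion
`A.subtype`, then `near_of_comm`. -/
theorem near_bicomm {A B : StarSubalgebra ℂ (Op H)} (hA : IsClosed (A : Set (Op H))) {γ : ℝ}
    (hγ : 0 ≤ γ) (h : ∀ x ∈ A, ∃ y ∈ B, ‖x - y‖ ≤ γ * ‖x‖) :
    Near (cm (A : Set (Op H))).commutant (cm (B : Set (Op H))).commutant (33600 * γ) := by
  rw [show 33600 * γ = 2100 * (16 * γ) by ring]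
  refine near_of_comm (by positivity) fun x hx y hy => ?_
  rw [VonNeumannAlgebra.commutant_commutant] at hy
  have h1 := ad_bound_bicommutant A.subtype y (C := 2 * γ * ‖y‖) (by positivity) (fun a => ?_) x
    (mem_comm.2 fun z hz => mem_comm.1 hx z (mem_cm.2 fun a ha =>
      ⟨((mem_commutantOf _).1 hz ⟨a, ha⟩).symm,
        ((mem_commutantOf _).1 hz ⟨star a, star_mem ha⟩).symm⟩))
  · rw [norm_sub_rev]
    linarith
  · obtain ⟨b, hb, h2⟩ := h a a.2
    have h3 := bas_comm_le ((a : Op H) - b) y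
    have h4 := mul_le_mul_of_nonneg_right h2 (norm_nonneg y)
    rw [sub_mul, mul_sub, (mem_cm.1 hy b hb).1.eq, sub_sub_sub_cancel_right, norm_sub_rev] at h3
    change ‖y * (a : Op H) - (a : Op H) * y‖ ≤ 2 * γ * ‖y‖ * ‖(a : Op H)‖
    linarith

/-- A separable subspace containing a finite set and reducing two separable algebras. -/
theorem exists_sep_proj {A B : StarSubalgebra ℂ (Op H)} (hA : IsSeparable (A : Set (Op H)))
    (hB : IsSeparable (B : Set (Op H))) (S : Finset H) :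
    ∃ q : Op H, IsStarProjection q ∧ IsSeparable (Set.range q) ∧ (∀ v ∈ S, q v = v) ∧
      (∀ x ∈ A, Commute x q) ∧ ∀ y ∈ B, Commute y q := by
  let C := StarAlgebra.adjoin ℂ ((A : Set (Op H)) ∪ B)
  let E := (fun p : Op H × H => p.1 p.2) '' ((C : Set (Op H)) ×ˢ (S : Set H))
  let V := (Submodule.span ℂ E).topologicalClosure
  have hE : IsSeparable E :=
    ((sep_adjoin (hA.union hB)).prod S.finite_toSet.isSeparable).image (by fun_prop)
  have hEV : ∀ v ∈ E, v ∈ V := fun v hv =>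
    Submodule.le_topologicalClosure _ (Submodule.subset_span hv)
  have hinv : ∀ x ∈ C, ∀ v ∈ V, x v ∈ V := by
    intro x hx
    have h1 : V ≤ V.comap (x : H →ₗ[ℂ] H) := by
      refine Submodule.topologicalClosure_minimal _ (Submodule.span_le.2 ?_)
        ((Submodule.isClosed_topologicalClosure _).preimage x.continuous)
      rintro _ ⟨⟨c, v⟩, ⟨hc, hv⟩, rfl⟩
      exact hEV _ ⟨(x * c, v), ⟨mul_mem hx hc, hv⟩, rfl⟩
    exact h1
  have hc : ∀ x ∈ C, Commute x V.starProjection := fun x hx =>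
    commute_starProjection V x (hinv x hx) (hinv _ (star_mem hx))
  refine ⟨V.starProjection, isStarProjection_starProjection, (hE.span (R := ℂ)).closure.mono ?_,
    fun v hv => Submodule.starProjection_eq_self_iff.2 (hEV _ ⟨(1, v), ⟨one_mem C, hv⟩, rfl⟩),
    fun x hx => hc x (StarAlgebra.subset_adjoin ℂ _ (Or.inl hx)),
    fun x hx => hc x (StarAlgebra.subset_adjoin ℂ _ (Or.inr hx))⟩
  rintro _ ⟨v, rfl⟩
  exact V.starProjection_apply_mem v

/-- One stage of the approximation. -/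
theorem sep_stage {ε γ : ℝ} (hε : 0 ≤ ε) (hγ : 0 < γ) (h : KKSep.{u} ε (33600 * (2 * γ)))
    {H : Type u} [NormedAddCommGroup H] [InnerProductSpace ℂ H] [CompleteSpace H] {M N : VN H}
    (hc : Close M N γ) (F : Finset (Alg M)) (S : Finset H) :
    ∃ θ : Op H →ₗ[ℂ] Op H, ∀ x ∈ F, θ x ∈ N ∧ ‖θ x‖ ≤ (1 + ε) * ‖x‖ ∧
      ∀ v ∈ S, ∀ w ∈ S, ‖⟪w, (θ x - x) v⟫_ℂ‖ ≤ ε * ‖x‖ * ‖v‖ * ‖w‖ := by
  classical
  obtain ⟨A, B, hA, hB, sA, sB, -, hBN, hFA, nA, nB⟩ := exists_sep_sub hγ hc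
    (F.image Subtype.val) (by
      simp only [Finset.mem_image]
      rintro _ ⟨x, -, rfl⟩
      exact x.2)
  obtain ⟨q, hq, sq, hS, qA, qB⟩ := exists_sep_proj sA sB S
  obtain ⟨L, _, _, _, s, t, C, hL⟩ := exists_cornerData hq
  have := hL sq
  have hqc : ∀ {A : StarSubalgebra ℂ (Op H)}, (∀ x ∈ A, Commute x q) →
      q ∈ (cm (A : Set (Op H))).commutant.commutant := fun hA => by
    rw [VonNeumannAlgebra.commutant_commutant]
    exact mem_cm.2 fun a ha => ⟨hA a ha, hA _ (star_mem ha)⟩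
  have h2 : 0 ≤ 2 * γ := by positivity
  have h3 : 0 ≤ 33600 * (2 * γ) := by positivity
  obtain ⟨θ₀, hθ1, hθ2⟩ := h L _ _ ⟨(near_bicomm hA h2 nA).ind C (hqc qA) (hqc qB) h3,
    (near_bicomm hB h2 nB).ind C (hqc qB) (hqc qA) h3⟩
  obtain ⟨Λ, hΛ⟩ := exists_lift C (hqc qB)
  let P := (cm (A : Set (Op H))).commutant.toStarSubalgebra.toSubalgebra.toSubmodule
  let c₁ : P →ₗ[ℂ] Alg (ind (cm (A : Set (Op H))).commutant s t) :=
    { toFun := fun x => ⟨cmp s t x, cmp_mem_ind C (hqc qA) x.2⟩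
      map_add' := fun x y => Subtype.ext (map_add (cmp s t) _ _)
      map_smul' := fun c x => Subtype.ext (map_smul (cmp s t) _ _) }
  let c₂ : Alg (ind (cm (A : Set (Op H))).commutant s t) →ₗ[ℂ]
      Alg (ind (cm (B : Set (Op H))).commutant s t) :=
    { toFun := fun x => ⟨θ₀ x, hθ1 x⟩
      map_add' := fun x y => Subtype.ext (map_add θ₀ _ _)
      map_smul' := fun c x => Subtype.ext (map_smul θ₀ _ _) }
  obtain ⟨θ, hθ⟩ := (Λ ∘ₗ c₂ ∘ₗ c₁).exists_extend
  refine ⟨θ, fun x hx => ?_⟩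
  have hxP : (x : Op H) ∈ P := mem_comm.2 fun z hz =>
    (mem_cm.1 hz x (hFA _ (Finset.mem_image_of_mem _ hx))).1.symm
  have e : θ x = Λ (c₂ (c₁ ⟨x, hxP⟩)) := LinearMap.congr_fun hθ ⟨x, hxP⟩
  obtain ⟨a1, a2, a3⟩ := hΛ (c₂ (c₁ ⟨x, hxP⟩))
  rw [← e] at a1 a2 a3
  have a4 : ‖cmp s t (x : Op H)‖ ≤ ‖x‖ := C.norm_cmp _
  have a5 : ‖(c₂ (c₁ ⟨x, hxP⟩) : Op L) - cmp s t (x : Op H)‖ ≤ ε * ‖x‖ :=
    (hθ2 (c₁ ⟨x, hxP⟩)).trans (mul_le_mul_of_nonneg_left a4 hε)
  refine ⟨bas_mem fun z hz => mem_comm.1 a1 z (mem_cm.2 fun b hb =>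
    ⟨mem_comm.1 hz b (hBN b hb), mem_comm.1 hz _ (star_mem (hBN b hb))⟩), a3.trans ?_,
    fun v hv w hw => ?_⟩
  · have a6 := norm_le_norm_add_norm_sub' (c₂ (c₁ ⟨x, hxP⟩) : Op L) (cmp s t (x : Op H))
    change ‖(c₂ (c₁ ⟨x, hxP⟩) : Op L)‖ ≤ _
    linarith
  · rw [← a2, ← map_sub] at a5
    have a6 : ⟪w, (θ x - x) v⟫_ℂ = ⟪t w, cmp s t (θ x - x) (t v)⟫_ℂ := by
      rw [cmp_apply, ← C.adj, C.st, C.st, hS v hv, hS w hw]
    rw [a6, mul_comm _ ‖w‖]
    refine (norm_inner_le_norm _ _).trans (mul_le_mul (C.norm_t w)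
      ((ContinuousLinearMap.le_opNorm _ _).trans (mul_le_mul a5 (C.norm_t v) (norm_nonneg _) ?_))
      (norm_nonneg _) (norm_nonneg _))
    positivity

/-- Recipe: for `i = (F, S)` (finite sets in `Alg M` and `H`) take `A`, `B`, `q`, corner data,
`M₁ = A''`, `N₁ = B'' ⊆ N`, the induced algebras (`Near.ind`), `θ₀` from `KKSep` and the lift `Λ`
(`exists_lift`); `θ_i x = Λ (θ₀ (cmp x))` for `x ∈ M₁`, `0` otherwise; `‖θ_i x‖ ≤ (1+ε) ‖x‖`,
and `|⟪w, (θ_i x - x) v⟫| ≤ ε ‖x‖ ‖v‖ ‖w‖` for `v, w ∈ S`, `x ∈ F`. Take the weak limit along an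
ultrafilter `≤ atTop`; it is linear because `θ_i` is eventually additive on given elements. -/
theorem solv_all (h : Solv KKSep.{u}) : Solv KKAll.{u} := by
  classical
  intro ε hε
  obtain ⟨γ, hγ, h⟩ := h ε hε
  refine ⟨γ / 67200, by positivity, fun H _ _ _ M N hc => ?_⟩
  choose θ hθ using fun i : Finset (Alg M) × Finset H => sep_stage hε.le (by positivity)
    (by rwa [show 33600 * (2 * (γ / 67200)) = γ by ring]) hc i.1 i.2
  let U : Ultrafilter (Finset (Alg M) × Finset H) := Ultrafilter.of atTop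
  have hev : ∀ (x : Alg M) (v w : H), ∀ᶠ i in (U : Filter (Finset (Alg M) × Finset H)),
      x ∈ i.1 ∧ v ∈ i.2 ∧ w ∈ i.2 := fun x v w =>
    Ultrafilter.of_le atTop ((eventually_ge_atTop ({x}, {v, w})).mono fun i hi =>
      ⟨hi.1 (by simp), hi.2 (by simp), hi.2 (by simp)⟩)
  choose Q hQ using fun x : Alg M => exists_wlim U (T := fun i => θ i x)
    ((hev x 0 0).mono fun i hi => (hθ i x hi.1).2.1)
  refine ⟨⟨⟨Q, fun x y => (hQ _).unique ?_⟩, fun c x => (hQ _).unique ?_⟩,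
    fun x => (hQ x).mem ((hev x 0 0).mono fun i hi => (hθ i x hi.1).1), fun x => ?_⟩
  · exact ((hQ x).add (hQ y)).congr (.of_forall fun i => (map_add (θ i) _ _).symm)
  · exact ((hQ x).smul c).congr (.of_forall fun i => (map_smul (θ i) _ _).symm)
  · refine ContinuousLinearMap.opNorm_le_of_re_inner_le (by positivity) fun v w hv hw => ?_
    refine (RCLike.re_le_norm _).trans ?_
    rw [norm_inner_symm]
    have h1 := le_of_tendsto (((hQ x).sub (wlim_const _ (x : Op H))) v w).norm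
      ((hev x v w).mono fun i hi => (hθ i x hi.1).2.2 v hi.2.1 w hi.2.2)
    rwa [hv, hw, mul_one, mul_one] at h1

end

end Crest.Agent.R78
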