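import Crest.Agent.R78.RT
import Crest.Agent.R78.Proj
import Crest.Agent.R78.Stmt

/-!
# Row 78: from isomorphisms to unitaries
-/

open scoped InnerProductSpace Topology ComplexConjugate
open Filter MeasureTheory

set_option linter.unusedSectionVars false

namespace Crest.Agent.R78

open Crest.Agent.R121 (Alg)

noncomputable section

universe u

variable {H : Type*} [NormedAddCommGroup H] [InnerProductSpace ℂ H] [CompleteSpace H]

/-- The triangular representation. -/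
def sim_mat {M : VN H} (φ : Alg M →ₐ[ℂ] Op H) (c : ℂ) :
    Alg M →ₐ[ℂ] Matrix (Fin 2) (Fin 2) (Op H) :=
  AlgHom.ofLinearMap
    { toFun := fun x => !![φ x, c • (φ x - x); 0, (x : Op H)]
      map_add' := fun x y => by
        ext1 i j
        fin_cases i <;> fin_cases j <;> simp [smul_sub]
        abel
      map_smul' := fun a x => by
        ext1 i j
        fin_cases i <;> fin_cases j <;> simp [smul_sub, smul_smul, mul_comm] }
    (by
      ext1 i j
      fin_cases i <;> fin_cases j <;> simp)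
    (fun x y => by
      ext1 i j
      fin_cases i <;> fin_cases j <;>
        simp [Matrix.mul_apply, Fin.sum_univ_two, smul_sub, mul_sub, sub_mul])

theorem sim_pos {A : Type*} [CStarAlgebra A] {σ : A →ₐ[ℂ] Op H} {R : (Op H)ˣ}
    (hR : R124.IsSim σ R) (hR1 : ‖(R : Op H)‖ ≤ 1) :
    ∃ P : Op H, (∀ a, σ a * P = P * star (σ (star a))) ∧ ‖P‖ ≤ ‖(↑R⁻¹ : Op H)‖ ^ 2 ∧
      ∀ v, ‖v‖ ^ 2 ≤ ‖⟪P v, v⟫_ℂ‖ := by
  have h1 : star (↑R⁻¹ : Op H) * star (R : Op H) = 1 := by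
    rw [← star_mul, Units.mul_inv, star_one]
  have h2 : star (R : Op H) * star (↑R⁻¹ : Op H) = 1 := by
    rw [← star_mul, Units.inv_mul, star_one]
  refine ⟨(↑R⁻¹ : Op H) * star (↑R⁻¹ : Op H), fun a => ?_, ?_, fun v => ?_⟩
  · have := congrArg (fun T => (↑R⁻¹ : Op H) * T * star (↑R⁻¹ : Op H)) (hR (star a))
    simp only [star_star, star_mul, mul_assoc, h2, mul_one, Units.inv_mul_cancel_left] at this
    simp only [mul_assoc]
    exact this.symm
  · refine (norm_mul_le _ _).trans_eq ?_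
    rw [norm_star, sq]
  · have e : ⟪((↑R⁻¹ : Op H) * star (↑R⁻¹ : Op H)) v, v⟫_ℂ =
        ⟪star (↑R⁻¹ : Op H) v, star (↑R⁻¹ : Op H) v⟫_ℂ := (bas_inner_star (↑R⁻¹ : Op H) (star (↑R⁻¹ : Op H) v) v).symm
    have e2 : star (R : Op H) (star (↑R⁻¹ : Op H) v) = v := by
      rw [← mul_apply_eq_comp, h2, one_apply_eq_self]
    have h3 : ‖v‖ ≤ ‖star (↑R⁻¹ : Op H) v‖ := by
      conv_lhs => rw [← e2]
      refine ((star (R : Op H)).le_opNorm _).trans ?_
      rw [norm_star]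
      exact mul_le_of_le_one_left (norm_nonneg _) hR1
    rw [e, inner_self_eq_norm_sq_to_K, norm_pow, RCLike.norm_ofReal, abs_norm]
    exact pow_le_pow_left₀ (norm_nonneg _) h3 2

theorem sim_inv {A : Op H} (h : ∀ v, ‖v‖ ^ 2 ≤ ‖⟪A v, v⟫_ℂ‖) :
    ∃ W : Op H, A * W = 1 ∧ W * A = 1 ∧ ‖W‖ ≤ 1 := by
  obtain ⟨U, rfl⟩ := ContinuousLinearMap.isUnit_of_forall_le_norm_inner_map A (c := 1) one_pos
    fun v => by simpa using h v
  refine ⟨↑U⁻¹, U.mul_inv, U.inv_mul, ContinuousLinearMap.opNorm_le_bound _ zero_le_one fun v => ?_⟩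
  have h1 := h ((↑U⁻¹ : Op H) v)
  have e : (U : Op H) ((↑U⁻¹ : Op H) v) = v := by
    rw [← mul_apply_eq_comp, U.mul_inv, one_apply_eq_self]
  rw [e] at h1
  have h2 := h1.trans (norm_inner_le_norm _ _)
  rw [one_mul]
  rcases (norm_nonneg ((↑U⁻¹ : Op H) v)).eq_or_lt with h3 | h3
  · rw [← h3]
    exact norm_nonneg _
  · rw [sq] at h2
    exact le_of_mul_le_mul_right h2 h3

theorem sim_sqrt {M : VN H} {η₀ : Op H →L[ℂ] Op H} (hn : ‖η₀‖ ≤ 1 / 8)
    (h : ∀ x ∈ M, η₀ (η₀ x) + (η₀ x + η₀ x) ∈ M) {x : Op H} (hx : x ∈ M) : η₀ x ∈ M := by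
  have key : ∀ n : ℕ, ∃ η : Op H →L[ℂ] Op H, (∀ z ∈ M, η z ∈ M) ∧
      ‖η₀ - η‖ ≤ 1 / 8 * (1 / 2) ^ n := by
    intro n
    induction n with
    | zero => exact ⟨0, fun z _ => zero_mem _, by simpa using hn⟩
    | succ n ih =>
      obtain ⟨η, h1, h2⟩ := ih
      refine ⟨(2 : ℂ)⁻¹ • (η₀ * η₀ + (η₀ + η₀) - η * η), fun z hz => ?_, ?_⟩
      · exact smul_mem' _ (sub_mem (h z hz) (h1 _ (h1 z hz)))
      · have e : η₀ - (2 : ℂ)⁻¹ • (η₀ * η₀ + (η₀ + η₀) - η * η) =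
            -((2 : ℂ)⁻¹ • (η₀ * (η₀ - η) + (η₀ - η) * η)) := by
          have e1 : η₀ * η₀ + (η₀ + η₀) - η * η =
              (2 : ℂ) • η₀ + (η₀ * (η₀ - η) + (η₀ - η) * η) := by
            rw [two_smul ℂ η₀, mul_sub, sub_mul]
            abel
          rw [e1, smul_add, smul_smul, inv_mul_cancel₀ two_ne_zero, one_smul]
          abel
        have h3 : (1 / 2 : ℝ) ^ n ≤ 1 := pow_le_one₀ (by norm_num) (by norm_num)
        have h4 : ‖η‖ ≤ 1 / 4 := by
          have h5 : ‖η‖ ≤ ‖η₀‖ + ‖η₀ - η‖ := by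
            simpa using norm_sub_le η₀ (η₀ - η)
          linarith
        have h5 : ‖η₀ * (η₀ - η)‖ ≤ 1 / 8 * ‖η₀ - η‖ :=
          (norm_mul_le _ _).trans (mul_le_mul_of_nonneg_right hn (norm_nonneg _))
        have h6 : ‖(η₀ - η) * η‖ ≤ ‖η₀ - η‖ * (1 / 4) :=
          (norm_mul_le _ _).trans (mul_le_mul_of_nonneg_left h4 (norm_nonneg _))
        have h7 := norm_add_le (η₀ * (η₀ - η)) ((η₀ - η) * η)
        have h8 := norm_nonneg (η₀ - η)
        rw [e, norm_neg, norm_smul, norm_inv, Complex.norm_two, pow_succ]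
        linarith
  refine mem_of_forall_near fun ε hε => ?_
  obtain ⟨n, hn'⟩ := exists_pow_lt_of_lt_one (x := ε / (‖x‖ + 1)) (y := (1 / 2 : ℝ))
    (by positivity) (by norm_num)
  obtain ⟨η, h1, h2⟩ := key n
  refine ⟨η x, h1 x hx, ((η₀ - η).le_opNorm x).trans ?_⟩
  rw [lt_div_iff₀ (by positivity)] at hn'
  have h3 : (0 : ℝ) ≤ (1 / 2) ^ n := by positivity
  have h4 := norm_nonneg x
  have h5 := mul_le_mul_of_nonneg_right h2 h4
  nlinarith

theorem sim_near {M N : VN H} {δ : ℝ}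
    (h : ∀ x ∈ M, ‖x‖ ≤ 1 → ∃ y ∈ N, ‖y‖ ≤ 1 ∧ ‖x - y‖ < δ) : Near M N δ := by
  intro x hx
  rcases eq_or_ne x 0 with rfl | h0
  · exact ⟨0, zero_mem _, by simp⟩
  have hp : 0 < ‖x‖ := norm_pos_iff.2 h0
  obtain ⟨y, hy, -, h2⟩ := h (‖x‖⁻¹ • x) (rsmul_mem _ hx) (by
    rw [norm_smul, norm_inv, norm_norm, inv_mul_cancel₀ hp.ne'])
  refine ⟨‖x‖ • y, rsmul_mem _ hy, ?_⟩
  have e : x - ‖x‖ • y = ‖x‖ • (‖x‖⁻¹ • x - y) := by
    rw [smul_sub, smul_smul, mul_inv_cancel₀ hp.ne', one_smul]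
  rw [e, norm_smul, norm_norm, mul_comm]
  exact mul_le_mul_of_nonneg_right h2.le hp.le

/-- A homomorphism near the inclusion is spatial. Recipe: on `R124.Amp (Fin 2) H` the map
`Θ x = [[φ x, (φ x - x)/ε], [0, x]]` is a unital homomorphism with `‖Θ x‖ ≤ 4 ‖x‖`.
`R124.kadison_similarity` and `R124.exists_sim_bound` give `R` with `‖R‖ ≤ 1`,
`‖R⁻¹‖ ≤ K = 2 exp(160000)` and `ρ = R Θ R⁻¹` a ⋆-homomorphism (`R124.kirHom`). `E = H ⊕ 0` is
`Θ`-invariant, so `R E` (closed: it is the kernel of `prj 1 ∘ R⁻¹`) reduces `ρ`; with `p` the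
orthogonal projection onto `R E`, `e = R⁻¹ p R` commutes with `Θ`, fixes `E`, has range in `E`:
`e = [[1, T'], [0, 0]]`, and the `(0,1)` entry of `e Θ = Θ e` reads
`(φ x - x)/ε + T' x = φ x T'`. Take `T = ε T'`. -/
theorem exists_similarity : ∃ K > 0, ∀ {H : Type u} [NormedAddCommGroup H]
    [InnerProductSpace ℂ H] [CompleteSpace H] {M : VN H} (φ : Alg M →ₐ[ℂ] Op H) {ε : ℝ},
    0 < ε → ε ≤ 1 → (∀ x, ‖φ x - x‖ ≤ ε * ‖x‖) →
    ∃ T : Op H, ‖T‖ ≤ K * ε ∧ ∀ x, φ x * (1 - T) = (1 - T) * x := by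
  refine ⟨(2 * Real.exp (40000 * 4)) ^ 2, by positivity, ?_⟩
  intro H _ _ _ M φ ε hε0 hε1 hφ
  have hεc : (ε : ℂ) ≠ 0 := Complex.ofReal_ne_zero.2 hε0.ne'
  let Θ := (R124.matHom (Fin 2) H).toAlgHom.comp (sim_mat φ (ε : ℂ)⁻¹)
  have hΘ : ∀ x, Θ x = R124.rect !![φ x, (ε : ℂ)⁻¹ • (φ x - x); 0, (x : Op H)] := fun x => rfl
  have hΘn : ∀ x, ‖Θ x‖ ≤ 4 * ‖x‖ := by
    intro x
    rw [hΘ]
    refine (R124.ab_norm_rect_le _).trans ?_
    have h1 : ‖φ x‖ ≤ 2 * ‖x‖ := by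
      have h2 : ‖φ x‖ ≤ ‖φ x - x‖ + ‖(x : Op H)‖ := by
        simpa using norm_add_le (φ x - x) (x : Op H)
      have h3 : ‖(x : Op H)‖ = ‖x‖ := rfl
      have h4 := hφ x
      have h5 : ε * ‖x‖ ≤ ‖x‖ := mul_le_of_le_one_left (norm_nonneg _) hε1
      linarith
    have h2 : ‖(ε : ℂ)⁻¹ • (φ x - x)‖ ≤ ‖x‖ := by
      rw [norm_smul, norm_inv, Complex.norm_real, Real.norm_of_nonneg hε0.le,
        inv_mul_le_iff₀ hε0]
      exact hφ x
    have h3 : ‖(x : Op H)‖ = ‖x‖ := rfl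
    simp only [Fin.sum_univ_two, Matrix.of_apply, Matrix.cons_val', Matrix.cons_val_zero,
      Matrix.cons_val_one, Matrix.cons_val_fin_one, norm_zero]
    linarith
  obtain ⟨R, hR, hR1, hR2⟩ := R124.exists_sim_bound Θ (by norm_num) hΘn
    (R124.kadison_similarity Θ ⟨4, hΘn⟩)
  obtain ⟨P, hP1, hP2, hP3⟩ := sim_pos hR hR1
  have hPn : ‖P‖ ≤ (2 * Real.exp (40000 * 4)) ^ 2 :=
    hP2.trans (pow_le_pow_left₀ (norm_nonneg _) hR2 2)
  have e01 : ∀ x : Alg M, φ x * R124.entry P 0 1 + ((ε : ℂ)⁻¹ • (φ x - x)) * R124.entry P 1 1 =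
      R124.entry P 0 1 * x := by
    intro x
    have := congrArg (fun T => R124.entry T 0 1) (hP1 x)
    simp only [R124.entry_mul, Matrix.mul_apply, Fin.sum_univ_two, R124.entry_star, hΘ,
      R124.entry_rect, Matrix.of_apply, Matrix.cons_val', Matrix.cons_val_zero,
      Matrix.cons_val_one, Matrix.cons_val_fin_one, star_zero, mul_zero, zero_add] at this
    rw [this]
    congr 1
    exact star_star (x : Op H)
  have e11 : ∀ x : Alg M, (x : Op H) * R124.entry P 1 1 = R124.entry P 1 1 * x := by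
    intro x
    have := congrArg (fun T => R124.entry T 1 1) (hP1 x)
    simp only [R124.entry_mul, Matrix.mul_apply, Fin.sum_univ_two, R124.entry_star, hΘ,
      R124.entry_rect, Matrix.of_apply, Matrix.cons_val', Matrix.cons_val_zero,
      Matrix.cons_val_one, Matrix.cons_val_fin_one, star_zero, mul_zero, zero_mul, zero_add] at this
    rw [this]
    congr 1
    exact star_star (x : Op H)
  obtain ⟨W, hW1, hW2, hW3⟩ := sim_inv (A := R124.entry P 1 1) (fun v => by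
    have h1 := hP3 (R124.inj 1 v)
    rwa [R124.norm_inj_apply, R124.inner_inj_right] at h1)
  refine ⟨-((ε : ℂ) • (R124.entry P 0 1 * W)), ?_, fun x => ?_⟩
  · rw [norm_neg, norm_smul, Complex.norm_real, Real.norm_of_nonneg hε0.le, mul_comm]
    refine mul_le_mul_of_nonneg_right ?_ hε0.le
    refine (norm_mul_le _ _).trans ?_
    exact (mul_le_of_le_one_right (norm_nonneg _) hW3).trans ((R124.norm_entry_le _ _ _).trans hPn)
  · have f1 : W * x = x * W := by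
      calc W * x = W * (x * R124.entry P 1 1) * W := by
            rw [mul_assoc W, mul_assoc (x : Op H), hW1, mul_one]
        _ = x * W := by rw [e11, ← mul_assoc W, hW2, one_mul]
    have f2 := congrArg (fun T => (ε : ℂ) • (T * W)) (e01 x)
    simp only [add_mul, mul_assoc, hW1, mul_one, smul_add, smul_smul, mul_inv_cancel₀ hεc,
      one_smul, ← f1] at f2
    rw [sub_neg_eq_add, mul_add, add_mul, mul_one, one_mul, mul_smul_comm, smul_mul_assoc,
      mul_assoc, ← f2]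
    abel

/-- Square roots of automorphisms near the identity preserve invariant subspaces. Recipe: in the
Banach algebra `𝓛 = Op H →L[ℂ] Op H` let `α = Ad Q`, `β = Ad R` (`R² = Q`, `β² = α`,
`‖β - 1‖ ≤ 1/8`). The closed set `{η : ‖η‖ ≤ 1/3, η M ⊆ M, η β = β η}` is mapped into itself
by the contraction `η ↦ (α - 1 - η²)/2`; the fixed point gives `γ = 1 + η` with `γ² = α = β²`,
`γ β = β γ`, and `γ + β` is invertible, so `γ = β`. -/
theorem conj_sqrt_mem {M : VN H} {R R' : Op H} (h₁ : R * R' = 1) (h₂ : R' * R = 1)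
    (hR : ‖R - 1‖ ≤ 1 / 20) (hR' : ‖R' - 1‖ ≤ 1 / 20)
    (h : ∀ x ∈ M, R * R * x * (R' * R') ∈ M) {x : Op H} (hx : x ∈ M) : R * x * R' ∈ M := by
  have hb : ‖R'‖ ≤ 21 / 20 := by
    have h3 : ‖R'‖ ≤ ‖R' - 1‖ + ‖(1 : Op H)‖ := by
      simpa using norm_add_le (R' - 1) (1 : Op H)
    have h4 : ‖(1 : Op H)‖ ≤ 1 := pj_norm_one
    linarith
  have key := sim_sqrt (M := M)
    (η₀ := ContinuousLinearMap.mulLeftRight ℂ (Op H) R R' - ContinuousLinearMap.id ℂ (Op H))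
    (ContinuousLinearMap.opNorm_le_bound _ (by norm_num) fun z => ?_) (fun z hz => ?_) hx
  · have : R * x * R' = (R * x * R' - x) + x := by abel
    rw [this]
    exact add_mem key hx
  · have e : (ContinuousLinearMap.mulLeftRight ℂ (Op H) R R' - ContinuousLinearMap.id ℂ (Op H)) z
        = (R - 1) * z * R' + z * (R' - 1) := by
      show R * z * R' - z = _
      noncomm_ring
    rw [e]
    have h3 : ‖(R - 1) * z * R'‖ ≤ 1 / 20 * ‖z‖ * (21 / 20) := by
      refine (norm_mul_le _ _).trans ?_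
      gcongr
      exact (norm_mul_le _ _).trans (by gcongr)
    have h4 : ‖z * (R' - 1)‖ ≤ ‖z‖ * (1 / 20) := (norm_mul_le _ _).trans (by gcongr)
    have h5 := norm_add_le ((R - 1) * z * R') (z * (R' - 1))
    have h6 := norm_nonneg z
    linarith
  · show R * (R * z * R' - z) * R' - (R * z * R' - z) + ((R * z * R' - z) + (R * z * R' - z)) ∈ M
    have e : R * (R * z * R' - z) * R' - (R * z * R' - z) + ((R * z * R' - z) + (R * z * R' - z))
        = R * R * z * (R' * R') - z := by noncomm_ring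
    rw [e]
    exact sub_mem (h z hz) hz

/-- If `N = S M S⁻¹` with `S` near `1`, then `N = u M u⋆` for the polar part `u` of `S`. Recipe:
`Q = S⋆ S`; taking adjoints shows `Q M Q⁻¹ ⊆ M` and `Q⁻¹ M Q ⊆ M`; `R = Q^{1/2}`;
`conj_sqrt_mem` (twice); `u = S R⁻¹`. -/
theorem unitary_of_similarity {M N : VN H} {T : Op H} {δ : ℝ} (hδ : δ ≤ 1 / 100) (hT : ‖T‖ ≤ δ)
    (h₁ : ∀ x ∈ M, ∃ y ∈ N, y * (1 - T) = (1 - T) * x)
    (h₂ : ∀ y ∈ N, ∃ x ∈ M, y * (1 - T) = (1 - T) * x) :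
    ∃ u : Op H, u ∈ unitary (Op H) ∧ ‖u - 1‖ ≤ 5 * δ ∧
      ∀ y : Op H, y ∈ N ↔ ∃ x ∈ M, y = u * x * star u := by
  have hδ0 : 0 ≤ δ := (norm_nonneg _).trans hT
  obtain ⟨S, hS⟩ : ∃ S, S = 1 - T := ⟨_, rfl⟩
  rw [← hS] at h₁ h₂
  have hS1 : ‖S - 1‖ ≤ δ := by
    rw [hS, sub_sub_cancel_left, norm_neg]
    exact hT
  obtain ⟨r, hr, hu, hn, hc⟩ := pj_polar (x := S) (δ := 3 * δ) (by linarith)
    (pj_near_unit (one_mem _) (by linarith) hS1) (pj_near_unit' (one_mem _) (by linarith) hS1)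
  have hr' : star r = r := hr.star_eq
  have c0 : star S * S * r = r * (star S * S) := (hc _ (Commute.refl _)).eq
  have c1 : ∀ z, star S * (S * (r * z)) = r * (star S * (S * z)) := fun z => by
    simp only [← mul_assoc]
    rw [c0, ← mul_assoc]
  have u1 : r * (star S * (S * r)) = 1 := by
    have := hu.1
    simpa only [star_mul, hr', mul_assoc] using this
  have u2 : S * (r * (r * star S)) = 1 := by
    have := hu.2
    simpa only [star_mul, hr', mul_assoc] using this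
  have u1' : ∀ z, r * (star S * (S * (r * z))) = z := fun z => by
    have := congrArg (· * z) u1
    simpa only [mul_assoc, one_mul] using this
  have u2' : ∀ z, S * (r * (r * (star S * z))) = z := fun z => by
    have := congrArg (· * z) u2
    simpa only [mul_assoc, one_mul] using this
  have u3' : ∀ z, r * (r * (star S * (S * z))) = z := fun z => by rw [← c1, u1']
  have u3 : r * (r * (star S * S)) = 1 := by simpa only [mul_one] using u3' 1
  have u4' : ∀ z, star S * (S * (r * (r * z))) = z := fun z => by rw [c1, u1']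
  have u4 : star S * (S * (r * r)) = 1 := by simpa only [mul_one] using u4' 1
  have A : ∀ x ∈ M, S * (x * (r * (r * star S))) ∈ N := by
    intro x hx
    obtain ⟨y, hy, e⟩ := h₁ x hx
    rw [← mul_assoc, ← e, mul_assoc, u2, mul_one]
    exact hy
  have B : ∀ y ∈ N, r * (r * (star S * (y * S))) ∈ M := by
    intro y hy
    obtain ⟨x, hx, e⟩ := h₂ y hy
    rw [e, u3']
    exact hx
  have A' : ∀ x ∈ M, S * (r * (r * (x * star S))) ∈ N := by
    intro x hx
    have := star_mem (A _ (star_mem hx))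
    simpa only [star_mul, star_star, hr', mul_assoc] using this
  have B' : ∀ y ∈ N, star S * (y * (S * (r * r))) ∈ M := by
    intro y hy
    have := star_mem (B _ (star_mem hy))
    simpa only [star_mul, star_star, hr', mul_assoc] using this
  have n1 : ‖r - 1‖ ≤ 1 / 20 := by
    have e : r - 1 = (S * r - S) - (S - 1) * (r - 1) := by noncomm_ring
    have h3 : ‖r - 1‖ ≤ ‖S * r - S‖ + ‖(S - 1) * (r - 1)‖ := by
      conv_lhs => rw [e]
      exact norm_sub_le _ _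
    have h4 : ‖(S - 1) * (r - 1)‖ ≤ 1 / 100 * ‖r - 1‖ :=
      (norm_mul_le _ _).trans (mul_le_mul_of_nonneg_right (hS1.trans hδ) (norm_nonneg _))
    linarith
  have n2 : ‖r * (star S * S) - 1‖ ≤ 1 / 20 := by
    have e : r * (star S * S) - 1 = -(star (S * r) * (S * r - S)) := by
      rw [mul_sub, hu.1, star_mul, hr', neg_sub, mul_assoc]
    rw [e, norm_neg]
    refine (norm_mul_le _ _).trans ?_
    have h3 : ‖star (S * r)‖ ≤ 1 := by
      rw [norm_star]
      exact pj_norm_unitary hu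
    exact (mul_le_of_le_one_left (norm_nonneg _) h3).trans (by linarith)
  have v1 : r * (r * (star S * S)) = 1 := u3
  have v2 : r * (star S * S) * r = 1 := by simpa only [mul_assoc] using u1
  have C : ∀ x ∈ M, r * x * (r * (star S * S)) ∈ M := by
    intro x hx
    refine conj_sqrt_mem v1 v2 n1 n2 (fun z hz => ?_) hx
    have := B _ (A' z hz)
    simp only [mul_assoc, u1'] at this ⊢
    exact this
  have D : ∀ x ∈ M, r * (star S * S) * x * r ∈ M := by
    intro x hx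
    refine conj_sqrt_mem v2 v1 n2 n1 (fun z hz => ?_) hx
    have := B' _ (A z hz)
    simp only [mul_assoc, u1', u4, mul_one] at this ⊢
    exact this
  refine ⟨S * r, hu, ?_, fun y => ⟨fun hy => ⟨star (S * r) * y * (S * r), ?_, ?_⟩, ?_⟩⟩
  · have e : S * r - 1 = (S * r - S) + (S - 1) := by abel
    rw [e]
    exact (norm_add_le _ _).trans (by linarith)
  · have := D _ (B y hy)
    simp only [star_mul, hr', mul_assoc, u4'] at this ⊢
    exact this
  · simp only [star_mul, hr', mul_assoc, u2, u2', mul_one]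
  · rintro ⟨x, hx, rfl⟩
    have := A _ (C x hx)
    simp only [star_mul, hr', mul_assoc, u4'] at this ⊢
    exact this

/-- The final reduction (the statement of S0103). -/
theorem kk_of_lin (h : Solv KKAll.{u}) (ε : ℝ) (hε : 0 < ε) :
    ∃ δ : ℝ, 0 < δ ∧
      ∀ (H : Type u) [NormedAddCommGroup H] [InnerProductSpace ℂ H] [CompleteSpace H]
        (M N : VonNeumannAlgebra H),
        (∀ x ∈ M, ‖x‖ ≤ 1 → ∃ y ∈ N, ‖y‖ ≤ 1 ∧ ‖x - y‖ < δ) →
        (∀ y ∈ N, ‖y‖ ≤ 1 → ∃ x ∈ M, ‖x‖ ≤ 1 ∧ ‖y - x‖ < δ) →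
        ∃ u : H →L[ℂ] H, u ∈ unitary (H →L[ℂ] H) ∧ ‖u - 1‖ < ε ∧
          ∀ y : H →L[ℂ] H, y ∈ N ↔ ∃ x ∈ M, y = u * x * star u := by
  obtain ⟨C, hC, ε₀, hε₀, hRT⟩ := raeburn_taylor.{u}
  obtain ⟨K, hK, hS⟩ := exists_similarity.{u}
  obtain ⟨η, hη0, hη1, hη2, hη3⟩ : ∃ η > 0, η ≤ 1 ∧ K * η ≤ 1 / 100 ∧ 5 * (K * η) < ε := by
    refine ⟨min 1 (min (1 / 100) (ε / 10) / K), by positivity, min_le_left _ _, ?_⟩
    have h1 : K * min 1 (min (1 / 100) (ε / 10) / K) ≤ min (1 / 100) (ε / 10) := by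
      refine (mul_le_mul_of_nonneg_left (min_le_right _ _) hK.le).trans_eq ?_
      field_simp
    have h2 := min_le_left (1 / 100 : ℝ) (ε / 10)
    have h3 := min_le_right (1 / 100 : ℝ) (ε / 10)
    constructor <;> linarith
  obtain ⟨θ, hθ0, hθ1, hθ2⟩ : ∃ θ > 0, θ ≤ ε₀ ∧ C * θ ≤ η := by
    refine ⟨min ε₀ (η / C), by positivity, min_le_left _ _, ?_⟩
    refine (mul_le_mul_of_nonneg_left (min_le_right _ _) hC.le).trans_eq ?_
    field_simp
  obtain ⟨γ, hγ, hKK⟩ := h θ hθ0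
  refine ⟨min γ θ, by positivity, fun H _ _ _ M N hMN hNM => ?_⟩
  have hcl : Close M N (min γ θ) := ⟨sim_near hMN, sim_near hNM⟩
  obtain ⟨φ, hφ1, hφ2, hφ3⟩ := hRT hθ0.le hθ1 (hKK H M N (hcl.mono (min_le_left _ _)))
    (hcl.2.mono (min_le_right _ _))
  obtain ⟨T, hT1, hT2⟩ := hS φ hη0 hη1 fun x =>
    (hφ3 x).trans (mul_le_mul_of_nonneg_right hθ2 (norm_nonneg _))
  obtain ⟨v, hv1, hv2, hv3⟩ := unitary_of_similarity (M := M) (N := N) hη2 hT1
    (fun x hx => ⟨φ ⟨x, hx⟩, hφ1 _, hT2 ⟨x, hx⟩⟩)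
    (fun y hy => by
      obtain ⟨x, rfl⟩ := hφ2 y hy
      exact ⟨x, x.2, hT2 x⟩)
  exact ⟨v, hv1, hv2.trans_lt hη3, hv3⟩

end

end Crest.Agent.R78
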