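import Crest.Agent.R78.GP
import Crest.Agent.R78.Cpl

/-!
# Row 78: the narrow estimate, part a (decomposition along the two graphs, resolvents agree)
-/

open scoped InnerProductSpace Topology ComplexConjugate
open Filter MeasureTheory

set_option linter.unusedSectionVars false

namespace Crest.Agent.R78

noncomputable section

universe u

variable {H : Type*} [NormedAddCommGroup H] [InnerProductSpace ℂ H] [CompleteSpace H]

theorem nra_sig_smul (F : FC H) {k : ℝ → ℂ} (hk : Integrable k) (c : ℂ) (x : Op H) :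
    F.sig k (c • x) = c • F.sig k x := by
  ext v
  unfold FC.sig
  rw [smul_apply, oint_apply hk (F.sc_conj _), oint_apply hk (F.sc_conj _), ← integral_smul]
  congr 1
  funext t
  rw [mul_smul_comm, smul_mul_assoc, smul_apply, smul_comm]

/-- the shifted kernel -/
def nraK (σ t : ℝ) : ℂ := (k0 t : ℂ) * Complex.exp (-(Complex.I * t * σ))

/-- its Fourier transform -/
def nraF (σ x : ℝ) : ℂ := ((2 * Real.cosh ((x - σ) / 2))⁻¹ : ℝ)

theorem nra_ker (σ : ℝ) : Ker (nraK σ) (nraF σ) := ker_k0.shift σ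

theorem nra_norm_K (σ t : ℝ) : ‖nraK σ t‖ = k0 t := by
  unfold nraK
  rw [norm_mul, Complex.norm_real, Real.norm_eq_abs, abs_of_pos (k0_pos t), Complex.norm_exp]
  simp

theorem nra_F1 (σ x : ℝ) :
    (Real.exp (-x / 2) : ℂ) * nraF σ x = (Real.exp (-σ / 2) : ℂ) * rs σ x := by
  unfold nraF rs
  rw [← Complex.ofReal_mul, ← Complex.ofReal_mul]
  congr 1
  have h1 : Real.exp (x - σ) = Real.exp ((x - σ) / 2) ^ 2 := by
    rw [← Real.exp_nat_mul]; congr 1; push_cast; ring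
  have h2 : Real.exp (-σ / 2) = Real.exp (-x / 2) * Real.exp ((x - σ) / 2) := by
    rw [← Real.exp_add]; congr 1; ring
  have h3 := Real.exp_pos ((x - σ) / 2)
  rw [Real.cosh_eq, Real.exp_neg, h1, h2]
  field_simp
  ring

theorem nra_F2 (σ x : ℝ) :
    (Real.exp (x / 2) : ℂ) * nraF σ x = (Real.exp (σ / 2) : ℂ) * (1 - rs σ x) := by
  unfold nraF rs
  rw [← Complex.ofReal_mul, ← Complex.ofReal_one, ← Complex.ofReal_sub, ← Complex.ofReal_mul]
  congr 1
  have h1 : Real.exp (x - σ) = Real.exp ((x - σ) / 2) ^ 2 := by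
    rw [← Real.exp_nat_mul]; congr 1; push_cast; ring
  have h2 : Real.exp (x / 2) = Real.exp (σ / 2) * Real.exp ((x - σ) / 2) := by
    rw [← Real.exp_add]; congr 1; ring
  have h3 := Real.exp_pos ((x - σ) / 2)
  rw [Real.cosh_eq, Real.exp_neg, h1, h2]
  field_simp
  ring

theorem nra_exp_mul (σ : ℝ) : (Real.exp (σ / 2) : ℂ) * (Real.exp (-σ / 2) : ℂ) = 1 := by
  rw [← Complex.ofReal_mul, ← Real.exp_add, show σ / 2 + -σ / 2 = 0 by ring, Real.exp_zero,
    Complex.ofReal_one]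

theorem nra_norm_smul (σ : ℝ) (w : H) :
    ‖(Real.exp (σ / 2) : ℂ) • w‖ ^ 2 = Real.exp σ * ‖w‖ ^ 2 := by
  rw [norm_smul, mul_pow, Complex.norm_real, Real.norm_eq_abs, sq_abs, ← Real.exp_nat_mul]
  congr 2
  push_cast
  ring

theorem nra_col (F : FC H) (J : H ≃ₗᵢ⋆[ℂ] H) {ι : Type*} [Fintype ι] (b : ι → Op H)
    (σ w : ι → ℝ) {L : ℝ} (h : ∀ v, ∑ j, Real.exp (w j) * ‖b j v‖ ^ 2 ≤ Real.exp L * ‖v‖ ^ 2) :
    Col (fun j => (Real.exp (w j / 2) : ℂ) • F.sig (nraK (σ j)) (jc J (b j))) (Real.exp (L / 2)) := by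
  have h1 : Col (fun j => (Real.exp (w j / 2) : ℂ) • jc J (b j)) (Real.exp (L / 2)) := by
    intro v
    have e : Real.exp (L / 2) ^ 2 = Real.exp L := by
      rw [← Real.exp_nat_mul]; congr 1; push_cast; ring
    have := h (J v)
    rw [J.norm_map] at this
    simpa only [smul_apply, nra_norm_smul, jc_apply, LinearIsometryEquiv.norm_map, e] using this
  have h2 := F.col_sig (fun j => (nra_ker (σ j)).int) integrable_k0
    (fun j t => (nra_norm_K (σ j) t).le) (Real.exp_pos _).le h1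
  simp only [nra_sig_smul F (nra_ker _).int] at h2
  rw [integral_k0] at h2
  have h3 := Real.exp_pos (L / 2)
  exact h2.mono (by positivity) (by linarith)

theorem nra_star (F : FC H) {J : H ≃ₗᵢ⋆[ℂ] H} (hJ : ∀ v, J (J v) = v) (σ w : ℝ) (b : Op H) :
    star ((Real.exp w : ℂ) • F.sig (nraK σ) (jc J (star b))) =
      (Real.exp w : ℂ) • F.sig (fun t => conj (nraK σ t)) (jc J b) := by
  rw [star_smul, Complex.star_def, Complex.conj_ofReal, F.star_sig (nra_ker σ).int, jc_star hJ,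
    star_star]

theorem nra_row (F : FC H) {J : H ≃ₗᵢ⋆[ℂ] H} (hJ : ∀ v, J (J v) = v) {ι : Type*} [Fintype ι]
    {b : ι → Op H} (hb : Col b 1) (σ w : ι → ℝ) (v : H) :
    ∑ j, Real.exp (-w j) *
      ‖star ((Real.exp (w j / 2) : ℂ) • F.sig (nraK (σ j)) (jc J (star (b j)))) v‖ ^ 2 ≤
        ‖v‖ ^ 2 := by
  have h2 := F.col_sig (k := fun j t => conj (nraK (σ j) t)) (fun j => (nra_ker (σ j)).star'.int)
    integrable_k0 (fun j t => by rw [Complex.norm_conj]; exact (nra_norm_K (σ j) t).le)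
    zero_le_one (hb.jc (J := J))
  rw [integral_k0] at h2
  have h3 := h2.mono (by norm_num) (show (1 / 2 : ℝ) * 1 ≤ 1 by norm_num) v
  rw [one_pow, one_mul] at h3
  refine le_trans (le_of_eq (Finset.sum_congr rfl fun j _ => ?_)) h3
  rw [nra_star F hJ, smul_apply, nra_norm_smul, ← mul_assoc, ← Real.exp_add, neg_add_cancel,
    Real.exp_zero, one_mul]

theorem nra_decomp {A B : VN H} {ξ : H} (T : Tom A B ξ) (c : Cpl A B ξ) {u : c.ι → ℝ} {Λ : ℝ}
    (hc : c.SoftAt Finset.univ u Λ) (s : ℝ) :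
    ∃ x y : c.ι → Op H, (∀ j, x j ∈ A) ∧ (∀ j, y j ∈ B) ∧
      (∀ j, x j ξ = T.fn (rs (u j + s)) (c.a j ξ)) ∧ (∀ j, x j ξ + y j ξ = c.a j ξ) ∧
      (∀ j, (Real.exp (-(u j + s) / 2) : ℂ) • star (x j) ξ =
        (Real.exp ((u j + s) / 2) : ℂ) • star (y j) ξ) ∧
      Col x (Real.exp ((Λ + |s|) / 2)) ∧ Col y (Real.exp ((Λ + |s|) / 2)) ∧
      (∀ v, ∑ j, Real.exp (-(u j + s)) * ‖star (x j) v‖ ^ 2 ≤ ‖v‖ ^ 2) ∧
      ∀ v, ∑ j, Real.exp (u j + s) * ‖star (y j) v‖ ^ 2 ≤ ‖v‖ ^ 2 := by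
  have hx : ∀ j, ((Real.exp ((u j + s) / 2) : ℂ) •
      T.sig (nraK (u j + s)) (jc T.J (star (c.a' j)))) ξ = T.fn (rs (u j + s)) (c.a j ξ) := by
    intro j
    have hb : BC fun x => (Real.exp (-x / 2) : ℂ) * nraF (u j + s) x := by
      simp only [nra_F1]
      exact (BC.const _).mul (bc_rs _)
    rw [smul_apply, T.sig_ξ (nra_ker _), jc_apply, T.Jξ,
      ← T.frel (c.mem' j) (nra_ker _).bc hb]
    simp only [nra_F1]
    rw [T.fn_smul _ (bc_rs _), smul_apply, smul_smul, nra_exp_mul, one_smul, c.eq]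
  have hy : ∀ j, ((Real.exp (-(u j + s) / 2) : ℂ) •
      T.sig (nraK (u j + s)) (jc T.J (star (c.a j)))) ξ =
        c.a j ξ - T.fn (rs (u j + s)) (c.a j ξ) := by
    intro j
    have hb0 : BC fun x => 1 - rs (u j + s) x := (BC.const 1).sub (bc_rs _)
    have hb : BC fun x => (Real.exp (x / 2) : ℂ) * nraF (u j + s) x := by
      simp only [nra_F2]
      exact (BC.const _).mul hb0
    rw [smul_apply, T.sig_ξ (nra_ker _), jc_apply, T.Jξ,
      ← T.srel _ (c.mem j) (nra_ker _).bc hb]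
    simp only [nra_F2]
    rw [T.fn_smul _ hb0, smul_apply, smul_smul, mul_comm, nra_exp_mul, one_smul,
      T.fn_sub (BC.const 1) (bc_rs _), T.fn_one, sub_apply, one_apply_eq_self]
  have hs1 : Real.exp s ≤ Real.exp |s| := Real.exp_le_exp.2 (le_abs_self s)
  have hs2 : Real.exp (-s) ≤ Real.exp |s| := Real.exp_le_exp.2 (neg_le_abs s)
  refine ⟨fun j => (Real.exp ((u j + s) / 2) : ℂ) • T.sig (nraK (u j + s)) (jc T.J (star (c.a' j))),
    fun j => (Real.exp (-(u j + s) / 2) : ℂ) • T.sig (nraK (u j + s)) (jc T.J (star (c.a j))),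
    fun j => smul_mem' _ (T.sig_memA (nra_ker _).int (T.jcB _ (star_mem (c.mem' j)))),
    fun j => smul_mem' _ (T.sig_memB (nra_ker _).int (T.jcA _ (star_mem (c.mem j)))),
    hx, fun j => ?_, fun j => ?_, ?_, ?_, fun v => nra_row T.toFC T.JJ c.col' _ _ v, fun v => ?_⟩
  · rw [hx, hy, add_sub_cancel]
  · rw [nra_star T.toFC T.JJ, nra_star T.toFC T.JJ, smul_apply, smul_apply, smul_smul, smul_smul,
      nra_exp_mul, mul_comm, nra_exp_mul, T.sig_ξ (nra_ker _).star', T.sig_ξ (nra_ker _).star',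
      jc_apply, jc_apply, T.Jξ, c.eq]
  · refine nra_col T.toFC T.J (fun j => star (c.a' j)) _ (fun j => u j + s) fun v => ?_
    calc _ = Real.exp s * ∑ j, Real.exp (u j) * ‖star (c.a' j) v‖ ^ 2 := by
          rw [Finset.mul_sum]
          refine Finset.sum_congr rfl fun j _ => ?_
          rw [Real.exp_add]
          ring
      _ ≤ Real.exp |s| * (Real.exp Λ * ‖v‖ ^ 2) :=
          mul_le_mul hs1 (hc.2 v) (Finset.sum_nonneg fun j _ => by positivity) (Real.exp_pos _).le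
      _ = _ := by rw [Real.exp_add]; ring
  · refine nra_col T.toFC T.J (fun j => star (c.a j)) _ (fun j => -(u j + s)) fun v => ?_
    calc _ = Real.exp (-s) * ∑ j, Real.exp (-u j) * ‖star (c.a j) v‖ ^ 2 := by
          rw [Finset.mul_sum]
          refine Finset.sum_congr rfl fun j _ => ?_
          rw [neg_add, Real.exp_add]
          ring
      _ ≤ Real.exp |s| * (Real.exp Λ * ‖v‖ ^ 2) :=
          mul_le_mul hs2 (hc.1 v) (Finset.sum_nonneg fun j _ => by positivity) (Real.exp_pos _).le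
      _ = _ := by rw [Real.exp_add]; ring
  · have := nra_row T.toFC T.JJ c.col (fun j => u j + s) (fun j => -(u j + s)) v
    simpa only [neg_neg] using this

theorem nra_norm_rs (σ x : ℝ) : ‖rs σ x‖ ≤ 1 := by
  unfold rs
  have h := Real.exp_pos (x - σ)
  rw [Complex.norm_real, Real.norm_eq_abs, abs_of_pos (by positivity)]
  exact inv_le_one_of_one_le₀ (by linarith)

/-- the pointwise estimate of `res_agree` -/
theorem nra_point {M : VN H} {ξ : H} (TM : Tom M M.commutant ξ) {z x y x' y' : Op H}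
    (hz : IsStarProjection z) (hzM : Cen M z) (hx' : x' ∈ M) (hy' : y' ∈ M.commutant) (σ : ℝ)
    (he : (Real.exp (-σ / 2) : ℂ) • star x (z ξ) = (Real.exp (σ / 2) : ℂ) • star y (z ξ)) :
    ‖TM.fn (rs σ) (x (z ξ) + y (z ξ)) - x (z ξ)‖ ^ 2 ≤
      7 * ((‖(x - x') (z ξ)‖ ^ 2 + Real.exp (-σ) * ‖star (x - x') (z ξ)‖ ^ 2) +
        (‖(y - y') (z ξ)‖ ^ 2 + Real.exp (- -σ) * ‖star (y - y') (z ξ)‖ ^ 2)) := by
  have h1 := TM.res (mul_mem hx' hzM.1) (mul_mem hy' hzM.2) σ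
  have e1 : star (x' * z) ξ = star x' (z ξ) := by
    rw [star_mul, hz.isSelfAdjoint.star_eq, ← (mem_comm.1 hzM.2 _ (star_mem hx')).eq,
      mul_apply_eq_comp]
  have e2 : star (y' * z) ξ = star y' (z ξ) := by
    rw [star_mul, hz.isSelfAdjoint.star_eq, (mem_comm.1 (star_mem hy') _ hzM.1).eq,
      mul_apply_eq_comp]
  rw [e1, e2, mul_apply_eq_comp, mul_apply_eq_comp] at h1
  generalize z ξ = η at *
  have e3 : (Real.exp (σ / 2) : ℂ) • star y' η - (Real.exp (-σ / 2) : ℂ) • star x' η =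
      (Real.exp (-σ / 2) : ℂ) • star (x - x') η - (Real.exp (σ / 2) : ℂ) • star (y - y') η := by
    rw [star_sub, star_sub, sub_apply, sub_apply, smul_sub, smul_sub, he]
    abel
  have e4 : TM.fn (rs σ) (x η + y η) - x η = TM.fn (rs σ) ((x - x') η + (y - y') η) +
      (TM.fn (rs σ) (x' η + y' η) - x' η) - (x - x') η := by
    simp only [sub_apply, map_add, map_sub]
    abel
  have h2 : ‖TM.fn (rs σ) ((x - x') η + (y - y') η)‖ ≤ ‖(x - x') η‖ + ‖(y - y') η‖ := by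
    refine le_trans ((TM.fn (rs σ)).le_of_opNorm_le
      (TM.norm_fn_le (bc_rs σ) (nra_norm_rs σ)) _) ?_
    rw [one_mul]
    exact norm_add_le _ _
  rw [e3] at h1
  have h3 := h1.trans (norm_sub_le _ _)
  have h4 : ‖TM.fn (rs σ) (x η + y η) - x η‖ ≤ 2 * ‖(x - x') η‖ + ‖(y - y') η‖ +
      ‖(Real.exp (-σ / 2) : ℂ) • star (x - x') η‖ + ‖(Real.exp (σ / 2) : ℂ) • star (y - y') η‖ := by
    rw [e4]
    have h5 := norm_sub_le (TM.fn (rs σ) ((x - x') η + (y - y') η) +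
      (TM.fn (rs σ) (x' η + y' η) - x' η)) ((x - x') η)
    have h6 := norm_add_le (TM.fn (rs σ) ((x - x') η + (y - y') η))
      (TM.fn (rs σ) (x' η + y' η) - x' η)
    linarith
  rw [neg_neg, ← nra_norm_smul (-σ), ← nra_norm_smul σ]
  refine (pow_le_pow_left₀ (norm_nonneg _) h4 2).trans ?_
  generalize ‖(x - x') η‖ = p
  generalize ‖(y - y') η‖ = q
  generalize ‖(Real.exp (-σ / 2) : ℂ) • star (x - x') η‖ = r
  generalize ‖(Real.exp (σ / 2) : ℂ) • star (y - y') η‖ = t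
  nlinarith [sq_nonneg (p - 2 * q), sq_nonneg (p - 2 * r), sq_nonneg (p - 2 * t), sq_nonneg (q - r),
    sq_nonneg (q - t), sq_nonneg (r - t)]

theorem nra_res_agree : ∃ C > 0, ∀ {H : Type u} [NormedAddCommGroup H] [InnerProductSpace ℂ H]
    [CompleteSpace H] {M N : VN H} {ξ : H} (TM : Tom M M.commutant ξ) (TN : Tom N N.commutant ξ)
    {γ : ℝ}, 0 ≤ γ → Close M N γ → (∀ z, Cen M z ↔ Cen N z) →
    ∀ (c : Cpl N N.commutant ξ) {u : c.ι → ℝ} {Λ : ℝ}, 0 ≤ Λ → c.SoftAt Finset.univ u Λ →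
    ∀ {z : Op H}, CP N z → ∀ s : ℝ,
    ∑ j, ‖TM.fn (rs (u j + s)) (c.a j (z ξ)) - TN.fn (rs (u j + s)) (c.a j (z ξ))‖ ^ 2 ≤
      C * γ ^ 2 * Real.exp (Λ + |s|) * ‖z ξ‖ ^ 2 := by
  obtain ⟨C, hC, hgp⟩ := gp.{u}
  refine ⟨7 * C * (1 + 4200 ^ 2), by positivity, ?_⟩
  intro H _ _ _ M N ξ TM TN γ hγ hMN hcen c u Λ hΛ hc z hz s
  obtain ⟨x, y, hxN, hyN, hx, hxy, he, hcx, hcy, hrx, hry⟩ := nra_decomp TN c hc s
  have hE : Real.exp ((Λ + |s|) / 2) ^ 2 = Real.exp (Λ + |s|) := by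
    rw [← Real.exp_nat_mul]; congr 1; push_cast; ring
  have hE1 : 1 ≤ Real.exp (Λ + |s|) := Real.one_le_exp (by positivity)
  have hzN : ∀ {a : Op H}, a ∈ N → ∀ v, a (z v) = z (a v) := fun ha v =>
    cpl_app (mem_comm.1 hz.2.2 _ ha) v
  have hzN' : ∀ {a : Op H}, a ∈ N.commutant → ∀ v, a (z v) = z (a v) := fun ha v =>
    (cpl_app (mem_comm.1 ha _ hz.2.1) v).symm
  refine le_of_forall_pos_le_add fun ε hε => ?_
  obtain ⟨x', hx'M, h1⟩ := hgp TN.J hγ hMN.2 (z ξ) x (fun j => u j + s) (Real.exp_pos _).le hxN hcx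
    (fun v => (hrx v).trans (by rw [hE]; exact le_mul_of_one_le_left (sq_nonneg _) hE1))
    (ε / 14) (by positivity)
  obtain ⟨y', hy'M, h2⟩ := hgp TN.J (by positivity) (hMN.1.commutant hγ) (z ξ) y
    (fun j => -(u j + s)) (Real.exp_pos _).le hyN hcy
    (fun v => by
      simp only [neg_neg]
      exact (hry v).trans (by rw [hE]; exact le_mul_of_one_le_left (sq_nonneg _) hE1))
    (ε / 14) (by positivity)
  have h3 : ∀ j, ‖TM.fn (rs (u j + s)) (c.a j (z ξ)) - TN.fn (rs (u j + s)) (c.a j (z ξ))‖ ^ 2 ≤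
      7 * ((‖(x j - x' j) (z ξ)‖ ^ 2 + Real.exp (-(u j + s)) * ‖star (x j - x' j) (z ξ)‖ ^ 2) +
        (‖(y j - y' j) (z ξ)‖ ^ 2 + Real.exp (- -(u j + s)) * ‖star (y j - y' j) (z ξ)‖ ^ 2)) := by
    intro j
    have e1 : TN.fn (rs (u j + s)) (c.a j (z ξ)) = x j (z ξ) := by
      rw [hzN (c.mem j), hzN (hxN j), hx, cpl_app (TN.cen_fn z hz.cen (bc_rs _))]
    have e2 : c.a j (z ξ) = x j (z ξ) + y j (z ξ) := by
      rw [hzN (c.mem j), hzN (hxN j), hzN' (hyN j), ← map_add, hxy]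
    rw [e1, e2]
    refine nra_point TM hz.1 ((hcen z).2 hz.cen) (hx'M j) (hy'M j) _ ?_
    rw [hzN (star_mem (hxN j)), hzN' (star_mem (hyN j)), ← map_smul z, he, map_smul z]
  refine (Finset.sum_le_sum fun j _ => h3 j).trans ?_
  rw [← Finset.mul_sum, Finset.sum_add_distrib]
  rw [hE] at h1 h2
  nlinarith

end

end Crest.Agent.R78
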