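import Crest.Agent.R78.Cpl

/-!
# Row 78: auxiliary results for the narrow estimate (approximation by resolvent functions)
-/

open scoped InnerProductSpace Topology ComplexConjugate
open Filter MeasureTheory

set_option linter.unusedSectionVars false

namespace Crest.Agent.R78

noncomputable section

universe u

/-- finite combinations of `1` and the resolvent functions -/
def NbP (h : ℝ → ℂ) : Prop :=
  ∃ (ι : Type) (_ : Fintype ι) (c₀ : ℂ) (c : ι → ℂ) (s : ι → ℝ),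
    ∀ x, h x = c₀ + ∑ k, c k * rs (s k) x

/-- uniform limits of such combinations -/
def NbA (g : ℝ → ℂ) : Prop := ∀ ε > 0, ∃ h, NbP h ∧ ∀ x, ‖g x - h x‖ ≤ ε

theorem NbP.const (c : ℂ) : NbP fun _ => c :=
  ⟨Empty, inferInstance, c, fun _ => 0, fun _ => 0, fun _ => by simp⟩

theorem NbP.rs (s : ℝ) : NbP (rs s) :=
  ⟨Unit, inferInstance, 0, fun _ => 1, fun _ => s, fun _ => by simp⟩

theorem NbP.add {f g : ℝ → ℂ} (hf : NbP f) (hg : NbP g) : NbP fun x => f x + g x := by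
  obtain ⟨ι, _, a, c, s, h⟩ := hf
  obtain ⟨κ, _, b, d, t, h'⟩ := hg
  refine ⟨ι ⊕ κ, inferInstance, a + b, Sum.elim c d, Sum.elim s t, fun x => ?_⟩
  simp only [h, h', Fintype.sum_sum_type, Sum.elim_inl, Sum.elim_inr]
  ring

theorem NbP.smul {f : ℝ → ℂ} (a : ℂ) (hf : NbP f) : NbP fun x => a * f x := by
  obtain ⟨ι, _, b, c, s, h⟩ := hf
  refine ⟨ι, inferInstance, a * b, fun k => a * c k, s, fun x => ?_⟩
  simp only [h, mul_add, Finset.mul_sum, mul_assoc]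

theorem NbP.a {f : ℝ → ℂ} (hf : NbP f) : NbA f := fun ε hε => ⟨f, hf, fun x => by simp [hε.le]⟩

theorem NbA.lim {f : ℝ → ℂ} (h : ∀ ε > 0, ∃ g, NbA g ∧ ∀ x, ‖f x - g x‖ ≤ ε) : NbA f := by
  intro ε hε
  obtain ⟨g, hg, h1⟩ := h _ (half_pos hε)
  obtain ⟨k, hk, h2⟩ := hg _ (half_pos hε)
  refine ⟨k, hk, fun x => ?_⟩
  have := norm_sub_le_norm_sub_add_norm_sub (f x) (g x) (k x)
  linarith [h1 x, h2 x]

theorem NbA.add {f g : ℝ → ℂ} (hf : NbA f) (hg : NbA g) : NbA fun x => f x + g x := by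
  intro ε hε
  obtain ⟨h, hh, h1⟩ := hf _ (half_pos hε)
  obtain ⟨k, hk, h2⟩ := hg _ (half_pos hε)
  refine ⟨_, hh.add hk, fun x => ?_⟩
  rw [add_sub_add_comm]
  exact (norm_add_le_of_le (h1 x) (h2 x)).trans_eq (add_halves ε)

theorem NbA.smul {f : ℝ → ℂ} (a : ℂ) (hf : NbA f) : NbA fun x => a * f x := by
  intro ε hε
  obtain ⟨h, hh, h1⟩ := hf (ε / (‖a‖ + 1)) (by positivity)
  refine ⟨_, hh.smul a, fun x => ?_⟩
  rw [← mul_sub, norm_mul]
  calc ‖a‖ * ‖f x - h x‖ ≤ (‖a‖ + 1) * (ε / (‖a‖ + 1)) := by gcongr; exacts [by linarith, h1 x]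
    _ = ε := by field_simp

theorem NbA.sum {ι : Type*} (s : Finset ι) {f : ι → ℝ → ℂ} (hf : ∀ i ∈ s, NbA (f i)) :
    NbA fun x => ∑ i ∈ s, f i x := by
  classical
  induction s using Finset.induction_on with
  | empty => simpa using (NbP.const 0).a
  | insert a s ha ih =>
    simp only [Finset.sum_insert ha]
    exact (hf a (Finset.mem_insert_self _ _)).add
      (ih fun i hi => hf i (Finset.mem_insert_of_mem hi))

theorem nb_norm_rs (s x : ℝ) : ‖rs s x‖ ≤ 1 := by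
  have := Real.exp_pos (x - s)
  rw [rs, Complex.norm_real, Real.norm_of_nonneg (by positivity)]
  exact inv_le_one_of_one_le₀ (by linarith)

theorem nb_mul_ne {s : ℝ} (hs : s ≠ 0) : NbP fun x => rs 0 x * rs s x := by
  have h1 : (1 - Real.exp (-s)) ≠ 0 := by
    rw [sub_ne_zero, ne_comm, Ne, Real.exp_eq_one_iff]
    simpa using hs
  have := ((NbP.rs 0).add ((NbP.rs s).smul (-(Real.exp (-s) : ℝ)))).smul
    ((1 - Real.exp (-s))⁻¹ : ℝ)
  convert this using 2 with x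
  simp only [rs, ← Complex.ofReal_neg, ← Complex.ofReal_mul, ← Complex.ofReal_add, sub_zero]
  congr 1
  have h2 := Real.exp_pos x
  have h3 := Real.exp_pos (-s)
  rw [sub_eq_add_neg x s, Real.exp_add]
  field_simp
  ring

theorem nb_rs_sub (s x : ℝ) : ‖rs 0 x - rs s x‖ ≤ |Real.exp (-s) - 1| := by
  have h2 := Real.exp_pos x
  have h3 := Real.exp_pos (-s)
  have e : (1 + Real.exp (x - 0))⁻¹ - (1 + Real.exp (x - s))⁻¹ = (Real.exp (-s) - 1) *
      (Real.exp x / ((1 + Real.exp x) * (1 + Real.exp x * Real.exp (-s)))) := by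
    rw [sub_zero, sub_eq_add_neg x s, Real.exp_add]
    field_simp
    ring
  rw [rs, rs, ← Complex.ofReal_sub, Complex.norm_real, Real.norm_eq_abs, e, abs_mul]
  refine mul_le_of_le_one_right (abs_nonneg _) ?_
  rw [abs_of_nonneg (by positivity), div_le_one (by positivity)]
  nlinarith [mul_pos h2 h3, mul_pos h2 (mul_pos h2 h3)]

theorem nb_mul_rs (s : ℝ) : NbA fun x => rs 0 x * rs s x := by
  by_cases hs : s = 0
  · subst hs
    refine NbA.lim fun ε hε => ⟨_, (nb_mul_ne (s := -Real.log (1 + ε)) ?_).a, fun x => ?_⟩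
    · exact neg_ne_zero.2 (Real.log_pos (by linarith)).ne'
    · rw [← mul_sub, norm_mul]
      have h1 := nb_rs_sub (-Real.log (1 + ε)) x
      rw [neg_neg, Real.exp_log (by linarith), add_sub_cancel_left, abs_of_pos hε] at h1
      exact (mul_le_of_le_one_left (norm_nonneg _) (nb_norm_rs 0 x)).trans h1
  · exact (nb_mul_ne hs).a

theorem NbA.mul_r {f : ℝ → ℂ} (hf : NbA f) : NbA fun x => rs 0 x * f x := by
  refine NbA.lim fun ε hε => ?_
  obtain ⟨h, ⟨ι, _, a, c, s, hh⟩, h1⟩ := hf ε hε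
  refine ⟨fun x => rs 0 x * h x, ?_, fun x => ?_⟩
  · have := ((NbP.rs 0).a.smul a).add (NbA.sum Finset.univ fun k _ => (nb_mul_rs (s k)).smul (c k))
    convert this using 2 with x
    rw [hh, mul_add, Finset.mul_sum, mul_comm a]
    congr 1
    exact Finset.sum_congr rfl fun k _ => by ring
  · rw [← mul_sub, norm_mul]
    exact (mul_le_of_le_one_left (norm_nonneg _) (nb_norm_rs 0 x)).trans (h1 x)

theorem nb_pow (n : ℕ) : NbA fun x => rs 0 x ^ n := by
  induction n with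
  | zero => simpa using (NbP.const 1).a
  | succ n ih => simpa only [pow_succ'] using ih.mul_r

theorem nb_poly (p : Polynomial ℝ) :
    NbA fun x => ((p.eval (1 + Real.exp x)⁻¹ : ℝ) : ℂ) := by
  induction p using Polynomial.induction_on' with
  | add p q hp hq => simpa only [Polynomial.eval_add, Complex.ofReal_add] using hp.add hq
  | monomial n a =>
    simpa only [Polynomial.eval_monomial, Complex.ofReal_mul, Complex.ofReal_pow, rs, sub_zero]
      using (nb_pow n).smul a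

theorem nb_real {f : ℝ → ℝ} (hf : Continuous f) (hs : HasCompactSupport f) :
    NbA fun x => (f x : ℂ) := by
  obtain ⟨R, hR0, hR⟩ : ∃ R > 0, ∀ x, R ≤ |x| → f x = 0 := by
    obtain ⟨R, hR0, hR⟩ := hs.isCompact.isBounded.subset_ball_lt 0 0
    refine ⟨R, hR0, fun x hx => image_eq_zero_of_notMem_tsupport fun h => ?_⟩
    have := hR h
    rw [mem_ball_zero_iff, Real.norm_eq_abs] at this
    linarith
  set r : ℝ → ℝ := fun x => (1 + Real.exp x)⁻¹ with hr
  have hr0 : ∀ x, 0 < r x := fun x => inv_pos.2 (by linarith [Real.exp_pos x])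
  have hr1 : ∀ x, r x < 1 := fun x => inv_lt_one_of_one_lt₀ (by linarith [Real.exp_pos x])
  have ha : Antitone r := fun x y hxy =>
    inv_anti₀ (by linarith [Real.exp_pos x]) (by linarith [Real.exp_le_exp.2 hxy])
  set ρ : ℝ → ℝ := fun t => max (r R) (min t (r (-R))) with hρ
  have hρ0 : ∀ t, 0 < ρ t := fun t => (hr0 R).trans_le (le_max_left _ _)
  have hρ1 : ∀ t, ρ t < 1 := fun t => max_lt (hr1 R) ((min_le_right _ _).trans_lt (hr1 _))
  have hc : Continuous fun t => f (Real.log ((ρ t)⁻¹ - 1)) := by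
    refine hf.comp (Continuous.log ((Continuous.inv₀ (by fun_prop) fun t => (hρ0 t).ne').sub
      continuous_const) fun t => ?_)
    exact (sub_pos.2 ((one_lt_inv₀ (hρ0 t)).2 (hρ1 t))).ne'
  have he : ∀ x, f (Real.log ((ρ (r x))⁻¹ - 1)) = f x := by
    intro x
    have : ρ (r x) = r (min R (max x (-R))) := by rw [ha.map_min, ha.map_max]
    rw [this, hr]
    simp only [inv_inv, add_sub_cancel_left, Real.log_exp]
    rcases le_total x (-R) with h | h
    · rw [max_eq_right h, min_eq_right (by linarith), hR _ (by rw [abs_neg, abs_of_pos hR0]),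
        hR x (by rw [abs_of_nonpos (by linarith)]; linarith)]
    · rw [max_eq_left h]
      rcases le_total R x with h' | h'
      · rw [min_eq_left h', hR _ (le_abs_self R), hR x (h'.trans (le_abs_self x))]
      · rw [min_eq_right h']
  refine NbA.lim fun ε hε => ?_
  obtain ⟨p, hp⟩ := exists_polynomial_near_of_continuousOn 0 1 _ hc.continuousOn ε hε
  refine ⟨_, nb_poly p, fun x => ?_⟩
  have := hp (r x) ⟨(hr0 x).le, (hr1 x).le⟩
  rw [he] at this
  rw [← Complex.ofReal_sub, Complex.norm_real, Real.norm_eq_abs, abs_sub_comm]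
  exact this.le

theorem nb_approx_rs {f : ℝ → ℂ} (hf : Continuous f) (hs : HasCompactSupport f) {ε : ℝ}
    (hε : 0 < ε) : ∃ (n : ℕ) (c₀ : ℂ) (c : Fin n → ℂ) (s : Fin n → ℝ),
      ∀ x, ‖f x - c₀ - ∑ k, c k * rs (s k) x‖ ≤ ε := by
  have h1 := nb_real (Complex.continuous_re.comp hf) (hs.comp_left (g := Complex.re) rfl)
  have h2 := nb_real (Complex.continuous_im.comp hf) (hs.comp_left (g := Complex.im) rfl)
  obtain ⟨h, ⟨ι, _, a, c, s, hh⟩, h3⟩ := h1.add (h2.smul Complex.I) ε hε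
  refine ⟨Fintype.card ι, a, c ∘ (Fintype.equivFin ι).symm, s ∘ (Fintype.equivFin ι).symm,
    fun x => ?_⟩
  have h4 := h3 x
  simp only [Function.comp_apply, mul_comm Complex.I, Complex.re_add_im, hh] at h4
  have h5 := (Fintype.equivFin ι).symm.sum_comp fun k => c k * rs (s k) x
  simp only [Function.comp_apply]
  rw [h5, sub_sub]
  exact h4

theorem nb_approx_rs_unif {χ : ℝ → ℝ} (hf : Continuous χ) (hs : HasCompactSupport χ) {ε : ℝ}
    (hε : 0 < ε) : ∃ C S : ℝ, ∀ t : ℝ, |t| ≤ 1 → ∃ (n : ℕ) (c₀ : ℂ) (c : Fin n → ℂ)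
      (s : Fin n → ℝ), ∑ k, ‖c k‖ ≤ C ∧ (∀ k, |s k| ≤ S) ∧
      ∀ x : ℝ, ‖Complex.exp (Complex.I * t * x) * χ x - c₀ - ∑ k, c k * rs (s k) x‖ ≤ ε := by
  obtain ⟨K, hK⟩ := (continuous_id.mul hf).bounded_above_of_compact_support hs.mul_left
  have hK0 : 0 ≤ K := (norm_nonneg _).trans (hK 0)
  suffices h : ∃ C S : ℝ, ∀ t ∈ Set.Icc (-1 : ℝ) 1, ∃ (n : ℕ) (c₀ : ℂ) (c : Fin n → ℂ)
      (s : Fin n → ℝ), ∑ k, ‖c k‖ ≤ C ∧ (∀ k, |s k| ≤ S) ∧
      ∀ x : ℝ, ‖Complex.exp (Complex.I * t * x) * χ x - c₀ - ∑ k, c k * rs (s k) x‖ ≤ ε by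
    obtain ⟨C, S, h⟩ := h
    exact ⟨C, S, fun t ht => h t (abs_le.1 ht)⟩
  refine isCompact_Icc.induction_on (p := fun T : Set ℝ => ∃ C S : ℝ, ∀ t ∈ T,
    ∃ (n : ℕ) (c₀ : ℂ) (c : Fin n → ℂ) (s : Fin n → ℝ), ∑ k, ‖c k‖ ≤ C ∧ (∀ k, |s k| ≤ S) ∧
      ∀ x : ℝ, ‖Complex.exp (Complex.I * t * x) * χ x - c₀ - ∑ k, c k * rs (s k) x‖ ≤ ε)
    ⟨0, 0, fun t ht => ht.elim⟩ ?_ ?_ ?_
  · rintro s t hst ⟨C, S, h⟩
    exact ⟨C, S, fun x hx => h x (hst hx)⟩
  · rintro s t ⟨C, S, h⟩ ⟨C', S', h'⟩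
    refine ⟨max C C', max S S', ?_⟩
    rintro x (hx | hx)
    · obtain ⟨n, a, c, s, h1, h2, h3⟩ := h x hx
      exact ⟨n, a, c, s, h1.trans (le_max_left _ _), fun k => (h2 k).trans (le_max_left _ _), h3⟩
    · obtain ⟨n, a, c, s, h1, h2, h3⟩ := h' x hx
      exact ⟨n, a, c, s, h1.trans (le_max_right _ _), fun k => (h2 k).trans (le_max_right _ _), h3⟩
  · intro t₀ _
    obtain ⟨n, a, c, s, h⟩ := nb_approx_rs
      (f := fun x : ℝ => Complex.exp (Complex.I * t₀ * x) * χ x) (by fun_prop)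
      (hs.comp_left (g := fun y : ℝ => (y : ℂ)) rfl).mul_left (half_pos hε)
    refine ⟨Metric.ball t₀ (ε / 2 / (K + 1)),
      mem_nhdsWithin_of_mem_nhds (Metric.ball_mem_nhds _ (by positivity)),
      ∑ k, ‖c k‖, ∑ k, |s k|, fun t ht => ⟨n, a, c, s, le_rfl, fun k => ?_, fun x => ?_⟩⟩
    · exact Finset.single_le_sum (f := fun k => |s k|) (fun _ _ => abs_nonneg _) (Finset.mem_univ k)
    · have h1 : ‖Complex.exp (Complex.I * t * x) * χ x - Complex.exp (Complex.I * t₀ * x) * χ x‖ ≤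
          ε / 2 := by
        have e : Complex.exp (Complex.I * t * x) * χ x - Complex.exp (Complex.I * t₀ * x) * χ x =
            Complex.exp (Complex.I * t₀ * x) *
              (Complex.exp (Complex.I * ((t - t₀) * x : ℝ)) - 1) * χ x := by
          rw [mul_sub, ← Complex.exp_add]
          push_cast
          ring_nf
        have h2 := Real.norm_exp_I_mul_ofReal_sub_one_le (x := (t - t₀) * x)
        have h3 : |t - t₀| < ε / 2 / (K + 1) := ht
        have h4 : |x| * |χ x| ≤ K := by simpa using hK x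
        rw [e, norm_mul, norm_mul, fca_norm_exp, one_mul, Complex.norm_real, Real.norm_eq_abs]
        rw [Real.norm_eq_abs, abs_mul] at h2
        calc _ ≤ |t - t₀| * |x| * |χ x| := by gcongr
          _ = |t - t₀| * (|x| * |χ x|) := by ring
          _ ≤ ε / 2 / (K + 1) * (K + 1) := by gcongr; linarith
          _ = ε / 2 := by field_simp
      have h5 := norm_add_le_of_le h1 (h x)
      rw [add_halves] at h5
      refine le_trans (le_of_eq (congrArg norm ?_)) h5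
      ring

section Fam

variable {H : Type*} [NormedAddCommGroup H] [InnerProductSpace ℂ H] [CompleteSpace H]
variable {ι : Type} [Fintype ι]

/-- the family `g(D - u_j) ζ_j` as a vector in `ℓ²` -/
def nbΦ (F : FC H) (u : ι → ℝ) (ζ : ι → H) (g : ℝ → ℂ) : PiLp 2 fun _ : ι => H :=
  WithLp.toLp 2 fun j => F.fn (fun x => g (x - u j)) (ζ j)

variable (F : FC H) (u : ι → ℝ) (ζ : ι → H) {f g : ℝ → ℂ}

theorem nbΦ_add (hf : BC f) (hg : BC g) :
    nbΦ F u ζ (fun x => f x + g x) = nbΦ F u ζ f + nbΦ F u ζ g := by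
  ext j
  simp [nbΦ, F.fn_add (hf.comp_sub _) (hg.comp_sub _)]

theorem nbΦ_smul (c : ℂ) (hf : BC f) : nbΦ F u ζ (fun x => c * f x) = c • nbΦ F u ζ f := by
  ext j
  simp [nbΦ, F.fn_smul c (hf.comp_sub _)]

theorem nbΦ_const (c : ℂ) : nbΦ F u ζ (fun _ => c) = c • WithLp.toLp 2 ζ := by
  ext j
  simp [nbΦ, F.fn_const]

theorem nbΦ_sum {κ : Type*} (s : Finset κ) {f : κ → ℝ → ℂ} (hf : ∀ k, BC (f k)) :
    nbΦ F u ζ (fun x => ∑ k ∈ s, f k x) = ∑ k ∈ s, nbΦ F u ζ (f k) := by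
  classical
  induction s using Finset.induction_on with
  | empty => simpa using nbΦ_const F u ζ 0
  | insert a s ha ih =>
    simp only [Finset.sum_insert ha]
    rw [nbΦ_add F u ζ (hf a) (BC.sum s fun k _ => hf k), ih]

theorem nb_norm_le {v : ι → H} {b : ℝ} (hb : 0 ≤ b) :
    ‖(WithLp.toLp 2 v : PiLp 2 fun _ : ι => H)‖ ≤ b ↔ ∑ j, ‖v j‖ ^ 2 ≤ b ^ 2 := by
  rw [← pow_le_pow_iff_left₀ (norm_nonneg _) hb two_ne_zero, PiLp.norm_sq_eq_of_L2]

theorem nbΦ_mono (hf : BC f) (hg : BC g) (h : ∀ x, ‖f x‖ ≤ ‖g x‖) :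
    ‖nbΦ F u ζ f‖ ≤ ‖nbΦ F u ζ g‖ := by
  rw [nbΦ, nb_norm_le (norm_nonneg _), PiLp.norm_sq_eq_of_L2]
  exact Finset.sum_le_sum fun j _ => pow_le_pow_left₀ (norm_nonneg _)
    (F.norm_fn_apply_le (hf.comp_sub _) (hg.comp_sub _) (fun x => h _) _) 2

end Fam

/-- the tail majorant -/
def nbφ (S x : ℝ) : ℂ := 2 + (-2 * rs S x + 2 * rs (-S) x)

theorem nbφ_eq (S x : ℝ) : nbφ S x =
    (2 * (1 - (1 + Real.exp (x - S))⁻¹) + 2 * (1 + Real.exp (x + S))⁻¹ : ℝ) := by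
  simp only [nbφ, rs, sub_neg_eq_add]
  push_cast
  ring

theorem nbφ_sq (S x : ℝ) :
    ‖nbφ S x‖ ^ 2 ≤ 0 + 8 * Real.exp (-S) * (Real.exp x + Real.exp (-x)) := by
  have key : ∀ a : ℝ, 0 < a → (1 - (1 + a)⁻¹) ^ 2 ≤ a ∧ (1 + a)⁻¹ ^ 2 ≤ a⁻¹ := fun a ha => by
    constructor
    · rw [show 1 - (1 + a)⁻¹ = a / (1 + a) by field_simp; ring, div_pow, div_le_iff₀ (by positivity)]
      nlinarith [mul_pos ha ha, mul_pos ha (mul_pos ha ha)]
    · rw [inv_pow]
      exact inv_anti₀ ha (by nlinarith [mul_pos ha ha])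
  have h1 := (key _ (Real.exp_pos (x - S))).1
  have h2 := (key _ (Real.exp_pos (x + S))).2
  have e1 : Real.exp (x - S) = Real.exp (-S) * Real.exp x := by rw [← Real.exp_add]; ring_nf
  have e2 : (Real.exp (x + S))⁻¹ = Real.exp (-S) * Real.exp (-x) := by
    rw [← Real.exp_add, ← Real.exp_neg]; ring_nf
  rw [nbφ_eq, Complex.norm_real, Real.norm_eq_abs, sq_abs]
  nlinarith [sq_nonneg ((1 - (1 + Real.exp (x - S))⁻¹) - (1 + Real.exp (x + S))⁻¹)]

theorem nbφ_real (S x : ℝ) : ∃ r : ℝ, nbφ S x = r ∧ 0 ≤ r ∧ (S ≤ |x| → 1 ≤ r) := by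
  have h1 : (1 + Real.exp (x - S))⁻¹ ≤ 1 := inv_le_one_of_one_le₀ (by linarith [Real.exp_pos (x - S)])
  have h2 : 0 ≤ (1 + Real.exp (x + S))⁻¹ := by positivity
  refine ⟨_, nbφ_eq S x, by linarith, fun h => ?_⟩
  rcases le_abs.1 h with h | h
  · have : (1 + Real.exp (x - S))⁻¹ ≤ 2⁻¹ :=
      inv_anti₀ two_pos (by linarith [Real.one_le_exp (show 0 ≤ x - S by linarith)])
    linarith
  · have : 2⁻¹ ≤ (1 + Real.exp (x + S))⁻¹ :=
      inv_anti₀ (by positivity) (by linarith [Real.exp_le_one_iff.2 (show x + S ≤ 0 by linarith)])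
    linarith

theorem nb_cut (S : ℝ) : ∃ χ : ℝ → ℝ, Continuous χ ∧ HasCompactSupport χ ∧
    (∀ x, 0 ≤ χ x ∧ χ x ≤ 1) ∧ ∀ x, |x| ≤ S → χ x = 1 := by
  refine ⟨fun x => max 0 (min 1 (S + 1 - |x|)), by fun_prop,
    HasCompactSupport.intro (isCompact_Icc (a := -(S + 1)) (b := S + 1)) fun x hx => ?_,
    fun x => ⟨le_max_left _ _, max_le zero_le_one (min_le_left _ _)⟩, fun x hx => ?_⟩
  · have : ¬ |x| ≤ S + 1 := fun h => hx (abs_le.1 h)
    exact max_eq_left ((min_le_right _ _).trans (by linarith [not_le.1 this]))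
  · simp only
    rw [min_eq_left (by linarith), max_eq_right zero_le_one]

theorem nb_narrow (res : ∃ C > 0, ∀ {H : Type u} [NormedAddCommGroup H] [InnerProductSpace ℂ H]
    [CompleteSpace H] {M N : VN H} {ξ : H} (TM : Tom M M.commutant ξ) (TN : Tom N N.commutant ξ)
    {γ : ℝ}, 0 ≤ γ → Close M N γ → (∀ z, Cen M z ↔ Cen N z) →
    ∀ (c : Cpl N N.commutant ξ) {u : c.ι → ℝ} {Λ : ℝ}, 0 ≤ Λ → c.SoftAt Finset.univ u Λ →
    ∀ {z : Op H}, CP N z → ∀ s : ℝ,
    ∑ j, ‖TM.fn (rs (u j + s)) (c.a j (z ξ)) - TN.fn (rs (u j + s)) (c.a j (z ξ))‖ ^ 2 ≤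
      C * γ ^ 2 * Real.exp (Λ + |s|) * ‖z ξ‖ ^ 2)
    (Λ : ℝ) {ε : ℝ} (hε : 0 < ε) : ∃ γ₀ > 0, ∀ {H : Type u} [NormedAddCommGroup H]
    [InnerProductSpace ℂ H] [CompleteSpace H] {M N : VN H} {ξ : H} (TM : Tom M M.commutant ξ)
    (TN : Tom N N.commutant ξ) {γ : ℝ}, 0 ≤ γ → γ ≤ γ₀ → Close M N γ →
    (∀ z, Cen M z ↔ Cen N z) → ∀ {t : ℝ}, |t| ≤ 1 → ∀ {z : Op H}, CP N z →
    ∀ c : Cpl N N.commutant ξ, c.Soft Λ →
    ∑ j, ‖TM.V t (c.a j (z ξ)) - TN.V t (c.a j (z ξ))‖ ^ 2 ≤ ε * ‖z ξ‖ ^ 2 := by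
  obtain ⟨C, hC, res⟩ := res
  set L := max Λ 0 with hL
  have hL0 : 0 ≤ L := le_max_right _ _
  set δ := √ε / 8 with hδ
  have hδ0 : 0 < δ := by positivity
  set S := L + 16 / δ ^ 2 with hS
  have hS0 : 0 ≤ S := by positivity
  have hSδ : 2 * (8 * Real.exp (-S)) * Real.exp L ≤ δ ^ 2 := by
    have h1 : 16 / δ ^ 2 ≤ Real.exp (16 / δ ^ 2) := by linarith [Real.add_one_le_exp (16 / δ ^ 2)]
    have h2 : Real.exp (-S) * Real.exp L * Real.exp (16 / δ ^ 2) = 1 := by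
      rw [← Real.exp_add, ← Real.exp_add, hS, Real.exp_eq_one_iff]; ring
    rw [div_le_iff₀ (by positivity)] at h1
    have h3 : 0 < Real.exp (-S) * Real.exp L := by positivity
    nlinarith [mul_le_mul_of_nonneg_left h1 h3.le]
  obtain ⟨χ, hχ, hχs, hχ01, hχ1⟩ := nb_cut S
  obtain ⟨C₁, S₁, happ⟩ := nb_approx_rs_unif hχ hχs hδ0
  set K := √(C * Real.exp (L + max S S₁)) with hK
  have hK0 : 0 < K := by positivity
  refine ⟨4 * δ / ((|C₁| + 4) * K), by positivity, ?_⟩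
  intro H _ _ _ M N ξ TM TN γ hγ hγ0 hMN hcen t ht z hz c hc
  obtain ⟨u, hu⟩ := hc.mono (le_max_left Λ 0)
  obtain ⟨n, c₀, a, s, ha, hs, happ⟩ := happ t ht
  set ζ : c.ι → H := fun j => c.a j (z ξ) with hζ
  set ν := ‖z ξ‖ with hν
  have hν0 : 0 ≤ ν := norm_nonneg _
  have hζν : ‖(WithLp.toLp 2 ζ : PiLp 2 fun _ : c.ι => H)‖ ≤ ν := by
    rw [nb_norm_le hν0]
    simpa using c.col (z ξ)
  set D : (ℝ → ℂ) → PiLp 2 fun _ : c.ι => H := fun g => nbΦ TM.toFC u ζ g - nbΦ TN.toFC u ζ g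
    with hD
  have hrs : ∀ r : ℝ, |r| ≤ max S S₁ → ‖D (rs r)‖ ≤ γ * K * ν := by
    intro r hr
    have e : D (rs r) = WithLp.toLp 2 fun j =>
        TM.fn (rs (u j + r)) (ζ j) - TN.fn (rs (u j + r)) (ζ j) := by
      have : ∀ j, (fun x => rs r (x - u j)) = rs (u j + r) := fun j => by
        funext x; simp only [rs, sub_sub]
      ext j
      simp [hD, nbΦ, this]
    rw [e, nb_norm_le (by positivity)]
    refine (res TM TN hγ hMN hcen c hL0 hu hz r).trans ?_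
    rw [mul_pow, mul_pow, hK, Real.sq_sqrt (by positivity)]
    have : Real.exp (L + |r|) ≤ Real.exp (L + max S S₁) := by gcongr
    calc _ ≤ C * γ ^ 2 * Real.exp (L + max S S₁) * ν ^ 2 := by gcongr
      _ = _ := by ring
  have bφ : BC (nbφ S) :=
    (BC.const 2).add (((BC.const _).mul (bc_rs S)).add ((BC.const _).mul (bc_rs (-S))))
  have hφN : ‖nbΦ TN.toFC u ζ (nbφ S)‖ ≤ δ * ν := by
    rw [nbΦ, nb_norm_le (by positivity)]
    refine (TN.mom c hu hz.cen bφ le_rfl (by positivity) (nbφ_sq S)).trans ?_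
    rw [mul_pow, zero_add]
    gcongr
  have hφD : ‖D (nbφ S)‖ ≤ 4 * (γ * K * ν) := by
    have e : ∀ F : FC H, nbΦ F u ζ (nbφ S) = (2 : ℂ) • WithLp.toLp 2 ζ +
        ((-2 : ℂ) • nbΦ F u ζ (rs S) + (2 : ℂ) • nbΦ F u ζ (rs (-S))) := fun F => by
      rw [← nbΦ_const F u, ← nbΦ_smul F u ζ _ (bc_rs _), ← nbΦ_smul F u ζ _ (bc_rs _),
        ← nbΦ_add F u ζ ((BC.const _).mul (bc_rs _)) ((BC.const _).mul (bc_rs _)),
        ← nbΦ_add F u ζ (BC.const _)
          (((BC.const _).mul (bc_rs _)).add ((BC.const _).mul (bc_rs _)))]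
      rfl
    have e2 : D (nbφ S) = (-2 : ℂ) • D (rs S) + (2 : ℂ) • D (rs (-S)) := by
      simp only [hD, e, smul_sub]
      abel
    have h1 := hrs S (by rw [abs_of_nonneg hS0]; exact le_max_left _ _)
    have h2 := hrs (-S) (by rw [abs_neg, abs_of_nonneg hS0]; exact le_max_left _ _)
    rw [e2]
    refine (norm_add_le _ _).trans ?_
    rw [norm_smul, norm_smul, norm_neg, Complex.norm_two]
    linarith
  set m : ℝ → ℂ := fun x => c₀ + ∑ k, a k * rs (s k) x with hm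
  have bm' : BC fun x => ∑ k, a k * rs (s k) x :=
    BC.sum _ fun k _ => (BC.const _).mul (bc_rs _)
  have bm : BC m := (BC.const _).add bm'
  have hmD : ‖D m‖ ≤ |C₁| * (γ * K * ν) := by
    have e : ∀ F : FC H, nbΦ F u ζ m = c₀ • WithLp.toLp 2 ζ +
        ∑ k, a k • nbΦ F u ζ (rs (s k)) := fun F => by
      rw [hm, nbΦ_add F u ζ (BC.const _) bm', nbΦ_const,
        nbΦ_sum F u ζ _ fun k => (BC.const _).mul (bc_rs _)]
      simp only [nbΦ_smul F u ζ _ (bc_rs _)]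
    have e2 : D m = ∑ k, a k • D (rs (s k)) := by
      simp only [hD, e, smul_sub, Finset.sum_sub_distrib]
      abel
    rw [e2]
    refine (norm_sum_le _ _).trans ?_
    calc _ ≤ ∑ k, ‖a k‖ * (γ * K * ν) := Finset.sum_le_sum fun k _ => by
          rw [norm_smul]
          exact mul_le_mul_of_nonneg_left (hrs _ ((hs k).trans (le_max_right _ _))) (norm_nonneg _)
      _ ≤ _ := by
          rw [← Finset.sum_mul]
          exact mul_le_mul_of_nonneg_right (ha.trans (le_abs_self _)) (by positivity)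
  set E : ℝ → ℂ := fun x => Complex.exp (Complex.I * t * x) with hE
  have bE : BC E := BC.expI t
  have hω : ∀ F : FC H, ‖nbΦ F u ζ fun x => E x - m x‖ ≤ δ * ν + ‖nbΦ F u ζ (nbφ S)‖ := by
    intro F
    refine (nbΦ_mono F u ζ (bE.sub bm) ((BC.const (δ : ℂ)).add bφ) fun x => ?_).trans ?_
    · obtain ⟨r, hr, hr0, hr1⟩ := nbφ_real S x
      have h1 : ‖E x * (1 - χ x)‖ ≤ r := by
        rw [norm_mul, hE, fca_norm_exp, one_mul]
        rcases le_total |x| S with h | h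
        · simpa [hχ1 x h] using hr0
        · rw [← Complex.ofReal_one, ← Complex.ofReal_sub, Complex.norm_real,
            Real.norm_of_nonneg (by linarith [(hχ01 x).2])]
          linarith [(hχ01 x).1, hr1 h]
      have h2 := norm_add_le_of_le (happ x) h1
      rw [hr, ← Complex.ofReal_add, Complex.norm_real, Real.norm_of_nonneg (by positivity)]
      refine le_trans (le_of_eq (congrArg norm ?_)) h2
      simp only [hm, hE]
      ring
    · rw [nbΦ_add F u ζ (BC.const _) bφ, nbΦ_const]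
      refine norm_add_le_of_le ?_ le_rfl
      rw [norm_smul, Complex.norm_real, Real.norm_of_nonneg hδ0.le]
      gcongr
  have hED : ‖D E‖ ≤ √ε * ν := by
    have e : ∀ F : FC H, nbΦ F u ζ E = nbΦ F u ζ m + nbΦ F u ζ fun x => E x - m x := fun F => by
      rw [← nbΦ_add F u ζ bm (bE.sub bm)]
      simp
    have e2 : D E = D m + ((nbΦ TM.toFC u ζ fun x => E x - m x) -
        nbΦ TN.toFC u ζ fun x => E x - m x) := by
      simp only [hD]
      rw [e TM.toFC, e TN.toFC]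
      abel
    have h1 : ‖nbΦ TM.toFC u ζ (nbφ S)‖ ≤ ‖D (nbφ S)‖ + ‖nbΦ TN.toFC u ζ (nbφ S)‖ :=
      norm_le_norm_sub_add _ _
    have h2 : (|C₁| + 4) * (γ * K * ν) ≤ 4 * δ * ν := by
      rw [le_div_iff₀ (by positivity)] at hγ0
      nlinarith [mul_le_mul_of_nonneg_right hγ0 hν0]
    have h3 := norm_add_le_of_le hmD (norm_sub_le_of_le (hω TM.toFC) (hω TN.toFC))
    rw [e2]
    refine h3.trans ?_
    have h4 : √ε * ν = 8 * (δ * ν) := by rw [hδ]; ring
    linarith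
  have e3 : ∀ (F : FC H) (j : c.ι), F.V t (ζ j) =
      Complex.exp (Complex.I * t * u j) • F.fn (fun x => E (x - u j)) (ζ j) := fun F j => by
    rw [← smul_apply, ← F.fn_smul _ (bE.comp_sub _), FC.V]
    congr 2
    funext x
    rw [hE, ← Complex.exp_add]
    push_cast
    ring_nf
  have h5 := (nb_norm_le (v := fun j => TM.fn (fun x => E (x - u j)) (ζ j) -
    TN.fn (fun x => E (x - u j)) (ζ j)) (b := √ε * ν) (by positivity)).1 hED
  rw [mul_pow, Real.sq_sqrt hε.le] at h5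
  refine le_trans (le_of_eq (Finset.sum_congr rfl fun j _ => ?_)) h5
  rw [e3, e3, ← smul_sub, norm_smul, fca_norm_exp, one_mul]

end

end Crest.Agent.R78
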