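import Crest.Agent.R78.GP
import Crest.Agent.R78.Cpl
import Crest.Agent.R78.NarrowAux
import Crest.Agent.R78.NarrowA

/-!
# Row 78: the narrow estimate
-/

open scoped InnerProductSpace Topology ComplexConjugate
open Filter MeasureTheory

set_option linter.unusedSectionVars false

namespace Crest.Agent.R78

open Crest.Agent.R121 (Alg)

noncomputable section

universe u

variable {H : Type*} [NormedAddCommGroup H] [InnerProductSpace ℂ H] [CompleteSpace H]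

/-- Decomposition of a coupled family along the two graphs. Recipe: `k_j t = k0 t e^{-i t s_j}`
(`ker_k0`, `Ker.shift`, `s_j = u_j + s`), `x_j = e^{s_j/2} sig k_j (J a'_j⋆ J)`,
`y_j = e^{-s_j/2} sig k_j (J a_j⋆ J)`; use `frel`, `srel`, `star_sig`, `col_sig`, `∫ k0 = 1/2`. -/
theorem Tom.decomp {A B : VN H} {ξ : H} (T : Tom A B ξ) (c : Cpl A B ξ) {u : c.ι → ℝ} {Λ : ℝ}
    (hΛ : 0 ≤ Λ) (hc : c.SoftAt Finset.univ u Λ) (s : ℝ) :
    ∃ x y : c.ι → Op H, (∀ j, x j ∈ A) ∧ (∀ j, y j ∈ B) ∧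
      (∀ j, x j ξ = T.fn (rs (u j + s)) (c.a j ξ)) ∧ (∀ j, x j ξ + y j ξ = c.a j ξ) ∧
      (∀ j, (Real.exp (-(u j + s) / 2) : ℂ) • star (x j) ξ =
        (Real.exp ((u j + s) / 2) : ℂ) • star (y j) ξ) ∧
      Col x (Real.exp ((Λ + |s|) / 2)) ∧ Col y (Real.exp ((Λ + |s|) / 2)) ∧
      (∀ v, ∑ j, Real.exp (-(u j + s)) * ‖star (x j) v‖ ^ 2 ≤ ‖v‖ ^ 2) ∧
      ∀ v, ∑ j, Real.exp (u j + s) * ‖star (y j) v‖ ^ 2 ≤ ‖v‖ ^ 2 := by
  have _ := hΛ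
  exact nra_decomp T c hc s

/-- The resolvents agree. Recipe: `decomp` for `TN`; `gp` for `N → M` (family `x`, vector `z ξ`) and
for `N' → M'` (family `y`, centres `-(u + s)`); `Tom.res` for `TM` applied to `x̃ z`, `ỹ z`. -/
theorem res_agree : ∃ C > 0, ∀ {H : Type u} [NormedAddCommGroup H] [InnerProductSpace ℂ H]
    [CompleteSpace H] {M N : VN H} {ξ : H} (TM : Tom M M.commutant ξ) (TN : Tom N N.commutant ξ)
    {γ : ℝ}, 0 ≤ γ → Close M N γ → (∀ z, Cen M z ↔ Cen N z) →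
    ∀ (c : Cpl N N.commutant ξ) {u : c.ι → ℝ} {Λ : ℝ}, 0 ≤ Λ → c.SoftAt Finset.univ u Λ →
    ∀ {z : Op H}, CP N z → ∀ s : ℝ,
    ∑ j, ‖TM.fn (rs (u j + s)) (c.a j (z ξ)) - TN.fn (rs (u j + s)) (c.a j (z ξ))‖ ^ 2 ≤
      C * γ ^ 2 * Real.exp (Λ + |s|) * ‖z ξ‖ ^ 2 := by
  exact nra_res_agree

/-- Stone–Weierstrass. Recipe: in the variable `r = 1/(1 + e^x) ∈ [0, 1]`, `rs s` becomes
`r / (r + e^{-s} (1 - r))`; the closure of the span of `1` and these functions in `C([0,1], ℝ)`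
is a subalgebra (partial fractions for `s ≠ s'`, a limit for `s = s'`) separating points; a
continuous compactly supported function of `x` is a continuous function of `r ∈ [0, 1]`. -/
theorem approx_rs {f : ℝ → ℂ} (hf : Continuous f) (hs : HasCompactSupport f) {ε : ℝ}
    (hε : 0 < ε) : ∃ (n : ℕ) (c₀ : ℂ) (c : Fin n → ℂ) (s : Fin n → ℝ),
      ∀ x, ‖f x - c₀ - ∑ k, c k * rs (s k) x‖ ≤ ε := by
  exact nb_approx_rs hf hs hε

/-- Uniformity in `t` (finite net in `[-1, 1]`). -/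
theorem approx_rs_unif {χ : ℝ → ℝ} (hf : Continuous χ) (hs : HasCompactSupport χ) {ε : ℝ}
    (hε : 0 < ε) : ∃ C S : ℝ, ∀ t : ℝ, |t| ≤ 1 → ∃ (n : ℕ) (c₀ : ℂ) (c : Fin n → ℂ)
      (s : Fin n → ℝ), ∑ k, ‖c k‖ ≤ C ∧ (∀ k, |s k| ≤ S) ∧
      ∀ x : ℝ, ‖Complex.exp (Complex.I * t * x) * χ x - c₀ - ∑ k, c k * rs (s k) x‖ ≤ ε := by
  exact nb_approx_rs_unif hf hs hε

/-- The narrow estimate. Recipe: choose `S` large, `χ` continuous with compact support,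
`0 ≤ χ ≤ 1`, `χ = 1` on `[-S, S]`. `V_t ζ_j = e^{i t u_j} fn (e^{i t (x - u_j)}) ζ_j`; split
`e^{itx} = e^{itx} χ + e^{itx} (1 - χ)`. `|1 - χ|² ≤ 4 |1 - rs S|² + 4 |rs (-S)|²`; for `TN` these
are `≤ e^{-S} (e^x + e^{-x})` (`Tom.mom`), for `TM` use `res_agree`. The main part by
`approx_rs_unif`, `res_agree` and Minkowski (`rs (u + s) x = rs s (x - u)`). -/
theorem narrow (Λ : ℝ) {ε : ℝ} (hε : 0 < ε) : ∃ γ₀ > 0, ∀ {H : Type u} [NormedAddCommGroup H]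
    [InnerProductSpace ℂ H] [CompleteSpace H] {M N : VN H} {ξ : H} (TM : Tom M M.commutant ξ)
    (TN : Tom N N.commutant ξ) {γ : ℝ}, 0 ≤ γ → γ ≤ γ₀ → Close M N γ →
    (∀ z, Cen M z ↔ Cen N z) → ∀ {t : ℝ}, |t| ≤ 1 → ∀ {z : Op H}, CP N z →
    ∀ c : Cpl N N.commutant ξ, c.Soft Λ →
    ∑ j, ‖TM.V t (c.a j (z ξ)) - TN.V t (c.a j (z ξ))‖ ^ 2 ≤ ε * ‖z ξ‖ ^ 2 := by
  exact nb_narrow res_agree Λ hε

end

end Crest.Agent.R78
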