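import Crest.Agent.R78.I0
import Crest.Agent.R78.Narrow
import Crest.Agent.R78.LKK
import Crest.Agent.R78.Amen
import Crest.Agent.R78.Stmt

/-!
# Row 78: making `N` invariant under the modular group of `M`
-/

open scoped InnerProductSpace Topology ComplexConjugate
open Filter MeasureTheory

set_option linter.unusedSectionVars false

namespace Crest.Agent.R78

open Crest.Agent.R121 (Alg)

noncomputable section

universe u

variable {H : Type*} [NormedAddCommGroup H] [InnerProductSpace ℂ H] [CompleteSpace H]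

theorem std_near {M N : VN H} {γ : ℝ} (hγ : 0 ≤ γ) (hγ1 : γ ≤ 1) (h : Close M N γ)
    {u : unitary (Op H)} (hu : Nrm M u) : Near (conjVN u N) N (3 * γ) := by
  have h1 := h.2.conj u
  rw [hu.conjVN_eq] at h1
  exact (h1.trans h.1 hγ hγ).mono (by nlinarith)

theorem std_near2 {M N : VN H} {γ : ℝ} (hγ : 0 ≤ γ) (hγ1 : γ ≤ 1) (h : Close M N γ)
    {a b : unitary (Op H)} (ha : Nrm N a) (hb : Nrm M b) :
    Near (conjVN (a * b) N) N (3 * γ) ∧ Near (conjVN (a * b)⁻¹ N) N (3 * γ) := by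
  constructor
  · have h1 := (std_near hγ hγ1 h hb).conj a
    rwa [ha.conjVN_eq, ← conjVN_mul] at h1
  · rw [mul_inv_rev, conjVN_mul, ha.inv.conjVN_eq]
    exact std_near hγ hγ1 h hb.inv

/-- The twist system `W = V^N_{-t} V^M_t`. Recipe: `V_ξ`, `cen_fn`; `V^M_t N V^M_{-t}` is near `M`
(`Near.conj`, `nrm_Vu`, `Nrm.conjVN_eq`), which is near `N` (`Near.trans`); `Close.commutant` for
the commutants. -/
theorem exists_tw {M N : VN H} {ξ : H} (TM : Tom M M.commutant ξ) (TN : Tom N N.commutant ξ)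
    {γ : ℝ} (hγ : 0 ≤ γ) (hγ1 : 4200 * γ ≤ 1) (h : Close M N γ) (hz : ∀ z, Cen M z ↔ Cen N z)
    (t : ℝ) : ∃ S : Tw N N.commutant ξ (12600 * γ), (S.W : Op H) = TN.V (-t) * TM.V t := by
  obtain ⟨h1, h2⟩ := std_near2 hγ (by linarith) h (TN.nrm_Vu (-t)) (TM.nrm_Vu t)
  obtain ⟨h3, h4⟩ := std_near2 (by positivity) hγ1 (h.commutant hγ) (TN.nrm_Vu (-t)).commutant
    (TM.nrm_Vu t).commutant
  refine ⟨⟨TN, TN.Vu (-t) * TM.Vu t, ?_, fun z hz' => ?_, h1.mono (by linarith),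
    h2.mono (by linarith), h3.mono (by linarith), h4.mono (by linarith)⟩, rfl⟩
  · change TN.V (-t) (TM.V t ξ) = ξ
    rw [TM.V_ξ, TN.V_ξ]
  · exact (TN.cen_fn z hz' (BC.expI (-t))).mul_right (TM.cen_fn z ((hz z).2 hz') (BC.expI t))

/-- Small times. Recipe: `i0`, `narrow` (`‖(V^N_{-t} V^M_t - 1) v‖ = ‖V^M_t v - V^N_t v‖`);
`V^N_t u u'` normalises `N`. -/
theorem dn_small {ε : ℝ} (hε : 0 < ε) : ∃ γ₀ > 0, ∀ {H : Type u} [NormedAddCommGroup H]
    [InnerProductSpace ℂ H] [CompleteSpace H] {M N : VN H} {ξ : H} (TM : Tom M M.commutant ξ)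
    (_ : Tom N N.commutant ξ) {γ : ℝ}, 0 ≤ γ → γ ≤ γ₀ → Close M N γ →
    (∀ z, Cen M z ↔ Cen N z) → ∀ t : ℝ, |t| ≤ 1 → DN N (TM.V t) ε := by
  obtain ⟨Λ, δ, hδ, h1⟩ := i0.{u} hε
  obtain ⟨γ₁, hγ₁, h2⟩ := narrow.{u} Λ hδ
  refine ⟨min γ₁ (min (δ / 12600) (1 / 4200)), by positivity, ?_⟩
  intro H _ _ _ M N ξ TM TN γ hγ hγ0 hc hz t ht
  obtain ⟨a1, a2⟩ := le_min_iff.1 hγ0
  obtain ⟨a2, a3⟩ := le_min_iff.1 a2
  obtain ⟨S, hS⟩ := exists_tw TM TN hγ (by linarith) hc hz t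
  obtain ⟨u, u', hu, hu', h3⟩ := h1 S (by positivity) (by linarith) fun z hz' c hc' => by
    refine le_trans (le_of_eq ?_) (h2 TM TN hγ a1 hc hz ht hz' c hc')
    refine Finset.sum_congr rfl fun j _ => ?_
    have e : (S.W : Op H) - 1 = TN.V (-t) * (TM.V t - TN.V t) := by
      rw [hS, mul_sub, TN.V_neg_mul]
    rw [e]
    change ‖TN.V (-t) (TM.V t (c.a j (z ξ)) - TN.V t (c.a j (z ξ)))‖ ^ 2 = _
    rw [TN.norm_V_apply]
  refine ⟨TN.Vu t * (u * u'), (TN.nrm_Vu t).mul ((nrm_of_mem hu).mul (nrm_of_mem_commutant hu')),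
    ?_⟩
  have e : TM.V t - ((TN.Vu t * (u * u') : unitary (Op H)) : Op H) =
      (TN.Vu t : Op H) * ((S.W : Op H) - (u : Op H) * (u' : Op H)) := by
    rw [hS, mul_sub, FC.coe_Vu, ← mul_assoc (TN.V t) (TN.V (-t)), TN.V_mul_neg, one_mul]
    rfl
  rwa [e, CStarRing.norm_coe_unitary_mul]

/-- All times. Recipe: `AlmN N (V t) (6 γ)` for all `t` (`almN_of_near`); induction on `⌈|t|⌉` with
`DN.mul` and `lkk` (bound `min ε δ₀ / 2` is reproduced when `6 C γ` is below it). -/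
theorem dn_all {ε : ℝ} (hε : 0 < ε) : ∃ γ₀ > 0, ∀ {H : Type u} [NormedAddCommGroup H]
    [InnerProductSpace ℂ H] [CompleteSpace H] {M N : VN H} {ξ : H} (TM : Tom M M.commutant ξ)
    (_ : Tom N N.commutant ξ) {γ : ℝ}, 0 < γ → γ ≤ γ₀ → Close M N γ →
    (∀ z, Cen M z ↔ Cen N z) → ∀ t : ℝ, AlmN N (TM.V t) (6 * γ) ∧ DN N (TM.V t) ε := by
  obtain ⟨C, hC, δ, hδ, h1⟩ := lkk.{u}
  have he : 0 < min ε δ / 2 := by positivity
  have b1 : min ε δ / 2 ≤ ε := by linarith [min_le_left ε δ]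
  have b2 : min ε δ / 2 + min ε δ / 2 ≤ δ := by linarith [min_le_right ε δ]
  generalize min ε δ / 2 = e at he b1 b2
  obtain ⟨γ₁, hγ₁, h2⟩ := dn_small.{u} he
  refine ⟨min γ₁ (min 1 (e / (6 * C))), by positivity, ?_⟩
  intro H _ _ _ M N ξ TM TN γ hγ hγ0 hc hz
  obtain ⟨a1, a2⟩ := le_min_iff.1 hγ0
  obtain ⟨a2, a3⟩ := le_min_iff.1 a2
  rw [le_div_iff₀ (by positivity)] at a3
  have hA : ∀ t, AlmN N (TM.V t) (6 * γ) := fun t =>
    (almN_of_near (std_near hγ.le a2 hc (TM.nrm_Vu t))).mono (by linarith)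
  have key : ∀ n : ℕ, ∀ t : ℝ, |t| ≤ n + 1 → DN N (TM.V t) e := by
    intro n
    induction n with
    | zero => exact fun t ht => h2 TM TN hγ.le a1 hc hz t (by simpa using ht)
    | succ n ih =>
      intro t ht
      have hn : (0 : ℝ) < n + 2 := by positivity
      have c1 : |t / (n + 2)| ≤ 1 := by
        rw [abs_div, abs_of_pos hn, div_le_one hn]
        push_cast at ht
        linarith
      have c2 : |t - t / (n + 2)| ≤ n + 1 := by
        rw [show t - t / (n + 2) = (n + 1) * (t / (n + 2)) by field_simp; ring, abs_mul,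
          abs_of_pos (by positivity : (0 : ℝ) < n + 1)]
        exact mul_le_of_le_one_right (by positivity) c1
      have c3 := DN.mul (X := TM.Vu (t - t / (n + 2))) (Y := TM.Vu (t / (n + 2))) (ih _ c2)
        (h2 TM TN hγ.le a1 hc hz _ c1)
      rw [FC.coe_Vu, FC.coe_Vu, ← TM.V_add, sub_add_cancel] at c3
      exact (h1 N (TM.Vu t) (by positivity) (hA t) (c3.mono b2)).mono (by linarith)
  intro t
  obtain ⟨n, hn⟩ := exists_nat_ge |t|
  exact ⟨hA t, (key n t (by linarith)).mono b1⟩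

/-- Recipe: `exists_tom` for `M` and `N`, `dn_all`, `invariance` for `TM.Vhom` with
`mean_comm (Multiplicative ℝ)`, `Close.conj_right`, `LinNear.of_conj`. -/
theorem solv_std (h : Solv KKInv.{u}) : Solv KKStd.{u} := by
  intro ε hε
  obtain ⟨γ₁, hγ₁, h1⟩ := h (ε / 2) (by positivity)
  obtain ⟨C, hC, d, hd, δ, hδ, h2⟩ := invariance.{u, 0}
  obtain ⟨γ₂, hγ₂, h3⟩ := dn_all.{u} hδ
  have h0 : 0 < min (min γ₂ (d / 6)) (min 1 (min (γ₁ / (1 + 24 * C)) (ε / (24 * C)))) := by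
    positivity
  refine ⟨_, h0, ?_⟩
  obtain ⟨a1, a2⟩ := le_min_iff.1
    (le_refl (min (min γ₂ (d / 6)) (min 1 (min (γ₁ / (1 + 24 * C)) (ε / (24 * C))))))
  generalize min (min γ₂ (d / 6)) (min 1 (min (γ₁ / (1 + 24 * C)) (ε / (24 * C)))) = γ at h0 a1 a2
  obtain ⟨a1, a3⟩ := le_min_iff.1 a1
  obtain ⟨a2, a4⟩ := le_min_iff.1 a2
  obtain ⟨a4, a5⟩ := le_min_iff.1 a4
  rw [le_div_iff₀ (by positivity)] at a4 a5
  intro H _ _ _ _ M N ξ hz c1 c2 c3 c4 hc
  obtain ⟨TM⟩ := exists_tom rfl c1 c2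
  obtain ⟨TN⟩ := exists_tom rfl c3 c4
  obtain ⟨m⟩ := mean_comm (Multiplicative ℝ)
  have h4 := h3 TM TN h0 a1 hc hz
  obtain ⟨u, hu, h5⟩ := h2 m TM.Vhom N (d := 6 * γ) (by positivity) (by linarith)
    (fun g => (h4 g.toAdd).1) fun g => (h4 g.toAdd).2
  have h6 := h1 H M (conjVN u N) ξ TM (fun t y hy => by
    have := (h5 (Multiplicative.ofAdd t) y hy).1
    rw [← TM.star_V]
    exact this) ((hc.conj_right h0.le a2 hu).mono (by linarith))
  exact (h6.of_conj hu).mono (by linarith)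

end

end Crest.Agent.R78
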