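import Crest.Agent.R78.Chr
import Crest.Agent.R78.Amen
import Crest.Agent.R78.L2VN
import Crest.Agent.R78.Stmt

/-!
# Row 78: aligning the centres, amplification
-/

open scoped InnerProductSpace Topology ComplexConjugate
open Filter MeasureTheory

set_option linter.unusedSectionVars false

namespace Crest.Agent.R78

open Crest.Agent.R121 (Alg)

noncomputable section

universe u

variable {H : Type*} [NormedAddCommGroup H] [InnerProductSpace ℂ H] [CompleteSpace H]

open TopologicalSpace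

theorem zen_norm_le_one {a : Op H} (h : star a * a = 1) : ‖a‖ ≤ 1 := by
  have h1 : ‖a‖ * ‖a‖ ≤ 1 := by
    rw [← CStarRing.norm_star_mul_self, h]
    exact ContinuousLinearMap.norm_id_le
  nlinarith [norm_nonneg a]

theorem zen_norm_unitary_le (u : unitary (Op H)) : ‖(u : Op H)‖ ≤ 1 := zen_norm_le_one u.2.1

theorem zen_sym_sq {z : Op H} (hz : IsStarProjection z) : (1 - (z + z)) * (1 - (z + z)) = 1 := by
  have h := hz.isIdempotentElem.eq
  simp only [mul_sub, sub_mul, mul_add, add_mul, one_mul, mul_one, h]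
  abel

theorem zen_proj_near {M N : VN H} {γ : ℝ} (h : Near M N γ) (hγ : 0 ≤ γ) (hγ' : γ ≤ 1 / 32)
    {z : Op H} (hz : IsStarProjection z) (hzM : z ∈ M) :
    ∃ q ∈ N, IsStarProjection q ∧ ‖q - z‖ ≤ 10 * γ := by
  obtain ⟨y, hy, hzy⟩ := h z hzM
  refine exists_proj_mem_near hy hz hγ' ?_
  rw [norm_sub_rev]
  exact hzy.trans (mul_le_of_le_one_right hγ hz.norm_le)

/-- Bessel: `s_n⋆ ξ` gets small. -/
theorem zen_small (s : ℕ → Op H) (ho : ∀ i j, star (s i) * s j = if i = j then 1 else 0) (ξ : H)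
    {ε : ℝ} (hε : 0 < ε) : ∃ n, ‖star (s n) ξ‖ < ε := by
  by_contra hcon
  push Not at hcon
  obtain ⟨N, hN⟩ := exists_nat_gt (‖ξ‖ ^ 2 / ε ^ 2)
  rw [div_lt_iff₀ (by positivity)] at hN
  have hp : IsStarProjection (∑ j : Fin N, s j * star (s j)) := by
    constructor
    · show (∑ j : Fin N, s j * star (s j)) * (∑ j : Fin N, s j * star (s j)) = _
      rw [Finset.sum_mul_sum]
      refine Finset.sum_congr rfl fun i _ => ?_
      rw [Finset.sum_eq_single i]
      · rw [mul_assoc, ← mul_assoc (star (s i)), ho, if_pos rfl, one_mul]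
      · intro j _ hj
        rw [mul_assoc, ← mul_assoc (star (s i)), ho,
          if_neg fun e => hj (Fin.ext e).symm, zero_mul, mul_zero]
      · intro hi
        exact absurd (Finset.mem_univ i) hi
    · show star (∑ j : Fin N, s j * star (s j)) = _
      simp only [star_sum, star_mul, star_star]
  have hcol : Col (fun j : Fin N => star (s j)) 1 := by
    rw [col_iff_norm zero_le_one]
    simp only [star_star, one_pow]
    exact hp.norm_le
  have h1 := hcol ξ
  have h2 : ∑ _j : Fin N, ε ^ 2 ≤ ∑ j : Fin N, ‖star (s j) ξ‖ ^ 2 :=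
    Finset.sum_le_sum fun j _ => pow_le_pow_left₀ hε.le (hcon j) 2
  rw [Finset.sum_const, Finset.card_univ, Fintype.card_fin, nsmul_eq_mul] at h2
  linarith

/-- The injections `n ↦ pair i n`. -/
def zenF (i : ℕ) : ℕ ↪ ℕ := ⟨Nat.pair i, fun _ _ h => (Nat.pair_eq_pair.1 h).2⟩

theorem zen_emb_orth (i j : ℕ) :
    star (emb H (zenF i)) * emb H (zenF j) = if i = j then 1 else 0 := by
  split_ifs with h
  · rw [h, star_emb_mul_emb]
  · exact star_emb_mul_emb_of_ne fun a b e => h (Nat.pair_eq_pair.1 e).1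

/-- Recipe: let `S` be the set of central symmetries `1 - 2z` of `M`; `mean_pauli` and
`christensen` (with `π = (Subgroup.closure S).subtype`, `Near.comm_le`) give `u` with all central
projections `z` of `M` in `N₁ = conjVN u N`. `z` is near `N₁'` (`Close.conj_right`,
`Near.commutant`), so near a projection `q ∈ N₁'` (`exists_proj_mem_near`), which commutes with
`z ∈ N₁`, so `z = q` (`proj_eq_of_commute`). Conversely a central projection `w` of `N₁` is near
projections `p ∈ M`, `p' ∈ M'`, which are equal, central in `M`, hence in `N₁`, hence equal to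
`w`. Finish with `cen_mem_of_cp`. -/
theorem align_centres : ∃ C > 0, ∃ γ₀ > 0, ∀ {H : Type u} [NormedAddCommGroup H]
    [InnerProductSpace ℂ H] [CompleteSpace H] {M N : VN H} {γ : ℝ}, 0 ≤ γ → γ ≤ γ₀ →
    Close M N γ → ∃ u : unitary (Op H), ‖(u : Op H) - 1‖ ≤ C * γ ∧
      ∀ z, Cen M z ↔ Cen (conjVN u N) z := by
  obtain ⟨C, hC, d₀, hd₀, chr⟩ := christensen.{u, u}
  refine ⟨2 * C, by positivity, min (d₀ / 2) (1 / (1000000 * (1 + 8 * C))), by positivity, ?_⟩
  intro H _ _ _ M N γ hγ hγ₀ h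
  have hγ1 : 2 * γ ≤ d₀ := by linarith [hγ₀.trans (min_le_left _ _)]
  have hγ2 : (1 + 8 * C) * γ ≤ 1 / 1000000 := by
    have h1 := hγ₀.trans (min_le_right _ _)
    rw [le_div_iff₀ (by positivity)] at h1
    linarith
  have hγ3 : γ ≤ 1 := by nlinarith [mul_nonneg hC.le hγ]
  let S : Set (unitary (Op H)) := {a | ∃ z, CP M z ∧ (a : Op H) = 1 - (z + z)}
  have hSM : ∀ a ∈ S, (a : Op H) ∈ M ∧ (a : Op H) ∈ M.commutant := by
    rintro a ⟨z, hz, ha⟩
    rw [ha]
    exact ⟨sub_mem (one_mem _) (add_mem hz.2.1 hz.2.1),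
      sub_mem (one_mem _) (add_mem hz.2.2 hz.2.2)⟩
  obtain ⟨m⟩ := mean_pauli S (by
      rintro a ⟨z, hz, ha⟩
      refine Subtype.ext ?_
      show (a : Op H) * (a : Op H) = 1
      rw [ha]
      exact zen_sym_sq hz.1)
    (fun a ha b hb => Or.inl (mem_comm.1 (hSM b hb).2 _ (hSM a ha).1).eq)
  have hGM : ∀ g ∈ Subgroup.closure S, (g : Op H) ∈ M := by
    intro g hg
    induction hg using Subgroup.closure_induction with
    | mem b hb => exact (hSM b hb).1
    | one => exact one_mem _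
    | mul x y _ _ hx hy => exact mul_mem hx hy
    | inv x _ hx => exact star_mem hx
  obtain ⟨u, hu, huN, -⟩ := chr m (Subgroup.closure S).subtype N (d := 2 * γ) (by positivity) hγ1
    (fun g y hy => by
      refine (h.1.comm_le (hGM g g.2) hy).trans ?_
      have h1 := zen_norm_unitary_le (g : unitary (Op H))
      have h2 : 0 ≤ 2 * γ * ‖y‖ := by positivity
      nlinarith)
  refine ⟨u, by linarith, ?_⟩
  set N₁ := conjVN u N with hN₁
  have hc : Close M N₁ (1 / 1000000) :=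
    (h.conj_right hγ hγ3 hu).mono (by linarith)
  have hc' : Close M.commutant N₁.commutant (4200 * (1 / 1000000)) := hc.commutant (by norm_num)
  have key1 : ∀ z, CP M z → z ∈ N₁ := by
    intro z hz
    have hmem : 1 - (z + z) ∈ unitary (Op H) := by
      have hs : star (1 - (z + z)) = 1 - (z + z) := by
        rw [star_sub, star_add, star_one, hz.1.isSelfAdjoint.star_eq]
      exact ⟨by rw [hs]; exact zen_sym_sq hz.1, by rw [hs]; exact zen_sym_sq hz.1⟩
    have h1 : 1 - (z + z) ∈ N₁ :=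
      huN ⟨⟨_, hmem⟩, Subgroup.subset_closure ⟨z, hz, rfl⟩⟩
    have h2 : z = (2⁻¹ : ℂ) • (1 - (1 - (z + z))) := by
      rw [sub_sub_cancel, ← two_smul ℂ z, smul_smul]
      norm_num
    rw [h2]
    exact smul_mem' _ (sub_mem (one_mem _) h1)
  have key2 : ∀ z, CP M z → z ∈ N₁.commutant := by
    intro z hz
    obtain ⟨q, hq, hqp, hqz⟩ := zen_proj_near hc'.1 (by norm_num) (by norm_num) hz.1 hz.2.2
    have e : q = z := proj_eq_of_commute hqp hz.1 (mem_comm.1 hq z (key1 z hz)).symm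
      (hqz.trans_lt (by norm_num))
    exact e ▸ hq
  have key3 : ∀ w, CP N₁ w → CP M w := by
    intro w hw
    obtain ⟨p, hp, hpp, hpw⟩ := zen_proj_near hc.2 (by norm_num) (by norm_num) hw.1 hw.2.1
    obtain ⟨p', hp', hpp', hpw'⟩ := zen_proj_near hc'.2 (by norm_num) (by norm_num) hw.1 hw.2.2
    have e : p = p' := by
      refine proj_eq_of_commute hpp hpp' (mem_comm.1 hp' p hp) ?_
      have h1 : p - p' = (p - w) - (p' - w) := by abel
      rw [h1]
      refine (norm_sub_le _ _).trans_lt ?_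
      linarith
    have hpc : CP M p := ⟨hpp, hp, e ▸ hp'⟩
    have e' : p = w := proj_eq_of_commute hpp hw.1 (mem_comm.1 hw.2.2 p (key1 p hpc))
      (hpw.trans_lt (by norm_num))
    exact e' ▸ hpc
  intro z
  exact ⟨fun hz => ⟨cen_mem_of_cp key1 hz, cen_mem_of_cp key2 hz⟩, fun hz =>
    ⟨cen_mem_of_cp (fun w hw => (key3 w hw).2.1) hz,
      cen_mem_of_cp (fun w hw => (key3 w hw).2.2) hz⟩⟩

theorem solv_sep (h : Solv KKZen.{u}) : Solv KKSep.{u} := by
  intro ε hε
  obtain ⟨C, hC, γ₀, hγ₀, hal⟩ := align_centres.{u}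
  obtain ⟨γ, hγ, hz⟩ := h (ε / 2) (by positivity)
  refine ⟨min (min γ₀ 1) (min (γ / (1 + 4 * C)) (ε / (4 * C))), by positivity, ?_⟩
  set g := min (min γ₀ 1) (min (γ / (1 + 4 * C)) (ε / (4 * C))) with hg
  have hg0 : 0 ≤ g := by positivity
  have h1 : g ≤ γ₀ := (min_le_left _ _).trans (min_le_left _ _)
  have h2 : g ≤ 1 := (min_le_left _ _).trans (min_le_right _ _)
  have h3 : g * (1 + 4 * C) ≤ γ :=
    (le_div_iff₀ (by positivity)).1 ((min_le_right _ _).trans (min_le_left _ _))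
  have h4 : g * (4 * C) ≤ ε :=
    (le_div_iff₀ (by positivity)).1 ((min_le_right _ _).trans (min_le_right _ _))
  intro H _ _ _ _ M N hMN
  obtain ⟨u, hu, hc⟩ := hal hg0 h1 hMN
  exact ((hz H M _ hc ((hMN.conj_right hg0 h2 hu).mono (by linarith))).of_conj hu).mono
    (by linarith)

/-- Cyclic vectors are generic when `P` contains isometries with orthogonal ranges. Recipe: for a
dense sequence `η_k`, `{ξ | ∃ a ∈ P, ‖η_k - a ξ‖ < 1/(m+1)}` is open, and dense:
`ξ = ξ₀ - s_n s_n⋆ ξ₀ + δ s_n η` has `s_n⋆ ξ = δ η`, and `s_n⋆ ξ₀ → 0` by Bessel. -/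
theorem residual_cyc [SeparableSpace H] {P : VN H} (s : ℕ → Op H) (hs : ∀ n, s n ∈ P)
    (ho : ∀ i j, star (s i) * s j = if i = j then 1 else 0) : {ξ | Cyc P ξ} ∈ residual H := by
  have h11 : ∀ n, star (s n) * s n = 1 := fun n => by rw [ho, if_pos rfl]
  have hU : ∀ (η : H) (r : ℝ), 0 < r → {ξ | ∃ a ∈ P, ‖η - a ξ‖ < r} ∈ residual H := by
    intro η r hr
    refine residual_of_dense_open ?_ ?_
    · have : {ξ | ∃ a ∈ P, ‖η - a ξ‖ < r} = ⋃ a ∈ P, {ξ : H | ‖η - a ξ‖ < r} := by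
        ext ξ
        simp only [Set.mem_ofPred_eq, Set.mem_iUnion, exists_prop]
      rw [this]
      exact isOpen_biUnion fun a _ => isOpen_lt (by fun_prop) continuous_const
    · refine Metric.dense_iff.2 fun ξ₀ ε hε => ?_
      obtain ⟨n, hn⟩ := zen_small s ho ξ₀ (half_pos hε)
      set δ : ℝ := ε / (2 * (‖η‖ + 1)) with hδ
      have hδ0 : 0 < δ := by positivity
      have hs1 : ∀ v, ‖s n v‖ ≤ ‖v‖ := fun v => by
        have h1 := (s n).le_opNorm v
        have h2 := zen_norm_le_one (h11 n)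
        nlinarith [norm_nonneg v]
      refine ⟨ξ₀ - s n (star (s n) ξ₀) + (δ : ℂ) • s n η, ?_,
        ((δ : ℂ)⁻¹) • star (s n), smul_mem' _ (star_mem (hs n)), ?_⟩
      · rw [Metric.mem_ball, dist_eq_norm]
        have e : ξ₀ - s n (star (s n) ξ₀) + (δ : ℂ) • s n η - ξ₀ =
            (δ : ℂ) • s n η - s n (star (s n) ξ₀) := by abel
        rw [e]
        refine (norm_sub_le _ _).trans_lt ?_
        rw [norm_smul, Complex.norm_real, Real.norm_of_nonneg hδ0.le]
        have h1 : δ * ‖s n η‖ ≤ ε / 2 := by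
          have h2 : δ * (‖η‖ + 1) = ε / 2 := by rw [hδ]; field_simp
          nlinarith [hs1 η]
        linarith [hs1 (star (s n) ξ₀)]
      · have h1 : ∀ v, star (s n) (s n v) = v := fun v =>
          congrArg (fun T : Op H => T v) (h11 n)
        have hδ' : (δ : ℂ) ≠ 0 := by exact_mod_cast hδ0.ne'
        rw [smul_apply, map_add, map_sub, map_smul, h1, h1, sub_self, zero_add, smul_smul,
          inv_mul_cancel₀ hδ', one_smul, sub_self, norm_zero]
        exact hr
  have hall : (⋂ p : ℕ × ℕ, {ξ | ∃ a ∈ P, ‖denseSeq H p.1 - a ξ‖ < 1 / ((p.2 : ℝ) + 1)}) ∈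
      residual H := countable_iInter_mem.2 fun p => hU _ _ (by positivity)
  refine mem_of_superset hall fun ξ hξ => ?_
  refine Metric.dense_iff.2 fun v ε hε => ?_
  obtain ⟨k, hk⟩ := (denseRange_denseSeq H).exists_dist_lt v (half_pos hε)
  obtain ⟨m, hm⟩ := exists_nat_one_div_lt (half_pos hε)
  obtain ⟨a, ha, hlt⟩ := Set.mem_iInter.1 hξ (k, m)
  refine ⟨a ξ, ?_, a, ha, rfl⟩
  rw [Metric.mem_ball, dist_comm]
  refine (dist_triangle v (denseSeq H k) (a ξ)).trans_lt ?_
  rw [dist_eq_norm (denseSeq H k)]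
  have : ‖denseSeq H k - a ξ‖ < 1 / ((m : ℝ) + 1) := hlt
  linarith

/-- Recipe: `M̃ = dgVN ℕ (ampVN ℕ M)` on `L2 ℕ (L2 ℕ H)`, the same for `N`. `ampVN ℕ P` contains
the isometries `emb H (n ↦ Nat.pair i n)`; `M̃` contains their `dg`, and
`M̃' = ampVN ℕ (ampVN ℕ M)'`. Baire (`dense_of_mem_residual`) gives a common cyclic vector;
centres by `cen_dgVN`, `cen_ampVN`; closeness by `Near.ampVN`, `Near.dgVN`; descent by
`LinNear.of_dg`, `LinNear.of_amp`. -/
theorem solv_zen (h : Solv KKStd.{u}) : Solv KKZen.{u} := by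
  intro ε hε
  obtain ⟨γ, hγ, hs⟩ := h ε hε
  have hcA : 0 < cA := zero_lt_one.trans_le one_le_cA
  refine ⟨γ / cA, by positivity, ?_⟩
  intro H _ _ _ _ M N hc hMN
  have hg : 0 ≤ γ / cA := by positivity
  have e : cA * (γ / cA) = γ := by field_simp
  have : SeparableSpace (L2 ℕ H) := separable_L2
  have : SeparableSpace (L2 ℕ (L2 ℕ H)) := separable_L2
  have r1 : ∀ P : VN H, {ξ | Cyc (dgVN ℕ (ampVN ℕ P)) ξ} ∈ residual (L2 ℕ (L2 ℕ H)) := by
    intro P
    refine residual_cyc (fun i => dg ℕ (emb H (zenF i)))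
      (fun i => mem_dgVN.2 ⟨_, emb_mem_ampVN P _, rfl⟩) fun i j => ?_
    rw [← l2vn_dg_star, ← dgHom_apply, ← dgHom_apply, ← map_mul, zen_emb_orth]
    split_ifs
    · exact map_one _
    · exact map_zero _
  have r2 : ∀ P : VN H,
      {ξ | Cyc (dgVN ℕ (ampVN ℕ P)).commutant ξ} ∈ residual (L2 ℕ (L2 ℕ H)) := by
    intro P
    rw [dgVN_commutant]
    exact residual_cyc (fun i => emb (L2 ℕ H) (zenF i)) (fun i => emb_mem_ampVN _ _) zen_emb_orth
  obtain ⟨ξ, ⟨h1, h2⟩, h3, h4⟩ := (dense_of_mem_residual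
    (inter_mem (inter_mem (r1 M) (r2 M)) (inter_mem (r1 N) (r2 N)))).nonempty
  have hcen : ∀ z, Cen (dgVN ℕ (ampVN ℕ M)) z ↔ Cen (dgVN ℕ (ampVN ℕ N)) z := by
    intro z
    simp only [cen_dgVN, cen_ampVN, hc]
  have hclose : Close (dgVN ℕ (ampVN ℕ M)) (dgVN ℕ (ampVN ℕ N)) γ :=
    ⟨(e ▸ hMN.1.ampVN hg).dgVN hγ.le, (e ▸ hMN.2.ampVN hg).dgVN hγ.le⟩
  exact LinNear.of_amp (I := ℕ) hε.le (fun x hx => dg_mem_ampVN hx) (fun T hT => hT)
    (LinNear.of_dg (I := ℕ) hε.le (hs _ _ _ ξ hcen h1 h2 h3 h4 hclose))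

end

end Crest.Agent.R78
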