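import Crest.Agent.R78.Fin4
import Crest.Agent.R78.Pauli
import Crest.Agent.R78.F0
import Crest.Agent.R78.Cross2
import Crest.Agent.R78.Std
import Crest.Agent.R78.Zen
import Crest.Agent.R78.Sep
import Crest.Agent.R78.Sim

/-!
# Row 78: assembly
-/

open scoped InnerProductSpace Topology ComplexConjugate
open Filter MeasureTheory

set_option linter.unusedSectionVars false

namespace Crest.Agent.R78

open Crest.Agent.R121 (Alg)

noncomputable section

universe u

variable {H : Type*} [NormedAddCommGroup H] [InnerProductSpace ℂ H] [CompleteSpace H]

theorem solv_main : Solv KKAll.{u} :=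
  solv_all (solv_sep (solv_zen (solv_std (solv_inv (solv_tr (solv_cyc solv_q))))))

end

end Crest.Agent.R78
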