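import Crest.Agent.R78.MartA
import Crest.Agent.R78.Basic
import Crest.Agent.R78.Gen

/-!
# Row 78: approximate cocycles: the bi-harmonic martingale argument
-/

open scoped InnerProductSpace Topology ComplexConjugate
open Filter MeasureTheory

set_option linter.unusedSectionVars false

namespace Crest.Agent.R78

open Crest.Agent.R121 (Alg)

noncomputable section

universe u

variable {H : Type*} [NormedAddCommGroup H] [InnerProductSpace ℂ H] [CompleteSpace H]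

/-- Bi-harmonic functions are almost constant. Recipe: let `P c x = ∑ μ_i c (x s_i)`,
`X_j` the random product of `j` steps, `a j = 𝔼 ‖P^{n-j} c (X_j)‖²` for `0 ≤ j ≤ n`. Since
`∑ μ_i (P^m c) (w s_i) = (P^{m+1} c) w`, one has
`a (j+1) - a j = 𝔼_w ∑ μ_i ‖P^m c (w s_i) - P^{m+1} c w‖² ≥ 0` (`m = n - j - 1`), and
`a n - a 0 ≤ W²`; pick `j` with `a (j+1) - a j ≤ W²/n`. Take `κ = (Fin j → ι) × (Fin m → ι)` with
product weights, `k₀ = 𝔼_w ρ w (P^{m+1} c w)` and use convexity of `‖·‖²`. (An inductive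
formulation with an abstract finite probability family for each `j` avoids `Fin`-tuples.) -/
theorem biharm {𝒢 : Type*} [Monoid 𝒢] {K : Type*} [NormedAddCommGroup K] [InnerProductSpace ℂ K]
    {ι : Type} [Fintype ι] (μ : ι → ℝ) (hμ : ∀ i, 0 ≤ μ i) (hμ1 : ∑ i, μ i = 1) (s : ι → 𝒢)
    (c : 𝒢 → K) (ρ : 𝒢 → K →L[ℂ] K) {W Λ : ℝ} (hc : ∀ y, ‖c y‖ ≤ W) (hρ : ∀ w, ‖ρ w‖ ≤ Λ)
    {n : ℕ} (hn : 1 ≤ n) :
    ∃ (κ : Type) (_ : Fintype κ) (p : κ → ℝ) (w z : κ → List ι) (k₀ : K), (∀ t, 0 ≤ p t) ∧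
      ∑ t, p t = 1 ∧ (∀ t, (w t).length ≤ n ∧ (z t).length ≤ n) ∧
      ∑ i, μ i * ‖∑ t, (p t : ℂ) • ρ ((w t).map s).prod
        (c (((w t).map s).prod * s i * ((z t).map s).prod)) - k₀‖ ^ 2 ≤ Λ ^ 2 * W ^ 2 / n :=
  mart_biharm μ hμ hμ1 s c ρ hc hρ hn

/-- An approximate normalised `2`-cocycle `φ` of a `⋆`-algebra with values in a Hilbert space with
almost commuting actions `l`, `r`; `ν` is a size, `dv` a deviation. -/
structure ACoc (𝒜 : Type*) [Ring 𝒜] [StarRing 𝒜] [Algebra ℂ 𝒜] (K : Type*)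
    [NormedAddCommGroup K] [InnerProductSpace ℂ K] (Λ W e : ℝ) where
  /-- the size -/
  ν : 𝒜 → ℝ
  /-- the deviation -/
  dv : 𝒜 → ℝ
  /-- the left action -/
  l : 𝒜 →ₐ[ℂ] (K →L[ℂ] K)
  /-- the right action -/
  r : 𝒜 →ₗ[ℂ] (K →L[ℂ] K)
  /-- the cochain -/
  φ : 𝒜 →ₗ[ℂ] 𝒜 →ₗ[ℂ] K
  ν_nonneg : ∀ a, 0 ≤ ν a
  ν_add : ∀ a b, ν (a + b) ≤ ν a + ν b
  ν_smul : ∀ (c : ℂ) a, ν (c • a) = ‖c‖ * ν a
  ν_mul : ∀ a b, ν (a * b) ≤ ν a * ν b
  ν_star : ∀ a, ν (star a) = ν a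
  ν_unit : ∀ u ∈ unitary 𝒜, ν u ≤ Λ
  dv_nonneg : ∀ a, 0 ≤ dv a
  dv_add : ∀ a b, dv (a + b) ≤ dv a + dv b
  dv_smul : ∀ (c : ℂ) a, dv (c • a) = ‖c‖ * dv a
  dv_mul : ∀ a b, dv (a * b) ≤ Λ * (dv a * ν b + ν a * dv b)
  dv_star : ∀ a, dv (star a) ≤ dv a + e * ν a
  dv_one : dv 1 = 0
  r_one : r 1 = 1
  r_mul : ∀ a b, r (a * b) = r b * r a
  l_le : ∀ a, ‖l a‖ ≤ Λ * ν a
  r_le : ∀ a, ‖r a‖ ≤ Λ * ν a
  lr : ∀ a b, ‖l a * r b - r b * l a‖ ≤ e * ν a * ν b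
  φ_le : ∀ a b, ‖φ a b‖ ≤ W * ν a * ν b
  φ_one_left : ∀ b, φ 1 b = 0
  φ_one_right : ∀ a, φ a 1 = 0
  coc : ∀ a b c, ‖l a (φ b c) - φ (a * b) c + φ a (b * c) - r c (φ a b)‖ ≤
    Λ * W * ν a * (dv b + e * ν b) * ν c

namespace ACoc

variable {𝒜 : Type*} [Ring 𝒜] [StarRing 𝒜] [Algebra ℂ 𝒜] {K : Type*} [NormedAddCommGroup K]
  [InnerProductSpace ℂ K] {Λ W e : ℝ} (D : ACoc 𝒜 K Λ W e)

/-- The coboundary of a `1`-cochain. -/
def del (F : 𝒜 →ₗ[ℂ] K) (a b : 𝒜) : K := D.l a (F b) - F (a * b) + D.r b (F a)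

/-- `Γ(w, y) = w⋆ c(w y) w` with `c y = φ y y⋆`. -/
def Gam (w y : 𝒜) : K := D.r w (D.l (star w) (D.φ (w * y) (star (w * y))))

/-- `X ↦ φ(X, z) z⋆ + w⋆ φ(w, X z) z⋆ - φ(z, z⋆ X) + z φ(z⋆ X, w⋆) w - X w⋆ c(w) w`. -/
def prim (w z : 𝒜) : 𝒜 →ₗ[ℂ] K where
  toFun X := D.r (star z) (D.φ X z) + D.r (star z) (D.l (star w) (D.φ w (X * z))) -
    D.φ z (star z * X) + D.r w (D.l z (D.φ (star z * X) (star w))) - D.l X (D.Gam w 1)
  map_add' X Y := by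
    simp only [map_add, add_mul, mul_add, LinearMap.add_apply, add_apply]
    abel
  map_smul' c X := by
    simp only [map_smul, smul_mul_assoc, mul_smul_comm, LinearMap.smul_apply, smul_apply, smul_add,
      smul_sub, RingHom.id_apply]

/-- bookkeeping of constants -/
def KSm (Λ δ : ℝ) (j : ℕ) (k : K) : Prop := 1 ≤ Λ ∧ ‖k‖ ≤ (2 * Λ) ^ j * δ

/-- the cocycle defect -/
def kdf (a b c : 𝒜) : K := D.l a (D.φ b c) - D.φ (a * b) c + D.φ a (b * c) - D.r c (D.φ a b)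

/-- the commutator defect -/
def kcm (a b : 𝒜) (k : K) : K := D.l a (D.r b k) - D.r b (D.l a k)

/-- the error in the expansion of `Γ(w, y)` -/
def kE (w y : 𝒜) : K := D.r w (D.kdf y (star y) (star w)) -
  D.r w (D.l (star w) (D.kdf w y (star y * star w))) -
  D.r w (D.kcm (star w) (star y * star w) (D.φ w y))

variable {D} {δ d : ℝ} {i j : ℕ} {k k' : K} {a b c : 𝒜}

theorem KSm.mono (h : KSm Λ δ i k) (hij : i ≤ j) : KSm Λ δ j k := by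
  have h1 : 1 ≤ 2 * Λ := by linarith [h.1]
  exact ⟨h.1, h.2.trans (mul_le_mul_of_nonneg_right (pow_le_pow_right₀ h1 hij)
    (nonneg_of_mul_nonneg_right ((norm_nonneg _).trans h.2) (by positivity)))⟩

theorem KSm.add (h : KSm Λ δ i k) (h' : KSm Λ δ j k') : KSm Λ δ (max i j + 1) (k + k') := by
  have h1 := (h.mono (le_max_left i j)).2
  have h2 := (h'.mono (le_max_right i j)).2
  refine ⟨h.1, (norm_add_le _ _).trans ?_⟩
  rw [pow_succ', mul_assoc]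
  nlinarith [h.1, norm_nonneg k]

theorem KSm.sub (h : KSm Λ δ i k) (h' : KSm Λ δ j k') : KSm Λ δ (max i j + 1) (k - k') := by
  rw [sub_eq_add_neg]
  exact h.add ⟨h'.1, (norm_neg k').trans_le h'.2⟩

theorem KSm.op (h : KSm Λ δ i k) {T : K →L[ℂ] K} {s : ℝ} (hs : 0 ≤ s) (hT : ‖T‖ ≤ Λ * Λ * s) :
    KSm Λ (s * δ) (i + 2) (T k) := by
  have h1 := h.1
  refine ⟨h1, (T.le_of_opNorm_le_of_le hT h.2).trans ?_⟩
  have : 0 ≤ Λ * Λ * s * ((2 * Λ) ^ i * δ) :=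
    mul_nonneg (by positivity) ((norm_nonneg _).trans h.2)
  rw [pow_add]
  linarith

theorem KSm.l (h : KSm Λ δ i k) (ha : a ∈ unitary 𝒜) : KSm Λ δ (i + 2) (D.l a k) := by
  have := h.op zero_le_one (T := D.l a) ((D.l_le a).trans (by
    rw [mul_one]; exact mul_le_mul_of_nonneg_left (D.ν_unit a ha) (by linarith [h.1])))
  rwa [one_mul] at this

theorem KSm.r (h : KSm Λ δ i k) (ha : a ∈ unitary 𝒜) : KSm Λ δ (i + 2) (D.r a k) := by
  have := h.op zero_le_one (T := D.r a) ((D.r_le a).trans (by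
    rw [mul_one]; exact mul_le_mul_of_nonneg_left (D.ν_unit a ha) (by linarith [h.1])))
  rwa [one_mul] at this

theorem KSm.cm (h : KSm Λ δ i k) (hd : 0 ≤ d) (he : 0 ≤ e) (ha : a ∈ unitary 𝒜)
    (hb : b ∈ unitary 𝒜) : KSm Λ ((d + e) * δ) (i + 2) (D.kcm a b k) := by
  have h1 := h.1
  have h2 := mul_le_mul (D.ν_unit a ha) (D.ν_unit b hb) (D.ν_nonneg b) (by linarith)
  refine h.op (by linarith) (T := D.l a * D.r b - D.r b * D.l a) ((D.lr a b).trans ?_)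
  nlinarith [mul_le_mul_of_nonneg_left h2 he, mul_nonneg (mul_self_nonneg Λ) hd]

theorem kphi (hΛ : 1 ≤ Λ) (hW : 0 ≤ W) {s : ℝ} (h : D.ν a * D.ν b ≤ Λ * Λ * s) :
    KSm Λ (W * s) 2 (D.φ a b) := by
  have h0 := (mul_nonneg (D.ν_nonneg a) (D.ν_nonneg b)).trans h
  refine ⟨hΛ, (D.φ_le a b).trans ?_⟩
  nlinarith [mul_le_mul_of_nonneg_left h hW, mul_nonneg hW h0]

theorem kphi' (hΛ : 1 ≤ Λ) (hW : 0 ≤ W) (ha : a ∈ unitary 𝒜) (hb : b ∈ unitary 𝒜) :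
    KSm Λ W 2 (D.φ a b) := by
  have := kphi (D := D) hΛ hW (s := 1) (by
    rw [mul_one]; exact mul_le_mul (D.ν_unit a ha) (D.ν_unit b hb) (D.ν_nonneg b) (by linarith))
  rwa [mul_one] at this

theorem kdf_sm (hΛ : 1 ≤ Λ) (hW : 0 ≤ W) (hd : 0 ≤ d) (he : 0 ≤ e) (ha : a ∈ unitary 𝒜)
    (hb : b ∈ unitary 𝒜) (hc : c ∈ unitary 𝒜) (h : D.dv b ≤ 5 * Λ ^ 3 * (d + e)) :
    KSm Λ ((d + e) * W) 6 (D.kdf a b c) := by
  have h1 : Λ ≤ Λ ^ 3 := le_self_pow₀ hΛ (by norm_num)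
  have h2 : D.dv b + e * D.ν b ≤ 64 * Λ ^ 3 * (d + e) := by
    nlinarith [mul_le_mul_of_nonneg_left ((D.ν_unit b hb).trans h1) he,
      mul_nonneg (show 0 ≤ Λ ^ 3 by positivity) hd, mul_nonneg (show 0 ≤ Λ ^ 3 by positivity) he]
  have := D.ν_nonneg c
  refine ⟨hΛ, (D.coc a b c).trans (le_trans (b := Λ * W * Λ * (64 * Λ ^ 3 * (d + e)) * Λ) ?_
    (le_of_eq (by ring)))⟩
  gcongr
  exacts [add_nonneg (D.dv_nonneg b) (mul_nonneg he (D.ν_nonneg b)), D.ν_unit a ha, D.ν_unit c hc]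

theorem kdv_star (hΛ : 1 ≤ Λ) (hd : 0 ≤ d) (he : 0 ≤ e) (hb : b ∈ unitary 𝒜) {m : ℝ}
    (h : D.dv b ≤ m * Λ ^ 3 * (d + e)) : D.dv (star b) ≤ (m + 1) * Λ ^ 3 * (d + e) := by
  have h1 : Λ ≤ Λ ^ 3 := le_self_pow₀ hΛ (by norm_num)
  nlinarith [D.dv_star b, mul_le_mul_of_nonneg_left ((D.ν_unit b hb).trans h1) he,
    mul_nonneg (show 0 ≤ Λ ^ 3 by positivity) hd]

theorem kE_sm (hΛ : 1 ≤ Λ) (hW : 0 ≤ W) (hd : 0 ≤ d) (he : 0 ≤ e) (ha : a ∈ unitary 𝒜)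
    (hb : b ∈ unitary 𝒜) (h : D.dv b ≤ 4 * Λ ^ 3 * (d + e)) :
    KSm Λ ((d + e) * W) 12 (D.kE a b) := by
  have ha' := Unitary.star_mem ha
  have hb' := Unitary.star_mem hb
  have h0 : 0 ≤ Λ ^ 3 * (d + e) := by positivity
  exact ((((kdf_sm hΛ hW hd he hb hb' ha' (by linarith [kdv_star hΛ hd he hb h])).r ha).sub
    (((kdf_sm hΛ hW hd he ha hb (mul_mem hb' ha') (by linarith)).l ha').r ha)).sub
    (((kphi' hΛ hW ha hb).cm hd he ha' (mul_mem hb' ha')).r ha)).mono (by decide)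

theorem key_eq {w z U : 𝒜} (hw : w ∈ unitary 𝒜) (hz : z ∈ unitary 𝒜) (hU : U ∈ unitary 𝒜) :
    (2 : ℂ) • D.φ U (star U) - D.del (D.prim w z) U (star U) -
        (D.Gam w (U * z) + D.r (star U) (D.l U (D.Gam w (star U * z))) - D.Gam w z) =
      D.kdf U z (star z * star U) + D.r (star U) (D.l U (D.kdf (star U) z (star z * U))) -
        D.r (star U) (D.kdf U (star U) U) -
        D.kcm U (star U) (D.r (star z * U) (D.φ (star U) z)) -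
        D.kcm U (star U) (D.r (star z * U) (D.l (star w) (D.φ w (star U * z)))) -
        D.kcm U w (D.l z (D.φ (star z * star U) (star w))) +
        D.r (star U) (D.kcm U w (D.l (star U * z) (D.φ (star z * U) (star w)))) -
        D.kE w (U * z) - D.r (star U) (D.l U (D.kE w (star U * z))) + D.kE w z := by
  have m1 : ∀ {u : 𝒜}, u ∈ unitary 𝒜 → ∀ x, u * (star u * x) = x := fun h x => by
    rw [← mul_assoc, Unitary.mul_star_self_of_mem h, one_mul]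
  have m2 : ∀ {u : 𝒜}, u ∈ unitary 𝒜 → ∀ x, star u * (u * x) = x := fun h x => by
    rw [← mul_assoc, Unitary.star_mul_self_of_mem h, one_mul]
  have lm : ∀ x y k, D.l (x * y) k = D.l x (D.l y k) := fun x y k => by rw [map_mul]; rfl
  have rm : ∀ x y k, D.r (x * y) k = D.r y (D.r x k) := fun x y k => by rw [D.r_mul]; rfl
  have l1 : ∀ k, D.l 1 k = k := fun k => by rw [map_one]; rfl
  have r1 : ∀ k, D.r 1 k = k := fun k => by rw [D.r_one]; rfl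
  have l2 : ∀ {u : 𝒜}, u ∈ unitary 𝒜 → ∀ k, D.l u (D.l (star u) k) = k := fun h k => by
    rw [← lm, Unitary.mul_star_self_of_mem h, l1]
  have l3 : ∀ {u : 𝒜}, u ∈ unitary 𝒜 → ∀ k, D.l (star u) (D.l u k) = k := fun h k => by
    rw [← lm, Unitary.star_mul_self_of_mem h, l1]
  have r2 : ∀ {u : 𝒜}, u ∈ unitary 𝒜 → ∀ k, D.r u (D.r (star u) k) = k := fun h k => by
    rw [← rm, Unitary.star_mul_self_of_mem h, r1]
  have r3 : ∀ {u : 𝒜}, u ∈ unitary 𝒜 → ∀ k, D.r (star u) (D.r u k) = k := fun h k => by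
    rw [← rm, Unitary.mul_star_self_of_mem h, r1]
  simp only [del, prim, Gam, kE, kdf, kcm, LinearMap.coe_mk, AddHom.coe_mk, star_mul, star_star,
    mul_assoc, mul_one, one_mul, m1 hU, m2 hU, m1 hz, Unitary.mul_star_self_of_mem hU,
    Unitary.star_mul_self_of_mem hU, Unitary.mul_star_self_of_mem hz, D.φ_one_left, D.φ_one_right,
    map_add, map_sub, map_zero, lm, rm, l1, l2 hU, l3 hw, r2 hw, r3 hU, two_smul]
  abel

end ACoc

/-- The key identity. Recipe (`D(a,b,c)` is the cocycle defect `coc`; `l`, `r` commute up to `lr`):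
from `D(w, y, y⋆ w⋆)` and `D(y, y⋆, w⋆)`,
`Γ(w, y) ≈ c y - y φ(y⋆, w⋆) w - w⋆ φ(w, y) y⋆ + Γ(w, 1)` for `y = U z, U⋆ z, z`; from
`D(U, z, z⋆ U⋆)`, `c (U z) ≈ c U + U φ(z, z⋆ U⋆) - φ(U, z) z⋆ U⋆`, likewise for `U⋆`; from
`D(U, U⋆, U)`, `U c(U⋆) U⋆ ≈ c U`. The term `- X Γ(w,1)` has coboundary `- U Γ(w,1) U⋆`. All
unitaries involved have `ν ≤ Λ` and `dv ≤ C (d + e)`. -/
theorem ACoc.key {Λ : ℝ} (hΛ : 1 ≤ Λ) : ∃ C > 0, ∀ {𝒜 : Type u} [Ring 𝒜] [StarRing 𝒜]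
    [Algebra ℂ 𝒜] {K : Type u} [NormedAddCommGroup K] [InnerProductSpace ℂ K] {W e d : ℝ}
    (D : ACoc 𝒜 K Λ W e), 0 ≤ W → 0 ≤ e → ∀ {w z : 𝒜}, w ∈ unitary 𝒜 → z ∈ unitary 𝒜 →
    (∀ X, ‖D.prim w z X‖ ≤ C * W * D.ν X) ∧ ∀ {U : 𝒜}, U ∈ unitary 𝒜 → D.dv w ≤ d → D.dv z ≤ d →
      D.dv U ≤ d → ‖(2 : ℂ) • D.φ U (star U) - D.del (D.prim w z) U (star U) -
        (D.Gam w (U * z) + D.r (star U) (D.l U (D.Gam w (star U * z))) - D.Gam w z)‖ ≤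
        C * (d + e) * W := by
  refine ⟨(2 * Λ) ^ 30, by positivity, fun D hW he w z hw hz => ⟨fun X => ?_, ?_⟩⟩
  · have hw' := Unitary.star_mem hw
    have hz' := Unitary.star_mem hz
    have hX := D.ν_nonneg X
    have h0 : 0 ≤ Λ := by linarith
    have h1 : D.ν (X * z) ≤ Λ * D.ν X := (D.ν_mul _ _).trans
      ((mul_le_mul_of_nonneg_left (D.ν_unit z hz) hX).trans_eq (mul_comm _ _))
    have h2 : D.ν (star z * X) ≤ Λ * D.ν X := (D.ν_mul _ _).trans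
      (mul_le_mul_of_nonneg_right (D.ν_unit _ hz') hX)
    have h3 : ∀ {u Y}, u ∈ unitary _ → D.ν Y ≤ Λ * D.ν X → D.ν u * D.ν Y ≤ Λ * Λ * D.ν X :=
      fun hu hY => (mul_le_mul (D.ν_unit _ hu) hY (D.ν_nonneg _) h0).trans_eq (mul_assoc ..).symm
    have h4 := ((((ACoc.kphi' (D := D) hΛ hW (mul_mem hw (one_mem _))
      (Unitary.star_mem (mul_mem hw (one_mem _)))).l (D := D) hw').r (D := D) hw).op hX
      (T := D.l X) ((D.l_le X).trans (by nlinarith [mul_nonneg h0 hX])))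
    rw [mul_comm] at h4
    rw [mul_assoc]
    exact (((((((ACoc.kphi hΛ hW ((mul_comm _ _).trans_le
      (h3 hz (le_mul_of_one_le_left hX hΛ)))).r hz').add
      (((ACoc.kphi hΛ hW (h3 hw h1)).l hw').r hz')).sub (ACoc.kphi hΛ hW (h3 hz h2))).add
      (((ACoc.kphi hΛ hW ((mul_comm _ _).trans_le (h3 hw' h2))).l hz).r hw)).sub h4).mono
      (by decide)).2
  · intro U hU _ hdz hdU
    rename_i e d _
    have hw' := Unitary.star_mem hw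
    have hz' := Unitary.star_mem hz
    have hU' := Unitary.star_mem hU
    have hd : 0 ≤ d := (D.dv_nonneg U).trans hdU
    have h0 : 0 ≤ Λ := by linarith
    have p1 : 1 ≤ Λ ^ 3 := one_le_pow₀ hΛ
    have p2 : Λ * Λ ≤ Λ ^ 3 := by nlinarith [mul_nonneg h0 h0]
    have p3 : d + e ≤ Λ ^ 3 * (d + e) := le_mul_of_one_le_left (by linarith) p1
    have h1 : ∀ {u} {x : ℝ}, u ∈ unitary _ → D.dv u ≤ x → D.dv (u * z) ≤ Λ * Λ * (x + d) :=
      fun {u x} hu hx => by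
        have a1 := mul_le_mul hx (D.ν_unit z hz) (D.ν_nonneg z) ((D.dv_nonneg u).trans hx)
        have a2 := mul_le_mul (D.ν_unit u hu) hdz (D.dv_nonneg z) h0
        exact (D.dv_mul u z).trans
          ((mul_le_mul_of_nonneg_left (add_le_add a1 a2) h0).trans_eq (by ring))
    have h2 : D.dv (U * z) ≤ 4 * Λ ^ 3 * (d + e) := by
      nlinarith [h1 hU hdU, mul_le_mul_of_nonneg_right p2 hd, mul_nonneg (zero_le_one.trans p1) hd,
        mul_nonneg (zero_le_one.trans p1) he]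
    have h3 : D.dv (star U * z) ≤ 4 * Λ ^ 3 * (d + e) := by
      nlinarith [h1 hU' ((D.dv_star U).trans (add_le_add hdU
        (mul_le_mul_of_nonneg_left (D.ν_unit U hU) he))), mul_le_mul_of_nonneg_right p2 hd,
        mul_nonneg (zero_le_one.trans p1) hd, mul_nonneg (zero_le_one.trans p1) he]
    have h4 : D.dv z ≤ 5 * Λ ^ 3 * (d + e) := by linarith
    have h5 := ACoc.kdv_star (m := 4) hΛ hd he hU (by linarith)
    have f := fun {a b} => ACoc.kphi' (D := D) (a := a) (b := b) hΛ hW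
    rw [ACoc.key_eq hw hz hU, mul_assoc]
    exact (((((((((((ACoc.kdf_sm hΛ hW hd he hU hz (mul_mem hz' hU') h4).add
      (((ACoc.kdf_sm hΛ hW hd he hU' hz (mul_mem hz' hU) h4).l hU).r hU')).sub
      ((ACoc.kdf_sm hΛ hW hd he hU hU' hU (by linarith)).r hU')).sub
      (((f hU' hz).r (mul_mem hz' hU)).cm hd he hU hU')).sub
      ((((f hw (mul_mem hU' hz)).l hw').r (mul_mem hz' hU)).cm hd he hU hU')).sub
      (((f (mul_mem hz' hU') hw').l hz).cm hd he hU hw)).add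
      ((((f (mul_mem hz' hU) hw').l (mul_mem hU' hz)).cm hd he hU hw).r hU')).sub
      (ACoc.kE_sm hΛ hW hd he hw (mul_mem hU hz) h2)).sub
      (((ACoc.kE_sm hΛ hW hd he hw (mul_mem hU' hz) h3).l hU).r hU')).add
      (ACoc.kE_sm hΛ hW hd he hw hz (by linarith))).mono (by decide)).2

theorem martc_conv {K : Type*} [NormedAddCommGroup K] [NormedSpace ℂ K] {κ : Type*} [Fintype κ]
    {p : κ → ℝ} (hp : ∀ t, 0 ≤ p t) (hp1 : ∑ t, p t = 1) {v : κ → K} {M : ℝ}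
    (hv : ∀ t, ‖v t‖ ≤ M) : ‖∑ t, (p t : ℂ) • v t‖ ≤ M := by
  refine (norm_sum_le _ _).trans ?_
  calc ∑ t, ‖(p t : ℂ) • v t‖ ≤ ∑ t, p t * M := Finset.sum_le_sum fun t _ => by
        rw [norm_smul, Complex.norm_real, Real.norm_of_nonneg (hp t)]
        exact mul_le_mul_of_nonneg_left (hv t) (hp t)
    _ = M := by rw [← Finset.sum_mul, hp1, one_mul]

theorem martc_sq {x E a b c L : ℝ} (hx : 0 ≤ x) (hE : 0 ≤ E) (ha : 0 ≤ a) (hc : 0 ≤ c)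
    (hL : 1 ≤ L) (h : 2 * x ≤ E + (a + c) + L * (b + c)) :
    x ^ 2 ≤ 5 * L ^ 2 * (E ^ 2 + (a ^ 2 / 4 + b ^ 2 / 4 + c ^ 2 / 2)) := by
  have h1 : 2 * x ≤ L * (E + a + b + c + c) := by
    have : E + (a + c) ≤ L * (E + (a + c)) := le_mul_of_one_le_left (by positivity) hL
    linarith
  have h2 : (2 * x) ^ 2 ≤ (L * (E + a + b + c + c)) ^ 2 := pow_le_pow_left₀ (by positivity) h1 2
  have h3 : (E + a + b + c + c) ^ 2 ≤ 5 * (E ^ 2 + a ^ 2 + b ^ 2 + 2 * c ^ 2) := by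
    nlinarith [sq_nonneg (E - a), sq_nonneg (E - b), sq_nonneg (E - c), sq_nonneg (a - b),
      sq_nonneg (a - c), sq_nonneg (b - c)]
  have h4 := mul_le_mul_of_nonneg_left h3 (sq_nonneg L)
  have h5 : 0 ≤ L ^ 2 * E ^ 2 := by positivity
  nlinarith

section martc

variable {𝒜 : Type*} [Ring 𝒜] [StarRing 𝒜] [Algebra ℂ 𝒜] {K : Type*} [NormedAddCommGroup K]
  [InnerProductSpace ℂ K] {Λ W e : ℝ} (D : ACoc 𝒜 K Λ W e)

/-- the coboundary as a linear map of the cochain -/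
def ACoc.delL (a b : 𝒜) : (𝒜 →ₗ[ℂ] K) →ₗ[ℂ] K where
  toFun F := D.del F a b
  map_add' F G := by
    simp only [ACoc.del, LinearMap.add_apply, map_add]
    abel
  map_smul' c F := by
    simp only [ACoc.del, LinearMap.smul_apply, map_smul, RingHom.id_apply, smul_add, smul_sub]

theorem ACoc.martc_dv (hΛ : 1 ≤ Λ) {ι : Type*} (s : ι → unitary 𝒜) {d : ℝ} (hd : 0 ≤ d)
    (hs : ∀ i, D.dv (s i) ≤ d) (L : List ι) :
    D.dv ((L.map s).prod : unitary 𝒜) ≤ (2 * Λ ^ 2) ^ L.length * d := by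
  induction L with
  | nil => simpa [D.dv_one] using hd
  | cons i L ih =>
    rw [List.map_cons, List.prod_cons, Submonoid.coe_mul, List.length_cons, pow_succ]
    have h1 : (1 : ℝ) ≤ (2 * Λ ^ 2) ^ L.length := one_le_pow₀ (by nlinarith)
    have h2 := D.ν_unit _ (s i).2
    have h3 := D.ν_unit _ (L.map s).prod.2
    have h4 := D.dv_nonneg (s i)
    have h5 := D.dv_nonneg ((L.map s).prod : unitary 𝒜)
    have h6 := hs i
    have h7 := D.ν_nonneg (s i)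
    have h8 := D.ν_nonneg ((L.map s).prod : unitary 𝒜)
    have h9 : d ≤ (2 * Λ ^ 2) ^ L.length * d := le_mul_of_one_le_left hd h1
    refine (D.dv_mul _ _).trans ?_
    generalize (2 * Λ ^ 2) ^ L.length = m at *
    calc _ ≤ Λ * (m * d * Λ + Λ * (m * d)) := by
          have := h6.trans h9
          gcongr
      _ = _ := by ring

theorem ACoc.martc_rl (hΛ : 1 ≤ Λ) {a b : 𝒜} (ha : a ∈ unitary 𝒜) (hb : b ∈ unitary 𝒜) :
    ‖D.r a * D.l b‖ ≤ Λ ^ 4 := by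
  have h1 := D.ν_unit _ ha
  have h2 := D.ν_unit _ hb
  have h3 := D.ν_nonneg a
  calc _ ≤ ‖D.r a‖ * ‖D.l b‖ := norm_mul_le _ _
    _ ≤ (Λ * D.ν a) * (Λ * D.ν b) :=
        mul_le_mul (D.r_le a) (D.l_le b) (norm_nonneg _) (by positivity)
    _ ≤ (Λ * Λ) * (Λ * Λ) := by
        have := D.ν_nonneg b
        gcongr
    _ = _ := by ring

theorem ACoc.martc_c (hW : 0 ≤ W) {a : 𝒜} (ha : a ∈ unitary 𝒜) :
    ‖D.φ a (star a)‖ ≤ W * Λ ^ 2 := by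
  have h1 := D.ν_unit _ ha
  have h3 := D.ν_nonneg a
  refine (D.φ_le _ _).trans ?_
  rw [D.ν_star, mul_assoc, ← sq]
  gcongr

/-- The averaged key identity. -/
theorem ACoc.martc_avg {κ : Type*} [Fintype κ] {p : κ → ℝ} (hp : ∀ t, 0 ≤ p t)
    (hp1 : ∑ t, p t = 1) (P : κ → 𝒜 →ₗ[ℂ] K) {U : 𝒜} (x y z : κ → K) {E : ℝ}
    (h : ∀ t, ‖(2 : ℂ) • D.φ U (star U) - D.del (P t) U (star U) -
      (x t + D.r (star U) (D.l U (y t)) - z t)‖ ≤ E) {F : 𝒜 →ₗ[ℂ] K} {k : K}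
    (hk : k = ∑ t, (p t : ℂ) • z t)
    (hF : ∀ X, F X = (2 : ℂ)⁻¹ • ((∑ t, (p t : ℂ) • P t) X + D.l X k)) :
    2 * ‖D.φ U (star U) - D.del F U (star U)‖ ≤ E + ‖∑ t, (p t : ℂ) • x t - k‖ +
      ‖(D.r (star U) * D.l U) (∑ t, (p t : ℂ) • y t - k)‖ := by
  have h1 := martc_conv hp hp1 h
  have hp2 : ∑ t, (p t : ℂ) = 1 := by exact_mod_cast hp1
  have h2 : ∑ t, (p t : ℂ) • D.del (P t) U (star U) =
      D.del (∑ t, (p t : ℂ) • P t) U (star U) := by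
    change ∑ t, (p t : ℂ) • D.delL U (star U) (P t) = D.delL U (star U) _
    simp only [map_sum, map_smul]
  have h3 : ∑ t, (p t : ℂ) • D.r (star U) (D.l U (y t)) =
      D.r (star U) (D.l U (∑ t, (p t : ℂ) • y t)) := by
    simp only [map_sum, map_smul]
  simp only [smul_sub, smul_add, Finset.sum_sub_distrib, Finset.sum_add_distrib] at h1
  rw [← Finset.sum_smul, hp2, one_smul, h2, h3, ← hk] at h1
  generalize ∑ t, (p t : ℂ) • P t = Q at *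
  generalize ∑ t, (p t : ℂ) • x t = a at *
  generalize ∑ t, (p t : ℂ) • y t = b at *
  have h4 : (2 : ℂ) • (D.φ U (star U) - D.del F U (star U)) =
      ((2 : ℂ) • D.φ U (star U) - D.del Q U (star U) - (a + D.r (star U) (D.l U b) - k)) +
        (a - k) + (D.r (star U) * D.l U) (b - k) := by
    simp only [ACoc.del, hF, map_smul, map_add, map_mul, mul_apply_eq_comp, map_sub]
    module
  calc _ = ‖(2 : ℂ) • (D.φ U (star U) - D.del F U (star U))‖ := by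
        rw [norm_smul]
        simp
    _ ≤ _ := by
        rw [h4]
        exact norm_add₃_le.trans (by gcongr)

end martc

/-- One finite family. Recipe: `biharm` in the group `unitary 𝒜` with steps `1` (weight `1/2`),
`U_i`, `U_i⋆` (weights `μ_i/4`), `c y = φ y y⋆`, `ρ w = r w ∘ l w⋆`. With
`K V = ∑ p_t Γ(w_t, V z_t)`, `∑ μ_i ‖K (U_i^{±1}) - K 1‖² ≤ C W²/n`. Put
`F = (∑ p_t prim w_t z_t + l(·) (K 1)) / 2`. Products of at most `n` steps have `dv ≤ C_n e₀`. -/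
theorem ACoc.mart_fin {Λ : ℝ} (hΛ : 1 ≤ Λ) : ∃ C > 0, ∀ {η : ℝ}, 0 < η → ∃ e₀ > 0,
    ∀ {𝒜 : Type u} [Ring 𝒜] [StarRing 𝒜] [Algebra ℂ 𝒜] {K : Type u} [NormedAddCommGroup K]
    [InnerProductSpace ℂ K] {W e : ℝ} (D : ACoc 𝒜 K Λ W e), 0 ≤ W → 0 ≤ e → e ≤ e₀ →
    ∀ {ι : Type} [Fintype ι] (μ : ι → ℝ) (U : ι → 𝒜), (∀ i, 0 ≤ μ i) → ∑ i, μ i = 1 →
    (∀ i, U i ∈ unitary 𝒜 ∧ D.dv (U i) ≤ e₀) →
    ∃ F : 𝒜 →ₗ[ℂ] K, (∀ X, ‖F X‖ ≤ C * W * D.ν X) ∧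
      ∑ i, μ i * ‖D.φ (U i) (star (U i)) - D.del F (U i) (star (U i))‖ ^ 2 ≤ (η * W) ^ 2 := by
  obtain ⟨C, hC, hkey⟩ := ACoc.key.{u} hΛ
  have hΛ0 : 0 < Λ := by linarith
  refine ⟨C + Λ ^ 7, by positivity, fun {η} hη => ?_⟩
  obtain ⟨n, hn⟩ := exists_nat_ge (10 * Λ ^ 20 / η ^ 2)
  have hn0 : (0 : ℝ) < n := lt_of_lt_of_le (by positivity) hn
  have hn1 : 1 ≤ n := Nat.one_le_iff_ne_zero.2 (by rintro rfl; simp at hn0)
  obtain ⟨M, hM⟩ : ∃ M, M = (2 * Λ ^ 2) ^ n * (2 * Λ) := ⟨_, rfl⟩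
  have h2Λ : (1 : ℝ) ≤ 2 * Λ ^ 2 := by nlinarith
  have hM1 : 1 ≤ M := hM ▸ one_le_mul_of_one_le_of_one_le (one_le_pow₀ h2Λ) (by linarith)
  obtain ⟨e₀, he₀, hE⟩ : ∃ e₀ > 0, C * ((M + 1) * e₀) * (4 * Λ ^ 4) = η :=
    ⟨η / (C * (M + 1) * (4 * Λ ^ 4)), by positivity, by field_simp⟩
  refine ⟨e₀, he₀, ?_⟩
  intro 𝒜 _ _ _ K _ _ W e D hW he hee ι _ μ U hμ hμ1 hU
  let s : Option (ι ⊕ ι) → unitary 𝒜 := fun i => i.elim 1
    (Sum.elim (fun i => ⟨U i, (hU i).1⟩) fun i => star ⟨U i, (hU i).1⟩)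
  let μ' : Option (ι ⊕ ι) → ℝ := fun i => i.elim (1 / 2) (Sum.elim (μ · / 4) (μ · / 4))
  have hμ' : ∀ i, 0 ≤ μ' i := by
    rintro (_ | i | i)
    exacts [one_half_pos.le, div_nonneg (hμ i) (by norm_num), div_nonneg (hμ i) (by norm_num)]
  have hμ'1 : ∑ i, μ' i = 1 := by
    rw [Fintype.sum_option, Fintype.sum_sum_type]
    change 1 / 2 + (∑ i, μ i / 4 + ∑ i, μ i / 4) = 1
    rw [← Finset.sum_div, hμ1]
    norm_num
  have hs : ∀ i, D.dv (s i) ≤ 2 * Λ * e₀ := by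
    rintro (_ | i | i)
    · exact D.dv_one.trans_le (by positivity)
    · exact (hU i).2.trans (le_mul_of_one_le_left he₀.le (by linarith))
    · refine (D.dv_star (U i)).trans ?_
      have h1 := (hU i).2
      have h2 : e * D.ν (U i) ≤ e₀ * Λ :=
        mul_le_mul hee (D.ν_unit _ (hU i).1) (D.ν_nonneg _) he₀.le
      nlinarith
  obtain ⟨κ, _, p, w, z, k₀, hp, hp1, hl, hb⟩ := biharm μ' hμ' hμ'1 s
    (fun y : unitary 𝒜 => D.φ y (star (y : 𝒜))) (fun w => D.r w * D.l (star (w : 𝒜)))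
    (fun y => D.martc_c hW y.2) (fun y => D.martc_rl hΛ y.2 (Unitary.star_mem y.2)) hn1
  have hdv : ∀ L : List (Option (ι ⊕ ι)), L.length ≤ n →
      D.dv ((L.map s).prod : unitary 𝒜) ≤ M * e₀ := fun L hL => by
    refine (D.martc_dv hΛ s (by positivity) hs L).trans ?_
    rw [hM, mul_assoc _ (2 * Λ) e₀]
    gcongr
  obtain ⟨w', hw'⟩ : ∃ w' : κ → unitary 𝒜, ∀ t, ((w t).map s).prod = w' t := ⟨_, fun _ => rfl⟩
  obtain ⟨z', hz'⟩ : ∃ z' : κ → unitary 𝒜, ∀ t, ((z t).map s).prod = z' t := ⟨_, fun _ => rfl⟩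
  have hw : ∀ t, D.dv (w' t) ≤ M * e₀ := fun t => hw' t ▸ hdv _ (hl t).1
  have hz : ∀ t, D.dv (z' t) ≤ M * e₀ := fun t => hz' t ▸ hdv _ (hl t).2
  obtain ⟨G, hG⟩ : ∃ G : 𝒜 → K, ∀ V, G V = ∑ t, (p t : ℂ) • D.Gam (w' t) (V * z' t) :=
    ⟨_, fun _ => rfl⟩
  have hb' : ∑ i, μ' i * ‖G (s i) - k₀‖ ^ 2 ≤ (Λ ^ 4) ^ 2 * (W * Λ ^ 2) ^ 2 / n := by
    simpa only [hG, hw', hz', ACoc.Gam, Submonoid.coe_mul, mul_assoc, mul_apply_eq_comp] using hb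
  rw [Fintype.sum_option, Fintype.sum_sum_type] at hb'
  change 1 / 2 * ‖G 1 - k₀‖ ^ 2 + (∑ i, μ i / 4 * ‖G (U i) - k₀‖ ^ 2 +
    ∑ i, μ i / 4 * ‖G (star (U i)) - k₀‖ ^ 2) ≤ _ at hb'
  have hG1 : ‖G 1‖ ≤ Λ ^ 4 * (W * Λ ^ 2) := by
    rw [hG]
    refine martc_conv hp hp1 fun t => ?_
    refine ((D.r (w' t) * D.l (star (w' t : 𝒜))).le_opNorm _).trans ?_
    exact mul_le_mul (D.martc_rl hΛ (w' t).2 (Unitary.star_mem (w' t).2))
      (D.martc_c hW (mul_mem (w' t).2 (mul_mem (one_mem _) (z' t).2))) (norm_nonneg _)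
      (by positivity)
  obtain ⟨F, hF⟩ : ∃ F : 𝒜 →ₗ[ℂ] K, ∀ X, F X =
      (2 : ℂ)⁻¹ • ((∑ t, (p t : ℂ) • D.prim (w' t) (z' t)) X + D.l X (G 1)) :=
    ⟨(2 : ℂ)⁻¹ • (∑ t, (p t : ℂ) • D.prim (w' t) (z' t) +
      (ContinuousLinearMap.apply ℂ K (G 1)).toLinearMap ∘ₗ D.l.toLinearMap), fun _ => rfl⟩
  refine ⟨F, fun X => ?_, ?_⟩
  · have h1 : ‖(∑ t, (p t : ℂ) • D.prim (w' t) (z' t)) X‖ ≤ C * W * D.ν X := by
      rw [LinearMap.sum_apply]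
      exact martc_conv hp hp1 fun t => (hkey (d := 0) D hW he (w' t).2 (z' t).2).1 X
    have h0 := D.ν_nonneg X
    have h2 : ‖D.l X (G 1)‖ ≤ Λ * D.ν X * (Λ ^ 4 * (W * Λ ^ 2)) :=
      ((D.l X).le_opNorm _).trans (mul_le_mul (D.l_le X) hG1 (norm_nonneg _) (by positivity))
    rw [hF, norm_smul]
    calc _ ≤ 1 * (C * W * D.ν X + Λ * D.ν X * (Λ ^ 4 * (W * Λ ^ 2))) :=
          mul_le_mul (by norm_num) (norm_add_le_of_le h1 h2) (norm_nonneg _) zero_le_one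
      _ = _ := by ring
  · obtain ⟨E, hE'⟩ : ∃ E, E = C * (M * e₀ + e) * W := ⟨_, rfl⟩
    have hE0 : 0 ≤ E := by rw [hE']; positivity
    have hE1 : E * (4 * Λ ^ 4) ≤ η * W := by
      rw [hE', ← hE]
      calc _ ≤ C * (M * e₀ + e₀) * W * (4 * Λ ^ 4) := by gcongr
        _ = _ := by ring
    have h1 : ∀ i, ‖D.φ (U i) (star (U i)) - D.del F (U i) (star (U i))‖ ^ 2 ≤
        5 * (Λ ^ 4) ^ 2 * (E ^ 2 + (‖G (U i) - k₀‖ ^ 2 / 4 + ‖G (star (U i)) - k₀‖ ^ 2 / 4 +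
          ‖G 1 - k₀‖ ^ 2 / 2)) := fun i => by
      have h2 := D.martc_avg hp hp1 (fun t => D.prim (w' t) (z' t)) _ _ _
        (fun t => (hkey (d := M * e₀) D hW he (w' t).2 (z' t).2).2 (hU i).1 (hw t) (hz t)
          ((hU i).2.trans (le_mul_of_one_le_left he₀.le hM1))) (k := G 1)
        (by simp only [hG, one_mul]) hF
      rw [← hG, ← hG, ← hE'] at h2
      have h3 : ∀ V, ‖G V - G 1‖ ≤ ‖G V - k₀‖ + ‖G 1 - k₀‖ := fun V => by
        rw [← sub_sub_sub_cancel_right _ _ k₀]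
        exact norm_sub_le _ _
      have h4 := ((D.r (star (U i)) * D.l (U i)).le_opNorm (G (star (U i)) - G 1)).trans
        (mul_le_mul (D.martc_rl hΛ (Unitary.star_mem (hU i).1) (hU i).1) (h3 _) (norm_nonneg _)
          (by positivity))
      refine martc_sq (norm_nonneg _) hE0 (norm_nonneg _) (norm_nonneg _) (one_le_pow₀ hΛ) ?_
      linarith [h3 (U i)]
    have h5 : 5 * (Λ ^ 4) ^ 2 * E ^ 2 ≤ (η * W) ^ 2 / 2 := by
      have := pow_le_pow_left₀ (by positivity) hE1 2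
      nlinarith [sq_nonneg (η * W)]
    have h6 : 5 * (Λ ^ 4) ^ 2 * ((Λ ^ 4) ^ 2 * (W * Λ ^ 2) ^ 2 / n) ≤ (η * W) ^ 2 / 2 := by
      rw [div_le_iff₀ (by positivity)] at hn
      rw [← mul_div_assoc, div_le_iff₀ hn0]
      nlinarith [mul_le_mul_of_nonneg_right hn (sq_nonneg W)]
    calc _ ≤ ∑ i, μ i * (5 * (Λ ^ 4) ^ 2 * (E ^ 2 + (‖G (U i) - k₀‖ ^ 2 / 4 +
          ‖G (star (U i)) - k₀‖ ^ 2 / 4 + ‖G 1 - k₀‖ ^ 2 / 2))) :=
          Finset.sum_le_sum fun i _ => mul_le_mul_of_nonneg_left (h1 i) (hμ i)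
      _ = 5 * (Λ ^ 4) ^ 2 * E ^ 2 * ∑ i, μ i + 5 * (Λ ^ 4) ^ 2 *
          (1 / 2 * ‖G 1 - k₀‖ ^ 2 * ∑ i, μ i + (∑ i, μ i / 4 * ‖G (U i) - k₀‖ ^ 2 +
            ∑ i, μ i / 4 * ‖G (star (U i)) - k₀‖ ^ 2)) := by
          simp only [Finset.mul_sum, ← Finset.sum_add_distrib]
          exact Finset.sum_congr rfl fun i _ => by ring
      _ ≤ _ := by
          rw [hμ1, mul_one, mul_one]
          have := mul_le_mul_of_nonneg_left hb' (by positivity : 0 ≤ 5 * (Λ ^ 4) ^ 2)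
          linarith

/-- All unitaries at once. Recipe: `fan_ultra` on the convex set `{F | ∀ X, ‖F X‖ ≤ C W ν X}` of
`𝒜 →ₗ[ℂ] K`, index set the good unitaries, `e U F = ‖φ U U⋆ - del F U U⋆‖² - (η W)²`; weak limits
(`exists_wlimV`) are linear. -/
theorem ACoc.mart {Λ : ℝ} (hΛ : 1 ≤ Λ) : ∃ C > 0, ∀ {η : ℝ}, 0 < η → ∃ e₀ > 0,
    ∀ {𝒜 : Type u} [Ring 𝒜] [StarRing 𝒜] [Algebra ℂ 𝒜] {K : Type u} [NormedAddCommGroup K]
    [InnerProductSpace ℂ K] [CompleteSpace K] {W e : ℝ} (D : ACoc 𝒜 K Λ W e), 0 ≤ W → 0 ≤ e →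
    e ≤ e₀ → ∃ F : 𝒜 →ₗ[ℂ] K, (∀ X, ‖F X‖ ≤ C * W * D.ν X) ∧
      ∀ U ∈ unitary 𝒜, D.dv U ≤ e₀ → ‖D.φ U (star U) - D.del F U (star U)‖ ≤ η * W := by
  obtain ⟨C, hC, hfin⟩ := ACoc.mart_fin.{u} hΛ
  refine ⟨C, hC, fun {η} hη => ?_⟩
  obtain ⟨e₀, he₀, hfin⟩ := hfin hη
  refine ⟨e₀, he₀, ?_⟩
  intro 𝒜 _ _ _ K _ _ _ W e D hW he hee
  have hconv : Convex ℝ {F : 𝒜 →ₗ[ℂ] K | ∀ X, ‖F X‖ ≤ C * W * D.ν X} :=
    fun F hF G hG a b ha hb hab X =>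
      (convex_closedBall (0 : K) _ (mem_closedBall_zero_iff.2 (hF X))
        (mem_closedBall_zero_iff.2 (hG X)) ha hb hab |> mem_closedBall_zero_iff.1 :)
  obtain ⟨𝒰, h𝒰, hlim⟩ := fan_ultra (I := {U : 𝒜 // U ∈ unitary 𝒜 ∧ D.dv U ≤ e₀})
    {F : 𝒜 →ₗ[ℂ] K | ∀ X, ‖F X‖ ≤ C * W * D.ν X}
    ⟨0, fun X => by simpa using mul_nonneg (mul_nonneg hC.le hW) (D.ν_nonneg X)⟩
    (fun U F => ‖D.φ U (star U.1) - D.delL U (star U.1) F‖ - η * W)
    (fun U => ⟨hconv, fun F _ G _ a b ha hb hab => by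
      have h1 := convexOn_univ_norm.2 (Set.mem_univ (D.φ U (star U.1) - D.delL U (star U.1) F))
        (Set.mem_univ (D.φ U (star U.1) - D.delL U (star U.1) G)) ha hb hab
      have h2 : D.φ U (star U.1) - D.delL U (star U.1) (a • F + b • G) =
          a • (D.φ U (star U.1) - D.delL U (star U.1) F) +
            b • (D.φ U (star U.1) - D.delL U (star U.1) G) := by
        rw [map_add, LinearMap.map_smul_of_tower, LinearMap.map_smul_of_tower, smul_sub, smul_sub,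
          sub_add_sub_comm, ← add_smul, hab, one_smul]
      simp only [smul_eq_mul] at h1 ⊢
      rw [h2]
      have h3 : η * W = a * (η * W) + b * (η * W) := by rw [← add_mul, hab, one_mul]
      linarith⟩)
    (fun s μ hμ hμ1 ε hε => by
      have hs : ∀ f : {U : 𝒜 // U ∈ unitary 𝒜 ∧ D.dv U ≤ e₀} → ℝ,
          ∑ i, f (s.equivFin.symm i) = ∑ i ∈ s, f i := fun f => by
        rw [← Finset.sum_coe_sort s f]
        exact s.equivFin.symm.sum_comp fun i => f i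
      obtain ⟨F, h1, h2⟩ := hfin D hW he hee (fun i => μ (s.equivFin.symm i))
        (fun i => (s.equivFin.symm i).1.1) (fun i => hμ _) ((hs μ).trans hμ1)
        fun i => (s.equivFin.symm i).1.2
      rw [hs fun U => μ U * ‖D.φ U (star U.1) - D.del F U (star U.1)‖ ^ 2] at h2
      refine ⟨F, h1, ?_⟩
      have h3 := Real.pow_arith_mean_le_arith_mean_pow s μ
        (fun U => ‖D.φ U (star U.1) - D.del F U (star U.1)‖) (fun i _ => hμ i) hμ1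
        (fun _ _ => norm_nonneg _) 2
      have h4 := abs_le_of_sq_le_sq' (h3.trans h2) (mul_nonneg hη.le hW)
      simp only [mul_sub, Finset.sum_sub_distrib, ← Finset.sum_mul, hμ1, one_mul]
      exact (sub_nonpos.2 h4.2).trans hε.le)
  have hb : ∀ X, ∀ᶠ F : 𝒜 →ₗ[ℂ] K in (𝒰 : Filter _), ‖F X‖ ≤ C * W * D.ν X := fun X =>
    Filter.mem_of_superset h𝒰 fun F hF => hF X
  choose v hv using fun X => exists_wlimV 𝒰 (hb X)
  let F : 𝒜 →ₗ[ℂ] K :=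
    { toFun := v
      map_add' := fun X Y => (hv (X + Y)).unique (by simpa only [map_add] using (hv X).add (hv Y))
      map_smul' := fun c X => (hv (c • X)).unique
        (by simpa only [map_smul, RingHom.id_apply] using (hv X).smul c) }
  refine ⟨F, fun X => (hv X).norm_le (hb X), fun U hU hd => le_of_forall_pos_le_add fun ε hε => ?_⟩
  refine ((wlimV_of_tendsto (tendsto_const_nhds (x := D.φ U (star U)))).sub
    ((((hv (star U)).map (D.l U)).sub (hv (U * star U))).add ((hv U).map (D.r (star U))))).norm_le ?_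
  filter_upwards [hlim ⟨U, hU, hd⟩ ε hε] with G hG
  exact sub_le_iff_le_add'.1 hG

end

end Crest.Agent.R78
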