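import Mathlib

/-!
# Row 78: the bi-harmonic martingale argument (proof of `biharm`)
-/

open scoped InnerProductSpace

namespace Crest.Agent.R78

noncomputable section

/-- Words of a given length. -/
def MartW (ι : Type) : ℕ → Type
  | 0 => Unit
  | j + 1 => ι × MartW ι j

instance MartW.fin (ι : Type) [Fintype ι] : ∀ j, Fintype (MartW ι j)
  | 0 => inferInstanceAs (Fintype Unit)
  | j + 1 => letI := MartW.fin ι j; inferInstanceAs (Fintype (ι × MartW ι j))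

/-- The weight of a word. -/
def MartW.wt {ι : Type} (μ : ι → ℝ) : ∀ j, MartW ι j → ℝ
  | 0, _ => 1
  | j + 1, u => μ u.1 * MartW.wt μ j u.2

/-- The letters of a word. -/
def MartW.wl {ι : Type} : ∀ j, MartW ι j → List ι
  | 0, _ => []
  | j + 1, u => u.1 :: MartW.wl j u.2

/-- The transition operator. -/
def martP {𝒢 : Type*} [Monoid 𝒢] {E : Type*} [AddCommGroup E] [Module ℝ E] {ι : Type} [Fintype ι]
    (μ : ι → ℝ) (s : ι → 𝒢) (f : 𝒢 → E) : 𝒢 → E := fun x => ∑ i, μ i • f (x * s i)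

theorem MartW.wl_length {ι : Type} : ∀ (j : ℕ) (u : MartW ι j), (MartW.wl j u).length = j
  | 0, _ => rfl
  | j + 1, u => congrArg (· + 1) (MartW.wl_length j u.2)

theorem MartW.wt_nonneg {ι : Type} {μ : ι → ℝ} (hμ : ∀ i, 0 ≤ μ i) :
    ∀ (j : ℕ) (u : MartW ι j), 0 ≤ MartW.wt μ j u
  | 0, _ => zero_le_one
  | j + 1, u => mul_nonneg (hμ _) (MartW.wt_nonneg hμ j u.2)

theorem MartW.sum_succ {ι : Type} [Fintype ι] {E : Type*} [AddCommMonoid E] (j : ℕ)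
    (F : MartW ι (j + 1) → E) : ∑ u, F u = ∑ i : ι, ∑ u : MartW ι j, F (i, u) :=
  Fintype.sum_prod_type (α₁ := ι) (α₂ := MartW ι j) F

theorem MartW.sum_zero {ι : Type} [Fintype ι] {E : Type*} [AddCommMonoid E]
    (F : MartW ι 0 → E) : ∑ u, F u = F () :=
  Fintype.sum_unique (ι := Unit) F

theorem MartW.sum_wt {ι : Type} [Fintype ι] {μ : ι → ℝ} (hμ1 : ∑ i, μ i = 1) (j : ℕ) :
    ∑ u, MartW.wt μ j u = 1 := by
  induction j with
  | zero => exact MartW.sum_zero _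
  | succ j ih =>
    rw [MartW.sum_succ]
    simp only [MartW.wt, ← Finset.mul_sum, ih, mul_one, hμ1]

theorem MartW.sum_eq {𝒢 : Type*} [Monoid 𝒢] {E : Type*} [AddCommGroup E] [Module ℝ E] {ι : Type}
    [Fintype ι] (μ : ι → ℝ) (s : ι → 𝒢) (f : 𝒢 → E) (j : ℕ) (x : 𝒢) :
    ∑ u, MartW.wt μ j u • f (x * ((MartW.wl j u).map s).prod) = (martP μ s)^[j] f x := by
  induction j generalizing x with
  | zero =>
    rw [MartW.sum_zero]
    simp [MartW.wt, MartW.wl]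
  | succ j ih =>
    rw [MartW.sum_succ, Function.iterate_succ_apply', martP]
    refine Finset.sum_congr rfl fun i _ => ?_
    rw [← ih, Finset.smul_sum]
    refine Finset.sum_congr rfl fun u _ => ?_
    simp only [MartW.wt, MartW.wl, List.map_cons, List.prod_cons, mul_assoc, mul_smul]

/-- One more step at the end of the word. -/
theorem MartW.sum_step {𝒢 : Type*} [Monoid 𝒢] {ι : Type} [Fintype ι] (μ : ι → ℝ) (s : ι → 𝒢)
    (f : 𝒢 → ℝ) (j : ℕ) :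
    ∑ u, MartW.wt μ (j + 1) u * f ((MartW.wl (j + 1) u).map s).prod =
      ∑ u, MartW.wt μ j u * ∑ i, μ i * f (((MartW.wl j u).map s).prod * s i) := by
  have h1 := MartW.sum_eq μ s f (j + 1) 1
  have h2 := MartW.sum_eq μ s (martP μ s f) j 1
  rw [Function.iterate_succ_apply, ← h2] at h1
  simpa only [one_mul, smul_eq_mul, martP] using h1

variable {K : Type*} [NormedAddCommGroup K] [InnerProductSpace ℂ K]

theorem mart_var {κ : Type*} [Fintype κ] {p : κ → ℝ} (hp : ∑ t, p t = 1) (x : κ → K) :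
    ∑ t, p t * ‖x t - ∑ u, p u • x u‖ ^ 2 = ∑ t, p t * ‖x t‖ ^ 2 - ‖∑ u, p u • x u‖ ^ 2 := by
  obtain ⟨m, hm⟩ : ∃ m, m = ∑ u, p u • x u := ⟨_, rfl⟩
  have h1 : ∑ t, p t * (⟪m, x t⟫_ℂ).re = ‖m‖ ^ 2 := by
    have h2 : (⟪m, m⟫_ℂ).re = ‖m‖ ^ 2 := inner_self_eq_norm_sq (𝕜 := ℂ) _
    rw [← h2]
    conv_rhs => rw [congrArg (fun y => ⟪m, y⟫_ℂ) hm]
    rw [inner_sum, Complex.re_sum]
    refine Finset.sum_congr rfl fun t _ => ?_
    rw [← Complex.coe_smul, inner_smul_right, Complex.re_ofReal_mul]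
  rw [← hm]
  have h3 : ∀ t, p t * ‖x t - m‖ ^ 2 =
      p t * ‖x t‖ ^ 2 - 2 * (p t * (⟪m, x t⟫_ℂ).re) + p t * ‖m‖ ^ 2 := fun t => by
    rw [norm_sub_rev, norm_sub_sq (𝕜 := ℂ), RCLike.re_to_complex]
    ring
  simp only [h3, Finset.sum_add_distrib, Finset.sum_sub_distrib, ← Finset.mul_sum,
    ← Finset.sum_mul, h1, hp]
  ring

theorem mart_jensen {κ : Type*} [Fintype κ] {p : κ → ℝ} (h0 : ∀ t, 0 ≤ p t) (hp : ∑ t, p t = 1)
    (x : κ → K) : ‖∑ u, p u • x u‖ ^ 2 ≤ ∑ t, p t * ‖x t‖ ^ 2 := by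
  have h1 := mart_var hp x
  have h2 : 0 ≤ ∑ t, p t * ‖x t - ∑ u, p u • x u‖ ^ 2 :=
    Finset.sum_nonneg fun t _ => mul_nonneg (h0 t) (sq_nonneg _)
  linarith

theorem mart_biharm {𝒢 : Type*} [Monoid 𝒢]
    {ι : Type} [Fintype ι] (μ : ι → ℝ) (hμ : ∀ i, 0 ≤ μ i) (hμ1 : ∑ i, μ i = 1) (s : ι → 𝒢)
    (c : 𝒢 → K) (ρ : 𝒢 → K →L[ℂ] K) {W Λ : ℝ} (hc : ∀ y, ‖c y‖ ≤ W) (hρ : ∀ w, ‖ρ w‖ ≤ Λ)
    {n : ℕ} (hn : 1 ≤ n) :
    ∃ (κ : Type) (_ : Fintype κ) (p : κ → ℝ) (w z : κ → List ι) (k₀ : K), (∀ t, 0 ≤ p t) ∧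
      ∑ t, p t = 1 ∧ (∀ t, (w t).length ≤ n ∧ (z t).length ≤ n) ∧
      ∑ i, μ i * ‖∑ t, (p t : ℂ) • ρ ((w t).map s).prod
        (c (((w t).map s).prod * s i * ((z t).map s).prod)) - k₀‖ ^ 2 ≤ Λ ^ 2 * W ^ 2 / n := by
  obtain ⟨a, ha⟩ : ∃ a : ℕ → ℝ, ∀ j, a j = ∑ u, MartW.wt μ j u *
      ‖(martP μ s)^[n - j] c ((MartW.wl j u).map s).prod‖ ^ 2 := ⟨_, fun _ => rfl⟩
  have hn' : (0 : ℝ) < n := by exact_mod_cast hn
  have h0 : 0 ≤ a 0 := by
    rw [ha]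
    exact Finset.sum_nonneg fun u _ => mul_nonneg (MartW.wt_nonneg hμ _ u) (sq_nonneg _)
  have h1 : a n ≤ W ^ 2 := by
    rw [ha, Nat.sub_self, ← one_mul (W ^ 2), ← MartW.sum_wt hμ1 n, Finset.sum_mul]
    exact Finset.sum_le_sum fun u _ => mul_le_mul_of_nonneg_left
      (pow_le_pow_left₀ (norm_nonneg _) (hc _) 2) (MartW.wt_nonneg hμ _ u)
  obtain ⟨j, hj, hja⟩ : ∃ j ∈ Finset.range n, a (j + 1) - a j ≤ W ^ 2 / n := by
    refine Finset.exists_le_of_sum_le ⟨0, Finset.mem_range.2 hn⟩ ?_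
    rw [Finset.sum_range_sub, Finset.sum_const, Finset.card_range, nsmul_eq_mul,
      mul_div_cancel₀ _ hn'.ne']
    linarith
  obtain ⟨m, hm⟩ : ∃ m, n = j + 1 + m := Nat.exists_eq_add_of_le (Finset.mem_range.1 hj)
  obtain ⟨g, hg⟩ : ∃ g, g = (martP μ s)^[m] c := ⟨_, rfl⟩
  have e : a (j + 1) - a j = ∑ u, MartW.wt μ j u * ∑ i, μ i *
      ‖g (((MartW.wl j u).map s).prod * s i) - martP μ s g ((MartW.wl j u).map s).prod‖ ^ 2 := by
    rw [ha, ha, show n - (j + 1) = m by omega, show n - j = m + 1 by omega,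
      Function.iterate_succ_apply', ← hg, MartW.sum_step μ s fun x => ‖g x‖ ^ 2,
      ← Finset.sum_sub_distrib]
    refine Finset.sum_congr rfl fun u _ => ?_
    rw [← mul_sub, martP, mart_var hμ1]
  refine ⟨MartW ι j × MartW ι m, inferInstance, fun t => MartW.wt μ j t.1 * MartW.wt μ m t.2,
    fun t => MartW.wl j t.1, fun t => MartW.wl m t.2,
    ∑ u, MartW.wt μ j u • ρ ((MartW.wl j u).map s).prod (martP μ s g ((MartW.wl j u).map s).prod),
    fun t => mul_nonneg (MartW.wt_nonneg hμ _ _) (MartW.wt_nonneg hμ _ _), ?_,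
    fun t => ?_, ?_⟩
  · rw [Fintype.sum_prod_type]
    simp only [← Finset.mul_sum, MartW.sum_wt hμ1, mul_one]
  · simp only [MartW.wl_length]
    omega
  · have hΛ : 0 ≤ Λ := (norm_nonneg _).trans (hρ 1)
    rw [mul_div_assoc]
    refine le_trans ?_ (mul_le_mul_of_nonneg_left hja (sq_nonneg Λ))
    rw [e]
    simp only [Finset.mul_sum]
    rw [Finset.sum_comm]
    refine Finset.sum_le_sum fun i _ => ?_
    have e1 : ∀ u : MartW ι j, ∑ v : MartW ι m,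
        ((MartW.wt μ j u * MartW.wt μ m v : ℝ) : ℂ) • ρ ((MartW.wl j u).map s).prod
          (c (((MartW.wl j u).map s).prod * s i * ((MartW.wl m v).map s).prod)) =
        MartW.wt μ j u • ρ ((MartW.wl j u).map s).prod
          (g (((MartW.wl j u).map s).prod * s i)) := fun u => by
      rw [hg, ← MartW.sum_eq, map_sum, Finset.smul_sum]
      refine Finset.sum_congr rfl fun v _ => ?_
      rw [← Complex.coe_smul, ← Complex.coe_smul, map_smul, smul_smul, Complex.ofReal_mul]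
    rw [Fintype.sum_prod_type]
    simp only [e1]
    rw [← Finset.sum_sub_distrib]
    simp only [← smul_sub, ← map_sub]
    refine (mul_le_mul_of_nonneg_left
      (mart_jensen (MartW.wt_nonneg hμ j) (MartW.sum_wt hμ1 j) _) (hμ i)).trans ?_
    rw [Finset.mul_sum]
    refine Finset.sum_le_sum fun u _ => ?_
    have h2 := pow_le_pow_left₀ (norm_nonneg _) ((ρ ((MartW.wl j u).map s).prod).le_of_opNorm_le
      (hρ _) (g (((MartW.wl j u).map s).prod * s i) - martP μ s g ((MartW.wl j u).map s).prod)) 2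
    have h3 := mul_le_mul_of_nonneg_left h2 (mul_nonneg (hμ i) (MartW.wt_nonneg hμ j u))
    calc _ = _ := (mul_assoc _ _ _).symm
      _ ≤ _ := h3
      _ = _ := by ring

end

end Crest.Agent.R78
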