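import Crest.Agent.R78.Cpl
import Crest.Agent.R78.Gen

/-!
# Row 78: infinitesimal couplings
-/

open scoped InnerProductSpace Topology ComplexConjugate
open Filter MeasureTheory

set_option linter.unusedSectionVars false

namespace Crest.Agent.R78

open Crest.Agent.R121 (Alg)

noncomputable section

universe u

variable {H : Type*} [NormedAddCommGroup H] [InnerProductSpace ℂ H] [CompleteSpace H]

variable {A B : VN H} {ξ : H}

/-- Nice coupled pairs: the adjoints are coupled as well. -/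
structure Nice (A B : VN H) (ξ : H) (a a' : Op H) : Prop where
  mem : a ∈ A
  mem' : a' ∈ B
  eq : a ξ = a' ξ
  star : ∃ b ∈ B, star a ξ = b ξ
  star' : ∃ b ∈ A, Star.star a' ξ = b ξ

theorem Nice.swap {a a' : Op H} (h : Nice A B ξ a a') : Nice B A ξ a' a :=
  ⟨h.mem', h.mem, h.eq.symm, h.star', h.star⟩

theorem mix1_id (x : ℝ) :
    (2 * Real.cosh (x / 4))⁻¹ ^ 2 * (2 + Real.exp (x / 2) + Real.exp (-x / 2)) = 1 := by
  have h1 : Real.exp (x / 2) = Real.exp (x / 4) ^ 2 := by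
    rw [← Real.exp_nat_mul]; congr 1; push_cast; ring
  have h2 : Real.exp (-x / 2) = Real.exp (-(x / 4)) ^ 2 := by
    rw [← Real.exp_nat_mul]; congr 1; push_cast; ring
  have h3 : Real.exp (x / 4) * Real.exp (-(x / 4)) = 1 := by rw [← Real.exp_add]; simp
  have h4 : 2 + Real.exp (x / 2) + Real.exp (-x / 2) = (2 * Real.cosh (x / 4)) ^ 2 := by
    rw [h1, h2, Real.cosh_eq]; nlinarith
  rw [h4, ← mul_pow, inv_mul_cancel₀ (by have := Real.cosh_pos (x / 4); positivity), one_pow]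

theorem mix1_cont : Continuous fun x : ℝ => (2 * Real.cosh (x / 4))⁻¹ ^ 2 :=
  (Continuous.inv₀ (by fun_prop) fun x => by have := Real.cosh_pos (x / 4); positivity).pow 2

theorem mix1_bc {e : ℝ → ℝ} (he : Continuous e) (h0 : ∀ x, 0 ≤ e x)
    (h1 : ∀ x, e x ≤ 2 + Real.exp (x / 2) + Real.exp (-x / 2)) :
    BC fun x => (e x : ℂ) * (((2 * Real.cosh (x / 4))⁻¹ ^ 2 : ℝ) : ℂ) := by
  refine BC.of_le ((Complex.continuous_ofReal.comp he).mul
    (Complex.continuous_ofReal.comp mix1_cont)) (C := 1) fun x => ?_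
  rw [← Complex.ofReal_mul, Complex.norm_real, Real.norm_of_nonneg (mul_nonneg (h0 x) (sq_nonneg _)),
    ← mix1_id x, mul_comm]
  exact mul_le_mul_of_nonneg_left (h1 x) (sq_nonneg _)

theorem mix1_bc0 : BC fun x => (((2 * Real.cosh (x / 4))⁻¹ ^ 2 : ℝ) : ℂ) := by
  have := mix1_bc (e := fun _ => 1) continuous_const (fun _ => zero_le_one) fun x => by
    linarith [Real.exp_pos (x / 2), Real.exp_pos (-x / 2)]
  simpa only [Complex.ofReal_one, one_mul] using this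

/-- Recipe: `k t = 2 k0 (2 t)` (`Ker.scale`) has transform `κ x = 1/(2 cosh (x/4))`;
`d = sig k (sig k (h + h₁))`. By `srel`, `fn χ (h₁ ξ) = fn (e^{x/2} χ) (h ξ)` and
`fn χ (h₁⋆ ξ) = fn (e^{-x/2} χ) (h ξ)` for compactly supported `χ`;
`κ² (2 + e^{x/2} + e^{-x/2}) = 1`; `eq_of_forall_supp` and `sepA`. -/
theorem Tom.exists_half (T : Tom A B ξ) {h h₁ : Op H} (hA : h ∈ A) (hsa : IsSelfAdjoint h)
    (h₁A : h₁ ∈ A) (he : h₁ ξ = T.J (h ξ)) :
    ∃ d ∈ A, d + star d = h ∧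
      d ξ = T.fn (fun x => (((2 * Real.cosh (x / 4))⁻¹ ^ 2 : ℝ) : ℂ)) (h ξ + T.J (h ξ)) := by
  obtain ⟨k, hk, hkc⟩ : ∃ k : ℝ → ℂ,
      Ker k (fun x => (((2 * Real.cosh (x / 4))⁻¹ : ℝ) : ℂ)) ∧ (fun t => conj (k t)) = k := by
    refine ⟨fun t => ((2 : ℝ) : ℂ) * (k0 (2 * t) : ℂ), ?_, ?_⟩
    · have := ker_k0.scale two_pos
      simpa only [div_div, show (2 : ℝ) * 2 = 4 by norm_num] using this
    · funext t; rw [map_mul, Complex.conj_ofReal, Complex.conj_ofReal]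
  set κ : ℝ → ℂ := fun x => (((2 * Real.cosh (x / 4))⁻¹ ^ 2 : ℝ) : ℂ) with hκ
  have hs : ∀ x : Op H, T.sig k (T.sig k x) ξ = T.fn κ (x ξ) := fun x => by
    rw [T.sig_ξ hk, T.sig_ξ hk, ← mul_apply_eq_comp, ← T.fn_mul hk.bc hk.bc]
    congr 2
    funext x
    rw [hκ, ← Complex.ofReal_mul, ← sq]
  have hd := T.sig_memA hk.int (T.sig_memA hk.int (add_mem hA h₁A))
  refine ⟨_, hd, ?_, by rw [hs, add_apply, he]⟩
  have b0 : BC κ := mix1_bc0
  have b1 : BC fun x => (Real.exp (x / 2) : ℂ) * κ x :=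
    mix1_bc (by fun_prop) (fun _ => (Real.exp_pos _).le) fun x => by
      linarith [Real.exp_pos (-x / 2)]
  have b2 : BC fun x => (Real.exp (-x / 2) : ℂ) * κ x :=
    mix1_bc (by fun_prop) (fun _ => (Real.exp_pos _).le) fun x => by
      linarith [Real.exp_pos (x / 2)]
  have e0 : (fun x => (Real.exp (x / 2) : ℂ) * ((Real.exp (-x / 2) : ℂ) * κ x)) = κ := by
    funext x
    rw [← mul_assoc, ← Complex.ofReal_mul, ← Real.exp_add, show x / 2 + -x / 2 = 0 by ring]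
    simp
  have e1 := T.srel h hA b0 b1
  rw [hsa.star_eq, ← he] at e1
  have e2 := T.srel (star h₁) (star_mem h₁A) b2 (by rwa [e0])
  rw [e0, star_star, he, T.JJ] at e2
  rw [← sub_eq_zero]
  refine T.sepA (sub_mem (add_mem hd (star_mem hd)) hA) ?_
  rw [T.star_sig hk.int, T.star_sig hk.int, hkc, sub_apply, add_apply, hs, hs, star_add,
    hsa.star_eq, add_apply, add_apply, map_add, map_add, ← e1, e2, sub_eq_zero, ← add_apply,
    ← add_apply, ← add_apply, ← T.fn_add b0 b1, ← T.fn_add b0 b2,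
    ← T.fn_add (b0.add b1) (b0.add b2)]
  have e3 : (fun x => κ x + (Real.exp (x / 2) : ℂ) * κ x + (κ x + (Real.exp (-x / 2) : ℂ) * κ x)) =
      fun _ => 1 := by
    funext x
    have := congrArg (fun r : ℝ => (r : ℂ)) (mix1_id x)
    simp only [Complex.ofReal_mul, Complex.ofReal_add, Complex.ofReal_one,
      Complex.ofReal_ofNat] at this
    rw [← this]
    ring
  rw [e3, T.fn_one, one_apply_eq_self]

theorem mix1_re {a b d : Op H} (h : d + star d = star a * a + star b * b) (v : H) :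
    2 * (⟪v, d v⟫_ℂ).re = ‖a v‖ ^ 2 + ‖b v‖ ^ 2 := by
  have h1 := congrArg (fun T : Op H => (⟪v, T v⟫_ℂ).re) h
  simp only [add_apply, inner_add_right, Complex.add_re, mul_apply_eq_comp, bas_inner_star] at h1
  have h2 : (⟪d v, v⟫_ℂ).re = (⟪v, d v⟫_ℂ).re := inner_re_symm (𝕜 := ℂ) _ _
  have h3 : (⟪a v, a v⟫_ℂ).re = ‖a v‖ ^ 2 := inner_self_eq_norm_sq (𝕜 := ℂ) _
  have h4 : (⟪b v, b v⟫_ℂ).re = ‖b v‖ ^ 2 := inner_self_eq_norm_sq (𝕜 := ℂ) _
  linarith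

theorem mix1_sum {a b d : Op H} (h : d + star d = star a * a + star b * b) {s ε : ℝ} (hs : 0 ≤ s)
    (hε : 0 ≤ ε) (v : H) :
    ∑ j, ‖(![(√(s * ε) : ℂ) • a, (√(s * ε) : ℂ) • b, (√s : ℂ) • (1 - (ε : ℂ) • d)] j) v‖ ^ 2 =
      s * (‖v‖ ^ 2 + ε ^ 2 * ‖d v‖ ^ 2) := by
  have h1 := mix1_re h v
  have h2 : ‖(1 - (ε : ℂ) • d) v‖ ^ 2 =
      ‖v‖ ^ 2 - 2 * (ε * (⟪v, d v⟫_ℂ).re) + ε ^ 2 * ‖d v‖ ^ 2 := by
    rw [sub_apply, one_apply_eq_self, smul_apply, norm_sub_sq (𝕜 := ℂ), inner_smul_right, norm_smul,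
      mul_pow, Complex.norm_real, Real.norm_eq_abs, sq_abs, RCLike.re_to_complex,
      Complex.re_ofReal_mul]
  simp only [Fin.sum_univ_three, Matrix.cons_val_zero, Matrix.cons_val_one, Matrix.cons_val,
    cpl_norm hs, cpl_norm (mul_nonneg hs hε), h2]
  linear_combination (-(s * ε)) * h1

theorem mix1_col {a b d : Op H} (h : d + star d = star a * a + star b * b) {s ε M : ℝ} (hs : 0 ≤ s)
    (hε : 0 ≤ ε) (hd : ‖d‖ ≤ M) (hM : s * (1 + ε ^ 2 * M ^ 2) = 1) :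
    Col ![(√(s * ε) : ℂ) • a, (√(s * ε) : ℂ) • b, (√s : ℂ) • (1 - (ε : ℂ) • d)] 1 := fun v => by
  rw [mix1_sum h hs hε]
  have h1 : ‖d v‖ ^ 2 ≤ (M * ‖v‖) ^ 2 := pow_le_pow_left₀ (norm_nonneg _) (d.le_of_opNorm_le hd v) 2
  have h2 := mul_le_mul_of_nonneg_left h1 (mul_nonneg hs (sq_nonneg ε))
  calc _ ≤ s * (1 + ε ^ 2 * M ^ 2) * ‖v‖ ^ 2 := by nlinarith
    _ = _ := by rw [hM, one_pow]

/-- Letters. Recipe: `b = J a' J`, `b' = J a J`, `h = a⋆ a + b⋆ b`, `h' = J h J = a'⋆ a' + b'⋆ b'`,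
`h₁ = a a♯ + J a' a♭ J` (`a'⋆ ξ = a♯ ξ`, `a⋆ ξ = a♭ ξ`) has `h₁ ξ = J h ξ`; `exists_half` for `T` and
for `T.swap` (with `h'`, `J h₁ J`) give `d`, `d'` with `d ξ = d' ξ`.
`𝓛 = a⋆ a' + b⋆ b' - d⋆ - d'`, `re ⟪v, 𝓛 v⟫ = -(‖a v - a' v‖² + ‖b v - b' v‖²)/2`. The coupling has
three letters `√ε a`, `√ε b`, `(1 - C' ε²)(1 - ε d)` (primed likewise);
`(1 - ε d)⋆ (1 - ε d) = 1 - ε h + ε² d⋆ d`. -/
theorem Tom.letter (T : Tom A B ξ) {a a' : Op H} (h : Nice A B ξ a a') :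
    ∃ (𝓛 : Op H) (C ε₁ : ℝ), 0 < ε₁ ∧ 0 ≤ C ∧ (∀ v, 𝓛 v = 0 → a v = a' v) ∧
      ∀ ε : ℝ, 0 < ε → ε ≤ ε₁ → ∃ c : Cpl A B ξ, c.Dfc (C * ε ^ 2) ∧
        ‖c.tr - (1 + (ε : ℂ) • 𝓛)‖ ≤ C * ε ^ 2 := by
  obtain ⟨ha, ha', he, ⟨p, hp, hpe⟩, ⟨q, hq, hqe⟩⟩ := h
  have hb := T.jcB a' ha'
  have hb' := T.jcA a ha
  obtain ⟨b, hbd⟩ : ∃ b, b = jc T.J a' := ⟨_, rfl⟩
  obtain ⟨b', hbd'⟩ : ∃ b', b' = jc T.J a := ⟨_, rfl⟩
  rw [← hbd] at hb
  rw [← hbd'] at hb'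
  have hbe : b ξ = b' ξ := by rw [hbd, hbd', jc_apply, jc_apply, T.Jξ, he]
  have hJ : jc T.J (star a * a + star b * b) = star a' * a' + star b' * b' := by
    rw [jc_add, jc_mul T.JJ, jc_mul T.JJ, jc_star T.JJ, jc_star T.JJ, hbd, hbd', jc_jc T.JJ,
      add_comm]
  obtain ⟨d, hd, hdd, hdξ⟩ := T.exists_half (h := star a * a + star b * b)
    (h₁ := a * q + jc T.J (a' * p))
    (add_mem (mul_mem (star_mem ha) ha) (mul_mem (star_mem hb) hb))
    ((IsSelfAdjoint.star_mul_self a).add (IsSelfAdjoint.star_mul_self b))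
    (add_mem (mul_mem ha hq) (T.jcB _ (mul_mem ha' hp))) (by
      have e1 : T.J ((star a * a + star b * b) ξ) = (star a' * a' + star b' * b') ξ := by
        rw [← hJ, jc_apply, T.Jξ]
      rw [e1, add_apply, add_apply, mul_apply_eq_comp, mul_apply_eq_comp, ← hqe, ← he,
        cpl_app (T.commute ha (star_mem ha')), hbd', ← jc_star T.JJ, ← jc_mul T.JJ, jc_apply,
        jc_apply, T.Jξ, mul_apply_eq_comp, mul_apply_eq_comp, ← hpe, he,
        cpl_app (T.commute (star_mem ha) ha')])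
  obtain ⟨d', hdd'⟩ : ∃ d', d' = jc T.J d := ⟨_, rfl⟩
  have hd' : d' ∈ B := hdd' ▸ T.jcA d hd
  have hn' : ‖d'‖ = ‖d‖ := by rw [hdd', norm_jc T.JJ]
  have hs' : d' + star d' = star a' * a' + star b' * b' := by
    rw [hdd', ← jc_star T.JJ, ← jc_add, hdd, hJ]
  have hde : d ξ = d' ξ := by
    rw [hdd', jc_apply, T.Jξ, hdξ, T.J_fn mix1_bc0, map_add T.J, T.JJ, add_comm]
    congr 2
    funext x
    rw [Complex.conj_ofReal, neg_div, Real.cosh_neg]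
  refine ⟨star a * a' + star b * b' - star d - d', ‖d‖ ^ 2 *
    (2 + ‖star a * a' + star b * b' - star d - d'‖), 1, one_pos, by positivity, fun v hv => ?_,
    fun ε hε hε1 => ?_⟩
  · have h1 := congrArg (fun w => (⟪v, w⟫_ℂ).re) hv
    simp only [add_apply, sub_apply, inner_add_right, inner_sub_right, Complex.add_re,
      Complex.sub_re, mul_apply_eq_comp, bas_inner_star, inner_zero_right, Complex.zero_re] at h1
    have h2 : (⟪d v, v⟫_ℂ).re = (⟪v, d v⟫_ℂ).re := inner_re_symm (𝕜 := ℂ) _ _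
    have h3 := mix1_re hdd v
    have h4 := mix1_re hs' v
    have h5 := norm_sub_sq (𝕜 := ℂ) (a v) (a' v)
    have h6 := norm_sub_sq (𝕜 := ℂ) (b v) (b' v)
    rw [RCLike.re_to_complex] at h5 h6
    have h7 : ‖a v - a' v‖ ^ 2 = 0 :=
      le_antisymm (by linarith [sq_nonneg ‖b v - b' v‖]) (sq_nonneg _)
    rwa [sq_eq_zero_iff, norm_eq_zero, sub_eq_zero] at h7
  obtain ⟨L, hL⟩ : ∃ L, L = star a * a' + star b * b' - star d - d' := ⟨_, rfl⟩
  rw [← hL]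
  obtain ⟨s, hs, hM⟩ : ∃ s : ℝ, 0 ≤ s ∧ s * (1 + ε ^ 2 * ‖d‖ ^ 2) = 1 :=
    ⟨(1 + ε ^ 2 * ‖d‖ ^ 2)⁻¹, by positivity, inv_mul_cancel₀ (by positivity)⟩
  have hx : 0 ≤ ε ^ 2 * ‖d‖ ^ 2 := by positivity
  have hs1 : s ≤ 1 := by nlinarith
  have hs2 : 1 - s ≤ ε ^ 2 * ‖d‖ ^ 2 := by nlinarith
  have hL0 := norm_nonneg L
  let c : Cpl A B ξ :=
    { ι := Fin 3
      a := ![(√(s * ε) : ℂ) • a, (√(s * ε) : ℂ) • b, (√s : ℂ) • (1 - (ε : ℂ) • d)]
      a' := ![(√(s * ε) : ℂ) • a', (√(s * ε) : ℂ) • b', (√s : ℂ) • (1 - (ε : ℂ) • d')]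
      mem := fun j => by
        fin_cases j
        exacts [smul_mem' _ ha, smul_mem' _ hb, smul_mem' _ (sub_mem (one_mem _) (smul_mem' _ hd))]
      mem' := fun j => by
        fin_cases j
        exacts [smul_mem' _ ha', smul_mem' _ hb',
          smul_mem' _ (sub_mem (one_mem _) (smul_mem' _ hd'))]
      eq := fun j => by
        fin_cases j
        exacts [congrArg ((√(s * ε) : ℂ) • ·) he, congrArg ((√(s * ε) : ℂ) • ·) hbe,
          congrArg (fun w => (√s : ℂ) • (ξ - (ε : ℂ) • w)) hde]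
      col := mix1_col hdd hs hε.le le_rfl hM
      col' := mix1_col hs' hs hε.le hn'.le hM }
  refine ⟨c, ?_, ?_⟩
  · refine le_trans ?_ (mix1_sum hdd hs hε.le ξ).ge
    have h1 : 1 - ‖d‖ ^ 2 * (2 + ‖L‖) * ε ^ 2 ≤ s := by nlinarith
    have h2 := mul_le_mul_of_nonneg_right h1 (sq_nonneg ‖ξ‖)
    have h3 : 0 ≤ s * (ε ^ 2 * ‖d ξ‖ ^ 2) := by positivity
    linarith
  · have e1 : c.tr - (1 + (ε : ℂ) • L) =
        ((s - 1 : ℝ) : ℂ) • (1 + (ε : ℂ) • L) + ((s * ε ^ 2 : ℝ) : ℂ) • (star d * d') := by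
      change ∑ j : Fin 3, _ - _ = _
      simp only [c, Fin.sum_univ_three, Matrix.cons_val_zero, Matrix.cons_val_one, Matrix.cons_val,
        cpl_mul hs, cpl_mul (mul_nonneg hs hε.le), hL, star_sub, star_one, star_smul,
        Complex.star_def, Complex.conj_ofReal, mul_sub, sub_mul, one_mul, mul_one, smul_mul_assoc,
        mul_smul_comm]
      push_cast
      module
    rw [e1]
    refine (norm_add_le _ _).trans ?_
    rw [norm_smul, norm_smul, Complex.norm_real, Complex.norm_real, Real.norm_eq_abs, abs_sub_comm,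
      abs_of_nonneg (sub_nonneg.2 hs1), Real.norm_of_nonneg (by positivity)]
    have h1 : ‖1 + (ε : ℂ) • L‖ ≤ 1 + ‖L‖ := by
      refine (norm_add_le _ _).trans (add_le_add pj_norm_one ?_)
      rw [norm_smul, Complex.norm_real, Real.norm_of_nonneg hε.le]
      exact mul_le_of_le_one_left hL0 hε1
    have h2 : ‖star d * d'‖ ≤ ‖d‖ ^ 2 := by
      refine (norm_mul_le _ _).trans ?_
      rw [norm_star, hn', sq]
    have h3 := mul_le_mul hs2 h1 (norm_nonneg _) hx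
    have h4 := mul_le_mul (mul_le_of_le_one_left (sq_nonneg ε) hs1) h2 (norm_nonneg _) (sq_nonneg ε)
    linarith

end

end Crest.Agent.R78
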