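import Crest.Agent.R78.Mix1
import Crest.Agent.R78.Four

/-!
# Row 78: ergodicity of couplings
-/

open scoped InnerProductSpace Topology ComplexConjugate
open Filter MeasureTheory

set_option linter.unusedSectionVars false

namespace Crest.Agent.R78

open Crest.Agent.R121 (Alg)

noncomputable section

universe u

variable {H : Type*} [NormedAddCommGroup H] [InnerProductSpace ℂ H] [CompleteSpace H]

variable {A B : VN H} {ξ : H}

section Mix2a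

open scoped ContDiff

theorem mix2a_smooth {e : ℝ → ℝ} (he : ContDiff ℝ ∞ e) {g : ℝ → ℂ} (hg : ContDiff ℝ ∞ g) :
    ContDiff ℝ ∞ fun s => (e s : ℂ) * g s :=
  (Complex.ofRealCLM.contDiff.comp he).mul hg

theorem mix2a_exp_pos : ContDiff ℝ ∞ fun s : ℝ => Real.exp (s / 2) :=
  Real.contDiff_exp.comp (contDiff_id.div_const 2)

theorem mix2a_exp_neg : ContDiff ℝ ∞ fun s : ℝ => Real.exp (-s / 2) :=
  Real.contDiff_exp.comp (contDiff_neg.div_const 2)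

theorem Tom.mix2a_nice (T : Tom A B ξ) {x : Op H} (hx : x ∈ A) {g k : ℝ → ℂ}
    (hg : ContDiff ℝ ∞ g) (hs : HasCompactSupport g) (hk : Ker k g) :
    ∃ a', Nice A B ξ (T.sig k x) a' ∧ T.sig k x ξ = T.fn g (x ξ) ∧
      T.J (star (T.sig k x) ξ) = T.fn (fun s => (Real.exp (s / 2) : ℂ) * g s) (x ξ) ∧
      T.J (star a' ξ) = T.fn (fun s => (Real.exp (-s / 2) : ℂ) * g s) (x ξ) := by
  have g1 := mix2a_smooth mix2a_exp_pos hg
  have g2 := mix2a_smooth mix2a_exp_neg hg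
  have g3 := mix2a_smooth mix2a_exp_neg g2
  obtain ⟨k1, hk1, -⟩ := exists_ker g1 hs.mul_left
  obtain ⟨k2, hk2, -⟩ := exists_ker g2 hs.mul_left
  obtain ⟨k3, hk3, -⟩ := exists_ker g3 (HasCompactSupport.mul_left hs.mul_left)
  have hy : jc T.J (star x) ∈ B := T.jcA _ (star_mem hx)
  have ha := T.sig_memA hk.int hx
  have ha' := T.sig_memB hk2.int hy
  have he := T.sig_coupled hk hk2 hx
  have e0 := T.sig_ξ hk x
  have e1 := T.tapi_keyA ha hk.bc hk1.bc e0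
  have e2 := T.tapi_keyB ha' hk.bc hk2.bc (he.symm.trans e0)
  refine ⟨T.sig k2 (jc T.J (star x)), ⟨ha, ha', he, ?_, ?_⟩, e0, e1, e2⟩
  · refine ⟨jc T.J (T.sig k1 x), T.jcA _ (T.sig_memA hk1.int hx), ?_⟩
    rw [jc_apply, T.Jξ, T.sig_ξ hk1, ← e1, T.JJ]
  · refine ⟨jc T.J (T.sig k3 (jc T.J (star x))), T.jcB _ (T.sig_memB hk3.int hy), ?_⟩
    rw [jc_apply, T.Jξ, ← T.sig_coupled hk2 hk3 hx, T.sig_ξ hk2 x, ← e2, T.JJ]

theorem Tom.mix2a_seq (T : Tom A B ξ) {x : Op H} (hx : x ∈ A) :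
    ∃ (f : ℕ → ℝ → ℝ) (a a' : ℕ → Op H) (C : ℝ), (∀ n, ContDiff ℝ ∞ (f n)) ∧
      (∀ n, HasCompactSupport (f n)) ∧ (∀ n s, 0 ≤ f n s ∧ f n s ≤ 1) ∧
      (∀ (n : ℕ) (s : ℝ), |s| ≤ (n : ℝ) + 1 → f n s = 1) ∧ (∀ n, Nice A B ξ (a n) (a' n)) ∧
      (∀ n, ‖a n‖ ≤ C) ∧ (∀ n, a n ξ = T.fn (fun s => (f n s : ℂ)) (x ξ)) ∧
      (∀ n, T.J (star (a n) ξ) = T.fn (fun s => (Real.exp (s / 2) : ℂ) * f n s) (x ξ)) ∧
      ∀ n, T.J (star (a' n) ξ) = T.fn (fun s => (Real.exp (-s / 2) : ℂ) * f n s) (x ξ) := by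
  obtain ⟨f, hf, hs, -, h01, h1⟩ := exists_cutoff
  have hc : ∀ {g : ℝ → ℝ}, HasCompactSupport g → HasCompactSupport fun s => (g s : ℂ) :=
    fun hg => hg.comp_left (g := fun r : ℝ => (r : ℂ)) Complex.ofReal_zero
  obtain ⟨k, hk, -⟩ := exists_ker (f := fun s => (f s : ℂ))
    (Complex.ofRealCLM.contDiff.comp hf) (hc hs)
  have hR : ∀ n : ℕ, (0 : ℝ) < (n : ℝ) + 1 := fun n => by positivity
  have hfn : ∀ n : ℕ, ContDiff ℝ ∞ fun s => f (s / ((n : ℝ) + 1)) := fun n =>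
    hf.comp (contDiff_id.div_const _)
  have hsn : ∀ n : ℕ, HasCompactSupport fun s => f (s / ((n : ℝ) + 1)) := fun n => by
    have := hs.comp_homeomorph (Homeomorph.mulRight₀ ((n : ℝ) + 1)⁻¹ (inv_ne_zero (hR n).ne'))
    convert this using 2 with s
    simp [div_eq_mul_inv]
  have key := fun n : ℕ => T.mix2a_nice hx (g := fun s => (f (s / ((n : ℝ) + 1)) : ℂ))
    (Complex.ofRealCLM.contDiff.comp (hfn n)) (hc (hsn n)) (hk.scale (hR n))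
  choose a' ha' using key
  refine ⟨fun n s => f (s / ((n : ℝ) + 1)), fun n => T.sig _ x, a', (∫ t, ‖k t‖) * ‖x‖, hfn, hsn,
    fun n s => h01 _, fun n s h => h1 _ ?_, fun n => (ha' n).1, fun n => ?_, fun n => (ha' n).2.1,
    fun n => (ha' n).2.2.1, fun n => (ha' n).2.2.2⟩
  · rw [abs_div, abs_of_pos (hR n)]
    exact (div_le_one (hR n)).2 h
  · rw [← Ker.integral_norm_scale k (hR n)]
    exact T.norm_sig_le (hk.scale (hR n)).int x

theorem mix2a_tend (F : FC H) {f : ℕ → ℝ → ℝ} (hf : ∀ n, Continuous (f n))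
    (h01 : ∀ n s, 0 ≤ f n s ∧ f n s ≤ 1) (h1 : ∀ (n : ℕ) (s : ℝ), |s| ≤ (n : ℝ) + 1 → f n s = 1)
    (w : H) : Tendsto (fun n => F.fn (fun s => (f n s : ℂ)) w) atTop (𝓝 w) := by
  have hb : ∀ n s, ‖(f n s : ℂ)‖ ≤ 1 := fun n s => by
    rw [Complex.norm_real, Real.norm_of_nonneg (h01 n s).1]
    exact (h01 n s).2
  have := F.tendsto_fn (l := atTop) (g := fun n s => (f n s : ℂ)) (f := fun _ => 1)
    (fun n => BC.of_le (Complex.continuous_ofReal.comp (hf n)) (hb n)) (BC.const 1) hb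
    (fun s => ?_) w
  · rwa [F.fn_one] at this
  · refine tendsto_const_nhds.congr' ?_
    filter_upwards [eventually_ge_atTop ⌈|s|⌉₊] with n hn
    have h2 : (⌈|s|⌉₊ : ℝ) ≤ n := by exact_mod_cast hn
    rw [h1 n s (by linarith [Nat.le_ceil |s|]), Complex.ofReal_one]

theorem mix2a_strong (hc : Cyc A.commutant ξ) {a : ℕ → Op H} {x : Op H} (ha : ∀ n, a n ∈ A)
    (hx : x ∈ A) {C : ℝ} (hC : ∀ n, ‖a n‖ ≤ C) (h : Tendsto (fun n => a n ξ) atTop (𝓝 (x ξ)))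
    (v : H) : Tendsto (fun n => a n v) atTop (𝓝 (x v)) := by
  rw [Metric.tendsto_nhds] at h ⊢
  intro ε hε
  obtain ⟨δ, hδ, h2⟩ := hc.strong (C := C + ‖x‖) v (half_pos hε)
  filter_upwards [h δ hδ] with n hn
  rw [dist_eq_norm] at hn ⊢
  have := h2 (a n - x) (sub_mem (ha n) hx) ((norm_sub_le _ _).trans (by linarith [hC n])) hn.le
  exact lt_of_le_of_lt this (half_lt_self hε)

theorem Tom.mix2a_h1 (T : Tom A B ξ) {v : H} (h : ∀ a a', Nice A B ξ a a' → a v = a' v)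
    {x : Op H} (hx : x ∈ A) {ε : ℝ} (hε : 0 < ε) :
    ∃ y ∈ B, ‖x ξ - y ξ‖ ≤ ε ∧ ‖x v - y v‖ ≤ ε := by
  obtain ⟨f, a, a', C, hf, -, h01, h1, hN, hC, e0, -, -⟩ := T.mix2a_seq hx
  have t1 : Tendsto (fun n => a n ξ) atTop (𝓝 (x ξ)) := by
    simp only [e0]
    exact mix2a_tend T.toFC (fun n => (hf n).continuous) h01 h1 _
  have t2 := mix2a_strong (T.comm.symm ▸ T.cycB) (fun n => (hN n).mem) hx hC t1 v
  obtain ⟨n, n1, n2⟩ := ((Metric.tendsto_nhds.1 t1 ε hε).and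
    (Metric.tendsto_nhds.1 t2 ε hε)).exists
  rw [dist_comm, dist_eq_norm] at n1 n2
  refine ⟨a' n, (hN n).mem', ?_, ?_⟩
  · rw [← (hN n).eq]
    exact n1.le
  · rw [← h _ _ (hN n)]
    exact n2.le

theorem Tom.mix2a_inner (T : Tom A B ξ) (a : Op H) (v : H) :
    ⟪ξ, a v⟫_ℂ = ⟪T.J v, T.J (star a ξ)⟫_ℂ := by
  rw [inner_J, bas_star_inner]

theorem Tom.mix2a_bal (T : Tom A B ξ) {v : H} (h : ∀ a a', Nice A B ξ a a' → a v = a' v)
    {x : Op H} (hx : x ∈ A) {g : ℝ → ℂ} (hg : ContDiff ℝ ∞ g) (hs : HasCompactSupport g) :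
    ⟪T.J v, T.fn (fun s => (Real.exp (s / 2) : ℂ) * g s) (x ξ)⟫_ℂ = ⟪T.J v, T.fn g (x ξ)⟫_ℂ := by
  have hp : ∀ s : ℝ, 0 < 1 + Real.exp (-s / 2) := fun s => by positivity
  have hd : ContDiff ℝ ∞ fun s : ℝ => (1 + Real.exp (-s / 2))⁻¹ :=
    (contDiff_const.add mix2a_exp_neg).inv fun s => (hp s).ne'
  set g' : ℝ → ℂ := fun s => (((1 + Real.exp (-s / 2))⁻¹ : ℝ) : ℂ) * g s with hg'
  have c0 : ContDiff ℝ ∞ g' := mix2a_smooth hd hg
  have s0 : HasCompactSupport g' := hs.mul_left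
  obtain ⟨k, hk, -⟩ := exists_ker c0 s0
  obtain ⟨a', hN, -, e1, e2⟩ := T.mix2a_nice hx c0 s0 hk
  have b1 : BC fun s : ℝ => (Real.exp (s / 2) : ℂ) * g' s :=
    BC.of_supp (mix2a_smooth mix2a_exp_pos c0).continuous s0.mul_left
  have b2 : BC fun s : ℝ => (Real.exp (-s / 2) : ℂ) * g' s :=
    BC.of_supp (mix2a_smooth mix2a_exp_neg c0).continuous s0.mul_left
  have q : ⟪T.J v, T.fn (fun s => (Real.exp (s / 2) : ℂ) * g' s) (x ξ)⟫_ℂ =
      ⟪T.J v, T.fn (fun s => (Real.exp (-s / 2) : ℂ) * g' s) (x ξ)⟫_ℂ := by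
    rw [← e1, ← e2, ← T.mix2a_inner, ← T.mix2a_inner, h _ _ hN]
  have i2 : ∀ s, g s = (Real.exp (-s / 2) : ℂ) * g' s + g' s := fun s => by
    have : ((Real.exp (-s / 2) : ℂ) + 1) * (((1 + Real.exp (-s / 2))⁻¹ : ℝ) : ℂ) = 1 := by
      rw [← Complex.ofReal_one, ← Complex.ofReal_add, ← Complex.ofReal_mul, add_comm,
        mul_inv_cancel₀ (hp s).ne']
    simp only [hg']
    linear_combination (-g s) * this
  have i1 : (fun s : ℝ => (Real.exp (s / 2) : ℂ) * g s) =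
      fun s : ℝ => (Real.exp (s / 2) : ℂ) * g' s + g' s := by
    funext s
    have : (Real.exp (s / 2) : ℂ) * (Real.exp (-s / 2) : ℂ) = 1 := by
      rw [← Complex.ofReal_mul, ← Real.exp_add]
      simp [← add_div]
    rw [i2 s]
    linear_combination (g' s) * this
  rw [i1, funext i2, T.fn_add b1 hk.bc, T.fn_add b2 hk.bc, add_apply, add_apply, inner_add_right,
    inner_add_right, q]

end Mix2a

/-- Nice approximants. Recipe: `f` from `exists_cutoff`, `f_n x = f (x/(n+1))`, kernel from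
`Ker.scale` (uniform `L¹` norm), `a n = sig k_n x`, `a' n = sig k⁻ (J x⋆ J)` (`sig_coupled`, kernels
of `e^{cx} f_n` from `exists_ker_exp`); `star_sig`, `Ker.star'`, `sig_coupled`, `sig_coupled'` give
niceness; `star_sig_eq`, `star_sig_eq'` (or `srel`, `frel`) give the last two formulas. -/
theorem Tom.exists_nice (T : Tom A B ξ) {x : Op H} (hx : x ∈ A) :
    ∃ (f : ℕ → ℝ → ℝ) (a a' : ℕ → Op H) (C : ℝ), (∀ n, Continuous (f n)) ∧
      (∀ n, HasCompactSupport (f n)) ∧ (∀ n s, 0 ≤ f n s ∧ f n s ≤ 1) ∧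
      (∀ (n : ℕ) (s : ℝ), |s| ≤ (n : ℝ) + 1 → f n s = 1) ∧ (∀ n, Nice A B ξ (a n) (a' n)) ∧ (∀ n, ‖a n‖ ≤ C) ∧
      (∀ n, a n ξ = T.fn (fun s => (f n s : ℂ)) (x ξ)) ∧
      (∀ n, T.J (star (a n) ξ) = T.fn (fun s => (Real.exp (s / 2) : ℂ) * f n s) (x ξ)) ∧
      ∀ n, T.J (star (a' n) ξ) = T.fn (fun s => (Real.exp (-s / 2) : ℂ) * f n s) (x ξ) := by
  obtain ⟨f, a, a', C, hf, h⟩ := T.mix2a_seq hx
  exact ⟨f, a, a', C, fun n => (hf n).continuous, h⟩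

/-- Common eigenvectors. Recipe: `mem_zsp_of_graph` with `w = J v`. `h₁`, `h₂`: `exists_nice` (for
`T` and `T.swap`), `tendsto_fn`, `Cyc.strong`. `h₃`: the cut-offs `f n` do not depend on `x` in the
proof, but it is enough to use for each `x`: `⟪ξ, a v⟫ = ⟪a⋆ ξ, v⟫ = ⟪J v, fn (e^{s/2} f) x ξ⟫` and
`⟪ξ, a' v⟫ = ⟪J v, fn (e^{-s/2} f) x ξ⟫`. To divide by `1 + e^{-s/2}` one needs the identity
`fn ((e^{s/2} - e^{-s/2}) g) (J v) = 0` for enough `g`: prove it directly for a fixed smooth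
cut-off `g` by repeating the construction of `exists_nice` with `g` (all `x ∈ A`, density of `A ξ`);
multiply by `fn (1/(1 + e^{-s/2}))` to get `fn ((e^{s/2} - 1) g) (J v) = 0`. -/
theorem Tom.mem_zsp_of_nice (T : Tom A B ξ) {v : H}
    (h : ∀ a a', Nice A B ξ a a' → a v = a' v) : v ∈ zsp A ξ := by
  refine mem_zsp_of_graph (w := T.J v) T.cycA (fun x hx ε hε => ?_) (fun y hy ε hε => ?_)
    fun x hx => ?_
  · rw [T.comm]
    exact T.mix2a_h1 h hx hε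
  · rw [T.comm] at hy
    obtain ⟨x, hx, h1, h2⟩ := T.swap.mix2a_h1 (fun a a' hN => (h _ _ hN.swap).symm) hy hε
    rw [norm_sub_rev] at h1 h2
    exact ⟨x, hx, h1, h2⟩
  · obtain ⟨f, a, a', C, hf, hs, h01, h1, hN, hC, e0, e1, -⟩ := T.mix2a_seq hx
    have t1 : Tendsto (fun n => a n ξ) atTop (𝓝 (x ξ)) := by
      simp only [e0]
      exact mix2a_tend T.toFC (fun n => (hf n).continuous) h01 h1 _
    have t2 := mix2a_strong (T.comm.symm ▸ T.cycB) (fun n => (hN n).mem) hx hC t1 v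
    have e : ∀ n, ⟪ξ, a n v⟫_ℂ = ⟪T.J v, a n ξ⟫_ℂ := fun n => by
      rw [T.mix2a_inner, e1, e0]
      exact T.mix2a_bal h hx (g := fun s => (f n s : ℂ)) (Complex.ofRealCLM.contDiff.comp (hf n))
        ((hs n).comp_left (g := fun r : ℝ => (r : ℂ)) Complex.ofReal_zero)
    have l1 : Tendsto (fun n => ⟪ξ, a n v⟫_ℂ) atTop (𝓝 ⟪ξ, x v⟫_ℂ) := tendsto_const_nhds.inner t2
    have l2 : Tendsto (fun n => ⟪T.J v, a n ξ⟫_ℂ) atTop (𝓝 ⟪T.J v, x ξ⟫_ℂ) :=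
      tendsto_const_nhds.inner t1
    simp only [e] at l1
    exact tendsto_nhds_unique l1 l2

/-- Operators approximable by transfer operators of couplings of small defect. -/
def Mix2bS (A B : VN H) (ξ : H) : Set (Op H) :=
  {X | ∀ τ : ℝ, 0 < τ → ∃ c : Cpl A B ξ, c.Dfc τ ∧ ‖X - c.tr‖ ≤ τ}

theorem mix2b_one : (1 : Op H) ∈ Mix2bS A B ξ := by
  intro τ hτ
  refine ⟨Cpl.one A B ξ, ?_, ?_⟩
  · unfold Cpl.Dfc
    rw [Cpl.one_mass]
    nlinarith [sq_nonneg ‖ξ‖]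
  · rw [Cpl.one_tr, sub_self, norm_zero]
    exact hτ.le

theorem mix2b_norm {X : Op H} (hX : X ∈ Mix2bS A B ξ) : ‖X‖ ≤ 1 := by
  refine le_of_forall_pos_le_add fun τ hτ => ?_
  obtain ⟨c, -, hc⟩ := hX τ hτ
  calc ‖X‖ = ‖c.tr + (X - c.tr)‖ := by congr 1; abel
    _ ≤ ‖c.tr‖ + ‖X - c.tr‖ := norm_add_le _ _
    _ ≤ 1 + τ := add_le_add c.norm_tr_le hc

theorem mix2b_mul (hB : A.commutant = B) {X Y : Op H} (hX : X ∈ Mix2bS A B ξ)
    (hY : Y ∈ Mix2bS A B ξ) : X * Y ∈ Mix2bS A B ξ := by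
  intro τ hτ
  obtain ⟨c, hc, hc'⟩ := hX (τ / 2) (by positivity)
  obtain ⟨d, hd, hd'⟩ := hY (τ / 2) (by positivity)
  refine ⟨d.comp hB c, (hd.comp hB hc).mono (by linarith), ?_⟩
  rw [Cpl.comp_tr]
  have h1 : X * Y - c.tr * d.tr = X * (Y - d.tr) + (X - c.tr) * d.tr := by noncomm_ring
  have h2 : ‖X * (Y - d.tr)‖ ≤ 1 * (τ / 2) :=
    (norm_mul_le _ _).trans (mul_le_mul (mix2b_norm hX) hd' (norm_nonneg _) zero_le_one)
  have h3 : ‖(X - c.tr) * d.tr‖ ≤ τ / 2 * 1 :=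
    (norm_mul_le _ _).trans (mul_le_mul hc' d.norm_tr_le (norm_nonneg _) (by positivity))
  rw [h1]
  linarith [norm_add_le (X * (Y - d.tr)) ((X - c.tr) * d.tr)]

theorem mix2b_convex : Convex ℝ (Mix2bS A B ξ) := by
  intro X hX Y hY a b ha hb hab τ hτ
  obtain ⟨c, hc, hc'⟩ := hX τ hτ
  obtain ⟨d, hd, hd'⟩ := hY τ hτ
  obtain rfl : b = 1 - a := by linarith
  refine ⟨Cpl.mix a ha (by linarith) c d, ?_, ?_⟩
  · unfold Cpl.Dfc at hc hd ⊢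
    rw [Cpl.mix_mass]
    nlinarith [mul_le_mul_of_nonneg_left hc ha, mul_le_mul_of_nonneg_left hd hb]
  · rw [Cpl.mix_tr, Complex.coe_smul, Complex.coe_smul]
    have h1 : a • X + (1 - a) • Y - (a • c.tr + (1 - a) • d.tr) =
        a • (X - c.tr) + (1 - a) • (Y - d.tr) := by
      rw [smul_sub, smul_sub]; abel
    rw [h1]
    refine (norm_add_le _ _).trans ?_
    rw [norm_smul, norm_smul, Real.norm_of_nonneg ha, Real.norm_of_nonneg hb]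
    nlinarith [mul_le_mul_of_nonneg_left hc' ha, mul_le_mul_of_nonneg_left hd' hb]

theorem mix2b_pow (hB : A.commutant = B) {c : Cpl A B ξ} {τ : ℝ} (h : c.Dfc τ) (n : ℕ) :
    ∃ d : Cpl A B ξ, d.Dfc (n * τ) ∧ d.tr = c.tr ^ n := by
  induction n with
  | zero =>
    refine ⟨Cpl.one A B ξ, ?_, ?_⟩
    · unfold Cpl.Dfc
      rw [Cpl.one_mass]
      simp
    · rw [Cpl.one_tr, pow_zero]
  | succ n ih =>
    obtain ⟨d, hd, hd'⟩ := ih
    refine ⟨c.comp hB d, (h.comp hB hd).mono (le_of_eq ?_), ?_⟩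
    · push_cast; ring
    · rw [Cpl.comp_tr, hd', pow_succ]

theorem mix2b_exp (hB : A.commutant = B) {𝓛 : Op H} {C ε₁ : ℝ} (hε₁ : 0 < ε₁) (hC : 0 ≤ C)
    (h : ∀ ε : ℝ, 0 < ε → ε ≤ ε₁ → ∃ c : Cpl A B ξ, c.Dfc (C * ε ^ 2) ∧
      ‖c.tr - (1 + (ε : ℂ) • 𝓛)‖ ≤ C * ε ^ 2) {s : ℝ} (hs : 0 < s) (hs1 : s ≤ 1) :
    NormedSpace.exp ((s : ℂ) • 𝓛) ∈ Mix2bS A B ξ := by
  have key : ∀ n : ℕ, ∃ T : Op H,
      (1 ≤ n → ‖T - (1 + (n : ℂ)⁻¹ • ((s : ℂ) • 𝓛))‖ ≤ C / (n : ℝ) ^ 2) ∧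
      (1 ≤ n → 1 / (n : ℝ) ≤ ε₁ → ∃ c : Cpl A B ξ, c.Dfc (C / (n : ℝ) ^ 2) ∧ c.tr = T) := by
    intro n
    by_cases hn : 1 ≤ n ∧ 1 / (n : ℝ) ≤ ε₁
    · have hn0 : (0 : ℝ) < n := by exact_mod_cast hn.1
      have hle : s / n ≤ 1 / n := div_le_div_of_nonneg_right hs1 hn0.le
      obtain ⟨c, hc, hc'⟩ := h (s / n) (by positivity) (hle.trans hn.2)
      have hb : C * (s / n) ^ 2 ≤ C / (n : ℝ) ^ 2 := by
        have : (s / n) ^ 2 ≤ (1 / n) ^ 2 := pow_le_pow_left₀ (by positivity) hle 2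
        calc C * (s / n) ^ 2 ≤ C * (1 / n) ^ 2 := mul_le_mul_of_nonneg_left this hC
          _ = C / (n : ℝ) ^ 2 := by field_simp
      refine ⟨c.tr, fun _ => ?_, fun _ _ => ⟨c, hc.mono hb, rfl⟩⟩
      have he : (n : ℂ)⁻¹ • ((s : ℂ) • 𝓛) = ((s / n : ℝ) : ℂ) • 𝓛 := by
        rw [smul_smul]
        congr 1
        push_cast
        ring
      rw [he]
      exact hc'.trans hb
    · refine ⟨1 + (n : ℂ)⁻¹ • ((s : ℂ) • 𝓛), fun _ => ?_, fun h1 h2 => absurd ⟨h1, h2⟩ hn⟩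
      rw [sub_self, norm_zero]
      positivity
  choose T hT hT' using key
  have hlim := tendsto_pow_exp ((s : ℂ) • 𝓛) T hT
  intro τ hτ
  have e1 : ∀ᶠ n : ℕ in atTop, dist (T n ^ n) (NormedSpace.exp ((s : ℂ) • 𝓛)) < τ :=
    Metric.tendsto_nhds.1 hlim τ hτ
  have e2 : ∀ᶠ n : ℕ in atTop, 1 / (n : ℝ) < ε₁ :=
    (tendsto_one_div_atTop_nhds_zero_nat (𝕜 := ℝ)).eventually (gt_mem_nhds hε₁)
  have e3 : ∀ᶠ n : ℕ in atTop, C / (n : ℝ) < τ :=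
    (tendsto_const_div_atTop_nhds_zero_nat C).eventually (gt_mem_nhds hτ)
  obtain ⟨n, h1, h2, h3, h4⟩ := (e1.and (e2.and (e3.and (eventually_ge_atTop 1)))).exists
  obtain ⟨c, hc, hc'⟩ := hT' n h4 h2.le
  obtain ⟨d, hd, hd'⟩ := mix2b_pow hB hc n
  have hn0 : (0 : ℝ) < n := by exact_mod_cast h4
  refine ⟨d, hd.mono ?_, ?_⟩
  · have : (n : ℝ) * (C / (n : ℝ) ^ 2) = C / n := by field_simp
    rw [this]
    exact h3.le
  · rw [hd', hc', norm_sub_rev, ← dist_eq_norm]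
    exact h1.le

theorem mix2b_small {x a b : ℝ} (h : ∀ τ : ℝ, 0 < τ → x ≤ τ * a + b * √τ) : x ≤ 0 := by
  have hc : Continuous fun τ : ℝ => τ * a + b * √τ := by fun_prop
  have ht : Tendsto (fun τ : ℝ => τ * a + b * √τ) (𝓝[>] 0) (𝓝 0) := by
    have := (hc.tendsto 0).mono_left (nhdsWithin_le_nhds (s := Set.Ioi 0))
    simpa using this
  exact ge_of_tendsto ht (eventually_nhdsWithin_of_forall h)

theorem mix2b_fix (hB : A.commutant = B) {X : Op H} (hX : X ∈ Mix2bS A B ξ) {v : H}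
    (hv : v ∈ zsp A ξ) : X v = v ∧ star X v = v := by
  have key : ∀ (Y : Op H) (z : Op H),
      (∀ τ : ℝ, 0 < τ → ∃ Y' : Op H, ‖Y - Y'‖ ≤ τ ∧ ‖Y' (z ξ) - z ξ‖ ≤ ‖z‖ * √τ * ‖ξ‖) →
      Y (z ξ) = z ξ := by
    intro Y z h
    have : ‖Y (z ξ) - z ξ‖ ≤ 0 := by
      refine mix2b_small (a := ‖z ξ‖) (b := ‖z‖ * ‖ξ‖) fun τ hτ => ?_
      obtain ⟨Y', h1, h2⟩ := h τ hτ
      have h3 : Y (z ξ) - z ξ = (Y - Y') (z ξ) + (Y' (z ξ) - z ξ) := by
        rw [sub_apply]; abel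
      have h4 : ‖(Y - Y') (z ξ)‖ ≤ τ * ‖z ξ‖ :=
        ((Y - Y').le_opNorm _).trans (mul_le_mul_of_nonneg_right h1 (norm_nonneg _))
      rw [h3]
      have := norm_add_le ((Y - Y') (z ξ)) (Y' (z ξ) - z ξ)
      linarith
    exact sub_eq_zero.1 (norm_le_zero_iff.1 this)
  constructor
  · refine eq_on_zsp (S := X) (T := (1 : Op H)) (fun z hz => key X z fun τ hτ => ?_) hv
    obtain ⟨c, hc, hc'⟩ := hX τ hτ
    exact ⟨c.tr, hc', (Cpl.norm_tr_cen_le c hB hc hz).1⟩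
  · refine eq_on_zsp (S := star X) (T := (1 : Op H))
      (fun z hz => key (star X) z fun τ hτ => ?_) hv
    obtain ⟨c, hc, hc'⟩ := hX τ hτ
    refine ⟨star c.tr, ?_, (Cpl.norm_tr_cen_le c hB hc hz).2⟩
    rw [← star_sub, norm_star]
    exact hc'

theorem mix2b_eZ (hB : A.commutant = B) {X : Op H} (hX : X ∈ Mix2bS A B ξ) (v : H) :
    eZ A ξ (X v) = eZ A ξ v := by
  have h1 : star X * eZ A ξ = eZ A ξ := by
    ext w
    exact (mix2b_fix hB hX (eZ_mem A ξ w)).2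
  have h2 := congrArg star h1
  rw [star_mul, star_star, (eZ_proj A ξ).isSelfAdjoint.star_eq] at h2
  exact congrArg (fun Y : Op H => Y v) h2

theorem Tom.mix2b_vec (T : Tom A B ξ) (v : H) {ε : ℝ} (hε : 0 < ε) :
    ∃ X ∈ Mix2bS A B ξ, ‖X v - eZ A ξ v‖ ≤ ε := by
  obtain ⟨v₀, hv₀, hfix⟩ := exists_fixed_of_semigroup (Mix2bS A B ξ) mix2b_convex mix2b_one
    (fun a ha b hb => mix2b_mul T.comm ha hb) (fun a ha => mix2b_norm ha) v
  have hz : v₀ ∈ zsp A ξ := by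
    refine T.mem_zsp_of_nice fun a a' h => ?_
    obtain ⟨𝓛, C, ε₁, hε₁, hC, h0, h1⟩ := T.letter h
    exact h0 v₀ (apply_eq_zero_of_exp fun s hs hs1 =>
      hfix _ (mix2b_exp T.comm hε₁ hC h1 hs hs1))
  have he : eZ A ξ v₀ = eZ A ξ v := by
    have hcl : IsClosed {w : H | eZ A ξ w = eZ A ξ v} :=
      isClosed_eq (eZ A ξ).continuous continuous_const
    refine closure_minimal (t := {w : H | eZ A ξ w = eZ A ξ v}) ?_ hcl hv₀
    rintro _ ⟨X, hX, rfl⟩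
    exact mix2b_eZ T.comm hX v
  rw [eZ_of_mem hz] at he
  obtain ⟨_, ⟨X, hX, rfl⟩, hd⟩ := Metric.mem_closure_iff.1 hv₀ ε hε
  refine ⟨X, hX, ?_⟩
  rw [← he, norm_sub_rev, ← dist_eq_norm]
  exact hd.le

theorem Tom.mix2b_fin (T : Tom A B ξ) {ι : Type*} (v : ι → H) {ε : ℝ} (hε : 0 < ε)
    (s : Finset ι) : ∃ X ∈ Mix2bS A B ξ, ∀ i ∈ s, ‖X (v i) - eZ A ξ (v i)‖ ≤ ε := by
  classical
  induction s using Finset.induction_on with
  | empty => exact ⟨1, mix2b_one, by simp⟩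
  | insert j s _ ih =>
    obtain ⟨X, hX, hX'⟩ := ih
    obtain ⟨Y, hY, hY'⟩ := T.mix2b_vec (X (v j)) hε
    refine ⟨Y * X, mix2b_mul T.comm hY hX, fun i hi => ?_⟩
    rcases Finset.mem_insert.1 hi with rfl | hi
    · rw [mix2b_eZ T.comm hX] at hY'
      exact hY'
    · have h1 : (Y * X) (v i) - eZ A ξ (v i) = Y (X (v i) - eZ A ξ (v i)) := by
        rw [map_sub, (mix2b_fix T.comm hY (eZ_mem A ξ (v i))).1]
        rfl
      rw [h1]
      calc ‖Y (X (v i) - eZ A ξ (v i))‖ ≤ ‖Y‖ * ‖X (v i) - eZ A ξ (v i)‖ := Y.le_opNorm _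
        _ ≤ 1 * ε := mul_le_mul (mix2b_norm hY) (hX' i hi) (norm_nonneg _) zero_le_one
        _ = ε := one_mul ε

/-- Mixing. Recipe: `𝒮 = {X | ∀ τ > 0, ∃ c, c.Dfc τ ∧ ‖X - c.tr‖ ≤ τ}` is a convex semigroup of
contractions containing `1` (`mix`, `comp`) and `exp (s 𝓛)` for every letter (`tendsto_pow_exp`
with `T n = tr` of the letter at `ε = s/n`, iterated `n` times; defects add up to `O(1/n)`). Each
`X ∈ 𝒮` and `X⋆` fix `[Z ξ]` (`norm_tr_cen_le`), so `eZ X = eZ`. `exists_fixed_of_semigroup`,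
`apply_eq_zero_of_exp`, `mem_zsp_of_nice` show that the fixed vector is `eZ v`. Finite families:
induction, composing elements of `𝒮`. -/
theorem Tom.mix0 (T : Tom A B ξ) {ι : Type*} [Fintype ι] (v : ι → H) {ε τ : ℝ} (hε : 0 < ε)
    (hτ : 0 < τ) : ∃ c : Cpl A B ξ, c.Dfc τ ∧ ∀ i, ‖c.tr (v i) - eZ A ξ (v i)‖ ≤ ε := by
  obtain ⟨X, hX, hX'⟩ := T.mix2b_fin v (half_pos hε) Finset.univ
  set M : ℝ := 1 + ∑ i, ‖v i‖ with hM
  have hM0 : 0 < M := by positivity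
  have hvM : ∀ i, ‖v i‖ ≤ M := fun i => by
    have := Finset.single_le_sum (f := fun i => ‖v i‖) (fun i _ => norm_nonneg _)
      (Finset.mem_univ i)
    linarith
  obtain ⟨c, hc, hc'⟩ := hX (min τ (ε / 2 / M)) (by positivity)
  refine ⟨c, hc.mono (min_le_left _ _), fun i => ?_⟩
  have h1 : c.tr (v i) - eZ A ξ (v i) = (X (v i) - eZ A ξ (v i)) - (X - c.tr) (v i) := by
    rw [sub_apply]; abel
  have h2 : ‖(X - c.tr) (v i)‖ ≤ ε / 2 / M * M :=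
    ((X - c.tr).le_opNorm _).trans (mul_le_mul (hc'.trans (min_le_right _ _)) (hvM i)
      (norm_nonneg _) (by positivity))
  rw [div_mul_cancel₀ _ hM0.ne'] at h2
  rw [h1]
  linarith [norm_sub_le (X (v i) - eZ A ξ (v i)) ((X - c.tr) (v i)), hX' i (Finset.mem_univ i)]

/-- The central expectation of an element: weak limit of `cp x` along `mix0`
(`cen_of_apply_mem`). -/
theorem Tom.exists_cen_exp (T : Tom A B ξ) {x : Op H} (hx : x ∈ A) :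
    ∃ y, Cen A y ∧ y ξ = eZ A ξ (x ξ) ∧ ‖y‖ ≤ ‖x‖ ∧ (0 ≤ x → 0 ≤ y) := by
  have h : ∀ n : ℕ, ∃ c : Cpl A B ξ, ‖c.tr (x ξ) - eZ A ξ (x ξ)‖ ≤ 1 / ((n : ℝ) + 1) := by
    intro n
    obtain ⟨c, -, hc⟩ := T.mix0 (fun _ : Unit => x ξ) (ε := 1 / ((n : ℝ) + 1)) (τ := 1)
      (by positivity) one_pos
    exact ⟨c, hc ()⟩
  choose c hc using h
  obtain ⟨y, hy⟩ := exists_wlim (Ultrafilter.of atTop) (T := fun n => (c n).cp x) (C := ‖x‖)
    (Eventually.of_forall fun n => (c n).norm_cp_le x)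
  have hyA : y ∈ A := hy.mem (Eventually.of_forall fun n => (c n).cp_mem hx)
  have ht : Tendsto (fun n => (c n).cp x ξ) atTop (𝓝 (eZ A ξ (x ξ))) := by
    rw [tendsto_iff_norm_sub_tendsto_zero]
    refine squeeze_zero (fun n => norm_nonneg _) (fun n => ?_)
      (tendsto_one_div_add_atTop_nhds_zero_nat (𝕜 := ℝ))
    rw [(c n).cp_apply T.comm hx]
    exact hc n
  have he : y ξ = eZ A ξ (x ξ) :=
    (hy.apply ξ).unique (wlimV_of_tendsto (ht.mono_left (Ultrafilter.of_le _)))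
  refine ⟨y, cen_of_apply_mem (T.comm ▸ T.cycB) hyA (he ▸ eZ_mem A ξ _), he,
    hy.norm_le (Eventually.of_forall fun n => (c n).norm_cp_le x), fun h0 => ?_⟩
  exact hy.nonneg (Eventually.of_forall fun n => (c n).cp_nonneg h0)

end

end Crest.Agent.R78
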