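import Crest.Agent.R78.Mean
import Crest.Agent.R78.Amen
import Crest.Agent.R78.Graph
import Crest.Agent.R78.Gen
import Crest.Agent.R78.Proj
import Crest.Agent.R78.Stmt

/-!
# Row 78: an amenable group of unitaries with trivial relative commutant
-/

open scoped InnerProductSpace Topology ComplexConjugate
open Filter MeasureTheory

set_option linter.unusedSectionVars false

namespace Crest.Agent.R78

open Crest.Agent.R121 (Alg)

noncomputable section

universe u

variable {H : Type*} [NormedAddCommGroup H] [InnerProductSpace ℂ H] [CompleteSpace H]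

/-- The conjugation of a cyclic separating trace vector (see `exists_trace_J`). -/
structure TrJ (M : VN H) (ξ : H) (J : H ≃ₗᵢ⋆[ℂ] H) : Prop where
  JJ : ∀ v, J (J v) = v
  Jx : ∀ x ∈ M, J (x ξ) = star x ξ
  jcM : ∀ x ∈ M, jc J x ∈ M.commutant
  jcM' : ∀ y ∈ M.commutant, jc J y ∈ M
  cyc : Cyc M ξ
  cyc' : Cyc M.commutant ξ

/-- Right multiplication `R_a = J a⋆ J`. -/
def Rm (J : H ≃ₗᵢ⋆[ℂ] H) (a : Op H) : Op H := jc J (star a)

/-- The conjugation action `v ↦ g v g⋆`. -/
def adj (J : H ≃ₗᵢ⋆[ℂ] H) (g : Op H) : Op H := g * jc J g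

/-- A commuting system of qubits in `M`. -/
structure PQ (M : VN H) (X Z : ℕ → unitary (Op H)) : Prop where
  memX : ∀ n, (X n : Op H) ∈ M
  memZ : ∀ n, (Z n : Op H) ∈ M
  XX : ∀ n, X n * X n = 1
  ZZ : ∀ n, Z n * Z n = 1
  anti : ∀ n, (X n : Op H) * Z n = -((Z n : Op H) * X n)
  cXX : ∀ n m, Commute (X n : Op H) (X m)
  cZZ : ∀ n m, Commute (Z n : Op H) (Z m)
  cXZ : ∀ n m, n ≠ m → Commute (X n : Op H) (Z m)

theorem Qubits.pq {M : VN H} {ξ : H} {X Z : ℕ → unitary (Op H)} (h : Qubits M ξ X Z) :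
    PQ M X Z := ⟨h.memX, h.memZ, h.XX, h.ZZ, h.anti, h.cXX, h.cZZ, h.cXZ⟩

variable {M : VN H} {ξ : H} {J : H ≃ₗᵢ⋆[ℂ] H}

namespace TrJ

theorem Jξ (h : TrJ M ξ J) : J ξ = ξ := by simpa using h.Jx 1 (one_mem M)
theorem Rm_mem (h : TrJ M ξ J) {a : Op H} (ha : a ∈ M) : Rm J a ∈ M.commutant :=
  h.jcM _ (star_mem ha)
theorem Rm_ξ (h : TrJ M ξ J) {a : Op H} (ha : a ∈ M) : Rm J a ξ = a ξ := by
  rw [Rm, jc_apply, h.Jξ, h.Jx _ (star_mem ha), star_star]
theorem Rm_mul (h : TrJ M ξ J) (a b : Op H) : Rm J (a * b) = Rm J b * Rm J a := by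
  rw [Rm, Rm, Rm, star_mul, jc_mul h.JJ]
theorem Rm_one (h : TrJ M ξ J) : Rm J (1 : Op H) = 1 := by rw [Rm, star_one, jc_one h.JJ]
theorem Rm_star (h : TrJ M ξ J) (a : Op H) : Rm J (star a) = star (Rm J a) := by
  rw [Rm, Rm, jc_star h.JJ]
theorem Rm_Rm (h : TrJ M ξ J) (a : Op H) : Rm J (Rm J a) = a := by
  rw [Rm, Rm, ← jc_star h.JJ, jc_jc h.JJ, star_star]
theorem norm_Rm (h : TrJ M ξ J) (a : Op H) : ‖Rm J a‖ = ‖a‖ := by
  rw [Rm, norm_jc h.JJ, norm_star]
theorem Rm_mem' (h : TrJ M ξ J) {y : Op H} (hy : y ∈ M.commutant) : Rm J y ∈ M :=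
  h.jcM' _ (star_mem hy)
theorem Rm_cen (h : TrJ M ξ J) {z : Op H} (hz : Cen M z) : Rm J z = z :=
  bas_ext h.cyc fun x hx => by
    rw [← Graph_comm_apply (mem_comm.1 (h.Rm_mem hz.1) x hx), h.Rm_ξ hz.1,
      Graph_comm_apply (mem_comm.1 hz.2 x hx)]
theorem trc (h : TrJ M ξ J) : Trc M ξ := fun x hx => by
  rw [← h.Jx x hx, LinearIsometryEquiv.norm_map]

theorem Rm_zsp (h : TrJ M ξ J) {a : Op H} (ha : a ∈ M) {v : H} (hv : v ∈ zsp M ξ) :
    Rm J a v = a v :=
  eq_on_zsp (fun z hz => by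
    rw [← Graph_comm_apply (mem_comm.1 (h.Rm_mem ha) z hz.1), h.Rm_ξ ha,
      Graph_comm_apply (mem_comm.1 hz.2 a ha)]) hv

/-- `mem_zsp_of_graph` with `w = J v`. -/
theorem mem_zsp (h : TrJ M ξ J) {v : H} (hv : ∀ x ∈ M, x v = Rm J x v) : v ∈ zsp M ξ := by
  refine mem_zsp_of_graph h.cyc (w := J v) (fun x hx ε hε => ⟨Rm J x, h.Rm_mem hx, ?_, ?_⟩)
    (fun y hy ε hε => ⟨Rm J y, h.Rm_mem' hy, ?_, ?_⟩) fun x hx => ?_
  · rw [h.Rm_ξ hx, sub_self, norm_zero]; exact hε.le
  · rw [hv x hx, sub_self, norm_zero]; exact hε.le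
  · rw [← h.Rm_ξ (h.Rm_mem' hy), h.Rm_Rm, sub_self, norm_zero]; exact hε.le
  · rw [hv _ (h.Rm_mem' hy), h.Rm_Rm, sub_self, norm_zero]; exact hε.le
  · rw [hv x hx, Rm, jc_apply, ← bas_star_inner, ← inner_J J ξ, h.Jξ]

end TrJ

theorem Rm_add (J : H ≃ₗᵢ⋆[ℂ] H) (a b : Op H) : Rm J (a + b) = Rm J a + Rm J b := by
  rw [Rm, Rm, Rm, star_add, jc_add]
theorem Rm_sub (J : H ≃ₗᵢ⋆[ℂ] H) (a b : Op H) : Rm J (a - b) = Rm J a - Rm J b := by
  rw [Rm, Rm, Rm, star_sub, jc_sub]
theorem Rm_smul (J : H ≃ₗᵢ⋆[ℂ] H) (c : ℂ) (a : Op H) : Rm J (c • a) = c • Rm J a := by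
  rw [Rm, Rm, star_smul, jc_smul]
  simp

/-- the spectral projection of a symmetry -/
def popaE (z : Op H) : Op H := (2 : ℂ)⁻¹ • (1 + z)

theorem popaE_mem {z : Op H} (hz : z ∈ M) : popaE z ∈ M := smul_mem' _ (add_mem (one_mem M) hz)

theorem popaE_star {z : Op H} (hz : star z = z) : star (popaE z) = popaE z := by
  rw [popaE, star_smul, star_add, star_one, hz]
  simp

theorem popaE_add (z : Op H) : popaE z + popaE (-z) = 1 := by
  rw [popaE, popaE, ← smul_add]
  have : (1 + z) + (1 + -z) = (2 : ℂ) • (1 : Op H) := by rw [two_smul]; abel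
  rw [this, smul_smul]
  simp

theorem popaE_mul {z : Op H} (hz : z * z = 1) : popaE z * popaE (-z) = 0 := by
  have : (1 + z) * (1 + -z) = 0 := by
    calc (1 + z) * (1 + -z) = 1 - z * z := by noncomm_ring
      _ = 0 := by rw [hz, sub_self]
  rw [popaE, popaE, smul_mul_smul_comm, this, smul_zero]

theorem popaE_comm {x z : Op H} (h : Commute x z) : Commute x (popaE z) :=
  ((Commute.one_right x).add_right h).smul_right _

theorem popaE_anti {x z : Op H} (h : x * z = -(z * x)) : x * popaE z = popaE (-z) * x := by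
  rw [popaE, popaE, mul_smul_comm, smul_mul_assoc, mul_add, add_mul, h, mul_one, one_mul, neg_mul]

theorem popaE_jc (hJ : ∀ v, J (J v) = v) {z : Op H} {v : H} (h : jc J z v = z v) :
    jc J (popaE z) v = popaE z v := by
  rw [popaE, jc_smul, jc_add, jc_one hJ]
  simp only [smul_apply, add_apply, h, map_inv₀, map_ofNat]

theorem popaA_pyth {p q : Op H} (hp : star p = p) (hpq : p * q = 0) (a b : H) :
    ‖p a + q b‖ ^ 2 = ‖p a‖ ^ 2 + ‖q b‖ ^ 2 := by
  have h0 : ⟪p a, q b⟫_ℂ = 0 := by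
    rw [← bas_inner_star, hp, ← mul_apply_eq_comp, hpq]
    simp
  rw [@norm_add_sq ℂ, h0]
  simp

theorem popaA_norm_adj (u : unitary (Op H)) (v : H) : ‖adj J (u : Op H) v‖ = ‖v‖ := by
  have h1 : ∀ w : H, ‖(u : Op H) w‖ = ‖w‖ := fun w => Unitary.norm_map u w
  simp only [adj, mul_apply_eq_comp, jc_apply, h1, LinearIsometryEquiv.norm_map]

theorem popaA_adj_mul (h : TrJ M ξ J) {a b : Op H} (ha : a ∈ M) (hb : b ∈ M) :
    adj J (a * b) = adj J a * adj J b := by
  have hc : Commute b (jc J a) := mem_comm.1 (h.jcM _ ha) _ hb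
  rw [adj, adj, adj, jc_mul h.JJ]
  calc a * b * (jc J a * jc J b) = a * (b * jc J a) * jc J b := by noncomm_ring
    _ = _ := by rw [hc.eq]; noncomm_ring

theorem popaA_sa {u : unitary (Op H)} (hu : u * u = 1) : star (u : Op H) = u := by
  have h1 : (u : Op H) * u = 1 := congrArg Subtype.val hu
  calc star (u : Op H) = star (u : Op H) * ((u : Op H) * u) := by rw [h1, mul_one]
    _ = u := bas_su' u _

/-- half of the mass of a vector fixed by `adj y` lies under a projection flipped by `y` -/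
theorem popaA_half (h : TrJ M ξ J) {y : unitary (Op H)} (hy : (y : Op H) ∈ M) {p q : Op H}
    (hpM : p ∈ M) (hp : star p = p) (hpq : p * q = 0) (h1 : p + q = 1)
    (hf : (y : Op H) * p = q * y) {w : H} (hw : adj J y w = w) :
    ‖p w‖ ^ 2 = ‖w‖ ^ 2 / 2 ∧ ‖q w‖ ^ 2 = ‖w‖ ^ 2 / 2 := by
  have hc : Commute p (jc J (y : Op H)) := mem_comm.1 (h.jcM _ hy) _ hpM
  have e : adj J y * p = q * adj J y := by
    rw [adj, mul_assoc, ← hc.eq, ← mul_assoc, hf, mul_assoc]
  have h2 : ‖p w‖ = ‖q w‖ := by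
    rw [← popaA_norm_adj (J := J) y (p w), ← mul_apply_eq_comp, e,
      mul_apply_eq_comp, hw]
  have h3 := popaA_pyth hp hpq w w
  rw [← add_apply, h1, one_apply_eq_self, h2] at h3
  rw [h2]
  constructor <;> linarith

/-- Twisting one qubit. Recipe: `e₀ = (1 + Z n)/2`, `e₁ = (1 - Z n)/2`, `D = e₀ + e₁ u`,
`Y' = D (Y n) D⋆`. With `v` fixed by `adj (Y n)`, `adj (Z n)` one gets
`adj Y' v = e₀ (adj u⋆ v) + e₁ (adj u v)`, and `‖e₀ w‖² = ‖e₁ w‖² = ‖w‖²/2` for `w` fixed by
`adj (Y n)`; so `‖v - adj Y' v‖² = ‖v - adj u v‖²`. -/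
theorem popa_twist (h : TrJ M ξ J) {Y Z : ℕ → unitary (Op H)} (hq : PQ M Y Z) (n : ℕ)
    {u : unitary (Op H)} (hu : (u : Op H) ∈ M)
    (hc : ∀ k, Commute (Y k : Op H) u ∧ Commute (Z k : Op H) u) :
    ∃ Y' : unitary (Op H), PQ M (Function.update Y n Y') Z ∧ ∀ v, adj J (Y n) v = v →
      adj J (Z n) v = v → ‖v - adj J Y' v‖ = ‖v - adj J u v‖ := by
  have hc' : ∀ k, Commute (Y k : Op H) (star (u : Op H)) ∧ Commute (Z k : Op H) (star (u : Op H)) :=
    fun k => ⟨by simpa only [popaA_sa (hq.XX k)] using (hc k).1.star_star,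
      by simpa only [popaA_sa (hq.ZZ k)] using (hc k).2.star_star⟩
  have hyy : (Y n : Op H) * Y n = 1 := congrArg Subtype.val (hq.XX n)
  have hzz : (Z n : Op H) * Z n = 1 := congrArg Subtype.val (hq.ZZ n)
  have hys := popaA_sa (hq.XX n)
  have hzs := popaA_sa (hq.ZZ n)
  set p := popaE (Z n : Op H) with hp
  set q := popaE (-(Z n : Op H)) with hqd
  have hpM : p ∈ M := popaE_mem (hq.memZ n)
  have hqM : q ∈ M := popaE_mem (neg_mem (hq.memZ n))
  have hps : star p = p := popaE_star hzs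
  have hqs : star q = q := popaE_star (by rw [star_neg, hzs])
  have hpq : p * q = 0 := popaE_mul hzz
  have hqp : q * p = 0 := by
    have := popaE_mul (z := -(Z n : Op H)) (by rw [neg_mul_neg, hzz])
    rwa [neg_neg] at this
  have h1 : p + q = 1 := popaE_add _
  have hpp : p * p = p := by
    calc p * p = p * (p + q) := by rw [mul_add, hpq, add_zero]
      _ = p := by rw [h1, mul_one]
  have hqq : q * q = q := by
    calc q * q = q * (p + q) := by rw [mul_add, hqp, zero_add]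
      _ = q := by rw [h1, mul_one]
  have hyp : (Y n : Op H) * p = q * Y n := popaE_anti (hq.anti n)
  have hyq : (Y n : Op H) * q = p * Y n := by
    have := popaE_anti (x := (Y n : Op H)) (z := -(Z n : Op H)) (by rw [mul_neg, hq.anti n, neg_mul])
    rwa [neg_neg] at this
  have hup : Commute (u : Op H) p := popaE_comm (hc n).2.symm
  have huq : Commute (u : Op H) q := popaE_comm (hc n).2.symm.neg_right
  have hup' : Commute (star (u : Op H)) p := popaE_comm (hc' n).2.symm
  have huq' : Commute (star (u : Op H)) q := popaE_comm (hc' n).2.symm.neg_right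
  set g := p * star (u : Op H) + q * u with hg
  have hgM : g ∈ M := add_mem (mul_mem hpM (star_mem hu)) (mul_mem hqM hu)
  have hgs : star g = p * u + q * star (u : Op H) := by
    rw [hg, star_add, star_mul, star_mul, star_star, hps, hqs, hup.eq, huq'.eq]
  have hyg : (Y n : Op H) * star g = g * Y n := by
    rw [hgs, hg, mul_add, add_mul, ← mul_assoc, ← mul_assoc, hyp, hyq, mul_assoc, mul_assoc,
      (hc n).1.eq, (hc' n).1.eq, mul_assoc, mul_assoc, add_comm]
  have hgg : g * star g = 1 := by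
    rw [hgs, hg]
    calc (p * star (u : Op H) + q * u) * (p * u + q * star (u : Op H))
        = p * (star (u : Op H) * p) * u + p * (star (u : Op H) * q) * star (u : Op H) +
          q * ((u : Op H) * p) * u + q * ((u : Op H) * q) * star (u : Op H) := by noncomm_ring
      _ = (p * p) * (star (u : Op H) * u) + (p * q) * (star (u : Op H) * star (u : Op H)) +
          (q * p) * ((u : Op H) * u) + (q * q) * ((u : Op H) * star (u : Op H)) := by
          rw [hup.eq, huq.eq, hup'.eq, huq'.eq]; noncomm_ring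
      _ = 1 := by rw [hpp, hqq, hpq, hqp, bas_su, bas_us]; simpa using h1
  have hs : star (g * Y n) = g * Y n := by rw [star_mul, hys, hyg]
  have hsq : g * Y n * (g * Y n) = 1 := by
    nth_rewrite 2 [← hyg]
    rw [mul_assoc, ← mul_assoc (Y n : Op H), hyy, one_mul, hgg]
  have hcg : ∀ x : Op H, Commute x (Z n) → Commute x u → Commute x (star (u : Op H)) → Commute x g :=
    fun x h₁ h₂ h₃ => ((popaE_comm h₁).mul_right h₃).add_right ((popaE_comm h₁.neg_right).mul_right h₂)
  have hZg : ∀ k, Commute (Z k : Op H) g := fun k => hcg _ (hq.cZZ k n) (hc k).2 (hc' k).2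
  have hYg : ∀ k, k ≠ n → Commute (Y k : Op H) (g * Y n) := fun k hk =>
    (hcg _ (hq.cXZ k n hk) (hc k).1 (hc' k).1).mul_right (hq.cXX k n)
  refine ⟨⟨g * Y n, Unitary.mem_iff.2 ⟨by rw [hs, hsq], by rw [hs, hsq]⟩⟩, ?_, fun v hv₁ hv₂ => ?_⟩
  · refine ⟨fun k => ?_, hq.memZ, fun k => ?_, hq.ZZ, fun k => ?_, fun k l => ?_, hq.cZZ,
      fun k l hkl => ?_⟩
    · by_cases hk : k = n
      · rw [hk, Function.update_self]; exact mul_mem hgM (hq.memX n)
      · rw [Function.update_of_ne hk]; exact hq.memX k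
    · by_cases hk : k = n
      · rw [hk, Function.update_self]; exact Subtype.ext hsq
      · rw [Function.update_of_ne hk]; exact hq.XX k
    · by_cases hk : k = n
      · rw [hk, Function.update_self]
        change g * Y n * Z n = -((Z n : Op H) * (g * Y n))
        rw [mul_assoc, hq.anti n, mul_neg, ← mul_assoc, ← mul_assoc, (hZg n).eq]
      · rw [Function.update_of_ne hk]; exact hq.anti k
    · by_cases hk : k = n <;> by_cases hl : l = n
      · rw [hk, hl]
      · rw [hk, Function.update_self, Function.update_of_ne hl]; exact (hYg l hl).symm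
      · rw [hl, Function.update_self, Function.update_of_ne hk]; exact hYg k hk
      · rw [Function.update_of_ne hk, Function.update_of_ne hl]; exact hq.cXX k l
    · by_cases hk : k = n
      · rw [hk, Function.update_self]
        exact (hZg l).symm.mul_left (hq.cXZ n l (hk ▸ hkl))
      · rw [Function.update_of_ne hk]; exact hq.cXZ k l hkl
  · change ‖v - adj J (g * Y n) v‖ = _
    have hjz : jc J (Z n : Op H) v = (Z n : Op H) v := by
      have := congrArg (Z n : Op H) hv₂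
      rwa [adj, ← mul_apply_eq_comp, ← mul_assoc, hzz, one_mul] at this
    have hjp : jc J p v = p v := popaE_jc h.JJ hjz
    have hjq : jc J q v = q v := popaE_jc h.JJ (by
      rw [← zero_sub, jc_sub, sub_apply, sub_apply, hjz]
      simp)
    have hjm : ∀ {b e : Op H}, b ∈ M → e ∈ M → Commute b e → jc J e v = e v →
        jc J (e * b) v = e (jc J b v) := fun {b e} hb he hbe hev => by
      rw [← hbe.eq, jc_mul h.JJ, mul_apply_eq_comp, hev,
        Graph_comm_apply (mem_comm.1 (h.jcM _ hb) _ he)]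
    have hgp : g * p = p * star (u : Op H) := by
      rw [hg, add_mul, mul_assoc, mul_assoc, hup'.eq, hup.eq, ← mul_assoc, ← mul_assoc, hpp, hqp,
        zero_mul, add_zero]
    have hgq : g * q = q * u := by
      rw [hg, add_mul, mul_assoc, mul_assoc, huq'.eq, huq.eq, ← mul_assoc, ← mul_assoc, hqq, hpq,
        zero_mul, zero_add]
    have hmain : adj J (g * Y n) v = p (adj J (star (u : Op H)) v) + q (adj J u v) := by
      have hj : jc J g v = p (jc J (star (u : Op H)) v) + q (jc J u v) := by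
        rw [hg, jc_add, add_apply, hjm (star_mem hu) hpM hup' hjp,
          hjm hu hqM huq hjq]
      rw [popaA_adj_mul h hgM (hq.memX n), mul_apply_eq_comp, hv₁, adj,
        mul_apply_eq_comp, hj,
        map_add, ← mul_apply_eq_comp g p, ← mul_apply_eq_comp g q, hgp, hgq]
      rfl
    have hfix : ∀ {a : Op H}, a ∈ M → Commute (Y n : Op H) a →
        adj J (Y n) (v - adj J a v) = v - adj J a v := fun {a} ha hca => by
      rw [map_sub, hv₁, ← mul_apply_eq_comp, ← popaA_adj_mul h (hq.memX n) ha, hca.eq,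
        popaA_adj_mul h ha (hq.memX n), mul_apply_eq_comp, hv₁]
    have e1 : v - adj J (g * Y n) v =
        p (v - adj J (star (u : Op H)) v) + q (v - adj J u v) := by
      rw [hmain, map_sub, map_sub]
      have : v = p v + q v := by
        rw [← add_apply, h1, one_apply_eq_self]
      nth_rewrite 1 [this]
      abel
    have e2 : ‖v - adj J (star (u : Op H)) v‖ = ‖v - adj J u v‖ := by
      rw [← popaA_norm_adj (J := J) u (v - _), map_sub, ← mul_apply_eq_comp,
        ← popaA_adj_mul h hu (star_mem hu), bas_us, norm_sub_rev]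
      simp [adj, h.JJ]
    have e3 := popaA_pyth hps hpq (v - adj J (star (u : Op H)) v) (v - adj J u v)
    rw [← e1, (popaA_half h (hq.memX n) hpM hps hpq h1 hyp (hfix (star_mem hu) (hc' n).1)).1,
      (popaA_half h (hq.memX n) hpM hps hpq h1 hyp (hfix hu (hc n).1)).2, e2, add_halves] at e3
    exact (pow_left_inj₀ (norm_nonneg _) (norm_nonneg _) two_ne_zero).1 e3

theorem popb_c1 {R : Type*} [Ring R] {y : R} (hy : y * y = 1) (x : R) :
    Commute y (x + y * x * y) := by
  have h1 : ∀ t, y * (y * t) = t := fun t => by rw [← mul_assoc, hy, one_mul]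
  change _ = _
  simp only [mul_add, add_mul, mul_assoc, h1, hy, mul_one]
  exact add_comm _ _

theorem popb_c2 {R : Type*} [Ring R] {y z : R} (hy : y * y = 1) (ha : y * z = -(z * y)) (x : R) :
    Commute y (z * (x - y * x * y)) := by
  have h1 : ∀ t, y * (y * t) = t := fun t => by rw [← mul_assoc, hy, one_mul]
  have h2 : ∀ t, y * (z * t) = -(z * (y * t)) := fun t => by
    rw [← mul_assoc, ha, neg_mul, mul_assoc]
  change _ = _
  rw [h2]
  simp only [mul_sub, sub_mul, mul_assoc, h1, hy, mul_one]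
  exact neg_sub _ _

theorem popb_c3 {R : Type*} [Ring R] {y z x : R} (ha : y * z = -(z * y)) (hx : Commute y x) :
    Commute y (z * x * z) := by
  change _ = _
  calc y * (z * x * z) = (y * z) * x * z := by simp only [mul_assoc]
    _ = -(z * (y * x) * z) := by rw [ha]; simp only [neg_mul, mul_assoc]
    _ = -(z * x * (y * z)) := by rw [hx.eq]; simp only [mul_assoc]
    _ = z * x * z * y := by rw [ha]; simp only [mul_neg, neg_neg, mul_assoc]

theorem popb_sa {u : unitary (Op H)} (hu : u * u = 1) : star (u : Op H) = u := by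
  have h1 : (u : Op H) * u = 1 := congrArg Subtype.val hu
  calc star (u : Op H) = star (u : Op H) * ((u : Op H) * u) := by rw [h1, mul_one]
    _ = u := bas_su' u _

theorem popb_unit (h : TrJ M ξ J) {u : unitary (Op H)} (hu : (u : Op H) ∈ M) {v : H}
    (hv : adj J u v = v) : (u : Op H) v = Rm J u v := by
  have hc : Commute (u : Op H) (jc J u) := mem_comm.1 (h.jcM _ hu) _ hu
  conv_rhs => rw [← hv, adj, hc.eq, Rm, ← mul_apply_eq_comp, ← mul_assoc, ← jc_mul h.JJ, bas_su,
    jc_one h.JJ, one_mul]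

theorem popb_mul (h : TrJ M ξ J) {a b : Op H} (ha : a ∈ M) (hb : b ∈ M) {v : H}
    (h₁ : a v = Rm J a v) (h₂ : b v = Rm J b v) : (a * b) v = Rm J (a * b) v := by
  rw [h.Rm_mul, mul_apply_eq_comp, mul_apply_eq_comp, h₂, ← h₁,
    Graph_comm_apply (mem_comm.1 (h.Rm_mem hb) _ ha)]

/-- `x = (x + z x z)/2 + y (y (x - z x z))/2` -/
theorem popb_split (h : TrJ M ξ J) {y z x : Op H} (hy : y ∈ M) (hz : z ∈ M) (hx : x ∈ M)
    (hyy : y * y = 1) {v : H} (h₀ : y v = Rm J y v)
    (h₁ : (x + z * x * z) v = Rm J (x + z * x * z) v)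
    (h₂ : (y * (x - z * x * z)) v = Rm J (y * (x - z * x * z)) v) : x v = Rm J x v := by
  have h₃ := popb_mul h hy (mul_mem hy (sub_mem hx (mul_mem (mul_mem hz hx) hz))) h₀ h₂
  rw [← mul_assoc, hyy, one_mul, Rm_sub, sub_apply, sub_apply] at h₃
  rw [Rm_add, add_apply, add_apply] at h₁
  have h₄ : (2 : ℂ) • x v = (2 : ℂ) • Rm J x v := by
    rw [two_smul, two_smul, ← add_add_sub_cancel (x v) (x v) ((z * x * z) v), h₁, h₃,
      add_add_sub_cancel]
  exact smul_right_injective H two_ne_zero h₄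

/-- Recipe: `C = {x ∈ M | x v = R_x v}` is a subalgebra containing `Y k`, `Z k` (`k < n`) and the
commutant of all qubits (`exists_four_unitary` in `cm (M' ∪ qubits)`). Induction on `n`: an `x`
commuting with the qubits `k ≥ n + 1` is `∑ P x_P` over `P ∈ {1, Y n, Z n, Y n Z n}` with `x_P` the
average of `P⋆ x` under conjugation by these four elements, which commutes with the qubits
`k ≥ n`. -/
theorem popa_decomp (h : TrJ M ξ J) {Y Z : ℕ → unitary (Op H)} (hq : PQ M Y Z) (n : ℕ) {v : H}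
    (h₁ : ∀ k < n, adj J (Y k) v = v ∧ adj J (Z k) v = v)
    (h₂ : ∀ u : unitary (Op H), (u : Op H) ∈ M →
      (∀ k, Commute (Y k : Op H) u ∧ Commute (Z k : Op H) u) → adj J u v = v)
    {x : Op H} (hx : x ∈ M) (hc : ∀ k, n ≤ k → Commute (Y k : Op H) x ∧ Commute (Z k : Op H) x) :
    x v = Rm J x v := by
  have key : ∀ m, m ≤ n → ∀ x ∈ M,
      (∀ k, m ≤ k → Commute (Y k : Op H) x ∧ Commute (Z k : Op H) x) → x v = Rm J x v := by
    intro m
    induction m with
    | zero =>
      intro _ x hx hc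
      obtain ⟨u, c, hu, he, -, hcu⟩ := exists_four_unitary hx
      have h3 : ∀ i, (u i : Op H) v = Rm J (u i) v := fun i => popb_unit h (hu i) (h₂ _ (hu i)
        fun k => ⟨hcu _ (hq.memX k) (hc k k.zero_le).1
            (popb_sa (hq.XX k) ▸ (hc k k.zero_le).1.star_star) i,
          hcu _ (hq.memZ k) (hc k k.zero_le).2
            (popb_sa (hq.ZZ k) ▸ (hc k k.zero_le).2.star_star) i⟩)
      rw [he, Fin.sum_univ_four]
      simp only [Rm_add, Rm_smul, add_apply, smul_apply, h3]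
    | succ m ih =>
      intro hm
      have hy := hq.memX m
      have hz := hq.memZ m
      have hyy : (Y m : Op H) * Y m = 1 := congrArg Subtype.val (hq.XX m)
      have hzz : (Z m : Op H) * Z m = 1 := congrArg Subtype.val (hq.ZZ m)
      have ha := hq.anti m
      have ha' : (Z m : Op H) * Y m = -((Y m : Op H) * Z m) := by rw [ha, neg_neg]
      have gy := popb_unit h hy (h₁ m hm).1
      have gz := popb_unit h hz (h₁ m hm).2
      have c1 : ∀ k, m + 1 ≤ k → Commute (Y k : Op H) (Y m) ∧ Commute (Z k : Op H) (Y m) :=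
        fun k hk => ⟨hq.cXX k m, (hq.cXZ m k (by omega)).symm⟩
      have c2 : ∀ k, m + 1 ≤ k → Commute (Y k : Op H) (Z m) ∧ Commute (Z k : Op H) (Z m) :=
        fun k hk => ⟨hq.cXZ k m (by omega), hq.cZZ k m⟩
      have hA : ∀ x ∈ M, (∀ k, m + 1 ≤ k → Commute (Y k : Op H) x ∧ Commute (Z k : Op H) x) →
          Commute (Y m : Op H) x → x v = Rm J x v := by
        intro x hx hc hxy
        have hm' := mul_mem (mul_mem hz hx) hz
        refine popb_split h hy hz hx hyy gy (ih (by omega) _ (add_mem hx hm') fun k hk => ?_)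
          (ih (by omega) _ (mul_mem hy (sub_mem hx hm')) fun k hk => ?_)
        · rcases hk.eq_or_lt with rfl | hk
          · exact ⟨hxy.add_right (popb_c3 ha hxy), popb_c1 hzz x⟩
          · exact ⟨(hc k hk).1.add_right (((c2 k hk).1.mul_right (hc k hk).1).mul_right (c2 k hk).1),
              (hc k hk).2.add_right (((c2 k hk).2.mul_right (hc k hk).2).mul_right (c2 k hk).2)⟩
        · rcases hk.eq_or_lt with rfl | hk
          · exact ⟨(Commute.refl _).mul_right (hxy.sub_right (popb_c3 ha hxy)), popb_c2 hzz ha' x⟩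
          · exact ⟨(c1 k hk).1.mul_right ((hc k hk).1.sub_right
                (((c2 k hk).1.mul_right (hc k hk).1).mul_right (c2 k hk).1)),
              (c1 k hk).2.mul_right ((hc k hk).2.sub_right
                (((c2 k hk).2.mul_right (hc k hk).2).mul_right (c2 k hk).2))⟩
      intro x hx hc
      have hm' := mul_mem (mul_mem hy hx) hy
      refine popb_split h hz hy hx hzz gz (hA _ (add_mem hx hm') (fun k hk => ?_) (popb_c1 hyy x))
        (hA _ (mul_mem hz (sub_mem hx hm')) (fun k hk => ?_) (popb_c2 hyy ha x))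
      · exact ⟨(hc k hk).1.add_right (((c1 k hk).1.mul_right (hc k hk).1).mul_right (c1 k hk).1),
          (hc k hk).2.add_right (((c1 k hk).2.mul_right (hc k hk).2).mul_right (c1 k hk).2)⟩
      · exact ⟨(c2 k hk).1.mul_right ((hc k hk).1.sub_right
            (((c1 k hk).1.mul_right (hc k hk).1).mul_right (c1 k hk).1)),
          (c2 k hk).2.mul_right ((hc k hk).2.sub_right
            (((c1 k hk).2.mul_right (hc k hk).2).mul_right (c1 k hk).2))⟩
  exact key n le_rfl x hx hc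

theorem popb_norm_adj (u : unitary (Op H)) : ‖adj J (u : Op H)‖ ≤ 1 := by
  have h1 : ∀ w : H, ‖(u : Op H) w‖ = ‖w‖ := fun w => Unitary.norm_map u w
  refine ContinuousLinearMap.opNorm_le_bound _ zero_le_one fun v => le_of_eq ?_
  simp only [adj, mul_apply_eq_comp, jc_apply, h1, LinearIsometryEquiv.norm_map, one_mul]

theorem popb_adj_mul (h : TrJ M ξ J) {a b : Op H} (ha : a ∈ M) (hb : b ∈ M) (v : H) :
    adj J a (adj J b v) = adj J (a * b) v := by
  have hc : Commute b (jc J a) := mem_comm.1 (h.jcM _ ha) _ hb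
  rw [adj, adj, adj, jc_mul h.JJ]
  simp only [mul_apply_eq_comp]
  rw [Graph_comm_apply hc]

theorem popb_fix (h : TrJ M ξ J) {a b : Op H} (ha : a ∈ M) (hb : b ∈ M) (hc : Commute a b) {w : H}
    (hw : adj J a w = w) : adj J a (adj J b w) = adj J b w := by
  rw [popb_adj_mul h ha hb, hc.eq, ← popb_adj_mul h hb ha, hw]

/-- Recipe: `exists_fixed_of_semigroup` for the convex hull of `{adj u}` (`u` unitary in `M`
commuting with all qubits) gives `v₀` within `ε` of `v`, fixed by these `adj u` and still by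
`adj (Y k)`, `adj (Z k)`, `k < n`; `popa_decomp`. -/
theorem popa_almost (h : TrJ M ξ J) {Y Z : ℕ → unitary (Op H)} (hq : PQ M Y Z) (n : ℕ) {v : H}
    {ε : ℝ} (h₁ : ∀ k < n, adj J (Y k) v = v ∧ adj J (Z k) v = v)
    (h₂ : ∀ u : unitary (Op H), (u : Op H) ∈ M →
      (∀ k, Commute (Y k : Op H) u ∧ Commute (Z k : Op H) u) → ‖v - adj J u v‖ ≤ ε)
    {x : Op H} (hx : x ∈ M) (hc : ∀ k, n ≤ k → Commute (Y k : Op H) x ∧ Commute (Z k : Op H) x) :
    ‖x v - Rm J x v‖ ≤ 2 * ε * ‖x‖ := by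
  set K : Set H := {w | (∀ u : unitary (Op H), (u : Op H) ∈ M →
      (∀ k, Commute (Y k : Op H) u ∧ Commute (Z k : Op H) u) → ‖v - adj J u w‖ ≤ ε) ∧
      ∀ k < n, adj J (Y k) w = w ∧ adj J (Z k) w = w} with hK
  have hKc : IsClosed K := by
    simp only [hK, Set.ofPred_and, Set.ofPred_forall]
    refine IsClosed.inter (isClosed_iInter fun u => isClosed_iInter fun _ =>
      isClosed_iInter fun _ => isClosed_le (by fun_prop) continuous_const)
      (isClosed_iInter fun k => isClosed_iInter fun _ => IsClosed.inter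
        (isClosed_eq (by fun_prop) continuous_id) (isClosed_eq (by fun_prop) continuous_id))
  have hKv : Convex ℝ K := by
    intro a ha b hb s t hs ht hst
    refine ⟨fun u hu hc => ?_, fun k hk => ?_⟩
    · have e : v - adj J u (s • a + t • b) = s • (v - adj J u a) + t • (v - adj J u b) := by
        rw [map_add, ContinuousLinearMap.map_smul_of_tower, ContinuousLinearMap.map_smul_of_tower,
          smul_sub, smul_sub, sub_add_sub_comm, ← add_smul, hst, one_smul]
      rw [e]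
      refine (norm_add_le _ _).trans ?_
      rw [norm_smul, norm_smul, Real.norm_of_nonneg hs, Real.norm_of_nonneg ht]
      calc _ ≤ s * ε + t * ε := add_le_add (mul_le_mul_of_nonneg_left (ha.1 u hu hc) hs)
            (mul_le_mul_of_nonneg_left (hb.1 u hu hc) ht)
        _ = ε := by rw [← add_mul, hst, one_mul]
    · simp only [map_add, ContinuousLinearMap.map_smul_of_tower, (ha.2 k hk).1, (ha.2 k hk).2,
        (hb.2 k hk).1, (hb.2 k hk).2, and_self]
  obtain ⟨v₀, hv₀, hfix⟩ := exists_fixed_of_semigroup {a : Op H | ‖a‖ ≤ 1 ∧ Set.MapsTo a K K}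
    (fun a ha b hb s t hs ht hst => ⟨(norm_add_le _ _).trans (by
        rw [norm_smul, norm_smul, Real.norm_of_nonneg hs, Real.norm_of_nonneg ht]
        nlinarith [ha.1, hb.1]), fun w hw => hKv (ha.2 hw) (hb.2 hw) hs ht hst⟩)
    ⟨ContinuousLinearMap.norm_id_le, fun _ hw => hw⟩
    (fun a ha b hb => ⟨(norm_mul_le _ _).trans (mul_le_one₀ ha.1 (norm_nonneg _) hb.1),
      fun w hw => ha.2 (hb.2 hw)⟩) (fun a ha => ha.1) v
  have hK₀ : v₀ ∈ K := closure_minimal (by
    rintro _ ⟨a, ha, rfl⟩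
    exact ha.2 ⟨h₂, h₁⟩) hKc hv₀
  have h3 := popa_decomp h hq n hK₀.2 (fun u hu hcu => hfix _ ⟨popb_norm_adj u, fun w hw =>
    ⟨fun u' hu' hcu' => by
      rw [popb_adj_mul h hu' hu]
      exact hw.1 (u' * u) (mul_mem hu' hu) fun k =>
        ⟨(hcu' k).1.mul_right (hcu k).1, (hcu' k).2.mul_right (hcu k).2⟩,
    fun k hk => ⟨popb_fix h (hq.memX k) hu (hcu k).1 (hw.2 k hk).1,
      popb_fix h (hq.memZ k) hu (hcu k).2 (hw.2 k hk).2⟩⟩⟩) hx hc
  have h4 := hK₀.1 1 (one_mem M) fun k => ⟨Commute.one_right _, Commute.one_right _⟩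
  rw [adj, OneMemClass.coe_one, jc_one h.JJ, mul_one, one_apply_eq_self] at h4
  have e : x v - Rm J x v = x (v - v₀) - Rm J x (v - v₀) := by
    rw [map_sub, map_sub, h3, sub_sub_sub_cancel_right]
  have h5 := x.le_opNorm_of_le h4
  have h6 := (Rm J x).le_opNorm_of_le h4
  rw [h.norm_Rm] at h6
  rw [e]
  linarith [norm_sub_le (x (v - v₀)) (Rm J x (v - v₀))]

/-- Bounded tail approximants. Recipe: average `x` over the group generated by the qubits `k ≥ m`
(`mean_pauli`, `Mean.cE`): `(cE x) ξ` is the mean of `adj g (x ξ)`, so it is within `2 δ` of `x ξ` if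
`‖x ξ - x₀ ξ‖ ≤ δ` with `x₀` from `tail`; `Cyc.strong` for `M` and for `M'`. -/
theorem Qubits.approx (h : TrJ M ξ J) {X Z : ℕ → unitary (Op H)} (hq : Qubits M ξ X Z) {x : Op H}
    (hx : x ∈ M) (v : H) {ε : ℝ} (hε : 0 < ε) : ∃ m : ℕ, ∃ y ∈ M, ‖y‖ ≤ ‖x‖ ∧
      (∀ k, m ≤ k → Commute (X k : Op H) y ∧ Commute (Z k : Op H) y) ∧ ‖x v - y v‖ ≤ ε ∧
      ‖Rm J x v - Rm J y v‖ ≤ ε := by
  obtain ⟨δ₁, hδ₁, H₁⟩ := Cyc.strong h.cyc' (C := ‖x‖ + ‖x‖) v hε
  have hcc : Cyc M.commutant.commutant ξ := by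
    rw [VonNeumannAlgebra.commutant_commutant]; exact h.cyc
  obtain ⟨δ₂, hδ₂, H₂⟩ := Cyc.strong hcc (C := ‖x‖ + ‖x‖) v hε
  obtain ⟨m, x₀, hx₀, hc₀, hn₀⟩ := hq.tail (x ξ) (min δ₁ δ₂ / 2) (half_pos (lt_min hδ₁ hδ₂))
  set S : Set (unitary (Op H)) := {a | ∃ k, m ≤ k ∧ (a = X k ∨ a = Z k)} with hS
  obtain ⟨μ⟩ := mean_pauli S (by
      rintro _ ⟨k, -, rfl | rfl⟩
      exacts [hq.XX k, hq.ZZ k]) (by
      rintro _ ⟨k, -, rfl | rfl⟩ _ ⟨l, -, rfl | rfl⟩
      · exact Or.inl (hq.cXX k l).eq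
      · by_cases hkl : k = l
        · rw [hkl]; exact Or.inr (hq.anti l)
        · exact Or.inl (hq.cXZ k l hkl).eq
      · by_cases hkl : l = k
        · rw [hkl]; exact Or.inr (by rw [hq.anti k, neg_neg])
        · exact Or.inl (hq.cXZ l k hkl).eq.symm
      · exact Or.inl (hq.cZZ k l).eq)
  have hG : ∀ g ∈ Subgroup.closure S, (g : Op H) ∈ M ∧ (g : Op H) * x₀ * star (g : Op H) = x₀ := by
    intro g hg
    induction hg using Subgroup.closure_induction with
    | mem a ha =>
      obtain ⟨k, hk, rfl | rfl⟩ := ha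
      · exact ⟨hq.memX k, by rw [(hc₀ k hk).1.eq, mul_assoc, bas_us, mul_one]⟩
      · exact ⟨hq.memZ k, by rw [(hc₀ k hk).2.eq, mul_assoc, bas_us, mul_one]⟩
    | one => exact ⟨one_mem M, by simp⟩
    | mul a b _ _ ha hb =>
      refine ⟨mul_mem ha.1 hb.1, ?_⟩
      change (a : Op H) * b * x₀ * star ((a : Op H) * b) = x₀
      calc (a : Op H) * b * x₀ * star ((a : Op H) * b)
          = a * ((b : Op H) * x₀ * star (b : Op H)) * star (a : Op H) := by
            rw [star_mul]; noncomm_ring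
        _ = x₀ := by rw [hb.2, ha.2]
    | inv a _ ha =>
      refine ⟨star_mem ha.1, ?_⟩
      rw [bas_inv, star_star]
      nth_rewrite 1 [← ha.2]
      rw [mul_assoc, mul_assoc, mul_assoc, bas_su', bas_su, mul_one]
  set π := (Subgroup.closure S).subtype with hπ
  set y := μ.cE π x with hy
  have hyM : y ∈ M := μ.cE_mem π (fun g => nrm_of_mem (hG g g.2).1) hx
  have hyn : ‖y‖ ≤ ‖x‖ := μ.norm_cE_le π x
  have hξ : ‖(x - y) ξ‖ ≤ min δ₁ δ₂ := by
    rw [sub_apply, norm_sub_rev, hy, Mean.cE, μ.op_apply (Mean.mn_bdd_conj π x)]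
    refine μ.norm_vec_sub_le fun g => ?_
    obtain ⟨hgM, hg0⟩ : (π g : Op H) ∈ M ∧ (π g : Op H) * x₀ * star (π g : Op H) = x₀ := hG g g.2
    have hd : x - x₀ ∈ M := sub_mem hx hx₀
    have e1 : ((π g : Op H) * x * star (π g : Op H)) ξ - x ξ =
        (π g : Op H) (((x - x₀) * star (π g : Op H)) ξ) - (x ξ - x₀ ξ) := by
      have : ((π g : Op H) * x₀ * star (π g : Op H)) ξ = x₀ ξ := congrArg (fun T : Op H => T ξ) hg0
      simp only [mul_apply_eq_comp, sub_apply, map_sub] at this ⊢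
      rw [this]; abel
    have e2 : ‖(π g : Op H) (((x - x₀) * star (π g : Op H)) ξ)‖ = ‖x ξ - x₀ ξ‖ := by
      rw [Unitary.norm_map, ← h.trc _ (mul_mem hd (star_mem hgM)), star_mul, star_star,
        mul_apply_eq_comp, Unitary.norm_map, h.trc _ hd, sub_apply]
    rw [e1]
    refine (norm_sub_le _ _).trans ?_
    rw [e2]
    linarith
  have hn : ‖x - y‖ ≤ ‖x‖ + ‖x‖ := (norm_sub_le _ _).trans (by linarith)
  refine ⟨m, y, hyM, hyn, fun k hk => ⟨?_, ?_⟩, ?_, ?_⟩
  · exact μ.commute_cE π x ⟨X k, Subgroup.subset_closure ⟨k, hk, Or.inl rfl⟩⟩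
  · exact μ.commute_cE π x ⟨Z k, Subgroup.subset_closure ⟨k, hk, Or.inr rfl⟩⟩
  · exact H₁ _ (sub_mem hx hyM) hn (hξ.trans (min_le_left _ _))
  · have := H₂ _ (h.Rm_mem (sub_mem hx hyM)) (by rw [h.norm_Rm]; exact hn)
      (by rw [h.Rm_ξ (sub_mem hx hyM)]; exact hξ.trans (min_le_right _ _))
    rwa [Rm_sub] at this

theorem popc_norm_adj (u : unitary (Op H)) (v : H) : ‖adj J (u : Op H) v‖ = ‖v‖ := by
  have h1 : ∀ w : H, ‖(u : Op H) w‖ = ‖w‖ := fun w => Unitary.norm_map u w
  simp only [adj, mul_apply_eq_comp, jc_apply, h1, LinearIsometryEquiv.norm_map]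

theorem popc_star_adj (h : TrJ M ξ J) {g : Op H} (hg : g ∈ M) :
    star (adj J g) = adj J (star g) := by
  have hc : Commute (star g) (jc J (star g)) :=
    mem_comm.1 (h.jcM _ (star_mem hg)) _ (star_mem hg)
  rw [adj, adj, star_mul, ← jc_star h.JJ, hc.eq]

theorem popc_adj_mul (h : TrJ M ξ J) {a b : Op H} (ha : a ∈ M) (hb : b ∈ M) :
    adj J (a * b) = adj J a * adj J b := by
  have hc : Commute b (jc J a) := mem_comm.1 (h.jcM _ ha) _ hb
  rw [adj, adj, adj, jc_mul h.JJ]
  calc a * b * (jc J a * jc J b) = a * (b * jc J a) * jc J b := by noncomm_ring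
    _ = _ := by rw [hc.eq]; noncomm_ring

theorem popc_commute (h : TrJ M ξ J) {a b : Op H} (ha : a ∈ M) (hb : b ∈ M) (hc : Commute a b) :
    Commute (adj J a) (adj J b) := by
  change _ = _
  rw [← popc_adj_mul h ha hb, ← popc_adj_mul h hb ha, hc.eq]

theorem popc_sa {u : unitary (Op H)} (hu : u * u = 1) : star (u : Op H) = u := by
  have h1 : (u : Op H) * u = 1 := congrArg Subtype.val hu
  calc star (u : Op H) = star (u : Op H) * ((u : Op H) * u) := by rw [h1, mul_one]
    _ = u := bas_su' u _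

/-- vectors fixed by the first `n` qubits -/
def popcF (J : H ≃ₗᵢ⋆[ℂ] H) (Y Z : ℕ → unitary (Op H)) (n : ℕ) : Submodule ℂ H where
  carrier := {v | ∀ k < n, adj J (Y k) v = v ∧ adj J (Z k) v = v}
  add_mem' := fun {a b} ha hb k hk => by
    simp only [map_add, (ha k hk).1, (ha k hk).2, (hb k hk).1, (hb k hk).2, and_self]
  zero_mem' := fun k _ => by simp
  smul_mem' := fun c a ha k hk => by
    simp only [map_smul, (ha k hk).1, (ha k hk).2, and_self]

theorem popcF_closed (Y Z : ℕ → unitary (Op H)) (n : ℕ) :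
    IsClosed (popcF J Y Z n : Set H) := by
  have : (popcF J Y Z n : Set H) = ⋂ k, ⋂ _ : k < n,
      ({v | adj J (Y k) v = v} ∩ {v | adj J (Z k) v = v}) := by
    ext v
    simp only [Set.mem_iInter, Set.mem_inter_iff, Set.mem_ofPred_eq]
    rfl
  rw [this]
  exact isClosed_iInter fun k => isClosed_iInter fun _ =>
    (isClosed_eq (adj J (Y k : Op H)).continuous continuous_id).inter
      (isClosed_eq (adj J (Z k : Op H)).continuous continuous_id)

instance (Y Z : ℕ → unitary (Op H)) (n : ℕ) : CompleteSpace (popcF J Y Z n) :=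
  (popcF_closed Y Z n).completeSpace_coe

theorem popcF_congr {Y Y' Z : ℕ → unitary (Op H)} {n : ℕ} (h : ∀ k < n, Y k = Y' k) :
    popcF J Y Z n = popcF J Y' Z n := by
  ext v
  change (∀ k < n, _) ↔ ∀ k < n, _
  exact forall_congr' fun k => forall_congr' fun hk => by rw [h k hk]

theorem popcF_anti (Y Z : ℕ → unitary (Op H)) {n m : ℕ} (h : n ≤ m) :
    popcF J Y Z m ≤ popcF J Y Z n := fun _ hv k hk => hv k (hk.trans_le h)

/-- decreasing subspaces: the projections of a vector converge -/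
theorem popc_limit (F : ℕ → Submodule ℂ H) [∀ n, CompleteSpace (F n)]
    (hF : ∀ n m, n ≤ m → F m ≤ F n) (v : H) :
    ∃ η : H, (∀ n, η ∈ F n) ∧ Tendsto (fun n => (F n).starProjection v) atTop (𝓝 η) := by
  have hcl : ∀ n, IsClosed (F n : Set H) := fun n =>
    (completeSpace_coe_iff_isComplete.1 inferInstance).isClosed
  have hm : Monotone fun n => (F n)ᗮ := fun n m h => Submodule.orthogonal_le (hF n m h)
  have h1 := Submodule.starProjection_tendsto_closure_iSup (fun n => (F n)ᗮ) hm v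
  have h2 : Tendsto (fun n => (F n).starProjection v) atTop
      (𝓝 (v - (⨆ n, (F n)ᗮ).topologicalClosure.starProjection v)) := by
    refine (tendsto_const_nhds.sub h1).congr fun n => ?_
    rw [Submodule.starProjection_orthogonal_val, sub_sub_cancel]
  refine ⟨_, fun n => (hcl n).mem_of_tendsto h2 ?_, h2⟩
  filter_upwards [eventually_ge_atTop n] with m hm'
  exact hF n m hm' (Submodule.starProjection_apply_mem _ _)

theorem popc_step (h : TrJ M ξ J) {Y Z : ℕ → unitary (Op H)} (hq : PQ M Y Z) (n : ℕ) (v : H) :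
    ∃ Y' : unitary (Op H), PQ M (Function.update Y n Y') Z ∧ (adj J (Y n) v = v →
      adj J (Z n) v = v → ∀ u : unitary (Op H), (u : Op H) ∈ M →
      (∀ k, Commute (Y k : Op H) u ∧ Commute (Z k : Op H) u) →
      ‖v - adj J u v‖ ≤ ‖v - adj J Y' v‖ + 1 / ((n : ℝ) + 1)) := by
  set S : Set ℝ := {t | ∃ u : unitary (Op H), (u : Op H) ∈ M ∧
    (∀ k, Commute (Y k : Op H) u ∧ Commute (Z k : Op H) u) ∧ t = ‖v - adj J u v‖} with hS
  have hb : BddAbove S := by
    refine ⟨‖v‖ + ‖v‖, ?_⟩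
    rintro _ ⟨u, -, -, rfl⟩
    exact (norm_sub_le _ _).trans (by rw [popc_norm_adj])
  have hne : S.Nonempty :=
    ⟨_, 1, one_mem M, fun k => ⟨Commute.one_right _, Commute.one_right _⟩, rfl⟩
  have hpos : (0 : ℝ) < 1 / ((n : ℝ) + 1) := Nat.one_div_pos_of_nat
  obtain ⟨_, ⟨u₀, hu₀, hc₀, rfl⟩, ht⟩ := exists_lt_of_lt_csSup hne (sub_lt_self (sSup S) hpos)
  obtain ⟨Y', hY', hn⟩ := popa_twist h hq n hu₀ hc₀
  refine ⟨Y', hY', fun h₁ h₂ u hu hc => ?_⟩
  have := le_csSup hb (⟨u, hu, hc, rfl⟩ : ‖v - adj J u v‖ ∈ S)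
  rw [hn v h₁ h₂]
  linarith

theorem popc_half (F : Submodule ℂ H) [CompleteSpace F] {T : Op H} (hT : star T = T)
    (hF : ∀ f ∈ F, T f = f) {v : H} (hn : ‖T v‖ = ‖v‖) :
    ‖v - T v‖ ^ 2 ≤ 4 * (‖v‖ ^ 2 - ‖F.starProjection v‖ ^ 2) := by
  have h1 : F.starProjection (T v) = F.starProjection v := by
    rw [← sub_eq_zero, ← map_sub]
    refine (Submodule.starProjection_apply_eq_zero_iff _).2 ((Submodule.mem_orthogonal _ _).2 ?_)
    intro f hf
    rw [inner_sub_right, ← hT, bas_inner_star, hF f hf, sub_self]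
  have h2 : ‖(2 : ℂ) • F.starProjection v‖ ≤ ‖v + T v‖ := by
    rw [two_smul]
    nth_rewrite 2 [← h1]
    rw [← map_add]
    exact Submodule.norm_starProjection_apply_le _ _
  rw [norm_smul, Complex.norm_two] at h2
  have h3 := parallelogram_law_with_norm ℂ v (T v)
  rw [hn] at h3
  nlinarith [norm_nonneg (F.starProjection v)]

/-- The greedy construction. Recipe: from `tail` and separability choose a dense sequence
`v_j = x_j ξ`, `x_j` commuting with the qubits `k ≥ m_j`; `j(n) = (Nat.unpair n).1`. Recursively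
define systems `Y⁽ⁿ⁾` (`Y⁽⁰⁾ = X`, `Y⁽ⁿ⁺¹⁾ = update Y⁽ⁿ⁾ n Y'`), and commuting self-adjoint
idempotents `A_k = (1 + adj Y_k)(1 + adj Z_k)/4`, `E_n = A_{n-1} ⋯ A_0`, `Y_k = Y⁽ᵏ⁺¹⁾ k`. At stage `n`
choose `u` with `‖v' - adj u v'‖ ≥ sup - 1/(n+1)`, `v' = E_n v_{j(n)}`, and `Y'` from `popa_twist`.
If `n ≥ m_j`, `v'` is fixed by the whole system `Y⁽ⁿ⁾, Z` and
`‖E_{n+1} v_j‖² = ‖v'‖² - ‖v' - adj u v'‖²/4`. `E_n v_j` converges to some `η_j`, fixed by all
`adj Y_k`, `adj Z_k`; along the stages with `j(n) = j` the suprema tend to `0`, so `popa_almost`,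
`Qubits.approx` and `TrJ.mem_zsp` give `η_j ∈ zsp`. A fixed vector `v` has `‖v - η_j‖ ≤ ‖v - v_j‖`. -/
theorem exists_popa [TopologicalSpace.SeparableSpace H] (h : TrJ M ξ J)
    {X Z : ℕ → unitary (Op H)} (hq : Qubits M ξ X Z) : ∃ Y, PQ M Y Z ∧
      ∀ v, (∀ k, adj J (Y k) v = v ∧ adj J (Z k) v = v) → v ∈ zsp M ξ := by
  -- a dense sequence of tail vectors
  obtain ⟨d, hd⟩ := TopologicalSpace.exists_dense_seq H
  choose mm xx hxM hxc hxn using fun p : ℕ × ℕ =>
    hq.tail (d p.1) (1 / ((p.2 : ℝ) + 1)) Nat.one_div_pos_of_nat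
  let w : ℕ → H := fun j => xx (Nat.unpair j) ξ
  have hw : ∀ v : H, ∀ ε > 0, ∃ j, ‖v - w j‖ ≤ ε := by
    intro v ε hε
    obtain ⟨i, hi⟩ := hd.exists_dist_lt v (half_pos hε)
    obtain ⟨l, hl⟩ := exists_nat_one_div_lt (half_pos hε)
    refine ⟨Nat.pair i l, ?_⟩
    have h1 := hxn (i, l)
    simp only [w, Nat.unpair_pair]
    rw [dist_eq_norm] at hi
    calc ‖v - xx (i, l) ξ‖ = ‖(v - d i) + (d i - xx (i, l) ξ)‖ := by congr 1; abel
      _ ≤ _ := norm_add_le _ _
      _ ≤ ε := by linarith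
  have hfix : ∀ (x : Op H) (g : unitary (Op H)), x ∈ M → (g : Op H) ∈ M → Commute (g : Op H) x →
      adj J (g : Op H) (x ξ) = x ξ := by
    intro x g hx hg hc
    have h1 : jc J (g : Op H) (x ξ) = x (star (g : Op H) ξ) := by
      rw [← Graph_comm_apply (mem_comm.1 (h.jcM _ hg) _ hx), jc_apply, h.Jξ, h.Jx _ hg]
    rw [adj, mul_apply_eq_comp, h1, Graph_comm_apply hc,
      ← mul_apply_eq_comp (g : Op H), bas_us, one_apply_eq_self]
  -- the recursion
  choose st hst1 hst2 using fun (n : ℕ) (Y : {Y // PQ M Y Z}) =>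
    popc_step h Y.2 n ((popcF J Y.1 Z n).starProjection (w (Nat.unpair n).1))
  let Ys : ℕ → {Y // PQ M Y Z} := fun n =>
    Nat.rec ⟨X, hq.pq⟩ (fun n Y => ⟨Function.update Y.1 n (st n Y), hst1 n Y⟩) n
  have hYs : ∀ n, (Ys (n + 1)).1 = Function.update (Ys n).1 n (st n (Ys n)) := fun n => rfl
  let Y : ℕ → unitary (Op H) := fun k => st k (Ys k)
  have hlo : ∀ n k, k < n → (Ys n).1 k = Y k := by
    intro n
    induction n with
    | zero => intro k hk; omega
    | succ n ih =>
      intro k hk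
      rw [hYs]
      rcases Nat.lt_succ_iff_lt_or_eq.1 hk with hk | rfl
      · rw [Function.update_of_ne hk.ne, ih k hk]
      · rw [Function.update_self]
  have hhi : ∀ n k, n ≤ k → (Ys n).1 k = X k := by
    intro n
    induction n with
    | zero => intro k _; rfl
    | succ n ih =>
      intro k hk
      rw [hYs, Function.update_of_ne (by omega), ih k (by omega)]
  have hPQ : PQ M Y Z := by
    have e1 : ∀ n m, Y n = (Ys (n + m + 1)).1 n :=
      fun n m => (hlo (n + m + 1) n (by omega)).symm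
    have e2 : ∀ n m, Y m = (Ys (n + m + 1)).1 m :=
      fun n m => (hlo (n + m + 1) m (by omega)).symm
    refine ⟨fun n => ?_, hq.memZ, fun n => ?_, hq.ZZ, fun n => ?_, fun n m => ?_, hq.cZZ,
      fun n m hnm => ?_⟩
    · rw [e1 n 0]; exact (Ys (n + 0 + 1)).2.memX n
    · rw [e1 n 0]; exact (Ys (n + 0 + 1)).2.XX n
    · rw [e1 n 0]; exact (Ys (n + 0 + 1)).2.anti n
    · rw [e1 n m, e2 n m]; exact (Ys (n + m + 1)).2.cXX n m
    · rw [e1 n 0]; exact (Ys (n + 0 + 1)).2.cXZ n m hnm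
  have hFeq : ∀ n, (popcF J (Ys n).1 Z n).starProjection = (popcF J Y Z n).starProjection :=
    fun n => by simp only [popcF_congr (J := J) (Z := Z) (hlo n)]
  refine ⟨Y, hPQ, fun v hv => ?_⟩
  -- the limits are central
  have key : ∀ j, ∃ η ∈ zsp M ξ,
      Tendsto (fun n => (popcF J Y Z n).starProjection (w j)) atTop (𝓝 η) := by
    intro j
    obtain ⟨η, hη, hlim⟩ := popc_limit (popcF J Y Z) (fun n m => popcF_anti Y Z) (w j)
    refine ⟨η, h.mem_zsp fun x hx => ?_, hlim⟩
    set E : ℕ → H := fun n => (popcF J Y Z n).starProjection (w j) with hE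
    -- the projections are fixed by the later plain qubits
    have hE1 : ∀ n, mm (Nat.unpair j) ≤ n →
        adj J ((Ys n).1 n) (E n) = E n ∧ adj J (Z n) (E n) = E n := by
      intro n hn
      have aux : ∀ g : unitary (Op H), (g : Op H) ∈ M → g * g = 1 →
          (∀ k < n, Commute (g : Op H) (Y k) ∧ Commute (g : Op H) (Z k)) →
          Commute (g : Op H) (xx (Nat.unpair j)) → adj J (g : Op H) (E n) = E n := by
        intro g hg hgg hc hcx
        have hinv : ∀ p ∈ popcF J Y Z n, adj J (g : Op H) p ∈ popcF J Y Z n := by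
          intro p hp k hk
          rw [← Graph_comm_apply (popc_commute h hg (hPQ.memX k) (hc k hk).1),
            ← Graph_comm_apply (popc_commute h hg (hq.memZ k) (hc k hk).2), (hp k hk).1,
            (hp k hk).2]
          exact ⟨rfl, rfl⟩
        have hsa : ∀ p q : H, ⟪p, adj J (g : Op H) q⟫_ℂ = ⟪adj J (g : Op H) p, q⟫_ℂ := by
          intro p q
          rw [← bas_inner_star, popc_star_adj h hg, popc_sa hgg]
        rw [hE]
        dsimp only
        rw [← Graph_proj_comm _ hsa hinv hinv, hfix _ g (hxM _) hg hcx]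
      refine ⟨aux _ ((Ys n).2.memX n) ((Ys n).2.XX n) (fun k hk => ⟨?_, ?_⟩) ?_,
        aux _ (hq.memZ n) (hq.ZZ n) (fun k hk => ⟨?_, hq.cZZ n k⟩) (hxc _ n hn).2⟩
      · rw [← hlo n k hk]; exact (Ys n).2.cXX n k
      · exact (Ys n).2.cXZ n k hk.ne'
      · rw [hhi n n le_rfl]; exact (hxc _ n hn).1
      · exact (hPQ.cXZ k n hk.ne).symm
    have hE2 : ∀ n, ‖E n - adj J (Y n) (E n)‖ ^ 2 ≤ 4 * (‖E n‖ ^ 2 - ‖E (n + 1)‖ ^ 2) := by
      intro n
      have h1 : (popcF J Y Z (n + 1)).starProjection (E n) = E (n + 1) := by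
        have := Submodule.starProjection_comp_starProjection_of_le
          (popcF_anti (J := J) Y Z (Nat.le_succ n))
        exact congrArg (fun T : Op H => T (w j)) this
      rw [← h1]
      refine popc_half _ ?_ (fun f hf => (hf n (Nat.lt_succ_self n)).1) (popc_norm_adj _ _)
      rw [popc_star_adj h (hPQ.memX n), popc_sa (hPQ.XX n)]
    have hE3 : Tendsto (fun n => ‖E n - adj J (Y n) (E n)‖) atTop (𝓝 0) := by
      have h1 : Tendsto (fun n => ‖E n‖ ^ 2) atTop (𝓝 (‖η‖ ^ 2)) := hlim.norm.pow 2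
      have h2 := (h1.sub ((tendsto_add_atTop_iff_nat 1).2 h1)).const_mul 4
      rw [sub_self, mul_zero] at h2
      have h3 : Tendsto (fun n => ‖E n - adj J (Y n) (E n)‖ ^ 2) atTop (𝓝 0) :=
        squeeze_zero (fun n => sq_nonneg _) hE2 h2
      have h4 := h3.sqrt
      simpa only [Real.sqrt_sq (norm_nonneg _), Real.sqrt_zero] using h4
    have hδ : Tendsto (fun n => 2 * ‖η - E n‖ + ‖E n - adj J (Y n) (E n)‖ + 1 / ((n : ℝ) + 1))
        atTop (𝓝 0) := by
      have h1 : Tendsto (fun n => ‖η - E n‖) atTop (𝓝 0) := by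
        simpa only [sub_self, norm_zero] using (tendsto_const_nhds (x := η).sub hlim).norm
      simpa only [mul_zero, add_zero] using
        ((h1.const_mul 2).add hE3).add tendsto_one_div_add_atTop_nhds_zero_nat
    rw [← sub_eq_zero, ← norm_le_zero_iff]
    refine le_of_forall_pos_le_add fun ε hε => ?_
    have hε' : 0 < ε / (2 * ‖x‖ + 2) := by positivity
    obtain ⟨m, y, hy, hyn, hyc, hy1, hy2⟩ := hq.approx h hx η hε'
    obtain ⟨N, hN⟩ := eventually_atTop.1 (hδ.eventually (ge_mem_nhds hε'))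
    set n := Nat.pair j (N + m + mm (Nat.unpair j)) with hn
    have hn1 : N + m + mm (Nat.unpair j) ≤ n := Nat.right_le_pair _ _
    have hn2 : (Nat.unpair n).1 = j := by rw [hn, Nat.unpair_pair]
    have h5 := hst2 n (Ys n)
    rw [hn2, hFeq] at h5
    have h6 := popa_almost h (Ys n).2 n (v := η) (ε := ε / (2 * ‖x‖ + 2))
      (fun k hk => by rw [hlo n k hk]; exact hη n k hk)
      (fun u hu hc => by
        have h7 := h5 (hE1 n (by omega)).1 (hE1 n (by omega)).2 u hu hc
        have h8 : η - adj J (u : Op H) η =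
            (η - E n) + (E n - adj J (u : Op H) (E n)) - adj J (u : Op H) (η - E n) := by
          rw [map_sub]; abel
        have h9 := hN n (by omega)
        rw [h8]
        refine (norm_sub_le _ _).trans ?_
        rw [popc_norm_adj]
        have := norm_add_le (η - E n) (E n - adj J (u : Op H) (E n))
        change ‖E n - adj J (u : Op H) (E n)‖ ≤ ‖E n - adj J (Y n : Op H) (E n)‖ + _ at h7
        linarith)
      hy (fun k hk => by rw [hhi n k hk]; exact hyc k (by omega))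
    have h10 : x η - Rm J x η = (x η - y η) + (y η - Rm J y η) - (Rm J x η - Rm J y η) := by abel
    rw [h10]
    refine (norm_sub_le _ _).trans ?_
    have h11 := norm_add_le (x η - y η) (y η - Rm J y η)
    have h12 : ε = (2 * ‖x‖ + 2) * (ε / (2 * ‖x‖ + 2)) := by field_simp
    nlinarith [norm_nonneg y]
  have hvF : ∀ n, (popcF J Y Z n).starProjection v = v := fun n =>
    Submodule.starProjection_eq_self_iff.2 fun k _ => hv k
  have : v ∈ closure (zsp M ξ : Set H) := by
    refine Metric.mem_closure_iff.2 fun ε hε => ?_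
    obtain ⟨j, hj⟩ := hw v (ε / 2) (half_pos hε)
    obtain ⟨η, hη, hlim⟩ := key j
    refine ⟨η, hη, ?_⟩
    rw [dist_eq_norm]
    have h1 : ‖v - η‖ ≤ ε / 2 := by
      refine le_of_tendsto' (tendsto_const_nhds (x := v).sub hlim).norm fun n => ?_
      nth_rewrite 1 [← hvF n]
      rw [← map_sub]
      exact (Submodule.norm_starProjection_apply_le _ _).trans hj
    linarith
  rwa [(Graph_isClosed M ξ).closure_eq] at this

end

end Crest.Agent.R78
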