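import Crest.Agent.R78.VanN
import Crest.Agent.R78.Gen

/-!
# Row 78: Raeburn–Taylor: from linear maps to isomorphisms
-/

open scoped InnerProductSpace Topology ComplexConjugate
open Filter MeasureTheory

set_option linter.unusedSectionVars false

namespace Crest.Agent.R78

open Crest.Agent.R121 (Alg)

noncomputable section

universe u

variable {H : Type*} [NormedAddCommGroup H] [InnerProductSpace ℂ H] [CompleteSpace H]

/-- The abstract Newton step in Banach algebras. -/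
theorem RT_step_abs {A B : Type*} [NormedRing A] [NormedAlgebra ℂ A] [CompleteSpace A]
    [NormedRing B] [NormedAlgebra ℂ B] [CompleteSpace B]
    (hA : ∀ (c : A →L[ℂ] A →L[ℂ] A) {κ : ℝ}, 0 ≤ κ →
      (∀ x y z, ‖d2 (fun x y => c x y) x y z‖ ≤ κ * ‖x‖ * ‖y‖ * ‖z‖) →
      ∃ a : A →L[ℂ] A, ‖a‖ ≤ 5 * (‖c‖ + 6 * κ) ∧ ∀ x y, ‖c x y - d1 a x y‖ ≤ 6 * κ * ‖x‖ * ‖y‖)
    (θ : A →L[ℂ] B) {κ : ℝ} (hκ : 0 ≤ κ) (hκ₀ : κ ≤ 1 / 10000)
    (hlo : ∀ x, ‖x‖ ≤ 2 * ‖θ x‖) (hup : ∀ x, ‖θ x‖ ≤ 2 * ‖x‖) (hs : Function.Surjective θ)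
    (hd : ∀ x y, ‖θ x * θ y - θ (x * y)‖ ≤ κ * ‖x‖ * ‖y‖) :
    ∃ θ' : A →L[ℂ] B, ‖θ' - θ‖ ≤ 60 * κ ∧ Function.Surjective θ' ∧
      ∀ x y, ‖θ' x * θ' y - θ' (x * y)‖ ≤ κ / 2 * ‖x‖ * ‖y‖ := by
  have hinj : Function.Injective θ := by
    rw [injective_iff_map_eq_zero]
    intro x hx
    have := hlo x
    rw [hx, norm_zero, mul_zero] at this
    exact norm_le_zero_iff.1 this
  let e : A ≃L[ℂ] B := ContinuousLinearEquiv.ofBijective θ
    (LinearMap.ker_eq_bot.2 hinj) (LinearMap.range_eq_top.2 hs)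
  have he : ∀ x, e x = θ x := fun x => rfl
  have hθρ : ∀ y, θ (e.symm y) = y := fun y => e.apply_symm_apply y
  have hρθ : ∀ x, e.symm (θ x) = x := fun x => e.symm_apply_apply x
  let c : A →L[ℂ] A →L[ℂ] A :=
    (ContinuousLinearMap.compL ℂ A B A (e.symm : B →L[ℂ] A)).comp
      ((ContinuousLinearMap.mul ℂ B).bilinearComp θ θ) - ContinuousLinearMap.mul ℂ A
  have hc : ∀ x y, c x y = e.symm (θ x * θ y) - x * y := fun x y => rfl
  have hm : ∀ x y, θ (x * y + c x y) = θ x * θ y := fun x y => by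
    rw [hc, add_sub_cancel, hθρ]
  have hcn : ∀ x y, ‖c x y‖ ≤ 2 * κ * ‖x‖ * ‖y‖ := fun x y => by
    have h1 : θ (c x y) = θ x * θ y - θ (x * y) := by rw [← hm, map_add, add_sub_cancel_left]
    have h2 := hlo (c x y)
    rw [h1] at h2
    have := hd x y
    linarith
  have hcN : ‖c‖ ≤ 2 * κ := ContinuousLinearMap.opNorm_le_bound₂ _ (by positivity) hcn
  have hd2 : ∀ x y z, d2 (fun x y => c x y) x y z = c (c x y) z - c x (c y z) := fun x y z => by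
    have h1 : (x * y + c x y) * z + c (x * y + c x y) z =
        x * (y * z + c y z) + c x (y * z + c y z) := by
      apply hinj
      rw [hm, hm, hm, hm, mul_assoc]
    simp only [map_add, add_apply, add_mul, mul_add, mul_assoc] at h1
    unfold d2
    rw [← sub_eq_zero] at h1 ⊢
    rw [← neg_eq_zero, ← h1]
    abel
  have hd2n : ∀ x y z, ‖d2 (fun x y => c x y) x y z‖ ≤ 8 * κ ^ 2 * ‖x‖ * ‖y‖ * ‖z‖ :=
    fun x y z => by
    rw [hd2]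
    have h1 : ‖c (c x y) z‖ ≤ 2 * κ * (2 * κ * ‖x‖ * ‖y‖) * ‖z‖ :=
      (hcn _ _).trans (by gcongr; exact hcn _ _)
    have h2 : ‖c x (c y z)‖ ≤ 2 * κ * ‖x‖ * (2 * κ * ‖y‖ * ‖z‖) :=
      (hcn _ _).trans (by gcongr; exact hcn _ _)
    refine (norm_sub_le _ _).trans ?_
    nlinarith
  obtain ⟨a, haN, had⟩ := hA c (by positivity) hd2n
  have haN' : ‖a‖ ≤ 15 * κ := by nlinarith
  have han : ∀ x, ‖a x‖ ≤ 15 * κ * ‖x‖ := fun x => a.le_of_opNorm_le haN' x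
  have ha1 : ‖-a‖ < 1 := by rw [norm_neg]; linarith
  let U : (A →L[ℂ] A)ˣ := Units.oneSub (-a) ha1
  let χ : A →L[ℂ] A := ↑U⁻¹
  have hU : ∀ x, (U : A →L[ℂ] A) x = x + a x := fun x => by
    simp [U, Units.val_oneSub]
  have hψχ : ∀ x, χ x + a (χ x) = x := fun x => by
    rw [← hU]
    exact congrArg (fun T : A →L[ℂ] A => T x) U.mul_inv
  have hχψ : ∀ x, χ (x + a x) = x := fun x => by
    rw [← hU]
    exact congrArg (fun T : A →L[ℂ] A => T x) U.inv_mul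
  have hχn : ∀ x, ‖χ x‖ ≤ 2 * ‖x‖ := fun x => by
    have h1 : ‖χ x‖ ≤ ‖x‖ + ‖a (χ x)‖ := by
      have : χ x = x - a (χ x) := eq_sub_of_add_eq (hψχ x)
      conv_lhs => rw [this]
      exact norm_sub_le _ _
    have h2 := han (χ x)
    have h3 := norm_nonneg (χ x)
    nlinarith
  refine ⟨θ.comp χ, ?_, ?_, ?_⟩
  · refine ContinuousLinearMap.opNorm_le_bound _ (by positivity) fun x => ?_
    have h1 : (θ.comp χ - θ) x = -θ (a (χ x)) := by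
      rw [sub_apply, ContinuousLinearMap.comp_apply]
      conv_lhs => rw [← hψχ x]
      rw [hχψ, map_add]
      abel
    rw [h1, norm_neg]
    calc ‖θ (a (χ x))‖ ≤ 2 * (15 * κ * (2 * ‖x‖)) :=
          (hup _).trans (by gcongr; exact (han _).trans (by gcongr; exact hχn x))
      _ = 60 * κ * ‖x‖ := by ring
  · intro y
    obtain ⟨x, rfl⟩ := hs y
    exact ⟨x + a x, by rw [ContinuousLinearMap.comp_apply, hχψ]⟩
  · intro x' y'
    set x := χ x' with hx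
    set y := χ y' with hy
    have hx' : x' = x + a x := (hψχ x').symm
    have hy' : y' = y + a y := (hψχ y').symm
    have h1 : (θ.comp χ) x' * (θ.comp χ) y' - (θ.comp χ) (x' * y') =
        θ (χ ((c x y - d1 a x y) + a (c x y) - a x * a y)) := by
      have e1 : (c x y - d1 a x y) + a (c x y) - a x * a y =
          ((x * y + c x y) + a (x * y + c x y)) - x' * y' := by
        rw [hx', hy']
        simp only [d1, map_add, add_mul, mul_add]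
        abel
      rw [e1, map_sub, hχψ, map_sub, hm]
      rfl
    rw [h1]
    have hxn : ‖x‖ ≤ 2 * ‖x'‖ := hχn x'
    have hyn : ‖y‖ ≤ 2 * ‖y'‖ := hχn y'
    have h2 : ‖(c x y - d1 a x y) + a (c x y) - a x * a y‖ ≤ 303 * κ ^ 2 * (‖x‖ * ‖y‖) := by
      have b1 := had x y
      have b2 : ‖a (c x y)‖ ≤ 15 * κ * (2 * κ * ‖x‖ * ‖y‖) :=
        (han _).trans (by gcongr; exact hcn _ _)
      have b3 : ‖a x * a y‖ ≤ 15 * κ * ‖x‖ * (15 * κ * ‖y‖) :=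
        (norm_mul_le _ _).trans (by gcongr <;> exact han _)
      refine (norm_sub_le _ _).trans ((add_le_add_left (norm_add_le _ _) _).trans ?_)
      nlinarith
    have h3 : ‖x‖ * ‖y‖ ≤ 2 * ‖x'‖ * (2 * ‖y'‖) := by gcongr
    have h4 : 0 ≤ ‖x'‖ * ‖y'‖ := by positivity
    calc _ ≤ 2 * (2 * (303 * κ ^ 2 * (2 * ‖x'‖ * (2 * ‖y'‖)))) :=
          (hup _).trans (by gcongr; exact (hχn _).trans (by gcongr; exact h2.trans (by gcongr)))
      _ = (4848 * κ) * (κ * (‖x'‖ * ‖y'‖)) := by ring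
      _ ≤ (1 / 2) * (κ * (‖x'‖ * ‖y'‖)) := by gcongr; linarith
      _ = κ / 2 * ‖x'‖ * ‖y'‖ := by ring

theorem RT_lo {M N : VN H} (θ : Alg M →L[ℂ] Alg N)
    (hθ : ∀ x, ‖(θ x : Op H) - x‖ ≤ 1 / 10 * ‖x‖) (x : Alg M) : ‖x‖ ≤ 2 * ‖θ x‖ := by
  have h1 := hθ x
  have h2 : ‖(x : Op H)‖ ≤ ‖(θ x : Op H)‖ + ‖(θ x : Op H) - x‖ := by
    have : (x : Op H) = (θ x : Op H) - ((θ x : Op H) - x) := by abel
    conv_lhs => rw [this]
    exact norm_sub_le _ _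
  have h3 : ‖(x : Op H)‖ = ‖x‖ := rfl
  have h4 : ‖(θ x : Op H)‖ = ‖θ x‖ := rfl
  have := norm_nonneg x
  linarith

theorem RT_up {M N : VN H} (θ : Alg M →L[ℂ] Alg N)
    (hθ : ∀ x, ‖(θ x : Op H) - x‖ ≤ 1 / 10 * ‖x‖) (x : Alg M) : ‖θ x‖ ≤ 2 * ‖x‖ := by
  have h1 := hθ x
  have h2 : ‖(θ x : Op H)‖ ≤ ‖(x : Op H)‖ + ‖(θ x : Op H) - x‖ := by
    have : (θ x : Op H) = (x : Op H) + ((θ x : Op H) - x) := by abel
    conv_lhs => rw [this]
    exact norm_add_le _ _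
  have h3 : ‖(x : Op H)‖ = ‖x‖ := rfl
  have h4 : ‖(θ x : Op H)‖ = ‖θ x‖ := rfl
  have := norm_nonneg x
  linarith

/-- One Newton step. `θ : M → N` is a linear bijection within `1/10` of the inclusion with
multiplicative defect `κ`. Recipe: let `ρ : N → M` be the inverse (`‖ρ y‖ ≤ 2 ‖y‖`; or use
`ContinuousLinearEquiv.ofBijective` on `Alg M → Alg N`), `m x y = ρ (θ x * θ y)` is associative,
`c = m - mul` has norm `≤ 2κ` and `d2 c x y z = c (c x y) z - c x (c y z)` has norm `≤ 8 κ²`.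
`approx_cocycle` gives `a`; `ψ = 1 + a` is invertible (Neumann series), `θ' = θ ∘ ψ⁻¹`;
`ψ (m x y) - ψ x * ψ y = (c - d1 a) x y + a (c x y) - a x * a y = O(κ²)`, and
`θ' (ψ x) θ' (ψ y) - θ' (ψ x ψ y) = θ' (ψ (m x y) - ψ x ψ y)`. -/
theorem rt_step : ∃ C > 0, ∃ κ₀ > 0, ∀ {H : Type u} [NormedAddCommGroup H] [InnerProductSpace ℂ H]
    [CompleteSpace H] {M N : VN H} (θ : Alg M →L[ℂ] Alg N) {κ : ℝ}, 0 ≤ κ → κ ≤ κ₀ →
    (∀ x, ‖(θ x : Op H) - x‖ ≤ 1 / 10 * ‖x‖) → Function.Surjective θ →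
    (∀ x y, ‖θ x * θ y - θ (x * y)‖ ≤ κ * ‖x‖ * ‖y‖) →
    ∃ θ' : Alg M →L[ℂ] Alg N, ‖θ' - θ‖ ≤ C * κ ∧ Function.Surjective θ' ∧
      ∀ x y, ‖θ' x * θ' y - θ' (x * y)‖ ≤ κ / 2 * ‖x‖ * ‖y‖ := by
  refine ⟨60, by norm_num, 1 / 10000, by norm_num, ?_⟩
  intro H _ _ _ M N θ κ hκ hκ₀ hθ hs hd
  exact RT_step_abs (fun c _ hκ h => approx_cocycle c hκ h) θ hκ hκ₀ (RT_lo θ hθ) (RT_up θ hθ)
    hs hd

/-- A linear map near the inclusion is onto when `N` is near `M` (successive approximation, or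
`ContinuousLinearMap.exists_preimage…`: the range is closed and `(ε + ε(1+ε))`-dense). -/
theorem surj_of_near {M N : VN H} (θ : Alg M →L[ℂ] Alg N) {ε : ℝ} (hε : ε ≤ 1 / 10)
    (hθ : ∀ x, ‖(θ x : Op H) - x‖ ≤ ε * ‖x‖) (hN : Near N M ε) : Function.Surjective θ := by
  have hθ' : ∀ x, ‖(θ x : Op H) - x‖ ≤ 1 / 10 * ‖x‖ := fun x => (hθ x).trans (by gcongr)
  have hN' : Near N M (1 / 10) := hN.mono hε
  have hanti : AntilipschitzWith 2 θ :=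
    θ.antilipschitz_of_bound fun x => by simpa using RT_lo θ hθ' x
  have hcl : IsClosed ((θ.range : Submodule ℂ (Alg N)) : Set (Alg N)) :=
    hanti.isClosed_range θ.uniformContinuous
  by_contra hns
  have hex : ∃ y : Alg N, y ∉ θ.range := by
    by_contra h
    push Not at h
    exact hns fun y => h y
  obtain ⟨y, hy, hy'⟩ := riesz_lemma hcl hex (r := 1 / 2) (by norm_num)
  obtain ⟨x, hx, hxy⟩ := hN' (y : Op H) y.2
  have h1 := hy' (θ ⟨x, hx⟩) ⟨_, rfl⟩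
  have h2 := hθ' ⟨x, hx⟩
  have h3 : ‖y - θ ⟨x, hx⟩‖ ≤ ‖(y : Op H) - x‖ + ‖(θ ⟨x, hx⟩ : Op H) - x‖ := by
    have : ‖y - θ ⟨x, hx⟩‖ = ‖((y : Op H) - x) - ((θ ⟨x, hx⟩ : Op H) - x)‖ := by
      rw [sub_sub_sub_cancel_right]; rfl
    rw [this]
    exact norm_sub_le _ _
  have h4 : ‖x‖ ≤ ‖(y : Op H)‖ + ‖(y : Op H) - x‖ := by
    have : x = (y : Op H) - ((y : Op H) - x) := by abel
    conv_lhs => rw [this]
    exact norm_sub_le _ _
  have h5 : ‖(y : Op H)‖ = ‖y‖ := rfl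
  have h6 : ‖(⟨x, hx⟩ : Alg M)‖ = ‖x‖ := rfl
  have h7 : ‖y‖ ≤ 0 := by
    change ‖(θ ⟨x, hx⟩ : Op H) - x‖ ≤ _ at h2
    linarith
  exact hy (by rw [norm_le_zero_iff.1 h7]; exact zero_mem _)

/-- Raeburn–Taylor. Recipe: `newton` in the complete space `Alg M →L[ℂ] Alg N` with
`D θ κ := surjective ∧ defect ≤ κ`, `d₀ = 4 ε`; the limit is multiplicative, onto by
`surj_of_near`, hence unital. -/
theorem raeburn_taylor : ∃ C > 0, ∃ ε₀ > 0, ∀ {H : Type u} [NormedAddCommGroup H]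
    [InnerProductSpace ℂ H] [CompleteSpace H] {M N : VN H} {ε : ℝ}, 0 ≤ ε → ε ≤ ε₀ →
    LinNear M N ε → Near N M ε →
    ∃ φ : Alg M →ₐ[ℂ] Op H, (∀ x, φ x ∈ N) ∧ (∀ y ∈ N, ∃ x, φ x = y) ∧
      ∀ x, ‖φ x - x‖ ≤ C * ε * ‖x‖ := by
  obtain ⟨C, hC, κ₀, hκ₀, hstep⟩ := rt_step.{u}
  refine ⟨8 * C + 1, by positivity, min (κ₀ / 4) (1 / (20 * (8 * C + 1))), by positivity, ?_⟩
  intro H _ _ _ M N ε hε hε₀ hL hN
  have hε1 : 4 * ε ≤ κ₀ := by linarith [hε₀.trans (min_le_left _ _)]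
  have hε2 : (8 * C + 1) * ε ≤ 1 / 20 := by
    have h := hε₀.trans (min_le_right _ _)
    rw [le_div_iff₀ (by positivity)] at h
    linarith
  have hCε : 0 ≤ C * ε := by positivity
  have hε3 : ε ≤ 1 / 20 := by linarith
  obtain ⟨t, htN, ht⟩ := hL
  let t' : Alg M →ₗ[ℂ] Alg N :=
    { toFun := fun x => ⟨t x, htN x⟩
      map_add' := fun x y => Subtype.ext (map_add t x y)
      map_smul' := fun c x => Subtype.ext (map_smul t c x) }
  have htn : ∀ x, ‖t x‖ ≤ 2 * ‖x‖ := fun x => by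
    have h2 : ‖t x‖ ≤ ‖(x : Op H)‖ + ‖t x - x‖ := by
      have : t x = (x : Op H) + (t x - x) := by abel
      conv_lhs => rw [this]
      exact norm_add_le _ _
    have h3 : ‖(x : Op H)‖ = ‖x‖ := rfl
    have h4 := ht x
    have := norm_nonneg x
    nlinarith
  let θ₀ : Alg M →L[ℂ] Alg N := t'.mkContinuous 2 htn
  have hθ₀ : ∀ x, ‖(θ₀ x : Op H) - x‖ ≤ ε * ‖x‖ := ht
  have hnear : ∀ (θ : Alg M →L[ℂ] Alg N) {r : ℝ}, dist θ θ₀ ≤ r →
      ∀ x, ‖(θ x : Op H) - x‖ ≤ (r + ε) * ‖x‖ := fun θ r hr x => by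
    rw [dist_eq_norm] at hr
    have h1 : ‖(θ x : Op H) - θ₀ x‖ ≤ r * ‖x‖ := (θ - θ₀).le_of_opNorm_le hr x
    have h2 := hθ₀ x
    have h3 : ‖(θ x : Op H) - x‖ ≤ ‖(θ x : Op H) - θ₀ x‖ + ‖(θ₀ x : Op H) - x‖ :=
      norm_sub_le_norm_sub_add_norm_sub _ _ _
    linarith
  have hD₀ : ∀ x y, ‖θ₀ x * θ₀ y - θ₀ (x * y)‖ ≤ 4 * ε * ‖x‖ * ‖y‖ := fun x y => by
    have e1 : ‖θ₀ x * θ₀ y - θ₀ (x * y)‖ = ‖((θ₀ x : Op H) - x) * θ₀ y + x * ((θ₀ y : Op H) - y) -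
        ((θ₀ (x * y) : Op H) - (x * y : Alg M))‖ := by
      have : ((θ₀ x : Op H) - x) * θ₀ y + x * ((θ₀ y : Op H) - y) -
          ((θ₀ (x * y) : Op H) - (x * y : Alg M)) = ((θ₀ x * θ₀ y - θ₀ (x * y) : Alg N) : Op H) := by
        push_cast
        noncomm_ring
      rw [this]; rfl
    have b1 : ‖((θ₀ x : Op H) - x) * θ₀ y‖ ≤ ε * ‖x‖ * (2 * ‖y‖) :=
      (norm_mul_le _ _).trans (mul_le_mul (hθ₀ x) (htn y) (norm_nonneg _) (by positivity))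
    have b2 : ‖(x : Op H) * ((θ₀ y : Op H) - y)‖ ≤ ‖x‖ * (ε * ‖y‖) :=
      (norm_mul_le _ _).trans (mul_le_mul_of_nonneg_left (hθ₀ y) (norm_nonneg _))
    have b3 : ‖(θ₀ (x * y) : Op H) - (x * y : Alg M)‖ ≤ ε * (‖x‖ * ‖y‖) :=
      (hθ₀ _).trans (mul_le_mul_of_nonneg_left (norm_mul_le _ _) hε)
    rw [e1]
    refine (norm_sub_le _ _).trans ((add_le_add_left (norm_add_le _ _) _).trans ?_)
    linarith
  obtain ⟨θ, s, hθd, hs, -, hsD⟩ := newton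
    (fun (θ : Alg M →L[ℂ] Alg N) (κ : ℝ) => Function.Surjective θ ∧
      ∀ x y, ‖θ x * θ y - θ (x * y)‖ ≤ κ * ‖x‖ * ‖y‖) θ₀ (d₀ := 4 * ε) (C := C) (r := 1 / 20)
    (by positivity) hC.le (by linarith) ⟨surj_of_near θ₀ (by linarith) hθ₀ hN, hD₀⟩
    (fun θ d hr hd hd' hD => by
      obtain ⟨θ', h1, h2, h3⟩ := hstep θ hd (hd'.trans hε1)
        (fun x => (hnear θ hr x).trans (by gcongr; linarith)) hD.1 hD.2
      exact ⟨θ', by rwa [dist_eq_norm], h2, h3⟩)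
  have hθn : ∀ x, ‖(θ x : Op H) - x‖ ≤ (8 * C + 1) * ε * ‖x‖ := fun x =>
    (hnear θ hθd x).trans (le_of_eq (by ring))
  have hsurj : Function.Surjective θ :=
    surj_of_near θ (ε := (8 * C + 1) * ε) (by linarith) hθn (hN.mono (by linarith))
  have hmul : ∀ x y, θ (x * y) = θ x * θ y := fun x y => by
    have ev : ∀ z, Tendsto (fun n => s n z) atTop (𝓝 (θ z)) := fun z =>
      ((ContinuousLinearMap.apply ℂ (Alg N) z).continuous.tendsto θ).comp hs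
    have l1 : Tendsto (fun n => ‖s n x * s n y - s n (x * y)‖) atTop
        (𝓝 ‖θ x * θ y - θ (x * y)‖) := (((ev x).mul (ev y)).sub (ev (x * y))).norm
    have l2 : Tendsto (fun n : ℕ => 4 * ε / 2 ^ n * ‖x‖ * ‖y‖) atTop (𝓝 (0 * ‖x‖ * ‖y‖)) :=
      ((tendsto_const_nhds.div_atTop
        (tendsto_pow_atTop_atTop_of_one_lt (by norm_num : (1 : ℝ) < 2))).mul_const _).mul_const _
    have l3 := le_of_tendsto_of_tendsto' l1 l2 fun n => (hsD n).2 x y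
    rw [zero_mul, zero_mul, norm_le_zero_iff, sub_eq_zero] at l3
    exact l3.symm
  have hone : θ 1 = 1 := by
    obtain ⟨x, hx⟩ := hsurj 1
    have := hmul 1 x
    rwa [one_mul, hx, mul_one, eq_comm] at this
  let φ₀ : Alg M →ₐ[ℂ] Alg N := AlgHom.ofLinearMap θ.toLinearMap hone hmul
  refine ⟨(N.toStarSubalgebra.toSubalgebra.val).comp φ₀, fun x => (θ x).2, fun y hy => ?_, hθn⟩
  obtain ⟨x, hx⟩ := hsurj ⟨y, hy⟩
  exact ⟨x, congrArg Subtype.val hx⟩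

end

end Crest.Agent.R78
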