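import Crest.Agent.R78.FCApi

/-!
# Row 78: the strip lemma and Fourier uniqueness
-/

open scoped InnerProductSpace Topology ComplexConjugate
open Filter MeasureTheory

set_option linter.unusedSectionVars false

namespace Crest.Agent.R78

open Crest.Agent.R121 (Alg)

noncomputable section

universe u

variable {H : Type*} [NormedAddCommGroup H] [InnerProductSpace ℂ H] [CompleteSpace H]

/-- The kernel `1 / (2 cosh (π t))`. -/
def k0 (t : ℝ) : ℝ := (2 * Real.cosh (Real.pi * t))⁻¹

theorem k0_pos (t : ℝ) : 0 < k0 t := by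
  unfold k0
  have := Real.cosh_pos (Real.pi * t)
  positivity

theorem continuous_k0 : Continuous k0 := by
  unfold k0
  refine Continuous.inv₀ (by fun_prop) fun t => ?_
  have := Real.cosh_pos (Real.pi * t)
  positivity

theorem integrable_k0 : Integrable k0 := by
  refine integrable_inv_one_add_sq.mono' continuous_k0.aestronglyMeasurable
    (Eventually.of_forall fun t => ?_)
  rw [Real.norm_of_nonneg (k0_pos t).le, k0]
  refine inv_anti₀ (by positivity) ?_
  have h1 := Real.quadratic_le_exp_of_nonneg (abs_nonneg (Real.pi * t))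
  have h2 := Real.cosh_eq |Real.pi * t|
  rw [Real.cosh_abs] at h2
  have h3 := Real.exp_pos (-|Real.pi * t|)
  have h4 := abs_nonneg (Real.pi * t)
  rw [sq_abs, mul_pow] at h1
  have h5 : 2 ≤ Real.pi ^ 2 := by nlinarith [Real.pi_gt_three]
  nlinarith [mul_le_mul_of_nonneg_right h5 (sq_nonneg t)]

/-- Antiderivative `π⁻¹ arctan (exp (π t))`, or any other proof. -/
theorem integral_k0 : ∫ t, k0 t = 1 / 2 := by
  have hd : ∀ t : ℝ, HasDerivAt (fun t => Real.pi⁻¹ * Real.arctan (Real.exp (Real.pi * t))) (k0 t) t := by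
    intro t
    have h1 : HasDerivAt (fun t => Real.pi * t) Real.pi t := by
      simpa using (hasDerivAt_id t).const_mul Real.pi
    have h2 := (h1.exp.arctan).const_mul Real.pi⁻¹
    refine h2.congr_deriv ?_
    rw [k0, Real.cosh_eq, Real.exp_neg]
    have := Real.exp_pos (Real.pi * t)
    have := Real.pi_pos
    field_simp
    ring
  have hb : Tendsto (fun t => Real.pi⁻¹ * Real.arctan (Real.exp (Real.pi * t))) atBot
      (𝓝 (Real.pi⁻¹ * Real.arctan 0)) :=
    ((Real.continuous_arctan.tendsto 0).comp (Real.tendsto_exp_atBot.comp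
      (tendsto_id.const_mul_atBot Real.pi_pos))).const_mul _
  have ht : Tendsto (fun t => Real.pi⁻¹ * Real.arctan (Real.exp (Real.pi * t))) atTop
      (𝓝 (Real.pi⁻¹ * (Real.pi / 2))) :=
    ((Real.tendsto_arctan_atTop.mono_right nhdsWithin_le_nhds).comp (Real.tendsto_exp_atTop.comp
      (tendsto_id.const_mul_atTop Real.pi_pos))).const_mul _
  rw [integral_of_hasDerivAt_of_tendsto hd integrable_k0 hb ht, Real.arctan_zero]
  have := Real.pi_pos
  field_simp
  ring

theorem stp_sin (a b : ℝ) : Complex.sin (Real.pi * (a + b * Complex.I)) =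
    (Real.sin (Real.pi * a) * Real.cosh (Real.pi * b) : ℝ) +
      (Real.cos (Real.pi * a) * Real.sinh (Real.pi * b) : ℝ) * Complex.I := by
  have : (Real.pi : ℂ) * (a + b * Complex.I) = Real.pi * a + Real.pi * b * Complex.I := by ring
  rw [this, Complex.sin_add_mul_I]
  push_cast
  ring

theorem stp_norm_sin (a b : ℝ) :
    |Real.sinh (Real.pi * b)| ≤ ‖Complex.sin (Real.pi * (a + b * Complex.I))‖ := by
  rw [stp_sin, Complex.norm_add_mul_I]
  refine Real.abs_le_sqrt ?_
  have h1 := Real.sin_sq_add_cos_sq (Real.pi * a)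
  have h2 := Real.cosh_sq (Real.pi * b)
  rw [mul_pow, mul_pow, h2]
  nlinarith [sq_nonneg (Real.sin (Real.pi * a))]

theorem stp_integrable {f : ℂ → ℂ} (hf : Differentiable ℂ f) {C : ℝ}
    (hC : ∀ z : ℂ, |z.re| ≤ 1 / 2 → ‖f z‖ ≤ C) {a : ℝ} (ha : |a| ≤ 1 / 2) :
    Integrable fun t : ℝ => (k0 t : ℂ) * f (a + t * Complex.I) := by
  refine (integrable_k0.ofReal (𝕜 := ℂ)).mul_bdd (c := C) ?_ (Eventually.of_forall fun t => hC _ ?_)
  · exact (hf.continuous.comp (by fun_prop)).aestronglyMeasurable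
  · simpa using ha

/-- the case `f 0 = 0` -/
theorem stp_zero {f : ℂ → ℂ} (hf : Differentiable ℂ f) {C : ℝ}
    (hC : ∀ z : ℂ, |z.re| ≤ 1 / 2 → ‖f z‖ ≤ C) (h0 : f 0 = 0) :
    ∫ t : ℝ, ((k0 t : ℂ) * f (((1 / 2 : ℝ) : ℂ) + t * Complex.I) +
      (k0 t : ℂ) * f (((-(1 / 2) : ℝ) : ℂ) + t * Complex.I)) = 0 := by
  set s : ℂ → ℂ := fun z => Complex.sin (Real.pi * z) with hs
  have hsd : Differentiable ℂ s := by fun_prop
  have hs0 : s 0 = 0 := by simp [hs]
  have hπ : (Real.pi : ℂ) ≠ 0 := Complex.ofReal_ne_zero.2 Real.pi_ne_zero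
  have d1 : Differentiable ℂ (dslope f 0) := differentiableOn_univ.1
    ((Complex.differentiableOn_dslope univ_mem).2 hf.differentiableOn)
  have d2 : Differentiable ℂ (dslope s 0) := differentiableOn_univ.1
    ((Complex.differentiableOn_dslope univ_mem).2 hsd.differentiableOn)
  have hne : ∀ z : ℂ, |z.re| ≤ 1 / 2 → dslope s 0 z ≠ 0 := by
    intro z hz
    by_cases h : z = 0
    · subst h
      have h1 : HasDerivAt (fun z : ℂ => (Real.pi : ℂ) * z) Real.pi 0 := by
        simpa using (hasDerivAt_id (0 : ℂ)).const_mul (Real.pi : ℂ)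
      rw [dslope_same, h1.csin.deriv]
      simpa using Real.pi_ne_zero
    · rw [dslope_of_ne _ h, slope_def_field, hs0, sub_zero, sub_zero]
      refine div_ne_zero (fun e => h ?_) h
      obtain ⟨k, hk⟩ := Complex.sin_eq_zero_iff.1 e
      have hz' : z = k := mul_left_cancel₀ hπ (by rw [hk, mul_comm])
      rw [hz', Complex.intCast_re] at hz
      have : |(k : ℝ)| < 1 := by linarith
      have : |k| < 1 := by exact_mod_cast this
      rw [hz', Int.abs_lt_one_iff.1 this, Int.cast_zero]
  set h : ℂ → ℂ := fun z => dslope f 0 z / dslope s 0 z with hh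
  have he : ∀ z : ℂ, z ≠ 0 → h z = f z / s z := by
    intro z hz
    simp only [hh]
    rw [dslope_of_ne _ hz, dslope_of_ne _ hz, slope_def_field, slope_def_field, h0, hs0, sub_zero,
      sub_zero, sub_zero, div_div_div_cancel_right₀ hz]
  have hC0 : 0 ≤ C := (norm_nonneg _).trans (hC 0 (by simp))
  -- the vertical sides
  have v1 : ∀ t : ℝ, h (((1 / 2 : ℝ) : ℂ) + t * Complex.I) =
      2 * ((k0 t : ℂ) * f (((1 / 2 : ℝ) : ℂ) + t * Complex.I)) := by
    intro t
    rw [he _ fun e => by simpa using congrArg Complex.re e]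
    simp only [hs]
    have e1 : Real.pi * (1 / 2) = Real.pi / 2 := by ring
    rw [stp_sin, e1, Real.sin_pi_div_two, Real.cos_pi_div_two, k0]
    have : (Real.cosh (Real.pi * t) : ℂ) ≠ 0 := Complex.ofReal_ne_zero.2 (Real.cosh_pos _).ne'
    simp only [one_mul, zero_mul, Complex.ofReal_zero, add_zero, Complex.ofReal_inv,
      Complex.ofReal_mul, Complex.ofReal_ofNat]
    field_simp
  have v2 : ∀ t : ℝ, h (((-(1 / 2) : ℝ) : ℂ) + t * Complex.I) =
      -2 * ((k0 t : ℂ) * f (((-(1 / 2) : ℝ) : ℂ) + t * Complex.I)) := by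
    intro t
    rw [he _ fun e => by simpa using congrArg Complex.re e]
    simp only [hs]
    have e1 : Real.pi * -(1 / 2) = -(Real.pi / 2) := by ring
    rw [stp_sin, e1, Real.sin_neg, Real.cos_neg, Real.sin_pi_div_two, Real.cos_pi_div_two, k0]
    have : (Real.cosh (Real.pi * t) : ℂ) ≠ 0 := Complex.ofReal_ne_zero.2 (Real.cosh_pos _).ne'
    simp only [neg_mul, one_mul, zero_mul, Complex.ofReal_zero, add_zero, Complex.ofReal_inv,
      Complex.ofReal_mul, Complex.ofReal_ofNat, Complex.ofReal_neg]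
    field_simp
  -- the horizontal sides
  have hor : ∀ R : ℝ, R ≠ 0 → ‖∫ x : ℝ in (-(1 / 2))..(1 / 2), h (x + R * Complex.I)‖ ≤
      C / |Real.sinh (Real.pi * R)| := by
    intro R hR
    have hpos : 0 < |Real.sinh (Real.pi * R)| :=
      abs_pos.2 (Real.sinh_ne_zero.2 (mul_ne_zero Real.pi_ne_zero hR))
    refine (intervalIntegral.norm_integral_le_of_norm_le_const
      (C := C / |Real.sinh (Real.pi * R)|) fun x hx => ?_).trans (by norm_num)
    rw [Set.uIoc_of_le (by norm_num)] at hx
    rw [he _ fun e => hR (by simpa using congrArg Complex.im e), norm_div]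
    refine div_le_div₀ hC0 (hC _ ?_) hpos (stp_norm_sin x R)
    simpa using abs_le.2 ⟨hx.1.le, hx.2⟩
  have hlim : Tendsto (fun R : ℝ => C / |Real.sinh (Real.pi * R)|) atTop (𝓝 0) := by
    refine Tendsto.const_div_atTop ?_ C
    refine tendsto_atTop_mono' _ ?_ (tendsto_id.const_mul_atTop Real.pi_pos)
    filter_upwards [eventually_ge_atTop 0] with R hR
    exact (Real.self_le_sinh_iff.2 (by positivity)).trans (le_abs_self _)
  have t1 : Tendsto (fun R : ℝ => ∫ x : ℝ in (-(1 / 2))..(1 / 2), h (x + R * Complex.I)) atTop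
      (𝓝 0) := by
    refine squeeze_zero_norm' ?_ hlim
    filter_upwards [eventually_gt_atTop 0] with R hR using hor R hR.ne'
  have t2 : Tendsto (fun R : ℝ => ∫ x : ℝ in (-(1 / 2))..(1 / 2), h (x + (-R : ℝ) * Complex.I))
      atTop (𝓝 0) := by
    refine squeeze_zero_norm' ?_ hlim
    filter_upwards [eventually_gt_atTop 0] with R hR
    have := hor (-R) (neg_ne_zero.2 hR.ne')
    rwa [mul_neg, Real.sinh_neg, abs_neg] at this
  have i1 := stp_integrable hf hC (a := 1 / 2) (by rw [abs_of_pos] <;> norm_num)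
  have i2 := stp_integrable hf hC (a := -(1 / 2)) (by rw [abs_neg, abs_of_pos] <;> norm_num)
  have t3 := intervalIntegral_tendsto_integral (i1.const_mul 2) tendsto_neg_atTop_atBot tendsto_id
  have t4 := intervalIntegral_tendsto_integral (i2.const_mul (-2)) tendsto_neg_atTop_atBot tendsto_id
  have t5 := ((t2.sub t1).add (t3.const_smul Complex.I)).sub (t4.const_smul Complex.I)
  have t6 := tendsto_nhds_unique t5 (tendsto_const_nhds (x := (0 : ℂ)).congr fun R => by
    have hd : DifferentiableOn ℂ h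
        (Set.uIcc (-(1 / 2) : ℝ) (1 / 2) ×ℂ Set.uIcc (-R) R) := by
      intro z hz
      have hz1 := (Complex.mem_reProdIm.1 hz).1
      rw [Set.uIcc_of_le (by norm_num)] at hz1
      exact ((d1 z).div (d2 z) (hne z (abs_le.2 hz1))).differentiableWithinAt
    have := Complex.integral_boundary_rect_eq_zero_of_differentiableOn h ⟨-(1 / 2), -R⟩ ⟨1 / 2, R⟩ hd
    simp only [v1, v2] at this
    exact this.symm)
  rw [integral_const_mul, integral_const_mul] at t6
  rw [integral_add i1 i2]
  simp only [smul_eq_mul] at t6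
  have h2 : (2 * Complex.I : ℂ) ≠ 0 := mul_ne_zero two_ne_zero Complex.I_ne_zero
  refine mul_left_cancel₀ h2 ?_
  linear_combination t6

/-- Strip lemma. Recipe: `h z = dslope f 0 z / dslope (fun z => sin (π z)) 0 z` is holomorphic
near the closed strip (the denominator `sin(π z)/z` does not vanish for `|re z| < 1`) and equals
`(f z - f 0)/ sin (π z)` off `0`; integrate over the rectangles `[-1/2, 1/2] × [-R, R]`
(`Complex.integral_boundary_rect_eq_zero_of_differentiableOn`); the horizontal sides tend to `0`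
since `|sin (π (x + i R))| ≥ sinh (π |R|)`; `sin (π (±1/2 + i t)) = ± cosh (π t)`. -/
theorem strip {f : ℂ → ℂ} (hf : Differentiable ℂ f) {C : ℝ}
    (hC : ∀ z : ℂ, |z.re| ≤ 1 / 2 → ‖f z‖ ≤ C) :
    f 0 = ∫ t : ℝ, (k0 t : ℂ) * (f (1 / 2 + t * Complex.I) + f (-(1 / 2) + t * Complex.I)) := by
  have h1 := stp_zero (f := fun z => f z - f 0) (hf.sub_const _) (C := C + ‖f 0‖)
    (fun z hz => (norm_sub_le _ _).trans (add_le_add_left (hC z hz) _)) (sub_self _)
  have i1 := stp_integrable hf hC (a := 1 / 2) (by rw [abs_of_pos] <;> norm_num)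
  have i2 := stp_integrable hf hC (a := -(1 / 2)) (by rw [abs_neg, abs_of_pos] <;> norm_num)
  have i3 : Integrable fun t : ℝ => (k0 t : ℂ) * (2 * f 0) :=
    (integrable_k0.ofReal (𝕜 := ℂ)).mul_const _
  have h2 : ∫ t : ℝ, (k0 t : ℂ) * (2 * f 0) = f 0 := by
    rw [integral_mul_const, integral_complex_ofReal, integral_k0]
    push_cast
    ring
  have h3 := integral_sub (i1.add i2) i3
  rw [h2] at h3
  have h4 : (∫ t : ℝ, ((k0 t : ℂ) * f (((1 / 2 : ℝ) : ℂ) + t * Complex.I) +
      (k0 t : ℂ) * f (((-(1 / 2) : ℝ) : ℂ) + t * Complex.I))) - f 0 = 0 := by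
    refine Eq.trans h3.symm (Eq.trans (integral_congr_ae (Eventually.of_forall fun t => ?_)) h1)
    simp only [Pi.add_apply]
    ring
  rw [← sub_eq_zero.1 h4]
  refine integral_congr_ae (Eventually.of_forall fun t => ?_)
  push_cast
  ring

/-- `strip` for `f z = exp (z x)`. -/
theorem ker_k0 : Ker (fun t => (k0 t : ℂ)) fun x => ((2 * Real.cosh (x / 2))⁻¹ : ℝ) := by
  refine ⟨Complex.continuous_ofReal.comp continuous_k0, integrable_k0.ofReal, fun x => ?_⟩
  have h1 := strip (f := fun z => Complex.exp (z * x)) (by fun_prop) (C := Real.exp (|x| / 2))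
    fun z hz => by
      rw [Complex.norm_exp, Real.exp_le_exp, Complex.re_mul_ofReal]
      refine (le_abs_self _).trans ?_
      rw [abs_mul]
      nlinarith [abs_nonneg x]
  have h2 : ∀ t : ℝ, (k0 t : ℂ) * (Complex.exp ((1 / 2 + t * Complex.I) * x) +
      Complex.exp ((-(1 / 2) + t * Complex.I) * x)) =
      ((2 * Real.cosh (x / 2) : ℝ) : ℂ) * ((k0 t : ℂ) * Complex.exp (Complex.I * t * x)) := by
    intro t
    have e1 : (1 / 2 + t * Complex.I) * x = (x : ℂ) / 2 + Complex.I * t * x := by ring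
    have e2 : (-(1 / 2) + t * Complex.I) * x = -((x : ℂ) / 2) + Complex.I * t * x := by ring
    rw [e1, e2, Complex.exp_add, Complex.exp_add]
    push_cast
    rw [Complex.two_cosh]
    ring
  simp only [h2, zero_mul, Complex.exp_zero] at h1
  rw [integral_const_mul] at h1
  have h3 : ((2 * Real.cosh (x / 2) : ℝ) : ℂ) ≠ 0 :=
    Complex.ofReal_ne_zero.2 (mul_pos two_pos (Real.cosh_pos _)).ne'
  rw [Complex.ofReal_inv]
  exact inv_eq_of_mul_eq_one_right h1.symm

/-- Fourier uniqueness (`MeasureTheory.Integrable.fourierInv_fourier_eq` or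
`Continuous.fourierInv_fourier_eq` with vanishing transform). -/
theorem fourier_unique {g : ℝ → ℂ} (hc : Continuous g) (hi : Integrable g)
    (h : ∀ s : ℝ, ∫ t, g t * Complex.exp (Complex.I * t * s) = 0) (t : ℝ) : g t = 0 := by
  have h1 : FourierTransform.fourier g = 0 := by
    funext w
    rw [Real.fourier_real_eq_integral_exp_smul, Pi.zero_apply, ← h (-2 * Real.pi * w)]
    refine integral_congr_ae (Eventually.of_forall fun v => ?_)
    simp only [smul_eq_mul]
    rw [mul_comm]
    congr 2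
    push_cast
    ring
  have h2 := hc.fourierInv_fourier_eq hi (by rw [h1]; exact integrable_zero _ _ _)
  rw [h1] at h2
  rw [← h2, Real.fourierInv_eq]
  simp

end

end Crest.Agent.R78
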