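import Crest.Agent.R78.Strip

/-!
# Row 78: helper lemmas for `TomMk` (solving the key identity)
-/

open scoped InnerProductSpace Topology ComplexConjugate
open Filter MeasureTheory

set_option linter.unusedSectionVars false

namespace Crest.Agent.R78

noncomputable section

variable {H : Type*} [NormedAddCommGroup H] [InnerProductSpace ℂ H] [CompleteSpace H]

theorem tmx_bc {g : ℝ → ℂ} (hg : Continuous g) (hs : HasCompactSupport g) (z : ℂ) :
    BC fun x : ℝ => g x * Complex.exp (z * x) :=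
  BC.of_supp (by fun_prop) hs.mul_right

theorem tmx_deriv_zero (F : FC H) {g : ℝ → ℂ} (hg : Continuous g) (hs : HasCompactSupport g) :
    HasDerivAt (fun z : ℂ => F.fn fun x : ℝ => g x * Complex.exp (z * x))
      (F.fn fun x : ℝ => g x * x) 0 := by
  obtain ⟨C, hC⟩ := (BC.of_supp hg hs).2
  obtain ⟨M, hM0, hM⟩ : ∃ M > 0, ∀ x, M < |x| → g x = 0 := by
    obtain ⟨M, hM⟩ := hs.isCompact.isBounded.exists_norm_le
    refine ⟨|M| + 1, by positivity, fun x hx => ?_⟩
    by_contra h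
    have h1 := hM x (subset_tsupport _ h)
    rw [Real.norm_eq_abs] at h1
    linarith [le_abs_self M]
  have hC0 : 0 ≤ C := (norm_nonneg _).trans (hC 0)
  have hb1 : BC fun x : ℝ => g x * x := BC.of_supp (by fun_prop) hs.mul_right
  rw [hasDerivAt_iff_isLittleO_nhds_zero]
  refine (Asymptotics.IsBigO.of_bound (C * M ^ 2) ?_).trans_isLittleO
    (Asymptotics.isLittleO_pow_id (𝕜 := ℂ) one_lt_two)
  filter_upwards [Metric.ball_mem_nhds (0 : ℂ) (inv_pos.2 hM0)] with h hh
  rw [mem_ball_zero_iff] at hh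
  have hb2 : BC fun x : ℝ => h * (g x * x) := (BC.const h).mul hb1
  rw [← F.fn_smul h hb1, ← F.fn_sub (tmx_bc hg hs _) (tmx_bc hg hs _),
    ← F.fn_sub ((tmx_bc hg hs _).sub (tmx_bc hg hs _)) hb2]
  refine F.norm_fn_le (((tmx_bc hg hs _).sub (tmx_bc hg hs _)).sub hb2) fun x => ?_
  by_cases hx : M < |x|
  · simp only [hM x hx, zero_mul, mul_zero, sub_zero, norm_zero]
    positivity
  · push Not at hx
    have h1 : ‖h * x‖ ≤ ‖h‖ * M := by
      rw [norm_mul, Complex.norm_real, Real.norm_eq_abs]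
      gcongr
    have h2 : ‖h‖ * M ≤ 1 := by
      have := mul_le_mul_of_nonneg_right hh.le hM0.le
      rwa [inv_mul_cancel₀ hM0.ne'] at this
    have h3 := Complex.norm_exp_sub_one_sub_id_le (h1.trans h2)
    have e : g x * Complex.exp ((0 + h) * x) - g x * Complex.exp (0 * x) - h * (g x * x) =
        g x * (Complex.exp (h * x) - 1 - h * x) := by
      rw [zero_add, zero_mul, Complex.exp_zero]; ring
    rw [e, norm_mul, norm_pow]
    calc ‖g x‖ * ‖Complex.exp (h * x) - 1 - h * x‖ ≤ C * (‖h‖ * M) ^ 2 := by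
          gcongr
          · exact hC x
          · exact h3.trans (by gcongr)
      _ = C * M ^ 2 * ‖h‖ ^ 2 := by ring

theorem tmx_diff (F : FC H) {g : ℝ → ℂ} (hg : Continuous g) (hs : HasCompactSupport g) :
    Differentiable ℂ fun z : ℂ => F.fn fun x : ℝ => g x * Complex.exp (z * x) := by
  intro z₀
  have h := (tmx_deriv_zero F (g := fun x : ℝ => g x * Complex.exp (z₀ * x)) (by fun_prop)
    hs.mul_right).differentiableAt
  have h2 : DifferentiableAt ℂ (fun z : ℂ => z - z₀) z₀ := by fun_prop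
  have h3 := DifferentiableAt.comp z₀ (by rw [sub_self]; exact h) h2
  refine h3.congr_of_eventuallyEq (Eventually.of_forall fun z => ?_)
  simp only [Function.comp]
  congr 1
  funext x
  rw [mul_assoc, ← Complex.exp_add]
  congr 2
  ring

theorem tmx_bound (F : FC H) {g : ℝ → ℂ} (hg : Continuous g) (hs : HasCompactSupport g) :
    ∃ C, ∀ z : ℂ, |z.re| ≤ 1 / 2 → ‖F.fn fun x : ℝ => g x * Complex.exp (z * x)‖ ≤ C := by
  obtain ⟨C, hC⟩ := (BC.of_supp (f := fun x : ℝ => g x * (Real.exp |x| : ℝ)) (by fun_prop)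
    hs.mul_right).2
  refine ⟨C, fun z hz => F.norm_fn_le (tmx_bc hg hs z) fun x => le_trans ?_ (hC x)⟩
  rw [norm_mul, norm_mul, Complex.norm_exp, Complex.norm_real, Real.norm_eq_abs,
    abs_of_pos (Real.exp_pos _)]
  gcongr
  rw [Complex.re_mul_ofReal]
  have h1 : z.re * x ≤ |z.re| * |x| := by rw [← abs_mul]; exact le_abs_self _
  nlinarith [abs_nonneg x]

theorem tmx_bc_rho : BC fun x : ℝ => ((2 / (1 + Real.exp x) : ℝ) : ℂ) := by
  refine BC.of_le (C := 2) ?_ fun x => ?_
  · refine Complex.continuous_ofReal.comp (continuous_const.div (by fun_prop) fun x => ?_)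
    positivity
  · have := Real.exp_pos x
    rw [Complex.norm_real, Real.norm_eq_abs, abs_of_pos (by positivity), div_le_iff₀ (by positivity)]
    linarith

theorem tmx_bc_tau : BC fun x : ℝ => (((Real.cosh (x / 2))⁻¹ : ℝ) : ℂ) := by
  refine BC.of_le (C := 1) ?_ fun x => ?_
  · exact Complex.continuous_ofReal.comp
      (Continuous.inv₀ (by fun_prop) fun x => (Real.cosh_pos _).ne')
  · rw [Complex.norm_real, Real.norm_eq_abs, abs_of_pos (inv_pos.2 (Real.cosh_pos _))]
    exact inv_le_one_of_one_le₀ (Real.one_le_cosh _)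

theorem tmx_rho (x : ℝ) : Real.cosh (x / 2) * (2 / (1 + Real.exp x)) = Real.exp (-(x / 2)) := by
  have h1 : Real.exp x = Real.exp (x / 2) * Real.exp (x / 2) := by rw [← Real.exp_add]; ring_nf
  have h2 := Real.exp_pos (x / 2)
  rw [Real.cosh_eq, Real.exp_neg, h1]
  field_simp
  ring

theorem tmx_rho' (x : ℝ) : Real.cosh (x / 2) * (2 - 2 / (1 + Real.exp x)) = Real.exp (x / 2) := by
  rw [mul_sub, tmx_rho, Real.cosh_eq]
  ring

theorem tmx_sqrt (x : ℝ) :
    √(2 / (1 + Real.exp x) * (2 - 2 / (1 + Real.exp x))) = (Real.cosh (x / 2))⁻¹ := by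
  have h0 := Real.cosh_pos (x / 2)
  rw [Real.sqrt_eq_iff_mul_self_eq _ (by positivity)]
  · have h1 := tmx_rho x
    have h2 := tmx_rho' x
    have h3 : Real.exp (-(x / 2)) * Real.exp (x / 2) = 1 := by rw [← Real.exp_add]; simp
    rw [← h1, ← h2] at h3
    set a := 2 / (1 + Real.exp x)
    field_simp
    linarith
  · have := Real.exp_pos x
    have h2 : 2 / (1 + Real.exp x) ≤ 2 := by
      rw [div_le_iff₀ (by positivity)]; linarith
    exact mul_nonneg (by positivity) (by linarith)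

theorem tmx_fn_two_sub (F : FC H) {R : Op H}
    (hR : F.fn (fun x => ((2 / (1 + Real.exp x) : ℝ) : ℂ)) = R) :
    F.fn (fun x => ((2 - 2 / (1 + Real.exp x) : ℝ) : ℂ)) = 2 - R := by
  have h := F.fn_sub (BC.const 2) tmx_bc_rho
  rw [F.fn_const, hR] at h
  have e : (2 : ℂ) • (1 : Op H) = 2 := by rw [two_smul, one_add_one_eq_two]
  rw [← e, ← h]
  congr 1
  funext x
  push_cast
  rfl

theorem tmx_bc_rho' : BC fun x : ℝ => ((2 - 2 / (1 + Real.exp x) : ℝ) : ℂ) := by
  have := (BC.const 2).sub tmx_bc_rho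
  convert this using 2
  push_cast
  rfl

/-- The factorisations of `g e^{z x}` on the two boundary lines. -/
theorem tmx_fac (F : FC H) {g r : ℝ → ℂ} (hg : Continuous g) (hs : HasCompactSupport g) (hr : BC r)
    {c : ℂ} (hc : ∀ x : ℝ, (Real.cosh (x / 2) : ℝ) * r x = Complex.exp (c * x)) (t : ℝ) :
    F.fn (fun x : ℝ => g x * Complex.exp ((c + t * Complex.I) * x)) =
      F.fn (fun x => g x * (Real.cosh (x / 2) : ℝ)) * F.V t * F.fn r := by
  have hb : BC fun x : ℝ => g x * (Real.cosh (x / 2) : ℝ) := BC.of_supp (by fun_prop) hs.mul_right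
  unfold FC.V
  rw [← F.fn_mul hb (BC.expI t), ← F.fn_mul (hb.mul (BC.expI t)) hr]
  congr 1
  funext x
  rw [add_mul, Complex.exp_add, ← hc x]
  have : (t : ℂ) * Complex.I * x = Complex.I * t * x := by ring
  rw [this]
  ring

theorem tmx_fac' (F : FC H) {g r : ℝ → ℂ} (hg : Continuous g) (hs : HasCompactSupport g) (hr : BC r)
    {c : ℂ} (hc : ∀ x : ℝ, (Real.cosh (x / 2) : ℝ) * r x = Complex.exp (-c * x)) (t : ℝ) :
    F.fn (fun x : ℝ => g x * Complex.exp (-(c + t * Complex.I) * x)) =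
      F.fn r * F.V (-t) * F.fn (fun x => g x * (Real.cosh (x / 2) : ℝ)) := by
  have hb : BC fun x : ℝ => g x * (Real.cosh (x / 2) : ℝ) := BC.of_supp (by fun_prop) hs.mul_right
  unfold FC.V
  rw [← F.fn_mul hr (BC.expI (-t)), ← F.fn_mul (hr.mul (BC.expI (-t))) hb]
  congr 1
  funext x
  rw [neg_add, add_mul, Complex.exp_add, ← hc x]
  have : -((t : ℂ) * Complex.I) * x = Complex.I * ((-t : ℝ) : ℂ) * x := by push_cast; ring
  rw [this]
  ring

theorem tmx_tested (F : FC H) {R T Y Z : Op H}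
    (hR : F.fn (fun x => ((2 / (1 + Real.exp x) : ℝ) : ℂ)) = R)
    (hT : F.fn (fun x => (((Real.cosh (x / 2))⁻¹ : ℝ) : ℂ)) = T) (s : ℝ)
    (h : T * Z * T = (Real.exp (s / 2) : ℂ) • ((2 - R) * Y * R) +
      (Real.exp (s / 2) : ℂ)⁻¹ • (R * Y * (2 - R)))
    {g g' : ℝ → ℂ} (hg : Continuous g) (hs : HasCompactSupport g) (hg' : Continuous g')
    (hs' : HasCompactSupport g') (v w : H) :
    ⟪w, (F.fn g * Y * F.fn g') v⟫_ℂ = ∫ t : ℝ, (k0 t : ℂ) * Complex.exp (Complex.I * t * s) *
      ⟪w, (F.fn g * (F.V t * Z * F.V (-t)) * F.fn g') v⟫_ℂ := by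
  set E : ℂ → Op H := fun z => F.fn fun x : ℝ => g x * Complex.exp (z * x) with hE
  set E' : ℂ → Op H := fun z => F.fn fun x : ℝ => g' x * Complex.exp (z * x) with hE'
  have hd : Differentiable ℂ E := tmx_diff F hg hs
  have hd' : Differentiable ℂ fun z => E' (-z) := (tmx_diff F hg' hs').comp differentiable_neg
  obtain ⟨C, hC⟩ := tmx_bound F hg hs
  obtain ⟨C', hC'⟩ := tmx_bound F hg' hs'
  have hC0 : 0 ≤ C := (norm_nonneg _).trans (hC 0 (by simp))
  set f : ℂ → ℂ := fun z => Complex.exp (z * s) * ⟪w, (E z * Y * E' (-z)) v⟫_ℂ with hf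
  have hfd : Differentiable ℂ f := by
    have h1 : Differentiable ℂ fun z => E z * Y * E' (-z) := (hd.mul_const Y).mul hd'
    have h2 : Differentiable ℂ fun z => (E z * Y * E' (-z)) v := h1.clm_apply (differentiable_const v)
    have h3 : Differentiable ℂ fun z => innerSL ℂ w ((E z * Y * E' (-z)) v) :=
      (innerSL ℂ w).differentiable.comp h2
    exact Differentiable.mul (by fun_prop) h3
  have hfb : ∀ z : ℂ, |z.re| ≤ 1 / 2 → ‖f z‖ ≤ Real.exp |s| * (‖w‖ * (C * ‖Y‖ * C' * ‖v‖)) := by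
    intro z hz
    rw [hf, norm_mul, Complex.norm_exp]
    gcongr
    · rw [Complex.re_mul_ofReal]
      have h1 : z.re * s ≤ |z.re| * |s| := by rw [← abs_mul]; exact le_abs_self _
      nlinarith [abs_nonneg s]
    · refine (norm_inner_le_norm _ _).trans ?_
      gcongr
      refine (ContinuousLinearMap.le_opNorm _ _).trans ?_
      gcongr
      refine (norm_mul_le _ _).trans ?_
      gcongr
      · refine (norm_mul_le _ _).trans ?_
        gcongr
        exact hC z hz
      · exact hC' (-z) (by rwa [Complex.neg_re, abs_neg])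
  have hst := strip hfd hfb
  have hc1 : ∀ x : ℝ, ((Real.cosh (x / 2) : ℝ) : ℂ) * ((2 - 2 / (1 + Real.exp x) : ℝ) : ℂ) =
      Complex.exp (1 / 2 * x) := fun x => by
    rw [← Complex.ofReal_mul, tmx_rho', Complex.ofReal_exp]
    congr 1; push_cast; ring
  have hc2 : ∀ x : ℝ, ((Real.cosh (x / 2) : ℝ) : ℂ) * ((2 / (1 + Real.exp x) : ℝ) : ℂ) =
      Complex.exp (-(1 / 2) * x) := fun x => by
    rw [← Complex.ofReal_mul, tmx_rho, Complex.ofReal_exp]
    congr 1; push_cast; ring
  have hR' := tmx_fn_two_sub F hR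
  have hb : BC fun x : ℝ => g x * (Real.cosh (x / 2) : ℝ) := BC.of_supp (by fun_prop) hs.mul_right
  have hb' : BC fun x : ℝ => g' x * (Real.cosh (x / 2) : ℝ) := BC.of_supp (by fun_prop) hs'.mul_right
  set P := F.fn (fun x => g x * (Real.cosh (x / 2) : ℝ)) with hP
  set P' := F.fn (fun x => g' x * (Real.cosh (x / 2) : ℝ)) with hP'
  have hPT : ∀ t, P * F.V t * T = F.fn g * F.V t := fun t => by
    have h1 := tmx_fac F hg hs tmx_bc_tau (c := 0) (fun x => by
      rw [← Complex.ofReal_mul, mul_inv_cancel₀ (Real.cosh_pos _).ne', zero_mul, Complex.exp_zero,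
        Complex.ofReal_one]) t
    rw [hT] at h1
    rw [← h1]
    unfold FC.V
    rw [← F.fn_mul (BC.of_supp hg hs) (BC.expI t)]
    congr 1
    funext x
    congr 2
    ring
  have hPT' : ∀ t, T * F.V (-t) * P' = F.V (-t) * F.fn g' := fun t => by
    have h1 := tmx_fac' F hg' hs' tmx_bc_tau (c := 0) (fun x => by
      rw [← Complex.ofReal_mul, mul_inv_cancel₀ (Real.cosh_pos _).ne', neg_zero, zero_mul,
        Complex.exp_zero, Complex.ofReal_one]) t
    rw [hT] at h1
    rw [← h1]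
    unfold FC.V
    rw [← F.fn_mul (BC.expI (-t)) (BC.of_supp hg' hs')]
    congr 1
    funext x
    rw [mul_comm]
    congr 2
    push_cast
    ring
  have e0 : f 0 = ⟪w, (F.fn g * Y * F.fn g') v⟫_ℂ := by
    simp only [hf, hE, hE', neg_zero, zero_mul, Complex.exp_zero, mul_one, one_mul]
  rw [← e0, hst]
  refine integral_congr_ae (Eventually.of_forall fun t => ?_)
  have a1 : E (1 / 2 + t * Complex.I) = P * F.V t * (2 - R) := by
    rw [← hR']; exact tmx_fac F hg hs tmx_bc_rho' hc1 t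
  have a2 : E' (-(1 / 2 + t * Complex.I)) = R * F.V (-t) * P' := by
    rw [← hR]; exact tmx_fac' F hg' hs' tmx_bc_rho hc2 t
  have a3 : E (-(1 / 2) + t * Complex.I) = P * F.V t * R := by
    rw [← hR]; exact tmx_fac F hg hs tmx_bc_rho hc2 t
  have a4 : E' (-(-(1 / 2) + t * Complex.I)) = (2 - R) * F.V (-t) * P' := by
    rw [← hR']; exact tmx_fac' F hg' hs' tmx_bc_rho' (by rw [neg_neg]; exact hc1) t
  have a5 : F.fn g * (F.V t * Z * F.V (-t)) * F.fn g' =
      P * F.V t * (T * Z * T) * (F.V (-t) * P') := by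
    calc F.fn g * (F.V t * Z * F.V (-t)) * F.fn g' = (F.fn g * F.V t) * Z * (F.V (-t) * F.fn g') := by
          noncomm_ring
      _ = (P * F.V t * T) * Z * (T * F.V (-t) * P') := by rw [hPT, hPT']
      _ = _ := by noncomm_ring
  have a6 : Complex.exp ((1 / 2 + t * Complex.I) * s) =
      Complex.exp (Complex.I * t * s) * (Real.exp (s / 2) : ℂ) := by
    rw [Complex.ofReal_exp, ← Complex.exp_add]
    congr 1; push_cast; ring
  have a7 : Complex.exp ((-(1 / 2) + t * Complex.I) * s) =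
      Complex.exp (Complex.I * t * s) * (Real.exp (s / 2) : ℂ)⁻¹ := by
    rw [Complex.ofReal_exp, ← Complex.exp_neg, ← Complex.exp_add]
    congr 1; push_cast; ring
  have a8 : P * F.V t * (2 - R) * Y * (R * F.V (-t) * P') =
      P * F.V t * ((2 - R) * Y * R) * (F.V (-t) * P') := by
    simp only [mul_assoc]
  have a9 : P * F.V t * R * Y * ((2 - R) * F.V (-t) * P') =
      P * F.V t * (R * Y * (2 - R)) * (F.V (-t) * P') := by
    simp only [mul_assoc]
  simp only [hf]
  rw [a1, a2, a3, a4, a5, a6, a7, a8, a9, h, mul_add, mul_add, add_mul, mul_smul_comm, mul_smul_comm,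
    smul_mul_assoc, smul_mul_assoc, add_apply, smul_apply,
    smul_apply, inner_add_right, inner_smul_right, inner_smul_right]
  ring

theorem tmx_int (s : ℝ) : Integrable fun t : ℝ => (k0 t : ℂ) * Complex.exp (Complex.I * t * s) := by
  refine (integrable_k0.ofReal (𝕜 := ℂ)).mul_bdd (c := 1) (by fun_prop)
    (Eventually.of_forall fun t => ?_)
  rw [Complex.norm_exp]
  simp

theorem tmx_solve (F : FC H) {R T Y Z : Op H}
    (hR : F.fn (fun x => ((2 / (1 + Real.exp x) : ℝ) : ℂ)) = R)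
    (hT : F.fn (fun x => (((Real.cosh (x / 2))⁻¹ : ℝ) : ℂ)) = T) (s : ℝ)
    (h : T * Z * T = (Real.exp (s / 2) : ℂ) • ((2 - R) * Y * R) +
      (Real.exp (s / 2) : ℂ)⁻¹ • (R * Y * (2 - R))) (v w : H) :
    ⟪w, Y v⟫_ℂ = ∫ t : ℝ, (k0 t : ℂ) * Complex.exp (Complex.I * t * s) *
      ⟪w, (F.V t * Z * F.V (-t)) v⟫_ℂ := by
  set S := oint (fun t : ℝ => (k0 t : ℂ) * Complex.exp (Complex.I * t * s))
    (fun t => F.V t * Z * F.V (-t)) with hS
  have hSi : ∀ v w : H, ⟪w, S v⟫_ℂ = ∫ t : ℝ, (k0 t : ℂ) * Complex.exp (Complex.I * t * s) *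
      ⟪w, (F.V t * Z * F.V (-t)) v⟫_ℂ := fun v w => by
    rw [hS, oint_apply (tmx_int s) (F.sc_conj Z), ← integral_inner ((F.sc_conj Z).integrable (tmx_int s) v)]
    simp only [inner_smul_right]
  have h1 : ∀ g' : ℝ → ℂ, Continuous g' → HasCompactSupport g' → (Y - S) * F.fn g' = 0 := by
    intro g' hg' hs'
    ext u
    rw [sub_mul, sub_apply, zero_apply, sub_eq_zero]
    refine F.eq_of_forall_supp fun g hg hs => ext_inner_left ℂ fun w => ?_
    have h2 := tmx_tested F hR hT s h hg hs hg' hs' u w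
    have h3 := hSi (F.fn g' u) (star (F.fn g) w)
    simp only [bas_star_inner] at h3
    exact h2.trans h3.symm
  have h2 : star (Y - S) = 0 := by
    ext u
    refine F.eq_of_forall_supp fun g hg hs => ?_
    have hs' : HasCompactSupport fun x => conj (g x) := hs.comp_left (g := conj) (map_zero _)
    have h3 := congrArg star (h1 (fun x => conj (g x)) (by fun_prop) hs')
    rw [F.fn_star (BC.of_supp hg hs), star_mul, star_star, star_zero] at h3
    have h4 := congrArg (fun X : Op H => X u) h3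
    simpa using h4
  rw [star_eq_zero, sub_eq_zero] at h2
  rw [h2, hSi]

theorem tmx_m1 (s : ℝ) :
    √((1 + Real.exp s) / 2) * √(2 - 2 / (1 + Real.exp s)) = Real.exp (s / 2) := by
  have h0 := Real.exp_pos s
  rw [← Real.sqrt_mul (by positivity), Real.sqrt_eq_iff_mul_self_eq _ (Real.exp_pos _).le,
    ← Real.exp_add, add_halves]
  · field_simp
    ring
  · have h2 : 2 / (1 + Real.exp s) ≤ 2 := by
      rw [div_le_iff₀ (by positivity)]; linarith
    exact mul_nonneg (by positivity) (by linarith)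

theorem tmx_m2 (s : ℝ) : √((1 + Real.exp s) / 2) * √(2 / (1 + Real.exp s)) = 1 := by
  have h0 := Real.exp_pos s
  rw [← Real.sqrt_mul (by positivity), Real.sqrt_eq_one]
  field_simp

theorem tmx_bc_sqrt {f : ℝ → ℝ} (hf : BC fun x => (f x : ℂ)) : BC fun x => ((√(f x) : ℝ) : ℂ) := by
  obtain ⟨hc, C, hC⟩ := hf
  have hc' : Continuous f := Complex.continuous_re.comp hc
  refine BC.of_le (C := √C) (by fun_prop) fun x => ?_
  have := hC x
  rw [Complex.norm_real, Real.norm_eq_abs] at this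
  rw [Complex.norm_real, Real.norm_eq_abs, abs_of_nonneg (Real.sqrt_nonneg _)]
  exact Real.sqrt_le_sqrt ((le_abs_self _).trans this)

theorem tmx_bc_s1 : BC fun s : ℝ => ((√(2 - 2 / (1 + Real.exp s)) : ℝ) : ℂ) := tmx_bc_sqrt tmx_bc_rho'

theorem tmx_bc_s2 : BC fun s : ℝ => ((√(2 / (1 + Real.exp s)) : ℝ) : ℂ) := tmx_bc_sqrt tmx_bc_rho

theorem tmx_bc_m {g : ℝ → ℂ} (hg : BC g) (hg' : BC fun s => (Real.exp (s / 2) : ℂ) * g s) :
    BC fun s => g s * (√((1 + Real.exp s) / 2) : ℝ) := by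
  obtain ⟨hc, C, hC⟩ := hg
  obtain ⟨-, C', hC'⟩ := hg'
  refine BC.of_le (C := C + C') (by fun_prop) fun s => ?_
  have h1 := hC s
  have h2 := hC' s
  have h0 := Real.exp_pos (s / 2)
  rw [norm_mul, Complex.norm_real, Real.norm_eq_abs, abs_of_pos h0] at h2
  rw [norm_mul, Complex.norm_real, Real.norm_eq_abs, abs_of_nonneg (Real.sqrt_nonneg _)]
  have h3 : √((1 + Real.exp s) / 2) ≤ 1 + Real.exp (s / 2) := by
    have h4 : Real.exp s = Real.exp (s / 2) * Real.exp (s / 2) := by rw [← Real.exp_add, add_halves]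
    rw [Real.sqrt_le_iff, h4]
    exact ⟨by positivity, by nlinarith⟩
  have := mul_le_mul_of_nonneg_left h3 (norm_nonneg (g s))
  nlinarith

end

end Crest.Agent.R78
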