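import Crest.Agent.R78.RvD
import Crest.Agent.R78.FCMk
import Crest.Agent.R78.LinRN
import Crest.Agent.R78.Strip
import Crest.Agent.R78.TomMkAux

/-!
# Row 78: Tomita's theorem
-/

open scoped InnerProductSpace Topology ComplexConjugate
open Filter MeasureTheory

set_option linter.unusedSectionVars false

namespace Crest.Agent.R78

open Crest.Agent.R121 (Alg)

noncomputable section

universe u

variable {H : Type*} [NormedAddCommGroup H] [InnerProductSpace ℂ H] [CompleteSpace H]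

variable {A B : VN H} {ξ : H}

/-- `T = √(R (2 - R))`. -/
def RvD.T (D : RvD A B ξ) : Op H := cfc (fun r : ℝ => √(r * (2 - r))) D.R

theorem RvD.sa (D : RvD A B ξ) : IsSelfAdjoint D.R := IsSelfAdjoint.of_nonneg D.nonneg

theorem RvD.T_sa (D : RvD A B ξ) : IsSelfAdjoint D.T := cfc_predicate _ _

theorem tomA_inner_sa {T : Op H} (hT : IsSelfAdjoint T) (v w : H) : ⟪T v, w⟫_ℂ = ⟪v, T w⟫_ℂ := by
  conv_lhs => rw [← hT.star_eq]
  exact ContinuousLinearMap.adjoint_inner_left T w v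

theorem tomA_inner_star (T : Op H) (v w : H) : ⟪star T v, w⟫_ℂ = ⟪v, T w⟫_ℂ :=
  ContinuousLinearMap.adjoint_inner_left T w v

theorem tomA_inner_star' (T : Op H) (v w : H) : ⟪v, star T w⟫_ℂ = ⟪T v, w⟫_ℂ :=
  ContinuousLinearMap.adjoint_inner_right T v w

theorem tomA_inner_J {J : H ≃ₗᵢ⋆[ℂ] H} (hJ : ∀ v, J (J v) = v) (v w : H) :
    ⟪v, J w⟫_ℂ = ⟪w, J v⟫_ℂ := by
  rw [← inner_J J (J w) v, hJ]

theorem RvD.TJ (D : RvD A B ξ) {c : Op H} (hc : c ∈ A) :
    D.T (D.J (c ξ)) = (2 - D.R) (star c ξ) := by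
  have hR := D.sa
  have h2 : ∀ r ∈ spectrum ℝ D.R, r ≤ 2 :=
    (le_algebraMap_iff_spectrum_le hR).1 (by rw [map_ofNat]; exact D.le_two)
  have e1 : cfc (fun r : ℝ => √(2 - r)) D.R * cfc (fun r : ℝ => √(2 - r)) D.R = 2 - D.R := by
    rw [← cfc_mul _ _ D.R, cfc_congr (g := fun r : ℝ => 2 - r)
      fun r hr => Real.mul_self_sqrt (sub_nonneg.2 (h2 r hr)), cfc_sub _ _ D.R, cfc_const 2 D.R,
      cfc_id' ℝ D.R, map_ofNat]
  have e2 : cfc (fun r : ℝ => √(2 - r)) D.R * cfc (fun r : ℝ => √r) D.R = D.T := by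
    rw [← cfc_mul _ _ D.R, RvD.T]
    refine cfc_congr fun r hr => ?_
    rw [Real.sqrt_mul (spectrum_nonneg_of_nonneg D.nonneg hr), mul_comm]
  have h := D.srel (star c) (star_mem hc)
  rw [star_star] at h
  rw [← e1, ← e2, mul_apply_eq_comp, mul_apply_eq_comp, h]

theorem RvD.exists_p (D : RvD A B ξ) (hB : A.commutant = B) {a' : Op H} (ha : a' ∈ B) :
    ∃ p ∈ A, p ξ = D.J (D.T (a' ξ)) ∧ star p ξ = D.R (a' ξ) := by
  obtain ⟨b, hb, -, h⟩ := linRN (A := A) ξ (hB ▸ ha) one_pos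
  obtain ⟨h1, h2⟩ := D.proj (a' ξ) b hb fun a ha => by simpa using h a ha
  refine ⟨(2 : ℂ) • star b, smul_mem' _ (star_mem hb), h2.symm, ?_⟩
  rw [h1, star_smul, star_star]
  simp

/-- The key identity. Recipe: `linRN` with `μ = 1` and `RvD.proj` give for each `a' ∈ B` an
element `p ∈ A` with `p ξ = J T a' ξ`, `p⋆ ξ = R a' ξ`. From `srel`: `T J (c ξ) = (2 - R) c⋆ ξ` for
`c ∈ A`, and `T J = J T`. Test the identity of `x` with `a = p⋆ q` (`p ↔ a'`, `q ↔ b'`):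
`⟪q ξ, y p ξ⟫ = ⟪J y J T a' ξ, T b' ξ⟫`, `⟪q ξ, p x ξ⟫ = ⟪(2 - R) x⋆ R a' ξ, b' ξ⟫`,
`⟪q x⋆ ξ, p ξ⟫ = ⟪R x⋆ (2 - R) a' ξ, b' ξ⟫`; conclude by density of `B ξ`. -/
theorem RvD.key (D : RvD A B ξ) (hB : A.commutant = B) (hc : Cyc B ξ) {x y : Op H} (hx : x ∈ A)
    (hy : y ∈ B) {μ : ℝ} (hμ : 0 < μ) (h : ∀ a ∈ A, ⟪a ξ, y ξ⟫_ℂ =
      (μ : ℂ) * ⟪a ξ, x ξ⟫_ℂ + (μ : ℂ)⁻¹ * ⟪star x ξ, star a ξ⟫_ℂ) :
    D.T * jc D.J y * D.T = (μ : ℂ) • ((2 - D.R) * star x * D.R) +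
      (μ : ℂ)⁻¹ • (D.R * star x * (2 - D.R)) := by
  have hR := D.sa
  have hR2 : IsSelfAdjoint (2 - D.R) := (IsSelfAdjoint.ofNat 2).sub hR
  refine hc.ext fun a' ha' => hc.ext_inner fun b' hb' => ?_
  obtain ⟨p, hp, hp1, hp2⟩ := D.exists_p hB ha'
  obtain ⟨q, hq, hq1, hq2⟩ := D.exists_p hB hb'
  have h0 := h (star p * q) (mul_mem (star_mem hp) hq)
  have hpy : p (y ξ) = y (p ξ) :=
    congrArg (fun T : Op H => T ξ) (mem_comm.1 (hB ▸ hy : y ∈ A.commutant) p hp).eq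
  have e1 : ⟪(star p * q) ξ, y ξ⟫_ℂ = ⟪(D.T * jc D.J y * D.T) (a' ξ), b' ξ⟫_ℂ := by
    rw [mul_apply_eq_comp, tomA_inner_star, hpy, hq1, hp1, inner_J_left D.JJ,
      ← tomA_inner_sa D.T_sa]
    rfl
  have e2 : ⟪(star p * q) ξ, x ξ⟫_ℂ = ⟪((2 - D.R) * star x * D.R) (a' ξ), b' ξ⟫_ℂ := by
    have h1 := D.TJ (mul_mem hp hx)
    rw [star_mul, mul_apply_eq_comp, mul_apply_eq_comp, hp2] at h1
    rw [mul_apply_eq_comp, tomA_inner_star, hq1, inner_J_left D.JJ,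
      ← tomA_inner_sa D.T_sa, h1]
    rfl
  have e3 : ⟪star x ξ, star (star p * q) ξ⟫_ℂ = ⟪(D.R * star x * (2 - D.R)) (a' ξ), b' ξ⟫_ℂ := by
    have h1 := D.TJ (mul_mem hq (star_mem hx))
    rw [star_mul, star_star, mul_apply_eq_comp, mul_apply_eq_comp,
      hq2] at h1
    rw [star_mul, star_star, mul_apply_eq_comp, tomA_inner_star', hp1,
      tomA_inner_J D.JJ, tomA_inner_sa D.T_sa, h1, ← tomA_inner_sa hR2, ← tomA_inner_star,
      ← tomA_inner_sa hR]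
    rfl
  rw [e1, e2, e3] at h0
  rw [← inner_conj_symm, h0, ← inner_conj_symm (b' ξ), add_apply, smul_apply, smul_apply,
    inner_add_left, inner_smul_left, inner_smul_left, map_inv₀, Complex.conj_ofReal]

theorem tomA_sa_ind {P : Op H → Prop} (h₁ : ∀ x ∈ A, IsSelfAdjoint x → P x)
    (h₂ : ∀ x y, P x → P y → P (x + Complex.I • y)) {x : Op H} (hx : x ∈ A) : P x := by
  rw [← realPart_add_I_smul_imaginaryPart x]
  refine h₂ _ _ (h₁ _ ?_ (realPart x).2) (h₁ _ ?_ (imaginaryPart x).2)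
  · rw [realPart_apply_coe]
    exact rsmul_mem _ (add_mem hx (star_mem hx))
  · rw [imaginaryPart_apply_coe]
    exact smul_mem' _ (rsmul_mem _ (sub_mem hx (star_mem hx)))

theorem RvD.real' (D : RvD A B ξ) {x y : Op H} (hx : x ∈ A) (hy : y ∈ A) :
    ⟪D.J (x ξ), y ξ⟫_ℂ = ⟪star y ξ, D.J (star x ξ)⟫_ℂ := by
  refine tomA_sa_ind (P := fun x => ⟪D.J (x ξ), y ξ⟫_ℂ = ⟪star y ξ, D.J (star x ξ)⟫_ℂ)
    (fun x hx hxs => ?_) (fun x x' h h' => ?_) hx
  · refine tomA_sa_ind (P := fun y => ⟪D.J (x ξ), y ξ⟫_ℂ = ⟪star y ξ, D.J (star x ξ)⟫_ℂ)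
      (fun y hy hys => ?_) (fun y y' h h' => ?_) hy
    · rw [hxs.star_eq, hys.star_eq, ← inner_conj_symm (y ξ)]
      exact (Complex.conj_eq_iff_im.2 (D.real x hx y hy hxs hys)).symm
    · simp only [star_add, star_smul, add_apply, smul_apply, inner_add_left, inner_add_right,
        inner_smul_left, inner_smul_right, h, h', RCLike.star_def, Complex.conj_conj]
  · simp only [star_add, star_smul, add_apply, smul_apply, map_add, map_smulₛₗ, inner_add_left,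
      inner_add_right, inner_smul_left, inner_smul_right, h, h', RCLike.star_def,
      Complex.conj_conj]

/-- Solving the key identity. Put `ρ x = 2/(1 + e^x)`, `τ x = √(ρ (2 - ρ)) = 1/cosh(x/2)`, so
`R = ρ(D)`, `2 - R = (τ e^{x/2})(D)`, `R = (τ e^{-x/2})(D)`, `T = τ(D)`. Recipe: for continuous
compactly supported real `χ`, `χ₁ = 1` on its support, `X = fn (χ₁ · id)`; then
`fn (χ τ e^{z x}) = fn (χ τ) exp (z X)` (power series / `fn` is a continuous algebra map on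
bounded functions), so `f z = e^{s z} ⟪fn (χ τ e^{z̄ x}) w, Y fn (χ τ e^{-z x}) v⟫` is entire and
bounded on the strip; `strip` gives the identity tested on `fn (χ τ) v`, `fn (χ τ) w`; these
vectors are dense (`tight`, `fn_denseRange`). -/
theorem solve_key (F : FC H) {R T Y Z : Op H}
    (hR : F.fn (fun x => ((2 / (1 + Real.exp x) : ℝ) : ℂ)) = R)
    (hT : F.fn (fun x => (((Real.cosh (x / 2))⁻¹ : ℝ) : ℂ)) = T) (s : ℝ)
    (h : T * Z * T = (Real.exp (s / 2) : ℂ) • ((2 - R) * Y * R) +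
      (Real.exp (s / 2) : ℂ)⁻¹ • (R * Y * (2 - R))) (v w : H) :
    ⟪w, Y v⟫_ℂ = ∫ t : ℝ, (k0 t : ℂ) * Complex.exp (Complex.I * t * s) *
      ⟪w, (F.V t * Z * F.V (-t)) v⟫_ℂ :=
  tmx_solve F hR hT s h v w

/-- `J A J ⊆ A'` from `J A' J ⊆ A`. Recipe: for self-adjoint `x, y ∈ A`, `RvD.real` gives
`⟪ξ, y J x J ξ⟫ = ⟪x J y J ξ, ξ⟫`; both sides are conjugate linear in `x` and linear in `y`, so it
holds for all `x, y ∈ A`. Replace `y` by `y · J y' J` (`y' ∈ B`): `⟪ξ, [y, J x J] J y' ξ⟫ = 0`, and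
`J B ξ` is dense; hence `(J x J)⋆ y⋆ ξ = y⋆ (J x J)⋆ ξ`; apply to products. -/
theorem RvD.jc_mem (D : RvD A B ξ) (hB : A.commutant = B) (hA : Cyc A ξ) (hc : Cyc B ξ)
    (h : ∀ y ∈ B, jc D.J y ∈ A) {x : Op H} (hx : x ∈ A) : jc D.J x ∈ B := by
  have k1 : ∀ y ∈ A, y (jc D.J x ξ) = jc D.J x (y ξ) := by
    intro y hy
    refine D.J.injective (hc.ext_inner fun y' hy' => ?_)
    have hxy : star x * y' = y' * star x :=
      (mem_comm.1 (hB ▸ hy' : y' ∈ A.commutant) _ (star_mem hx)).eq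
    have h1 := D.real' hx (mul_mem (star_mem hy) (h y' hy'))
    rw [star_mul, star_star, mul_apply_eq_comp, mul_apply_eq_comp,
      tomA_inner_star', tomA_inner_star, jc_apply, jc_apply, D.Jξ, D.JJ,
      tomA_inner_J D.JJ, tomA_inner_J D.JJ (y ξ), ← mul_apply_eq_comp y', ← hxy,
      mul_apply_eq_comp, tomA_inner_star] at h1
    rw [jc_apply, jc_apply, D.Jξ, D.JJ, h1]
  subst hB
  refine mem_comm.2 fun y hy => hA.ext fun z hz => ?_
  have h1 := k1 (y * z) (mul_mem hy hz)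
  rw [mul_apply_eq_comp, mul_apply_eq_comp, k1 z hz] at h1
  exact h1

/-- Tomita's theorem. Recipe: `exists_rvd`, `exists_fc`. For `y, z ∈ B` and all `s`, `linRN`
(`μ = e^{s/2}`), `key`, `solve_key` (`Y = x⋆`, `Z = J y J`) and `[x⋆, z] = 0` give that the Fourier
transform of `t ↦ k0 t ⟪w, [V_t Z V_{-t}, z] v⟫` vanishes, so `V_t (J y J) V_{-t} ∈ B' = A`
(`fourier_unique`). `srel`: multiply `RvD.srel` by `fn (g √((1 + e^x)/2))`
(bounded because `g` and `e^{x/2} g` are). -/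
theorem exists_tom (hB : A.commutant = B) (hA : Cyc A ξ) (hc : Cyc B ξ) : Nonempty (Tom A B ξ) := by
  obtain ⟨D⟩ := exists_rvd hB hA hc
  obtain ⟨F, hF, hFc, hFξ, hFJ⟩ := exists_fc D.nonneg D.le_two D.inj D.inj'
  have hR : F.fn (fun x => ((2 / (1 + Real.exp x) : ℝ) : ℂ)) = D.R := by
    have := hF id continuous_id
    rwa [cfc_id ℝ D.R (IsSelfAdjoint.of_nonneg D.nonneg)] at this
  have hT : F.fn (fun x => (((Real.cosh (x / 2))⁻¹ : ℝ) : ℂ)) = D.T := by
    have := hF (fun r => √(r * (2 - r))) (by fun_prop)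
    simp only [tmx_sqrt] at this
    exact this
  have main : ∀ y ∈ B, ∀ t, F.V t * jc D.J y * F.V (-t) ∈ A := by
    intro y hy t
    refine bas_mem fun z hz => ?_
    ext v
    refine ext_inner_left ℂ fun w => ?_
    have hW := F.sc_conj (jc D.J y)
    obtain ⟨C, hC⟩ := hW.2
    have hcont : ∀ v w : H, Continuous fun t => ⟪w, (F.V t * jc D.J y * F.V (-t)) v⟫_ℂ :=
      fun v w => continuous_const.inner (hW.1 v)
    have hk : Continuous fun t => (k0 t : ℂ) := Complex.continuous_ofReal.comp continuous_k0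
    have hint : ∀ {k : ℝ → ℂ}, Integrable k → ∀ v w : H,
        Integrable fun t => k t * ⟪w, (F.V t * jc D.J y * F.V (-t)) v⟫_ℂ := fun {k} hk v w => by
      have := (hW.integrable hk v).const_inner (𝕜 := ℂ) w
      simpa only [inner_smul_right] using this
    have h0 := fourier_unique
      (g := fun t => (k0 t : ℂ) * ⟪star z w, (F.V t * jc D.J y * F.V (-t)) v⟫_ℂ -
        (k0 t : ℂ) * ⟪w, (F.V t * jc D.J y * F.V (-t)) (z v)⟫_ℂ)
      ((hk.mul (hcont _ _)).sub (hk.mul (hcont _ _)))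
      ((hint (integrable_k0.ofReal (𝕜 := ℂ)) _ _).sub (hint (integrable_k0.ofReal (𝕜 := ℂ)) _ _))
      (fun s => ?_) t
    · rw [← mul_sub, mul_eq_zero, sub_eq_zero, bas_star_inner] at h0
      exact h0.resolve_left (Complex.ofReal_ne_zero.2 (k0_pos t).ne')
    · obtain ⟨x, hx, -, hxy⟩ := linRN ξ (hB ▸ hy : y ∈ A.commutant) (Real.exp_pos (s / 2))
      have hkey := D.key hB hc hx hy (Real.exp_pos (s / 2)) hxy
      have h1 := solve_key F hR hT s hkey v (star z w)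
      have h2 := solve_key F hR hT s hkey (z v) w
      have h3 : Commute (star x) z := mem_comm.1 hz _ (star_mem hx)
      have h4 : ⟪star z w, star x v⟫_ℂ = ⟪w, star x (z v)⟫_ℂ := by
        rw [bas_star_inner]
        congr 1
        exact (congrArg (fun X : Op H => X v) h3.eq).symm
      rw [h1, h2, ← sub_eq_zero, ← integral_sub (hint (tmx_int s) _ _) (hint (tmx_int s) _ _)] at h4
      rw [← h4]
      refine integral_congr_ae (Eventually.of_forall fun t => ?_)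
      simp only
      ring
  have jcB : ∀ y ∈ B, jc D.J y ∈ A := fun y hy => by
    have := main y hy 0
    rwa [neg_zero, F.V_zero, one_mul, mul_one] at this
  have jcA : ∀ x ∈ A, jc D.J x ∈ B := fun x hx => D.jc_mem hB hA hc jcB hx
  refine ⟨{ toFC := F, comm := hB, cycA := hA, cycB := hc, J := D.J, JJ := D.JJ, Jξ := D.Jξ,
            J_fn := fun hg v => hFJ D.J D.JR _ hg v, fn_ξ := fun hg => hFξ ξ D.Rξ _ hg,
            srel := ?_, jcA := jcA, jcB := jcB, V_mem := ?_,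
            cen_fn := fun z hz _ hg => hFc z (D.cenR z hz) _ hg, cen_J := D.cenJ }⟩
  · intro x hx g hg hg'
    have h1 := hF (fun r => √(2 - r)) (by fun_prop)
    have h2 := hF (fun r => √r) (by fun_prop)
    have h3 := D.srel x hx
    rw [← h1, ← h2] at h3
    have h4 := congrArg (F.fn fun s => g s * (√((1 + Real.exp s) / 2) : ℝ)) h3
    have h5 := F.fn_mul (tmx_bc_m hg hg') tmx_bc_s1
    have h6 := F.fn_mul (tmx_bc_m hg hg') tmx_bc_s2
    simp only [mul_assoc, ← Complex.ofReal_mul, tmx_m1, tmx_m2, Complex.ofReal_one, mul_one] at h5 h6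
    simp only [mul_comm _ (g _)]
    rw [h5, h6]
    exact h4
  · intro t x hx
    have := main _ (jcA x hx) t
    rwa [jc_jc D.JJ] at this

end

end Crest.Agent.R78
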