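import Crest.Agent.R78.Cpl
import Crest.Agent.R78.TomMk
import Crest.Agent.R78.Ind

/-!
# Row 78: reduction of a twist system by a central projection
-/

open scoped InnerProductSpace Topology ComplexConjugate
open Filter MeasureTheory

set_option linter.unusedSectionVars false

namespace Crest.Agent.R78

open Crest.Agent.R121 (Alg)

noncomputable section

universe u

variable {H : Type*} [NormedAddCommGroup H] [InnerProductSpace ℂ H] [CompleteSpace H]

open R124 (CornerData cmp xpd)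

variable {L : Type*} [NormedAddCommGroup L] [InnerProductSpace ℂ L] [CompleteSpace L]
  {z : Op H} {s : L →L[ℂ] H} {t : H →L[ℂ] L} {A B : VN H} {ξ : H} {γ : ℝ}

theorem red_app {x y : Op H} (h : Commute x y) (v : H) : x (y v) = y (x v) :=
  congrArg (fun T : Op H => T v) h.eq

/-- `xpd (cmp a * T * cmp b) = a * xpd T * b` for `a`, `b` commuting with `z`. -/
theorem red_xpd_conj (C : CornerData z s t) {a b : Op H} (ha : Commute z a) (hb : Commute z b)
    (T : Op L) : xpd s t (cmp s t a * T * cmp s t b) = a * xpd s t T * b := by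
  ext1 v
  simp only [mul_apply_eq_comp, R124.xpd_apply, R124.cmp_apply, C.st]
  rw [red_app ha, C.qs, ← red_app hb, C.tq]

theorem red_star_comm (hz : IsStarProjection z) {a : Op H} (ha : Commute z a) :
    Commute z (star a) := by
  have := ha.star_star
  rwa [hz.isSelfAdjoint.star_eq] at this

/-- The compression of a unitary commuting with `z`. -/
def redU (hz : IsStarProjection z) (C : CornerData z s t) (W : unitary (Op H))
    (hW : Commute z (W : Op H)) : unitary (Op L) :=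
  ⟨cmp s t (W : Op H), by
    constructor
    · rw [← C.cmp_star, C.cmp_mul_right _ hW.symm, bas_su, C.cmp_one]
    · rw [← C.cmp_star, C.cmp_mul_left hW.symm, bas_us, C.cmp_one]⟩

theorem red_near (C : CornerData z s t) {P : VN H} (hz : CP P z) {W : unitary (Op H)}
    (hW : Commute z (W : Op H)) {W' : unitary (Op L)} (hW' : (W' : Op L) = cmp s t (W : Op H))
    (h : Near (conjVN W P) P γ) : Near (conjVN W' (ind P s t)) (ind P s t) γ := by
  intro T hT
  rw [mem_conjVN, mem_ind_cen C hz, hW', ← C.cmp_star,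
    red_xpd_conj C (red_star_comm hz.1 hW) hW, ← mem_conjVN] at hT
  obtain ⟨y, hy, hn⟩ := h _ hT
  refine ⟨cmp s t y, cmp_mem_ind C hz.2.2 hy, ?_⟩
  rw [norm_xpd_eq C] at hn
  refine le_trans ?_ hn
  conv_lhs => rw [← cmp_xpd C T, ← map_sub]
  exact C.norm_cmp _

theorem red_norm_t (C : CornerData z s t) (v : H) : ‖t v‖ = ‖z v‖ := by
  rw [← C.st, C.norm_s]

theorem red_norm_t' (C : CornerData z s t) {v : H} (hv : z v = v) : ‖t v‖ = ‖v‖ := by
  rw [red_norm_t C, hv]

theorem red_cp_B (hB : A.commutant = B) (hz : CP A z) : CP B z := hB ▸ hz.commutant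

theorem red_col_xpd (C : CornerData z s t) {ι : Type*} [Fintype ι] {a : ι → Op L} (h : Col a 1) :
    Col (fun j => xpd s t (a j)) 1 := by
  intro v
  simp only [R124.xpd_apply, C.norm_s]
  refine (h (t v)).trans ?_
  have := pow_le_pow_left₀ (norm_nonneg _) (C.norm_t v) 2
  linarith

theorem red_col_cmp (C : CornerData z s t) {ι : Type*} [Fintype ι] {a : ι → Op H} (h : Col a 1) :
    Col (fun j => cmp s t (a j)) 1 := by
  intro v
  simp only [R124.cmp_apply]
  rw [← C.norm_s v]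
  exact le_trans (Finset.sum_le_sum fun j _ => pow_le_pow_left₀ (norm_nonneg _) (C.norm_t _) 2)
    (h (s v))

theorem red_soft_xpd (C : CornerData z s t) {ι : Type*} (S : Finset ι) {a : ι → Op L} {p : ι → ℝ}
    {K : ℝ} (hK : 0 ≤ K) (h : ∀ v : L, ∑ j ∈ S, p j * ‖star (a j) v‖ ^ 2 ≤ K * ‖v‖ ^ 2) (v : H) :
    ∑ j ∈ S, p j * ‖star (xpd s t (a j)) v‖ ^ 2 ≤ K * ‖v‖ ^ 2 := by
  simp only [← C.xpd_star, R124.xpd_apply, C.norm_s]
  exact (h (t v)).trans
    (mul_le_mul_of_nonneg_left (pow_le_pow_left₀ (norm_nonneg _) (C.norm_t v) 2) hK)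

theorem red_soft_cmp (C : CornerData z s t) {ι : Type*} (S : Finset ι) {a : ι → Op H} {p : ι → ℝ}
    {K : ℝ} (hp : ∀ j, 0 ≤ p j) (h : ∀ v : H, ∑ j ∈ S, p j * ‖star (a j) v‖ ^ 2 ≤ K * ‖v‖ ^ 2)
    (v : L) : ∑ j ∈ S, p j * ‖star (cmp s t (a j)) v‖ ^ 2 ≤ K * ‖v‖ ^ 2 := by
  simp only [← C.cmp_star, R124.cmp_apply]
  rw [← C.norm_s v]
  exact le_trans (Finset.sum_le_sum fun j _ => mul_le_mul_of_nonneg_left
    (pow_le_pow_left₀ (norm_nonneg _) (C.norm_t _) 2) (hp j)) (h (s v))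

theorem red_cp_xpd (hz : CP A z) (C : CornerData z s t) {w : Op L} (hw : CP (ind A s t) w) :
    CP A (xpd s t w) := by
  refine ⟨⟨?_, ?_⟩, (cen_ind_cen C hz).1 hw.2⟩
  · show xpd s t w * xpd s t w = xpd s t w
    rw [← xpd_mul C, hw.1.isIdempotentElem.eq]
  · show star (xpd s t w) = xpd s t w
    rw [← C.xpd_star, hw.1.isSelfAdjoint.star_eq]

/-- The reduced twist system. Recipe: Tomita data from `exists_tom` (`ind_commutant_cen`,
`Cyc.ind`); `W' = cmp s t W` is unitary because `W` commutes with `z`; `cen_ind_cen`; for the near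
inclusions use `mem_conjVN`, `mem_ind_cen`, `xpd (W'⋆ x W') = W⋆ (xpd x) W`, `cmp_mem_ind`,
`cmp_xpd`, `norm_xpd_eq`. -/
theorem Tw.exists_red (S : Tw A B ξ γ) (hz : CP A z) (C : CornerData z s t) :
    ∃ S' : Tw (ind A s t) (ind B s t) (t ξ) γ, (S'.W : Op L) = cmp s t (S.W : Op H) := by
  have hB := S.comm
  have hzB : CP B z := red_cp_B hB hz
  have hW : Commute z (S.W : Op H) := S.W_cen z hz.cen
  have hWi : Commute z ((S.W⁻¹ : unitary (Op H)) : Op H) := red_star_comm hz.1 hW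
  obtain ⟨T⟩ := exists_tom (A := ind A s t) (B := ind B s t) (ξ := t ξ)
    (by rw [ind_commutant_cen C hz, hB]) (S.cycA.ind C hz.2.2) (S.cycB.ind C hzB.2.2)
  have hinv : (((redU hz.1 C S.W hW)⁻¹ : unitary (Op L)) : Op L) =
      cmp s t ((S.W⁻¹ : unitary (Op H)) : Op H) := by
    rw [bas_inv, bas_inv, C.cmp_star]
    rfl
  refine ⟨⟨T, redU hz.1 C S.W hW, ?_, ?_, red_near C hz hW rfl S.nA, red_near C hz hWi hinv S.nA',
    red_near C hzB hW rfl S.nB, red_near C hzB hWi hinv S.nB'⟩, rfl⟩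
  · show cmp s t (S.W : Op H) (t ξ) = t ξ
    rw [R124.cmp_apply, C.st, ← red_app hW, C.tq, S.Wξ]
  · intro w hw
    have h1 := S.W_cen _ ((cen_ind_cen C hz).1 hw)
    show w * cmp s t (S.W : Op H) = cmp s t (S.W : Op H) * w
    conv_lhs => rw [← cmp_xpd C w]
    conv_rhs => rw [← cmp_xpd C w]
    rw [C.cmp_mul_right _ hW.symm, C.cmp_mul_left hW.symm, h1.eq]

/-- Expanding a coupling of the corner (`xpd` of every letter). -/
theorem exists_cpl_xpd (hB : A.commutant = B) (hz : CP A z) (C : CornerData z s t)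
    (c' : Cpl (ind A s t) (ind B s t) (t ξ)) : ∃ c : Cpl A B ξ, (∀ Λ, c'.Soft Λ → c.Soft Λ) ∧
      ∀ W : Op H, Commute z W → ∀ w : Op L, c.en W (xpd s t w) = c'.en (cmp s t W) w := by
  have hzB : CP B z := red_cp_B hB hz
  refine ⟨{ ι := c'.ι, a := fun j => xpd s t (c'.a j), a' := fun j => xpd s t (c'.a' j)
            mem := fun j => (mem_ind_cen C hz).1 (c'.mem j)
            mem' := fun j => (mem_ind_cen C hzB).1 (c'.mem' j)
            eq := fun j => by rw [R124.xpd_apply, R124.xpd_apply, c'.eq j]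
            col := red_col_xpd C c'.col, col' := red_col_xpd C c'.col' }, ?_, ?_⟩
  · rintro Λ ⟨u, h1, h2⟩
    exact ⟨u, red_soft_xpd C _ (Real.exp_pos _).le h1, red_soft_xpd C _ (Real.exp_pos _).le h2⟩
  · intro W hW w
    refine Finset.sum_congr rfl fun j _ => ?_
    congr 1
    simp only [R124.xpd_apply, C.ts, sub_apply, one_apply_eq_self, R124.cmp_apply]
    rw [← C.norm_s (t _ - _), map_sub, C.st, red_app hW, C.qs]

/-- Compressing a coupling to the corner (`cmp` of every letter). -/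
theorem exists_cpl_cmp (hB : A.commutant = B) (hz : CP A z) (C : CornerData z s t)
    (c : Cpl A B ξ) : ∃ c' : Cpl (ind A s t) (ind B s t) (t ξ), (∀ Λ, c.Soft Λ → c'.Soft Λ) ∧
      ∀ W : Op H, Commute z W → c'.en (cmp s t W) 1 = c.en W z := by
  have hzB : CP B z := red_cp_B hB hz
  have hc : ∀ j, Commute z (c.a j) := fun j => (mem_comm.1 hz.2.2 _ (c.mem j)).symm
  have hc' : ∀ j, Commute z (c.a' j) := fun j => (mem_comm.1 hzB.2.2 _ (c.mem' j)).symm
  refine ⟨{ ι := c.ι, a := fun j => cmp s t (c.a j), a' := fun j => cmp s t (c.a' j)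
            mem := fun j => cmp_mem_ind C hz.2.2 (c.mem j)
            mem' := fun j => cmp_mem_ind C hzB.2.2 (c.mem' j)
            eq := fun j => by
              rw [R124.cmp_apply, R124.cmp_apply, C.st, ← red_app (hc j), ← red_app (hc' j), c.eq j]
            col := red_col_cmp C c.col, col' := red_col_cmp C c.col' }, ?_, ?_⟩
  · rintro Λ ⟨u, h1, h2⟩
    exact ⟨u, red_soft_cmp C _ (fun _ => (Real.exp_pos _).le) h1,
      red_soft_cmp C _ (fun _ => (Real.exp_pos _).le) h2⟩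
  · intro W hW
    refine Finset.sum_congr rfl fun j _ => ?_
    congr 1
    have hzz : z (z ξ) = z ξ := congrArg (fun T : Op H => T ξ) hz.1.isIdempotentElem.eq
    have h1 : z (c.a j (z ξ)) = c.a j (z ξ) := by rw [red_app (hc j), hzz]
    simp only [sub_apply, one_apply_eq_self, R124.cmp_apply, C.st]
    rw [← C.norm_s (t _ - _), map_sub, C.st, C.st, red_app hW, h1, h1]

/-- `xpd` of a central projection of the corner is a central projection. -/
theorem Tw.Loc.red {S : Tw A B ξ γ} (hz : CP A z) (C : CornerData z s t)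
    {S' : Tw (ind A s t) (ind B s t) (t ξ) γ} (hW : (S'.W : Op L) = cmp s t (S.W : Op H))
    {Λ ε : ℝ} (h : S.Loc Λ ε) : S'.Loc Λ ε := by
  intro w hw c' hc'
  obtain ⟨c, h1, h2⟩ := exists_cpl_xpd S.comm hz C c'
  have h3 := h _ (red_cp_xpd hz C hw) c (h1 Λ hc')
  rw [h2 _ (S.W_cen z hz.cen), R124.xpd_apply, C.norm_s] at h3
  rw [hW]
  exact h3

/-- `‖t ξ‖ = ‖z ξ‖`. -/
theorem Tw.Glob.of_red {S : Tw A B ξ γ} (hz : CP A z) (C : CornerData z s t)
    {S' : Tw (ind A s t) (ind B s t) (t ξ) γ} (hW : (S'.W : Op L) = cmp s t (S.W : Op H))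
    {Λ ε : ℝ} (h : S'.Glob Λ ε) (c : Cpl A B ξ) (hc : c.Soft Λ) :
    c.en S.W z ≤ ε * ‖z ξ‖ ^ 2 := by
  obtain ⟨c', h1, h2⟩ := exists_cpl_cmp S.comm hz C c
  have h3 := h c' (h1 Λ hc)
  rwa [hW, h2 _ (S.W_cen z hz.cen), red_norm_t C] at h3

end

end Crest.Agent.R78
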