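import Crest.Agent.R78.Mix2
import Crest.Agent.R78.Deph

/-!
# Row 78: mixing inside a soft class of universal width
-/

open scoped InnerProductSpace Topology ComplexConjugate
open Filter MeasureTheory

set_option linter.unusedSectionVars false

namespace Crest.Agent.R78

open Crest.Agent.R121 (Alg)

noncomputable section

universe u

variable {H : Type*} [NormedAddCommGroup H] [InnerProductSpace ℂ H] [CompleteSpace H]

variable {A B : VN H} {ξ : H}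

theorem sand_sc_mul {F G : ℝ → Op H} (hF : SC F) (hG : SC G) : SC fun t => F t * G t := by
  obtain ⟨hF, C, hC⟩ := hF
  obtain ⟨hG, D, hD⟩ := hG
  refine ⟨fun v => continuous_iff_continuousAt.2 fun s => ?_, C * D, fun t => ?_⟩
  · have h2 := ((tendsto_iff_norm_sub_tendsto_zero.1 ((hG v).tendsto s)).const_mul C).add
      (tendsto_iff_norm_sub_tendsto_zero.1 ((hF (G s v)).tendsto s))
    rw [mul_zero, add_zero] at h2
    refine tendsto_iff_norm_sub_tendsto_zero.2 (squeeze_zero (fun _ => norm_nonneg _)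
      (fun t => ?_) h2)
    refine (norm_sub_le_norm_sub_add_norm_sub _ (F t (G s v)) _).trans (add_le_add ?_ le_rfl)
    rw [mul_apply_eq_comp, ← map_sub]
    exact (F t).le_of_opNorm_le (hC t) _
  · exact (norm_mul_le _ _).trans
      (mul_le_mul (hC t) (hD t) (norm_nonneg _) ((norm_nonneg _).trans (hC t)))

/-- The conjugated completely positive map. -/
def sandG (F : FC H) (c : Cpl A B ξ) (y : Op H) (t : ℝ) : Op H :=
  ∑ j, star (F.V t * c.a j * F.V (-t)) * y * (F.V t * c.a j * F.V (-t))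

theorem sand_star (F : FC H) (a : Op H) (t : ℝ) :
    star (F.V t * a * F.V (-t)) = F.V t * star a * F.V (-t) := by
  rw [star_mul, star_mul, F.star_V, F.star_V, neg_neg, mul_assoc]

theorem sand_norm_G (F : FC H) (c : Cpl A B ξ) (y : Op H) (t : ℝ) : ‖sandG F c y t‖ ≤ ‖y‖ := by
  simpa [sandG] using (F.col_conj c.col t).norm_sandwich_le (F.col_conj c.col t) zero_le_one
    zero_le_one (x := fun _ => y) (norm_nonneg y) fun _ => le_rfl

theorem sand_sc (F : FC H) (c : Cpl A B ξ) (y : Op H) : SC (sandG F c y) := by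
  refine ⟨fun v => ?_, ‖y‖, sand_norm_G F c y⟩
  simp only [sandG, sum_apply, sand_star]
  exact continuous_finsetSum _ fun j _ => (sand_sc_mul (sand_sc_mul (F.sc_conj (star (c.a j)))
    (G := fun _ => y) ⟨fun _ => continuous_const, ‖y‖, fun _ => le_rfl⟩) (F.sc_conj (c.a j))).1 v

theorem sand_form {ι : Type*} [Fintype ι] (a : ι → Op H) (r : Op H) (v : H) :
    ⟪v, (∑ j, star (a j) * (star r * r) * a j) v⟫_ℂ = ((∑ j, ‖r (a j v)‖ ^ 2 : ℝ) : ℂ) := by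
  simp only [sum_apply, inner_sum, mul_apply_eq_comp, bas_inner_star, inner_self_eq_norm_sq_to_K]
  push_cast
  rfl

/-- The normalised weight. -/
def sandK (k : ℝ → ℂ) (t : ℝ) : ℂ := ((2 * Real.pi * ‖k t‖ ^ 2 : ℝ) : ℂ)

theorem sand_normK (k : ℝ → ℂ) (t : ℝ) : ‖sandK k t‖ = 2 * Real.pi * ‖k t‖ ^ 2 := by
  rw [sandK, Complex.norm_real, Real.norm_of_nonneg (by positivity)]

theorem sand_intK {k : ℝ → ℂ} (hk2 : Integrable fun t => ‖k t‖ ^ 2) : Integrable (sandK k) :=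
  (hk2.const_mul (2 * Real.pi)).ofReal

theorem sand_inner (F : FC H) (c : Cpl A B ξ) {k : ℝ → ℂ} (hk2 : Integrable fun t => ‖k t‖ ^ 2)
    (r : Op H) (v : H) : ⟪v, oint (sandK k) (sandG F c (star r * r)) v⟫_ℂ =
      ((2 * Real.pi * ∫ t, ‖k t‖ ^ 2 * ∑ j, ‖r ((F.V t * c.a j * F.V (-t)) v)‖ ^ 2 : ℝ) : ℂ) := by
  rw [fca_inner_oint (sand_intK hk2) (sand_sc F c _), ← integral_const_mul, ← integral_complex_ofReal]
  refine integral_congr_ae (Eventually.of_forall fun t => ?_)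
  simp only [sandG, sand_form, sandK]
  push_cast
  simp only [mul_assoc]

theorem sand_norm_E (F : FC H) (c : Cpl A B ξ) {k : ℝ → ℂ} (hk2 : Integrable fun t => ‖k t‖ ^ 2)
    (hP : 2 * Real.pi * ∫ t, ‖k t‖ ^ 2 = 1) (y : Op H) (v : H) :
    (⟪v, oint (sandK k) (sandG F c y) v⟫_ℂ).re ≤ ‖y‖ * ‖v‖ ^ 2 := by
  have h1 := norm_oint_le (sand_intK hk2) (sand_sc F c y) (sand_norm_G F c y)
  simp only [sand_normK, integral_const_mul, hP, one_mul] at h1
  calc _ ≤ ‖v‖ * ‖oint (sandK k) (sandG F c y) v‖ := re_inner_le_norm (𝕜 := ℂ) _ _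
    _ ≤ ‖v‖ * (‖y‖ * ‖v‖) := by
        gcongr
        exact ContinuousLinearMap.le_of_opNorm_le _ h1 v
    _ = _ := by ring

theorem sand_add (F : FC H) (c : Cpl A B ξ) {k : ℝ → ℂ} (hk2 : Integrable fun t => ‖k t‖ ^ 2)
    (y y' : Op H) (v : H) : oint (sandK k) (sandG F c y) v + oint (sandK k) (sandG F c y') v =
      oint (sandK k) (sandG F c (y + y')) v := by
  have hk := sand_intK hk2
  rw [oint_apply hk (sand_sc F c _), oint_apply hk (sand_sc F c _), oint_apply hk (sand_sc F c _),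
    ← integral_add ((sand_sc F c y).integrable hk v) ((sand_sc F c y').integrable hk v)]
  refine integral_congr_ae (Eventually.of_forall fun t => ?_)
  simp only [sandG, mul_add, add_mul, Finset.sum_add_distrib, add_apply, smul_add]

/-- `‖Y ξ‖² ≤ C re ⟪ξ, Y ξ⟫` for `0 ≤ Y ≤ C`. -/
theorem sand_pos {Y : Op H} {C : ℝ} (hC : 0 < C) (h : ∀ v, ∃ s : ℝ, ⟪v, Y v⟫_ℂ = s ∧ 0 ≤ s ∧
    s ≤ C * ‖v‖ ^ 2) (v : H) : ‖Y v‖ ^ 2 ≤ C * (⟪v, Y v⟫_ℂ).re := by
  have hs : ∀ u w, ⟪Y u, w⟫_ℂ = ⟪u, Y w⟫_ℂ := by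
    refine (LinearMap.isSymmetric_iff_inner_map_self_real (Y : H →ₗ[ℂ] H)).2 fun u => ?_
    obtain ⟨s, h1, -⟩ := h u
    have h2 : ⟪Y u, u⟫_ℂ = s := by rw [← inner_conj_symm, h1, Complex.conj_ofReal]
    change conj ⟪Y u, u⟫_ℂ = ⟪Y u, u⟫_ℂ
    rw [h2, Complex.conj_ofReal]
  obtain ⟨s, h1, h2, -⟩ := h (v - ((C⁻¹ : ℝ) : ℂ) • Y v)
  obtain ⟨s', h3, -, h4⟩ := h (Y v)
  have h5 : ⟪Y v, Y v⟫_ℂ = ((‖Y v‖ ^ 2 : ℝ) : ℂ) := by
    rw [inner_self_eq_norm_sq_to_K]; push_cast; rfl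
  rw [map_sub, map_smul, inner_sub_left, inner_sub_right, inner_sub_right, inner_smul_left,
    inner_smul_left, inner_smul_right, inner_smul_right, ← hs v (Y v), h3, h5,
    Complex.conj_ofReal] at h1
  have h6 := congrArg Complex.re h1
  simp only [Complex.sub_re, Complex.ofReal_re, ← Complex.ofReal_mul] at h6
  have h7 : C⁻¹ * (C⁻¹ * s') ≤ C⁻¹ * ‖Y v‖ ^ 2 := by
    refine mul_le_mul_of_nonneg_left ?_ (by positivity)
    rwa [inv_mul_le_iff₀ hC]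
  rw [← inv_mul_le_iff₀ hC]
  linarith

theorem sand_sq {a q τ x v : ℝ} (ha : 0 ≤ a) (hq : 0 ≤ q) (hτ : 0 ≤ τ) (hτ1 : τ ≤ 1)
    (hx1 : x ≤ 1) (hv : 0 ≤ v) (hqv : q ≤ v ^ 2) (h : √a ≤ √q + τ * x * v) :
    a ≤ q + 3 * τ * v ^ 2 := by
  have h1 : √q ≤ v := Real.sqrt_le_iff.2 ⟨hv, hqv⟩
  have h2 : τ * x * v ≤ τ * v := by
    rw [mul_assoc]
    exact mul_le_mul_of_nonneg_left (mul_le_of_le_one_left hv hx1) hτ
  have h3 : √a ^ 2 ≤ (√q + τ * v) ^ 2 :=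
    pow_le_pow_left₀ (Real.sqrt_nonneg _) (h.trans (by linarith)) 2
  rw [Real.sq_sqrt ha, add_sq, Real.sq_sqrt hq] at h3
  have h4 : 2 * √q * (τ * v) ≤ 2 * v * (τ * v) := by gcongr
  have h5 : τ * τ * v ^ 2 ≤ τ * v ^ 2 := by
    gcongr
    exact mul_le_of_le_one_right hτ hτ1
  nlinarith

/-- One positive contraction, for a given dephased family. Recipe (sandwich): let
`κ = 2π ‖k‖²` (`∫ κ = 1`), `E y = oint κ (t ↦ V_t (c.cp (V_{-t} y V_t)) V_{-t})`, so that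
`re ⟪v, E (x⋆x) v⟫ = 2π ∫ ‖k‖² ∑ ‖x V_t a_j V_{-t} v‖²`, `0 ≤ E y ≤ ‖y‖` for `y ≥ 0`, `E` additive.
The hypothesis (with `x = √y` and `x = √(1 - y)`) gives `d.cp y ≤ E y + 3τ` and
`d.cp (1 - y) ≤ E (1 - y) + 3τ ≤ 1 - E y + 3τ`; so `Y = E y + 3τ - d.cp y ≥ 0` has
`re ⟪ξ, Y ξ⟫ ≤ (6τ + τ') ‖ξ‖²` and `‖Y ξ‖² ≤ ‖Y‖ re ⟪ξ, Y ξ⟫`. Finally
`E y ξ - eZ (y ξ) = ∫ κ V_t (c.tr (V_{-t} y ξ) - eZ (V_{-t} y ξ))`. -/
theorem Tom.sandwich (T : Tom A B ξ) (c d : Cpl A B ξ) {k : ℝ → ℂ} (hc : Continuous k)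
    (hk2 : Integrable fun t => ‖k t‖ ^ 2) (hP : 2 * Real.pi * ∫ t, ‖k t‖ ^ 2 = 1) {τ τ' : ℝ}
    (hτ : 0 ≤ τ) (hτ1 : τ ≤ 1) (hτ' : 0 ≤ τ') (hd : d.Dfc τ')
    (h : ∀ (x : Op H) (v : H), √(∑ i, ‖x (d.a i v)‖ ^ 2) ≤
      √(2 * Real.pi * ∫ t, ‖k t‖ ^ 2 * ∑ j, ‖x ((T.V t * c.a j * T.V (-t)) v)‖ ^ 2) +
        τ * ‖x‖ * ‖v‖) {y : Op H} (hy : y ∈ A) (h0 : 0 ≤ y) (h1 : y ≤ 1) :
    ‖d.cp y ξ - eZ A ξ (y ξ)‖ ≤ (3 * τ + 2 * √(6 * τ + τ')) * ‖ξ‖ +
      2 * Real.pi * ∫ t, ‖k t‖ ^ 2 * ‖c.tr (T.V (-t) (y ξ)) - eZ A ξ (T.V (-t) (y ξ))‖ := by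
  have hk := sand_intK hk2
  set E : Op H → Op H := fun y => oint (sandK k) (sandG T.toFC c y) with hE
  have key : ∀ {y : Op H}, y ∈ A → 0 ≤ y → y ≤ 1 → ∀ v, ∃ a q : ℝ, ⟪v, d.cp y v⟫_ℂ = a ∧
      ⟪v, E y v⟫_ℂ = q ∧ 0 ≤ a ∧ q ≤ ‖v‖ ^ 2 ∧ a ≤ q + 3 * τ * ‖v‖ ^ 2 := by
    intro y hy h0 h1 v
    obtain ⟨r, -, hr0, hr, -⟩ := exists_sqrt hy h0
    have hr' : star r * r = y := by rw [(IsSelfAdjoint.of_nonneg hr0).star_eq, hr]
    have hn : ‖y‖ ≤ 1 := (CStarAlgebra.norm_le_one_iff_of_nonneg y h0).2 h1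
    have hn' : ‖r‖ ≤ 1 := by
      rw [← hr', CStarRing.norm_star_mul_self] at hn
      nlinarith [norm_nonneg r]
    have e1 := sand_inner T.toFC c hk2 r v
    have e2 := sand_norm_E T.toFC c hk2 hP (star r * r) v
    rw [e1, Complex.ofReal_re, hr'] at e2
    rw [hr'] at e1
    have e3 := e2.trans (mul_le_of_le_one_left (sq_nonneg _) hn)
    refine ⟨_, _, by rw [← hr']; exact sand_form d.a r v, e1, by positivity, e3, ?_⟩
    refine sand_sq (by positivity) ?_ hτ hτ1 hn' (norm_nonneg v) e3 (h r v)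
    exact mul_nonneg (by positivity) (integral_nonneg fun t => by positivity)
  set Y : Op H := E y + ((3 * τ : ℝ) : ℂ) • 1 - d.cp y with hY
  have hYi : ∀ v, ⟪v, Y v⟫_ℂ = ⟪v, E y v⟫_ℂ + ((3 * τ * ‖v‖ ^ 2 : ℝ) : ℂ) - ⟪v, d.cp y v⟫_ℂ := by
    intro v
    rw [hY, sub_apply, add_apply, smul_apply, one_apply_eq_self, inner_sub_right, inner_add_right,
      inner_smul_right, inner_self_eq_norm_sq_to_K]
    push_cast
    rfl
  have h2 := sand_pos (Y := Y) (C := 4) (by norm_num) (fun v => by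
    obtain ⟨a, q, ha, hq, ha0, hq1, haq⟩ := key hy h0 h1 v
    refine ⟨q + 3 * τ * ‖v‖ ^ 2 - a, by rw [hYi, ha, hq]; push_cast; rfl, by linarith, ?_⟩
    nlinarith [sq_nonneg ‖v‖]) ξ
  have h3 : (⟪ξ, Y ξ⟫_ℂ).re ≤ (6 * τ + τ') * ‖ξ‖ ^ 2 := by
    obtain ⟨a, q, ha, hq, -, -, -⟩ := key hy h0 h1 ξ
    obtain ⟨a', q', ha', hq', -, -, haq'⟩ := key (sub_mem (one_mem _) hy) (sub_nonneg.2 h1)
      (sub_le_self _ h0) ξ
    have e1 : q + q' ≤ ‖ξ‖ ^ 2 := by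
      have e2 := sand_norm_E T.toFC c hk2 hP (y + (1 - y)) ξ
      rw [← sand_add T.toFC c hk2, inner_add_right, add_sub_cancel] at e2
      change (⟪ξ, E y ξ⟫_ℂ + ⟪ξ, E (1 - y) ξ⟫_ℂ).re ≤ _ at e2
      rw [hq, hq', ← Complex.ofReal_add, Complex.ofReal_re] at e2
      exact e2.trans (mul_le_of_le_one_left (sq_nonneg _) pj_norm_one)
    have e3 : d.mass = a + a' := by
      have e4 : d.mass = (⟪ξ, d.cp 1 ξ⟫_ℂ).re := by
        simpa only [Cpl.cp, mul_one, Cpl.mass] using bas_sum_sq d.a ξ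
      have e5 : d.cp 1 = d.cp y + d.cp (1 - y) := by
        simp only [Cpl.cp, mul_sub, sub_mul, Finset.sum_sub_distrib, add_sub_cancel]
      rw [e4, e5, add_apply, inner_add_right, ha, ha', ← Complex.ofReal_add, Complex.ofReal_re]
    rw [hYi, ha, hq, ← Complex.ofReal_add, ← Complex.ofReal_sub, Complex.ofReal_re]
    unfold Cpl.Dfc at hd
    linarith
  have h4 : ‖Y ξ‖ ≤ 2 * √(6 * τ + τ') * ‖ξ‖ := by
    refine (pow_le_pow_iff_left₀ (norm_nonneg _) (by positivity) two_ne_zero).1 ?_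
    rw [mul_pow, mul_pow, Real.sq_sqrt (by positivity)]
    linarith
  have h5 : ‖d.cp y ξ - E y ξ‖ ≤ (3 * τ + 2 * √(6 * τ + τ')) * ‖ξ‖ := by
    have e : d.cp y ξ - E y ξ = ((3 * τ : ℝ) : ℂ) • ξ - Y ξ := by
      rw [hY, sub_apply, add_apply, smul_apply, one_apply_eq_self]
      abel
    rw [e, add_mul]
    refine (norm_sub_le _ _).trans (add_le_add (le_of_eq ?_) h4)
    rw [norm_smul, Complex.norm_real, Real.norm_of_nonneg (by positivity)]
  refine (norm_sub_le_norm_sub_add_norm_sub _ (E y ξ) _).trans (add_le_add h5 ?_)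
  have e1 : eZ A ξ (y ξ) = ∫ t, sandK k t • eZ A ξ (y ξ) := by
    rw [integral_smul_const]
    have : ∫ t, sandK k t = 1 := by
      simp only [sandK]
      rw [integral_complex_ofReal, integral_const_mul, hP]
      rfl
    rw [this, one_smul]
  have e2 : ∀ t, sandG T.toFC c y t ξ - eZ A ξ (y ξ) =
      T.V t (c.tr (T.V (-t) (y ξ)) - eZ A ξ (T.V (-t) (y ξ))) := by
    intro t
    have hm := T.V_mem (-t) y hy
    have e3 := c.cp_apply T.comm hm
    rw [neg_neg] at e3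
    simp only [mul_apply_eq_comp, T.V_ξ] at e3
    rw [map_sub, T.eZ_V, T.V_of_mem_zsp t (eZ_mem A ξ _), ← e3]
    simp only [sandG, Cpl.cp, sand_star, sum_apply, map_sum, mul_apply_eq_comp, T.V_ξ]
  rw [e1, hE]
  simp only
  rw [oint_apply hk (sand_sc _ c y), ← integral_sub ((sand_sc _ c y).integrable hk ξ)
    (hk.smul_const _), ← integral_const_mul]
  refine (norm_integral_le_integral_norm _).trans (le_of_eq ?_)
  refine integral_congr_ae (Eventually.of_forall fun t => ?_)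
  simp only
  rw [← smul_sub, e2, norm_smul, sand_normK, T.norm_V_apply, mul_assoc (2 * Real.pi)]

theorem Tom.sand_pos_family (T : Tom A B ξ) {ι : Type*} [Fintype ι] {y : ι → Op H}
    (hy : ∀ i, y i ∈ A) (h0 : ∀ i, 0 ≤ y i) (h1 : ∀ i, y i ≤ 1) {ε τ : ℝ} (hε : 0 < ε)
    (hτ : 0 < τ) :
    ∃ c : Cpl A B ξ, c.Soft 2 ∧ c.Dfc τ ∧ ∀ i, ‖c.cp (y i) ξ - eZ A ξ (y i ξ)‖ ≤ ε := by
  obtain ⟨c₁, -, hb⟩ := exists_bump
  obtain ⟨p, hp⟩ := hb 1 one_pos
  obtain ⟨k, hk, hk2, hP⟩ := exists_ker (f := fun x => (p x : ℂ))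
    (Complex.ofRealCLM.contDiff.comp hp.smooth)
    (hp.hasCompactSupport.comp_left (g := fun x : ℝ => (x : ℂ)) Complex.ofReal_zero)
  simp only [Complex.norm_real, Real.norm_eq_abs, sq_abs, hp.sq] at hP
  obtain ⟨σ, hσ1, hσ2, hσ3, hσ⟩ : ∃ σ : ℝ, (3 * σ + 2 * √(6 * σ + 2 * σ)) * ‖ξ‖ < ε / 3 ∧
      σ < 1 ∧ σ < τ / 2 ∧ 0 < σ := by
    have hc : Continuous fun σ : ℝ => (3 * σ + 2 * √(6 * σ + 2 * σ)) * ‖ξ‖ := by fun_prop
    have e1 : ∀ᶠ σ : ℝ in 𝓝 0, (3 * σ + 2 * √(6 * σ + 2 * σ)) * ‖ξ‖ < ε / 3 :=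
      (hc.tendsto 0).eventually_lt_const (by simpa using hε)
    have e2 : ∀ᶠ σ : ℝ in 𝓝 0, σ < 1 := eventually_lt_nhds one_pos
    have e3 : ∀ᶠ σ : ℝ in 𝓝 0, σ < τ / 2 := eventually_lt_nhds (half_pos hτ)
    obtain ⟨σ, h, h'⟩ := (((e1.and (e2.and e3)).filter_mono nhdsWithin_le_nhds).and
      (self_mem_nhdsWithin (a := (0 : ℝ)) (s := Set.Ioi 0))).exists
    exact ⟨σ, h.1, h.2.1, h.2.2, h'⟩
  obtain ⟨R, hR⟩ : ∃ R : ℝ, tail (sandK k) R * (2 * ‖ξ‖) < ε / 3 := by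
    have := (tendsto_tail (sand_intK hk2)).mul_const (2 * ‖ξ‖)
    rw [zero_mul] at this
    exact (this.eventually_lt_const (by positivity)).exists
  have hK : IsCompact (⋃ i, (fun t => T.V (-t) (y i ξ)) '' Set.Icc (-R) R) :=
    isCompact_iUnion fun i => isCompact_Icc.image ((T.continuous_V _).comp continuous_neg)
  obtain ⟨S, -, hS, hcov⟩ := finite_cover_balls_of_compact hK (e := ε / 9) (by positivity)
  have := hS.fintype
  obtain ⟨c, hc1, hc2⟩ := T.mix0 (fun v : S => (v : H)) (ε := ε / 9) (τ := σ) (by positivity) hσ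
  obtain ⟨_, _, K, d, e, -, -, -, -, -, -, hd1, hd2, hd3⟩ :=
    T.deph c (fun _ => 0) one_pos hp hk hk2 hP 0 one_pos hσ
  have hd : d.Dfc (2 * σ) := by
    unfold Cpl.Dfc at *
    linarith
  refine ⟨d, ⟨_, by rw [← one_add_one_eq_two]; exact hd1⟩, hd.mono (by linarith), fun i => ?_⟩
  refine (T.sandwich c d hk.cont hk2 hP hσ.le hσ2.le (by positivity) hd hd3 (hy i) (h0 i)
    (h1 i)).trans ?_
  have hL : ∀ w, ‖c.tr w - eZ A ξ w‖ ≤ 2 * ‖w‖ := fun w => by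
    have a1 := c.tr.le_of_opNorm_le c.norm_tr_le w
    have a2 := (eZ A ξ).le_of_opNorm_le (eZ_proj A ξ).norm_le w
    linarith [norm_sub_le (c.tr w) (eZ A ξ w)]
  have hm : MeasurableSet {t : ℝ | R < |t|} := measurableSet_lt measurable_const (by fun_prop)
  have hI : ∫ t, 2 * Real.pi * (‖k t‖ ^ 2 *
      ‖c.tr (T.V (-t) (y i ξ)) - eZ A ξ (T.V (-t) (y i ξ))‖) ≤
      ∫ t, (‖sandK k t‖ * (ε / 3) +
        {t : ℝ | R < |t|}.indicator (fun t => ‖sandK k t‖) t * (2 * ‖ξ‖)) := by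
    refine integral_mono_of_nonneg (Eventually.of_forall fun t => by positivity)
      (((sand_intK hk2).norm.mul_const _).add
        (((sand_intK hk2).norm.indicator hm).mul_const _)) (Eventually.of_forall fun t => ?_)
    simp only
    rw [← mul_assoc, ← sand_normK]
    by_cases ht : R < |t|
    · rw [Set.indicator_of_mem (show t ∈ {t : ℝ | R < |t|} from ht)]
      have a1 : ‖y i ξ‖ ≤ ‖ξ‖ := by
        simpa using (y i).le_of_opNorm_le
          ((CStarAlgebra.norm_le_one_iff_of_nonneg _ (h0 i)).2 (h1 i)) ξ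
      have a2 := hL (T.V (-t) (y i ξ))
      rw [T.norm_V_apply] at a2
      have a3 := mul_le_mul_of_nonneg_left (a2.trans (by linarith : _ ≤ 2 * ‖ξ‖))
        (norm_nonneg (sandK k t))
      have a4 : 0 ≤ ‖sandK k t‖ * (ε / 3) := by positivity
      linarith
    · rw [Set.indicator_of_notMem (show t ∉ {t : ℝ | R < |t|} from ht), zero_mul, add_zero]
      refine mul_le_mul_of_nonneg_left ?_ (norm_nonneg _)
      obtain ⟨w, hw, hw'⟩ := Set.mem_iUnion₂.1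
        (hcov (Set.mem_iUnion.2 ⟨i, t, abs_le.1 (not_lt.1 ht), rfl⟩))
      rw [mem_ball_iff_norm] at hw'
      have a1 := hL (T.V (-t) (y i ξ) - w)
      have a2 : ‖c.tr w - eZ A ξ w‖ ≤ ε / 9 := hc2 ⟨w, hw⟩
      have a3 : c.tr (T.V (-t) (y i ξ)) - eZ A ξ (T.V (-t) (y i ξ)) =
          (c.tr (T.V (-t) (y i ξ) - w) - eZ A ξ (T.V (-t) (y i ξ) - w)) + (c.tr w - eZ A ξ w) := by
        rw [map_sub, map_sub]
        abel
      rw [a3]
      refine (norm_add_le _ _).trans ?_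
      linarith
  rw [integral_const_mul, integral_add ((sand_intK hk2).norm.mul_const _)
    (((sand_intK hk2).norm.indicator hm).mul_const _), integral_mul_const, integral_mul_const,
    integral_indicator hm] at hI
  have e1 : ∫ t, ‖sandK k t‖ = 1 := by simp only [sand_normK, integral_const_mul, hP]
  rw [e1] at hI
  unfold tail at hR
  linarith

/-- Recipe: write each `x i` as a combination of four positive contractions `y`; `w = 1`,
`exists_bump`, `exists_ker`; choose `T₀` with small tail of `‖k‖²`, a finite net of the compact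
sets `{V_{-t} y ξ : |t| ≤ T₀}`, `mix0` for the net, `deph` (centres `0`), `sandwich`. -/
theorem Tom.mix_soft (T : Tom A B ξ) {ι : Type*} [Fintype ι] {x : ι → Op H} (hx : ∀ i, x i ∈ A)
    {ε τ : ℝ} (hε : 0 < ε) (hτ : 0 < τ) :
    ∃ c : Cpl A B ξ, c.Soft 2 ∧ c.Dfc τ ∧ ∀ i, ‖c.cp (x i) ξ - eZ A ξ (x i ξ)‖ ≤ ε := by
  set M : ℝ := 1 + ∑ i, ‖x i‖ with hM
  have hM1 : ∀ i, 1 + ‖x i‖ ≤ M := fun i => add_le_add le_rfl
    (Finset.single_le_sum (fun j _ => norm_nonneg (x j)) (Finset.mem_univ i))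
  have hM0 : 0 < M := by positivity
  set s : Fin 4 → ℂ := ![1, Complex.I, -1, -Complex.I] with hs
  have hs1 : ∀ m, ‖s m‖ = 1 := fun m => by fin_cases m <;> simp [hs]
  set y : ι × Fin 4 → Op H := fun q =>
    (M ^ 2)⁻¹ • (star (1 + s q.2 • x q.1) * (1 + s q.2 • x q.1)) with hy
  have hyA : ∀ q, y q ∈ A := fun q => rsmul_mem _ (mul_mem
    (star_mem (add_mem (one_mem _) (smul_mem' _ (hx _)))) (add_mem (one_mem _) (smul_mem' _ (hx _))))
  have hy0 : ∀ q, 0 ≤ y q := fun q => smul_nonneg (by positivity) (star_mul_self_nonneg _)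
  have hy1 : ∀ q, y q ≤ 1 := fun q => by
    rw [← CStarAlgebra.norm_le_one_iff_of_nonneg _ (hy0 q), hy]
    simp only
    rw [norm_smul, CStarRing.norm_star_mul_self, Real.norm_of_nonneg (by positivity),
      inv_mul_le_iff₀ (by positivity), mul_one, sq]
    have : ‖1 + s q.2 • x q.1‖ ≤ M := by
      refine (norm_add_le _ _).trans (le_trans ?_ (hM1 q.1))
      rw [norm_smul, hs1, one_mul]
      exact add_le_add pj_norm_one le_rfl
    exact mul_le_mul this this (norm_nonneg _) hM0.le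
  obtain ⟨c, hc1, hc2, hc3⟩ := T.sand_pos_family hyA hy0 hy1 (ε := ε / M ^ 2) (by positivity) hτ
  refine ⟨c, hc1, hc2, fun i => ?_⟩
  have e : x i = ∑ m, (((M ^ 2 / 4 : ℝ) : ℂ) * conj (s m)) • y (i, m) := by
    have e1 : ∀ (a : ℂ) (z : Op H), (((M ^ 2 / 4 : ℝ) : ℂ) * a) • ((M ^ 2)⁻¹ • z) =
        (a / 4) • z := fun a z => by
      rw [← Complex.coe_smul, smul_smul]
      congr 1
      have : (M : ℂ) ≠ 0 := by exact_mod_cast hM0.ne'
      push_cast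
      field_simp
    simp only [hy, e1, Fin.sum_univ_four, hs, star_add, star_one, star_smul, mul_add, add_mul,
      one_mul, mul_one, smul_mul_assoc, mul_smul_comm, Matrix.cons_val, Matrix.cons_val_zero,
      Matrix.cons_val_one, map_one, map_neg, Complex.conj_I, Complex.star_def, neg_neg]
    match_scalars <;> ring_nf <;> simp [Complex.I_sq] <;> ring_nf
  have e2 : c.cp (x i) ξ - eZ A ξ (x i ξ) = ∑ m, (((M ^ 2 / 4 : ℝ) : ℂ) * conj (s m)) •
      (c.cp (y (i, m)) ξ - eZ A ξ (y (i, m) ξ)) := by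
    simp only [c.cp_apply T.comm (hyA _), c.cp_apply T.comm (hx i)]
    conv_lhs => rw [e]
    simp only [sum_apply, smul_apply, map_sum, map_smul, smul_sub, Finset.sum_sub_distrib]
  rw [e2]
  refine (norm_sum_le _ _).trans ((Finset.sum_le_sum (g := fun _ => ε / 4) fun m _ => ?_).trans
    (le_of_eq ?_))
  · rw [norm_smul, norm_mul, Complex.norm_conj, hs1, mul_one, Complex.norm_real,
      Real.norm_of_nonneg (by positivity)]
    refine (mul_le_mul_of_nonneg_left (hc3 (i, m)) (by positivity)).trans (le_of_eq ?_)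
    field_simp
  · simp only [Finset.sum_const, Finset.card_univ, Fintype.card_fin, nsmul_eq_mul]
    push_cast
    ring

end

end Crest.Agent.R78
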