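import Crest.Agent.R78.Deph

/-!
# Row 78: auxiliary lemmas for `split`
-/

open scoped InnerProductSpace Topology ComplexConjugate
open Filter MeasureTheory

set_option linter.unusedSectionVars false

namespace Crest.Agent.R78

open Crest.Agent.R121 (Alg)

noncomputable section

variable {H : Type*} [NormedAddCommGroup H] [InnerProductSpace ℂ H] [CompleteSpace H]

theorem spl_cs {κ : Type*} (F : Finset κ) (v : κ → H) {r α : ℝ} (hr : r ^ 2 * F.card ≤ α) :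
    ‖(r : ℂ) • ∑ k ∈ F, v k‖ ^ 2 ≤ α * ∑ k ∈ F, ‖v k‖ ^ 2 := by
  rw [norm_smul, mul_pow, Complex.norm_real, Real.norm_eq_abs, sq_abs]
  have h1 : ‖∑ k ∈ F, v k‖ ^ 2 ≤ F.card * ∑ k ∈ F, ‖v k‖ ^ 2 :=
    (pow_le_pow_left₀ (norm_nonneg _) (norm_sum_le _ _) 2).trans sq_sum_le_card_mul_sum_sq
  have h2 : 0 ≤ ∑ k ∈ F, ‖v k‖ ^ 2 := Finset.sum_nonneg fun _ _ => sq_nonneg _
  calc _ ≤ r ^ 2 * (F.card * ∑ k ∈ F, ‖v k‖ ^ 2) := mul_le_mul_of_nonneg_left h1 (sq_nonneg _)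
    _ ≤ _ := by
      rw [← mul_assoc]
      exact mul_le_mul_of_nonneg_right hr h2

theorem spl_blk {ι κ σ : Type*} [Fintype ι] [Fintype κ] [Fintype σ] (e : σ ≃ ι × κ) (s : Finset ι)
    (F : Finset κ) (Z : σ → H) {wt : σ → ℝ} (hwt : ∀ i, 0 ≤ wt i) {ω : ι → ℝ} (hω0 : ∀ j, 0 ≤ ω j)
    {r α lam : ℝ} (hr : r ^ 2 * F.card ≤ α) (hlam : 0 ≤ lam)
    (hω : ∀ j, ∀ k ∈ F, ω j ≤ lam * wt (e.symm (j, k))) :
    ∑ j ∈ s, ω j * ‖(r : ℂ) • ∑ k ∈ F, Z (e.symm (j, k))‖ ^ 2 ≤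
      α * lam * ∑ i, wt i * ‖Z i‖ ^ 2 := by
  have hα : 0 ≤ α := le_trans (by positivity) hr
  have h0 : ∀ i, 0 ≤ wt i * ‖Z i‖ ^ 2 := fun i => mul_nonneg (hwt i) (sq_nonneg _)
  rw [← e.symm.sum_comp, Fintype.sum_prod_type, Finset.mul_sum]
  refine le_trans (Finset.sum_le_sum fun j _ => ?_) (Finset.sum_le_univ_sum_of_nonneg fun j =>
    mul_nonneg (mul_nonneg hα hlam) (Finset.sum_nonneg fun k _ => h0 _))
  calc _ ≤ ω j * (α * ∑ k ∈ F, ‖Z (e.symm (j, k))‖ ^ 2) :=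
        mul_le_mul_of_nonneg_left (spl_cs F _ hr) (hω0 j)
    _ = α * ∑ k ∈ F, ω j * ‖Z (e.symm (j, k))‖ ^ 2 := by
        rw [← Finset.mul_sum]
        ring
    _ ≤ α * ∑ k ∈ F, lam * (wt (e.symm (j, k)) * ‖Z (e.symm (j, k))‖ ^ 2) := by
        refine mul_le_mul_of_nonneg_left (Finset.sum_le_sum fun k hk => ?_) hα
        rw [← mul_assoc]
        exact mul_le_mul_of_nonneg_right (hω j k hk) (sq_nonneg _)
    _ ≤ _ := by
        rw [← Finset.mul_sum, ← mul_assoc]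
        exact mul_le_mul_of_nonneg_left (Finset.sum_le_univ_sum_of_nonneg fun k => h0 _)
          (mul_nonneg hα hlam)

theorem spl_blk1 {ι κ σ : Type*} [Fintype ι] [Fintype κ] [Fintype σ] (e : σ ≃ ι × κ)
    (s : Finset ι) (F : Finset κ) (Z : σ → H) {r α : ℝ} (hr : r ^ 2 * F.card ≤ α) :
    ∑ j ∈ s, ‖(r : ℂ) • ∑ k ∈ F, Z (e.symm (j, k))‖ ^ 2 ≤ α * ∑ i, ‖Z i‖ ^ 2 := by
  have := spl_blk e s F Z (wt := fun _ => 1) (fun _ => zero_le_one) (ω := fun _ => 1)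
    (fun _ => zero_le_one) hr zero_le_one (fun _ _ _ => by simp)
  simpa only [one_mul, mul_one] using this

theorem spl_near {ι κ σ : Type*} [Fintype ι] [Fintype κ] [Fintype σ] (e : σ ≃ ι × κ)
    (s : Finset ι) (bl : κ → ℤ) (I : Finset ℤ) (Z : σ → H) {r α : ℝ} (hα : 0 ≤ α)
    (hr : ∀ m, r ^ 2 * (Finset.univ.filter fun k => bl k = m).card ≤ α) :
    ∑ j ∈ s, ∑ m ∈ I, ‖(r : ℂ) • ∑ k ∈ Finset.univ.filter fun k => bl k = m,
      Z (e.symm (j, k))‖ ^ 2 ≤ α * ∑ i, ‖Z i‖ ^ 2 := by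
  rw [← e.symm.sum_comp, Fintype.sum_prod_type, Finset.mul_sum]
  refine le_trans (Finset.sum_le_sum fun j _ => ?_) (Finset.sum_le_univ_sum_of_nonneg fun j =>
    mul_nonneg hα (Finset.sum_nonneg fun k _ => sq_nonneg _))
  refine (Finset.sum_le_sum fun m _ => spl_cs _ _ (hr m)).trans ?_
  rw [← Finset.mul_sum, Finset.sum_fiberwise_eq_sum_filter]
  exact mul_le_mul_of_nonneg_left (Finset.sum_le_univ_sum_of_nonneg fun k => sq_nonneg _) hα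

theorem spl_floor {w t : ℝ} (hw : 0 < w) {m : ℤ} (h : ⌊t / w⌋ = m) :
    m * w ≤ t ∧ t < (m + 1) * w := by
  rw [Int.floor_eq_iff, le_div_iff₀ hw, div_lt_iff₀ hw] at h
  exact h

theorem spl_card (T : Finset ℤ) {ε w : ℝ} (hε : 0 < ε) (hεw : ε ≤ w) (m : ℤ) :
    ε * ((Finset.univ.filter fun k : T => ⌊((k : ℤ) : ℝ) * ε / w⌋ = m).card : ℝ) ≤ 2 * w := by
  have hw : 0 < w := hε.trans_le hεw
  have h1 : (Finset.univ.filter fun k : T => ⌊((k : ℤ) : ℝ) * ε / w⌋ = m).card ≤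
      (Finset.Ico ⌈m * w / ε⌉ ⌈(m + 1) * w / ε⌉).card := by
    refine Finset.card_le_card_of_injOn (fun k => (k : ℤ)) (fun k hk => ?_)
      (fun a _ b _ h => Subtype.ext h)
    obtain ⟨h2, h3⟩ := spl_floor hw (Finset.mem_filter.1 (Finset.mem_coe.1 hk)).2
    rw [Finset.coe_Ico, Set.mem_Ico, Int.ceil_le, Int.lt_ceil, div_le_iff₀ hε, lt_div_iff₀ hε]
    exact ⟨h2, h3⟩
  rw [Int.card_Ico] at h1
  have h2 : ((⌈(m + 1) * w / ε⌉ - ⌈m * w / ε⌉ : ℤ) : ℝ) ≤ w / ε + 1 := by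
    have a1 := Int.ceil_lt_add_one ((m + 1) * w / ε)
    have a2 := Int.le_ceil (m * w / ε)
    have a3 : (m + 1) * w / ε = m * w / ε + w / ε := by ring
    push_cast
    linarith
  have h3 : (((⌈(m + 1) * w / ε⌉ - ⌈m * w / ε⌉ : ℤ).toNat : ℤ) : ℝ) ≤ w / ε + 1 := by
    rw [Int.toNat_eq_max]
    push_cast at h2 ⊢
    exact max_le h2 (by positivity)
  have h4 : ((Finset.univ.filter fun k : T => ⌊((k : ℤ) : ℝ) * ε / w⌋ = m).card : ℝ) ≤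
      w / ε + 1 := le_trans (by exact_mod_cast h1) h3
  calc _ ≤ ε * (w / ε + 1) := mul_le_mul_of_nonneg_left h4 hε.le
    _ = w + ε := by field_simp
    _ ≤ _ := by linarith

/-- The block function `q ∑_{k ∈ F} p (x - k ε)`. -/
def splG (p : ℝ → ℝ) (q ε : ℝ) {T : Finset ℤ} (F : Finset T) (x : ℝ) : ℂ :=
  (q : ℂ) * ∑ k ∈ F, (p (x - ((k : ℤ) : ℝ) * ε) : ℂ)

theorem spl_bc {c₁ w : ℝ} {p : ℝ → ℝ} (hp : Bump c₁ w p) : BC fun x => (p x : ℂ) :=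
  BC.of_supp (Complex.continuous_ofReal.comp hp.smooth.continuous)
    (hp.hasCompactSupport.comp_left (g := fun y : ℝ => (y : ℂ)) Complex.ofReal_zero)

theorem splG_bc {c₁ w : ℝ} {p : ℝ → ℝ} (hp : Bump c₁ w p) (q ε : ℝ) {T : Finset ℤ}
    (F : Finset T) : BC (splG p q ε F) :=
  (BC.const _).mul (BC.sum F fun _ _ => (spl_bc hp).comp_sub _)

theorem splG_fn (S : FC H) {c₁ w : ℝ} {p : ℝ → ℝ} (hp : Bump c₁ w p) {r r' q : ℝ} (ε : ℝ)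
    (hq : r * r' = q) {T : Finset ℤ} (F : Finset T) (u : ℝ) (ζ : H) :
    (r : ℂ) • ∑ k ∈ F, (r' : ℂ) • S.fn (fun x => (p (x - u - ((k : ℤ) : ℝ) * ε) : ℂ)) ζ =
      S.fn (fun x => splG p q ε F (x - u)) ζ := by
  have h1 : ∀ k ∈ F, BC fun x => (p (x - u - ((k : ℤ) : ℝ) * ε) : ℂ) := fun k _ =>
    ((spl_bc hp).comp_sub _).comp_sub u
  unfold splG
  rw [S.fn_smul _ (BC.sum F h1), S.fn_sum F h1, smul_apply, sum_apply, ← Finset.smul_sum,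
    smul_smul, ← Complex.ofReal_mul, hq]

theorem splG_ne {c₁ w : ℝ} {p : ℝ → ℝ} (hp : Bump c₁ w p) {q ε : ℝ} {T : Finset ℤ}
    {F : Finset T} {x : ℝ} (h : splG p q ε F x ≠ 0) : ∃ k ∈ F, |x - ((k : ℤ) : ℝ) * ε| < w := by
  obtain ⟨k, hk, h1⟩ := Finset.exists_ne_zero_of_sum_ne_zero (right_ne_zero_of_mul h)
  refine ⟨k, hk, not_le.1 fun h2 => h1 ?_⟩
  rw [hp.supp _ h2, Complex.ofReal_zero]

theorem spl_orth (S : FC H) {f g : ℝ → ℂ} (hf : BC f) (hg : BC g) (h : ∀ x, f x = 0 ∨ g x = 0)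
    (ζ : H) : ⟪S.fn f ζ, S.fn g ζ⟫_ℂ = 0 := by
  have h1 : (fun x => conj (f x) * g x) = fun _ => 0 := funext fun x => by
    rcases h x with h | h <;> simp [h]
  rw [← bas_inner_star, ← mul_apply_eq_comp, ← S.fn_star hf, ← S.fn_mul hf.conj' hg, h1,
    S.fn_const, zero_smul, zero_apply, inner_zero_right]

theorem splG_orth {c₁ w : ℝ} (hw : 0 < w) {p : ℝ → ℝ} (hp : Bump c₁ w p) (q ε : ℝ) (T : Finset ℤ)
    {m m' : ℤ} (h : m + 5 ≤ m') (x : ℝ) :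
    splG p q ε (Finset.univ.filter fun k : T => ⌊((k : ℤ) : ℝ) * ε / w⌋ = m') x = 0 ∨
      splG p q ε (Finset.univ.filter fun k : T => ⌊((k : ℤ) : ℝ) * ε / w⌋ = m) x = 0 := by
  by_contra h0
  obtain ⟨k', hk', a1⟩ := splG_ne hp (not_or.1 h0).1
  obtain ⟨k, hk, a2⟩ := splG_ne hp (not_or.1 h0).2
  have a3 := (spl_floor hw (Finset.mem_filter.1 hk').2).1
  have a4 := (spl_floor hw (Finset.mem_filter.1 hk).2).2
  have a5 : ((m : ℝ) + 5) * w ≤ m' * w :=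
    mul_le_mul_of_nonneg_right (by exact_mod_cast h) hw.le
  have := (abs_lt.1 a1).1
  have := (abs_lt.1 a2).2
  nlinarith

theorem splG_sum (p : ℝ → ℝ) (q ε w : ℝ) (T I : Finset ℤ) (x : ℝ) :
    ∑ m ∈ I, splG p q ε (Finset.univ.filter fun k : T => ⌊((k : ℤ) : ℝ) * ε / w⌋ = m) x =
      ((q * ∑ k ∈ T.filter fun k : ℤ => ⌊(k : ℝ) * ε / w⌋ ∈ I, p (x - k * ε) : ℝ) : ℂ) := by
  unfold splG
  rw [← Finset.mul_sum, Finset.sum_fiberwise_eq_sum_filter, Finset.sum_filter, Finset.sum_filter,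
    Finset.sum_coe_sort T
      (fun k : ℤ => if ⌊(k : ℝ) * ε / w⌋ ∈ I then (p (x - (k : ℝ) * ε) : ℂ) else 0)]
  push_cast
  congr 1
  refine Finset.sum_congr rfl fun k _ => ?_
  split_ifs <;> simp

/-- The tail estimate. -/
theorem spl_tail {c₁ w : ℝ} (hc₁ : 0 < c₁) (hw : 0 < w) {p : ℝ → ℝ} (hp : Bump c₁ w p) (n : ℕ)
    {β : ℝ} (hβ : 0 < β) (hβ1 : β ≤ 1) : ∃ ε₀ > 0, ∀ ε, 0 < ε → ε ≤ ε₀ → ∀ K : ℕ,
      (n + 3) * w ≤ K * ε → ∀ x,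
      ‖1 - ∑ m ∈ Finset.Ico (-(n + 3 : ℤ)) (n + 3), splG p ((∫ y, p y)⁻¹ * ε) ε
        (Finset.univ.filter fun k : Finset.Icc (-(K : ℤ)) K => ⌊((k : ℤ) : ℝ) * ε / w⌋ = m) x‖ ^ 2 ≤
        β ^ 2 + Real.exp (-((n + 2) * w)) * (Real.exp x + Real.exp (-x)) := by
  have hc0 : 0 ≤ ∫ y, p y := integral_nonneg hp.nonneg
  have hc : 0 < ∫ y, p y := by
    refine hc0.lt_of_ne fun h => ?_
    have := hp.lower
    rw [← h] at this
    nlinarith [mul_pos hc₁ hw]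
  obtain ⟨ε₀, hε₀, h⟩ := riemann hp.smooth.continuous hw hp.supp (mul_pos hβ hc)
  refine ⟨ε₀, hε₀, fun ε hε hε1 K hK x => ?_⟩
  rw [splG_sum, ← Complex.ofReal_one, ← Complex.ofReal_sub, Complex.norm_real, Real.norm_eq_abs]
  obtain ⟨h1, h2⟩ := h ε hε hε1 ((Finset.Icc (-(K : ℤ)) K).filter
    fun k : ℤ => ⌊(k : ℝ) * ε / w⌋ ∈ Finset.Ico (-(n + 3 : ℤ)) (n + 3)) x
  have h3 := Finset.sum_nonneg (s := (Finset.Icc (-(K : ℤ)) K).filter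
    fun k : ℤ => ⌊(k : ℝ) * ε / w⌋ ∈ Finset.Ico (-(n + 3 : ℤ)) (n + 3))
    fun (k : ℤ) _ => hp.nonneg (x - k * ε)
  replace h2 := h2 hp.nonneg
  generalize (∑ k ∈ (Finset.Icc (-(K : ℤ)) K).filter
    fun k : ℤ => ⌊(k : ℝ) * ε / w⌋ ∈ Finset.Ico (-(n + 3 : ℤ)) (n + 3), p (x - k * ε)) = R at *
  generalize (∫ y, p y) = c at *
  have e : |1 - c⁻¹ * ε * R| = |ε * R - c| / c := by
    rw [abs_sub_comm, ← abs_of_pos hc, ← abs_div, abs_of_pos hc]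
    congr 1
    field_simp
  rw [e]
  have hE : 0 ≤ Real.exp (-((n + 2) * w)) * (Real.exp x + Real.exp (-x)) := by positivity
  rcases le_total |x| ((n + 2) * w) with hx | hx
  · have h4 : |ε * R - c| / c ≤ β := by
      rw [div_le_iff₀ hc]
      refine h1 fun k hk => ?_
      have a1 := abs_le.1 hx
      have a2 := abs_lt.1 hk
      have b1 : -((n + 3) * w) < k * ε := by linarith
      have b2 : k * ε < (n + 3) * w := by linarith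
      have b3 : (-(K : ℝ)) * ε ≤ k * ε := by linarith
      have b4 : (k : ℝ) * ε ≤ K * ε := by linarith
      rw [Finset.mem_filter, Finset.mem_Icc, Finset.mem_Ico, Int.le_floor, Int.floor_lt,
        le_div_iff₀ hw, div_lt_iff₀ hw]
      push_cast
      refine ⟨⟨?_, ?_⟩, by linarith, b2⟩
      · exact_mod_cast le_of_mul_le_mul_right b3 hε
      · exact_mod_cast le_of_mul_le_mul_right b4 hε
    have := pow_le_pow_left₀ (by positivity) h4 2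
    linarith
  · have h4 : |ε * R - c| / c ≤ 1 := by
      rw [div_le_iff₀ hc, abs_le]
      have := mul_nonneg hε.le h3
      constructor <;> nlinarith
    have h5 := pow_le_pow_left₀ (by positivity) h4 2
    have h6 : Real.exp ((n + 2) * w) ≤ Real.exp x + Real.exp (-x) := by
      rcases le_abs.1 hx with hx | hx
      · linarith [Real.exp_le_exp.2 hx, Real.exp_pos (-x)]
      · linarith [Real.exp_le_exp.2 hx, Real.exp_pos x]
    have h7 := mul_le_mul_of_nonneg_left h6 (Real.exp_pos (-((n + 2) * w))).le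
    rw [← Real.exp_add, neg_add_cancel, Real.exp_zero] at h7
    nlinarith [sq_nonneg β]

/-- The conclusion of `far_cross` for fixed data. -/
def FarP (D : ℝ) (A : VN H) (ξ : H) (W : Op H) : Prop :=
  ∀ {ι : Type} [Fintype ι] (x y : ι → Op H) (θ : ι → ℝ) {α ρ : ℝ}, 0 ≤ ρ → ρ ≤ α →
    (∀ j, x j ∈ A) → (∀ j, y j ∈ A.commutant) → Col x α →
    (∀ v, ∑ j, Real.exp (-θ j) * ‖star (x j) v‖ ^ 2 ≤ ρ ^ 2 * ‖v‖ ^ 2) →
    ∑ j, ‖y j ξ‖ ^ 2 ≤ α ^ 2 * ‖ξ‖ ^ 2 →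
    ∑ j, Real.exp (θ j) * ‖star (y j) ξ‖ ^ 2 ≤ ρ ^ 2 * ‖ξ‖ ^ 2 →
    ‖∑ j, ⟪y j ξ, W (x j ξ)⟫_ℂ‖ ≤ (ρ ^ 2 + D * α ^ 2) * ‖ξ‖ ^ 2

theorem spl_far {D : ℝ} {A : VN H} {ξ : H} {W : Op H} (hW : star W * W = 1) (h1 : FarP D A ξ W)
    (h2 : FarP D A ξ (star W)) {ι : Type} (s : Finset ι) (x y : ι → Op H) (θ : ι → ℝ) {α ρ : ℝ}
    (hρ : 0 ≤ ρ) (hρα : ρ ≤ α) (hx : ∀ j, x j ∈ A) (hy : ∀ j, y j ∈ A.commutant)
    (c1 : ∀ v, ∑ j ∈ s, ‖x j v‖ ^ 2 ≤ α * ‖v‖ ^ 2)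
    (c2 : ∀ v, ∑ j ∈ s, Real.exp (-θ j) * ‖star (x j) v‖ ^ 2 ≤ ρ * ‖v‖ ^ 2)
    (c3 : ∑ j ∈ s, ‖y j ξ‖ ^ 2 ≤ α * ‖ξ‖ ^ 2)
    (c4 : ∑ j ∈ s, Real.exp (θ j) * ‖star (y j) ξ‖ ^ 2 ≤ ρ * ‖ξ‖ ^ 2)
    (h0 : ∀ j, ⟪y j ξ, x j ξ⟫_ℂ = 0) :
    ‖∑ j ∈ s, ⟪(W - 1) (y j ξ), (W - 1) (x j ξ)⟫_ℂ‖ ≤ 2 * (ρ + D * α) * ‖ξ‖ ^ 2 := by
  have hα : 0 ≤ α := hρ.trans hρα
  have key : ∀ V : Op H, FarP D A ξ V →
      ‖∑ j ∈ s, ⟪y j ξ, V (x j ξ)⟫_ℂ‖ ≤ (ρ + D * α) * ‖ξ‖ ^ 2 := fun V hV => by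
    have := hV (ι := s) (fun j => x j) (fun j => y j) (fun j => θ j) (α := √α) (ρ := √ρ)
      (Real.sqrt_nonneg _) (Real.sqrt_le_sqrt hρα) (fun j => hx j) (fun j => hy j)
      (fun v => by
        rw [Real.sq_sqrt hα, Finset.sum_coe_sort s fun j => ‖x j v‖ ^ 2]
        exact c1 v)
      (fun v => by
        rw [Real.sq_sqrt hρ, Finset.sum_coe_sort s fun j => Real.exp (-θ j) * ‖star (x j) v‖ ^ 2]
        exact c2 v)
      (by
        rw [Real.sq_sqrt hα, Finset.sum_coe_sort s fun j => ‖y j ξ‖ ^ 2]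
        exact c3)
      (by
        rw [Real.sq_sqrt hρ, Finset.sum_coe_sort s fun j => Real.exp (θ j) * ‖star (y j) ξ‖ ^ 2]
        exact c4)
    rwa [Real.sq_sqrt hα, Real.sq_sqrt hρ,
      Finset.sum_coe_sort s fun j => ⟪y j ξ, V (x j ξ)⟫_ℂ] at this
  have e : ∀ j, ⟪(W - 1) (y j ξ), (W - 1) (x j ξ)⟫_ℂ =
      -⟪y j ξ, W (x j ξ)⟫_ℂ - ⟪y j ξ, star W (x j ξ)⟫_ℂ := fun j => by
    have a1 : ⟪W (y j ξ), W (x j ξ)⟫_ℂ = 0 := by
      rw [← bas_inner_star, ← mul_apply_eq_comp, hW, one_apply_eq_self, h0]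
    rw [sub_apply, sub_apply, one_apply_eq_self, one_apply_eq_self, inner_sub_left,
      inner_sub_right, inner_sub_right, a1, h0, bas_inner_star]
    ring
  simp only [e, Finset.sum_sub_distrib, Finset.sum_neg_distrib]
  refine (norm_sub_le _ _).trans ?_
  rw [norm_neg]
  linarith [key W h1, key _ h2]

theorem spl_star {κ : Type*} (F : Finset κ) (a : κ → Op H) (r : ℝ) (v : H) :
    star ((r : ℂ) • ∑ k ∈ F, a k) v = (r : ℂ) • ∑ k ∈ F, star (a k) v := by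
  rw [star_smul, star_sum, smul_apply, sum_apply, Complex.star_def, Complex.conj_ofReal]

theorem spl_app {κ : Type*} (F : Finset κ) (a : κ → Op H) (r : ℝ) (v : H) :
    ((r : ℂ) • ∑ k ∈ F, a k) v = (r : ℂ) • ∑ k ∈ F, a k v := by
  rw [smul_apply, sum_apply]

theorem spl_add_sq (W : Op H) (hW : star W * W = 1) (a b : H) :
    ‖(W - 1) (a + b)‖ ^ 2 ≤ 2 * ‖(W - 1) a‖ ^ 2 + 8 * ‖b‖ ^ 2 := by
  have h1 : ‖W b‖ = ‖b‖ := by
    have : ⟪W b, W b⟫_ℂ = ⟪b, b⟫_ℂ := by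
      rw [← bas_inner_star, ← mul_apply_eq_comp, hW, one_apply_eq_self]
    rw [norm_eq_sqrt_re_inner (𝕜 := ℂ), this, ← norm_eq_sqrt_re_inner (𝕜 := ℂ)]
  have h2 : ‖(W - 1) b‖ ≤ 2 * ‖b‖ := by
    rw [sub_apply, one_apply_eq_self]
    linarith [norm_sub_le (W b) b]
  have h3 := norm_add_le ((W - 1) a) ((W - 1) b)
  rw [← map_add] at h3
  have h4 := pow_le_pow_left₀ (norm_nonneg _) (h3.trans (add_le_add_right h2 _)) 2
  nlinarith [sq_nonneg (‖(W - 1) a‖ - 2 * ‖b‖)]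

theorem spl_exp {w a b : ℝ} (hw : 0 < w) {m m' : ℤ} (h : m + 5 ≤ m')
    (ha : a ≤ b + (m - m' + 1) * w / 2) :
    Real.exp a ≤ Real.exp (-(2 * w)) * Real.exp b := by
  rw [← Real.exp_add, Real.exp_le_exp]
  have a5 : ((m : ℝ) + 5) * w ≤ m' * w := mul_le_mul_of_nonneg_right (by exact_mod_cast h) hw.le
  linarith

theorem spl_core {A B : VN H} {ξ : H} (T : Tom A B ξ) {W : Op H} (hW : star W * W = 1) {D : ℝ}
    (hD : 0 ≤ D) (h1 : FarP D A ξ W) (h2 : FarP D A ξ (star W))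
    (hblk : ∀ {ι : Type} (s : Finset ι) (I : Finset ℤ) (f : ι → ℤ → H) {b : ℝ}, 0 ≤ b →
      (∀ m ∈ I, ∀ m' ∈ I, m + 5 ≤ m' → ‖∑ j ∈ s, ⟪f j m', f j m⟫_ℂ‖ ≤ b) →
      ∑ j ∈ s, ‖∑ m ∈ I, f j m‖ ^ 2 ≤
        9 * ∑ j ∈ s, ∑ m ∈ I, ‖f j m‖ ^ 2 + (I.card : ℝ) ^ 2 * b)
    {c₁ w : ℝ} (hc₁ : 0 < c₁) (hw : 1 ≤ w) {p : ℝ → ℝ} (hp : Bump c₁ w p) (n : ℕ)
    (c : Cpl A B ξ) (s : Finset c.ι) (u : c.ι → ℝ) (hc : c.SoftAt s u (n * w)) {τ β : ℝ}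
    (hτ : 0 < τ) (hβ : 0 < β) (hβ1 : β ≤ 1) :
    ∃ d : Cpl A B ξ, d.Soft (2 * w) ∧ c.mass - τ * ‖ξ‖ ^ 2 ≤ d.mass ∧
      ∑ j ∈ s, ‖(W - 1) (c.a j ξ)‖ ^ 2 ≤ 144 / c₁ * d.en W 1 +
        (4 * (2 * n + 6) ^ 2 * (8 / c₁ * Real.exp (1 - w) + D * (8 / c₁)) + 8 * β ^ 2 +
          16 * Real.exp (-(2 * w))) * ‖ξ‖ ^ 2 := by
  have hw0 : 0 < w := one_pos.trans_le hw
  obtain ⟨k, hk, hk2, hP⟩ := exists_ker (f := fun x => (p x : ℂ))
    (Complex.ofRealCLM.contDiff.comp hp.smooth)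
    (hp.hasCompactSupport.comp_left (g := fun y : ℝ => (y : ℂ)) Complex.ofReal_zero)
  simp only [Complex.norm_real, Real.norm_eq_abs, sq_abs, hp.sq] at hP
  obtain ⟨ε₀, hε₀, htail⟩ := spl_tail hc₁ hw0 hp n hβ hβ1
  obtain ⟨ε, ν, K, d, e, hε, hε1, hν, -, hK, hd, hsoft, hmass, -⟩ :=
    T.deph c u hw0 hp hk hk2 hP ((n + 3) * w) (lt_min hε₀ hw0) hτ
  refine ⟨d, Cpl.Soft.mono ⟨_, hsoft⟩ (by linarith), hmass, ?_⟩
  replace htail := htail ε hε (hε1.trans (min_le_left _ _)) K hK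
  have hlow := hp.lower
  have hq0 : 0 ≤ ∫ y, p y := integral_nonneg hp.nonneg
  generalize (∫ y, p y) = q at htail hlow hq0
  have hq : 0 < q := by
    refine hq0.lt_of_ne fun h => ?_
    rw [← h] at hlow
    nlinarith [mul_pos hc₁ hw0]
  have hν0 : 0 < ν := by linarith
  have hα : 0 ≤ 8 / c₁ := by positivity
  obtain ⟨F, hF⟩ : ∃ F : ℤ → Finset (Finset.Icc (-(K : ℤ)) K), F = fun m =>
    Finset.univ.filter fun k : Finset.Icc (-(K : ℤ)) K => ⌊((k : ℤ) : ℝ) * ε / w⌋ = m := ⟨_, rfl⟩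
  have hF' : ∀ m, (Finset.univ.filter
    fun k : Finset.Icc (-(K : ℤ)) K => ⌊((k : ℤ) : ℝ) * ε / w⌋ = m) = F m := fun m => by rw [hF]
  have hFm : ∀ m, ∀ k ∈ F m, m * w ≤ ((k : ℤ) : ℝ) * ε ∧ ((k : ℤ) : ℝ) * ε < (m + 1) * w :=
    fun m k hk => by
      rw [← hF'] at hk
      exact spl_floor hw0 (Finset.mem_filter.1 hk).2
  obtain ⟨r, hr0⟩ : ∃ r : ℝ, r = q⁻¹ * √ε / ν := ⟨_, rfl⟩
  have hrq : r * (ν * √ε) = q⁻¹ * ε := by
    rw [hr0]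
    field_simp
    exact Real.sq_sqrt hε.le
  have hr : ∀ m, r ^ 2 * (F m).card ≤ 8 / c₁ := fun m => by
    have a1 := spl_card (Finset.Icc (-(K : ℤ)) K) hε (hε1.trans (min_le_right _ _)) m
    rw [hF'] at a1
    have a2 : r ^ 2 * (F m).card = ε * (F m).card / (q ^ 2 * ν ^ 2) := by
      rw [hr0, div_pow, mul_pow, Real.sq_sqrt hε.le]
      ring
    rw [a2, div_le_div_iff₀ (by positivity) hc₁]
    have a3 : 1 / 4 ≤ ν ^ 2 := by nlinarith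
    have a4 := mul_le_mul hlow a3 (by norm_num) (sq_nonneg _)
    nlinarith
  obtain ⟨X, hX⟩ : ∃ X : c.ι → ℤ → Op H,
    ∀ j m, X j m = (r : ℂ) • ∑ k ∈ F m, d.a (e.symm (j, k)) := ⟨_, fun _ _ => rfl⟩
  obtain ⟨Y, hY⟩ : ∃ Y : c.ι → ℤ → Op H,
    ∀ j m, Y j m = (r : ℂ) • ∑ k ∈ F m, d.a' (e.symm (j, k)) := ⟨_, fun _ _ => rfl⟩
  have hXA : ∀ j m, X j m ∈ A := fun j m => by
    rw [hX]
    exact smul_mem' _ (sum_mem fun k _ => d.mem _)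
  have hYB : ∀ j m, Y j m ∈ A.commutant := fun j m => by
    rw [hY, T.comm]
    exact smul_mem' _ (sum_mem fun k _ => d.mem' _)
  have hYX : ∀ j m, Y j m ξ = X j m ξ := fun j m => by
    simp only [hX, hY, spl_app, d.eq]
  have hG : ∀ j m, BC fun x => splG p (q⁻¹ * ε) ε (F m) (x - u j) := fun j m =>
    (splG_bc hp _ _ _).comp_sub _
  have hXG : ∀ j m, X j m ξ = T.fn (fun x => splG p (q⁻¹ * ε) ε (F m) (x - u j)) (c.a j ξ) :=
    fun j m => by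
      rw [hX, spl_app, ← splG_fn T.toFC hp ε hrq]
      congr 1
      refine Finset.sum_congr rfl fun k _ => ?_
      rw [hd, Equiv.apply_symm_apply]
  set I : Finset ℤ := Finset.Ico (-(n + 3 : ℤ)) (n + 3) with hI
  have hIc : (I.card : ℝ) = 2 * n + 6 := by
    rw [hI, Int.card_Ico, show (n + 3 : ℤ) - -(n + 3) = (2 * n + 6 : ℕ) by push_cast; ring,
      Int.toNat_natCast]
    push_cast
    ring
  simp only [hF'] at htail
  have hg : BC fun x => 1 - ∑ m ∈ I, splG p (q⁻¹ * ε) ε (F m) x :=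
    (BC.const 1).sub (BC.sum I fun m _ => splG_bc hp _ _ _)
  -- the tail
  have t1 := T.mom c hc (z := 1) ⟨one_mem _, one_mem _⟩ hg (sq_nonneg β) (Real.exp_pos _) htail
  simp only [one_apply_eq_self] at t1
  have t2 : 2 * Real.exp (-((n + 2) * w)) * Real.exp (n * w) = 2 * Real.exp (-(2 * w)) := by
    rw [mul_assoc, ← Real.exp_add]
    congr 2
    ring
  rw [t2] at t1
  have hdec : ∀ j, c.a j ξ = ∑ m ∈ I, X j m ξ +
      T.fn (fun x => 1 - ∑ m ∈ I, splG p (q⁻¹ * ε) ε (F m) (x - u j)) (c.a j ξ) := fun j => by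
    rw [T.fn_sub (BC.const 1) (BC.sum I fun m _ => hG j m), T.fn_sum I fun m _ => hG j m,
      T.fn_one, sub_apply, one_apply_eq_self, sum_apply]
    simp only [hXG]
    abel
  -- near pairs
  have n1 : ∑ j ∈ s, ∑ m ∈ I, ‖(W - 1) (X j m ξ)‖ ^ 2 ≤ 8 / c₁ * d.en W 1 := by
    have := spl_near e s (fun k => ⌊((k : ℤ) : ℝ) * ε / w⌋) I (fun i => (W - 1) (d.a i ξ)) hα
      (fun m => by rw [hF']; exact hr m)
    simp only [hF'] at this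
    simpa only [hX, spl_app, map_smul, map_sum, Cpl.en, one_apply_eq_self] using this
  -- far pairs
  have hρ : 8 / c₁ * Real.exp (1 - w) ≤ 8 / c₁ :=
    mul_le_of_le_one_right hα (Real.exp_le_one_iff.2 (by linarith))
  have hE : ∀ v : H, 8 / c₁ * Real.exp (-(2 * w)) * (Real.exp (w + 1) * ‖v‖ ^ 2) =
      8 / c₁ * Real.exp (1 - w) * ‖v‖ ^ 2 := fun v => by
    rw [show 1 - w = -(2 * w) + (w + 1) by ring, Real.exp_add (-(2 * w))]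
    ring
  have f1 : ∀ m ∈ I, ∀ m' ∈ I, m + 5 ≤ m' →
      ‖∑ j ∈ s, ⟪(W - 1) (X j m' ξ), (W - 1) (X j m ξ)⟫_ℂ‖ ≤
        2 * (8 / c₁ * Real.exp (1 - w) + D * (8 / c₁)) * ‖ξ‖ ^ 2 := fun m _ m' _ hm => by
    have := spl_far hW h1 h2 s (fun j => X j m) (fun j => Y j m')
      (fun j => u j + (m + m' + 1) * w / 2) (by positivity) hρ (fun j => hXA j m)
      (fun j => hYB j m') (fun v => ?_) (fun v => ?_) ?_ ?_ (fun j => ?_)
    · simpa only [hYX] using this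
    · simp only [hX, spl_app]
      refine (spl_blk1 e s (F m) (fun i => d.a i v) (hr m)).trans ?_
      exact mul_le_mul_of_nonneg_left (by simpa using d.col v) hα
    · simp only [hX, spl_star]
      refine (spl_blk e s (F m) (fun i => star (d.a i) v)
        (wt := fun i => Real.exp (-(u (e i).1 + ((e i).2 : ℤ) * ε))) (fun _ => (Real.exp_pos _).le)
        (fun _ => (Real.exp_pos _).le) (hr m) (Real.exp_pos (-(2 * w))).le
        fun j k hk => ?_).trans ?_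
      · rw [Equiv.apply_symm_apply]
        refine spl_exp hw0 hm ?_
        have := (hFm m k hk).2
        dsimp only
        linarith
      · rw [← hE]
        exact mul_le_mul_of_nonneg_left (hsoft.1 v) (by positivity)
    · simp only [hY, spl_app]
      refine (spl_blk1 e s (F m') (fun i => d.a' i ξ) (hr m')).trans ?_
      exact mul_le_mul_of_nonneg_left (by simpa using d.col' ξ) hα
    · simp only [hY, spl_star]
      refine (spl_blk e s (F m') (fun i => star (d.a' i) ξ)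
        (wt := fun i => Real.exp (u (e i).1 + ((e i).2 : ℤ) * ε)) (fun _ => (Real.exp_pos _).le)
        (fun _ => (Real.exp_pos _).le) (hr m') (Real.exp_pos (-(2 * w))).le
        fun j k hk => ?_).trans ?_
      · rw [Equiv.apply_symm_apply]
        refine spl_exp hw0 hm ?_
        have := (hFm m' k hk).1
        dsimp only
        linarith
      · rw [← hE]
        exact mul_le_mul_of_nonneg_left (hsoft.2 ξ) (by positivity)
    · rw [hYX, hXG, hXG]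
      refine spl_orth T.toFC (hG j m') (hG j m) (fun x => ?_) _
      rw [← hF', ← hF']
      exact splG_orth hw0 hp _ _ _ hm _
  have b1 := hblk s I (fun j m => (W - 1) (X j m ξ)) (by positivity) f1
  rw [hIc] at b1
  have b2 : ∑ j ∈ s, ‖(W - 1) (c.a j ξ)‖ ^ 2 ≤ 2 * ∑ j ∈ s, ‖∑ m ∈ I, (W - 1) (X j m ξ)‖ ^ 2 +
      8 * ∑ j ∈ s, ‖T.fn (fun x => 1 - ∑ m ∈ I, splG p (q⁻¹ * ε) ε (F m) (x - u j))
        (c.a j ξ)‖ ^ 2 := by
    rw [Finset.mul_sum, Finset.mul_sum, ← Finset.sum_add_distrib]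
    refine Finset.sum_le_sum fun j _ => ?_
    have := spl_add_sq W hW (∑ m ∈ I, X j m ξ)
      (T.fn (fun x => 1 - ∑ m ∈ I, splG p (q⁻¹ * ε) ε (F m) (x - u j)) (c.a j ξ))
    rwa [← hdec, map_sum] at this
  have b3 : 144 / c₁ * d.en W 1 = 18 * (8 / c₁ * d.en W 1) := by ring
  rw [b3]
  linarith

end

end Crest.Agent.R78
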