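import Crest.Agent.R78.GP
import Crest.Agent.R78.Deph
import Crest.Agent.R78.SplitAux

/-!
# Row 78: splitting a soft coupling into narrow blocks
-/

open scoped InnerProductSpace Topology ComplexConjugate
open Filter MeasureTheory

set_option linter.unusedSectionVars false

namespace Crest.Agent.R78

open Crest.Agent.R121 (Alg)

noncomputable section

universe u

variable {H : Type*} [NormedAddCommGroup H] [InnerProductSpace ℂ H] [CompleteSpace H]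

theorem spa_norm (W : unitary (Op H)) (v : H) : ‖(W : Op H) v‖ = ‖v‖ := by
  have h1 : ⟪(W : Op H) v, (W : Op H) v⟫_ℂ = ⟪v, v⟫_ℂ := by
    rw [← bas_inner_star, ← mul_apply_eq_comp, bas_su, one_apply_eq_self]
  rw [inner_self_eq_norm_sq_to_K, inner_self_eq_norm_sq_to_K] at h1
  have h2 : ‖(W : Op H) v‖ ^ 2 = ‖v‖ ^ 2 := by exact_mod_cast h1
  exact (pow_left_inj₀ (norm_nonneg _) (norm_nonneg _) two_ne_zero).1 h2

theorem spa_norm' (W : unitary (Op H)) (v : H) : ‖star (W : Op H) v‖ = ‖v‖ := by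
  rw [← bas_inv]
  exact spa_norm _ v

theorem spa_exp (t : ℝ) (v : H) :
    ‖((Real.exp (t / 2) : ℝ) : ℂ) • v‖ ^ 2 = Real.exp t * ‖v‖ ^ 2 := by
  rw [norm_smul, Complex.norm_real, Real.norm_eq_abs, abs_of_pos (Real.exp_pos _), mul_pow, sq,
    ← Real.exp_add, add_halves]

theorem spa_inner (t : ℝ) (v w : H) :
    ⟪((Real.exp (-t / 2) : ℝ) : ℂ) • v, ((Real.exp (t / 2) : ℝ) : ℂ) • w⟫_ℂ = ⟪v, w⟫_ℂ := by
  rw [inner_smul_left, inner_smul_right, Complex.conj_ofReal, ← mul_assoc, ← Complex.ofReal_mul,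
    ← Real.exp_add, show -t / 2 + t / 2 = 0 by ring, Real.exp_zero, Complex.ofReal_one, one_mul]

/-- Far blocks are almost orthogonal after twisting. Recipe: `x̂_j = W x_j W⋆ ∈ conjVN W A`
(`conj_mem_conjVN`) has the same column and weighted row bounds, `W x_j ξ = x̂_j ξ`, and
`‖x̂_j⋆ ξ‖ = ‖x_j⋆ ξ‖`. `gp` (with `c = α`) gives `x̃_j ∈ A`; then
`⟪y ξ, x̂ ξ⟫ = ⟪y ξ, (x̂ - x̃) ξ⟫ + ⟪e^{-θ/2} x̃⋆ ξ, e^{θ/2} y⋆ ξ⟫` because `x̃` and `y` commute;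
Cauchy–Schwarz (`norm_sum_inner_le`, `sqrt_sum_add_le`), and let `ε → 0`. -/
theorem far_cross : ∃ C > 0, ∀ {H : Type u} [NormedAddCommGroup H] [InnerProductSpace ℂ H]
    [CompleteSpace H] (_ : H ≃ₗᵢ⋆[ℂ] H) {A : VN H} {ξ : H} (W : unitary (Op H)) {γ : ℝ},
    0 ≤ γ → (W : Op H) ξ = ξ → Near (conjVN W A) A γ →
    ∀ {ι : Type} [Fintype ι] (x y : ι → Op H) (θ : ι → ℝ) {α ρ : ℝ}, 0 ≤ ρ → ρ ≤ α →
    (∀ j, x j ∈ A) → (∀ j, y j ∈ A.commutant) → Col x α →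
    (∀ v, ∑ j, Real.exp (-θ j) * ‖star (x j) v‖ ^ 2 ≤ ρ ^ 2 * ‖v‖ ^ 2) →
    ∑ j, ‖y j ξ‖ ^ 2 ≤ α ^ 2 * ‖ξ‖ ^ 2 →
    ∑ j, Real.exp (θ j) * ‖star (y j) ξ‖ ^ 2 ≤ ρ ^ 2 * ‖ξ‖ ^ 2 →
    ‖∑ j, ⟪y j ξ, (W : Op H) (x j ξ)⟫_ℂ‖ ≤ (ρ ^ 2 + C * γ * α ^ 2) * ‖ξ‖ ^ 2 := by
  obtain ⟨C, hC, hgp⟩ := gp.{u}
  refine ⟨2 * √C, by positivity, ?_⟩
  intro H _ _ _ J A ξ W γ hγ hWξ hN ι _ x y θ α ρ hρ hρα hx hy hcol hrow hy1 hy2
  have hα : 0 ≤ α := hρ.trans hρα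
  have hWξ' : star (W : Op H) ξ = ξ := by
    conv_lhs => rw [← hWξ]
    rw [← mul_apply_eq_comp, bas_su, one_apply_eq_self]
  set xh : ι → Op H := fun j => (W : Op H) * x j * star (W : Op H) with hxh
  have h1 : ∀ j v, xh j v = (W : Op H) (x j (star (W : Op H) v)) := fun j v => rfl
  have h2 : ∀ j v, star (xh j) v = (W : Op H) (star (x j) (star (W : Op H) v)) := by
    intro j v
    simp only [hxh, star_mul, star_star, mul_apply_eq_comp]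
  have hcol' : Col xh α := by
    intro v
    simp only [h1, spa_norm]
    simpa only [spa_norm'] using hcol (star (W : Op H) v)
  have hrow' : ∀ v, ∑ j, Real.exp (-θ j) * ‖star (xh j) v‖ ^ 2 ≤ ρ ^ 2 * ‖v‖ ^ 2 := by
    intro v
    simp only [h2, spa_norm]
    simpa only [spa_norm'] using hrow (star (W : Op H) v)
  have hrow'' : ∀ v, ∑ j, Real.exp (-θ j) * ‖star (xh j) v‖ ^ 2 ≤ α ^ 2 * ‖v‖ ^ 2 :=
    fun v => (hrow' v).trans (by gcongr)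
  refine le_of_forall_pos_le_add fun η hη => ?_
  set δ : ℝ := η / (2 * α * ‖ξ‖ + 1) with hδ
  have hδ0 : 0 < δ := by positivity
  obtain ⟨z, hz, hE⟩ := hgp J hγ hN ξ xh θ hα (fun j => conj_mem_conjVN W (hx j)) hcol' hrow''
    (δ ^ 2) (by positivity)
  set E : ℝ := √C * γ * α * ‖ξ‖ + δ with hEdef
  have hE0 : 0 ≤ E := by positivity
  have hE2 : C * γ ^ 2 * α ^ 2 * ‖ξ‖ ^ 2 + δ ^ 2 ≤ E ^ 2 := by
    have h3 : (√C * γ * α * ‖ξ‖) ^ 2 = C * γ ^ 2 * α ^ 2 * ‖ξ‖ ^ 2 := by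
      rw [mul_pow, mul_pow, mul_pow, Real.sq_sqrt hC.le]
    have h4 : 0 ≤ √C * γ * α * ‖ξ‖ * δ := by positivity
    rw [hEdef, add_sq, h3]
    linarith
  rw [Finset.sum_add_distrib] at hE
  have hn1 : 0 ≤ ∑ j, ‖(xh j - z j) ξ‖ ^ 2 := Finset.sum_nonneg fun j _ => sq_nonneg _
  have hn2 : 0 ≤ ∑ j, Real.exp (-θ j) * ‖star (xh j - z j) ξ‖ ^ 2 :=
    Finset.sum_nonneg fun j _ => mul_nonneg (Real.exp_pos _).le (sq_nonneg _)
  have hE3 : √(∑ j, ‖(xh j - z j) ξ‖ ^ 2) ≤ E := Real.sqrt_le_iff.2 ⟨hE0, by linarith⟩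
  have hE4 : √(∑ j, ‖((Real.exp (-θ j / 2) : ℝ) : ℂ) • (-(star (xh j - z j) ξ))‖ ^ 2) ≤ E := by
    refine Real.sqrt_le_iff.2 ⟨hE0, ?_⟩
    simp only [spa_exp, norm_neg]
    linarith
  have hE5 : √(∑ j, ‖((Real.exp (-θ j / 2) : ℝ) : ℂ) • star (xh j) ξ‖ ^ 2) ≤ ρ * ‖ξ‖ := by
    refine Real.sqrt_le_iff.2 ⟨by positivity, ?_⟩
    simp only [spa_exp]
    rw [mul_pow]
    exact hrow' ξ
  have hE6 : √(∑ j, ‖((Real.exp (θ j / 2) : ℝ) : ℂ) • star (y j) ξ‖ ^ 2) ≤ ρ * ‖ξ‖ := by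
    refine Real.sqrt_le_iff.2 ⟨by positivity, ?_⟩
    simp only [spa_exp]
    rw [mul_pow]
    exact hy2
  have hE7 : √(∑ j, ‖y j ξ‖ ^ 2) ≤ α * ‖ξ‖ :=
    Real.sqrt_le_iff.2 ⟨by positivity, by rw [mul_pow]; exact hy1⟩
  have hE8 : √(∑ j, ‖((Real.exp (-θ j / 2) : ℝ) : ℂ) • star (z j) ξ‖ ^ 2) ≤ ρ * ‖ξ‖ + E := by
    have h5 := sqrt_sum_add_le (fun j => ((Real.exp (-θ j / 2) : ℝ) : ℂ) • star (xh j) ξ)
      (fun j => ((Real.exp (-θ j / 2) : ℝ) : ℂ) • (-(star (xh j - z j) ξ)))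
    have h6 : ∀ j, ((Real.exp (-θ j / 2) : ℝ) : ℂ) • star (xh j) ξ +
        ((Real.exp (-θ j / 2) : ℝ) : ℂ) • (-(star (xh j - z j) ξ)) =
        ((Real.exp (-θ j / 2) : ℝ) : ℂ) • star (z j) ξ := by
      intro j
      rw [← smul_add, star_sub, sub_apply, neg_sub, add_sub_cancel]
    simp only [h6] at h5
    linarith
  have key : ∀ j, ⟪y j ξ, (W : Op H) (x j ξ)⟫_ℂ = ⟪y j ξ, (xh j - z j) ξ⟫_ℂ +
      ⟪((Real.exp (-θ j / 2) : ℝ) : ℂ) • star (z j) ξ,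
        ((Real.exp (θ j / 2) : ℝ) : ℂ) • star (y j) ξ⟫_ℂ := by
    intro j
    have h7 : Commute (z j) (star (y j)) := mem_comm.1 (star_mem (hy j)) _ (hz j)
    have h8 : z j (star (y j) ξ) = star (y j) (z j ξ) := by
      rw [← mul_apply_eq_comp, h7.eq, mul_apply_eq_comp]
    rw [spa_inner, bas_star_inner, h8, bas_inner_star, ← inner_add_right, sub_apply,
      sub_add_cancel, h1, hWξ']
  simp only [key]
  rw [Finset.sum_add_distrib]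
  refine (norm_add_le _ _).trans ?_
  have h9 := (norm_sum_inner_le (fun j => y j ξ) fun j => (xh j - z j) ξ).trans
    (mul_le_mul hE7 hE3 (Real.sqrt_nonneg _) (by positivity))
  have h10 := (norm_sum_inner_le (fun j => ((Real.exp (-θ j / 2) : ℝ) : ℂ) • star (z j) ξ)
    fun j => ((Real.exp (θ j / 2) : ℝ) : ℂ) • star (y j) ξ).trans
    (mul_le_mul hE8 hE6 (Real.sqrt_nonneg _) (by positivity))
  refine (add_le_add h9 h10).trans ?_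
  have h11 : E * (ρ * ‖ξ‖) ≤ E * (α * ‖ξ‖) := by gcongr
  have h12 : δ * (2 * α * ‖ξ‖ + 1) = η := div_mul_cancel₀ _ (by positivity)
  have h13 : α * ‖ξ‖ * E + E * (α * ‖ξ‖) =
      2 * √C * γ * α ^ 2 * ‖ξ‖ ^ 2 + δ * (2 * α * ‖ξ‖) := by
    rw [hEdef]; ring
  nlinarith

/-- Almost orthogonal blocks: near pairs by `2 re ⟪a, b⟫ ≤ ‖a‖² + ‖b‖²` (at most nine partners),
far pairs by hypothesis. -/
theorem sum_blocks_le {ι : Type*} (s : Finset ι) (I : Finset ℤ) (f : ι → ℤ → H) {b : ℝ}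
    (hb : 0 ≤ b) (h : ∀ m ∈ I, ∀ m' ∈ I, m + 5 ≤ m' → ‖∑ j ∈ s, ⟪f j m', f j m⟫_ℂ‖ ≤ b) :
    ∑ j ∈ s, ‖∑ m ∈ I, f j m‖ ^ 2 ≤ 9 * ∑ j ∈ s, ∑ m ∈ I, ‖f j m‖ ^ 2 + (I.card : ℝ) ^ 2 * b := by
  classical
  set N : ℤ → ℝ := fun m => ∑ j ∈ s, ‖f j m‖ ^ 2 with hN
  have hN0 : ∀ m, 0 ≤ N m := fun m => Finset.sum_nonneg fun j _ => sq_nonneg _
  have h1 : ∑ j ∈ s, ‖∑ m ∈ I, f j m‖ ^ 2 =
      ∑ m ∈ I, ∑ m' ∈ I, (∑ j ∈ s, ⟪f j m', f j m⟫_ℂ).re := by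
    have h2 : ∀ j, ‖∑ m ∈ I, f j m‖ ^ 2 = ∑ m ∈ I, ∑ m' ∈ I, (⟪f j m', f j m⟫_ℂ).re := by
      intro j
      rw [← inner_self_eq_norm_sq (𝕜 := ℂ), inner_sum, map_sum]
      refine Finset.sum_congr rfl fun m _ => ?_
      rw [sum_inner, map_sum]
      rfl
    simp only [h2, Complex.re_sum]
    rw [Finset.sum_comm]
    refine Finset.sum_congr rfl fun m _ => ?_
    rw [Finset.sum_comm]
  have h3 : ∀ m ∈ I, ∀ m' ∈ I, (∑ j ∈ s, ⟪f j m', f j m⟫_ℂ).re ≤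
      (if m' ∈ Finset.Icc (m - 4) (m + 4) then N m / 2 else 0) +
        (if m ∈ Finset.Icc (m' - 4) (m' + 4) then N m' / 2 else 0) + b := by
    intro m hm m' hm'
    by_cases hc : m' ∈ Finset.Icc (m - 4) (m + 4)
    · have hc' : m ∈ Finset.Icc (m' - 4) (m' + 4) := by
        rw [Finset.mem_Icc] at hc ⊢
        omega
      rw [if_pos hc, if_pos hc', Complex.re_sum]
      have h4 : ∑ j ∈ s, (⟪f j m', f j m⟫_ℂ).re ≤
          ∑ j ∈ s, (‖f j m‖ ^ 2 / 2 + ‖f j m'‖ ^ 2 / 2) := by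
        refine Finset.sum_le_sum fun j _ => ?_
        have h5 := (Complex.re_le_norm _).trans (norm_inner_le_norm (𝕜 := ℂ) (f j m') (f j m))
        nlinarith [sq_nonneg (‖f j m‖ - ‖f j m'‖)]
      rw [Finset.sum_add_distrib, ← Finset.sum_div, ← Finset.sum_div] at h4
      linarith
    · have hc' : m ∉ Finset.Icc (m' - 4) (m' + 4) := by
        rw [Finset.mem_Icc] at hc ⊢
        omega
      rw [if_neg hc, if_neg hc', zero_add, zero_add]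
      refine (Complex.re_le_norm _).trans ?_
      rw [Finset.mem_Icc] at hc
      by_cases h6 : m + 5 ≤ m'
      · exact h m hm m' hm' h6
      · have h7 := h m' hm' m hm (by omega)
        rw [← Complex.norm_conj, map_sum] at h7
        simpa only [inner_conj_symm] using h7
  have h8 : ∀ m, ∑ m' ∈ I, (if m' ∈ Finset.Icc (m - 4) (m + 4) then N m / 2 else 0) ≤
      9 * (N m / 2) := by
    intro m
    rw [← Finset.sum_filter, Finset.sum_const, nsmul_eq_mul]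
    refine mul_le_mul_of_nonneg_right ?_ (by linarith [hN0 m])
    have h9 : (I.filter fun m' => m' ∈ Finset.Icc (m - 4) (m + 4)).card ≤ 9 := by
      refine (Finset.card_le_card (t := Finset.Icc (m - 4) (m + 4)) fun a ha =>
        (Finset.mem_filter.1 ha).2).trans ?_
      rw [Int.card_Icc]
      omega
    exact_mod_cast h9
  rw [h1]
  refine (Finset.sum_le_sum fun m hm => Finset.sum_le_sum fun m' hm' => h3 m hm m' hm').trans ?_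
  simp only [Finset.sum_add_distrib]
  rw [Finset.sum_comm (s := I) (t := I)
    (f := fun m m' => if m ∈ Finset.Icc (m' - 4) (m' + 4) then N m' / 2 else 0)]
  have h10 := Finset.sum_le_sum fun m (_ : m ∈ I) => h8 m
  have h11 : ∑ m ∈ I, 9 * (N m / 2) = 9 / 2 * ∑ j ∈ s, ∑ m ∈ I, ‖f j m‖ ^ 2 := by
    rw [Finset.sum_comm, Finset.mul_sum]
    exact Finset.sum_congr rfl fun m _ => by rw [hN]; ring
  have h12 : ∑ _m ∈ I, ∑ _m' ∈ I, b = (I.card : ℝ) ^ 2 * b := by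
    simp only [Finset.sum_const, nsmul_eq_mul]
    ring
  linarith

/-- Splitting. Recipe: `exists_bump` gives `c₁`, `p` of width `w`, `exists_ker` the kernel; apply
`deph` with `K₀ = (n + 4) w`, small `ε₀ ≤ w`. Put `c = ∫ p` (`c² ≥ c₁ w`), `ζ_j = c.a j ξ`, blocks
`I_m = {k : m w ≤ k ε < (m + 1) w}` for `-(n+3) ≤ m < n + 3` (`ε |I_m| ≤ 2 w`),
`x_{j,m} = c⁻¹ √ε ν⁻¹ ∑_{k ∈ I_m} d.a (j, k)`, `y_{j,m}` likewise with `d.a'`, so that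
`x_{j,m} ξ = y_{j,m} ξ = fn (B_m (· - u_j)) ζ_j`, `B_m = c⁻¹ ε ∑_{k ∈ I_m} p (· - k ε)`, supported in
`[(m - 1) w, (m + 2) w]`. Cauchy–Schwarz: `‖L x_{j,m} v‖² ≤ (8/c₁) ∑_{k ∈ I_m} ‖L d.a (j,k) v‖²`.
* Near pairs: `sum_blocks_le` with `f j m = (W - 1) x_{j,m} ξ` costs `(72/c₁) d.en W 1`.
* Far pairs `m + 5 ≤ m'`: `⟪(W-1) b, (W-1) a⟫ = 2 ⟪b, a⟫ - ⟪b, W a⟫ - ⟪b, W⋆ a⟫`, the first term
  vanishes (disjoint supports), the others by `far_cross` (for `W` and `W⁻¹`, index type `↥s`) with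
  `x = x_{·,m}`, `y = y_{·,m'}`, `θ_j = u_j + (m + m' + 1) w / 2`, `α² = 8/c₁`,
  `ρ² = (8/c₁) e^{1 - w}` (softness of `d`: the exponent gains `-2w`).
* Tail: `g = 1 - ∑_m B_m` has `|g x| ≤ β'` for `|x| ≤ (n + 2) w` and `|g| ≤ 2` (`riemann`), so
  `|g x|² ≤ β'² + 4 e^{-(n+2) w} (e^x + e^{-x})`; `Tom.mom` bounds the tail by
  `(β'² + 8 e^{-2w}) ‖ξ‖²`. -/
theorem split : ∃ C₀ > 0, ∀ (n : ℕ) {β : ℝ}, 0 < β → ∃ w₀ ≥ (1 : ℝ), ∃ γ₀ > 0,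
    ∀ {H : Type u} [NormedAddCommGroup H] [InnerProductSpace ℂ H] [CompleteSpace H]
    {A B : VN H} {ξ : H} {γ : ℝ} (S : Tw A B ξ γ), 0 ≤ γ → γ ≤ γ₀ → ∀ {w : ℝ}, w₀ ≤ w →
    ∀ (c : Cpl A B ξ) (s : Finset c.ι) (u : c.ι → ℝ), c.SoftAt s u (n * w) → ∀ {τ : ℝ}, 0 < τ →
    ∃ d : Cpl A B ξ, d.Soft (2 * w) ∧ c.mass - τ * ‖ξ‖ ^ 2 ≤ d.mass ∧
      ∑ j ∈ s, ‖((S.W : Op H) - 1) (c.a j ξ)‖ ^ 2 ≤ C₀ * d.en S.W 1 + β * ‖ξ‖ ^ 2 := by
  obtain ⟨c₁, hc₁, hb⟩ := exists_bump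
  obtain ⟨C, hC, hfar⟩ := far_cross.{u}
  refine ⟨144 / c₁, by positivity, fun n β hβ => ?_⟩
  obtain ⟨M, hM⟩ : ∃ M : ℝ, M = 4 * (2 * n + 6) ^ 2 * (8 / c₁) := ⟨_, rfl⟩
  have hM0 : 0 < M := by
    rw [hM]
    positivity
  have ht : Tendsto (fun w : ℝ => (M * Real.exp 1 + 16) * Real.exp (-w)) atTop (𝓝 0) := by
    simpa using Real.tendsto_exp_neg_atTop_nhds_zero.const_mul (M * Real.exp 1 + 16)
  obtain ⟨w₁, hw₁⟩ := eventually_atTop.1 (ht.eventually (ge_mem_nhds (half_pos hβ)))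
  refine ⟨max 1 w₁, le_max_left _ _, β / (4 * M * C), by positivity, ?_⟩
  intro H _ _ _ A B ξ γ S hγ hγ0 w hw c s u hc τ hτ
  have hw1 : 1 ≤ w := (le_max_left _ _).trans hw
  obtain ⟨p, hp⟩ := hb w (one_pos.trans_le hw1)
  have hWξ : ((S.W⁻¹ : unitary (Op H)) : Op H) ξ = ξ := by
    have := congrArg (star (S.W : Op H) :) S.Wξ
    rw [← mul_apply_eq_comp, bas_su, one_apply_eq_self] at this
    exact this.symm
  have hβ0 : 0 < min 1 (β / 32) := by positivity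
  obtain ⟨d, h1, h2, h3⟩ := spl_core S.toTom (bas_su S.W) (D := C * γ) (by positivity)
    (hfar S.J S.W hγ S.Wξ S.nA) (hfar S.J S.W⁻¹ hγ hWξ S.nA')
    (fun s I f _ hb h => sum_blocks_le s I f hb h) hc₁ hw1 hp n c s u hc hτ hβ0 (min_le_left _ _)
  refine ⟨d, h1, h2, h3.trans (add_le_add_right (mul_le_mul_of_nonneg_right ?_ (sq_nonneg _)) _)⟩
  have a1 := hw₁ w ((le_max_right _ _).trans hw)
  have a2 : Real.exp (-(2 * w)) ≤ Real.exp (-w) := Real.exp_le_exp.2 (by linarith)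
  have a3 : min 1 (β / 32) ^ 2 ≤ β / 32 := by
    nlinarith [min_le_left 1 (β / 32), min_le_right 1 (β / 32)]
  have a4 : 4 * (2 * n + 6) ^ 2 * (8 / c₁ * Real.exp (1 - w) + C * γ * (8 / c₁)) =
      M * Real.exp 1 * Real.exp (-w) + γ * (4 * M * C) / 4 := by
    rw [hM, sub_eq_add_neg, Real.exp_add]
    ring
  rw [le_div_iff₀ (by positivity)] at hγ0
  rw [a4]
  linarith

end

end Crest.Agent.R78
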