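import Crest.Agent.R78.Split
import Crest.Agent.R78.IM
import Crest.Agent.R78.Compl
import Crest.Agent.R78.Red

/-!
# Row 78: doubling the width
-/

open scoped InnerProductSpace Topology ComplexConjugate
open Filter MeasureTheory

set_option linter.unusedSectionVars false

namespace Crest.Agent.R78

open Crest.Agent.R121 (Alg)

noncomputable section

universe u

variable {H : Type*} [NormedAddCommGroup H] [InnerProductSpace ℂ H] [CompleteSpace H]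

theorem step_norm (X a : Op H) (v : H) :
    ‖X ((((√2)⁻¹ : ℝ) • a) v)‖ ^ 2 = ‖X (a v)‖ ^ 2 / 2 := by
  rw [smul_apply, ContinuousLinearMap.map_smul_of_tower, norm_smul, mul_pow, Real.norm_eq_abs,
    sq_abs, inv_pow, Real.sq_sqrt zero_le_two]
  ring

theorem step_row {ι κ : Type*} [Fintype ι] (f : ι ↪ κ) {a : ι → Op H} {a' : κ → Op H}
    (h : ∀ j, a' (f j) = ((√2)⁻¹ : ℝ) • a j) {p : ι → ℝ} {p' : κ → ℝ} (hp : ∀ j, p' (f j) = p j)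
    {C : ℝ} (hC : 0 ≤ C) {v : H} (hv : ∑ j, p j * ‖star (a j) v‖ ^ 2 ≤ C * ‖v‖ ^ 2) :
    ∑ j ∈ Finset.univ.map f, p' j * ‖star (a' j) v‖ ^ 2 ≤ C * ‖v‖ ^ 2 := by
  rw [Finset.sum_map]
  have e : ∀ j, p' (f j) * ‖star (a' (f j)) v‖ ^ 2 = p j * ‖star (a j) v‖ ^ 2 / 2 := fun j => by
    have := step_norm 1 (star (a j)) v
    rw [one_apply_eq_self, one_apply_eq_self] at this
    rw [h, hp, star_smul, star_trivial, this, mul_div_assoc]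
  simp only [e, ← Finset.sum_div]
  have : 0 ≤ C * ‖v‖ ^ 2 := by positivity
  linarith

/-- One doubling step. Recipe: `C₀` from `split`, `ε₁ = min 1 (1/(32 C₀))`, `β` small,
`L, τ, δ₁` from `improve`, `w₀, γ₀` from `split` with `n = 4 L`, `Λ₀ = 2 L (max w₀ 1)`. For `b` soft
of width `2Λ`: `complete` (defect `τ/2`) gives `c ⊇ b/√2`, which is `SoftAt (univ.map f)` of width
`2Λ = n w`, `w = Λ/(2L)`; `split` (defect `τ/2`) gives `d`, soft of width `Λ₁ = Λ/L ≥ 2`;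
`improve`; `b.en W 1 = 2 ∑_{j ∈ s} ‖(W - 1) c.a j ξ‖² ≤ 2 C₀ (8 ε₀² + β) + 2 β ≤ ε₀`. -/
theorem step : ∃ ε₁ > 0, ∀ {ε₀ : ℝ}, 0 < ε₀ → ε₀ ≤ ε₁ → ∃ Λ₀ ≥ (2 : ℝ), ∃ δ₁ > 0,
    ∀ {H : Type u} [NormedAddCommGroup H] [InnerProductSpace ℂ H] [CompleteSpace H]
    {A B : VN H} {ξ : H} {γ : ℝ} (S : Tw A B ξ γ) {Λ : ℝ}, 0 ≤ γ → γ ≤ δ₁ → Λ₀ ≤ Λ →
    S.Glob 2 δ₁ → S.Loc Λ ε₀ → S.Glob (2 * Λ) ε₀ := by
  obtain ⟨C₀, hC₀, hsp⟩ := split.{u}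
  refine ⟨min 1 (1 / (32 * C₀)), by positivity, fun {ε₀} hε₀ hε₁ => ?_⟩
  have hε1 : ε₀ ≤ 1 := hε₁.trans (min_le_left _ _)
  have hε2 : ε₀ * (32 * C₀) ≤ 1 := (le_div_iff₀ (by positivity)).1 (hε₁.trans (min_le_right _ _))
  set β : ℝ := ε₀ / (4 * (C₀ + 1)) with hβdef
  have hβ : 0 < β := by positivity
  have hβ2 : β * (4 * (C₀ + 1)) = ε₀ := div_mul_cancel₀ _ (by positivity)
  obtain ⟨L, hL, τ, hτ, δ₁, hδ₁, him⟩ := improve.{u} hε₀ hε1 hβ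
  obtain ⟨w₀, hw₀, γ₀, hγ₀, hsp⟩ := hsp (4 * L) hβ
  have hL' : (1 : ℝ) ≤ L := Nat.one_le_cast.2 hL
  refine ⟨2 * L * w₀, by nlinarith [one_le_mul_of_one_le_of_one_le hL' hw₀], min δ₁ γ₀,
    by positivity, ?_⟩
  intro H _ _ _ A B ξ γ S Λ hγ hγδ hΛ hG hLoc b hb
  obtain ⟨u, hu1, hu2⟩ := hb
  obtain ⟨c, f, hc, hf⟩ := S.toTom.complete b (half_pos hτ)
  set w : ℝ := Λ / (2 * L) with hwdef
  have hw : w * (2 * L) = Λ := div_mul_cancel₀ _ (by positivity)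
  have hww : w₀ ≤ w := (le_div_iff₀ (by positivity)).2 (by linarith)
  have hext : ∀ j, Function.extend f u 0 (f j) = u j := fun j => f.injective.extend_apply _ _ _
  have hsoft : c.SoftAt (Finset.univ.map f) (Function.extend f u 0) ((4 * L : ℕ) * w) := by
    rw [show ((4 * L : ℕ) : ℝ) * w = 2 * Λ by push_cast; linarith]
    exact ⟨fun v => step_row f (fun j => (hf j).1) (fun j => by rw [hext]) (Real.exp_pos _).le
      (hu1 v), fun v => step_row f (fun j => (hf j).2) (fun j => by rw [hext]) (Real.exp_pos _).le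
      (hu2 v)⟩
  obtain ⟨d, hd1, hd2, hd3⟩ := hsp S hγ (hγδ.trans (min_le_right _ _)) hww c _ _ hsoft (half_pos hτ)
  have hdd : d.Dfc τ := by
    unfold Cpl.Dfc at *
    linarith
  have h1 := him S (Λ₁ := 2 * w) hγ (hγδ.trans (min_le_left _ _)) (by linarith)
    (fun a ha => (hG a ha).trans (mul_le_mul_of_nonneg_right (min_le_left _ _) (sq_nonneg _)))
    (by rwa [show (L : ℝ) * (2 * w) = Λ by linarith]) d hd1 hdd
  have h2 : ∑ j ∈ Finset.univ.map f, ‖((S.W : Op H) - 1) (c.a j ξ)‖ ^ 2 = b.en S.W 1 / 2 := by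
    rw [Finset.sum_map, Cpl.en, Finset.sum_div]
    refine Finset.sum_congr rfl fun j _ => ?_
    rw [(hf j).1, step_norm, one_apply_eq_self]
  rw [h2] at hd3
  have h3 := mul_le_mul_of_nonneg_left h1 hC₀.le
  have h4 : 2 * (C₀ * (8 * ε₀ ^ 2 + β) + β) ≤ ε₀ := by nlinarith
  have h5 := mul_le_mul_of_nonneg_right h4 (sq_nonneg ‖ξ‖)
  linarith

/-- The local form: reduce by each central projection (`exists_cornerData`, `Tw.exists_red`,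
`Tw.Loc.red`, `Tw.Glob.of_red`). -/
theorem loc_step : ∃ ε₁ > 0, ∀ {ε₀ : ℝ}, 0 < ε₀ → ε₀ ≤ ε₁ → ∃ Λ₀ ≥ (2 : ℝ), ∃ δ₁ > 0,
    ∀ {H : Type u} [NormedAddCommGroup H] [InnerProductSpace ℂ H] [CompleteSpace H]
    {A B : VN H} {ξ : H} {γ : ℝ} (S : Tw A B ξ γ) {Λ : ℝ}, 0 ≤ γ → γ ≤ δ₁ → Λ₀ ≤ Λ →
    S.Loc 2 δ₁ → S.Loc Λ ε₀ → S.Loc (2 * Λ) ε₀ := by
  obtain ⟨ε₁, hε₁, h⟩ := step.{u}
  refine ⟨ε₁, hε₁, fun {ε₀} hε₀ hε => ?_⟩
  obtain ⟨Λ₀, hΛ₀, δ₁, hδ₁, h⟩ := h hε₀ hε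
  refine ⟨Λ₀, hΛ₀, δ₁, hδ₁, ?_⟩
  intro H _ _ _ A B ξ γ S Λ hγ hγδ hΛ h2 hL z hz c hc
  obtain ⟨L, _, _, _, s, t, C, -⟩ := exists_cornerData hz.1
  obtain ⟨S', hW⟩ := S.exists_red hz C
  exact Tw.Glob.of_red hz C hW
    (h S' hγ hγδ hΛ (Tw.Loc.red hz C hW h2).glob (Tw.Loc.red hz C hW hL)) c hc

/-- All widths: induction on `2 ^ k Λ₀` with `δ = min δ₁ ε₀` (and `ε₀ = min ε ε₁`). -/
theorem loc_all {ε : ℝ} (hε : 0 < ε) : ∃ Λ₀ : ℝ, ∃ δ > 0,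
    ∀ {H : Type u} [NormedAddCommGroup H] [InnerProductSpace ℂ H] [CompleteSpace H]
    {A B : VN H} {ξ : H} {γ : ℝ} (S : Tw A B ξ γ), 0 ≤ γ → γ ≤ δ → S.Loc Λ₀ δ →
    ∀ Λ, S.Loc Λ ε := by
  obtain ⟨ε₁, hε₁, h⟩ := loc_step.{u}
  obtain ⟨Λ₀, hΛ₀, δ₁, hδ₁, h⟩ := h (ε₀ := min ε ε₁) (by positivity) (min_le_right _ _)
  refine ⟨Λ₀, min δ₁ (min ε ε₁), by positivity, ?_⟩
  intro H _ _ _ A B ξ γ S hγ hγδ hL Λ
  have h0 : (0 : ℝ) < Λ₀ := two_pos.trans_le hΛ₀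
  have key : ∀ k : ℕ, S.Loc (2 ^ k * Λ₀) (min ε ε₁) := fun k => by
    induction k with
    | zero => exact hL.mono (by simp) (min_le_right _ _)
    | succ k ih =>
      rw [pow_succ', mul_assoc]
      exact h S hγ (hγδ.trans (min_le_left _ _))
        (le_mul_of_one_le_left h0.le (one_le_pow₀ one_le_two)) (hL.mono hΛ₀ (min_le_left _ _)) ih
  obtain ⟨k, hk⟩ := pow_unbounded_of_one_lt (Λ / Λ₀) (one_lt_two (α := ℝ))
  exact (key k).mono ((div_le_iff₀ h0).1 hk.le) (min_le_left _ _)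

end

end Crest.Agent.R78
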