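import Crest.Agent.R78.Strip
import Crest.Agent.R78.Graph

/-!
# Row 78: consequences of the Tomita data
-/

open scoped InnerProductSpace Topology ComplexConjugate
open Filter MeasureTheory

set_option linter.unusedSectionVars false

namespace Crest.Agent.R78

open Crest.Agent.R121 (Alg)

noncomputable section

universe u

variable {H : Type*} [NormedAddCommGroup H] [InnerProductSpace ℂ H] [CompleteSpace H]

/-- The functional calculus of `-D`. -/
def FC.neg (F : FC H) : FC H where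
  fn g := F.fn fun x => g (-x)
  fn_one := F.fn_one
  fn_add := fun hf hg => F.fn_add hf.comp_neg hg.comp_neg
  fn_smul := fun c _ hf => F.fn_smul c hf.comp_neg
  fn_mul := fun hf hg => F.fn_mul hf.comp_neg hg.comp_neg
  fn_star := fun hf => F.fn_star hf.comp_neg
  meas := fun v => by
    obtain ⟨μ, hμ, h⟩ := F.meas v
    refine ⟨μ.map fun x => -x, inferInstance, fun g hg => ?_⟩
    rw [h _ hg.comp_neg, integral_map measurable_neg.aemeasurable hg.1.aestronglyMeasurable]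

theorem FC.neg_V (F : FC H) (t : ℝ) : F.neg.V t = F.V (-t) := by
  change F.fn _ = F.fn _
  congr 1
  funext x
  push_cast
  ring_nf

theorem FC.norm_sig_le (F : FC H) {k : ℝ → ℂ} (hk : Integrable k) (x : Op H) :
    ‖F.sig k x‖ ≤ (∫ t, ‖k t‖) * ‖x‖ := by
  refine norm_oint_le hk (F.sc_conj x) fun t => ?_
  have := bas_norm_conj (F.Vu t) x
  rw [FC.coe_Vu, F.star_V] at this
  exact this.le

theorem FC.star_sig (F : FC H) {k : ℝ → ℂ} (hk : Integrable k) (x : Op H) :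
    star (F.sig k x) = F.sig (fun t => conj (k t)) (star x) := by
  have e : (fun t => star (F.V t * x * F.V (-t))) = fun t => F.V t * star x * F.V (-t) := by
    funext t
    rw [star_mul, star_mul, F.star_V, F.star_V, neg_neg, mul_assoc]
  unfold FC.sig
  rw [star_oint hk (F.sc_conj x) (by rw [e]; exact F.sc_conj _), e]

theorem FC.col_sig (F : FC H) {ι : Type*} [Fintype ι] {k : ι → ℝ → ℂ} {κ : ℝ → ℝ}
    (hk : ∀ j, Integrable (k j)) (hκ : Integrable κ) (hkκ : ∀ j t, ‖k j t‖ ≤ κ t) {a : ι → Op H}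
    {c : ℝ} (hc : 0 ≤ c) (h : Col a c) : Col (fun j => F.sig (k j) (a j)) ((∫ t, κ t) * c) := by
  exact col_oint hk hκ hkκ (fun j => F.sc_conj (a j)) hc fun t => F.col_conj h t

namespace Tom

variable {A B : VN H} {ξ : H} (T : Tom A B ξ)

include T in
theorem comm' : B.commutant = A := by
  rw [← T.comm, VonNeumannAlgebra.commutant_commutant]

include T in
theorem commute {x y : Op H} (hx : x ∈ A) (hy : y ∈ B) : Commute x y := by
  rw [← T.comm] at hy
  exact mem_comm.1 hy x hx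

include T in
theorem sepA {x : Op H} (hx : x ∈ A) (h : x ξ = 0) : x = 0 := by
  have hc : Cyc A.commutant ξ := by rw [T.comm]; exact T.cycB
  exact hc.sep hx h

include T in
theorem sepB {y : Op H} (hy : y ∈ B) (h : y ξ = 0) : y = 0 := by
  have hc : Cyc B.commutant ξ := by rw [T.comm']; exact T.cycA
  exact hc.sep hy h

include T in
theorem cen_iff {z : Op H} : Cen B z ↔ Cen A z := by
  unfold Cen
  rw [T.comm, T.comm', and_comm]

include T in
theorem cp_iff {z : Op H} : CP B z ↔ CP A z := by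
  exact and_congr_right fun _ => T.cen_iff

include T in
theorem eZ_eq : eZ B ξ = eZ A ξ := by
  rw [← T.comm]
  exact eZ_commutant A ξ

theorem V_ξ (t : ℝ) : T.V t ξ = ξ := by
  refine (T.fn_ξ (BC.expI t)).trans ?_
  simp

theorem J_V (t : ℝ) (v : H) : T.J (T.V t v) = T.V t (T.J v) := by
  refine (T.J_fn (BC.expI t) v).trans ?_
  change T.fn _ _ = T.fn _ _
  congr 2
  funext x
  rw [← Complex.exp_conj]
  simp

theorem tapi_nrm (t : ℝ) : Nrm A (T.Vu t) := by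
  intro y hy
  rw [FC.coe_Vu, FC.star_V]
  refine ⟨T.V_mem t y hy, ?_⟩
  have := T.V_mem (-t) y hy
  rwa [neg_neg] at this

theorem V_memB (t : ℝ) {y : Op H} (hy : y ∈ B) : T.V t * y * T.V (-t) ∈ B := by
  have h := (T.tapi_nrm t).commutant
  rw [T.comm] at h
  have := (h y hy).1
  rwa [FC.coe_Vu, FC.star_V] at this

theorem nrm_Vu (t : ℝ) : Nrm A (T.Vu t) := by
  exact T.tapi_nrm t

theorem V_of_mem_zsp (t : ℝ) {v : H} (hv : v ∈ zsp A ξ) : T.V t v = v := by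
  refine eq_on_zsp (S := T.V t) (T := 1) (fun z hz => ?_) hv
  have := Graph_comm_apply (T.cen_fn z hz (BC.expI t)) ξ
  change z (T.V t ξ) = T.V t (z ξ) at this
  rw [← this, T.V_ξ]
  rfl

theorem eZ_V (t : ℝ) (v : H) : eZ A ξ (T.V t v) = eZ A ξ v := by
  refine Submodule.eq_starProjection_of_mem_orthogonal (eZ_mem A ξ v) ?_
  rw [Submodule.mem_orthogonal]
  intro w hw
  have h1 := (Submodule.mem_orthogonal _ _).1 ((zsp A ξ).sub_starProjection_mem_orthogonal v) w hw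
  rw [inner_sub_right] at h1 ⊢
  rw [← bas_star_inner, FC.star_V, T.V_of_mem_zsp _ hw]
  exact h1

/-- The `F`-relation: write `y = J x J`, apply `srel` to `x` and `conj g(-·)`, then apply `J`. -/
theorem frel {y : Op H} (hy : y ∈ B) {g : ℝ → ℂ} (hg : BC g)
    (hg' : BC fun s => (Real.exp (-s / 2) : ℂ) * g s) :
    T.fn (fun s => (Real.exp (-s / 2) : ℂ) * g s) (y ξ) = T.fn g (T.J (star y ξ)) := by
  have e : (fun s : ℝ => (Real.exp (s / 2) : ℂ) * conj (g (-s))) =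
      fun s : ℝ => conj ((Real.exp (-(-s) / 2) : ℂ) * g (-s)) := by
    funext s
    rw [map_mul, Complex.conj_ofReal, neg_neg]
  have h1 : BC fun s : ℝ => (Real.exp (s / 2) : ℂ) * conj (g (-s)) := by
    rw [e]; exact hg'.comp_neg.conj'
  have h2 := congrArg T.J (T.srel _ (T.jcB y hy) hg.comp_neg.conj' h1)
  rw [T.J_fn h1, T.J_fn hg.comp_neg.conj', ← jc_star T.JJ, jc_apply, jc_apply, T.JJ, T.JJ,
    T.Jξ] at h2
  simpa only [map_mul, Complex.conj_ofReal, neg_neg, Complex.conj_conj] using h2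

/-- The Tomita data of the commutant. -/
def swap : Tom B A ξ where
  toFC := T.toFC.neg
  comm := T.comm'
  cycA := T.cycB
  cycB := T.cycA
  J := T.J
  JJ := T.JJ
  Jξ := T.Jξ
  J_fn := fun hg v => T.J_fn hg.comp_neg v
  fn_ξ := fun hg => by
    have := T.fn_ξ hg.comp_neg
    rwa [neg_zero] at this
  srel := fun _ hx _ hg hg' => T.frel hx hg.comp_neg hg'.comp_neg
  jcA := T.jcB
  jcB := T.jcA
  V_mem := fun t x hx => by
    rw [FC.neg_V, FC.neg_V]
    exact T.V_memB _ hx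
  cen_fn := fun z hz _ hg => T.cen_fn z (T.cen_iff.1 hz) hg.comp_neg
  cen_J := fun z hz => T.cen_J z (T.cen_iff.1 hz)

theorem sig_memA {k : ℝ → ℂ} (hk : Integrable k) {x : Op H} (hx : x ∈ A) : T.sig k x ∈ A := by
  exact oint_mem hk (T.sc_conj x) fun t => T.V_mem t x hx

theorem sig_memB {k : ℝ → ℂ} (hk : Integrable k) {y : Op H} (hy : y ∈ B) : T.sig k y ∈ B := by
  exact oint_mem hk (T.sc_conj y) fun t => T.V_memB t hy

theorem sig_ξ {k f : ℝ → ℂ} (h : Ker k f) (x : Op H) : T.sig k x ξ = T.fn f (x ξ) := by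
  unfold FC.sig
  rw [oint_apply h.int (T.sc_conj x), ← T.integral_V h]
  congr 1
  funext t
  rw [mul_apply_eq_comp, mul_apply_eq_comp, T.V_ξ]

theorem tapi_keyA {a : Op H} (ha : a ∈ A) {f : ℝ → ℂ} (hf : BC f)
    (hf' : BC fun x => (Real.exp (x / 2) : ℂ) * f x) {v : H} (he : a ξ = T.fn f v) :
    T.J (star a ξ) = T.fn (fun x => (Real.exp (x / 2) : ℂ) * f x) v := by
  refine T.eq_of_forall_supp fun g hg hs => ?_
  have h1 := BC.of_supp hg hs
  have h2 : BC fun x : ℝ => (Real.exp (x / 2) : ℂ) * g x :=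
    BC.of_supp (by fun_prop) hs.mul_left
  rw [← T.srel a ha h1 h2, he, ← mul_apply_eq_comp, ← mul_apply_eq_comp, ← T.fn_mul h2 hf,
    ← T.fn_mul h1 hf']
  congr 2
  funext x
  ring

theorem tapi_keyB {a : Op H} (ha : a ∈ B) {f : ℝ → ℂ} (hf : BC f)
    (hf' : BC fun x => (Real.exp (-x / 2) : ℂ) * f x) {v : H} (he : a ξ = T.fn f v) :
    T.J (star a ξ) = T.fn (fun x => (Real.exp (-x / 2) : ℂ) * f x) v := by
  refine T.eq_of_forall_supp fun g hg hs => ?_
  have h1 := BC.of_supp hg hs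
  have h2 : BC fun x : ℝ => (Real.exp (-x / 2) : ℂ) * g x :=
    BC.of_supp (by fun_prop) hs.mul_left
  rw [← T.frel ha h1 h2, he, ← mul_apply_eq_comp, ← mul_apply_eq_comp, ← T.fn_mul h2 hf,
    ← T.fn_mul h1 hf']
  congr 2
  funext x
  ring

/-- Adjoint of a smoothed coupled element. Recipe: both sides lie in `A`; on `ξ`, with
`a = sig k b` and compactly supported `χ`:
`fn χ (J a⋆ ξ) = fn (e^{x/2} χ) (a ξ) = fn χ (fn (e^{x/2} f) (b' ξ))`; `eq_of_forall_supp`. -/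
theorem star_sig_eq {k k' f : ℝ → ℂ} (h : Ker k f)
    (h' : Ker k' fun x => (Real.exp (x / 2) : ℂ) * f x) {b b' : Op H} (hb : b ∈ A) (hb' : b' ∈ B)
    (he : b ξ = b' ξ) : star (T.sig k b) = jc T.J (T.sig k' b') := by
  have ha := T.sig_memA h.int hb
  refine sub_eq_zero.1 (T.sepA (sub_mem (star_mem ha) (T.jcB _ (T.sig_memB h'.int hb'))) ?_)
  rw [sub_apply, jc_apply, T.Jξ, T.sig_ξ h', ← he, ← T.tapi_keyA ha h.bc h'.bc (T.sig_ξ h b),
    T.JJ, sub_self]

theorem star_sig_eq' {k k' f : ℝ → ℂ} (h : Ker k f)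
    (h' : Ker k' fun x => (Real.exp (-x / 2) : ℂ) * f x) {b b' : Op H} (hb : b ∈ A) (hb' : b' ∈ B)
    (he : b ξ = b' ξ) : star (T.sig k b') = jc T.J (T.sig k' b) := by
  have ha := T.sig_memB h.int hb'
  refine sub_eq_zero.1 (T.sepB (sub_mem (star_mem ha) (T.jcA _ (T.sig_memA h'.int hb))) ?_)
  rw [sub_apply, jc_apply, T.Jξ, T.sig_ξ h', he, ← T.tapi_keyB ha h.bc h'.bc (T.sig_ξ h b'),
    T.JJ, sub_self]

/-- Smoothed elements are coupled. -/
theorem sig_coupled {k k' f : ℝ → ℂ} (h : Ker k f)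
    (h' : Ker k' fun x => (Real.exp (-x / 2) : ℂ) * f x) {x : Op H} (hx : x ∈ A) :
    T.sig k x ξ = T.sig k' (jc T.J (star x)) ξ := by
  have e : (fun s : ℝ => (Real.exp (s / 2) : ℂ) * ((Real.exp (-s / 2) : ℂ) * f s)) = f := by
    funext s
    rw [← mul_assoc, ← Complex.ofReal_mul, ← Real.exp_add]
    simp [← add_div]
  rw [T.sig_ξ h, T.sig_ξ h', jc_apply, T.Jξ, ← T.srel x hx h'.bc (by rw [e]; exact h.bc), e]

theorem sig_coupled' {k k' f : ℝ → ℂ} (h : Ker k f)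
    (h' : Ker k' fun x => (Real.exp (x / 2) : ℂ) * f x) {y : Op H} (hy : y ∈ B) :
    T.sig k y ξ = T.sig k' (jc T.J (star y)) ξ := by
  have e : (fun s : ℝ => (Real.exp (-s / 2) : ℂ) * ((Real.exp (s / 2) : ℂ) * f s)) = f := by
    funext s
    rw [← mul_assoc, ← Complex.ofReal_mul, ← Real.exp_add]
    simp [← add_div]
  rw [T.sig_ξ h, T.sig_ξ h', jc_apply, T.Jξ, ← T.frel hy h'.bc (by rw [e]; exact h.bc), e]

end Tom

/-- The resolvent function `1 / (1 + e^{x - s})`. -/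
def rs (s x : ℝ) : ℂ := ((1 + Real.exp (x - s))⁻¹ : ℝ)

theorem bc_rs (s : ℝ) : BC (rs s) := by
  refine BC.of_le (C := 1) ?_ fun x => ?_
  · unfold rs
    exact Complex.continuous_ofReal.comp
      (Continuous.inv₀ (by fun_prop) fun x => (by positivity : (0 : ℝ) < _).ne')
  · unfold rs
    rw [Complex.norm_real, Real.norm_eq_abs, abs_of_pos (by positivity)]
    exact inv_le_one_of_one_le₀ (by linarith [Real.exp_pos (x - s)])

namespace Tom

variable {A B : VN H} {ξ : H} (T : Tom A B ξ)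

/-- With `κ x = 1/(2 cosh((x - s)/2)) ≤ 1/2`: `rs s = e^{s/2} e^{-x/2} κ`,
`1 - rs s = e^{-s/2} e^{x/2} κ`; so the left side is `‖fn κ (J (e^{s/2} y⋆ ξ - e^{-s/2} x⋆ ξ))‖`. -/
theorem res {x y : Op H} (hx : x ∈ A) (hy : y ∈ B) (s : ℝ) :
    ‖T.fn (rs s) (x ξ + y ξ) - x ξ‖ ≤
      ‖(Real.exp (s / 2) : ℂ) • star y ξ - (Real.exp (-s / 2) : ℂ) • star x ξ‖ := by
  let κ : ℝ → ℂ := fun t => ((Real.exp ((t - s) / 2) + Real.exp (-((t - s) / 2)))⁻¹ : ℝ)
  have hκ1 : ∀ t, ‖κ t‖ ≤ 1 := fun t => by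
    rw [Complex.norm_real, Real.norm_eq_abs, abs_of_pos (by positivity)]
    exact inv_le_one_of_one_le₀
      (by linarith [Real.add_one_le_exp ((t - s) / 2), Real.add_one_le_exp (-((t - s) / 2))])
  have hκ : BC κ := BC.of_le (Complex.continuous_ofReal.comp
    (Continuous.inv₀ (by fun_prop) fun x => (by positivity : (0 : ℝ) < _).ne')) hκ1
  have hE : ∀ t : ℝ, Real.exp (t - s) = Real.exp (t / 2) ^ 2 / Real.exp (s / 2) ^ 2 ∧
      Real.exp ((t - s) / 2) = Real.exp (t / 2) / Real.exp (s / 2) ∧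
      Real.exp (-((t - s) / 2)) = Real.exp (s / 2) / Real.exp (t / 2) ∧
      Real.exp (-t / 2) = (Real.exp (t / 2))⁻¹ ∧ Real.exp (-s / 2) = (Real.exp (s / 2))⁻¹ := by
    intro t
    refine ⟨?_, ?_, ?_, ?_, ?_⟩
    · rw [← Real.exp_nat_mul, ← Real.exp_nat_mul, ← Real.exp_sub]; congr 1; push_cast; ring
    · rw [← Real.exp_sub]; congr 1; ring
    · rw [← Real.exp_sub]; congr 1; ring
    · rw [← Real.exp_neg, neg_div]
    · rw [← Real.exp_neg, neg_div]
  have e1 : (fun t : ℝ => (Real.exp (-t / 2) : ℂ) * ((Real.exp (s / 2) : ℂ) * κ t)) = rs s := by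
    funext t
    obtain ⟨a1, a2, a3, a4, -⟩ := hE t
    simp only [κ, rs]
    rw [← Complex.ofReal_mul, ← Complex.ofReal_mul, a1, a2, a3, a4]
    congr 1
    have := Real.exp_pos (t / 2)
    have := Real.exp_pos (s / 2)
    field_simp
    ring
  have e2 : (fun t : ℝ => (Real.exp (t / 2) : ℂ) * ((Real.exp (-s / 2) : ℂ) * κ t)) =
      fun t => 1 - rs s t := by
    funext t
    obtain ⟨a1, a2, a3, -, a5⟩ := hE t
    simp only [κ, rs]
    rw [← Complex.ofReal_mul, ← Complex.ofReal_mul, ← Complex.ofReal_one, ← Complex.ofReal_sub,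
      a1, a2, a3, a5]
    congr 1
    have := Real.exp_pos (t / 2)
    have := Real.exp_pos (s / 2)
    field_simp
    ring
  have h1 := T.frel hy ((BC.const (Real.exp (s / 2) : ℂ)).mul hκ) (by rw [e1]; exact bc_rs s)
  have h2 := T.srel x hx ((BC.const (Real.exp (-s / 2) : ℂ)).mul hκ)
    (by rw [e2]; exact (BC.const 1).sub (bc_rs s))
  rw [e1, T.fn_smul _ hκ] at h1
  rw [e2, T.fn_smul _ hκ, T.fn_sub (BC.const 1) (bc_rs s), T.fn_one, sub_apply,
    one_apply_eq_self] at h2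
  have e3 : T.fn (rs s) (x ξ + y ξ) - x ξ =
      T.fn κ (T.J ((Real.exp (s / 2) : ℂ) • star y ξ - (Real.exp (-s / 2) : ℂ) • star x ξ)) := by
    rw [map_sub, LinearIsometryEquiv.map_smulₛₗ, LinearIsometryEquiv.map_smulₛₗ,
      Complex.conj_ofReal, Complex.conj_ofReal, map_sub, map_smul, map_smul, ← smul_apply,
      ← smul_apply, ← h1, ← h2, map_add]
    abel
  rw [e3]
  refine ((T.fn κ).le_of_opNorm_le (T.norm_fn_le hκ hκ1) _).trans ?_
  rw [one_mul, LinearIsometryEquiv.norm_map]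

theorem tapi_three (F : FC H) {f g₁ g₂ g₃ : ℝ → ℂ} (hf : BC f) (h₁ : BC g₁) (h₂ : BC g₂)
    (h₃ : BC g₃) (h : ∀ x, ‖f x‖ ^ 2 ≤ ‖g₁ x‖ ^ 2 + ‖g₂ x‖ ^ 2 + ‖g₃ x‖ ^ 2) (v : H) :
    ‖F.fn f v‖ ^ 2 ≤ ‖F.fn g₁ v‖ ^ 2 + ‖F.fn g₂ v‖ ^ 2 + ‖F.fn g₃ v‖ ^ 2 := by
  have := F.sum_norm_sq_le (Finset.univ : Finset Unit) (Finset.univ : Finset (Fin 3))
    (f := fun _ => f) (g := ![g₁, g₂, g₃]) (fun _ _ => hf)
    (fun k _ => by fin_cases k <;> assumption) (fun x => by
      simpa [Fin.sum_univ_three] using h x) v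
  simpa [Fin.sum_univ_three] using this

theorem tapi_mom {a a' : Op H} (ha : a ∈ A) (ha' : a' ∈ B) (he : a ξ = a' ξ) {g : ℝ → ℂ}
    (hg : BC g) {α β : ℝ} (hα : 0 ≤ α) (hβ : 0 < β)
    (h : ∀ x, ‖g x‖ ^ 2 ≤ α + β * (Real.exp x + Real.exp (-x))) (u : ℝ) :
    ‖T.fn (fun x => g (x - u)) (a ξ)‖ ^ 2 ≤ α * ‖a ξ‖ ^ 2 +
      β * (Real.exp (-u) * ‖star a ξ‖ ^ 2) + β * (Real.exp u * ‖star a' ξ‖ ^ 2) := by
  let D : ℝ → ℝ := fun x => α + β * (Real.exp x + Real.exp (-x))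
  have hD : ∀ x, 0 < D x := fun x => by positivity
  let r : ℝ → ℂ := fun x => g x * ((√(D x))⁻¹ : ℝ)
  have hr : ∀ x, ‖r x‖ ^ 2 * D x = ‖g x‖ ^ 2 := fun x => by
    simp only [r]
    rw [norm_mul, Complex.norm_real, mul_pow, Real.norm_eq_abs, sq_abs, inv_pow,
      Real.sq_sqrt (hD x).le, mul_assoc, inv_mul_cancel₀ (hD x).ne', mul_one]
  have hr2 : ∀ x, ‖r x‖ ^ 2 ≤ 1 := fun x => by
    refine le_of_mul_le_mul_right ?_ (hD x)
    rw [hr, one_mul]
    exact h x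
  have hr1 : ∀ x, ‖r x‖ ≤ 1 := fun x => by
    have := hr2 x
    nlinarith [norm_nonneg (r x)]
  have hrc : Continuous r := hg.1.mul (Complex.continuous_ofReal.comp
    (Continuous.inv₀ (by fun_prop) fun x => (Real.sqrt_pos.2 (hD x)).ne'))
  have hrb : BC fun x => r (x - u) := (BC.of_le hrc hr1).comp_sub u
  obtain ⟨C, hC⟩ := hg.2
  -- the weighted functions
  have key : ∀ (e w : ℝ) (q : ℂ),
      ‖(Real.exp (e / 2) : ℂ) * (((√β * Real.exp (w / 2) : ℝ) : ℂ) * q)‖ ^ 2 =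
        β * Real.exp (e + w) * ‖q‖ ^ 2 := by
    intro e w q
    rw [norm_mul, norm_mul, Complex.norm_real, Complex.norm_real, mul_pow, mul_pow,
      Real.norm_eq_abs, Real.norm_eq_abs, sq_abs, sq_abs, mul_pow, Real.sq_sqrt hβ.le,
      ← Real.exp_nat_mul, ← Real.exp_nat_mul, Real.exp_add]
    push_cast
    rw [mul_div_cancel₀ _ (two_ne_zero), mul_div_cancel₀ _ (two_ne_zero)]
    ring
  have bnd : ∀ (q : ℂ) (x : ℝ), ‖q‖ ^ 2 ≤ ‖r x‖ ^ 2 * D x → ‖q‖ ≤ C := fun q x hq => by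
    rw [hr] at hq
    exact (le_of_pow_le_pow_left₀ two_ne_zero (norm_nonneg _) hq).trans (hC x)
  have g2 := (BC.const ((√β * Real.exp (-u / 2) : ℝ) : ℂ)).mul hrb
  have g3 := (BC.const ((√β * Real.exp (u / 2) : ℝ) : ℂ)).mul hrb
  have g2' : BC fun x : ℝ =>
      (Real.exp (x / 2) : ℂ) * (((√β * Real.exp (-u / 2) : ℝ) : ℂ) * r (x - u)) := by
    refine BC.of_le (C := C) (Continuous.mul (by fun_prop) g2.1) fun x => bnd _ (x - u) ?_
    rw [key, ← sub_eq_add_neg, mul_comm]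
    refine mul_le_mul_of_nonneg_left ?_ (sq_nonneg _)
    have := mul_pos hβ (Real.exp_pos (-(x - u)))
    simp only [D]
    linarith
  have g3' : BC fun x : ℝ =>
      (Real.exp (-x / 2) : ℂ) * (((√β * Real.exp (u / 2) : ℝ) : ℂ) * r (x - u)) := by
    refine BC.of_le (C := C) (Continuous.mul (by fun_prop) g3.1) fun x => bnd _ (x - u) ?_
    rw [key, show -x + u = -(x - u) by ring, mul_comm]
    refine mul_le_mul_of_nonneg_left ?_ (sq_nonneg _)
    have := mul_pos hβ (Real.exp_pos (x - u))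
    simp only [D]
    linarith
  have h1 := tapi_three T.toFC (hg.comp_sub u) (BC.const (√α : ℝ)) g2' g3' (fun x => by
    rw [key, key, ← sub_eq_add_neg, show -x + u = -(x - u) by ring, ← hr, Complex.norm_real,
      Real.norm_eq_abs, sq_abs, Real.sq_sqrt hα]
    have := mul_le_mul_of_nonneg_left (hr2 (x - u)) hα
    simp only [D]
    linarith) (a ξ)
  have n : ∀ (w : ℝ) (v : H), ‖T.fn (fun x => ((√β * Real.exp (w / 2) : ℝ) : ℂ) * r (x - u))
      (T.J v)‖ ^ 2 ≤ β * (Real.exp w * ‖v‖ ^ 2) := by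
    intro w v
    have a1 : ‖T.fn (fun x => r (x - u)) (T.J v)‖ ≤ ‖v‖ := by
      refine ((T.fn _).le_of_opNorm_le (T.norm_fn_le hrb fun x => hr1 _) _).trans ?_
      rw [one_mul, LinearIsometryEquiv.norm_map]
    have a2 := key 0 w 1
    simp only [zero_div, Real.exp_zero, Complex.ofReal_one, one_mul, mul_one, zero_add, norm_one,
      one_pow] at a2
    rw [T.fn_smul _ hrb, smul_apply, norm_smul, mul_pow, a2, mul_assoc]
    gcongr
  rw [T.srel a ha g2 g2'] at h1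
  nth_rewrite 3 [he] at h1
  rw [T.frel ha' g3 g3', T.fn_const, smul_apply, one_apply_eq_self, norm_smul, mul_pow,
    Complex.norm_real, Real.norm_eq_abs, sq_abs, Real.sq_sqrt hα] at h1
  have n2 := n (-u) (star a ξ)
  have n3 := n u (star a' ξ)
  linarith

/-- Exponential moments of softly localised couplings. Recipe: `h = ‖g‖² / (α + β e^x + β e^{-x})`
has values in `[0, 1]`; `‖fn (g(· - u)) ζ‖² ≤ α ‖ζ‖² + β ‖fn (√h e^{(x-u)/2}) a ξ‖² +
β ‖fn (√h e^{-(x-u)/2}) a' ξ‖²` (`sum_norm_sq_le`), then `srel`, `frel`; apply to `a_j z`, `a'_j z`. -/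
theorem mom (c : Cpl A B ξ) {s : Finset c.ι} {u : c.ι → ℝ} {Λ : ℝ} (hc : c.SoftAt s u Λ)
    {z : Op H} (hz : Cen A z) {g : ℝ → ℂ} (hg : BC g) {α β : ℝ} (hα : 0 ≤ α) (hβ : 0 < β)
    (h : ∀ x, ‖g x‖ ^ 2 ≤ α + β * (Real.exp x + Real.exp (-x))) :
    ∑ j ∈ s, ‖T.fn (fun x => g (x - u j)) (c.a j (z ξ))‖ ^ 2 ≤
      (α + 2 * β * Real.exp Λ) * ‖z ξ‖ ^ 2 := by
  have hz' := T.cen_iff.2 hz
  have h1 : ∀ j ∈ s, ‖T.fn (fun x => g (x - u j)) (c.a j (z ξ))‖ ^ 2 ≤ α * ‖c.a j (z ξ)‖ ^ 2 +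
      β * (Real.exp (-u j) * ‖star (c.a j) (star z ξ)‖ ^ 2) +
      β * (Real.exp (u j) * ‖star (c.a' j) (star z ξ)‖ ^ 2) := by
    intro j _
    have c1 : Commute (c.a j) z := mem_comm.1 hz.2 _ (c.mem j)
    have c2 : Commute (c.a' j) z := mem_comm.1 hz'.2 _ (c.mem' j)
    have := T.tapi_mom (mul_mem (c.mem j) hz.1) (mul_mem (c.mem' j) hz'.1)
      (by rw [c1.eq, c2.eq, mul_apply_eq_comp, mul_apply_eq_comp, c.eq j]) hg hα hβ h (u j)
    rw [show star (c.a j * z) = star (c.a j) * star z by rw [c1.eq, star_mul],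
      show star (c.a' j * z) = star (c.a' j) * star z by rw [c2.eq, star_mul]] at this
    exact this
  refine (Finset.sum_le_sum h1).trans ?_
  rw [Finset.sum_add_distrib, Finset.sum_add_distrib, ← Finset.mul_sum, ← Finset.mul_sum,
    ← Finset.mul_sum]
  have b1 : ∑ j ∈ s, ‖c.a j (z ξ)‖ ^ 2 ≤ ‖z ξ‖ ^ 2 := by
    have := c.col (z ξ)
    rw [one_pow, one_mul] at this
    exact (Finset.sum_le_sum_of_subset_of_nonneg (Finset.subset_univ s)
      fun _ _ _ => sq_nonneg _).trans this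
  have b2 := hc.1 (star z ξ)
  have b3 := hc.2 (star z ξ)
  rw [Graph_norm_star hz] at b2 b3
  have b4 := mul_le_mul_of_nonneg_left b1 hα
  have b5 := mul_le_mul_of_nonneg_left b2 hβ.le
  have b6 := mul_le_mul_of_nonneg_left b3 hβ.le
  linarith

end Tom

end

end Crest.Agent.R78
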