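import Crest.Agent.R78.Basic
import Crest.Agent.R121.Main

/-!
# Row 78: Hochschild cohomology with uniform constants
-/

open scoped InnerProductSpace Topology ComplexConjugate
open Filter MeasureTheory

set_option linter.unusedSectionVars false

namespace Crest.Agent.R78

open Crest.Agent.R121 (Alg)

noncomputable section

universe u

variable {H : Type*} [NormedAddCommGroup H] [InnerProductSpace ℂ H] [CompleteSpace H]

open Crest.OpAlg R121

variable {M : VN H}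

section

open scoped ComplexOrder

theorem VanN_gamma {z : Alg M} {s : ℕ → Alg M} (hz : IsCentralProj M z) (hs : Isoms z s) {α : Alg M →L[ℂ] Alg M}
    (h₁ : ∀ x i, α x * s i = s i * x) (h₂ : ∀ x i, star (s i) * α x = x * star (s i)) :
    ∃ γ : (Alg M →L[ℂ] Alg M) →L[ℂ] (Alg M →L[ℂ] Alg M), ‖γ‖ ≤ 1 ∧ (∀ φ, IsCB M (γ φ)) ∧
      (∀ a φ, γ (Lm (α a) ∘L φ) = Lm a ∘L γ φ) ∧ (∀ a φ, γ (φ ∘L Lm (α a)) = γ φ ∘L Lm a) ∧
      ∀ c, γ (Lm c) = Lm (wlim (hyperfilter ℕ) fun N =>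
        ((N + 1 : ℕ) : ℂ)⁻¹ • ∑ i ∈ Finset.range (N + 1), star (s i) * c * s i) := by
  have hp := hz.1
  have hn := Gamma_norm_gammaN hp hs
  have hnx : ∀ φ x N, ‖gammaN s N φ x‖ ≤ ‖φ‖ * ‖x‖ := fun φ x N =>
    ((gammaN s N φ).le_opNorm x).trans (by gcongr; exact hn N φ)
  let γ : (Alg M →L[ℂ] Alg M) →L[ℂ] (Alg M →L[ℂ] Alg M) := LinearMap.mkContinuous
    { toFun := fun φ => wlimL (hyperfilter ℕ) (fun N => gammaN s N φ) ‖φ‖ (fun N => hn N φ)
      map_add' := fun φ φ' => by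
        ext1 x
        rw [add_apply, wlimL_apply, wlimL_apply, wlimL_apply,
          ← wlim_add _ (hnx φ x) (hnx φ' x)]
        congr 1
        funext N
        simp only [gammaN_apply, add_apply, add_mul, mul_add,
          Finset.sum_add_distrib, smul_add]
      map_smul' := fun c φ => by
        ext1 x
        rw [RingHom.id_apply, smul_apply, wlimL_apply, wlimL_apply,
          ← wlim_smul _ (hnx φ x)]
        congr 1
        funext N
        simp only [gammaN_apply, smul_apply, smul_mul_assoc, mul_smul_comm,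
          ← Finset.smul_sum]
        rw [smul_comm] } 1
    (fun φ => by rw [one_mul]; exact norm_wlimL_le _ _ _ (fun N => hn N φ))
  have hγ : ∀ φ x, γ φ x = wlim (hyperfilter ℕ) fun N => gammaN s N φ x := fun φ x => rfl
  refine ⟨γ, LinearMap.mkContinuous_norm_le _ zero_le_one _,
    fun φ => ⟨‖φ‖, fun κ σ _ _ X hX ζ => ?_⟩, fun a φ => ?_, fun a φ => ?_, fun c => ?_⟩
  · set η : κ → H := fun k => ∑ l, (γ φ (X k l) : H →L[ℂ] H) (ζ l) with hη
    have hS : 0 ≤ ∑ k, ‖η k‖ ^ 2 := Finset.sum_nonneg fun i _ => by positivity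
    have hZ : 0 ≤ ∑ l, ‖ζ l‖ ^ 2 := Finset.sum_nonneg fun i _ => by positivity
    have ht : Tendsto (fun N => ∑ k, ∑ l, ⟪η k, (gammaN s N φ (X k l) : H →L[ℂ] H) (ζ l)⟫_ℂ)
        (hyperfilter ℕ) (𝓝 (∑ k, ∑ l, ⟪η k, (γ φ (X k l) : H →L[ℂ] H) (ζ l)⟫_ℂ)) :=
      tendsto_finsetSum _ fun k _ => tendsto_finsetSum _ fun l _ =>
        tendsto_inner_wlim _ (hnx φ (X k l)) _ _
    have h1 : ‖∑ k, ∑ l, ⟪η k, (γ φ (X k l) : H →L[ℂ] H) (ζ l)⟫_ℂ‖ ≤
        ‖φ‖ * √(∑ k, ‖η k‖ ^ 2) * √(∑ l, ‖ζ l‖ ^ 2) := by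
      refine le_of_tendsto ht.norm ?_
      filter_upwards [Gamma_eventually (Fintype.card κ), Gamma_eventually (Fintype.card σ)]
        with N a b
      exact norm_inner_gammaN_le hp hs φ (by omega) (by omega) X hX η ζ
    have h2 : ∑ k, ∑ l, ⟪η k, (γ φ (X k l) : H →L[ℂ] H) (ζ l)⟫_ℂ =
        ((∑ k, ‖η k‖ ^ 2 : ℝ) : ℂ) := by
      push_cast
      refine Finset.sum_congr rfl fun k _ => ?_
      rw [← inner_sum, inner_self_eq_norm_sq_to_K]
      rfl
    rw [h2, Complex.norm_real, Real.norm_of_nonneg hS, mul_right_comm] at h1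
    have h3 := Gamma_le_of_le_sqrt hS h1
    rwa [mul_pow, Real.sq_sqrt hZ] at h3
  · ext1 x
    rw [ContinuousLinearMap.comp_apply, hγ, hγ, ContinuousLinearMap.mul_apply',
      ← wlim_mul_left _ (hnx φ x)]
    congr 1
    funext N
    simp only [gammaN_apply, ContinuousLinearMap.comp_apply, ContinuousLinearMap.mul_apply',
      mul_smul_comm, Finset.mul_sum]
    congr 1
    refine Finset.sum_congr rfl fun i _ => Finset.sum_congr rfl fun j _ => ?_
    rw [mul_assoc, ← mul_assoc, h₂, mul_assoc]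
  · ext1 x
    rw [ContinuousLinearMap.comp_apply, ContinuousLinearMap.mul_apply', hγ, hγ]
    refine congrArg (wlim _) (funext fun N => ?_)
    refine (gammaN_apply ..).trans (Eq.trans ?_ (gammaN_apply s N φ (a * x)).symm)
    refine congrArg _ (Finset.sum_congr rfl fun i _ => Finset.sum_congr rfl fun j _ => ?_)
    change star (s i) * (φ (α a * (s i * (x * star (s j)))) * s j) =
      star (s i) * (φ (s i * (a * x * star (s j))) * s j)
    rw [← mul_assoc (α a), h₁, mul_assoc, mul_assoc]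
  · ext1 x
    have hb : ∀ N : ℕ, ‖((N + 1 : ℕ) : ℂ)⁻¹ • ∑ i ∈ Finset.range (N + 1), star (s i) * c * s i‖ ≤
        ‖c‖ := by
      intro N
      have h1 : ∀ i, ‖star (s i) * c * s i‖ ≤ ‖c‖ := fun i => by
        have a := Gamma_norm_s hp hs i
        have a' : ‖star (s i)‖ ≤ 1 := by rwa [norm_star]
        exact (norm_mul_le _ _).trans ((mul_le_of_le_one_right (norm_nonneg _) a).trans
          ((norm_mul_le _ _).trans (mul_le_of_le_one_left (norm_nonneg _) a')))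
      rw [norm_smul, norm_inv, Complex.norm_natCast, inv_mul_le_iff₀ (by positivity)]
      refine (norm_sum_le_of_le _ (fun a _ => h1 a)).trans (le_of_eq ?_)
      simp only [Finset.sum_const, Finset.card_range, nsmul_eq_mul]
    rw [hγ, ContinuousLinearMap.mul_apply', ← wlim_mul_right _ hb]
    congr 1
    funext N
    have e : ∀ i j, star (s i) * (c * (s i * (x * star (s j))) * s j) =
        star (s i) * c * s i * x := by
      intro i j
      simp only [mul_assoc]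
      rw [hs.orth, if_pos rfl, (hz.2 x).eq, ← mul_assoc (s i), Gamma_mul_z hp hs]
    have hN : ((N + 1 : ℕ) : ℂ) ≠ 0 := by exact_mod_cast Nat.succ_ne_zero N
    simp only [gammaN_apply, ContinuousLinearMap.mul_apply', e, Finset.sum_const,
      Finset.card_range, smul_mul_assoc, Finset.sum_mul]
    rw [← Finset.smul_sum, ← Nat.cast_smul_eq_nsmul ℂ, smul_smul]
    congr 1
    field_simp

theorem VanN_Q : ∃ (α : Alg M →L[ℂ] Alg M) (w : ℕ → Alg M)
    (Q : (Alg M →L[ℂ] Alg M) →L[ℂ] Alg M), ‖Q‖ ≤ 3 ∧ ‖α‖ ≤ 1 ∧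
    (∀ x y, α (x * y) = α x * α y) ∧
    (∀ i x, α x * w i = w i * x) ∧ (∀ i x, star (w i) * α x = x * star (w i)) ∧
    (∀ i, star (w i) * w i = 1) ∧ (∀ a φ, Q (Lm (α a) ∘L φ) = a * Q φ) ∧
    (∀ a φ, Q (φ ∘L Lm (α a)) = Q φ * a) ∧
    ∀ c, Q (Lm c) = wlim (hyperfilter ℕ) fun N =>
      ((N + 1 : ℕ) : ℂ)⁻¹ • ∑ i ∈ Finset.range (N + 1), star (w i) * c * w i := by
  obtain ⟨𝓕₁, 𝓕₂, hB₁, hB₂, hab, hna, horth, hno⟩ := exists_decomp (M := M)
  obtain ⟨P₁, hP₁⟩ := avgZ_I hB₁ hab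
  obtain ⟨P₂, hP₂⟩ := avgZ_II hB₂ hna
  have hz₁ := cen_central (M := M) 𝓕₁
  have hz₂ := cen_central (M := M) 𝓕₂
  set z₁ := cen M 𝓕₁
  set z₂ := cen M 𝓕₂
  have horth' : z₂ * z₁ = 0 := by rw [(hz₁.2 z₂).eq, horth]
  have h11 : z₁ * z₁ = z₁ := hz₁.1.isIdempotentElem.eq
  have h22 : z₂ * z₂ = z₂ := hz₂.1.isIdempotentElem.eq
  have hz : IsCentralProj M (1 - z₁ - z₂) := by
    refine ⟨⟨?_, ?_⟩, fun a => ((Commute.one_right a).sub_right (hz₁.2 a)).sub_right (hz₂.2 a)⟩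
    · simp only [IsIdempotentElem, sub_mul, mul_sub, one_mul, mul_one, h11, h22, horth, horth']
      abel
    · exact ((IsSelfAdjoint.one _).sub hz₁.1.isSelfAdjoint).sub hz₂.1.isSelfAdjoint
  set z := 1 - z₁ - z₂ with hzdef
  have hsum : 1 - z = z₁ + z₂ := by rw [hzdef]; abel
  have hzz : z * z = z := hz.1.isIdempotentElem.eq
  obtain ⟨P₃, hP₃⟩ := avgZ_III hz hno
  obtain ⟨s, hs⟩ := exists_isoms hz.1 hno
  obtain ⟨α, hα, hm, ha₁, ha₂, ha₃⟩ := exists_alpha hz hs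
  obtain ⟨γ, hγn, hcb, hγ₁, hγ₂, hγ₃⟩ := VanN_gamma hz hs ha₁ ha₂
  have hc1 : ∀ a, Commute a (1 - z) := fun a => (Commute.one_right a).sub_right (hz.2 a)
  have hs0 : ∀ i, (1 - z) * s i = 0 := fun i => by rw [sub_mul, one_mul, hs.left, sub_self]
  have hst : star (1 - z) = 1 - z := by rw [star_sub, star_one, hz.1.isSelfAdjoint.star_eq]
  have hs0' : ∀ i, star (s i) * (1 - z) = 0 := fun i => by
    rw [← hst, ← star_mul, hs0, star_zero]
  have h1z : (1 - z) * (1 - z) = 1 - z := hz.1.one_sub.isIdempotentElem.eq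
  have hαz : ∀ {y : Alg M}, (1 - z) * y = y → ∀ a, α a * y = a * y := fun {y} hy a => by
    rw [← hy, ← mul_assoc, ha₃, mul_assoc]
  have hzα : ∀ {y : Alg M}, (1 - z) * y = y → ∀ a, y * α a = y * a := fun {y} hy a => by
    rw [← hy, ← (hc1 y).eq, mul_assoc, ← (hc1 (α a)).eq, ha₃, (hc1 a).eq, ← mul_assoc]
  have hy₁ : ∀ φ, (1 - z) * P₁ φ = P₁ φ := fun φ => by
    rw [← hP₁.eq_mul hz₁ φ, ← mul_assoc, hsum, add_mul, h11, horth', add_zero]
  have hy₂ : ∀ φ, (1 - z) * P₂ φ = P₂ φ := fun φ => by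
    rw [← hP₂.eq_mul hz₂ φ, ← mul_assoc, hsum, add_mul, h22, horth, zero_add]
  have hsn : ∀ i, ‖s i‖ ≤ 1 := fun i => by
    have h1 := CStarRing.norm_star_mul_self (x := s i)
    rw [hs.orth, if_pos rfl] at h1
    have := hz.1.norm_le
    nlinarith [norm_nonneg (s i)]
  refine ⟨α, fun i => 1 - z + s i, P₁ + P₂ + P₃ ∘L γ, ?_, hα, hm, fun i x => ?_, fun i x => ?_,
    fun i => ?_, fun a φ => ?_, fun a φ => ?_, fun c => ?_⟩
  · have e1 := norm_add₃_le (a := P₁) (b := P₂) (c := P₃ ∘L γ)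
    have e2 := (ContinuousLinearMap.opNorm_comp_le P₃ γ).trans
      (mul_le_one₀ hP₃.norm_le (norm_nonneg _) hγn)
    linarith [hP₁.norm_le, hP₂.norm_le]
  · rw [mul_add, ha₁, ha₃, add_mul, (hc1 x).eq]
  · rw [star_add, hst, add_mul, ha₂, mul_add, ← (hc1 (α x)).eq, ha₃]
  · rw [star_add, hst, add_mul, mul_add, mul_add, h1z, hs0, hs0', hs.orth, if_pos rfl]; abel
  · simp only [add_apply, ContinuousLinearMap.comp_apply, hP₁.left, hP₂.left, hγ₁, hP₃.left,
      hαz (hy₁ φ), hαz (hy₂ φ), mul_add]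
  · simp only [add_apply, ContinuousLinearMap.comp_apply, hP₁.modular φ trivial,
      hP₂.modular φ trivial, hγ₂, hP₃.modular _ (hcb φ), hzα (hy₁ φ), hzα (hy₂ φ), add_mul]
  · have hb : ∀ N : ℕ, ‖((N + 1 : ℕ) : ℂ)⁻¹ • ∑ i ∈ Finset.range (N + 1), star (s i) * c * s i‖
        ≤ ‖c‖ := fun N => by
      rw [norm_smul, norm_inv, Complex.norm_natCast, inv_mul_le_iff₀ (by positivity)]
      refine (norm_sum_le_of_le _ (n := fun _ => ‖c‖) fun i _ => ?_).trans (by simp)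
      refine (norm_mul_le _ _).trans ((mul_le_of_le_one_right (norm_nonneg _) (hsn i)).trans ?_)
      exact (norm_mul_le _ _).trans (mul_le_of_le_one_left (norm_nonneg _) (by simpa using hsn i))
    have h1 : ∀ i, star (1 - z + s i) * c * (1 - z + s i) = c * (1 - z) + star (s i) * c * s i :=
      fun i => by
        rw [star_add, hst, add_mul, add_mul, mul_add, mul_add, ← (hc1 c).eq, mul_assoc c, h1z,
          mul_assoc c, hs0, mul_assoc _ c (1 - z), (hc1 c).eq, ← mul_assoc (star (s i)), hs0']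
        simp
    have h2 : ∀ N : ℕ, ((N + 1 : ℕ) : ℂ)⁻¹ • ∑ i ∈ Finset.range (N + 1),
        star (1 - z + s i) * c * (1 - z + s i) = c * (1 - z) +
        ((N + 1 : ℕ) : ℂ)⁻¹ • ∑ i ∈ Finset.range (N + 1), star (s i) * c * s i := fun N => by
      simp only [h1, Finset.sum_add_distrib, Finset.sum_const, Finset.card_range, smul_add]
      rw [← Nat.cast_smul_eq_nsmul ℂ, smul_smul, inv_mul_cancel₀ (by exact_mod_cast N.succ_ne_zero),
        one_smul]
    simp only [add_apply, ContinuousLinearMap.comp_apply, hP₁.Lm, hP₂.Lm, hγ₃, hP₃.Lm, h2]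
    rw [wlim_add _ (fun _ => le_rfl) hb, R121.wlim_const, ← wlim_mul_right _ hb, hsum, mul_add]
    congr 2
    funext N
    rw [smul_mul_assoc, Finset.sum_mul]
    congr 1
    refine Finset.sum_congr rfl fun i _ => ?_
    rw [mul_assoc _ (s i), (hz.2 (s i)).eq, hs.left]

theorem VanN_last {A : Type*} [NormedRing A] [NormedAlgebra ℂ A] {α : A →L[ℂ] A} (hα : ‖α‖ ≤ 1)
    (hm : ∀ x y, α (x * y) = α x * α y)
    (Q : (A →L[ℂ] A) →L[ℂ] A) (h₁ : ∀ a φ, Q (Lm (α a) ∘L φ) = a * Q φ)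
    (h₂ : ∀ a φ, Q (φ ∘L Lm (α a)) = Q φ * a) {n : ℕ} (f : Coch A (n + 1))
    (hf : ∀ a, hochschildDiff f a = 0) :
    ∃ g : Coch A n, ‖g‖ ≤ ‖Q‖ * ‖f‖ ∧ ∀ a, hochschildDiff g a = Q (Lm (f fun i => α (a i))) := by
  let F : ContinuousMultilinearMap ℂ (fun _ : Fin n => A) (A →L[ℂ] A) :=
    (ContinuousMultilinearMap.curryRight (Ei := fun _ : Fin (n + 1) => A) f).compContinuousLinearMap
      fun _ => α
  have hF : ∀ a x, F a x = f (Fin.snoc (fun i => α (a i)) x) := fun _ _ => rfl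
  refine ⟨((-1 : ℤ) ^ (n + 1)) • Q.compContinuousMultilinearMap F, ?_, fun a => ?_⟩
  · have h1 : ‖F‖ ≤ ‖f‖ := by
      refine (ContinuousMultilinearMap.norm_compContinuousLinearMap_le _ _).trans ?_
      rw [ContinuousMultilinearMap.curryRight_norm]
      exact mul_le_of_le_one_right (norm_nonneg _)
        (Finset.prod_le_one (fun _ _ => norm_nonneg _) fun _ _ => hα)
    have h2 := (ContinuousLinearMap.norm_compContinuousMultilinearMap_le Q F).trans
      (mul_le_mul_of_nonneg_left h1 (norm_nonneg _))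
    rcases neg_one_pow_eq_or ℤ (n + 1) with h | h
    · rwa [h, one_smul]
    · rwa [h, neg_one_smul, norm_neg]
  have hmerge : ∀ j : Fin n, mergeArgs j (fun i => α (a i)) = fun i => α (mergeArgs j a i) := by
    intro j; funext i
    simp only [mergeArgs]
    split_ifs <;> simp [hm]
  have key : Lm (α (a 0)) ∘L F (fun i => a i.succ) +
      (∑ j : Fin n, ((-1 : ℤ) ^ (j.val + 1)) • F (mergeArgs j a)) +
      ((-1 : ℤ) ^ (n + 1)) • (F (fun i => a i.castSucc) ∘L Lm (α (a (Fin.last n)))) =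
      ((-1 : ℤ) ^ (n + 1)) • Lm (f fun i => α (a i)) := by
    ext x
    have h := hf (Fin.snoc (fun i => α (a i)) x)
    have e1 : (fun i : Fin (n + 1) =>
        (Fin.snoc (fun i => α (a i)) x : Fin (n + 2) → A) i.succ) =
        Fin.snoc (fun i : Fin n => α (a i.succ)) x := by
      funext i
      refine Fin.lastCases (by simp) (fun i => ?_) i
      simp only [Fin.succ_castSucc, Fin.snoc_castSucc]
    have e2 : (Fin.snoc (fun i => α (a i)) x : Fin (n + 2) → A) 0 = α (a 0) := by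
      rw [← Fin.castSucc_zero, Fin.snoc_castSucc]
    rw [hochschildDiff, Fin.sum_univ_castSucc, e1, e2, mergeArgs_last] at h
    simp only [mergeArgs_castSucc, hmerge, Fin.snoc_castSucc, Fin.snoc_last, Fin.val_castSucc,
      Fin.val_last, pow_succ (-1 : ℤ) (n + 1), mul_neg, mul_one, neg_smul] at h
    simp only [add_apply, smul_apply, sum_apply, ContinuousLinearMap.comp_apply, hF,
      ContinuousLinearMap.mul_apply']
    rw [← add_neg_eq_zero, ← h]
    abel
  have h := congrArg Q key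
  simp only [map_add, map_sum, map_zsmul, h₁, h₂] at h
  have h3 : Q (Lm (f fun i => α (a i))) =
      ((-1 : ℤ) ^ (n + 1)) • ((-1 : ℤ) ^ (n + 1)) • Q (Lm (f fun i => α (a i))) := by
    rw [smul_smul, ← mul_pow]; simp
  rw [h3, ← h, hochschildDiff]
  simp only [smul_apply, ContinuousLinearMap.compContinuousMultilinearMap_coe,
    Function.comp_apply, smul_add, Finset.smul_sum, mul_smul_comm, smul_mul_assoc, smul_smul,
    mul_comm ((-1 : ℤ) ^ (n + 1))]

theorem VanN_wlim {X : Type*} (𝒰 : Ultrafilter X) {n : ℕ} (g : X → Coch (Alg M) n)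
    {C : ℝ} (hC0 : 0 ≤ C) (hg : ∀ x, ‖g x‖ ≤ C) :
    ∃ G : Coch (Alg M) n, ‖G‖ ≤ C ∧
      ∀ a, hochschildDiff G a = wlim 𝒰 fun x => hochschildDiff (g x) a := by
  have hb : ∀ (a : Fin n → Alg M) x, ‖g x a‖ ≤ C * ∏ i, ‖a i‖ := fun a x =>
    (g x).le_of_opNorm_le (hg x) a
  let G₀ : MultilinearMap ℂ (fun _ : Fin n => Alg M) (Alg M) :=
    { toFun := fun a => wlim 𝒰 fun x => g x a
      map_update_add' := fun a i u v => by
        simp only [ContinuousMultilinearMap.map_update_add]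
        exact wlim_add 𝒰 (hb _) (hb _)
      map_update_smul' := fun a i c u => by
        simp only [ContinuousMultilinearMap.map_update_smul]
        exact wlim_smul 𝒰 (hb _) c }
  refine ⟨G₀.mkContinuous C fun a => norm_wlim_le 𝒰 (hb a),
    MultilinearMap.mkContinuous_norm_le _ hC0 _, fun a => ?_⟩
  have hC : ∃ C', ∀ x, ‖hochschildDiff (g x) a‖ ≤ C' := by
    refine ⟨‖a 0‖ * (C * ∏ i : Fin n, ‖a i.succ‖) + (∑ j : Fin n, C * ∏ i, ‖mergeArgs j a i‖) +
      C * (∏ i : Fin n, ‖a i.castSucc‖) * ‖a (Fin.last n)‖, fun x => ?_⟩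
    have hs : ∀ (k : ℕ) (y : Alg M), ‖((-1 : ℤ) ^ k) • y‖ = ‖y‖ := fun k y => by
      rcases neg_one_pow_eq_or ℤ k with h | h <;> simp [h]
    refine norm_add_le_of_le (norm_add_le_of_le ((norm_mul_le _ _).trans ?_)
      (norm_sum_le_of_le _ fun j _ => ?_)) ?_
    · gcongr; exact hb _ x
    · rw [hs]; exact hb _ x
    · rw [hs]; exact (norm_mul_le _ _).trans (by gcongr; exact hb _ x)
  obtain ⟨C', hC'⟩ := hC
  refine (wlim_eq 𝒰 hC' fun η ξ => ?_).symm
  simp only [← vecF_apply, hochschildDiff, map_add, map_sum, map_zsmul]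
  refine Tendsto.add (Tendsto.add ?_ ?_) ?_
  · simp only [vecF_apply, Alg.mul_apply, ← Alg.inner_star_left (a 0)]
    exact tendsto_inner_wlim 𝒰 (hb fun i => a i.succ) (((star (a 0) : Alg M) : H →L[ℂ] H) η) ξ
  · exact tendsto_finsetSum _ fun j _ =>
      (tendsto_wlim 𝒰 (hb _) (isNormal_vecF η ξ)).const_smul _
  · exact (tendsto_inner_wlim 𝒰 (hb _) η ((a (Fin.last n) : H →L[ℂ] H) ξ)).const_smul _

end

/-- `R121.vanishing` with a norm bound. Recipe: copy the proofs of `R121.exists_gamma` (add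
`‖γ‖ ≤ 1`, from `Gamma_norm_gammaN` and `norm_wlimL_le`), `R121.exists_Q` (add `‖Q‖ ≤ 3`, from
`AvgZ.norm_le`), `R121.exists_last_slot` (add `‖g‖ ≤ ‖Q‖ ‖f‖` for `‖α‖ ≤ 1`),
`R121.exists_wlim_coch` (add `‖G‖ ≤ C`) and `R121.vanishing` into this file under new names
(the R121 files are frozen). -/
theorem vanishing_norm {n : ℕ} (f : Coch (Alg M) (n + 1)) (hf : ∀ a, hochschildDiff f a = 0) :
    ∃ g : Coch (Alg M) n, ‖g‖ ≤ (n + 4) * ‖f‖ ∧ ∀ a, hochschildDiff g a = f a := by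
  obtain ⟨α, w, Q, hQ, hα, hm, h₁, h₂, h₃, hQ₁, hQ₂, hQ₃⟩ := VanN_Q (M := M)
  have hw : ∀ i, ‖w i‖ ≤ 1 := fun i => by
    have h1 := CStarRing.norm_star_mul_self (x := w i)
    rw [h₃] at h1
    have := (IsStarProjection.one (Alg M)).norm_le
    nlinarith [norm_nonneg (w i)]
  choose g hg hg' using fun i => exists_homotopy hα hm (hw i) (by simpa using hw i) (h₁ i) (h₂ i)
    (h₃ i) f hf
  obtain ⟨g₁, hn₁, hg₁⟩ := VanN_last hα hm Q hQ₁ hQ₂ f hf
  obtain ⟨g₂, hn₂, hg₂⟩ := VanN_wlim (hyperfilter ℕ)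
    (fun N : ℕ => ((N + 1 : ℕ) : ℂ)⁻¹ • ∑ i ∈ Finset.range (N + 1), g i) (C := (n + 1) * ‖f‖)
    (by positivity) fun N => by
      rw [norm_smul, norm_inv, Complex.norm_natCast, inv_mul_le_iff₀ (by positivity)]
      exact (norm_sum_le_of_le _ fun i _ => hg i).trans (by simp)
  refine ⟨g₂ + g₁, ?_, fun a => ?_⟩
  · have := mul_le_mul_of_nonneg_right hQ (norm_nonneg f)
    linarith [norm_add_le g₂ g₁]
  set c := f fun i => α (a i)
  have hb : ∀ N : ℕ, ‖((N + 1 : ℕ) : ℂ)⁻¹ • ∑ i ∈ Finset.range (N + 1), star (w i) * c * w i‖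
      ≤ ‖c‖ := fun N => by
    rw [norm_smul, norm_inv, Complex.norm_natCast, inv_mul_le_iff₀ (by positivity)]
    refine (norm_sum_le_of_le _ (n := fun _ => ‖c‖) fun i _ => ?_).trans (by simp)
    refine (norm_mul_le _ _).trans ((mul_le_of_le_one_right (norm_nonneg _) (hw i)).trans ?_)
    exact (norm_mul_le _ _).trans (mul_le_of_le_one_left (norm_nonneg _) (by simpa using hw i))
  have h4 : ∀ N : ℕ, hochschildDiff (((N + 1 : ℕ) : ℂ)⁻¹ • ∑ i ∈ Finset.range (N + 1), g i :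
      Coch (Alg M) n) a = f a -
      ((N + 1 : ℕ) : ℂ)⁻¹ • ∑ i ∈ Finset.range (N + 1), star (w i) * c * w i := fun N => by
    simp only [hochschildDiff_avg, hg', Finset.sum_sub_distrib, Finset.sum_const,
      Finset.card_range, smul_sub]
    rw [← Nat.cast_smul_eq_nsmul ℂ, smul_smul, inv_mul_cancel₀ (by exact_mod_cast N.succ_ne_zero),
      one_smul]
  rw [hochschildDiff_add, hg₁, hg₂, hQ₃]
  simp only [h4]
  rw [wlim_sub _ (fun _ => le_rfl) hb, R121.wlim_const, sub_add_cancel]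

/-- The coboundary of a 1-cochain. -/
def d1 {A : Type*} [Ring A] (a : A → A) (x y : A) : A := x * a y - a (x * y) + a x * y

/-- The coboundary of a 2-cochain. -/
def d2 {A : Type*} [Ring A] (c : A → A → A) (x y z : A) : A :=
  x * c y z - c (x * y) z + c x (y * z) - c x y * z

theorem VanN_hd1 {A : Type*} [Ring A] (g : (Fin 1 → A) → A) (a : Fin 2 → A) :
    hochschildDiff g a = d1 (fun x => g ![x]) (a 0) (a 1) := by
  have e1 : (fun i : Fin 1 => a i.succ) = ![a 1] := by funext i; fin_cases i; rfl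
  have e2 : (fun i : Fin 1 => a i.castSucc) = ![a 0] := by funext i; fin_cases i; rfl
  have e3 : mergeArgs 0 a = ![a 0 * a 1] := by funext i; fin_cases i; rfl
  simp only [hochschildDiff, e1, e2, Fin.sum_univ_succ, Fin.sum_univ_zero, e3, d1]
  simp [sub_eq_add_neg]

theorem VanN_hd2 {A : Type*} [Ring A] (g : (Fin 2 → A) → A) (a : Fin 3 → A) :
    hochschildDiff g a = d2 (fun x y => g ![x, y]) (a 0) (a 1) (a 2) := by
  have e1 : (fun i : Fin 2 => a i.succ) = ![a 1, a 2] := by funext i; fin_cases i <;> rfl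
  have e2 : (fun i : Fin 2 => a i.castSucc) = ![a 0, a 1] := by funext i; fin_cases i <;> rfl
  have e3 : mergeArgs 0 a = ![a 0 * a 1, a 2] := by funext i; fin_cases i <;> rfl
  have e4 : mergeArgs 1 a = ![a 0, a 1 * a 2] := by funext i; fin_cases i <;> rfl
  simp only [hochschildDiff, e1, e2, Fin.sum_univ_two, e3, e4, d2]
  simp [sub_eq_add_neg, add_assoc]

theorem VanN_hd3 {A : Type*} [Ring A] (c : A →+ A →+ A) (a : Fin 4 → A) :
    hochschildDiff (fun v : Fin 3 → A => d2 (fun x y => c x y) (v 0) (v 1) (v 2)) a = 0 := by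
  have e3 : mergeArgs 0 a = ![a 0 * a 1, a 2, a 3] := by funext i; fin_cases i <;> rfl
  have e4 : mergeArgs 1 a = ![a 0, a 1 * a 2, a 3] := by funext i; fin_cases i <;> rfl
  have e5 : mergeArgs 2 a = ![a 0, a 1, a 2 * a 3] := by funext i; fin_cases i <;> rfl
  simp only [hochschildDiff, Fin.sum_univ_three, e3, e4, e5, d2]
  simp
  noncomm_ring

theorem VanN_abs {A : Type*} [NormedRing A] [NormedAlgebra ℂ A]
    (hv : ∀ (n : ℕ) (f : Coch A (n + 1)), (∀ a, hochschildDiff f a = 0) →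
      ∃ g : Coch A n, ‖g‖ ≤ (n + 4) * ‖f‖ ∧ ∀ a, hochschildDiff g a = f a)
    (c : A →L[ℂ] A →L[ℂ] A) {κ : ℝ} (hκ : 0 ≤ κ)
    (h : ∀ x y z, ‖d2 (fun x y => c x y) x y z‖ ≤ κ * ‖x‖ * ‖y‖ * ‖z‖) :
    ∃ a : A →L[ℂ] A, ‖a‖ ≤ 5 * (‖c‖ + 6 * κ) ∧
      ∀ x y, ‖c x y - d1 a x y‖ ≤ 6 * κ * ‖x‖ * ‖y‖ := by
  let c₂ : Coch A 2 := MultilinearMap.mkContinuous
    (MultilinearMap.mk' (fun v => c (v 0) (v 1)) (fun v i x y => by fin_cases i <;> simp)
      fun v i r x => by fin_cases i <;> simp) ‖c‖ fun v => by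
    rw [Fin.prod_univ_two, ← mul_assoc]
    exact c.le_opNorm₂ _ _
  have hc₂ : ‖c₂‖ ≤ ‖c‖ := MultilinearMap.mkContinuous_norm_le _ c.opNorm_nonneg _
  let f : Coch A 3 := MultilinearMap.mkContinuous
    (MultilinearMap.mk' (fun v => d2 (fun x y => c x y) (v 0) (v 1) (v 2))
      (fun v i x y => by fin_cases i <;> simp [d2, mul_add, add_mul] <;> abel)
      fun v i r x => by fin_cases i <;> simp [d2, smul_add, smul_sub]) κ fun v => by
    rw [Fin.prod_univ_three, ← mul_assoc, ← mul_assoc]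
    exact h _ _ _
  have hf : ‖f‖ ≤ κ := MultilinearMap.mkContinuous_norm_le _ hκ _
  obtain ⟨b, hb, hb'⟩ := hv 2 f fun a =>
    VanN_hd3 (AddMonoidHom.mk' (fun x => (c x : A →+ A)) fun x y => by ext; simp) a
  have hb6 : ‖b‖ ≤ 6 * κ := hb.trans (by push_cast; linarith)
  obtain ⟨g, hg, hg'⟩ := hv 1 (c₂ - b) fun a => by
    have e := hochschildDiff_add (c₂ - b) b a
    rw [sub_add_cancel, hb', VanN_hd2 c₂] at e
    exact left_eq_add.1 (e.trans (add_comm _ _))
  refine ⟨continuousMultilinearCurryFin1 ℂ A A g, ?_, fun x y => ?_⟩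
  · rw [LinearIsometryEquiv.norm_map]
    have := norm_sub_le c₂ b
    refine hg.trans ?_
    push_cast
    linarith
  · have e := hg' ![x, y]
    rw [VanN_hd1] at e
    have e2 : c x y - d1 (continuousMultilinearCurryFin1 ℂ A A g) x y = b ![x, y] := by
      have e3 : (continuousMultilinearCurryFin1 ℂ A A g : A → A) =
          fun x => g ![x] := funext fun x => by
        rw [continuousMultilinearCurryFin1_apply]
        congr 1
        funext i
        fin_cases i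
        rfl
      rw [e3, sub_eq_iff_eq_add, ← sub_eq_iff_eq_add']
      exact e.symm
    rw [e2]
    have := b.le_of_opNorm_le hb6 ![x, y]
    rwa [Fin.prod_univ_two, ← mul_assoc] at this

/-- Approximate 2-cocycles are close to coboundaries. Recipe: `f = d2 c` is a 3-cocycle
(`d3 ∘ d2 = 0`, direct computation); `vanishing_norm` (n = 2) gives `b` with `d2 b = d2 c`,
`‖b‖ ≤ 6 κ`; `c - b` is a 2-cocycle, `vanishing_norm` (n = 1) gives `a`. Translate between
`Coch A 2`, `Coch A 3` and curried maps with `ContinuousMultilinearMap.curryLeft` /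
`ContinuousLinearMap.uncurryLeft`, `continuousMultilinearCurryFin1`, or `MultilinearMap.mkContinuous`. -/
theorem approx_cocycle (c : Alg M →L[ℂ] Alg M →L[ℂ] Alg M) {κ : ℝ} (hκ : 0 ≤ κ)
    (h : ∀ x y z, ‖d2 (fun x y => c x y) x y z‖ ≤ κ * ‖x‖ * ‖y‖ * ‖z‖) :
    ∃ a : Alg M →L[ℂ] Alg M, ‖a‖ ≤ 5 * (‖c‖ + 6 * κ) ∧
      ∀ x y, ‖c x y - d1 a x y‖ ≤ 6 * κ * ‖x‖ * ‖y‖ := by
  exact VanN_abs (fun _ => vanishing_norm) c hκ h

end

end Crest.Agent.R78
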